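import Mathlib

/-!
Conditional expectation tools on an arbitrary probability space. Statements fixed.
-/

open MeasureTheory Filter Topology

noncomputable section
namespace Vale.Agent.Lib.P161.Crit

variable {Ω : Type} {m m0 : MeasurableSpace Ω} {μ : Measure Ω} [IsProbabilityMeasure μ]

lemma ce_abs_le (hm : m ≤ m0) {Z : Ω → ℝ} {B : ℝ} (hZ : ∀ᵐ ω ∂μ, |Z ω| ≤ B) :
    ∀ᵐ ω ∂μ, |μ[Z | m] ω| ≤ B := by
  obtain ⟨ω, hω⟩ := hZ.exists
  have hB : 0 ≤ B := (abs_nonneg _).trans hω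
  have := ae_bdd_condExp_of_ae_bdd (m := m) (μ := μ) (R := ⟨B, hB⟩) (f := Z) hZ
  exact this

lemma ce_nonneg {Z : Ω → ℝ} (hZ : 0 ≤ᵐ[μ] Z) : 0 ≤ᵐ[μ] μ[Z | m] :=
  condExp_nonneg hZ

/-- an a.e. bounded a.e.-strongly measurable function is integrable -/
private lemma integrable_of_bdd {f : Ω → ℝ} {C : ℝ} (hf : AEStronglyMeasurable f μ)
    (h : ∀ᵐ ω ∂μ, |f ω| ≤ C) : Integrable f μ :=
  Integrable.of_bound hf C (by simpa [Real.norm_eq_abs] using h)

private lemma integrable_of_bound' {Z : Ω → ℝ} {B : ℝ} (hZm : Measurable Z)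
    (hZ : ∀ ω, |Z ω| ≤ B) : Integrable Z μ :=
  integrable_of_bdd hZm.aestronglyMeasurable (Eventually.of_forall hZ)

/-- pull out an a.e. bounded `m`-strongly measurable factor -/
private lemma integral_mul_aux (hm : m ≤ m0) {Z c : Ω → ℝ} {C : ℝ} (hZ : Integrable Z μ)
    (hc : StronglyMeasurable[m] c) (hcB : ∀ᵐ ω ∂μ, |c ω| ≤ C) :
    ∫ ω, c ω * μ[Z | m] ω ∂μ = ∫ ω, c ω * Z ω ∂μ := by
  have h1 : μ[c * Z | m] =ᵐ[μ] c * μ[Z | m] :=
    condExp_stronglyMeasurable_mul_of_bound hm hc hZ C (by simpa [Real.norm_eq_abs] using hcB)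
  calc ∫ ω, c ω * μ[Z | m] ω ∂μ = ∫ ω, μ[c * Z | m] ω ∂μ := by
        apply integral_congr_ae
        filter_upwards [h1] with ω hω
        rw [hω]
        rfl
    _ = ∫ ω, (c * Z) ω ∂μ := integral_condExp hm
    _ = ∫ ω, c ω * Z ω ∂μ := rfl

/-- pull out of a bounded `m`-measurable factor in the integral -/
lemma ce_integral_mul (hm : m ≤ m0) {Z c : Ω → ℝ} {B : ℝ} (hZm : Measurable Z)
    (hZ : ∀ ω, |Z ω| ≤ B) (hc : Measurable[m] c) (hcB : ∀ ω, |c ω| ≤ B) :
    ∫ ω, c ω * μ[Z | m] ω ∂μ = ∫ ω, c ω * Z ω ∂μ :=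
  integral_mul_aux hm (integrable_of_bound' hZm hZ) hc.stronglyMeasurable
    (Eventually.of_forall hcB)

/-- the projection is the best `m`-measurable approximation -/
lemma ce_min (hm : m ≤ m0) {Z c : Ω → ℝ} {B : ℝ} (hZm : Measurable Z) (hZ : ∀ ω, |Z ω| ≤ B)
    (hc : Measurable[m] c) (hcB : ∀ ω, |c ω| ≤ B) :
    ∫ ω, (Z ω - μ[Z | m] ω) ^ 2 ∂μ ≤ ∫ ω, (Z ω - c ω) ^ 2 ∂μ := by
  set E := μ[Z | m] with hE
  have hEB : ∀ᵐ ω ∂μ, |E ω| ≤ B := ce_abs_le hm (Eventually.of_forall hZ)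
  have hEs : StronglyMeasurable[m] E := stronglyMeasurable_condExp
  have hEm : StronglyMeasurable E := hEs.mono hm
  have hcm : Measurable c := hc.mono hm le_rfl
  have hZint := integrable_of_bound' (μ := μ) hZm hZ
  have hZ0 : 0 ≤ B := (abs_nonneg _).trans (hZ (Classical.choice (μ.nonempty_of_neZero)))
  -- the cross term vanishes
  have hdiff : ∀ᵐ ω ∂μ, |E ω - c ω| ≤ 2 * B := by
    filter_upwards [hEB] with ω hω
    have := hcB ω
    calc |E ω - c ω| ≤ |E ω| + |c ω| := abs_sub _ _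
      _ ≤ 2 * B := by linarith
  have hcross : ∫ ω, (E ω - c ω) * (Z ω - E ω) ∂μ = 0 := by
    have h1 := integral_mul_aux (μ := μ) hm hZint (hEs.sub hc.stronglyMeasurable) hdiff
    have hi1 : Integrable (fun ω => (E ω - c ω) * Z ω) μ := by
      refine integrable_of_bdd ((hEm.sub hcm.stronglyMeasurable).mul
        hZm.stronglyMeasurable).aestronglyMeasurable (C := 2 * B * B) ?_
      filter_upwards [hdiff] with ω hω
      rw [abs_mul]
      exact mul_le_mul hω (hZ ω) (abs_nonneg _) (by positivity)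
    have hi2 : Integrable (fun ω => (E ω - c ω) * E ω) μ := by
      refine integrable_of_bdd ((hEm.sub hcm.stronglyMeasurable).mul
        hEm).aestronglyMeasurable (C := 2 * B * B) ?_
      filter_upwards [hdiff, hEB] with ω hω hω'
      rw [abs_mul]
      exact mul_le_mul hω hω' (abs_nonneg _) (by positivity)
    have h2 : ∫ ω, (E ω - c ω) * (Z ω - E ω) ∂μ =
        ∫ ω, (E ω - c ω) * Z ω ∂μ - ∫ ω, (E ω - c ω) * E ω ∂μ := by
      rw [← integral_sub hi1 hi2]
      congr 1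
      ext ω
      ring
    have h1' : ∫ ω, (E ω - c ω) * E ω ∂μ = ∫ ω, (E ω - c ω) * Z ω ∂μ := h1
    rw [h2, h1']
    ring
  have hsq1 : Integrable (fun ω => (Z ω - E ω) ^ 2) μ := by
    refine integrable_of_bdd ((hZm.stronglyMeasurable.sub hEm).pow 2).aestronglyMeasurable
      (C := (2 * B) ^ 2) ?_
    filter_upwards [hEB] with ω hω
    rw [abs_pow]
    have h3 : |Z ω - E ω| ≤ 2 * B := by
      calc |Z ω - E ω| ≤ |Z ω| + |E ω| := abs_sub _ _
        _ ≤ 2 * B := by linarith [hZ ω]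
    gcongr
  have hsq2 : Integrable (fun ω => (E ω - c ω) ^ 2) μ := by
    refine integrable_of_bdd ((hEm.sub hcm.stronglyMeasurable).pow 2).aestronglyMeasurable
      (C := (2 * B) ^ 2) ?_
    filter_upwards [hdiff] with ω hω
    rw [abs_pow]
    gcongr
  have hsq3 : Integrable (fun ω => (E ω - c ω) * (Z ω - E ω)) μ := by
    refine integrable_of_bdd ((hEm.sub hcm.stronglyMeasurable).mul
      (hZm.stronglyMeasurable.sub hEm)).aestronglyMeasurable (C := 2 * B * (2 * B)) ?_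
    filter_upwards [hdiff, hEB] with ω hω hω'
    rw [abs_mul]
    refine mul_le_mul hω ?_ (abs_nonneg _) (by positivity)
    calc |Z ω - E ω| ≤ |Z ω| + |E ω| := abs_sub _ _
      _ ≤ 2 * B := by linarith [hZ ω]
  have hexp : ∫ ω, (Z ω - c ω) ^ 2 ∂μ = ∫ ω, (Z ω - E ω) ^ 2 ∂μ + ∫ ω, (E ω - c ω) ^ 2 ∂μ := by
    have : ∀ ω, (Z ω - c ω) ^ 2 =
        (Z ω - E ω) ^ 2 + ((E ω - c ω) ^ 2 + 2 * ((E ω - c ω) * (Z ω - E ω))) := by
      intro ω
      ring
    simp_rw [this]
    have hi4 : Integrable (fun ω => (E ω - c ω) ^ 2 + 2 * ((E ω - c ω) * (Z ω - E ω))) μ :=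
      hsq2.add (hsq3.const_mul 2)
    rw [integral_add hsq1 hi4, integral_add hsq2 (hsq3.const_mul 2),
      integral_const_mul, hcross]
    ring
  rw [hexp]
  have : 0 ≤ ∫ ω, (E ω - c ω) ^ 2 ∂μ := integral_nonneg fun ω => sq_nonneg _
  linarith

/-- even moments contract -/
lemma ce_moment_le (hm : m ≤ m0) {Z : Ω → ℝ} {B : ℝ} (hZm : Measurable Z) (hZ : ∀ ω, |Z ω| ≤ B)
    (p : ℕ) : ∫ ω, (μ[Z | m] ω) ^ (2 * p) ∂μ ≤ ∫ ω, (Z ω) ^ (2 * p) ∂μ := by
  have hZint := integrable_of_bound' (μ := μ) hZm hZ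
  have hconv : ConvexOn ℝ Set.univ (fun x : ℝ => x ^ (2 * p)) :=
    (Even.convexOn_pow (even_two_mul p))
  have hlsc : LowerSemicontinuous (fun x : ℝ => x ^ (2 * p)) :=
    (continuous_pow _).lowerSemicontinuous
  have hpow : Integrable (fun ω => Z ω ^ (2 * p)) μ := by
    refine integrable_of_bdd (hZm.stronglyMeasurable.pow _).aestronglyMeasurable (C := B ^ (2 * p))
      (Eventually.of_forall fun ω => ?_)
    rw [abs_pow]
    exact pow_le_pow_left₀ (abs_nonneg _) (hZ ω) _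
  have hj := hconv.map_condExp_le_univ (m := m) hm hlsc hZint hpow
  have hEB : ∀ᵐ ω ∂μ, |μ[Z | m] ω| ≤ B := ce_abs_le hm (Eventually.of_forall hZ)
  have hEm : StronglyMeasurable (μ[Z | m]) := stronglyMeasurable_condExp.mono hm
  have hpowE : Integrable (fun ω => (μ[Z | m] ω) ^ (2 * p)) μ := by
    refine integrable_of_bdd (hEm.pow _).aestronglyMeasurable (C := B ^ (2 * p)) ?_
    filter_upwards [hEB] with ω hω
    rw [abs_pow]
    exact pow_le_pow_left₀ (abs_nonneg _) hω _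
  calc ∫ ω, (μ[Z | m] ω) ^ (2 * p) ∂μ ≤ ∫ ω, μ[fun ω => Z ω ^ (2 * p) | m] ω ∂μ :=
        integral_mono_ae hpowE integrable_condExp hj
    _ = ∫ ω, (Z ω) ^ (2 * p) ∂μ := integral_condExp hm

/-- conditional Jensen for the square -/
lemma ce_sq_le (hm : m ≤ m0) {Z : Ω → ℝ} {B : ℝ} (hZm : Measurable Z) (hZ : ∀ ω, |Z ω| ≤ B) :
    ∀ᵐ ω ∂μ, (μ[Z | m] ω) ^ 2 ≤ μ[fun ω => Z ω ^ 2 | m] ω := by
  have hZint := integrable_of_bound' (μ := μ) hZm hZ
  have hconv : ConvexOn ℝ Set.univ (fun x : ℝ => x ^ 2) :=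
    (Even.convexOn_pow even_two)
  have hlsc : LowerSemicontinuous (fun x : ℝ => x ^ 2) :=
    (continuous_pow _).lowerSemicontinuous
  have hpow : Integrable (fun ω => Z ω ^ 2) μ := by
    refine integrable_of_bdd (hZm.stronglyMeasurable.pow _).aestronglyMeasurable (C := B ^ 2)
      (Eventually.of_forall fun ω => ?_)
    rw [abs_pow]
    exact pow_le_pow_left₀ (abs_nonneg _) (hZ ω) _
  exact hconv.map_condExp_le_univ (m := m) hm hlsc hZint hpow

/-- conditional Jensen for `exp (-2 x)` -/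
lemma ce_exp_le (hm : m ≤ m0) {X : Ω → ℝ} {B : ℝ} (hXm : Measurable X) (hX : ∀ ω, |X ω| ≤ B) :
    ∀ᵐ ω ∂μ, Real.exp (-2 * μ[X | m] ω) ≤ μ[fun ω => Real.exp (-2 * X ω) | m] ω := by
  have hXint := integrable_of_bound' (μ := μ) hXm hX
  have hconv : ConvexOn ℝ Set.univ (fun x : ℝ => Real.exp (-2 * x)) := by
    have h2 := convexOn_exp.comp_linearMap ((-2 : ℝ) • (LinearMap.id : ℝ →ₗ[ℝ] ℝ))
    simpa [Function.comp_def] using h2
  have hlsc : LowerSemicontinuous (fun x : ℝ => Real.exp (-2 * x)) :=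
    (by fun_prop : Continuous (fun x : ℝ => Real.exp (-2 * x))).lowerSemicontinuous
  have hpow : Integrable (fun ω => Real.exp (-2 * X ω)) μ := by
    refine integrable_of_bdd ((by fun_prop : Measurable fun ω =>
      Real.exp (-2 * X ω)).aestronglyMeasurable) (C := Real.exp (2 * B))
      (Eventually.of_forall fun ω => ?_)
    rw [abs_of_pos (Real.exp_pos _)]
    apply Real.exp_le_exp.2
    have := abs_le.1 (hX ω)
    linarith [this.1]
  exact hconv.map_condExp_le_univ (m := m) hm hlsc hXint hpow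

/-- invariance: a measure preserving map with `T⁻¹ m = m` commutes with the projection -/
lemma ce_comp (hm : m ≤ m0) {T : Ω → Ω} (hT : MeasurePreserving T μ μ)
    (hTm : m.comap T = m) {Z : Ω → ℝ} {B : ℝ} (hZm : Measurable Z)
    (hZ : ∀ ω, |Z ω| ≤ B) :
    μ[Z ∘ T | m] =ᵐ[μ] (μ[Z | m]) ∘ T := by
  have hZint := integrable_of_bound' (μ := μ) hZm hZ
  have hZTint : Integrable (Z ∘ T) μ := (hT.integrable_comp_of_integrable hZint)
  have hEs : StronglyMeasurable[m] (μ[Z | m]) := stronglyMeasurable_condExp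
  have hTmm : Measurable[m, m] T := by
    rw [measurable_iff_comap_le, hTm]
  have hEint : Integrable (μ[Z | m]) μ := integrable_condExp
  have hETint : Integrable ((μ[Z | m]) ∘ T) μ := hT.integrable_comp_of_integrable hEint
  symm
  refine ae_eq_condExp_of_forall_setIntegral_eq hm hZTint
    (fun s _ _ => hETint.integrableOn) (fun s hs _ => ?_)
    (hEs.comp_measurable hTmm).aestronglyMeasurable
  -- `s` is a preimage of an `m`-measurable set
  have hs' : MeasurableSet[m.comap T] s := by rwa [hTm]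
  obtain ⟨s', hs'm, rfl⟩ := hs'
  have hs'm0 : MeasurableSet s' := hm _ hs'm
  have h1 : ∫ x in T ⁻¹' s', ((μ[Z | m]) ∘ T) x ∂μ = ∫ x in s', (μ[Z | m]) x ∂μ := by
    have h3 := setIntegral_map (μ := μ) (g := T) (f := μ[Z | m]) hs'm0
      (by rw [hT.map_eq]; exact hEint.aestronglyMeasurable) hT.measurable.aemeasurable
    rw [hT.map_eq] at h3
    exact h3.symm
  have h2 : ∫ x in T ⁻¹' s', (Z ∘ T) x ∂μ = ∫ x in s', Z x ∂μ := by
    have h3 := setIntegral_map (μ := μ) (g := T) (f := Z) hs'm0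
      (by rw [hT.map_eq]; exact hZint.aestronglyMeasurable) hT.measurable.aemeasurable
    rw [hT.map_eq] at h3
    exact h3.symm
  rw [h1, h2]
  exact setIntegral_condExp hm hZint hs'm

/-- dropping an independent part of the conditioning -/
lemma ce_indep_drop {c a : MeasurableSpace Ω} (hc : c ≤ m0) (ha : a ≤ m0)
    {Z : Ω → ℝ} {B : ℝ} (hZm : Measurable[m0] Z) (hZ : ∀ ω, |Z ω| ≤ B)
    (hi : ProbabilityTheory.Indep (MeasurableSpace.comap Z (inferInstance : MeasurableSpace ℝ) ⊔ c)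
      a μ) :
    μ[Z | c ⊔ a] =ᵐ[μ] μ[Z | c] := by
  have hZint := integrable_of_bound' (μ := μ) hZm hZ
  have hsup : c ⊔ a ≤ m0 := sup_le hc ha
  set E := μ[Z | c] with hE
  have hEs : StronglyMeasurable[c] E := stronglyMeasurable_condExp
  have hEint : Integrable E μ := integrable_condExp
  symm
  refine ae_eq_condExp_of_forall_setIntegral_eq hsup hZint
    (fun s _ _ => hEint.integrableOn) ?_
    (hEs.mono le_sup_left).aestronglyMeasurable
  intro s hs _
  -- the `π`-system of intersections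
  let P : Set (Set Ω) := {u | ∃ s t, MeasurableSet[c] s ∧ MeasurableSet[a] t ∧ u = s ∩ t}
  have hP : IsPiSystem P := by
    rintro u ⟨s1, t1, hs1, ht1, rfl⟩ v ⟨s2, t2, hs2, ht2, rfl⟩ _
    refine ⟨s1 ∩ s2, t1 ∩ t2, hs1.inter hs2, ht1.inter ht2, ?_⟩
    ext x
    simp only [Set.mem_inter_iff]
    tauto
  have hgen : c ⊔ a = MeasurableSpace.generateFrom P := by
    apply le_antisymm
    · apply sup_le
      · intro s hs
        exact MeasurableSpace.measurableSet_generateFrom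
          ⟨s, Set.univ, hs, MeasurableSet.univ, (Set.inter_univ s).symm⟩
      · intro t ht
        exact MeasurableSpace.measurableSet_generateFrom
          ⟨Set.univ, t, MeasurableSet.univ, ht, (Set.univ_inter t).symm⟩
    · apply MeasurableSpace.generateFrom_le
      rintro u ⟨s, t, hs, ht, rfl⟩
      exact MeasurableSet.inter (le_sup_left (a := c) (b := a) _ hs)
        (le_sup_right (a := c) (b := a) _ ht)
  -- the basic case
  have hbasic : ∀ u ∈ P, ∫ x in u, E x ∂μ = ∫ x in u, Z x ∂μ := by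
    rintro u ⟨s, t, hs, ht, rfl⟩
    have hsm0 : MeasurableSet[m0] s := hc _ hs
    have htm0 : MeasurableSet[m0] t := ha _ ht
    -- the product formula
    have hprod : ∀ f : Ω → ℝ, Integrable f μ →
        StronglyMeasurable[MeasurableSpace.comap Z inferInstance ⊔ c] f →
        ∫ x in s ∩ t, f x ∂μ = (∫ x in s, f x ∂μ) * (μ.real t) := by
      intro f hf hfs
      have hm1 : MeasurableSet[MeasurableSpace.comap Z inferInstance ⊔ c] s :=
        le_sup_right (a := MeasurableSpace.comap Z inferInstance) (b := c) _ hs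
      have hA : (MeasurableSpace.comap Z (inferInstance : MeasurableSpace ℝ)) ⊔ c ≤ m0 :=
        sup_le hZm.comap_le hc
      have hfi : StronglyMeasurable[MeasurableSpace.comap Z inferInstance ⊔ c]
          (s.indicator f) := hfs.indicator hm1
      have hgi : StronglyMeasurable[a] (t.indicator (fun _ => (1 : ℝ))) :=
        stronglyMeasurable_const.indicator ht
      have hind : ProbabilityTheory.IndepFun (s.indicator f) (t.indicator (fun _ => (1 : ℝ))) μ := by
        rw [ProbabilityTheory.IndepFun_iff_Indep]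
        exact ProbabilityTheory.indep_of_indep_of_le_left
          (ProbabilityTheory.indep_of_indep_of_le_right hi hgi.measurable.comap_le)
          hfi.measurable.comap_le
      have h3 := hind.integral_mul_eq_mul_integral
        (hf.indicator hsm0).aestronglyMeasurable
        ((integrable_const (1 : ℝ)).indicator htm0).aestronglyMeasurable
      have h4 : ∫ x, (s.indicator f x) * (t.indicator (fun _ => (1 : ℝ)) x) ∂μ =
          ∫ x in s ∩ t, f x ∂μ := by
        rw [← integral_indicator (hsm0.inter htm0)]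
        congr 1
        ext x
        by_cases hx : x ∈ s <;> by_cases hy : x ∈ t <;> simp [hx, hy]
      have h5 : ∫ x, s.indicator f x ∂μ = ∫ x in s, f x ∂μ := integral_indicator hsm0
      have h6 : ∫ x, t.indicator (fun _ => (1 : ℝ)) x ∂μ = μ.real t := by
        rw [integral_indicator htm0]
        simp
      have h7 : ∫ x, (s.indicator f * t.indicator (fun _ => (1 : ℝ))) x ∂μ =
          (∫ x, s.indicator f x ∂μ) * (∫ x, t.indicator (fun _ => (1 : ℝ)) x ∂μ) := h3
      rw [← h4, ← h5, ← h6, ← h7]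
      rfl
    have hZs : StronglyMeasurable[MeasurableSpace.comap Z inferInstance ⊔ c] Z := by
      apply Measurable.stronglyMeasurable
      exact (comap_measurable Z).mono le_sup_left le_rfl
    rw [hprod E hEint (hEs.mono le_sup_right), hprod Z hZint hZs,
      setIntegral_condExp hc hZint hs]
  -- Dynkin
  refine MeasurableSpace.induction_on_inter
    (C := fun u _ => ∫ x in u, E x ∂μ = ∫ x in u, Z x ∂μ) hgen hP ?_ ?_ ?_ ?_ s hs
  · simp
  · intro u hu
    exact hbasic u hu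
  · intro u hu hue
    have hu0 : MeasurableSet[m0] u := hsup _ hu
    have h1 : ∫ x, E x ∂μ = ∫ x, Z x ∂μ := integral_condExp hc
    have h2 := integral_add_compl hu0 hEint
    have h3 := integral_add_compl hu0 hZint
    linarith
  · intro f hd hf hfe
    have hf0 : ∀ i, MeasurableSet[m0] (f i) := fun i => hsup _ (hf i)
    rw [integral_iUnion hf0 hd hEint.integrableOn, integral_iUnion hf0 hd hZint.integrableOn]
    congr 1
    ext i
    exact hfe i

/-- truncation with an integer moment: for `0 ≤ G ≤ B`, `0 ≤ W`, `0 < b`, `E W^p ≤ b^p`: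
`E [G W] ≤ e b E G + B b e^(1-p)` -/
lemma trunc_moment {G W : Ω → ℝ} {B b : ℝ} {p : ℕ} (hp : 1 ≤ p) (hb : 0 < b)
    (hGm : Measurable G) (hWm : Measurable W) (hG0 : ∀ ω, 0 ≤ G ω) (hGB : ∀ ω, G ω ≤ B)
    (hW0 : ∀ ω, 0 ≤ W ω) {W' : ℝ} (hWB : ∀ ω, W ω ≤ W')
    (hmom : ∫ ω, W ω ^ p ∂μ ≤ b ^ p) :
    ∫ ω, G ω * W ω ∂μ ≤ Real.exp 1 * b * ∫ ω, G ω ∂μ + B * b * Real.exp (1 - p) := by
  obtain ⟨ω0⟩ : Nonempty Ω := μ.nonempty_of_neZero
  have hB0 : 0 ≤ B := (hG0 ω0).trans (hGB ω0)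
  have hW'0 : 0 ≤ W' := (hW0 ω0).trans (hWB ω0)
  set eb := Real.exp 1 * b with heb
  have heb0 : 0 < eb := by positivity
  obtain ⟨q, rfl⟩ : ∃ q, p = q + 1 := ⟨p - 1, by omega⟩
  -- the pointwise bound
  have hpt : ∀ ω, G ω * W ω ≤ eb * G ω + B * (W ω ^ (q + 1) / eb ^ q) := by
    intro ω
    by_cases h : W ω ≤ eb
    · have h1 : G ω * W ω ≤ eb * G ω := by nlinarith [hG0 ω]
      have h2 : 0 ≤ B * (W ω ^ (q + 1) / eb ^ q) := by
        have := hW0 ω
        positivity
      linarith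
    · push Not at h
      have h1 : G ω * W ω ≤ B * W ω := mul_le_mul_of_nonneg_right (hGB ω) (hW0 ω)
      have h2 : W ω ≤ W ω ^ (q + 1) / eb ^ q := by
        rw [le_div_iff₀ (by positivity), pow_succ']
        apply mul_le_mul_of_nonneg_left _ (hW0 ω)
        exact pow_le_pow_left₀ heb0.le h.le q
      have h3 : 0 ≤ G ω := hG0 ω
      have h4 : B * W ω ≤ B * (W ω ^ (q + 1) / eb ^ q) := mul_le_mul_of_nonneg_left h2 hB0
      nlinarith
  have hGint : Integrable G μ := Integrable.of_bound hGm.aestronglyMeasurable B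
    (Eventually.of_forall fun ω => by
      rw [Real.norm_eq_abs, abs_of_nonneg (hG0 ω)]
      exact hGB ω)
  have hWpint : Integrable (fun ω => W ω ^ (q + 1)) μ := by
    refine Integrable.of_bound (hWm.pow_const _).aestronglyMeasurable (W' ^ (q + 1))
      (Eventually.of_forall fun ω => ?_)
    rw [Real.norm_eq_abs, abs_of_nonneg (pow_nonneg (hW0 ω) _)]
    exact pow_le_pow_left₀ (hW0 ω) (hWB ω) _
  have hGWint : Integrable (fun ω => G ω * W ω) μ := by
    refine Integrable.of_bound (hGm.mul hWm).aestronglyMeasurable (B * W')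
      (Eventually.of_forall fun ω => ?_)
    rw [Real.norm_eq_abs, abs_of_nonneg (mul_nonneg (hG0 ω) (hW0 ω))]
    exact mul_le_mul (hGB ω) (hWB ω) (hW0 ω) hB0
  have hRint : Integrable (fun ω => eb * G ω + B * (W ω ^ (q + 1) / eb ^ q)) μ :=
    (hGint.const_mul eb).add ((hWpint.div_const _).const_mul B)
  have hmain := integral_mono hGWint hRint hpt
  have hsplit : ∫ ω, (eb * G ω + B * (W ω ^ (q + 1) / eb ^ q)) ∂μ =
      eb * ∫ ω, G ω ∂μ + B * ((∫ ω, W ω ^ (q + 1) ∂μ) / eb ^ q) := by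
    rw [integral_add (hGint.const_mul eb) ((hWpint.div_const _).const_mul B),
      integral_const_mul, integral_const_mul, integral_div]
  rw [hsplit] at hmain
  have hlast : (∫ ω, W ω ^ (q + 1) ∂μ) / eb ^ q ≤ b * Real.exp (1 - ((q + 1 : ℕ) : ℝ)) := by
    have h1 : Real.exp (1 - ((q + 1 : ℕ) : ℝ)) = (Real.exp 1 ^ q)⁻¹ := by
      rw [← Real.exp_nat_mul]
      rw [← Real.exp_neg]
      congr 1
      push_cast
      ring
    rw [h1, div_le_iff₀ (by positivity), heb, mul_pow]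
    have h2 : Real.exp 1 ^ q ≠ 0 := by positivity
    calc (∫ ω, W ω ^ (q + 1) ∂μ) ≤ b ^ (q + 1) := hmom
      _ = b * (Real.exp 1 ^ q)⁻¹ * (Real.exp 1 ^ q * b ^ q) := by
        field_simp
        ring
  have h5 : B * ((∫ ω, W ω ^ (q + 1) ∂μ) / eb ^ q) ≤
      B * (b * Real.exp (1 - ((q + 1 : ℕ) : ℝ))) := mul_le_mul_of_nonneg_left hlast hB0
  calc ∫ ω, G ω * W ω ∂μ ≤ eb * ∫ ω, G ω ∂μ + B * ((∫ ω, W ω ^ (q + 1) ∂μ) / eb ^ q) := hmain
    _ ≤ Real.exp 1 * b * ∫ ω, G ω ∂μ + B * b * Real.exp (1 - ((q + 1 : ℕ) : ℝ)) := by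
      rw [heb]
      linarith

end Vale.Agent.Lib.P161.Crit
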