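import Vale.Agent.Lib.P161.Crit.Gauge
import Vale.Agent.Lib.P161.Crit.CE

/-!
Automorphisms and the global flip acting on the sample space; equivariance of everything.
Statements fixed; add lemmas freely.
-/

open MeasureTheory Filter Topology Finset

noncomputable section
namespace Vale.Agent.Lib.P161.Crit

open scoped Classical
open Vale.Agent.Lib.P161

variable {V : Type} (C : CT V)

/-- the action on steps -/
def stpMap (g : C.G ≃g C.G) (j : Stp V) : Stp V := (j.1, g j.2)

/-- the action of an automorphism on samples; the root sign is twisted so that spins permute -/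
def act (g : C.G ≃g C.G) (ω : Om V) : Om V :=
  (xor ω.1 (decide (pS C C.o (g.symm C.o) ω.2 = -1)), actW C g ω.2)

/-! ### coordinates -/

lemma aut_actW_ed (g : C.G ≃g C.G) (a b : V) (w : WW V) :
    actW C g w (.ed s(g a, g b)) = w (.ed s(a, b)) := by
  show w (.ed (Sym2.map g.symm s(g a, g b))) = w (.ed s(a, b))
  simp [Sym2.map_mk]

lemma aut_actW_no (g : C.G ≃g C.G) (j : Stp V) (w : WW V) :
    actW C g w (.no (stpMap C g j)) = w (.no j) := by
  show w (.no ((stpMap C g j).1, g.symm (stpMap C g j).2)) = w (.no j)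
  simp [stpMap]

lemma aut_actW_la (g : C.G ≃g C.G) (j : Stp V) (w : WW V) :
    actW C g w (.la (stpMap C g j)) = w (.la j) := by
  show w (.la ((stpMap C g j).1, g.symm (stpMap C g j).2)) = w (.la j)
  simp [stpMap]

lemma eS_act (g : C.G ≃g C.G) (a b : V) (w : WW V) :
    eS C s(g a, g b) (actW C g w) = eS C s(a, b) w := by
  unfold eS
  rw [aut_actW_ed]

lemma aut_twI_succ (x u : V) (k : ℕ) : twI C x (k + 1) u = twI C x k (tw C x u) := by
  induction k with
  | zero => rfl
  | succ k ih =>
    show tw C x (twI C x (k + 1) u) = tw C x (twI C x k (tw C x u))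
    rw [ih]

lemma aut_pS_self (x : V) (w : WW V) : pS C x x w = 1 := by
  simp [pS]

lemma aut_pS_step {x u : V} (h : u ≠ x) (w : WW V) :
    pS C x u w = eS C s(u, tw C x u) w * pS C x (tw C x u) w := by
  unfold pS
  rw [← tw_dist C h, Finset.prod_range_succ', mul_comm]
  congr 1
  apply Finset.prod_congr rfl
  intro i _
  rw [aut_twI_succ C x u i, aut_twI_succ C x u (i + 1)]

lemma pS_act (g : C.G ≃g C.G) (x u : V) (w : WW V) :
    pS C (g x) (g u) (actW C g w) = pS C x u w := by
  unfold pS
  rw [dist_map]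
  apply Finset.prod_congr rfl
  intro i _
  rw [twI_map, twI_map, eS_act]

lemma spin_true (w : WW V) (v : V) : spin C (true, w) v = pS C C.o v w := by
  simp [spin]

lemma pS_cases (v : V) (w : WW V) : pS C C.o v w = 1 ∨ pS C C.o v w = -1 := by
  rw [← spin_true]
  exact spin_cases C _ v

lemma pS_cocycle (x : V) (w : WW V) (n : ℕ) :
    ∀ u, C.G.dist u x = n → pS C x u w = pS C C.o x w * pS C C.o u w := by
  have hsq : ∀ v, pS C C.o v w * pS C C.o v w = 1 := by
    intro v
    rcases pS_cases C v w with h | h <;> rw [h] <;> norm_num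
  induction n with
  | zero =>
    intro u hu
    by_cases h : u = x
    · rw [h, aut_pS_self, hsq]
    · have := tw_dist C h
      omega
  | succ n ih =>
    intro u hu
    have h : u ≠ x := by
      rintro rfl
      simp at hu
    have h1 := tw_dist C h
    rw [aut_pS_step C h, ih (tw C x u) (by omega)]
    have hadj := spin_adj C (true, w) (tw_adj C h)
    rw [spin_true, spin_true] at hadj
    have hadj' : eS C s(u, tw C x u) w = pS C C.o u w * pS C C.o (tw C x u) w := hadj.symm
    rw [hadj']
    have h2 := hsq (tw C x u)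
    calc pS C C.o u w * pS C C.o (tw C x u) w * (pS C C.o x w * pS C C.o (tw C x u) w)
        = pS C C.o x w * pS C C.o u w * (pS C C.o (tw C x u) w * pS C C.o (tw C x u) w) := by ring
      _ = _ := by rw [h2, mul_one]

lemma measurable_pS (x u : V) : Measurable (pS C x u) := by
  unfold pS
  exact Finset.measurable_prod _ fun i _ => measurable_eS C _

lemma map_not_sM : Measure.map (fun s : Bool => !s) sM = sM := by
  unfold sM
  have hm : Measurable (fun s : Bool => !s) := Measurable.of_discrete
  rw [Measure.map_smul, Measure.map_add _ _ hm, Measure.map_dirac' hm, Measure.map_dirac' hm]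
  simp [add_comm]

lemma act_mp (g : C.G ≃g C.G) : MeasurePreserving (act C g) (PP V) (PP V) := by
  set f : WW V → Bool := fun w => decide (pS C C.o (g.symm C.o) w = -1) with hf
  have hfm : Measurable f := by
    apply measurable_to_bool
    have : f ⁻¹' {true} = (pS C C.o (g.symm C.o)) ⁻¹' {-1} := by
      ext w
      simp [hf]
    rw [this]
    exact measurable_pS C _ _ (measurableSet_singleton _)
  have hgm : Measurable (Function.uncurry fun (w : WW V) (s : Bool) => xor s (f w)) := by
    have h1 : Measurable (fun p : Bool × Bool => xor p.1 p.2) := Measurable.of_discrete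
    exact h1.comp (measurable_snd.prodMk (hfm.comp measurable_fst))
  have hmap : ∀ w : WW V, Measure.map (fun s : Bool => xor s (f w)) sM = sM := by
    intro w
    cases hw : f w
    · simp
    · simpa using map_not_sM
  have h1 := (actW_mp C g).skew_product (g := fun (w : WW V) (s : Bool) => xor s (f w)) hgm
    (Eventually.of_forall hmap)
  have hs1 : MeasurePreserving (Prod.swap : Bool × WW V → WW V × Bool) (sM.prod (PW V))
      ((PW V).prod sM) := Measure.measurePreserving_swap
  have hs2 : MeasurePreserving (Prod.swap : WW V × Bool → Bool × WW V) ((PW V).prod sM)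
      (sM.prod (PW V)) := Measure.measurePreserving_swap
  exact (hs2.comp h1).comp hs1

lemma spin_act (g : C.G ≃g C.G) (ω : Om V) (v : V) : spin C (act C g ω) (g v) = spin C ω v := by
  obtain ⟨s, w⟩ := ω
  have h1 : pS C C.o (g v) (actW C g w) = pS C (g.symm C.o) v w := by
    have := pS_act C g (g.symm C.o) v w
    simpa using this
  have h2 := pS_cocycle C (g.symm C.o) w _ v rfl
  show (if xor s (decide (pS C C.o (g.symm C.o) w = -1)) = true then (1 : ℝ) else -1)
      * pS C C.o (g v) (actW C g w) = (if s = true then (1 : ℝ) else -1) * pS C C.o v w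
  rw [h1, h2]
  have hne : (1 : ℝ) ≠ -1 := by norm_num
  rcases pS_cases C (g.symm C.o) w with h | h <;> rw [h] <;> cases s <;> simp [hne]

lemma yy_act (g : C.G ≃g C.G) (j : Stp V) (ω : Om V) :
    yy C (stpMap C g j) (act C g ω) = yy C j ω := by
  unfold yy
  show spin C (act C g ω) (g j.2) * nz j.1 (actW C g ω.2 (.no (stpMap C g j))) = _
  rw [spin_act, aut_actW_no]

lemma lab_act (g : C.G ≃g C.G) (j : Stp V) (w : WW V) :
    lab (actW C g w) (stpMap C g j) = lab w j := aut_actW_la C g j w

lemma tm_act (g : C.G ≃g C.G) (j : Stp V) (w : WW V) :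
    tm (lab (actW C g w)) (stpMap C g j) = tm (lab w) j := by
  unfold tm
  rw [lab_act]
  rfl

/-- the action on states -/
def stMap (g : C.G ≃g C.G) (A : Set (Stp V)) : Set (Stp V) := stpMap C g '' A

lemma stpMap_inj (g : C.G ≃g C.G) : Function.Injective (stpMap C g) := by
  intro a b h
  have h1 : (stpMap C g a).1 = (stpMap C g b).1 := congrArg Prod.fst h
  have h2 : (stpMap C g a).2 = (stpMap C g b).2 := congrArg Prod.snd h
  exact Prod.ext h1 (g.injective h2)

lemma mem_stMap (g : C.G ≃g C.G) (A : Set (Stp V)) (j : Stp V) :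
    stpMap C g j ∈ stMap C g A ↔ j ∈ A :=
  (stpMap_inj C g).mem_set_image

lemma fld_act (g : C.G ≃g C.G) (A : Set (Stp V)) (ω : Om V) (v : V) :
    fld C (stMap C g A) (act C g ω) (g v) = fld C A ω v := by
  unfold fld
  apply tsum_congr
  intro ℓ
  show (if stpMap C g (ℓ, v) ∈ stMap C g A then zeta (eps ℓ) (yy C (stpMap C g (ℓ, v)) (act C g ω))
    else 0) = _
  by_cases h : (ℓ, v) ∈ A
  · rw [if_pos ((mem_stMap C g A _).2 h), if_pos h, yy_act]
  · rw [if_neg (fun h' => h ((mem_stMap C g A _).1 h')), if_neg h]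

lemma msg_map (g : C.G ≃g C.G) {X X' : V → ℝ} (h : ∀ v, X' (g v) = X v) (n : ℕ) (a b : V) :
    msg C X' n (g a) (g b) = msg C X n a b := by
  induction n generalizing a b with
  | zero => exact h a
  | succ n ih =>
    show X' (g a) + ∑ c ∈ (C.nb (g a)).erase (g b), psi C.θ (msg C X' n c (g a))
      = X a + ∑ c ∈ (C.nb a).erase b, psi C.θ (msg C X n c a)
    rw [h a]
    congr 1
    symm
    apply Finset.sum_equiv g.toEquiv
    · intro c
      simp only [Finset.mem_erase]
      constructor
      · rintro ⟨h1, h2⟩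
        exact ⟨fun h3 => h1 (g.injective h3), (mem_nb_map C g).2 h2⟩
      · rintro ⟨h1, h2⟩
        exact ⟨fun h3 => h1 (congrArg g h3), (mem_nb_map C g).1 h2⟩
    · intro c _
      show _ = psi C.θ (msg C X' n (g c) (g a))
      rw [ih]

lemma zl_map (g : C.G ≃g C.G) {X X' : V → ℝ} (h : ∀ v, X' (g v) = X v) (a b : V) :
    zl C X' (g a) (g b) = zl C X a b := by
  unfold zl
  simp only [msg_map C g h]

lemma mag_map (g : C.G ≃g C.G) {X X' : V → ℝ} (h : ∀ v, X' (g v) = X v) (x : V) :
    mag C X' (g x) = mag C X x := by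
  unfold mag
  rw [h x]
  congr 2
  symm
  apply Finset.sum_equiv g.toEquiv
  · intro c
    exact (mem_nb_map C g).symm
  · intro c _
    show _ = psi C.θ (zl C X' (g c) (g x))
    rw [zl_map C g h]

lemma cov_map (g : C.G ≃g C.G) {X X' : V → ℝ} (h : ∀ v, X' (g v) = X v) (x u : V) :
    cov C X' (g x) (g u) = cov C X x u := by
  unfold cov
  rw [mag_map C g h, dist_map]
  congr 1
  apply Finset.prod_congr rfl
  intro i _
  rw [twI_map, twI_map, zl_map C g h]

lemma Sq_act (g : C.G ≃g C.G) (w : WW V) (T : ℝ) :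
    Sq (lab (actW C g w)) T = stMap C g (Sq (lab w) T) := by
  ext j
  constructor
  · intro hj
    refine ⟨(j.1, g.symm j.2), ?_, ?_⟩
    · have hj' : stpMap C g (j.1, g.symm j.2) = j := by
        simp [stpMap]
      have hj2 : lab (actW C g w) (stpMap C g (j.1, g.symm j.2)) < 0 ∧
          tm (lab (actW C g w)) (stpMap C g (j.1, g.symm j.2)) < T := by
        rw [hj']
        exact hj
      rw [lab_act, tm_act] at hj2
      exact hj2
    · simp [stpMap]
  · rintro ⟨j', hj', rfl⟩
    show lab (actW C g w) (stpMap C g j') < 0 ∧ tm (lab (actW C g w)) (stpMap C g j') < T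
    rw [lab_act, tm_act]
    exact hj'

lemma Ms_act (g : C.G ≃g C.G) (T : ℝ) (x : V) (ω : Om V) :
    Ms C T (g x) (act C g ω) = Ms C T x ω := by
  show mag C (fld C (Sq (lab (actW C g ω.2)) T) (act C g ω)) (g x) = mag C (fld C (Sq (lab ω.2) T) ω) x
  rw [Sq_act]
  exact mag_map C g (fld_act C g _ ω) x

lemma Cs_act (g : C.G ≃g C.G) (T : ℝ) (x u : V) (ω : Om V) :
    Cs C T (g x) (g u) (act C g ω) = Cs C T x u ω := by
  show cov C (fld C (Sq (lab (actW C g ω.2)) T) (act C g ω)) (g x) (g u)
    = cov C (fld C (Sq (lab ω.2) T) ω) x u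
  rw [Sq_act]
  exact cov_map C g (fld_act C g _ ω) x u

lemma Zs_act (g : C.G ≃g C.G) (T : ℝ) (a b : V) (ω : Om V) :
    Zs C T (g a) (g b) (act C g ω) = Zs C T a b ω := by
  show zl C (fld C (Sq (lab (actW C g ω.2)) T) (act C g ω)) (g a) (g b)
    = zl C (fld C (Sq (lab ω.2) T) ω) a b
  rw [Sq_act]
  exact zl_map C g (fld_act C g _ ω) a b

lemma Rw_act (g : C.G ≃g C.G) (j : Stp V) (ω : Om V) :
    Rw C (stpMap C g j) (act C g ω) = Rw C j ω := by
  show (if lab (actW C g ω.2) (stpMap C g j) < 0 then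
      Tc (eps j.1 * mag C (fld C (Sq (lab (actW C g ω.2)) (tm (lab (actW C g ω.2)) (stpMap C g j)))
        (act C g ω)) (g j.2)) (yy C (stpMap C g j) (act C g ω)) else 0)
    = (if lab ω.2 j < 0 then
      Tc (eps j.1 * mag C (fld C (Sq (lab ω.2) (tm (lab ω.2) j)) ω) j.2) (yy C j ω) else 0)
  rw [lab_act, tm_act, Sq_act, yy_act, mag_map C g (fld_act C g _ ω)]

/-- comparison of the comaps of the innovation field -/
lemma comap_GG_of_conj {f : Om V → Om V} {Ψ Ψ' : Lab V × (Stp V → ℝ) → Lab V × (Stp V → ℝ)}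
    (hΨ : Measurable Ψ) (hΨ' : Measurable Ψ') (h : ∀ ω, kap C (f ω) = Ψ (kap C ω))
    (h' : ∀ q, Ψ' (Ψ q) = q) : (GG C).comap f = GG C := by
  have e2 : kap C ∘ f = Ψ ∘ kap C := funext h
  have e3 : kap C = Ψ' ∘ (kap C ∘ f) := by
    funext ω
    simp [h, h']
  apply le_antisymm
  · show (MeasurableSpace.comap (kap C) inferInstance).comap f ≤ MeasurableSpace.comap (kap C) _
    rw [MeasurableSpace.comap_comp, e2, ← MeasurableSpace.comap_comp]
    exact MeasurableSpace.comap_mono hΨ.comap_le
  · show MeasurableSpace.comap (kap C) _ ≤ (MeasurableSpace.comap (kap C) inferInstance).comap f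
    rw [MeasurableSpace.comap_comp]
    conv_lhs => rw [e3, ← MeasurableSpace.comap_comp]
    exact MeasurableSpace.comap_mono hΨ'.comap_le

/-- the coordinate action on the pair (labels, innovations) -/
def kapMap (g : C.G ≃g C.G) (q : Lab V × (Stp V → ℝ)) : Lab V × (Stp V → ℝ) :=
  (fun j => q.1 (stpMap C g.symm j), fun j => q.2 (stpMap C g.symm j))

lemma measurable_kapMap (g : C.G ≃g C.G) : Measurable (kapMap C g) := by
  apply Measurable.prodMk
  · exact measurable_pi_lambda _ fun j => (measurable_pi_apply _).comp measurable_fst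
  · exact measurable_pi_lambda _ fun j => (measurable_pi_apply _).comp measurable_snd

/-- the innovation field is invariant -/
theorem comap_act_GG (g : C.G ≃g C.G) : (GG C).comap (act C g) = GG C := by
  apply comap_GG_of_conj C (measurable_kapMap C g) (measurable_kapMap C g.symm)
  · intro ω
    have hj : ∀ j : Stp V, stpMap C g (stpMap C g.symm j) = j := by
      intro j
      simp [stpMap]
    apply Prod.ext
    · funext j
      show lab (actW C g ω.2) j = lab ω.2 (stpMap C g.symm j)
      conv_lhs => rw [← hj j]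
      rw [lab_act]
    · funext j
      show Rw C j (act C g ω) = Rw C (stpMap C g.symm j) ω
      conv_lhs => rw [← hj j]
      rw [Rw_act]
  · intro q
    have hj : ∀ j : Stp V, stpMap C g.symm (stpMap C g.symm.symm j) = j := by
      intro j
      simp [stpMap]
    apply Prod.ext
    · funext j
      show q.1 (stpMap C g.symm (stpMap C g.symm.symm j)) = q.1 j
      rw [hj]
    · funext j
      show q.2 (stpMap C g.symm (stpMap C g.symm.symm j)) = q.2 j
      rw [hj]

/-- the projection commutes with the action -/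
theorem Pj_act (g : C.G ≃g C.G) {Z : Om V → ℝ} {B : ℝ} (hZ : Measurable Z) (hB : ∀ ω, |Z ω| ≤ B) :
    (PP V)[Z ∘ act C g | GG C] =ᵐ[PP V] ((PP V)[Z | GG C]) ∘ act C g := by
  exact ce_comp (GG_le C) (act_mp C g) (comap_act_GG C g) hZ hB

lemma Dd_act (g : C.G ≃g C.G) (T : ℝ) (x : V) : Dd C T (g x) = Dd C T x := by
  unfold Dd
  have hZ : Measurable (Ms C T (g x)) := measurable_Ms T (g x)
  have hB := abs_Ms_le C T (g x)
  have hce := Pj_act C g hZ hB
  have hZact : Ms C T (g x) ∘ act C g = Ms C T x := funext (Ms_act C g T x)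
  rw [hZact] at hce
  have hmp := act_mp C g
  have hmeas : Measurable (fun ω => (Ms C T (g x) ω - (PP V)[Ms C T (g x) | GG C] ω) ^ 2) :=
    (hZ.sub ((stronglyMeasurable_condExp (m := GG C) (μ := PP V)
      (f := Ms C T (g x))).mono (GG_le C)).measurable).pow_const 2
  calc ∫ ω, (Ms C T (g x) ω - (PP V)[Ms C T (g x) | GG C] ω) ^ 2 ∂(PP V)
      = ∫ ω, (Ms C T (g x) (act C g ω) - (PP V)[Ms C T (g x) | GG C] (act C g ω)) ^ 2 ∂(PP V) := by
        have key := integral_map (μ := PP V) hmp.aemeasurable
          (f := (fun ω => (Ms C T (g x) ω - (PP V)[Ms C T (g x) | GG C] ω) ^ 2))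
          (by rw [hmp.map_eq]; exact hmeas.aestronglyMeasurable)
        rw [hmp.map_eq] at key
        exact key
    _ = ∫ ω, (Ms C T x ω - (PP V)[Ms C T x | GG C] ω) ^ 2 ∂(PP V) := by
        apply integral_congr_ae
        filter_upwards [hce] with ω hω
        rw [Ms_act, hω]
        rfl

/-- the distance is the same at all vertices -/
theorem Dd_indep (T : ℝ) (x x' : V) : Dd C T x = Dd C T x' := by
  obtain ⟨g, h1, _⟩ := exists_aut C (x := x) (u := x) (x' := x') (u' := x') (by simp)
  rw [← h1, Dd_act]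

/-! ### the flip -/

/-- the global flip -/
def flp (ω : Om V) : Om V := (!ω.1, ω.2)

lemma flp_mp : MeasurePreserving (flp : Om V → Om V) (PP V) (PP V) := by
  have h1 : MeasurePreserving (fun s : Bool => !s) sM sM := ⟨Measurable.of_discrete, map_not_sM⟩
  have h2 := h1.prod (MeasurePreserving.id (PW V))
  exact h2

lemma spin_flp (ω : Om V) (v : V) : spin C (flp ω) v = -spin C ω v := by
  obtain ⟨s, w⟩ := ω
  cases s <;> simp [spin, flp]

lemma yy_flp (j : Stp V) (ω : Om V) : yy C j (flp ω) = -yy C j ω := by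
  unfold yy
  rw [spin_flp]
  show -spin C ω j.2 * nz j.1 (ω.2 (.no j)) = _
  ring

lemma zeta_neg (ε t : ℝ) : zeta ε (-t) = -zeta ε t := by
  unfold zeta
  have h : (1 + ε * -t) / (1 - ε * -t) = ((1 + ε * t) / (1 - ε * t))⁻¹ := by
    rw [inv_div]
    ring_nf
  rw [h, Real.log_inv]
  ring

lemma fld_flp (A : Set (Stp V)) (ω : Om V) : fld C A (flp ω) = fun v => -fld C A ω v := by
  funext v
  unfold fld
  rw [← tsum_neg]
  apply tsum_congr
  intro ℓ
  split_ifs
  · rw [yy_flp, zeta_neg]
  · simp

lemma MA_flp (A : Set (Stp V)) (x : V) (ω : Om V) : MA C A x (flp ω) = -MA C A x ω := by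
  unfold MA
  rw [fld_flp]
  exact mag_neg C _ x

lemma Zs_flp (T : ℝ) (a b : V) (ω : Om V) : Zs C T a b (flp ω) = -Zs C T a b ω := by
  show zl C (fld C (Sq (lab ω.2) T) (flp ω)) a b = _
  rw [fld_flp]
  exact zl_neg C _ a b

lemma Ms_flp (T : ℝ) (x : V) (ω : Om V) : Ms C T x (flp ω) = -Ms C T x ω :=
  MA_flp C _ x ω

lemma Rw_flp (j : Stp V) (ω : Om V) : Rw C j (flp ω) = -Rw C j ω := by
  show (if lab ω.2 j < 0 then
      Tc (eps j.1 * MA C (Sq (lab ω.2) (tm (lab ω.2) j)) j.2 (flp ω)) (yy C j (flp ω)) else 0)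
    = -(if lab ω.2 j < 0 then
      Tc (eps j.1 * MA C (Sq (lab ω.2) (tm (lab ω.2) j)) j.2 ω) (yy C j ω) else 0)
  split_ifs
  · rw [MA_flp, yy_flp]
    unfold Tc
    ring
  · simp

theorem comap_flp_GG : (GG C).comap flp = GG C := by
  apply comap_GG_of_conj C (Ψ := fun q => (q.1, fun j => -q.2 j))
    (Ψ' := fun q => (q.1, fun j => -q.2 j))
  · exact measurable_fst.prodMk
      (measurable_pi_lambda _ fun j => ((measurable_pi_apply j).comp measurable_snd).neg)
  · exact measurable_fst.prodMk
      (measurable_pi_lambda _ fun j => ((measurable_pi_apply j).comp measurable_snd).neg)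
  · intro ω
    apply Prod.ext
    · rfl
    · funext j
      exact Rw_flp C j ω
  · intro q
    simp

/-- the perpendicular part of a flip-invariant function does not see the root sign -/
theorem perp_even {Z : Om V → ℝ} {B : ℝ} (hZ : Measurable Z) (hB : ∀ ω, |Z ω| ≤ B)
    (hev : ∀ ω, Z (flp ω) = Z ω) :
    ∀ᵐ w ∂(PW V), (PP V)[Z | GG C] (true, w) = (PP V)[Z | GG C] (false, w) := by
  have h := ce_comp (GG_le C) (flp_mp (V := V)) (comap_flp_GG C) hZ hB
  have hZ' : Z ∘ flp = Z := funext hev
  rw [hZ'] at h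
  have h' : ∀ᵐ p ∂(sM.prod (PW V)), (PP V)[Z | GG C] p = ((PP V)[Z | GG C]) (flp p) := h
  have h2 := Measure.ae_ae_of_ae_prod h'
  have hpos : sM {true} ≠ 0 := by
    simp [sM]
  have h3 : ∀ᵐ w ∂(PW V), (PP V)[Z | GG C] (true, w) = ((PP V)[Z | GG C]) (flp (true, w)) := by
    by_contra hcon
    apply hpos
    rw [ae_iff] at h2
    apply measure_mono_null _ h2
    intro s hs
    simp only [Set.mem_singleton_iff] at hs
    subst hs
    exact hcon
  exact h3

/-- the Zs are gauge messages -/
lemma Zs_gauge (T : ℝ) (ω : Om V) {a b : V} (hab : C.G.Adj a b) :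
    Zs C T a b ω = spin C ω a * gz C (fun _ => T) a b ω.2 := by
  exact gauge_zl C (fun _ => T) ω a b hab

end Vale.Agent.Lib.P161.Crit
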