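import Vale.Agent.Lib.P161.Crit.Prod

/-!
Hoeffding (ANOVA) decomposition on the infinite product `I → ℝ`, `PI I`.
-/

open MeasureTheory Filter Topology Finset

noncomputable section
namespace Vale.Agent.Lib.P161.Crit

open scoped Classical
open Vale.Agent.Lib.P161

variable {I : Type}

/-- bounded measurable functions -/
structure BM (F : (I → ℝ) → ℝ) : Prop where
  meas : Measurable F
  bdd : ∃ B, ∀ w, |F w| ≤ B

lemma BM.integrable {F : (I → ℝ) → ℝ} (h : BM F) : Integrable F (PI I) := by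
  obtain ⟨B, hB⟩ := h.bdd
  exact Integrable.of_bound h.meas.aestronglyMeasurable B
    (Eventually.of_forall fun w => by simpa using hB w)

lemma BM.add {F G : (I → ℝ) → ℝ} (hF : BM F) (hG : BM G) : BM fun w => F w + G w := by
  obtain ⟨B, hB⟩ := hF.bdd
  obtain ⟨B', hB'⟩ := hG.bdd
  exact ⟨hF.meas.add hG.meas, B + B', fun w => (abs_add_le _ _).trans (add_le_add (hB w) (hB' w))⟩

lemma BM.mul {F G : (I → ℝ) → ℝ} (hF : BM F) (hG : BM G) : BM fun w => F w * G w := by
  obtain ⟨B, hB⟩ := hF.bdd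
  obtain ⟨B', hB'⟩ := hG.bdd
  refine ⟨hF.meas.mul hG.meas, B * B', fun w => ?_⟩
  rw [abs_mul]
  exact mul_le_mul (hB w) (hB' w) (abs_nonneg _) ((abs_nonneg _).trans (hB w))

lemma BM.const (c : ℝ) : BM fun _ : I → ℝ => c :=
  ⟨measurable_const, |c|, fun _ => le_rfl⟩

lemma BM.const_mul {F : (I → ℝ) → ℝ} (hF : BM F) (c : ℝ) : BM fun w => c * F w :=
  (BM.const c).mul hF

lemma BM.sum {ι : Type} (K : Finset ι) {F : ι → (I → ℝ) → ℝ} (hF : ∀ i ∈ K, BM (F i)) :
    BM fun w => ∑ i ∈ K, F i w := by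
  induction K using Finset.induction_on with
  | empty => simpa using BM.const (I := I) 0
  | insert a s ha ih =>
    have h1 : BM fun w => F a w + ∑ i ∈ s, F i w :=
      (hF a (mem_insert_self _ _)).add (ih fun i hi => hF i (mem_insert_of_mem hi))
    simpa [Finset.sum_insert ha] using h1

lemma measurable_glue_right (S : Set I) (w : I → ℝ) : Measurable fun u : I → ℝ => glue S w u :=
  (measurable_glue S).comp (measurable_const.prodMk measurable_id)

lemma glue_glue_left (T : Set I) (w w₁ w₂ : I → ℝ) : glue T (glue T w w₁) w₂ = glue T w w₂ := by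
  funext i
  by_cases h : i ∈ T <;> simp [glue, h]

/-- conditional expectation on the coordinates in `T` -/
def PT (T : Set I) (F : (I → ℝ) → ℝ) (w : I → ℝ) : ℝ := ∫ w', F (glue T w w') ∂(PI I)

lemma measurable_PT (T : Set I) {F : (I → ℝ) → ℝ} (h : Measurable F) : Measurable (PT T F) := by
  have h1 : Measurable fun p : (I → ℝ) × (I → ℝ) => F (glue T p.1 p.2) :=
    h.comp (measurable_glue T)
  exact h1.stronglyMeasurable.integral_prod_right.measurable

lemma abs_PT_le (T : Set I) {F : (I → ℝ) → ℝ} {B : ℝ} (hB : ∀ w, |F w| ≤ B) (w : I → ℝ) :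
    |PT T F w| ≤ B := by
  have := norm_integral_le_of_norm_le_const (μ := PI I) (f := fun w' => F (glue T w w')) (C := B)
    (Eventually.of_forall fun w' => by simpa using hB _)
  simpa [PT] using this

lemma BM.PT {F : (I → ℝ) → ℝ} (hF : BM F) (T : Set I) : BM (PT T F) := by
  obtain ⟨B, hB⟩ := hF.bdd
  exact ⟨measurable_PT T hF.meas, B, abs_PT_le T hB⟩

lemma BM.glue_right {F : (I → ℝ) → ℝ} (hF : BM F) (T : Set I) (w : I → ℝ) :
    BM fun u => F (glue T w u) := by
  obtain ⟨B, hB⟩ := hF.bdd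
  exact ⟨hF.meas.comp (measurable_glue_right T w), B, fun _ => hB _⟩

lemma PT_glue (T : Set I) (F : (I → ℝ) → ℝ) (w w₁ : I → ℝ) : PT T F (glue T w w₁) = PT T F w := by
  simp [PT, glue_glue_left]

lemma PT_empty (F : (I → ℝ) → ℝ) (w : I → ℝ) : PT ∅ F w = ∫ u, F u ∂(PI I) := by
  unfold PT
  congr 1
  funext u
  congr 1
  funext i
  simp [glue]

/-- tower -/
lemma PT_PT {F : (I → ℝ) → ℝ} (hF : BM F) (T T' : Set I) (w : I → ℝ) :
    PT T (PT T' F) w = PT (T ∩ T') F w := by
  obtain ⟨B, hB⟩ := (hF.glue_right (T ∩ T') w).bdd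
  have h := integral_glue T' (F := fun u => F (glue (T ∩ T') w u))
    (hF.glue_right (T ∩ T') w).meas hB
  unfold PT
  rw [h]
  congr 1
  funext w₁
  congr 1
  funext w₂
  congr 1
  funext i
  by_cases h1 : i ∈ T <;> by_cases h2 : i ∈ T' <;> simp [glue, h1, h2]

/-- the key identity -/
lemma PT_key {F G : (I → ℝ) → ℝ} (hF : BM F) (hG : BM G) (T : Set I) :
    ∫ w, PT T F w * G w ∂(PI I) = ∫ w, PT T F w * PT T G w ∂(PI I) := by
  have hb := (hF.PT T).mul hG
  obtain ⟨B, hB⟩ := hb.bdd
  rw [integral_glue T hb.meas hB]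
  congr 1
  funext w₁
  simp only [PT_glue]
  rw [integral_const_mul]
  rfl

lemma PT_key' {F G : (I → ℝ) → ℝ} (hF : BM F) (hG : BM G) (T : Set I) :
    ∫ w, F w * PT T G w ∂(PI I) = ∫ w, PT T F w * PT T G w ∂(PI I) := by
  have := PT_key hG hF T
  simp only [mul_comm] at this ⊢
  exact this

/-- PT of a finite linear combination -/
lemma PT_sum {ι : Type} (K : Finset ι) (c : ι → ℝ) {f : ι → (I → ℝ) → ℝ} (hf : ∀ i ∈ K, BM (f i))
    (T : Set I) (w : I → ℝ) :
    PT T (fun w => ∑ i ∈ K, c i * f i w) w = ∑ i ∈ K, c i * PT T (f i) w := by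
  unfold PT
  rw [integral_finset_sum]
  · refine Finset.sum_congr rfl fun i _ => ?_
    rw [integral_const_mul]
  · intro i hi
    exact ((hf i hi).glue_right T w).integrable.const_mul _

/-- the Hoeffding component -/
def QS (S : Finset I) (F : (I → ℝ) → ℝ) (w : I → ℝ) : ℝ :=
  ∑ T ∈ S.powerset, (-1 : ℝ) ^ (S.card + T.card) * PT (T : Set I) F w

lemma BM.QS {F : (I → ℝ) → ℝ} (hF : BM F) (S : Finset I) : BM (QS S F) :=
  BM.sum _ fun T _ => (hF.PT _).const_mul _

/-- the flip involution on finsets -/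
def flipF (i : I) (T : Finset I) : Finset I := if i ∈ T then T.erase i else insert i T

lemma flipF_flipF (i : I) (T : Finset I) : flipF i (flipF i T) = T := by
  unfold flipF
  by_cases h : i ∈ T
  · simp [h]
  · simp [h, Finset.erase_insert h]

lemma flipF_ne (i : I) (T : Finset I) : flipF i T ≠ T := by
  intro h
  unfold flipF at h
  by_cases hi : i ∈ T
  · rw [if_pos hi] at h
    have : i ∈ T.erase i := by rw [h]; exact hi
    simp at this
  · rw [if_neg hi] at h
    have : i ∈ insert i T := mem_insert_self _ _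
    rw [h] at this
    exact hi this

lemma sign_flipF (n : ℕ) (i : I) (T : Finset I) :
    (-1 : ℝ) ^ (n + (flipF i T).card) = - (-1 : ℝ) ^ (n + T.card) := by
  unfold flipF
  by_cases h : i ∈ T
  · rw [if_pos h]
    have h1 : T.card = (T.erase i).card + 1 := (card_erase_add_one h).symm
    rw [h1, ← add_assoc, pow_succ]; ring
  · rw [if_neg h, card_insert_of_notMem h, ← add_assoc, pow_succ]; ring

lemma flipF_mem_powerset {i : I} {S T : Finset I} (hi : i ∈ S) (hT : T ⊆ S) : flipF i T ⊆ S := by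
  unfold flipF
  by_cases h : i ∈ T
  · rw [if_pos h]; exact (erase_subset _ _).trans hT
  · rw [if_neg h]; exact insert_subset hi hT

lemma PT_QS_of_subset {F : (I → ℝ) → ℝ} (hF : BM F) {S : Finset I} {A : Set I} (h : (S : Set I) ⊆ A)
    (w : I → ℝ) : PT A (QS S F) w = QS S F w := by
  unfold QS
  rw [PT_sum _ _ (fun T _ => hF.PT _)]
  refine Finset.sum_congr rfl fun T hT => ?_
  rw [PT_PT hF]
  congr 2
  have hT' : (T : Set I) ⊆ S := by exact_mod_cast (mem_powerset.mp hT)
  exact Set.inter_eq_right.mpr (hT'.trans h)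

lemma PT_QS_of_not_subset {F : (I → ℝ) → ℝ} (hF : BM F) {S : Finset I} {A : Set I}
    (h : ¬ (S : Set I) ⊆ A) (w : I → ℝ) : PT A (QS S F) w = 0 := by
  unfold QS
  rw [PT_sum _ _ (fun T _ => hF.PT _)]
  simp only [PT_PT hF]
  obtain ⟨i, hiS, hiA⟩ := Set.not_subset.mp h
  have hiS' : i ∈ S := by exact_mod_cast hiS
  refine Finset.sum_involution (fun T _ => flipF i T) ?_ ?_ ?_ ?_
  · intro T _
    have h1 : A ∩ ((flipF i T : Finset I) : Set I) = A ∩ (T : Set I) := by
      ext x
      unfold flipF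
      by_cases hT : i ∈ T
      · rw [if_pos hT]
        by_cases hx : x = i
        · subst hx; simp [hiA]
        · simp [hx]
      · rw [if_neg hT]
        by_cases hx : x = i
        · subst hx; simp [hiA]
        · simp [hx]
    rw [h1, sign_flipF]; ring
  · intro T _ _
    exact flipF_ne i T
  · intro T hT
    exact mem_powerset.mpr (flipF_mem_powerset hiS' (mem_powerset.mp hT))
  · intro T _
    exact flipF_flipF i T

lemma QS_orth_aux {F G : (I → ℝ) → ℝ} (hF : BM F) (hG : BM G) {S S' : Finset I}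
    (h : ¬ S' ⊆ S) : ∫ w, QS S F w * QS S' G w ∂(PI I) = 0 := by
  have hQ := hG.QS S'
  unfold QS
  simp only [Finset.sum_mul]
  rw [integral_finset_sum]
  · refine Finset.sum_eq_zero fun T hT => ?_
    have h1 : ¬ ((S' : Finset I) : Set I) ⊆ (T : Set I) := by
      intro h2
      have h3 : S' ⊆ T := by exact_mod_cast h2
      exact h (h3.trans (mem_powerset.mp hT))
    have h2 : ∫ w, PT (T : Set I) F w * QS S' G w ∂(PI I) = 0 := by
      rw [PT_key (hF) hQ]
      simp [PT_QS_of_not_subset hG h1]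
    have h3 : ∀ w, (-1 : ℝ) ^ (S.card + T.card) * PT (T : Set I) F w *
        (∑ T' ∈ S'.powerset, (-1 : ℝ) ^ (S'.card + T'.card) * PT (T' : Set I) G w) =
        (-1 : ℝ) ^ (S.card + T.card) * (PT (T : Set I) F w * QS S' G w) := by
      intro w; unfold QS; ring
    simp only [h3]
    rw [integral_const_mul, h2, mul_zero]
  · intro T _
    have : BM fun w => (-1 : ℝ) ^ (S.card + T.card) * PT (T : Set I) F w *
        (∑ T' ∈ S'.powerset, (-1 : ℝ) ^ (S'.card + T'.card) * PT (T' : Set I) G w) :=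
      ((hF.PT _).const_mul _).mul hQ
    exact this.integrable

lemma QS_orth {F G : (I → ℝ) → ℝ} (hF : BM F) (hG : BM G) {S S' : Finset I} (h : S ≠ S') :
    ∫ w, QS S F w * QS S' G w ∂(PI I) = 0 := by
  by_cases h1 : S' ⊆ S
  · have h2 : ¬ S ⊆ S' := fun h3 => h (Finset.Subset.antisymm h3 h1)
    have := QS_orth_aux hG hF h2
    simp only [mul_comm] at this ⊢
    exact this
  · exact QS_orth_aux hF hG h1

/-- Moebius inversion -/
lemma moebius (φ : Finset I → ℝ) (J : Finset I) :
    ∑ S ∈ J.powerset, ∑ T ∈ S.powerset, (-1 : ℝ) ^ (S.card + T.card) * φ T = φ J := by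
  have h1 : ∑ S ∈ J.powerset, ∑ T ∈ S.powerset, (-1 : ℝ) ^ (S.card + T.card) * φ T =
      ∑ T ∈ J.powerset, ∑ S ∈ J.powerset.filter (fun S => T ⊆ S),
        (-1 : ℝ) ^ (S.card + T.card) * φ T := by
    refine Finset.sum_comm' ?_
    intro S T
    simp only [mem_powerset, mem_filter]
    constructor
    · rintro ⟨h1, h2⟩; exact ⟨⟨h1, h2⟩, h2.trans h1⟩
    · rintro ⟨⟨h1, h2⟩, _⟩; exact ⟨h1, h2⟩
  rw [h1]
  rw [Finset.sum_eq_single J]
  · have : J.powerset.filter (fun S => J ⊆ S) = {J} := by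
      ext S
      simp only [mem_filter, mem_powerset, mem_singleton]
      constructor
      · rintro ⟨h1, h2⟩; exact Finset.Subset.antisymm h1 h2
      · rintro rfl; exact ⟨Finset.Subset.refl _, Finset.Subset.refl _⟩
    rw [this, Finset.sum_singleton]
    rw [← two_mul, pow_mul]
    simp
  · intro T hT hTJ
    have hTJ' : T ⊆ J := mem_powerset.mp hT
    obtain ⟨i, hiJ, hiT⟩ : ∃ i, i ∈ J ∧ i ∉ T := by
      by_contra hcon
      push_neg at hcon
      exact hTJ (Finset.Subset.antisymm hTJ' hcon)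
    refine Finset.sum_involution (fun S _ => flipF i S) ?_ ?_ ?_ ?_
    · intro S _
      have h2 := sign_flipF T.card i S
      rw [add_comm (flipF i S).card, add_comm S.card, h2]; ring
    · intro S _ _
      exact flipF_ne i S
    · intro S hS
      simp only [mem_filter, mem_powerset] at hS ⊢
      refine ⟨flipF_mem_powerset hiJ hS.1, ?_⟩
      unfold flipF
      by_cases h3 : i ∈ S
      · rw [if_pos h3]
        intro x hx
        refine mem_erase.mpr ⟨?_, hS.2 hx⟩
        rintro rfl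
        exact hiT hx
      · rw [if_neg h3]
        exact hS.2.trans (subset_insert _ _)
    · intro S _
      exact flipF_flipF i S
  · intro h
    exact absurd (mem_powerset.mpr (Finset.Subset.refl J)) h

lemma PT_eq_sum_QS (F : (I → ℝ) → ℝ) (J : Finset I) (w : I → ℝ) :
    PT (J : Set I) F w = ∑ S ∈ J.powerset, QS S F w := by
  unfold QS
  exact (moebius (fun T => PT (T : Set I) F w) J).symm

lemma integral_PT_mul_PT {F G : (I → ℝ) → ℝ} (hF : BM F) (hG : BM G) (J : Finset I) :
    ∫ w, PT (J : Set I) F w * PT (J : Set I) G w ∂(PI I) =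
      ∑ S ∈ J.powerset, ∫ w, QS S F w * QS S G w ∂(PI I) := by
  simp only [PT_eq_sum_QS, Finset.sum_mul_sum]
  rw [integral_finset_sum]
  · refine Finset.sum_congr rfl fun S hS => ?_
    rw [integral_finset_sum]
    · rw [Finset.sum_eq_single S]
      · intro S' _ hne
        exact QS_orth hF hG hne.symm
      · intro h
        exact absurd hS h
    · intro S' _
      exact ((hF.QS S).mul (hG.QS S')).integrable
  · intro S _
    exact (BM.sum _ fun S' _ => (hF.QS S).mul (hG.QS S')).integrable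

/-- Bessel -/
lemma sum_QS_sq_le {F : (I → ℝ) → ℝ} (hF : BM F) (J : Finset I) :
    ∑ S ∈ J.powerset, ∫ w, QS S F w * QS S F w ∂(PI I) ≤ ∫ w, F w * F w ∂(PI I) := by
  rw [← integral_PT_mul_PT hF hF]
  have hP := hF.PT (J : Set I)
  have h0 : 0 ≤ ∫ w, (F w - PT (J : Set I) F w) * (F w - PT (J : Set I) F w) ∂(PI I) :=
    integral_nonneg fun w => mul_self_nonneg _
  have h1 : ∀ w, (F w - PT (J : Set I) F w) * (F w - PT (J : Set I) F w) =
      F w * F w - 2 * (F w * PT (J : Set I) F w) + PT (J : Set I) F w * PT (J : Set I) F w := by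
    intro w; ring
  simp only [h1] at h0
  rw [integral_add, integral_sub, integral_const_mul] at h0
  · rw [PT_key' hF hF] at h0
    linarith
  · exact (hF.mul hF).integrable
  · exact ((hF.mul hP).const_mul 2).integrable
  · exact (BM.add (hF.mul hF) ((hF.mul hP).const_mul (-2))).integrable.congr
      (Eventually.of_forall fun w => by simp; ring)
  · exact (hP.mul hP).integrable

/-! ### Lévy -/

/-- the sigma-algebra of the coordinates in `J` -/
def cyl (J : Set I) : MeasurableSpace (I → ℝ) :=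
  MeasurableSpace.comap (fun w => glue J w 0) inferInstance

lemma measurable_glue_zero (J : Set I) : Measurable fun w : I → ℝ => glue J w 0 :=
  (measurable_glue J).comp (measurable_id.prodMk measurable_const)

lemma cyl_le (J : Set I) : cyl J ≤ (inferInstance : MeasurableSpace (I → ℝ)) :=
  (measurable_glue_zero J).comap_le

lemma cyl_mono {J J' : Set I} (h : J ⊆ J') : cyl J ≤ cyl J' := by
  have h1 : (fun w : I → ℝ => glue J w 0) = (fun w => glue J w 0) ∘ (fun w => glue J' w 0) := by
    funext w i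
    simp only [Function.comp, glue]
    by_cases hi : i ∈ J
    · simp [hi, h hi]
    · simp [hi]
  unfold cyl
  rw [h1, ← MeasurableSpace.comap_comp]
  exact MeasurableSpace.comap_mono (measurable_glue_zero J).comap_le

lemma measurable_coord_cyl {J : Set I} {i : I} (h : i ∈ J) :
    Measurable[cyl J] fun w : I → ℝ => w i := by
  have h1 : (fun w : I → ℝ => w i) = (fun u : I → ℝ => u i) ∘ (fun w => glue J w 0) := by
    funext w
    simp [glue, h]
  rw [h1]
  exact (measurable_pi_apply i).comp (comap_measurable _)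

lemma PT_measurable_cyl {F : (I → ℝ) → ℝ} (hF : BM F) (J : Set I) :
    Measurable[cyl J] (PT J F) := by
  have h1 : PT J F = PT J F ∘ (fun w => glue J w 0) := by
    funext w
    simp [PT_glue]
  rw [h1]
  exact (measurable_PT J hF.meas).comp (comap_measurable _)

lemma setIntegral_PT {F : (I → ℝ) → ℝ} (hF : BM F) (J : Set I) {s : Set (I → ℝ)}
    (hs : MeasurableSet[cyl J] s) :
    ∫ x in s, PT J F x ∂(PI I) = ∫ x in s, F x ∂(PI I) := by
  have hs' : MeasurableSet s := cyl_le J s hs
  set g : (I → ℝ) → ℝ := s.indicator 1 with hg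
  have hgB : BM g := ⟨measurable_const.indicator hs', 1, fun w => by
    by_cases h : w ∈ s <;> simp [hg, h]⟩
  obtain ⟨s', _, rfl⟩ := hs
  have hPg : ∀ w, PT J g w = g w := by
    intro w
    unfold PT
    have : ∀ w', g (glue J w w') = g w := by
      intro w'
      simp only [hg, Set.indicator, Set.mem_preimage, glue_glue_left, Pi.one_apply]
    simp [this]
  have h1 : ∀ h : (I → ℝ) → ℝ, ∫ x in (fun w => glue J w 0) ⁻¹' s', h x ∂(PI I) =
      ∫ x, h x * g x ∂(PI I) := by
    intro h
    rw [← integral_indicator hs']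
    congr 1
    funext x
    by_cases hx : x ∈ (fun w => glue J w 0) ⁻¹' s' <;> simp [hg, hx]
  rw [h1, h1, PT_key hF hgB, ← PT_key' hF hgB]
  simp only [hPg]

lemma PT_ae_eq_condExp {F : (I → ℝ) → ℝ} (hF : BM F) (J : Set I) :
    PT J F =ᵐ[PI I] (PI I)[F | cyl J] := by
  have hle := cyl_le J
  refine ae_eq_condExp_of_forall_setIntegral_eq hle hF.integrable ?_ ?_ ?_
  · intro s _ _
    exact (hF.PT J).integrable.integrableOn
  · intro s hs _
    exact setIntegral_PT hF J hs
  · exact (PT_measurable_cyl hF J).stronglyMeasurable.aestronglyMeasurable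

/-- the increasing exhaustion -/
def Jn (e : ℕ → I) (n : ℕ) : Finset I := (Finset.range n).image e

lemma Jn_mono (e : ℕ → I) : Monotone (Jn e) := by
  intro m n h
  exact Finset.image_subset_image (Finset.range_mono h)

/-- the filtration of the exhaustion -/
def filtJ (e : ℕ → I) : Filtration ℕ (inferInstance : MeasurableSpace (I → ℝ)) where
  seq n := cyl ((Jn e n : Finset I) : Set I)
  mono' := by
    intro m n h
    exact cyl_mono (by exact_mod_cast Jn_mono e h)
  le' n := cyl_le _

lemma tendsto_PT {F : (I → ℝ) → ℝ} (hF : BM F) {e : ℕ → I} (he : Function.Surjective e) :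
    ∀ᵐ w ∂(PI I), Tendsto (fun n => PT ((Jn e n : Finset I) : Set I) F w) atTop (𝓝 (F w)) := by
  have hsup : (inferInstance : MeasurableSpace (I → ℝ)) ≤ ⨆ n, filtJ e n := by
    change MeasurableSpace.pi ≤ _
    unfold MeasurableSpace.pi
    refine iSup_le fun i => ?_
    obtain ⟨n, rfl⟩ := he i
    refine le_trans ?_ (le_iSup _ (n + 1))
    have h1 : e n ∈ ((Jn e (n + 1) : Finset I) : Set I) := by
      simp only [Jn, coe_image, coe_range]
      exact ⟨n, by simp, rfl⟩
    exact (measurable_coord_cyl h1).comap_le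
  have h1 := hF.integrable.tendsto_ae_condExp (ℱ := filtJ e)
    (hF.meas.mono hsup le_rfl).stronglyMeasurable
  have h2 : ∀ᵐ w ∂(PI I), ∀ n, PT ((Jn e n : Finset I) : Set I) F w =
      ((PI I)[F | filtJ e n]) w :=
    ae_all_iff.mpr fun n => PT_ae_eq_condExp hF _
  filter_upwards [h1, h2] with w h3 h4
  simpa [h4] using h3

lemma tendsto_integral_PT {F G : (I → ℝ) → ℝ} (hF : BM F) (hG : BM G) {e : ℕ → I}
    (he : Function.Surjective e) :
    Tendsto (fun n => ∫ w, PT ((Jn e n : Finset I) : Set I) F w *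
        PT ((Jn e n : Finset I) : Set I) G w ∂(PI I)) atTop (𝓝 (∫ w, F w * G w ∂(PI I))) := by
  obtain ⟨B, hB⟩ := hF.bdd
  obtain ⟨B', hB'⟩ := hG.bdd
  simp only [← PT_key hF hG]
  refine tendsto_integral_of_dominated_convergence (fun _ => B * B') ?_
    (integrable_const _) ?_ ?_
  · intro n
    exact ((hF.PT _).mul hG).meas.aestronglyMeasurable
  · intro n
    refine Eventually.of_forall fun w => ?_
    rw [Real.norm_eq_abs, abs_mul]
    exact mul_le_mul (abs_PT_le _ hB w) (hB' w) (abs_nonneg _) ((abs_nonneg _).trans (hB w))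
  · filter_upwards [tendsto_PT hF he] with w hw
    exact hw.mul_const _

/-! ### Cauchy-Schwarz -/

lemma integral_mul_sq_le {X Y : (I → ℝ) → ℝ} (hX : BM X) (hY : BM Y) :
    (∫ w, X w * Y w ∂(PI I)) ^ 2 ≤ (∫ w, X w * X w ∂(PI I)) * ∫ w, Y w * Y w ∂(PI I) := by
  set a := ∫ w, X w * X w ∂(PI I) with ha
  set b := ∫ w, X w * Y w ∂(PI I) with hb
  set c := ∫ w, Y w * Y w ∂(PI I) with hc
  have h0 : ∀ t : ℝ, 0 ≤ a * t ^ 2 + 2 * b * t + c := by
    intro t
    have h1 : 0 ≤ ∫ w, (t * X w + Y w) * (t * X w + Y w) ∂(PI I) :=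
      integral_nonneg fun w => mul_self_nonneg _
    have h2 : ∀ w, (t * X w + Y w) * (t * X w + Y w) =
        t ^ 2 * (X w * X w) + (2 * t) * (X w * Y w) + Y w * Y w := by
      intro w; ring
    simp only [h2] at h1
    rw [integral_add, integral_add, integral_const_mul, integral_const_mul] at h1
    · nlinarith
    · exact ((hX.mul hX).const_mul _).integrable
    · exact ((hX.mul hY).const_mul _).integrable
    · exact (((hX.mul hX).const_mul _).add ((hX.mul hY).const_mul _)).integrable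
    · exact (hY.mul hY).integrable
  have ha0 : 0 ≤ a := integral_nonneg fun w => mul_self_nonneg _
  have hc0 : 0 ≤ c := integral_nonneg fun w => mul_self_nonneg _
  by_cases ha1 : a = 0
  · by_contra hcon
    push Not at hcon
    have hb0 : b ≠ 0 := by
      rintro h
      rw [h, ha1] at hcon
      nlinarith
    have := h0 (-(c + 1) / (2 * b))
    rw [ha1] at this
    have h5 : 2 * b * (-(c + 1) / (2 * b)) = -(c + 1) := by field_simp
    rw [h5] at this
    simp only [zero_mul, zero_add] at this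
    linarith
  · have ha2 : 0 < a := lt_of_le_of_ne ha0 (Ne.symm ha1)
    have := h0 (-b / a)
    have h3 : a * (-b / a) ^ 2 + 2 * b * (-b / a) + c = c - b ^ 2 / a := by
      field_simp; ring
    rw [h3] at this
    have h4 : b ^ 2 / a ≤ c := by linarith
    rw [div_le_iff₀ ha2] at h4
    nlinarith

/-- the `L²` norm of a component -/
def aQ (F : (I → ℝ) → ℝ) (S : Finset I) : ℝ := Real.sqrt (∫ w, QS S F w * QS S F w ∂(PI I))

lemma aQ_nonneg (F : (I → ℝ) → ℝ) (S : Finset I) : 0 ≤ aQ F S := Real.sqrt_nonneg _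

lemma aQ_sq (F : (I → ℝ) → ℝ) (S : Finset I) :
    aQ F S ^ 2 = ∫ w, QS S F w * QS S F w ∂(PI I) :=
  Real.sq_sqrt (integral_nonneg fun w => mul_self_nonneg _)

lemma abs_integral_QS_le {F G : (I → ℝ) → ℝ} (hF : BM F) (hG : BM G) (S : Finset I) :
    |∫ w, QS S F w * QS S G w ∂(PI I)| ≤ aQ F S * aQ G S := by
  have h := integral_mul_sq_le (hF.QS S) (hG.QS S)
  rw [← aQ_sq, ← aQ_sq] at h
  exact abs_le_of_sq_le_sq (by nlinarith) (mul_nonneg (aQ_nonneg _ _) (aQ_nonneg _ _))

lemma QS_empty (F : (I → ℝ) → ℝ) (w : I → ℝ) : QS ∅ F w = ∫ u, F u ∂(PI I) := by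
  simp [QS, PT_empty]

/-- the correlation is bounded by the sum over nonempty `S` -/
theorem hoeff_corr [Countable I] [Nonempty I] {F G : (I → ℝ) → ℝ} (hF : BM F) (hG : BM G)
    (hm : ∫ u, F u ∂(PI I) = 0) :
    ENNReal.ofReal |∫ w, F w * G w ∂(PI I)| ≤
      ∑' S : Finset I, if S.Nonempty then
        ENNReal.ofReal (aQ F S) * ENNReal.ofReal (aQ G S) else 0 := by
  obtain ⟨e, he⟩ := exists_surjective_nat I
  have h1 := tendsto_integral_PT hF hG he
  have h2 : Tendsto (fun n => ENNReal.ofReal |∫ w, PT ((Jn e n : Finset I) : Set I) F w *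
        PT ((Jn e n : Finset I) : Set I) G w ∂(PI I)|) atTop
      (𝓝 (ENNReal.ofReal |∫ w, F w * G w ∂(PI I)|)) :=
    (ENNReal.continuous_ofReal.comp continuous_abs).continuousAt.tendsto.comp h1
  refine le_of_tendsto' h2 fun n => ?_
  rw [integral_PT_mul_PT hF hG]
  set J := Jn e n
  refine le_trans ?_ (ENNReal.sum_le_tsum J.powerset)
  have h3 : ∀ S ∈ J.powerset, ENNReal.ofReal |∫ w, QS S F w * QS S G w ∂(PI I)| ≤
      if S.Nonempty then ENNReal.ofReal (aQ F S) * ENNReal.ofReal (aQ G S) else 0 := by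
    intro S _
    by_cases hS : S.Nonempty
    · rw [if_pos hS, ← ENNReal.ofReal_mul (aQ_nonneg _ _)]
      exact ENNReal.ofReal_le_ofReal (abs_integral_QS_le hF hG S)
    · rw [if_neg hS, Finset.not_nonempty_iff_eq_empty.mp hS]
      simp [QS_empty, hm]
  refine le_trans ?_ (Finset.sum_le_sum h3)
  refine le_trans (ENNReal.ofReal_le_ofReal (Finset.abs_sum_le_sum_abs _ _)) ?_
  rw [ENNReal.ofReal_sum_of_nonneg fun _ _ => abs_nonneg _]

/-- Bessel, summed over all `S` -/
theorem hoeff_bessel {F : (I → ℝ) → ℝ} (hF : BM F) :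
    ∑' S : Finset I, ENNReal.ofReal (aQ F S) ^ 2 ≤ ENNReal.ofReal (∫ w, F w * F w ∂(PI I)) := by
  rw [ENNReal.tsum_eq_iSup_sum]
  refine iSup_le fun K => ?_
  set J : Finset I := K.biUnion id
  have hK : K ⊆ J.powerset := by
    intro S hS
    exact mem_powerset.mpr (Finset.subset_biUnion_of_mem id hS)
  refine le_trans (Finset.sum_le_sum_of_subset hK) ?_
  have h1 : ∀ S ∈ J.powerset, ENNReal.ofReal (aQ F S) ^ 2 =
      ENNReal.ofReal (∫ w, QS S F w * QS S F w ∂(PI I)) := by
    intro S _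
    rw [← aQ_sq, ENNReal.ofReal_pow (aQ_nonneg _ _)]
  rw [Finset.sum_congr rfl h1,
    ← ENNReal.ofReal_sum_of_nonneg fun _ _ => integral_nonneg fun w => mul_self_nonneg _]
  exact ENNReal.ofReal_le_ofReal (sum_QS_sq_le hF J)

/-! ### Equivariance -/

/-- coordinate action -/
def pm (e : I ≃ I) (w : I → ℝ) : I → ℝ := fun i => w (e.symm i)

lemma measurable_pm (e : I ≃ I) : Measurable (pm e) :=
  measurable_pi_iff.mpr fun i => measurable_pi_apply _

lemma glue_pm (e : I ≃ I) (T : Set I) (w w' : I → ℝ) :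
    glue (e '' T) (pm e w) (pm e w') = pm e (glue T w w') := by
  funext i
  simp only [glue, pm]
  have : i ∈ e '' T ↔ e.symm i ∈ T := by
    constructor
    · rintro ⟨x, hx, rfl⟩; simpa using hx
    · intro h; exact ⟨_, h, by simp⟩
  by_cases h : e.symm i ∈ T
  · rw [if_pos (this.mpr h), if_pos h]
  · rw [if_neg (fun h' => h (this.mp h')), if_neg h]

lemma PT_pm (e : I ≃ I) (T : Set I) {F : (I → ℝ) → ℝ} (hF : BM F) (w : I → ℝ) :
    PT (e '' T) F (pm e w) = PT T (F ∘ pm e) w := by
  unfold PT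
  have h1 : (PI I).map (pm e) = PI I := map_perm e
  have hmeas : Measurable fun u => F (glue (e '' T) (pm e w) u) :=
    (hF.glue_right _ _).meas
  conv_lhs => rw [← h1]
  rw [integral_map (measurable_pm e).aemeasurable hmeas.aestronglyMeasurable]
  congr 1
  funext u
  change F (glue (e '' T) (pm e w) (pm e u)) = F (pm e (glue T w u))
  rw [glue_pm]

lemma QS_pm (e : I ≃ I) (S : Finset I) {F : (I → ℝ) → ℝ} (hF : BM F) (w : I → ℝ) :
    QS (S.map e.toEmbedding) F (pm e w) = QS S (F ∘ pm e) w := by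
  unfold QS
  symm
  refine Finset.sum_bij' (fun T _ => T.map e.toEmbedding) (fun T _ => T.map e.symm.toEmbedding)
    ?_ ?_ ?_ ?_ ?_
  · intro T hT
    exact mem_powerset.mpr (Finset.map_subset_map.mpr (mem_powerset.mp hT))
  · intro T hT
    refine mem_powerset.mpr ?_
    have h1 := Finset.map_subset_map (f := e.symm.toEmbedding).mpr (mem_powerset.mp hT)
    simpa [Finset.map_map] using h1
  · intro T _
    ext x; simp
  · intro T _
    ext x; simp
  · intro T _
    rw [card_map, card_map]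
    congr 1
    rw [← PT_pm e _ hF]
    simp

lemma PT_ae_congr (T : Set I) {f f' : (I → ℝ) → ℝ} (hf : Measurable f) (hf' : Measurable f')
    (h : f =ᵐ[PI I] f') : PT T f =ᵐ[PI I] PT T f' := by
  have h1 : ∀ᵐ y ∂(((PI I).prod (PI I)).map (fun p => glue T p.1 p.2)), f y = f' y := by
    rw [map_glue]; exact h
  have h2 := ae_of_ae_map (measurable_glue T).aemeasurable h1
  have h3 := Measure.ae_ae_of_ae_prod h2
  filter_upwards [h3] with w hw
  exact integral_congr_ae hw

lemma QS_ae_congr (S : Finset I) {f f' : (I → ℝ) → ℝ} (hf : Measurable f) (hf' : Measurable f')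
    (h : f =ᵐ[PI I] f') : QS S f =ᵐ[PI I] QS S f' := by
  have h1 : ∀ T ∈ S.powerset, PT (T : Set I) f =ᵐ[PI I] PT (T : Set I) f' :=
    fun T _ => PT_ae_congr _ hf hf' h
  have h2 : ∀ᵐ w ∂(PI I), ∀ T ∈ S.powerset, PT (T : Set I) f w = PT (T : Set I) f' w :=
    (Finset.eventually_all _).mpr h1
  filter_upwards [h2] with w hw
  unfold QS
  exact Finset.sum_congr rfl fun T hT => by rw [hw T hT]

/-- equivariance of the component norms -/
theorem aQ_pm (e : I ≃ I) (S : Finset I) {F F₀ : (I → ℝ) → ℝ} (hF : BM F) (hF₀ : BM F₀)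
    (h : (F ∘ pm e) =ᵐ[PI I] F₀) : aQ F (S.map e.toEmbedding) = aQ F₀ S := by
  unfold aQ
  congr 1
  have h1 : (PI I).map (pm e) = PI I := map_perm e
  have hm : Measurable fun w => QS (S.map e.toEmbedding) F w * QS (S.map e.toEmbedding) F w :=
    ((hF.QS _).mul (hF.QS _)).meas
  conv_lhs => rw [← h1]
  rw [integral_map (measurable_pm e).aemeasurable hm.aestronglyMeasurable]
  simp only [QS_pm e S hF]
  have h2 := QS_ae_congr S (hF.meas.comp (measurable_pm e)) hF₀.meas h
  refine integral_congr_ae ?_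
  filter_upwards [h2] with w hw
  change QS S (F ∘ pm e) w * QS S (F ∘ pm e) w = _
  rw [hw]

end Vale.Agent.Lib.P161.Crit
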