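import Vale.Agent.Lib.P161.Crit.Tree2

/-!
The non-backtracking operator on the regular tree: the Schur test.
-/

open MeasureTheory Filter Topology Finset
open scoped ENNReal

noncomputable section
namespace Vale.Agent.Lib.P161.Crit

open scoped Classical
open Vale.Agent.Lib.P161

variable {V : Type} (C : CT V)

/-- powers of the non-backtracking operator -/
def Bk : ℕ → (V → V → ℝ≥0∞) → V → V → ℝ≥0∞
  | 0, g, a, b => g a b
  | k + 1, g, a, b => ∑ c ∈ (C.nb a).erase b, Bk k g c a

/-- its kernel -/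
def Nk : ℕ → V → V → V → V → ℝ≥0∞
  | 0, a, b, a', b' => if a = a' ∧ b = b' then 1 else 0
  | k + 1, a, b, a', b' => ∑ c ∈ (C.nb a).erase b, Nk k c a a' b'

/-- sum over directed edges -/
def Ee (g : V → V → ℝ≥0∞) : ℝ≥0∞ := ∑' a, ∑ b ∈ C.nb a, g a b

lemma tsum_fsum {β γ : Type} (K : Finset β) (g : β → γ → ℝ≥0∞) :
    ∑' x, ∑ b ∈ K, g b x = ∑ b ∈ K, ∑' x, g b x :=
  Summable.tsum_finsetSum fun _ _ => ENNReal.summable

lemma Ee_mono {g g' : V → V → ℝ≥0∞} (h : ∀ a b, C.G.Adj a b → g a b ≤ g' a b) :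
    Ee C g ≤ Ee C g' :=
  ENNReal.tsum_le_tsum fun a => Finset.sum_le_sum fun b hb => h a b ((C.hnb a b).mp hb)

lemma Ee_congr {g g' : V → V → ℝ≥0∞} (h : ∀ a b, C.G.Adj a b → g a b = g' a b) :
    Ee C g = Ee C g' :=
  le_antisymm (Ee_mono C fun a b hab => (h a b hab).le) (Ee_mono C fun a b hab => (h a b hab).ge)

lemma Ee_add (g g' : V → V → ℝ≥0∞) :
    Ee C (fun a b => g a b + g' a b) = Ee C g + Ee C g' := by
  unfold Ee
  simp only [Finset.sum_add_distrib]
  exact ENNReal.tsum_add

lemma Ee_const_mul (c : ℝ≥0∞) (g : V → V → ℝ≥0∞) :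
    Ee C (fun a b => c * g a b) = c * Ee C g := by
  unfold Ee
  simp only [← Finset.mul_sum]
  exact ENNReal.tsum_mul_left

lemma fsum_eq_tsum (a : V) (h : V → ℝ≥0∞) :
    ∑ b ∈ C.nb a, h b = ∑' b, if C.G.Adj a b then h b else 0 := by
  rw [tsum_eq_sum (s := C.nb a)]
  · refine Finset.sum_congr rfl fun b hb => ?_
    rw [if_pos ((C.hnb a b).mp hb)]
  · intro b hb
    rw [if_neg (fun h' => hb ((C.hnb a b).mpr h'))]

/-- reversal -/
lemma Ee_rev (g : V → V → ℝ≥0∞) : Ee C (fun a b => g b a) = Ee C g := by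
  unfold Ee
  simp only [fsum_eq_tsum C]
  rw [ENNReal.tsum_comm]
  refine tsum_congr fun a => tsum_congr fun b => ?_
  by_cases h : C.G.Adj a b
  · rw [if_pos h, if_pos h.symm]
  · rw [if_neg h, if_neg (fun h' => h h'.symm)]

lemma Ee_comm (X : V → V → V → V → ℝ≥0∞) :
    Ee C (fun a b => Ee C (fun a' b' => X a b a' b')) =
      Ee C (fun a' b' => Ee C (fun a b => X a b a' b')) := by
  unfold Ee
  simp only [fsum_eq_tsum C]
  calc ∑' a, ∑' b, (if C.G.Adj a b then ∑' a', ∑' b', if C.G.Adj a' b' then X a b a' b' else 0 else 0)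
      = ∑' a, ∑' b, ∑' a', ∑' b', if C.G.Adj a b then (if C.G.Adj a' b' then X a b a' b' else 0) else 0 := by
        refine tsum_congr fun a => tsum_congr fun b => ?_
        by_cases h : C.G.Adj a b <;> simp [h]
    _ = ∑' a', ∑' b', ∑' a, ∑' b, if C.G.Adj a' b' then (if C.G.Adj a b then X a b a' b' else 0) else 0 := by
        calc _ = ∑' a, ∑' a', ∑' b, ∑' b', if C.G.Adj a b then (if C.G.Adj a' b' then X a b a' b' else 0) else 0 := by
              refine tsum_congr fun a => ENNReal.tsum_comm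
          _ = ∑' a', ∑' a, ∑' b, ∑' b', if C.G.Adj a b then (if C.G.Adj a' b' then X a b a' b' else 0) else 0 := ENNReal.tsum_comm
          _ = ∑' a', ∑' a, ∑' b', ∑' b, if C.G.Adj a b then (if C.G.Adj a' b' then X a b a' b' else 0) else 0 := by
              refine tsum_congr fun a' => tsum_congr fun a => ENNReal.tsum_comm
          _ = ∑' a', ∑' b', ∑' a, ∑' b, if C.G.Adj a b then (if C.G.Adj a' b' then X a b a' b' else 0) else 0 := by
              refine tsum_congr fun a' => ENNReal.tsum_comm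
          _ = _ := by
              refine tsum_congr fun a' => tsum_congr fun b' => tsum_congr fun a => tsum_congr fun b => ?_
              by_cases h : C.G.Adj a b <;> by_cases h' : C.G.Adj a' b' <;> simp [h, h']
    _ = _ := by
        refine tsum_congr fun a' => tsum_congr fun b' => ?_
        by_cases h : C.G.Adj a' b' <;> simp [h]

lemma Nk_fwd (g : V → V → ℝ≥0∞) (k : ℕ) : ∀ a b, C.G.Adj a b →
    Ee C (fun a' b' => Nk C k a b a' b' * g a' b') = Bk C k g a b := by
  induction k with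
  | zero =>
    intro a b hab
    unfold Ee
    rw [tsum_eq_single a]
    · rw [Finset.sum_eq_single b]
      · simp [Nk, Bk]
      · intro b' _ hne
        simp [Nk, hne.symm]
      · intro h
        exact absurd ((C.hnb a b).mpr hab) h
    · intro a' hne
      refine Finset.sum_eq_zero fun b' _ => ?_
      simp [Nk, hne.symm]
  | succ k ih =>
    intro a b hab
    simp only [Nk, Bk, Finset.sum_mul]
    unfold Ee
    have h1 : ∀ a', ∑ b' ∈ C.nb a', ∑ c ∈ (C.nb a).erase b, Nk C k c a a' b' * g a' b' =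
        ∑ c ∈ (C.nb a).erase b, ∑ b' ∈ C.nb a', Nk C k c a a' b' * g a' b' :=
      fun a' => Finset.sum_comm
    simp only [h1]
    rw [tsum_fsum]
    refine Finset.sum_congr rfl fun c hc => ?_
    have hac : C.G.Adj c a := ((C.hnb a c).mp (Finset.mem_of_mem_erase hc)).symm
    exact ih c a hac

/-- one step -/
def B1 (g : V → V → ℝ≥0∞) (x y : V) : ℝ≥0∞ := ∑ c ∈ (C.nb x).erase y, g c x

lemma Bk_succ' (g : V → V → ℝ≥0∞) (k : ℕ) : ∀ a b, Bk C (k + 1) g a b = Bk C k (B1 C g) a b := by
  induction k with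
  | zero => intro a b; rfl
  | succ k ih =>
    intro a b
    change ∑ c ∈ (C.nb a).erase b, Bk C (k + 1) g c a = ∑ c ∈ (C.nb a).erase b, Bk C k (B1 C g) c a
    exact Finset.sum_congr rfl fun c _ => ih c a

lemma Nk_bwd (k : ℕ) : ∀ (p : V → V → ℝ≥0∞) (a' b' : V), C.G.Adj a' b' →
    Ee C (fun a b => p a b * Nk C k a b a' b') = Bk C k (fun x y => p y x) b' a' := by
  induction k with
  | zero =>
    intro p a' b' hab
    unfold Ee
    rw [tsum_eq_single a']
    · rw [Finset.sum_eq_single b']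
      · simp [Nk, Bk]
      · intro b _ hne
        simp [Nk, hne]
      · intro h
        exact absurd ((C.hnb a' b').mpr hab) h
    · intro a hne
      refine Finset.sum_eq_zero fun b _ => ?_
      simp [Nk, hne]
  | succ k ih =>
    intro p a' b' hab
    rw [Bk_succ']
    have h1 := ih (fun c a => ∑ b ∈ (C.nb a).erase c, p a b) a' b' hab
    have h2 : (fun x y => ∑ b ∈ (C.nb x).erase y, p x b) = B1 C (fun x y => p y x) := by
      funext x y
      rfl
    rw [h2] at h1
    rw [← h1]
    rw [← Ee_rev C (fun c a => (∑ b ∈ (C.nb a).erase c, p a b) * Nk C k c a a' b')]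
    unfold Ee
    refine tsum_congr fun a => ?_
    simp only [Nk, Finset.mul_sum, Finset.sum_mul]
    refine Finset.sum_comm' ?_
    intro b c
    simp only [mem_erase]
    constructor
    · rintro ⟨h3, h4, h5⟩; exact ⟨⟨h4.symm, h3⟩, h5⟩
    · rintro ⟨⟨h3, h4⟩, h5⟩; exact ⟨h4, h3.symm, h5⟩

/-- AM-GM in `ℝ≥0∞` -/
lemma amgm_enn (x y u : ℝ≥0∞) (hu0 : u ≠ 0) (hu : u ≠ ∞) :
    2 * (x * y) ≤ x ^ 2 * u + y ^ 2 * u⁻¹ := by
  have hu' : u⁻¹ ≠ 0 := ENNReal.inv_ne_zero.mpr hu
  by_cases hx : x = ∞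
  · by_cases hy : y = 0
    · simp [hy]
    · subst hx
      simp [ENNReal.top_mul hu0]
  by_cases hy : y = ∞
  · by_cases hx0 : x = 0
    · simp [hx0]
    · subst hy
      simp [ENNReal.top_mul hu']
  lift x to NNReal using hx
  lift y to NNReal using hy
  lift u to NNReal using hu
  have hu1 : u ≠ 0 := by exact_mod_cast hu0
  rw [← ENNReal.coe_inv hu1]
  norm_cast
  rw [← NNReal.coe_le_coe]
  push_cast
  have hu2 : (0 : ℝ) < u := by positivity
  have h3 : (x : ℝ) ^ 2 * u + y ^ 2 * (u : ℝ)⁻¹ - 2 * (x * y) = ((x : ℝ) * u - y) ^ 2 * (u : ℝ)⁻¹ := by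
    field_simp
    ring
  have h4 : 0 ≤ ((x : ℝ) * u - y) ^ 2 * (u : ℝ)⁻¹ := by positivity
  linarith

section weights

variable (s : ℝ≥0∞) (hs0 : s ≠ 0) (hst : s ≠ ∞) (hss : s * s = ((C.d - 1 : ℕ) : ℝ≥0∞))

/-- height -/
def hh (a : V) : ℕ := C.G.dist a C.o

/-- the Schur weight -/
def psiW (a b : V) : ℝ≥0∞ := s⁻¹ ^ min (hh C a) (hh C b)

lemma psiW_comm (a b : V) : psiW C s a b = psiW C s b a := by
  unfold psiW; rw [min_comm]

include hs0 hst in
lemma psiW_ne_zero (a b : V) : psiW C s a b ≠ 0 := by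
  unfold psiW
  exact pow_ne_zero _ (ENNReal.inv_ne_zero.mpr hst)

include hs0 hst in
lemma psiW_ne_top (a b : V) : psiW C s a b ≠ ∞ := by
  unfold psiW
  exact ENNReal.pow_ne_top (ENNReal.inv_ne_top.mpr hs0)

lemma hh_adj {a c : V} (h : C.G.Adj a c) : hh C c = hh C a + 1 ∨ hh C a = hh C c + 1 := by
  have := dist_adj C.hT C.o h
  unfold hh
  rw [dist_sym c, dist_sym a]
  omega

lemma card_erase_nb {a b : V} (h : C.G.Adj a b) : (((C.nb a).erase b).card : ℝ≥0∞) = ((C.d - 1 : ℕ) : ℝ≥0∞) := by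
  rw [card_erase_of_mem ((C.hnb a b).mpr h), C.hcard]

include hs0 hst hss in
lemma Bk_psi (k : ℕ) : ∀ a b, C.G.Adj a b →
    (hh C b < hh C a → Bk C k (psiW C s) a b ≤ s ^ k * psiW C s a b) ∧
    (hh C a < hh C b → Bk C k (psiW C s) a b ≤ (s ^ k + k * s ^ (k + 1)) * psiW C s a b) := by
  have hinv : s * s⁻¹ = 1 := ENNReal.mul_inv_cancel hs0 hst
  induction k with
  | zero =>
    intro a b _
    simp [Bk]
  | succ k ih =>
    intro a b hab
    constructor
    · intro hlt
      have h1 : hh C a = hh C b + 1 := by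
        rcases hh_adj C hab with h | h <;> omega
      have h2 : ∀ c ∈ (C.nb a).erase b, Bk C k (psiW C s) c a ≤ s ^ k * (s⁻¹ ^ hh C a) := by
        intro c hc
        have hac : C.G.Adj a c := (C.hnb a c).mp (Finset.mem_of_mem_erase hc)
        have hne : c ≠ b := Finset.ne_of_mem_erase hc
        have hcd : hh C c = hh C a + 1 :=
          away_of_ne_toward C.hT hac hab (by unfold hh at h1; omega) hne
        have := (ih c a hac.symm).1 (by omega)
        have h3 : psiW C s c a = s⁻¹ ^ hh C a := by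
          unfold psiW; rw [min_eq_right (by omega)]
        rwa [h3] at this
      change ∑ c ∈ (C.nb a).erase b, Bk C k (psiW C s) c a ≤ _
      refine (Finset.sum_le_sum h2).trans ?_
      rw [Finset.sum_const, nsmul_eq_mul, card_erase_nb C hab, ← hss]
      have h3 : psiW C s a b = s⁻¹ ^ hh C b := by
        unfold psiW; rw [min_eq_right (by omega)]
      rw [h3, h1, pow_succ]
      refine le_of_eq ?_
      calc s * s * (s ^ k * (s⁻¹ ^ hh C b * s⁻¹)) = s ^ (k + 1) * s⁻¹ ^ hh C b * (s * s⁻¹) := by ring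
        _ = _ := by rw [hinv, mul_one]
    · intro hlt
      have h1 : hh C b = hh C a + 1 := by
        rcases hh_adj C hab with h | h <;> omega
      have h3 : psiW C s a b = s⁻¹ ^ hh C a := by
        unfold psiW; rw [min_eq_left (by omega)]
      rw [h3]
      change ∑ c ∈ (C.nb a).erase b, Bk C k (psiW C s) c a ≤ _
      rw [← Finset.sum_filter_add_sum_filter_not _ (fun c => hh C c < hh C a)]
      set y := s⁻¹ ^ hh C a with hy
      have h4 : ∀ c ∈ ((C.nb a).erase b).filter (fun c => hh C c < hh C a),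
          Bk C k (psiW C s) c a ≤ (s ^ k + k * s ^ (k + 1)) * (s * y) := by
        intro c hc
        have hc1 := (Finset.mem_filter.mp hc).1
        have hc2 := (Finset.mem_filter.mp hc).2
        have hac : C.G.Adj a c := (C.hnb a c).mp (Finset.mem_of_mem_erase hc1)
        have h5 : hh C a = hh C c + 1 := by
          rcases hh_adj C hac with h | h <;> omega
        have := (ih c a hac.symm).2 hc2
        have h6 : psiW C s c a = s * y := by
          unfold psiW
          rw [min_eq_left (by omega), hy, h5, pow_succ]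
          calc s⁻¹ ^ hh C c = s⁻¹ ^ hh C c * (s * s⁻¹) := by rw [hinv, mul_one]
            _ = _ := by ring
        rwa [h6] at this
      have h5 : ∀ c ∈ ((C.nb a).erase b).filter (fun c => ¬ hh C c < hh C a),
          Bk C k (psiW C s) c a ≤ s ^ k * y := by
        intro c hc
        have hc1 := (Finset.mem_filter.mp hc).1
        have hc2 := (Finset.mem_filter.mp hc).2
        have hac : C.G.Adj a c := (C.hnb a c).mp (Finset.mem_of_mem_erase hc1)
        have h5 : hh C c = hh C a + 1 := by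
          rcases hh_adj C hac with h | h <;> omega
        have := (ih c a hac.symm).1 (by omega)
        have h6 : psiW C s c a = y := by
          unfold psiW
          rw [min_eq_right (by omega)]
        rwa [h6] at this
      have hc1 : (((C.nb a).erase b).filter (fun c => hh C c < hh C a)).card ≤ 1 := by
        refine Finset.card_le_one.mpr ?_
        intro c hc c' hc'
        have h1' := (Finset.mem_filter.mp hc).1
        have h2' := (Finset.mem_filter.mp hc).2
        have h3' := (Finset.mem_filter.mp hc').1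
        have h4' := (Finset.mem_filter.mp hc').2
        have hac : C.G.Adj a c := (C.hnb a c).mp (Finset.mem_of_mem_erase h1')
        have hac' : C.G.Adj a c' := (C.hnb a c').mp (Finset.mem_of_mem_erase h3')
        refine toward_unique C.hT (x := C.o) hac hac' ?_ ?_
        · rcases hh_adj C hac with h | h
          · omega
          · unfold hh at h; omega
        · rcases hh_adj C hac' with h | h
          · omega
          · unfold hh at h; omega
      have hc2 : ((((C.nb a).erase b).filter (fun c => ¬ hh C c < hh C a)).card : ℝ≥0∞) ≤ s * s := by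
        rw [hss, ← card_erase_nb C hab]
        exact_mod_cast Finset.card_filter_le _ _
      have hc1' : ((((C.nb a).erase b).filter (fun c => hh C c < hh C a)).card : ℝ≥0∞) ≤ 1 := by
        exact_mod_cast hc1
      calc _ ≤ ((((C.nb a).erase b).filter (fun c => hh C c < hh C a)).card : ℝ≥0∞) *
              ((s ^ k + k * s ^ (k + 1)) * (s * y)) +
            ((((C.nb a).erase b).filter (fun c => ¬ hh C c < hh C a)).card : ℝ≥0∞) * (s ^ k * y) := by
            refine add_le_add ?_ ?_
            · refine (Finset.sum_le_sum h4).trans ?_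
              rw [Finset.sum_const, nsmul_eq_mul]
            · refine (Finset.sum_le_sum h5).trans ?_
              rw [Finset.sum_const, nsmul_eq_mul]
        _ ≤ 1 * ((s ^ k + k * s ^ (k + 1)) * (s * y)) + (s * s) * (s ^ k * y) := by
            gcongr
        _ = _ := by
            push_cast
            ring

include hs0 hst hss in
lemma Bk_psi_le (k : ℕ) {a b : V} (hab : C.G.Adj a b) :
    Bk C k (psiW C s) a b ≤ (s ^ k + k * s ^ (k + 1)) * psiW C s a b := by
  rcases hh_adj C hab with h | h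
  · exact (Bk_psi C s hs0 hst hss k a b hab).2 (by omega)
  · refine ((Bk_psi C s hs0 hst hss k a b hab).1 (by omega)).trans ?_
    gcongr
    exact le_self_add

include hs0 hst hss in
/-- the Schur test for powers of the non-backtracking operator -/
theorem schur_nb (f : V → V → ℝ≥0∞) (k : ℕ) :
    Ee C (fun a b => f a b * Bk C k f a b) ≤
      (s ^ k + k * s ^ (k + 1)) * Ee C (fun a b => f a b ^ 2) := by
  set K := s ^ k + k * s ^ (k + 1) with hK
  set ψ := psiW C s with hψ
  have hψ0 : ∀ a b, ψ a b ≠ 0 := psiW_ne_zero C s hs0 hst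
  have hψt : ∀ a b, ψ a b ≠ ∞ := psiW_ne_top C s hs0 hst
  have hcan : ∀ a b, (ψ a b)⁻¹ * ψ a b = 1 := fun a b =>
    ENNReal.inv_mul_cancel (hψ0 a b) (hψt a b)
  -- first form
  have h1 : Ee C (fun a b => f a b * Bk C k f a b) =
      Ee C (fun a b => Ee C (fun a' b' => Nk C k a b a' b' * (f a b * f a' b'))) := by
    refine Ee_congr C fun a b hab => ?_
    rw [← Nk_fwd C f k a b hab, ← Ee_const_mul]
    congr 1
    funext a' b'
    ring
  have hA : Ee C (fun a b => Ee C (fun a' b' =>
      Nk C k a b a' b' * (f a b ^ 2 * (ψ a' b' * (ψ a b)⁻¹)))) ≤ K * Ee C (fun a b => f a b ^ 2) := by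
    rw [← Ee_const_mul]
    refine Ee_mono C fun a b hab => ?_
    have h2 : Ee C (fun a' b' => Nk C k a b a' b' * (f a b ^ 2 * (ψ a' b' * (ψ a b)⁻¹))) =
        f a b ^ 2 * (ψ a b)⁻¹ * Ee C (fun a' b' => Nk C k a b a' b' * ψ a' b') := by
      rw [← Ee_const_mul]
      congr 1
      funext a' b'
      ring
    rw [h2, Nk_fwd C ψ k a b hab]
    calc f a b ^ 2 * (ψ a b)⁻¹ * Bk C k ψ a b ≤ f a b ^ 2 * (ψ a b)⁻¹ * (K * ψ a b) := by
          gcongr
          exact Bk_psi_le C s hs0 hst hss k hab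
      _ = K * f a b ^ 2 * ((ψ a b)⁻¹ * ψ a b) := by ring
      _ = K * f a b ^ 2 := by rw [hcan, mul_one]
  have hB : Ee C (fun a b => Ee C (fun a' b' =>
      Nk C k a b a' b' * (f a' b' ^ 2 * (ψ a' b' * (ψ a b)⁻¹)⁻¹))) ≤
      K * Ee C (fun a b => f a b ^ 2) := by
    rw [Ee_comm, ← Ee_const_mul]
    refine Ee_mono C fun a' b' hab => ?_
    have h2 : Ee C (fun a b => Nk C k a b a' b' * (f a' b' ^ 2 * (ψ a' b' * (ψ a b)⁻¹)⁻¹)) =
        f a' b' ^ 2 * (ψ a' b')⁻¹ * Ee C (fun a b => ψ a b * Nk C k a b a' b') := by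
      rw [← Ee_const_mul]
      congr 1
      funext a b
      rw [ENNReal.mul_inv (Or.inl (hψ0 a' b')) (Or.inl (hψt a' b')), inv_inv]
      ring
    rw [h2, Nk_bwd C k ψ a' b' hab]
    have h3 : (fun x y => ψ y x) = ψ := by
      funext x y
      exact psiW_comm C s y x
    rw [h3]
    calc f a' b' ^ 2 * (ψ a' b')⁻¹ * Bk C k ψ b' a' ≤ f a' b' ^ 2 * (ψ a' b')⁻¹ * (K * ψ b' a') := by
          gcongr
          exact Bk_psi_le C s hs0 hst hss k hab.symm
      _ = K * f a' b' ^ 2 * ((ψ a' b')⁻¹ * ψ a' b') := by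
          have h5 : ψ b' a' = ψ a' b' := psiW_comm C s b' a'
          rw [h5]
          ring
      _ = K * f a' b' ^ 2 := by rw [hcan, mul_one]
  have h4 : 2 * Ee C (fun a b => f a b * Bk C k f a b) ≤ 2 * (K * Ee C (fun a b => f a b ^ 2)) := by
    rw [h1, ← Ee_const_mul]
    calc Ee C (fun a b => 2 * Ee C (fun a' b' => Nk C k a b a' b' * (f a b * f a' b'))) ≤
        Ee C (fun a b => Ee C (fun a' b' =>
          Nk C k a b a' b' * (f a b ^ 2 * (ψ a' b' * (ψ a b)⁻¹)) +
          Nk C k a b a' b' * (f a' b' ^ 2 * (ψ a' b' * (ψ a b)⁻¹)⁻¹))) := by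
          refine Ee_mono C fun a b _ => ?_
          rw [← Ee_const_mul]
          refine Ee_mono C fun a' b' _ => ?_
          have hu0 : ψ a' b' * (ψ a b)⁻¹ ≠ 0 :=
            mul_ne_zero (hψ0 _ _) (ENNReal.inv_ne_zero.mpr (hψt _ _))
          have hut : ψ a' b' * (ψ a b)⁻¹ ≠ ∞ :=
            ENNReal.mul_ne_top (hψt _ _) (ENNReal.inv_ne_top.mpr (hψ0 _ _))
          have := amgm_enn (f a b) (f a' b') _ hu0 hut
          calc 2 * (Nk C k a b a' b' * (f a b * f a' b')) =
              Nk C k a b a' b' * (2 * (f a b * f a' b')) := by ring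
            _ ≤ Nk C k a b a' b' * (f a b ^ 2 * (ψ a' b' * (ψ a b)⁻¹) +
                f a' b' ^ 2 * (ψ a' b' * (ψ a b)⁻¹)⁻¹) := by gcongr
            _ = _ := by ring
      _ = Ee C (fun a b => Ee C (fun a' b' =>
            Nk C k a b a' b' * (f a b ^ 2 * (ψ a' b' * (ψ a b)⁻¹)))) +
          Ee C (fun a b => Ee C (fun a' b' =>
            Nk C k a b a' b' * (f a' b' ^ 2 * (ψ a' b' * (ψ a b)⁻¹)⁻¹))) := by
          simp only [Ee_add]
      _ ≤ K * Ee C (fun a b => f a b ^ 2) + K * Ee C (fun a b => f a b ^ 2) := add_le_add hA hB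
      _ = 2 * (K * Ee C (fun a b => f a b ^ 2)) := by ring
  exact (ENNReal.mul_le_mul_iff_right (by simp) (by simp)).mp h4

end weights

end Vale.Agent.Lib.P161.Crit
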