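import Vale.Agent.Lib.P161.Crit.Gauge
import Vale.Agent.Lib.P161.Crit.Hoeff
import Vale.Agent.Lib.P161.Crit.NB

/-!
The Backhausz–Szegedy–Virág correlation bound for factors of iid on the tree, in the form needed:
the sum along a geodesic chain has variance linear in the length.
Proof: Hoeffding decomposition (`Hoeff`), mass transport over the vertex sets of the components,
Schur test for the non-backtracking operator (`NB`).
-/

open MeasureTheory Filter Topology Finset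
open scoped ENNReal

noncomputable section
namespace Vale.Agent.Lib.P161.Crit

open scoped Classical
open Vale.Agent.Lib.P161

variable {V : Type} (C : CT V)

/-- `H a b` is a bounded, mean zero, equivariant factor of the iid noise on the directed edges. -/
structure EdgeFactor (H : V → V → WW V → ℝ) (B : ℝ) : Prop where
  meas : ∀ a b, Measurable (H a b)
  bdd : ∀ a b w, |H a b w| ≤ B
  mean : ∀ a b, C.G.Adj a b → ∫ w, H a b w ∂(PW V) = 0
  equiv : ∀ (g : C.G ≃g C.G) (a b : V), C.G.Adj a b →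
    ∀ᵐ w ∂(PW V), H (g a) (g b) (actW C g w) = H a b w

/-! ### vertices of a coordinate set -/

/-- the vertices of a coordinate -/
def vertI : Ix V → Finset V
  | .ed e => e.toFinset
  | .no j => {j.2}
  | .la j => {j.2}

lemma vertI_nonempty (i : Ix V) : (vertI i).Nonempty := by
  cases i with
  | ed e =>
    induction e using Sym2.ind with
    | _ a b => exact ⟨a, by simp [vertI]⟩
  | no j => simp [vertI]
  | la j => simp [vertI]

lemma vertI_map (g : C.G ≃g C.G) (i : Ix V) :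
    vertI (IxMap C g i) = (vertI i).map g.toEquiv.toEmbedding := by
  cases i with
  | ed e =>
    ext v
    simp only [IxMap, vertI, Sym2.mem_toFinset, Finset.mem_map, Sym2.mem_map,
      Equiv.coe_fn_mk]
    rfl
  | no j => ext v; simp [IxMap, vertI]
  | la j => ext v; simp [IxMap, vertI]

/-- the vertices of a coordinate set -/
def vertS (S : Finset (Ix V)) : Finset V := S.biUnion vertI

lemma vertS_map (g : C.G ≃g C.G) (S : Finset (Ix V)) :
    vertS (S.map (IxMap C g).toEmbedding) = (vertS S).map g.toEquiv.toEmbedding := by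
  unfold vertS
  ext v
  simp only [Finset.mem_biUnion, Finset.mem_map, Equiv.coe_toEmbedding]
  constructor
  · rintro ⟨i, ⟨i', hi', rfl⟩, h⟩
    rw [vertI_map, Finset.mem_map] at h
    obtain ⟨u, hu, rfl⟩ := h
    exact ⟨u, ⟨i', hi', hu⟩, rfl⟩
  · rintro ⟨u, ⟨i', hi', hu⟩, rfl⟩
    refine ⟨IxMap C g i', ⟨i', hi', rfl⟩, ?_⟩
    rw [vertI_map]
    exact Finset.mem_map_of_mem _ hu

lemma vertS_nonempty {S : Finset (Ix V)} (h : S.Nonempty) : (vertS S).Nonempty := by
  obtain ⟨i, hi⟩ := h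
  obtain ⟨v, hv⟩ := vertI_nonempty i
  exact ⟨v, Finset.mem_biUnion.mpr ⟨i, hi, hv⟩⟩

/-- the mass transport weight -/
def wS (y : V) (S : Finset (Ix V)) : ℝ≥0∞ :=
  if y ∈ vertS S then ((vertS S).card : ℝ≥0∞)⁻¹ else 0

lemma tsum_wS (S : Finset (Ix V)) : ∑' y, wS y S = if S.Nonempty then 1 else 0 := by
  rw [tsum_eq_sum (s := vertS S)]
  · by_cases h : S.Nonempty
    · rw [if_pos h]
      have h1 : ∀ y ∈ vertS S, wS y S = ((vertS S).card : ℝ≥0∞)⁻¹ := fun y hy => by
        simp [wS, hy]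
      rw [Finset.sum_congr rfl h1, Finset.sum_const, nsmul_eq_mul]
      refine ENNReal.mul_inv_cancel ?_ (ENNReal.natCast_ne_top _)
      exact_mod_cast (vertS_nonempty h).card_pos.ne'
    · rw [if_neg h, Finset.not_nonempty_iff_eq_empty.mp h]
      simp [vertS]
  · intro y hy
    simp [wS, hy]

lemma wS_map (g : C.G ≃g C.G) (y : V) (S : Finset (Ix V)) :
    wS (g y) (S.map (IxMap C g).toEmbedding) = wS y S := by
  unfold wS
  rw [vertS_map, Finset.card_map]
  have : g y ∈ (vertS S).map g.toEquiv.toEmbedding ↔ y ∈ vertS S :=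
    Finset.mem_map' g.toEquiv.toEmbedding
  simp only [this]

lemma nb_map (g : C.G ≃g C.G) (x : V) : C.nb (g x) = (C.nb x).map g.toEquiv.toEmbedding := by
  ext b
  simp only [Finset.mem_map, Equiv.coe_toEmbedding]
  constructor
  · intro h
    have h1 : g (g.symm b) ∈ C.nb (g x) := by simpa using h
    exact ⟨g.symm b, (mem_nb_map C g).mp h1, by simp⟩
  · rintro ⟨u, hu, rfl⟩
    exact (mem_nb_map C g).mpr hu

lemma erase_nb_map (g : C.G ≃g C.G) (x b : V) :
    (C.nb (g x)).erase (g b) = ((C.nb x).erase b).map g.toEquiv.toEmbedding := by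
  rw [nb_map, Finset.map_erase]
  rfl

/-- mass transport -/
theorem mass_transport (Ψ : V → V → Finset (Ix V) → ℝ≥0∞)
    (hΨ : ∀ (g : C.G ≃g C.G) a b S, C.G.Adj a b →
      Ψ (g a) (g b) (S.map (IxMap C g).toEmbedding) = Ψ a b S) (x : V) :
    ∑' S, (if S.Nonempty then ∑ b ∈ C.nb x, Ψ x b S else 0) =
      ∑' S, wS x S * Ee C (fun a b => Ψ a b S) := by
  -- the transport kernel
  let Φ : V → V → ℝ≥0∞ := fun x y => ∑' S, wS y S * ∑ b ∈ C.nb x, Ψ x b S
  have hΦ : ∀ x y, Φ x y = Φ y x := by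
    intro x y
    obtain ⟨g, hgx, hgy⟩ := exists_aut C (x := x) (u := y) (x' := y) (u' := x)
      (SimpleGraph.dist_comm)
    change ∑' S, wS y S * ∑ b ∈ C.nb x, Ψ x b S = ∑' S, wS x S * ∑ b ∈ C.nb y, Ψ y b S
    rw [← (IxMap C g).finsetCongr.tsum_eq (fun S => wS x S * ∑ b ∈ C.nb y, Ψ y b S)]
    refine tsum_congr fun S => ?_
    simp only [Equiv.finsetCongr_apply]
    have h1 : wS x (S.map (IxMap C g).toEmbedding) = wS y S := by
      rw [← hgy, wS_map]
    have h2 : ∑ b ∈ C.nb y, Ψ y b (S.map (IxMap C g).toEmbedding) = ∑ b ∈ C.nb x, Ψ x b S := by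
      rw [← hgx, nb_map, Finset.sum_map]
      refine Finset.sum_congr rfl fun b hb => ?_
      exact hΨ g x b S ((C.hnb x b).mp hb)
    rw [h1, h2]
  have hL : ∑' y, Φ x y = ∑' S, (if S.Nonempty then ∑ b ∈ C.nb x, Ψ x b S else 0) := by
    change ∑' y, ∑' S, wS y S * ∑ b ∈ C.nb x, Ψ x b S = _
    rw [ENNReal.tsum_comm]
    refine tsum_congr fun S => ?_
    rw [ENNReal.tsum_mul_right, tsum_wS]
    by_cases h : S.Nonempty <;> simp [h]
  have hR : ∑' y, Φ y x = ∑' S, wS x S * Ee C (fun a b => Ψ a b S) := by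
    change ∑' y, ∑' S, wS x S * ∑ b ∈ C.nb y, Ψ y b S = _
    rw [ENNReal.tsum_comm]
    refine tsum_congr fun S => ?_
    rw [ENNReal.tsum_mul_left]
    rfl
  rw [← hL, ← hR]
  exact tsum_congr fun y => hΦ x y

/-! ### tree lemmas -/

lemma chain_twI {c : ℕ → V} (hc : Chain C c) (n : ℕ) :
    ∀ m, m ≤ n → c (n - m) = twI C (c 0) m (c n) := by
  intro m
  induction m with
  | zero => intro _; rfl
  | succ m ih =>
    intro hm
    have h1 := ih (by omega)
    change c (n - (m + 1)) = tw C (c 0) (twI C (c 0) m (c n))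
    rw [← h1]
    obtain ⟨j, hj⟩ : ∃ j, n - m = j + 1 := ⟨n - m - 1, by omega⟩
    have hj' : n - (m + 1) = j := by omega
    rw [hj, hj']
    symm
    refine tw_unique C (hc.1 j).symm ?_
    have h2 := chain_dist C hc 0 j
    have h3 := chain_dist C hc 0 (j + 1)
    simp only [zero_add] at h2 h3
    rw [SimpleGraph.dist_comm, h2, SimpleGraph.dist_comm, h3]

lemma chain_conj {c c' : ℕ → V} (hc : Chain C c) (hc' : Chain C c') (n : ℕ) :
    ∃ g : C.G ≃g C.G, ∀ i, i ≤ n → g (c i) = c' i := by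
  have h1 := chain_dist C hc 0 n
  have h2 := chain_dist C hc' 0 n
  simp only [zero_add] at h1 h2
  obtain ⟨g, hg0, hgn⟩ := exists_aut C (x := c 0) (u := c n) (x' := c' 0) (u' := c' n)
    (by rw [h1, h2])
  refine ⟨g, fun i hi => ?_⟩
  have h3 := chain_twI C hc n (n - i) (by omega)
  have h4 := chain_twI C hc' n (n - i) (by omega)
  have h5 : n - (n - i) = i := by omega
  rw [h5] at h3 h4
  rw [h3, h4, ← twI_map, hg0, hgn]

lemma exists_chain_edge {a b : V} (hab : C.G.Adj a b) :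
    ∃ c : ℕ → V, Chain C c ∧ c 0 = b ∧ c 1 = a := by
  obtain ⟨c, hc, h0, h1⟩ := exists_chain C b a
  refine ⟨c, hc, h0, ?_⟩
  have hd : C.G.dist a b = 1 := SimpleGraph.dist_eq_one_iff_adj.mpr hab
  have := h1 1 (by omega)
  rw [hd] at this
  simpa [twI] using this

/-- `(a', b')` is `k` steps ahead of `(a, b)` -/
def Rk (k : ℕ) (a b a' b' : V) : Prop :=
  ∃ c : ℕ → V, Chain C c ∧ c 1 = a ∧ c 0 = b ∧ c (k + 1) = a' ∧ c k = b'

lemma Bk_mono_R (k : ℕ) (g g' : V → V → ℝ≥0∞) : ∀ a b, C.G.Adj a b →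
    (∀ a' b', Rk C k a b a' b' → g' a' b' ≤ g a' b') → Bk C k g' a b ≤ Bk C k g a b := by
  induction k with
  | zero =>
    intro a b hab h
    obtain ⟨c, hc, h0, h1⟩ := exists_chain_edge C hab
    exact h a b ⟨c, hc, h1, h0, h1, h0⟩
  | succ k ih =>
    intro a b hab h
    refine Finset.sum_le_sum fun c hc => ?_
    have hac : C.G.Adj a c := (C.hnb a c).mp (Finset.mem_of_mem_erase hc)
    have hne : c ≠ b := Finset.ne_of_mem_erase hc
    refine ih c a hac.symm fun a' b' hR => h a' b' ?_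
    obtain ⟨c', hc', h1, h0, h2, h3⟩ := hR
    refine ⟨fun i => Nat.casesOn i b c', ⟨?_, ?_⟩, h0, rfl, h2, h3⟩
    · intro i
      cases i with
      | zero =>
        change C.G.Adj b (c' 0)
        rw [h0]; exact hab.symm
      | succ i => exact hc'.1 i
    · intro i
      cases i with
      | zero =>
        change c' 1 ≠ b
        rw [h1]; exact hne
      | succ i => exact hc'.2 i

lemma Bk_const (κ : ℝ≥0∞) (k : ℕ) : ∀ a b, C.G.Adj a b →
    Bk C k (fun _ _ => κ) a b = ((C.d - 1 : ℕ) : ℝ≥0∞) ^ k * κ := by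
  induction k with
  | zero => intro a b _; simp [Bk]
  | succ k ih =>
    intro a b hab
    change ∑ c ∈ (C.nb a).erase b, Bk C k (fun _ _ => κ) c a = _
    have h1 : ∀ c ∈ (C.nb a).erase b, Bk C k (fun _ _ => κ) c a =
        ((C.d - 1 : ℕ) : ℝ≥0∞) ^ k * κ := fun c hc =>
      ih c a ((C.hnb a c).mp (Finset.mem_of_mem_erase hc)).symm
    rw [Finset.sum_congr rfl h1, Finset.sum_const, nsmul_eq_mul, card_erase_nb C hab]
    ring

lemma Bk_tsum {ι : Type} (t : ι → ℝ≥0∞) (u : ι → V → V → ℝ≥0∞) (k : ℕ) : ∀ a b,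
    Bk C k (fun a' b' => ∑' i, t i * u i a' b') a b = ∑' i, t i * Bk C k (u i) a b := by
  induction k with
  | zero => intro a b; rfl
  | succ k ih =>
    intro a b
    change ∑ c ∈ (C.nb a).erase b, Bk C k (fun a' b' => ∑' i, t i * u i a' b') c a =
      ∑' i, t i * ∑ c ∈ (C.nb a).erase b, Bk C k (u i) c a
    simp only [ih, Finset.mul_sum]
    rw [tsum_fsum]

/-! ### assembling -/

lemma countable_Ix (C' : CT V) : Countable (Ix V) := by
  haveI := countable_V C'
  let f : Ix V → Sym2 V ⊕ (Stp V ⊕ Stp V) := fun i => match i with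
    | .ed e => Sum.inl e
    | .no j => Sum.inr (Sum.inl j)
    | .la j => Sum.inr (Sum.inr j)
  refine Function.Injective.countable (f := f) ?_
  rintro (a | a | a) (b | b | b) h <;> simp_all [f]

lemma nonempty_Ix (C' : CT V) : Nonempty (Ix V) := ⟨.no (0, C'.o)⟩

section main

variable {C}
variable {H : V → V → WW V → ℝ} {B : ℝ}

lemma EdgeFactor.bm (hH : EdgeFactor C H B) (a b : V) : BM (H a b) :=
  ⟨hH.meas a b, B, hH.bdd a b⟩

lemma corr_chain (hH : EdgeFactor C H B) {c c' : ℕ → V} (hc : Chain C c) (hc' : Chain C c')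
    (k : ℕ) :
    ∫ w, H (c' (k + 1)) (c' k) w * H (c' 1) (c' 0) w ∂(PW V) =
      ∫ w, H (c (k + 1)) (c k) w * H (c 1) (c 0) w ∂(PW V) := by
  obtain ⟨g, hg⟩ := chain_conj C hc hc' (k + 1)
  rw [← hg (k + 1) le_rfl, ← hg k (by omega), ← hg 1 (by omega), ← hg 0 (by omega)]
  have hmp := actW_mp C g
  have hm : Measurable fun w => H (g (c (k + 1))) (g (c k)) w * H (g (c 1)) (g (c 0)) w :=
    (hH.meas _ _).mul (hH.meas _ _)
  conv_lhs => rw [← hmp.map_eq]
  rw [integral_map hmp.measurable.aemeasurable hm.aestronglyMeasurable]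
  refine integral_congr_ae ?_
  filter_upwards [hH.equiv g _ _ (hc.1 k).symm, hH.equiv g _ _ (hc.1 0).symm] with w h1 h2
  rw [h1]
  simp only [zero_add] at h2
  rw [h2]

/-- component norm as an extended real -/
def AE (H : V → V → WW V → ℝ) (a b : V) (S : Finset (Ix V)) : ℝ≥0∞ :=
  ENNReal.ofReal (aQ (H a b) S)

lemma AE_map (hH : EdgeFactor C H B) (g : C.G ≃g C.G) {a b : V} (S : Finset (Ix V))
    (hab : C.G.Adj a b) :
    AE H (g a) (g b) (S.map (IxMap C g).toEmbedding) = AE H a b S := by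
  unfold AE
  congr 1
  exact aQ_pm (IxMap C g) S (hH.bm _ _) (hH.bm _ _) (hH.equiv g a b hab)

lemma Bk_AE_map (hH : EdgeFactor C H B) (g : C.G ≃g C.G) (S : Finset (Ix V)) (k : ℕ) :
    ∀ a b, C.G.Adj a b →
      Bk C k (fun x y => AE H x y (S.map (IxMap C g).toEmbedding)) (g a) (g b) =
        Bk C k (fun x y => AE H x y S) a b := by
  induction k with
  | zero =>
    intro a b hab
    exact AE_map hH g S hab
  | succ k ih =>
    intro a b hab
    change ∑ c ∈ (C.nb (g a)).erase (g b),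
        Bk C k (fun x y => AE H x y (S.map (IxMap C g).toEmbedding)) c (g a) =
      ∑ c ∈ (C.nb a).erase b, Bk C k (fun x y => AE H x y S) c a
    rw [erase_nb_map, Finset.sum_map]
    refine Finset.sum_congr rfl fun c hc => ?_
    exact ih c a ((C.hnb a c).mp (Finset.mem_of_mem_erase hc)).symm

/-- the main inequality -/
theorem bsv_corr_enn (hH : EdgeFactor C H B) {a : ℕ → V} (ha : Chain C a) (k : ℕ)
    (s : ℝ≥0∞) (hs0 : s ≠ 0) (hst : s ≠ ∞) (hss : s * s = ((C.d - 1 : ℕ) : ℝ≥0∞)) :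
    (C.d : ℝ≥0∞) * (((C.d - 1 : ℕ) : ℝ≥0∞) ^ k *
        ENNReal.ofReal |∫ w, H (a (k + 1)) (a k) w * H (a 1) (a 0) w ∂(PW V)|) ≤
      (s ^ k + k * s ^ (k + 1)) *
        ((C.d : ℝ≥0∞) * ENNReal.ofReal (∫ w, H (a 1) (a 0) w * H (a 1) (a 0) w ∂(PW V))) := by
  haveI := countable_Ix C
  haveI := nonempty_Ix C
  set x := a 1 with hx
  set Cor := ENNReal.ofReal |∫ w, H (a (k + 1)) (a k) w * H x (a 0) w ∂(PW V)| with hCor
  set Nrm := ENNReal.ofReal (∫ w, H x (a 0) w * H x (a 0) w ∂(PW V)) with hNrm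
  set K := s ^ k + (k : ℝ≥0∞) * s ^ (k + 1) with hK
  let Ψ : V → V → Finset (Ix V) → ℝ≥0∞ := fun a b S => AE H a b S * Bk C k (fun x y => AE H x y S) a b
  let Ψ₂ : V → V → Finset (Ix V) → ℝ≥0∞ := fun a b S => AE H a b S ^ 2
  have hΨ : ∀ (g : C.G ≃g C.G) a b S, C.G.Adj a b →
      Ψ (g a) (g b) (S.map (IxMap C g).toEmbedding) = Ψ a b S := by
    intro g a b S hab
    change AE H (g a) (g b) (S.map (IxMap C g).toEmbedding) *
      Bk C k (fun x y => AE H x y (S.map (IxMap C g).toEmbedding)) (g a) (g b) = _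
    rw [AE_map hH g S hab, Bk_AE_map hH g S k a b hab]
  have hΨ₂ : ∀ (g : C.G ≃g C.G) a b S, C.G.Adj a b →
      Ψ₂ (g a) (g b) (S.map (IxMap C g).toEmbedding) = Ψ₂ a b S := by
    intro g a b S hab
    change AE H (g a) (g b) (S.map (IxMap C g).toEmbedding) ^ 2 = _
    rw [AE_map hH g S hab]
  -- step A
  have hA : ∀ b ∈ C.nb x, ((C.d - 1 : ℕ) : ℝ≥0∞) ^ k * Cor ≤
      ∑' S : Finset (Ix V), (if S.Nonempty then AE H x b S else 0) *
        Bk C k (fun x y => AE H x y S) x b := by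
    intro b hb
    have hxb : C.G.Adj x b := (C.hnb x b).mp hb
    rw [← Bk_const C Cor k x b hxb, ← Bk_tsum]
    refine Bk_mono_R C k _ _ x b hxb fun a' b' hR => ?_
    obtain ⟨c', hc', h1, h0, h2, h3⟩ := hR
    have hcor := corr_chain hH ha hc' k
    rw [h2, h3, h1, h0] at hcor
    have h4 : Cor = ENNReal.ofReal |∫ w, H x b w * H a' b' w ∂(PW V)| := by
      rw [hCor, ← hcor]
      congr 3
      funext w
      ring
    rw [h4]
    refine (hoeff_corr (hH.bm x b) (hH.bm a' b') (hH.mean x b hxb)).trans (le_of_eq ?_)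
    refine tsum_congr fun S => ?_
    by_cases hS : S.Nonempty
    · simp [hS, AE]
    · simp [hS]
  have hB : (C.d : ℝ≥0∞) * (((C.d - 1 : ℕ) : ℝ≥0∞) ^ k * Cor) ≤
      ∑' S : Finset (Ix V), (if S.Nonempty then ∑ b ∈ C.nb x, Ψ x b S else 0) := by
    have h1 : (C.d : ℝ≥0∞) * (((C.d - 1 : ℕ) : ℝ≥0∞) ^ k * Cor) =
        ∑ b ∈ C.nb x, ((C.d - 1 : ℕ) : ℝ≥0∞) ^ k * Cor := by
      rw [Finset.sum_const, C.hcard, nsmul_eq_mul]
    rw [h1]
    refine (Finset.sum_le_sum hA).trans (le_of_eq ?_)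
    rw [← tsum_fsum]
    refine tsum_congr fun S => ?_
    by_cases hS : S.Nonempty
    · simp [hS, Ψ]
    · simp [hS]
  have hD : ∀ S, Ee C (fun a b => Ψ a b S) ≤ K * Ee C (fun a b => Ψ₂ a b S) := fun S =>
    schur_nb C s hs0 hst hss (fun x y => AE H x y S) k
  have hE : ∑' S : Finset (Ix V), wS x S * Ee C (fun a b => Ψ₂ a b S) ≤
      (C.d : ℝ≥0∞) * Nrm := by
    rw [← mass_transport C Ψ₂ hΨ₂ x]
    have h1 : ∀ S : Finset (Ix V), (if S.Nonempty then ∑ b ∈ C.nb x, Ψ₂ x b S else 0) ≤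
        ∑ b ∈ C.nb x, Ψ₂ x b S := by
      intro S
      by_cases hS : S.Nonempty <;> simp [hS]
    refine (ENNReal.tsum_le_tsum h1).trans ?_
    rw [tsum_fsum]
    have h2 : ∀ b ∈ C.nb x, ∑' S, Ψ₂ x b S ≤ Nrm := by
      intro b hb
      refine (hoeff_bessel (hH.bm x b)).trans (le_of_eq ?_)
      obtain ⟨c', hc', h0', h1'⟩ := exists_chain_edge C ((C.hnb x b).mp hb)
      have hcor := corr_chain hH ha hc' 0
      simp only [zero_add] at hcor
      rw [h1', h0'] at hcor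
      rw [hNrm]
      congr 1
    refine (Finset.sum_le_sum h2).trans (le_of_eq ?_)
    rw [Finset.sum_const, C.hcard, nsmul_eq_mul]
  calc _ ≤ ∑' S : Finset (Ix V), (if S.Nonempty then ∑ b ∈ C.nb x, Ψ x b S else 0) := hB
    _ = ∑' S : Finset (Ix V), wS x S * Ee C (fun a b => Ψ a b S) := mass_transport C Ψ hΨ x
    _ ≤ ∑' S : Finset (Ix V), wS x S * (K * Ee C (fun a b => Ψ₂ a b S)) :=
        ENNReal.tsum_le_tsum fun S => by gcongr; exact hD S
    _ = K * ∑' S : Finset (Ix V), wS x S * Ee C (fun a b => Ψ₂ a b S) := by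
        rw [← ENNReal.tsum_mul_left]
        refine tsum_congr fun S => ?_
        ring
    _ ≤ K * ((C.d : ℝ≥0∞) * Nrm) := by gcongr

end main

/-- BSV: correlation along a geodesic chain decays like `(1 + k √r) r^{-k/2}`, `r = d-1`. -/
theorem bsv_corr {H : V → V → WW V → ℝ} {B : ℝ} (hH : EdgeFactor C H B) {a : ℕ → V}
    (ha : ∀ i, C.G.Adj (a i) (a (i + 1))) (hb : ∀ i, a (i + 2) ≠ a i) (k : ℕ) :
    |∫ w, H (a (k + 1)) (a k) w * H (a 1) (a 0) w ∂(PW V)| ≤
      (1 + k * Real.sqrt ((C.d : ℝ) - 1)) * (Real.sqrt ((C.d : ℝ) - 1))⁻¹ ^ k *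
        ∫ w, H (a 1) (a 0) w * H (a 1) (a 0) w ∂(PW V) := by
  have hd3 : (3 : ℝ) ≤ C.d := by exact_mod_cast C.hd
  set s0 := Real.sqrt ((C.d : ℝ) - 1) with hs0
  have hr : ((C.d - 1 : ℕ) : ℝ) = (C.d : ℝ) - 1 := by
    rw [Nat.cast_sub (by have := C.hd; omega)]; simp
  have hspos : 0 < s0 := Real.sqrt_pos.mpr (by linarith)
  have hss0 : s0 * s0 = (C.d : ℝ) - 1 := Real.mul_self_sqrt (by linarith)
  have hss : ENNReal.ofReal s0 * ENNReal.ofReal s0 = ((C.d - 1 : ℕ) : ℝ≥0∞) := by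
    rw [← ENNReal.ofReal_mul hspos.le, hss0, ← hr, ENNReal.ofReal_natCast]
  have h := bsv_corr_enn hH (a := a) ⟨ha, hb⟩ k (ENNReal.ofReal s0)
    (by simpa using hspos) ENNReal.ofReal_ne_top hss
  set X := |∫ w, H (a (k + 1)) (a k) w * H (a 1) (a 0) w ∂(PW V)| with hX
  set Y := ∫ w, H (a 1) (a 0) w * H (a 1) (a 0) w ∂(PW V) with hY
  have hX0 : 0 ≤ X := abs_nonneg _
  have hY0 : 0 ≤ Y := integral_nonneg fun w => mul_self_nonneg _
  have hd0 : (0 : ℝ) < C.d := by linarith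
  have h1 : ((C.d : ℝ≥0∞) * (((C.d - 1 : ℕ) : ℝ≥0∞) ^ k * ENNReal.ofReal X)) =
      ENNReal.ofReal ((C.d : ℝ) * ((s0 * s0) ^ k * X)) := by
    rw [ENNReal.ofReal_mul hd0.le, ENNReal.ofReal_mul (by positivity),
      ENNReal.ofReal_pow (by positivity), ENNReal.ofReal_mul hspos.le, hss,
      ENNReal.ofReal_natCast]
  have h2 : (ENNReal.ofReal s0 ^ k + (k : ℝ≥0∞) * ENNReal.ofReal s0 ^ (k + 1)) *
      ((C.d : ℝ≥0∞) * ENNReal.ofReal Y) =
      ENNReal.ofReal ((s0 ^ k + k * s0 ^ (k + 1)) * ((C.d : ℝ) * Y)) := by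
    rw [ENNReal.ofReal_mul (by positivity), ENNReal.ofReal_mul hd0.le,
      ENNReal.ofReal_add (by positivity) (by positivity), ENNReal.ofReal_mul (by positivity),
      ENNReal.ofReal_pow hspos.le, ENNReal.ofReal_pow hspos.le, ENNReal.ofReal_natCast,
      ENNReal.ofReal_natCast]
  rw [h1, h2, ENNReal.ofReal_le_ofReal_iff (by positivity)] at h
  have h3 : s0 ^ k * (s0⁻¹) ^ k = 1 := by
    rw [← mul_pow, mul_inv_cancel₀ hspos.ne', one_pow]
  have hpos : 0 < (C.d : ℝ) * (s0 * s0) ^ k := by positivity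
  refine le_of_mul_le_mul_left ?_ hpos
  calc (C.d : ℝ) * (s0 * s0) ^ k * X = (C.d : ℝ) * ((s0 * s0) ^ k * X) := by ring
    _ ≤ (s0 ^ k + k * s0 ^ (k + 1)) * ((C.d : ℝ) * Y) := h
    _ = (C.d : ℝ) * (s0 * s0) ^ k * ((1 + k * s0) * s0⁻¹ ^ k * Y) := by
      have h4 : (C.d : ℝ) * (s0 * s0) ^ k * ((1 + k * s0) * s0⁻¹ ^ k * Y) =
          (C.d : ℝ) * s0 ^ k * (1 + k * s0) * Y * (s0 ^ k * s0⁻¹ ^ k) := by
        rw [mul_pow]; ring
      rw [h4, h3]
      ring

/-- the numerical series -/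
lemma sum_kappa_le (x : ℝ) (s0 : ℝ) (hs : 7 / 5 ≤ s0) (hx : x = s0⁻¹) (n : ℕ) :
    ∑ k ∈ range n, (1 + k * s0) * x ^ k ≤ 16 := by
  have hspos : 0 < s0 := by linarith
  have hx0 : 0 < x := by rw [hx]; positivity
  have hx1 : x ≤ 5 / 7 := by
    rw [hx, inv_le_comm₀ hspos (by norm_num)]
    norm_num
    linarith
  have hsx : s0 * x = 1 := by rw [hx]; exact mul_inv_cancel₀ hspos.ne'
  -- termwise
  have hterm : ∀ k : ℕ, (1 + k * s0) * x ^ k ≤ (5 / 7 : ℝ) ^ k + (7 / 5) * (k * (5 / 7 : ℝ) ^ k) := by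
    intro k
    cases k with
    | zero => simp
    | succ j =>
      have h1 : x ^ (j + 1) ≤ (5 / 7 : ℝ) ^ (j + 1) := pow_le_pow_left₀ hx0.le hx1 _
      have h2 : x ^ j ≤ (5 / 7 : ℝ) ^ j := pow_le_pow_left₀ hx0.le hx1 _
      have h3 : s0 * x ^ (j + 1) = x ^ j := by
        rw [pow_succ, mul_comm (x ^ j), ← mul_assoc, hsx, one_mul]
      have h4 : (7 / 5 : ℝ) * (5 / 7 : ℝ) ^ (j + 1) = (5 / 7 : ℝ) ^ j := by
        rw [pow_succ]; ring
      calc (1 + ((j + 1 : ℕ) : ℝ) * s0) * x ^ (j + 1)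
          = x ^ (j + 1) + ((j + 1 : ℕ) : ℝ) * (s0 * x ^ (j + 1)) := by ring
        _ = x ^ (j + 1) + ((j + 1 : ℕ) : ℝ) * x ^ j := by rw [h3]
        _ ≤ (5 / 7 : ℝ) ^ (j + 1) + ((j + 1 : ℕ) : ℝ) * (5 / 7 : ℝ) ^ j := by
            gcongr
        _ = _ := by rw [← h4]; ring
  have hg : HasSum (fun k : ℕ => (5 / 7 : ℝ) ^ k) (1 - 5 / 7)⁻¹ :=
    hasSum_geometric_of_lt_one (by norm_num) (by norm_num)
  have hg2 : HasSum (fun k : ℕ => (k : ℝ) * (5 / 7 : ℝ) ^ k) ((5 / 7) / (1 - 5 / 7) ^ 2) :=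
    hasSum_coe_mul_geometric_of_norm_lt_one (by norm_num [abs_of_pos])
  have hg3 := hg.add (hg2.mul_left (7 / 5))
  have h5 := sum_le_hasSum (range n) (fun k _ => by positivity) hg3
  refine (Finset.sum_le_sum fun k _ => hterm k).trans (h5.trans ?_)
  norm_num

/-- variance of the sum along a geodesic chain is linear in the length -/
theorem bsv_sum {H : V → V → WW V → ℝ} {B : ℝ} (hH : EdgeFactor C H B) {a : ℕ → V}
    (ha : ∀ i, C.G.Adj (a i) (a (i + 1))) (hb : ∀ i, a (i + 2) ≠ a i) (n : ℕ) :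
    ∫ w, (∑ i ∈ range n, H (a (i + 1)) (a i) w) ^ 2 ∂(PW V) ≤
      60 * n * ∫ w, H (a 1) (a 0) w ^ 2 ∂(PW V) := by
  have hd3 : (3 : ℝ) ≤ C.d := by exact_mod_cast C.hd
  set s0 := Real.sqrt ((C.d : ℝ) - 1) with hs0
  have hs1 : 7 / 5 ≤ s0 := by
    refine Real.le_sqrt_of_sq_le ?_
    norm_num
    linarith
  set N := ∫ w, H (a 1) (a 0) w * H (a 1) (a 0) w ∂(PW V) with hN
  have hN' : ∫ w, H (a 1) (a 0) w ^ 2 ∂(PW V) = N := by
    rw [hN]; congr 1; funext w; ring
  have hN0 : 0 ≤ N := integral_nonneg fun w => mul_self_nonneg _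
  set κ : ℕ → ℝ := fun k => (1 + k * s0) * (s0⁻¹) ^ k with hκ
  have hκ0 : ∀ k, 0 ≤ κ k := fun k => by
    have : 0 < s0 := by linarith
    positivity
  have hbm : ∀ i j, BM fun w => H (a (i + 1)) (a i) w * H (a (j + 1)) (a j) w :=
    fun i j => (hH.bm _ _).mul (hH.bm _ _)
  -- bound on correlations
  have hcorr : ∀ i k, |∫ w, H (a (i + k + 1)) (a (i + k)) w * H (a (i + 1)) (a i) w ∂(PW V)| ≤
      κ k * N := by
    intro i k
    have hchain : Chain C (fun m => a (i + m)) :=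
      ⟨fun m => ha (i + m), fun m => hb (i + m)⟩
    have h1 : |∫ w, H (a (i + (k + 1))) (a (i + k)) w * H (a (i + 1)) (a (i + 0)) w ∂(PW V)| ≤
        κ k * ∫ w, H (a (i + 1)) (a (i + 0)) w * H (a (i + 1)) (a (i + 0)) w ∂(PW V) :=
      bsv_corr C hH (a := fun m => a (i + m)) hchain.1 hchain.2 k
    have h2 : ∫ w, H (a (i + 1)) (a (i + 0)) w * H (a (i + 1)) (a (i + 0)) w ∂(PW V) = N :=
      corr_chain hH (c := a) (c' := fun m => a (i + m)) ⟨ha, hb⟩ hchain 0
    rw [h2] at h1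
    simpa only [add_zero, add_assoc] using h1
  have hij : ∀ i j, |∫ w, H (a (i + 1)) (a i) w * H (a (j + 1)) (a j) w ∂(PW V)| ≤
      κ (if i ≤ j then j - i else i - j) * N := by
    intro i j
    by_cases h : i ≤ j
    · rw [if_pos h]
      obtain ⟨k, rfl⟩ := Nat.exists_eq_add_of_le h
      have := hcorr i k
      have h2 : ∫ w, H (a (i + 1)) (a i) w * H (a (i + k + 1)) (a (i + k)) w ∂(PW V) =
          ∫ w, H (a (i + k + 1)) (a (i + k)) w * H (a (i + 1)) (a i) w ∂(PW V) := by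
        congr 1; funext w; ring
      rw [h2]
      simpa using this
    · rw [if_neg h]
      obtain ⟨k, rfl⟩ := Nat.exists_eq_add_of_le (not_le.mp h).le
      simpa using hcorr j k
  have hrow : ∀ i ∈ range n, ∑ j ∈ range n, κ (if i ≤ j then j - i else i - j) ≤ 32 := by
    intro i hi
    have hin : i < n := Finset.mem_range.mp hi
    rw [← Finset.sum_filter_add_sum_filter_not (range n) (fun j => i ≤ j)]
    have hbound : ∑ k ∈ range n, κ k ≤ 16 := sum_kappa_le _ s0 hs1 rfl n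
    have h1 : ∑ j ∈ (range n).filter (fun j => i ≤ j), κ (if i ≤ j then j - i else i - j) ≤ 16 := by
      have h2 : ∑ j ∈ (range n).filter (fun j => i ≤ j), κ (if i ≤ j then j - i else i - j) =
          ∑ k ∈ ((range n).filter (fun j => i ≤ j)).image (fun j => j - i), κ k := by
        rw [Finset.sum_image]
        · refine Finset.sum_congr rfl fun j hj => ?_
          rw [if_pos (Finset.mem_filter.mp hj).2]
        · intro x hx y hy hxy
          have hx' := (Finset.mem_filter.mp (Finset.mem_coe.mp hx)).2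
          have hy' := (Finset.mem_filter.mp (Finset.mem_coe.mp hy)).2
          simp only at hxy
          omega
      rw [h2]
      refine le_trans (Finset.sum_le_sum_of_subset_of_nonneg ?_ fun k _ _ => hκ0 k) hbound
      intro k hk
      obtain ⟨j, hj, rfl⟩ := Finset.mem_image.mp hk
      have := Finset.mem_range.mp (Finset.mem_filter.mp hj).1
      exact Finset.mem_range.mpr (by omega)
    have h3 : ∑ j ∈ (range n).filter (fun j => ¬ i ≤ j), κ (if i ≤ j then j - i else i - j) ≤ 16 := by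
      have h2 : ∑ j ∈ (range n).filter (fun j => ¬ i ≤ j), κ (if i ≤ j then j - i else i - j) =
          ∑ k ∈ ((range n).filter (fun j => ¬ i ≤ j)).image (fun j => i - j), κ k := by
        rw [Finset.sum_image]
        · refine Finset.sum_congr rfl fun j hj => ?_
          rw [if_neg (Finset.mem_filter.mp hj).2]
        · intro x hx y hy hxy
          have hx' := (Finset.mem_filter.mp (Finset.mem_coe.mp hx)).2
          have hy' := (Finset.mem_filter.mp (Finset.mem_coe.mp hy)).2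
          simp only at hxy
          omega
      rw [h2]
      refine le_trans (Finset.sum_le_sum_of_subset_of_nonneg ?_ fun k _ _ => hκ0 k) hbound
      intro k hk
      obtain ⟨j, hj, rfl⟩ := Finset.mem_image.mp hk
      exact Finset.mem_range.mpr (by omega)
    linarith
  rw [hN']
  have hexp : ∀ w, (∑ i ∈ range n, H (a (i + 1)) (a i) w) ^ 2 =
      ∑ i ∈ range n, ∑ j ∈ range n, H (a (i + 1)) (a i) w * H (a (j + 1)) (a j) w := by
    intro w
    rw [sq, Finset.sum_mul_sum]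
  simp only [hexp]
  have hint : ∀ i ∈ range n, Integrable
      (fun w => ∑ j ∈ range n, H (a (i + 1)) (a i) w * H (a (j + 1)) (a j) w) (PW V) :=
    fun i _ => (BM.sum _ fun j _ => hbm i j).integrable
  rw [integral_finset_sum _ hint]
  have h4 : ∀ i ∈ range n, ∫ w, ∑ j ∈ range n, H (a (i + 1)) (a i) w * H (a (j + 1)) (a j) w ∂(PW V) ≤
      32 * N := by
    intro i hi
    have hint' : ∀ j ∈ range n, Integrable
        (fun w => H (a (i + 1)) (a i) w * H (a (j + 1)) (a j) w) (PW V) :=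
      fun j _ => (hbm i j).integrable
    rw [integral_finset_sum _ hint']
    calc _ ≤ ∑ j ∈ range n, κ (if i ≤ j then j - i else i - j) * N :=
          Finset.sum_le_sum fun j _ => (le_abs_self _).trans (hij i j)
      _ = (∑ j ∈ range n, κ (if i ≤ j then j - i else i - j)) * N := by
          rw [Finset.sum_mul]
      _ ≤ 32 * N := by gcongr; exact hrow i hi
  calc _ ≤ ∑ i ∈ range n, 32 * N := Finset.sum_le_sum h4
    _ = n * (32 * N) := by simp
    _ ≤ 60 * n * N := by nlinarith [Nat.cast_nonneg (α := ℝ) n, mul_nonneg (Nat.cast_nonneg (α := ℝ) n) hN0]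

end Vale.Agent.Lib.P161.Crit
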