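import Vale.Agent.Lib.P161.Crit.Static

/-!
Decay along paths and level sums. Statements fixed; add lemmas freely. Paper section DECAY.
-/

open MeasureTheory Filter Topology Finset

noncomputable section
namespace Vale.Agent.Lib.P161.Crit

open scoped Classical
open Vale.Agent.Lib.P161

variable {V : Type} (C : CT V)

lemma dc_G4_neg (z : ℝ) : G4 C (-z) = G4 C z := by
  unfold G4
  rw [Real.tanh_neg, neg_sq]

lemma dc_G4_sign {s : ℝ} (hs : s = 1 ∨ s = -1) (z : ℝ) : G4 C (s * z) = G4 C z := by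
  rcases hs with rfl | rfl
  · rw [one_mul]
  · rw [neg_one_mul, dc_G4_neg]

lemma dc_tanh_sign {s : ℝ} (hs : s = 1 ∨ s = -1) (z : ℝ) : Real.tanh (s * z) ^ 2 = Real.tanh z ^ 2 := by
  rcases hs with rfl | rfl
  · rw [one_mul]
  · rw [neg_one_mul, Real.tanh_neg, neg_sq]

lemma dc_measurable_tanh : Measurable Real.tanh := by
  have : Real.tanh = fun x => Real.sinh x / Real.cosh x := by
    funext x
    exact Real.tanh_eq_sinh_div_cosh x
  rw [this]
  exact Real.measurable_sinh.div Real.measurable_cosh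

lemma dc_measurable_G4 : Measurable (G4 C) := by
  have h := dc_measurable_tanh
  have h2 : Measurable fun z => Real.tanh z ^ 2 := h.pow_const 2
  unfold G4
  exact ((measurable_const.sub h2).div (measurable_const.sub (measurable_const.mul h2))).pow_const 2

lemma dc_measurable_psi (θ : ℝ) : Measurable (psi θ) := by
  unfold psi Bp Bm
  fun_prop

lemma dc_tanh_sq_le_one (z : ℝ) : Real.tanh z ^ 2 ≤ 1 := by
  have h1 := Real.tanh_lt_one z
  have h2 := Real.neg_one_lt_tanh z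
  nlinarith

/-- uniform in the shift: a sibling branch forces `f` away from `0` -/
theorem G4_shift (a : ℝ) (t : ℝ) :
    (1 + C.θ) / 2 * G4 C (a + psi C.θ t) + (1 - C.θ) / 2 * G4 C (a - psi C.θ t) ≤
      1 - (1 - C.θ) / 2 * (C.θ ^ 2 * (1 - C.θ ^ 2) * Real.tanh t ^ 2) := by
  have hθ := C.hθ0
  have hθ1 := th_lt_one C
  set P := psi C.θ t with hP
  have hG := G4_psi C t
  rw [← hP] at hG
  have h1a := G4_le_one C (a + P)
  have h1b := G4_le_one C (a - P)
  have hQ : 0 ≤ C.θ ^ 2 * (1 - C.θ ^ 2) * Real.tanh t ^ 2 := by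
    have : 0 ≤ 1 - C.θ ^ 2 := by nlinarith
    positivity
  set Q := C.θ ^ 2 * (1 - C.θ ^ 2) * Real.tanh t ^ 2 with hQdef
  have hcase : |P| ≤ |a + P| ∨ |P| ≤ |a - P| := by
    by_contra h
    push Not at h
    have h2 : |2 * P| ≤ |a + P| + |a - P| := by
      have : 2 * P = (a + P) - (a - P) := by ring
      rw [this]
      exact abs_sub _ _
    rw [abs_mul] at h2
    norm_num at h2
    linarith [h.1, h.2]
  rcases hcase with h | h
  · have h2 := G4_anti C h
    have e1 : G4 C (a + P) ≤ 1 - Q := by linarith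
    have e2 : (1 + C.θ) / 2 * G4 C (a + P) ≤ (1 + C.θ) / 2 * (1 - Q) :=
      mul_le_mul_of_nonneg_left e1 (by linarith)
    have e3 : (1 - C.θ) / 2 * G4 C (a - P) ≤ (1 - C.θ) / 2 * 1 :=
      mul_le_mul_of_nonneg_left h1b (by linarith)
    nlinarith
  · have h2 := G4_anti C h
    have e1 : G4 C (a - P) ≤ 1 - Q := by linarith
    have e2 : (1 - C.θ) / 2 * G4 C (a - P) ≤ (1 - C.θ) / 2 * (1 - Q) :=
      mul_le_mul_of_nonneg_left e1 (by linarith)
    have e3 : (1 + C.θ) / 2 * G4 C (a + P) ≤ (1 + C.θ) / 2 * 1 :=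
      mul_le_mul_of_nonneg_left h1a (by linarith)
    nlinarith

lemma dc_integral_snd {F : WW V → ℝ} (hF : Measurable F) :
    ∫ ω, F ω.2 ∂(PP V) = ∫ w, F w ∂(PW V) := by
  unfold PP
  have h := measurePreserving_snd (μ := sM) (ν := PW V)
  conv_rhs => rw [← h.map_eq]
  rw [integral_map measurable_snd.aemeasurable hF.aestronglyMeasurable]

/-- the product along a chain in gauge form -/
def dc_R (p : V → ℝ) (a : ℕ → V) (n : ℕ) (w : WW V) : ℝ :=
  ∏ i ∈ range n, G4 C (gz C p (a (i + 1)) (a i) w)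

lemma dc_R_nonneg (p : V → ℝ) (a : ℕ → V) (n : ℕ) (w : WW V) : 0 ≤ dc_R C p a n w :=
  Finset.prod_nonneg (fun _ _ => G4_nonneg C _)

lemma dc_R_le_one (p : V → ℝ) (a : ℕ → V) (n : ℕ) (w : WW V) : dc_R C p a n w ≤ 1 :=
  Finset.prod_le_one (fun _ _ => G4_nonneg C _) (fun _ _ => G4_le_one C _)

lemma dc_R_meas {p : V → ℝ} {T : ℝ} (hp : ∀ v, p v ≤ T) (a : ℕ → V) (n : ℕ) :
    Measurable (dc_R C p a n) := by
  unfold dc_R
  exact Finset.measurable_prod _ (fun i _ => (dc_measurable_G4 C).comp (measurable_gz C hp _ _))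

lemma dc_Bc_chain {a : ℕ → V} (ha : Chain C a) (i : ℕ) :
    Bc C (a (i + 1)) (a i) ⊆ Bc C (a 1) (a 0) := by
  induction i with
  | zero => exact subset_rfl
  | succ i ih =>
    refine subset_trans ?_ ih
    have h1 := Sb_subset C (a := a (i + 1)) (b := a i) (c := a (i + 2)) (ha.1 i).symm
      (ha.1 (i + 1)) (ha.2 i)
    exact subset_trans (fun j hj => Or.inl hj) h1

lemma dc_R_dep (p : V → ℝ) {a : ℕ → V} (ha : Chain C a) (n : ℕ) :
    DependsOn (dc_R C p a n) (Bc C (a 1) (a 0)) := by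
  intro x y h
  unfold dc_R
  apply Finset.prod_congr rfl
  intro i _
  congr 1
  exact gz_dependsOn C p (ha.1 i).symm (fun j hj => h j (dc_Bc_chain C ha i hj))

lemma dc_peel_conv (p : V → ℝ) {T : ℝ} (hp : ∀ v, p v ≤ T) {a : ℕ → V} (ha : Chain C a) (n : ℕ) :
    ∫ ω, ∏ i ∈ range n, G4 C (zl C (fld C (Sp (lab ω.2) p) ω) (a (i + 1)) (a i)) ∂(PP V) =
      ∫ w, dc_R C p a n w ∂(PW V) := by
  rw [← dc_integral_snd (dc_R_meas C hp a n)]
  congr 1
  funext ω
  unfold dc_R
  apply Finset.prod_congr rfl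
  intro i _
  rw [gauge_zl C p ω _ _ (ha.1 i).symm, dc_G4_sign C (spin_cases C ω _)]

lemma dc_eS_dep (e : Sym2 V) : DependsOn (eS C e) {(Ix.ed e : Ix V)} := by
  intro x y h
  unfold eS
  rw [h (Ix.ed e) rfl]

/-- One step of the peeling. -/
theorem dc_step {p : V → ℝ} {T : ℝ} (hp : ∀ v, p v ≤ T) {a : ℕ → V} (ha : Chain C a) {c₀ : V}
    (hc₀ : c₀ ∈ C.nb (a 1)) (h0 : c₀ ≠ a 0) (h2 : c₀ ≠ a 2) (n : ℕ) :
    ∫ w, dc_R C p a (n + 1) w ∂(PW V) ≤
      (1 - (1 - C.θ) / 2 * (C.θ ^ 2 * (1 - C.θ ^ 2)) *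
          ∫ w, Real.tanh (gz C p c₀ (a 1) w) ^ 2 ∂(PW V)) *
        ∫ w, dc_R C p (fun i => a (i + 1)) n w ∂(PW V) := by
  have hθ := C.hθ0
  have hθ1 := th_lt_one C
  have hP : IsProbabilityMeasure (PW V) := inferInstance
  set R := dc_R C p (fun i => a (i + 1)) n with hR
  set g := gz C p c₀ (a 1) with hg
  have hgm : Measurable g := measurable_gz C hp _ _
  have hRm : Measurable R := dc_R_meas C hp _ _
  have hR0 : ∀ w, 0 ≤ R w := dc_R_nonneg C _ _ _
  have hR1 : ∀ w, R w ≤ 1 := dc_R_le_one C _ _ _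
  set Es := eS C s(a 1, c₀) with hEs
  have hEm : Measurable Es := measurable_eS C _
  set Ps : WW V → ℝ := fun w => psi C.θ (g w) with hPs
  have hPm : Measurable Ps := (dc_measurable_psi C.θ).comp hgm
  set E0 := ((C.nb (a 1)).erase (a 0)).erase c₀ with hE0
  set A : WW V → ℝ := fun w =>
    gx p w (a 1) + ∑ c ∈ E0, eS C s(a 1, c) w * psi C.θ (gz C p c (a 1) w) with hA
  have hAm : Measurable A := by
    apply (measurable_gx hp _).add
    apply Finset.measurable_sum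
    intro c _
    exact (measurable_eS C _).mul ((dc_measurable_psi C.θ).comp (measurable_gz C hp _ _))
  have hadj : ∀ c ∈ C.nb (a 1), C.G.Adj (a 1) c := fun c hc => (C.hnb _ _).1 hc
  -- dependence sets
  set SA : Set (Ix V) := {i | i ∈ Sc (a 1) ∨ ∃ c ∈ E0, i ∈ Sb C (a 1) c} with hSA
  have hAdep : DependsOn A SA := by
    intro x y h
    simp only [hA]
    congr 1
    · exact gx_dependsOn_site p (a 1) (fun j hj => h j (Or.inl hj))
    · apply Finset.sum_congr rfl
      intro c hc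
      have hcnb : c ∈ C.nb (a 1) := Finset.mem_of_mem_erase (Finset.mem_of_mem_erase hc)
      congr 1
      · exact dc_eS_dep C _ (fun j hj => h j (Or.inr ⟨c, hc, Or.inr hj⟩))
      · congr 1
        exact gz_dependsOn C p (hadj c hcnb).symm (fun j hj => h j (Or.inr ⟨c, hc, Or.inl hj⟩))
  have hgdep : DependsOn g (Bc C c₀ (a 1)) := gz_dependsOn C p (hadj c₀ hc₀).symm
  have hRdep : DependsOn R (Bc C (a 2) (a 1)) := by
    have := dc_R_dep C p (a := fun i => a (i + 1))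
      ⟨fun i => ha.1 (i + 1), fun i => ha.2 (i + 1)⟩ n
    exact this
  set SV : Set (Ix V) := SA ∪ Bc C c₀ (a 1) ∪ Bc C (a 2) (a 1) with hSV
  have ha2 : a 2 ∈ C.nb (a 1) := (C.hnb _ _).2 (ha.1 1)
  have hne02 : c₀ ≠ a 2 := h2
  have hdisjE : Disjoint ({(Ix.ed s(a 1, c₀))} : Set (Ix V)) SV := by
    rw [Set.disjoint_singleton_left]
    have hi : (Ix.ed s(a 1, c₀)) ∈ Sb C (a 1) c₀ := Or.inr rfl
    rintro ((⟨h | ⟨c, hc, hic⟩⟩ | h) | h)
    · exact (Set.disjoint_left.1 (Sb_disjoint_site C (hadj c₀ hc₀))) hi h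
    · have hcnb : c ∈ C.nb (a 1) := Finset.mem_of_mem_erase (Finset.mem_of_mem_erase hc)
      have hne : c₀ ≠ c := fun hcc =>
        (Finset.mem_erase.1 (show c ∈ ((C.nb (a 1)).erase (a 0)).erase c₀ from hc)).1 hcc.symm
      exact (Set.disjoint_left.1 (Sb_disjoint C (hadj c₀ hc₀) (hadj c hcnb) hne)) hi hic
    · have h3 : ∀ v ∈ s(a 1, c₀), C.G.dist v c₀ < C.G.dist v (a 1) := h
      have h4 := h3 (a 1) (Sym2.mem_mk_left _ _)
      simp at h4
    · exact (Set.disjoint_left.1 (Sb_disjoint C (hadj c₀ hc₀) (hadj _ ha2) hne02)) hi (Or.inl h)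
  have hEdep := dc_eS_dep C s(a 1, c₀)
  -- the two branches
  set Φp : WW V → ℝ := fun w => G4 C (A w + Ps w) * R w with hΦp
  set Φm : WW V → ℝ := fun w => G4 C (A w - Ps w) * R w with hΦm
  have hG := dc_measurable_G4 C
  have hΦpm : Measurable Φp := (hG.comp (hAm.add hPm)).mul hRm
  have hΦmm : Measurable Φm := (hG.comp (hAm.sub hPm)).mul hRm
  have hdepΦ : ∀ f : ℝ → ℝ → ℝ, DependsOn (fun w => f (A w) (Ps w) * R w) SV := by
    intro f x y h
    have e1 : A x = A y := hAdep (fun j hj => h j (Or.inl (Or.inl hj)))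
    have e2 : g x = g y := hgdep (fun j hj => h j (Or.inl (Or.inr hj)))
    have e3 : R x = R y := hRdep (fun j hj => h j (Or.inr hj))
    simp only [hPs, e1, e2, e3]
  have hdepΦp : DependsOn Φp SV := hdepΦ (fun u v => G4 C (u + v))
  have hdepΦm : DependsOn Φm SV := hdepΦ (fun u v => G4 C (u - v))
  have hindp : ProbabilityTheory.IndepFun Es Φp (PW V) :=
    indep_of_dependsOn hEm hΦpm hEdep hdepΦp hdisjE
  have hindm : ProbabilityTheory.IndepFun Es Φm (PW V) :=
    indep_of_dependsOn hEm hΦmm hEdep hdepΦm hdisjE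
  have hmean : ∫ w, Es w ∂(PW V) = C.θ := eS_mean C _
  -- integrability
  have hbdd : ∀ {F : WW V → ℝ}, Measurable F → (∀ w, |F w| ≤ 1) → Integrable F (PW V) := by
    intro F hF hb
    exact Integrable.of_bound hF.aestronglyMeasurable 1 (Eventually.of_forall (fun w => by
      simpa [Real.norm_eq_abs] using hb w))
  have hΦpb : ∀ w, |Φp w| ≤ 1 := by
    intro w
    simp only [hΦp]
    rw [abs_of_nonneg (mul_nonneg (G4_nonneg C _) (hR0 w))]
    exact mul_le_one₀ (G4_le_one C _) (hR0 w) (hR1 w)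
  have hΦmb : ∀ w, |Φm w| ≤ 1 := by
    intro w
    simp only [hΦm]
    rw [abs_of_nonneg (mul_nonneg (G4_nonneg C _) (hR0 w))]
    exact mul_le_one₀ (G4_le_one C _) (hR0 w) (hR1 w)
  have hΦpi := hbdd hΦpm hΦpb
  have hΦmi := hbdd hΦmm hΦmb
  -- the first integral
  have hfirst : ∫ w, dc_R C p a (n + 1) w ∂(PW V) =
      (1 + C.θ) / 2 * ∫ w, Φp w ∂(PW V) + (1 - C.θ) / 2 * ∫ w, Φm w ∂(PW V) := by
    have hae : (fun w => dc_R C p a (n + 1) w) =ᵐ[PW V]
        fun w => (1 + Es w) / 2 * Φp w + (1 - Es w) / 2 * Φm w := by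
      filter_upwards [gz_bp C hp] with w hw
      have h1 := hw (a 1) (a 0) (ha.1 0).symm
      have hc₀' : c₀ ∈ (C.nb (a 1)).erase (a 0) := Finset.mem_erase.2 ⟨h0, hc₀⟩
      rw [← Finset.add_sum_erase _ _ hc₀'] at h1
      have h2' : gz C p (a 1) (a 0) w = A w + Es w * Ps w := by
        rw [h1]
        simp only [hA, hEs, hPs, hg, hE0]
        ring
      unfold dc_R
      rw [Finset.prod_range_succ']
      rw [show (0 + 1 : ℕ) = 1 from rfl, h2']
      have h3 : ∏ i ∈ range n, G4 C (gz C p (a (i + 1 + 1)) (a (i + 1)) w) = R w := rfl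
      rw [h3]
      simp only [hΦp, hΦm]
      rcases eS_cases C s(a 1, c₀) w with hh | hh
      · have : Es w = 1 := hh
        rw [this]
        ring_nf
      · have : Es w = -1 := hh
        rw [this]
        ring_nf
    rw [integral_congr_ae hae]
    have e1 : ∫ w, (1 + Es w) / 2 * Φp w ∂(PW V) = (1 + C.θ) / 2 * ∫ w, Φp w ∂(PW V) := by
      have := hindp.integral_fun_comp_mul_comp (f := fun x : ℝ => (1 + x) / 2) (g := id)
        hEm.aemeasurable hΦpm.aemeasurable (by fun_prop) aestronglyMeasurable_id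
      simp only [id] at this
      rw [this]
      congr 1
      have hEi : Integrable Es (PW V) := hbdd hEm (fun w => by
        rcases eS_cases C s(a 1, c₀) w with hh | hh <;> simp [hEs, hh])
      rw [integral_div, integral_add (integrable_const _) hEi, hmean]
      simp
    have e2 : ∫ w, (1 - Es w) / 2 * Φm w ∂(PW V) = (1 - C.θ) / 2 * ∫ w, Φm w ∂(PW V) := by
      have := hindm.integral_fun_comp_mul_comp (f := fun x : ℝ => (1 - x) / 2) (g := id)
        hEm.aemeasurable hΦmm.aemeasurable (by fun_prop) aestronglyMeasurable_id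
      simp only [id] at this
      rw [this]
      congr 1
      have hEi : Integrable Es (PW V) := hbdd hEm (fun w => by
        rcases eS_cases C s(a 1, c₀) w with hh | hh <;> simp [hEs, hh])
      rw [integral_div, integral_sub (integrable_const _) hEi, hmean]
      simp
    rw [integral_add, e1, e2]
    · refine Integrable.bdd_mul (c := 1) hΦpi ?_ ?_
      · exact ((measurable_const.add hEm).div_const 2).aestronglyMeasurable
      · exact Eventually.of_forall (fun w => by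
          rcases eS_cases C s(a 1, c₀) w with hh | hh <;> simp [hEs, hh])
    · refine Integrable.bdd_mul (c := 1) hΦmi ?_ ?_
      · exact ((measurable_const.sub hEm).div_const 2).aestronglyMeasurable
      · exact Eventually.of_forall (fun w => by
          rcases eS_cases C s(a 1, c₀) w with hh | hh <;> simp [hEs, hh])
  -- the bound
  set κ := (1 - C.θ) / 2 * (C.θ ^ 2 * (1 - C.θ ^ 2)) with hκ
  set t : WW V → ℝ := fun w => Real.tanh (g w) ^ 2 with ht
  have htm : Measurable t := (dc_measurable_tanh.comp hgm).pow_const 2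
  have ht0 : ∀ w, 0 ≤ t w := fun w => by positivity
  have ht1 : ∀ w, t w ≤ 1 := fun w => dc_tanh_sq_le_one _
  have hRi : Integrable R (PW V) := hbdd hRm (fun w => by
    rw [abs_of_nonneg (hR0 w)]
    exact hR1 w)
  have hti : Integrable t (PW V) := hbdd htm (fun w => by
    rw [abs_of_nonneg (ht0 w)]
    exact ht1 w)
  have hindt : ProbabilityTheory.IndepFun t R (PW V) := by
    refine indep_of_dependsOn (S := Bc C c₀ (a 1)) htm hRm ?_ hRdep ?_
    · exact fun x y h => by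
        simp only [ht]
        rw [hgdep h]
    · rw [Set.disjoint_left]
      intro i hi hi'
      exact (Set.disjoint_left.1 (Sb_disjoint C (hadj c₀ hc₀) (hadj _ ha2) hne02))
        (Or.inl hi) (Or.inl hi')
  have htR : ∫ w, t w * R w ∂(PW V) = (∫ w, t w ∂(PW V)) * ∫ w, R w ∂(PW V) :=
    hindt.integral_fun_mul_eq_mul_integral htm.aestronglyMeasurable hRm.aestronglyMeasurable
  have hpt : ∀ w, (1 + C.θ) / 2 * Φp w + (1 - C.θ) / 2 * Φm w ≤ R w - κ * (t w * R w) := by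
    intro w
    have h1 := G4_shift C (A w) (g w)
    have h2 := mul_le_mul_of_nonneg_right h1 (hR0 w)
    simp only [hΦp, hΦm, hPs, hκ, ht]
    nlinarith
  have hint : (1 + C.θ) / 2 * ∫ w, Φp w ∂(PW V) + (1 - C.θ) / 2 * ∫ w, Φm w ∂(PW V) ≤
      ∫ w, R w ∂(PW V) - κ * ((∫ w, t w ∂(PW V)) * ∫ w, R w ∂(PW V)) := by
    rw [← htR, ← integral_const_mul, ← integral_const_mul, ← integral_const_mul]
    have hR' : Integrable (fun w => t w * R w) (PW V) :=
      hbdd (htm.mul hRm) (fun w => by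
        rw [abs_of_nonneg (mul_nonneg (ht0 w) (hR0 w))]
        exact mul_le_one₀ (ht1 w) (hR0 w) (hR1 w))
    rw [← integral_add (hΦpi.const_mul _) (hΦmi.const_mul _), ← integral_sub hRi (hR'.const_mul _)]
    apply integral_mono ((hΦpi.const_mul _).add (hΦmi.const_mul _)) (hRi.sub (hR'.const_mul _)) hpt
  rw [hfirst]
  calc _ ≤ ∫ w, R w ∂(PW V) - κ * ((∫ w, t w ∂(PW V)) * ∫ w, R w ∂(PW V)) := hint
    _ = _ := by ring

lemma dc_yy_setL (τ : Lab V) (ω : Om V) (j : Stp V) : yy C j (setL τ ω) = yy C j ω := by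
  rfl

lemma dc_spin_setL (τ : Lab V) (ω : Om V) (v : V) : spin C (setL τ ω) v = spin C ω v := by
  rfl

lemma dc_fld_setL (τ : Lab V) (A : Set (Stp V)) (ω : Om V) : fld C A (setL τ ω) = fld C A ω := by
  funext v
  unfold fld
  simp only [dc_yy_setL]

/-- gauge form on a fibre -/
lemma dc_gz_setL (p : V → ℝ) (τ : Lab V) (ω : Om V) {a b : V} (hab : C.G.Adj a b) :
    Real.tanh (gz C p a b (setL τ ω).2) ^ 2 = Real.tanh (zl C (fld C (Sp τ p) ω) a b) ^ 2 := by
  have h := gauge_zl C p (setL τ ω) a b hab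
  have h1 : lab (setL τ ω).2 = τ := lab_setLab τ ω.2
  rw [h1, dc_fld_setL] at h
  rw [h, dc_tanh_sign (spin_cases C _ _)]

/-- the second moment increases with the profile -/
lemma dc_sq_mono {p q : V → ℝ} {T : ℝ} (hq : ∀ v, q v ≤ p v) (hp : ∀ v, p v ≤ T) {a b : V}
    (hab : C.G.Adj a b) :
    ∫ w, Real.tanh (gz C q a b w) ^ 2 ∂(PW V) ≤ ∫ w, Real.tanh (gz C p a b w) ^ 2 ∂(PW V) := by
  have hq' : ∀ v, q v ≤ T := fun v => (hq v).trans (hp v)
  have hmq : Measurable fun w : WW V => Real.tanh (gz C q a b w) ^ 2 :=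
    (dc_measurable_tanh.comp (measurable_gz C hq' _ _)).pow_const 2
  have hmp : Measurable fun w : WW V => Real.tanh (gz C p a b w) ^ 2 :=
    (dc_measurable_tanh.comp (measurable_gz C hp _ _)).pow_const 2
  rw [← dc_integral_snd hmq, ← dc_integral_snd hmp]
  have hB : ∀ (r : V → ℝ) (ω : Om V), |Real.tanh (gz C r a b ω.2) ^ 2| ≤ 1 := by
    intro r ω
    rw [abs_of_nonneg (by positivity)]
    exact dc_tanh_sq_le_one _
  rw [integral_fiber (F := fun ω : Om V => Real.tanh (gz C q a b ω.2) ^ 2) (hmq.comp measurable_snd) (hB q),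
    integral_fiber (F := fun ω : Om V => Real.tanh (gz C p a b ω.2) ^ 2) (hmp.comp measurable_snd) (hB p)]
  have hfib : ∀ (r : V → ℝ), (∀ v, r v ≤ T) →
      Integrable (fun τ : Lab V => ∫ ω, Real.tanh (gz C r a b (setL τ ω).2) ^ 2 ∂(PP V)) (PL V) := by
    intro r hr
    have hm : Measurable fun ω : Om V => Real.tanh (gz C r a b ω.2) ^ 2 :=
      ((dc_measurable_tanh.comp (measurable_gz C hr _ _)).pow_const 2).comp measurable_snd
    have hi : Integrable (fun ω : Om V => Real.tanh (gz C r a b ω.2) ^ 2) (PP V) :=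
      Integrable.of_bound hm.aestronglyMeasurable 1 (Eventually.of_forall (fun ω => by
        simpa [Real.norm_eq_abs] using hB r ω))
    have hi2 := (measurePreserving_fiber (V := V)).integrable_comp_of_integrable hi
    exact hi2.integral_prod_left
  apply integral_mono (hfib q hq') (hfib p hp)
  intro τ
  show ∫ ω, Real.tanh (gz C q a b (setL τ ω).2) ^ 2 ∂(PP V) ≤
    ∫ ω, Real.tanh (gz C p a b (setL τ ω).2) ^ 2 ∂(PP V)
  simp only [dc_gz_setL C _ τ _ hab]
  refine msg_sq_mono C (A := Sp τ q) (A' := Sp τ p) (L := LT T) ?_ (Sp_le hp) hab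
  intro j hj
  exact ⟨hj.1, lt_of_lt_of_le hj.2 (hq _)⟩

/-- Path decay for site-dependent times at least `s`. -/
theorem peel : ∃ c : ℝ, 0 < c ∧ c ≤ 1 / 2 ∧ ∀ (s T : ℝ) (p : V → ℝ), (∀ v, s ≤ p v) → (∀ v, p v ≤ T) →
    ∀ (a : ℕ → V), Chain C a → ∀ n : ℕ,
      ∫ ω, ∏ i ∈ range n, G4 C (zl C (fld C (Sp (lab ω.2) p) ω) (a (i + 1)) (a i)) ∂(PP V)
        ≤ (1 - c * min 1 (Real.rpow 2 s)) ^ n := by
  obtain ⟨c₁, hc₁, hc₁', hlow⟩ := msg_sq_lower C
  have hθ := C.hθ0
  have hθ1 := th_lt_one C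
  set κ := (1 - C.θ) / 2 * (C.θ ^ 2 * (1 - C.θ ^ 2)) with hκ
  have hκ0 : 0 < κ := by
    have : 0 < 1 - C.θ ^ 2 := by nlinarith
    have : 0 < 1 - C.θ := by linarith
    positivity
  refine ⟨min (1 / 2) (κ * c₁), lt_min (by norm_num) (by positivity), min_le_left _ _, ?_⟩
  intro s T p hs hT a ha n
  set c := min (1 / 2) (κ * c₁) with hc
  have hcpos : 0 < c := lt_min (by norm_num) (by positivity)
  have hcle : c ≤ 1 / 2 := min_le_left _ _
  set mn := min 1 (Real.rpow 2 s) with hmn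
  have hmn0 : 0 ≤ mn := le_min (by norm_num) (Real.rpow_nonneg (by norm_num) _)
  have hmn1 : mn ≤ 1 := min_le_left _ _
  have hbase : 0 ≤ 1 - c * mn := by nlinarith
  rw [dc_peel_conv C p hT ha n]
  induction n generalizing a with
  | zero =>
    simp [dc_R]
  | succ n ih =>
    have ha' : Chain C (fun i => a (i + 1)) := ⟨fun i => ha.1 (i + 1), fun i => ha.2 (i + 1)⟩
    -- choose the sibling
    obtain ⟨c₀, hc₀, hne⟩ : ∃ c₀ ∈ C.nb (a 1), c₀ ∉ ({a 0, a 2} : Finset V) := by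
      apply Finset.exists_mem_notMem_of_card_lt_card
      calc ({a 0, a 2} : Finset V).card ≤ 2 := Finset.card_le_two
        _ < (C.nb (a 1)).card := by
          rw [C.hcard]
          have := C.hd
          omega
    simp only [Finset.mem_insert, Finset.mem_singleton, not_or] at hne
    have hstep := dc_step C hT ha hc₀ hne.1 hne.2 n
    have hadj : C.G.Adj c₀ (a 1) := ((C.hnb _ _).1 hc₀).symm
    have hlow1 := hlow s c₀ (a 1) hadj
    have hmono := dc_sq_mono C (q := fun _ => s) (p := p) hs hT hadj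
    have hge : c * mn ≤ κ * ∫ w, Real.tanh (gz C p c₀ (a 1) w) ^ 2 ∂(PW V) := by
      have h1 : c₁ * mn ≤ ∫ w, Real.tanh (gz C p c₀ (a 1) w) ^ 2 ∂(PW V) := hlow1.trans hmono
      have h2 : c ≤ κ * c₁ := min_le_right _ _
      calc c * mn ≤ κ * c₁ * mn := mul_le_mul_of_nonneg_right h2 hmn0
        _ = κ * (c₁ * mn) := by ring
        _ ≤ _ := mul_le_mul_of_nonneg_left h1 hκ0.le
    have hI0 : 0 ≤ ∫ w, dc_R C p (fun i => a (i + 1)) n w ∂(PW V) :=
      integral_nonneg (dc_R_nonneg C _ _ _)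
    have hIH := ih (fun i => a (i + 1)) ha'
    calc ∫ w, dc_R C p a (n + 1) w ∂(PW V)
        ≤ (1 - κ * ∫ w, Real.tanh (gz C p c₀ (a 1) w) ^ 2 ∂(PW V)) *
          ∫ w, dc_R C p (fun i => a (i + 1)) n w ∂(PW V) := hstep
      _ ≤ (1 - c * mn) * ∫ w, dc_R C p (fun i => a (i + 1)) n w ∂(PW V) :=
          mul_le_mul_of_nonneg_right (by linarith) hI0
      _ ≤ (1 - c * mn) * (1 - c * mn) ^ n := mul_le_mul_of_nonneg_left hIH hbase
      _ = (1 - c * mn) ^ (n + 1) := by ring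

/-- level sums at time `T`: average over the vertices `x` at distance `k` behind `(a, b)` of the
product of `G4` along the path from `x` to `a` -/
def Sh (T : ℝ) (k : ℕ) (a b : V) (ω : Om V) : ℝ :=
  (((C.d : ℝ) - 1) ^ k)⁻¹ * ∑ x ∈ bh C a b k,
    ∏ i ∈ range k, G4 C (Zs C T (twI C a i x) (twI C a (i + 1) x) ω)

lemma dc_r_pos : 0 < (C.d : ℝ) - 1 := by
  have := d_sub_one_ge C
  linarith

lemma Sh_nonneg (T : ℝ) (k : ℕ) (a b : V) (ω : Om V) : 0 ≤ Sh C T k a b ω := by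
  unfold Sh
  exact mul_nonneg (inv_nonneg.2 (pow_nonneg (dc_r_pos C).le k))
    (Finset.sum_nonneg fun x _ => Finset.prod_nonneg fun i _ => G4_nonneg C _)

lemma Sh_le_one (T : ℝ) (k : ℕ) {a b : V} (hab : C.G.Adj a b) (ω : Om V) :
    Sh C T k a b ω ≤ 1 := by
  unfold Sh
  have hsum : ∑ x ∈ bh C a b k, ∏ i ∈ range k, G4 C (Zs C T (twI C a i x) (twI C a (i + 1) x) ω) ≤
      ∑ x ∈ bh C a b k, (1 : ℝ) :=
    Finset.sum_le_sum fun x _ =>
      Finset.prod_le_one (fun i _ => G4_nonneg C _) (fun i _ => G4_le_one C _)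
  rw [Finset.sum_const, nsmul_eq_mul, mul_one, card_bh C hab k] at hsum
  have hr : 0 < ((C.d : ℝ) - 1) ^ k := pow_pos (dc_r_pos C) k
  calc _ ≤ (((C.d : ℝ) - 1) ^ k)⁻¹ * ((C.d : ℝ) - 1) ^ k :=
        mul_le_mul_of_nonneg_left hsum (inv_nonneg.2 hr.le)
    _ = 1 := inv_mul_cancel₀ hr.ne'

lemma measurable_Sh (T : ℝ) (k : ℕ) (a b : V) : Measurable (Sh C T k a b) := by
  unfold Sh
  exact (Finset.measurable_sum _ fun x _ => Finset.measurable_prod _ fun i _ =>
    (dc_measurable_G4 C).comp (measurable_Zs (C := C) T _ _)).const_mul _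

/-- the level sum in gauge form -/
def ShW (T : ℝ) (k : ℕ) (a b : V) (w : WW V) : ℝ :=
  (((C.d : ℝ) - 1) ^ k)⁻¹ * ∑ x ∈ bh C a b k,
    ∏ i ∈ range k, G4 C (gz C (fun _ => T) (twI C a i x) (twI C a (i + 1) x) w)

lemma dc_G4_Zs (T : ℝ) {u v : V} (huv : C.G.Adj u v) (ω : Om V) :
    G4 C (Zs C T u v ω) = G4 C (gz C (fun _ => T) u v ω.2) := by
  unfold Zs Sq
  rw [gauge_zl C (fun _ => T) ω u v huv]
  exact dc_G4_sign C (spin_cases C ω u) _

lemma Sh_eq_ShW (T : ℝ) (k : ℕ) {a b : V} (hab : C.G.Adj a b) (ω : Om V) :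
    Sh C T k a b ω = ShW C T k a b ω.2 := by
  unfold Sh ShW
  congr 1
  apply Finset.sum_congr rfl
  intro x hx
  apply Finset.prod_congr rfl
  intro i hi
  have hd := ((mem_bh C hab).1 hx).1
  exact dc_G4_Zs C T (twI_adj C a x (by rw [hd]; exact Finset.mem_range.1 hi)) ω

lemma dc_twI_inv {a c x : V} (hac : C.G.Adj a c) {k : ℕ} (hx : x ∈ bh C c a k) {i : ℕ}
    (hi : i ≤ k) : twI C a i x = twI C c i x ∧ C.G.dist (twI C c i x) c + i = k ∧
      C.G.dist (twI C c i x) a + i = k + 1 := by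
  have hx' := (mem_bh C hac.symm).1 hx
  have hconn := C.hT.1
  induction i with
  | zero => exact ⟨rfl, hx'.1, hx'.2⟩
  | succ i ih =>
    obtain ⟨h1, h2, h3⟩ := ih (by omega)
    set u := twI C c i x with hu
    have hne : u ≠ c := by
      intro h
      rw [h] at h2
      simp at h2
      omega
    have hadj := tw_adj C hne
    have hd := tw_dist C hne
    set v := tw C c u with hv
    have ht1 : C.G.dist v a ≤ C.G.dist v c + C.G.dist c a := hconn.dist_triangle
    have ht2 : C.G.dist u a ≤ C.G.dist u v + C.G.dist v a := hconn.dist_triangle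
    have hca : C.G.dist c a = 1 := SimpleGraph.dist_eq_one_iff_adj.2 hac.symm
    have huv : C.G.dist u v = 1 := SimpleGraph.dist_eq_one_iff_adj.2 hadj
    have hva : C.G.dist v a + 1 = C.G.dist u a := by omega
    refine ⟨?_, ?_, ?_⟩
    · rw [twI_succ, h1, twI_succ]
      exact tw_unique C hadj hva
    · rw [twI_succ]
      show C.G.dist v c + (i + 1) = k
      omega
    · rw [twI_succ]
      show C.G.dist v a + (i + 1) = k + 1
      omega

lemma dc_twI_end {a c x : V} (hac : C.G.Adj a c) {k : ℕ} (hx : x ∈ bh C c a k) :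
    twI C a k x = c := by
  have hx' := (mem_bh C hac.symm).1 hx
  rw [(dc_twI_inv C hac hx (le_refl k)).1]
  have := twI_end C c x
  rwa [hx'.1] at this

lemma dc_twI_end' {a c x : V} (hac : C.G.Adj a c) {k : ℕ} (hx : x ∈ bh C c a k) :
    twI C a (k + 1) x = a := by
  rw [twI_succ, dc_twI_end C hac hx]
  refine tw_unique C hac.symm ?_
  simp [SimpleGraph.dist_eq_one_iff_adj.2 hac.symm]

lemma ShW_zero (T : ℝ) (a b : V) (w : WW V) : ShW C T 0 a b w = 1 := by
  unfold ShW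
  simp [bh_zero]

lemma ShW_succ (T : ℝ) (k : ℕ) {a b : V} (w : WW V) :
    ShW C T (k + 1) a b w = ((C.d : ℝ) - 1)⁻¹ * ∑ c ∈ (C.nb a).erase b,
      G4 C (gz C (fun _ => T) c a w) * ShW C T k c a w := by
  unfold ShW
  rw [bh_succ, Finset.sum_biUnion]
  · have key : ∀ c ∈ (C.nb a).erase b, ∑ x ∈ bh C c a k, ∏ i ∈ range (k + 1),
        G4 C (gz C (fun _ => T) (twI C a i x) (twI C a (i + 1) x) w) =
        G4 C (gz C (fun _ => T) c a w) * ∑ x ∈ bh C c a k, ∏ i ∈ range k,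
          G4 C (gz C (fun _ => T) (twI C c i x) (twI C c (i + 1) x) w) := by
      intro c hc
      have hac : C.G.Adj a c := (C.hnb a c).1 (Finset.mem_of_mem_erase hc)
      rw [Finset.mul_sum]
      apply Finset.sum_congr rfl
      intro x hx
      rw [Finset.prod_range_succ, mul_comm]
      congr 1
      · rw [dc_twI_end C hac hx, dc_twI_end' C hac hx]
      · apply Finset.prod_congr rfl
        intro i hi
        have hi' := Finset.mem_range.1 hi
        rw [(dc_twI_inv C hac hx (le_of_lt hi')).1, (dc_twI_inv C hac hx (Nat.succ_le_of_lt hi')).1]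
    rw [Finset.sum_congr rfl key, pow_succ, mul_inv, mul_comm (((C.d : ℝ) - 1) ^ k)⁻¹, mul_assoc]
    congr 1
    rw [Finset.mul_sum]
    apply Finset.sum_congr rfl
    intro c _
    ring
  · intro c hc c' hc' hne
    rw [Function.onFun, Finset.disjoint_left]
    intro x hx hx'
    have hac : C.G.Adj a c := (C.hnb a c).1 (Finset.mem_of_mem_erase (Finset.mem_coe.1 hc))
    have hac' : C.G.Adj a c' := (C.hnb a c').1 (Finset.mem_of_mem_erase (Finset.mem_coe.1 hc'))
    exact hne ((dc_twI_end C hac hx).symm.trans (dc_twI_end C hac' hx'))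

lemma ShW_nonneg (T : ℝ) (k : ℕ) (a b : V) (w : WW V) : 0 ≤ ShW C T k a b w := by
  unfold ShW
  exact mul_nonneg (inv_nonneg.2 (pow_nonneg (dc_r_pos C).le k))
    (Finset.sum_nonneg fun x _ => Finset.prod_nonneg fun i _ => G4_nonneg C _)

lemma ShW_le_one (T : ℝ) (k : ℕ) {a b : V} (hab : C.G.Adj a b) (w : WW V) :
    ShW C T k a b w ≤ 1 := by
  unfold ShW
  have hsum : ∑ x ∈ bh C a b k, ∏ i ∈ range k,
      G4 C (gz C (fun _ => T) (twI C a i x) (twI C a (i + 1) x) w) ≤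
      ∑ x ∈ bh C a b k, (1 : ℝ) :=
    Finset.sum_le_sum fun x _ =>
      Finset.prod_le_one (fun i _ => G4_nonneg C _) (fun i _ => G4_le_one C _)
  rw [Finset.sum_const, nsmul_eq_mul, mul_one, card_bh C hab k] at hsum
  have hr : 0 < ((C.d : ℝ) - 1) ^ k := pow_pos (dc_r_pos C) k
  calc _ ≤ (((C.d : ℝ) - 1) ^ k)⁻¹ * ((C.d : ℝ) - 1) ^ k :=
        mul_le_mul_of_nonneg_left hsum (inv_nonneg.2 hr.le)
    _ = 1 := inv_mul_cancel₀ hr.ne'

lemma measurable_ShW (T : ℝ) (k : ℕ) (a b : V) : Measurable (ShW C T k a b) := by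
  unfold ShW
  exact (Finset.measurable_sum _ fun x _ => Finset.measurable_prod _ fun i _ =>
    (dc_measurable_G4 C).comp (measurable_gz C (fun _ => le_refl T) _ _)).const_mul _

lemma ShW_dep (T : ℝ) (k : ℕ) {a b : V} (hab : C.G.Adj a b) :
    DependsOn (ShW C T k a b) (Bc C a b) := by
  induction k generalizing a b with
  | zero =>
    intro w w' _
    rw [ShW_zero, ShW_zero]
  | succ k ih =>
    intro w w' h
    rw [ShW_succ, ShW_succ]
    congr 1
    apply Finset.sum_congr rfl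
    intro c hc
    have hac : C.G.Adj a c := (C.hnb a c).1 (Finset.mem_of_mem_erase hc)
    have hne : c ≠ b := Finset.ne_of_mem_erase hc
    have hsub := Sb_subset C hab hac hne
    have h' : ∀ i ∈ Bc C c a, w i = w' i := fun i hi => h i (hsub (Or.inl hi))
    rw [gz_dependsOn C _ hac.symm h', ih hac.symm h']

/-- the level sum averaged over the sub-branches at height `m` -/
def Lm (T : ℝ) (k : ℕ) : ℕ → V → V → WW V → ℝ
  | 0, a, b, w => ShW C T k a b w
  | m + 1, a, b, w => ((C.d : ℝ) - 1)⁻¹ * ∑ c ∈ (C.nb a).erase b, Lm T k m c a w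

lemma dc_card_erase {a b : V} (hab : C.G.Adj a b) :
    (((C.nb a).erase b).card : ℝ) = (C.d : ℝ) - 1 := by
  rw [Finset.card_erase_of_mem ((C.hnb a b).2 hab), C.hcard a]
  have : 1 ≤ C.d := by have := C.hd; omega
  rw [Nat.cast_sub this]
  simp

lemma ShW_le_Lm (T : ℝ) (k m : ℕ) {a b : V} (w : WW V) :
    ShW C T (k + m) a b w ≤ Lm C T k m a b w := by
  induction m generalizing a b with
  | zero => exact le_refl _
  | succ m ih =>
    rw [← add_assoc, ShW_succ]
    show _ ≤ ((C.d : ℝ) - 1)⁻¹ * ∑ c ∈ (C.nb a).erase b, Lm C T k m c a w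
    apply mul_le_mul_of_nonneg_left _ (inv_nonneg.2 (dc_r_pos C).le)
    apply Finset.sum_le_sum
    intro c _
    calc G4 C (gz C (fun _ => T) c a w) * ShW C T (k + m) c a w
        ≤ 1 * ShW C T (k + m) c a w :=
          mul_le_mul_of_nonneg_right (G4_le_one C _) (ShW_nonneg C _ _ _ _ _)
      _ = ShW C T (k + m) c a w := one_mul _
      _ ≤ _ := ih

lemma Lm_nonneg (T : ℝ) (k m : ℕ) (a b : V) (w : WW V) : 0 ≤ Lm C T k m a b w := by
  induction m generalizing a b with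
  | zero => exact ShW_nonneg C _ _ _ _ _
  | succ m ih =>
    exact mul_nonneg (inv_nonneg.2 (dc_r_pos C).le) (Finset.sum_nonneg fun c _ => ih c a)

lemma Lm_le_one (T : ℝ) (k m : ℕ) {a b : V} (hab : C.G.Adj a b) (w : WW V) :
    Lm C T k m a b w ≤ 1 := by
  induction m generalizing a b with
  | zero => exact ShW_le_one C _ _ hab _
  | succ m ih =>
    show ((C.d : ℝ) - 1)⁻¹ * ∑ c ∈ (C.nb a).erase b, Lm C T k m c a w ≤ 1
    have hsum : ∑ c ∈ (C.nb a).erase b, Lm C T k m c a w ≤ ∑ c ∈ (C.nb a).erase b, (1 : ℝ) :=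
      Finset.sum_le_sum fun c hc =>
        ih ((C.hnb a c).1 (Finset.mem_of_mem_erase hc)).symm
    rw [Finset.sum_const, nsmul_eq_mul, mul_one, dc_card_erase C hab] at hsum
    have hr := dc_r_pos C
    calc _ ≤ ((C.d : ℝ) - 1)⁻¹ * ((C.d : ℝ) - 1) :=
          mul_le_mul_of_nonneg_left hsum (inv_nonneg.2 hr.le)
      _ = 1 := inv_mul_cancel₀ hr.ne'

lemma measurable_Lm (T : ℝ) (k m : ℕ) (a b : V) : Measurable (Lm C T k m a b) := by
  induction m generalizing a b with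
  | zero => exact measurable_ShW C _ _ _ _
  | succ m ih =>
    have : Lm C T k (m + 1) a b = fun w =>
        ((C.d : ℝ) - 1)⁻¹ * ∑ c ∈ (C.nb a).erase b, Lm C T k m c a w := by
      funext w; rfl
    rw [this]
    exact (Finset.measurable_sum _ fun c _ => ih c a).const_mul _

lemma Lm_dep (T : ℝ) (k m : ℕ) {a b : V} (hab : C.G.Adj a b) :
    DependsOn (Lm C T k m a b) (Bc C a b) := by
  induction m generalizing a b with
  | zero => exact ShW_dep C _ _ hab
  | succ m ih =>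
    intro w w' h
    show ((C.d : ℝ) - 1)⁻¹ * ∑ c ∈ (C.nb a).erase b, Lm C T k m c a w =
      ((C.d : ℝ) - 1)⁻¹ * ∑ c ∈ (C.nb a).erase b, Lm C T k m c a w'
    congr 1
    apply Finset.sum_congr rfl
    intro c hc
    have hac : C.G.Adj a c := (C.hnb a c).1 (Finset.mem_of_mem_erase hc)
    have hne : c ≠ b := Finset.ne_of_mem_erase hc
    have hsub := Sb_subset C hab hac hne
    exact ih hac.symm fun i hi => h i (hsub (Or.inl hi))


lemma Lm_integrable (T : ℝ) (k m : ℕ) {a b : V} (hab : C.G.Adj a b) :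
    Integrable (Lm C T k m a b) (PW V) :=
  Integrable.of_mem_Icc 0 1 (measurable_Lm C T k m a b).aemeasurable
    (ae_of_all _ fun w => ⟨Lm_nonneg C T k m a b w, Lm_le_one C T k m hab w⟩)

lemma Lm_integral_succ (T : ℝ) (k m : ℕ) {a b : V} :
    ∫ w, Lm C T k (m + 1) a b w ∂(PW V) =
      ((C.d : ℝ) - 1)⁻¹ * ∑ c ∈ (C.nb a).erase b, ∫ w, Lm C T k m c a w ∂(PW V) := by
  show ∫ w, ((C.d : ℝ) - 1)⁻¹ * ∑ c ∈ (C.nb a).erase b, Lm C T k m c a w ∂(PW V) = _
  rw [integral_const_mul, integral_finsetSum]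
  intro c hc
  exact Lm_integrable C T k m ((C.hnb a c).1 (Finset.mem_of_mem_erase hc)).symm

open ProbabilityTheory in
lemma Lm_subG (T : ℝ) (k m : ℕ) {a b : V} (hab : C.G.Adj a b) :
    ∃ v : NNReal, (v : ℝ) = (1 / 4) * (((C.d : ℝ) - 1)⁻¹) ^ m ∧
      HasSubgaussianMGF (fun w => Lm C T k m a b w - ∫ w', Lm C T k m a b w' ∂(PW V)) v (PW V) := by
  induction m generalizing a b with
  | zero =>
    refine ⟨(‖(1 : ℝ) - 0‖₊ / 2) ^ 2, ?_, ?_⟩
    · simp
      norm_num
    · exact hasSubgaussianMGF_of_mem_Icc (measurable_Lm C T k 0 a b).aemeasurable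
        (ae_of_all _ fun w => ⟨Lm_nonneg C T k 0 a b w, Lm_le_one C T k 0 hab w⟩)
  | succ m ih =>
    set E := (C.nb a).erase b with hE
    have hadj : ∀ c : ↥E, C.G.Adj a c.1 := fun c => (C.hnb a c.1).1 (Finset.mem_of_mem_erase c.2)
    have h : ∀ c : ↥E, ∃ v : NNReal, (v : ℝ) = (1 / 4) * (((C.d : ℝ) - 1)⁻¹) ^ m ∧
        HasSubgaussianMGF (fun w => Lm C T k m c.1 a w - ∫ w', Lm C T k m c.1 a w' ∂(PW V)) v (PW V) :=
      fun c => ih (hadj c).symm
    choose v hv hsub using h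
    have hind : iIndepFun (fun (c : ↥E) w => Lm C T k m c.1 a w - ∫ w', Lm C T k m c.1 a w' ∂(PW V))
        (PW V) := by
      refine iIndep_of_dependsOn (I := Ix V) (S := fun c : ↥E => Bc C c.1 a)
        (fun c => (measurable_Lm C T k m c.1 a).sub_const _) ?_ ?_
      · intro c w w' hww
        show Lm C T k m c.1 a w - _ = Lm C T k m c.1 a w' - _
        rw [Lm_dep C T k m (hadj c).symm hww]
      · intro c c' hne
        have hne' : c.1 ≠ c'.1 := fun h => hne (Subtype.ext h)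
        exact (Sb_disjoint C (hadj c) (hadj c') hne').mono Set.subset_union_left
          Set.subset_union_left
    have hsum := HasSubgaussianMGF.sum_of_iIndepFun hind (s := Finset.univ) (c := v)
      (fun i _ => hsub i)
    have hmul := hsum.const_mul ((C.d : ℝ) - 1)⁻¹
    refine ⟨_, ?_, hmul.congr (ae_of_all _ fun w => ?_)⟩
    · have hr := dc_r_pos C
      show ((((C.d : ℝ) - 1)⁻¹) ^ 2) * ((∑ i, v i : NNReal) : ℝ) = _
      rw [NNReal.coe_sum]
      rw [Finset.sum_congr rfl fun i _ => hv i]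
      rw [Finset.sum_const, Finset.card_univ, Fintype.card_coe, nsmul_eq_mul, hE,
        dc_card_erase C hab, pow_succ]
      have hq : ((C.d : ℝ) - 1)⁻¹ * ((C.d : ℝ) - 1) = 1 := inv_mul_cancel₀ hr.ne'
      calc _ = (((C.d : ℝ) - 1)⁻¹ * ((C.d : ℝ) - 1)) *
            (1 / 4 * ((C.d : ℝ) - 1)⁻¹ ^ m * ((C.d : ℝ) - 1)⁻¹) := by ring
        _ = _ := by rw [hq]; ring
    · show ((C.d : ℝ) - 1)⁻¹ * ∑ i : ↥E,
          (Lm C T k m i.1 a w - ∫ w', Lm C T k m i.1 a w' ∂(PW V)) = _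
      rw [Lm_integral_succ]
      show _ = ((C.d : ℝ) - 1)⁻¹ * ∑ c ∈ E, Lm C T k m c a w - _
      rw [← mul_sub, ← Finset.sum_sub_distrib]
      congr 1
      exact Finset.sum_coe_sort E (fun c => Lm C T k m c a w - ∫ w', Lm C T k m c a w' ∂(PW V))

open ProbabilityTheory in
lemma dc_moment {Ω : Type} [MeasurableSpace Ω] {μ : Measure Ω} [IsProbabilityMeasure μ] {X : Ω → ℝ}
    {v : NNReal} (hv : 0 < (v : ℝ)) (hX : HasSubgaussianMGF X v μ) {p : ℕ} (hp : 1 ≤ p)
    (hint : Integrable (fun ω => X ω ^ (2 * p)) μ) :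
    ∫ ω, X ω ^ (2 * p) ∂μ ≤ (4 * Real.exp 1 * p * v) ^ p := by
  have hp0 : (0 : ℝ) < p := by exact_mod_cast hp
  set a := Real.sqrt (2 * p / v) with ha
  have ha2 : a ^ 2 = 2 * p / v := Real.sq_sqrt (by positivity)
  have ha0 : 0 < a := Real.sqrt_pos.2 (by positivity)
  set F : ℝ := ((2 * p).factorial : ℝ) with hF
  have hF0 : 0 < F := by
    rw [hF]
    positivity
  have ha' : 0 < a ^ (2 * p) := by positivity
  have hpt : ∀ ω, X ω ^ (2 * p) ≤
      (F / a ^ (2 * p)) * (Real.exp (a * X ω) + Real.exp ((-a) * X ω)) := by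
    intro ω
    have h1 := Real.pow_div_factorial_le_exp (x := |a * X ω|) (abs_nonneg _) (2 * p)
    have h2 : |a * X ω| ^ (2 * p) = a ^ (2 * p) * X ω ^ (2 * p) := by
      rw [pow_mul, sq_abs, ← pow_mul, mul_pow]
    have h3 : Real.exp |a * X ω| ≤ Real.exp (a * X ω) + Real.exp ((-a) * X ω) := by
      rcases abs_cases (a * X ω) with ⟨h, _⟩ | ⟨h, _⟩
      · rw [h]
        have := Real.exp_pos ((-a) * X ω)
        linarith
      · rw [h, neg_mul]
        have := Real.exp_pos (a * X ω)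
        linarith
    rw [h2, div_le_iff₀ hF0] at h1
    rw [div_mul_eq_mul_div, le_div_iff₀ ha']
    calc X ω ^ (2 * p) * a ^ (2 * p) = a ^ (2 * p) * X ω ^ (2 * p) := mul_comm _ _
      _ ≤ Real.exp |a * X ω| * F := h1
      _ ≤ (Real.exp (a * X ω) + Real.exp ((-a) * X ω)) * F :=
          mul_le_mul_of_nonneg_right h3 hF0.le
      _ = _ := mul_comm _ _
  have hI1 := hX.integrable_exp_mul a
  have hI2 := hX.integrable_exp_mul (-a)
  have hInt : Integrable (fun ω => (F / a ^ (2 * p)) *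
      (Real.exp (a * X ω) + Real.exp ((-a) * X ω))) μ := (hI1.add hI2).const_mul (F / a ^ (2 * p))
  have hI := integral_mono hint hInt hpt
  have hval : ∫ ω, (F / a ^ (2 * p)) * (Real.exp (a * X ω) + Real.exp ((-a) * X ω)) ∂μ =
      (F / a ^ (2 * p)) * (mgf X μ a + mgf X μ (-a)) := by
    rw [integral_const_mul, integral_add hI1 hI2]
    rfl
  rw [hval] at hI
  have hm : ∀ t : ℝ, t ^ 2 = a ^ 2 → mgf X μ t ≤ Real.exp p := by
    intro t ht
    have := hX.mgf_le t
    rw [ht, ha2] at this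
    have e : (v : ℝ) * (2 * p / v) / 2 = p := by
      field_simp
    rwa [e] at this
  have hm1 := hm a rfl
  have hm2 := hm (-a) (by rw [neg_sq])
  have hsum : mgf X μ a + mgf X μ (-a) ≤ (2 * Real.exp 1) ^ p := by
    rw [mul_pow, Real.exp_one_pow]
    have h2 : (2 : ℝ) ≤ 2 ^ p := by
      calc (2 : ℝ) = 2 ^ 1 := by norm_num
        _ ≤ 2 ^ p := pow_le_pow_right₀ (by norm_num) hp
    have hexp := Real.exp_pos (p : ℝ)
    nlinarith
  have hFle : F ≤ ((2 * (p : ℝ)) ^ 2) ^ p := by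
    rw [hF]
    have := Nat.factorial_le_pow (2 * p)
    have h' : ((2 * p).factorial : ℝ) ≤ ((2 * p : ℕ) : ℝ) ^ (2 * p) := by exact_mod_cast this
    rw [← pow_mul]
    push_cast at h'
    exact h'
  have hquot : F / a ^ (2 * p) ≤ (2 * p * v) ^ p := by
    rw [pow_mul, ha2, div_le_iff₀ (by positivity)]
    rw [← mul_pow]
    have : 2 * (p : ℝ) * v * (2 * p / v) = (2 * p) ^ 2 := by
      field_simp
    rw [this]
    exact hFle
  have hmgf0 : 0 ≤ mgf X μ a + mgf X μ (-a) :=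
    add_nonneg (mgf_nonneg) (mgf_nonneg)
  calc ∫ ω, X ω ^ (2 * p) ∂μ ≤ (F / a ^ (2 * p)) * (mgf X μ a + mgf X μ (-a)) := hI
    _ ≤ (2 * p * v) ^ p * (2 * Real.exp 1) ^ p :=
        mul_le_mul hquot hsum hmgf0 (by positivity)
    _ = (4 * Real.exp 1 * p * v) ^ p := by
        rw [← mul_pow]
        congr 1
        ring

lemma dc_pow_add (y x : ℝ) (p : ℕ) : (y + x) ^ (2 * p) ≤ 4 ^ p * (y ^ (2 * p) + x ^ (2 * p)) := by
  rw [pow_mul, pow_mul, pow_mul]
  have hy := sq_nonneg y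
  have hx := sq_nonneg x
  rcases le_total (y ^ 2) (x ^ 2) with h | h
  · have h1 : (y + x) ^ 2 ≤ 4 * x ^ 2 := by nlinarith [sq_nonneg (y - x)]
    calc ((y + x) ^ 2) ^ p ≤ (4 * x ^ 2) ^ p := pow_le_pow_left₀ (sq_nonneg _) h1 p
      _ = 4 ^ p * (x ^ 2) ^ p := mul_pow _ _ _
      _ ≤ _ := mul_le_mul_of_nonneg_left (by have := pow_nonneg hy p; linarith) (by positivity)
  · have h1 : (y + x) ^ 2 ≤ 4 * y ^ 2 := by nlinarith [sq_nonneg (y - x)]
    calc ((y + x) ^ 2) ^ p ≤ (4 * y ^ 2) ^ p := pow_le_pow_left₀ (sq_nonneg _) h1 p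
      _ = 4 ^ p * (y ^ 2) ^ p := mul_pow _ _ _
      _ ≤ _ := mul_le_mul_of_nonneg_left (by have := pow_nonneg hx p; linarith) (by positivity)

lemma ShW_integrable (T : ℝ) (k : ℕ) {a b : V} (hab : C.G.Adj a b) :
    Integrable (ShW C T k a b) (PW V) :=
  Integrable.of_mem_Icc 0 1 (measurable_ShW C T k a b).aemeasurable
    (ae_of_all _ fun w => ⟨ShW_nonneg C T k a b w, ShW_le_one C T k hab w⟩)

lemma ShW_mean_le (T : ℝ) (B : ℝ)
    (k : ℕ) (h : ∀ α : ℕ → V, Chain C α → ∫ w, dc_R C (fun _ => T) α k w ∂(PW V) ≤ B)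
    {a b : V} (hab : C.G.Adj a b) : ∫ w, ShW C T k a b w ∂(PW V) ≤ B := by
  have hr : 0 < ((C.d : ℝ) - 1) ^ k := pow_pos (dc_r_pos C) k
  have hterm : ∀ x ∈ bh C a b k, ∫ w, ∏ i ∈ range k,
      G4 C (gz C (fun _ => T) (twI C a i x) (twI C a (i + 1) x) w) ∂(PW V) ≤ B := by
    intro x hx
    have hd := ((mem_bh C hab).1 hx).1
    obtain ⟨α, hα, _, hi⟩ := exists_chain C a x
    rw [hd] at hi
    refine le_trans (le_of_eq ?_) (h α hα)
    congr 1
    funext w
    unfold dc_R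
    rw [← Finset.prod_range_reflect]
    apply Finset.prod_congr rfl
    intro i hi'
    have hik := Finset.mem_range.1 hi'
    rw [hi (i + 1) (by omega), hi i (by omega)]
    have e1 : k - 1 - i = k - (i + 1) := by omega
    have e2 : k - (i + 1) + 1 = k - i := by omega
    rw [e1, e2]
  unfold ShW
  rw [integral_const_mul, integral_finsetSum]
  · have hsum := Finset.sum_le_sum hterm
    rw [Finset.sum_const, nsmul_eq_mul, card_bh C hab k] at hsum
    calc _ ≤ (((C.d : ℝ) - 1) ^ k)⁻¹ * (((C.d : ℝ) - 1) ^ k * B) :=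
          mul_le_mul_of_nonneg_left hsum (inv_nonneg.2 hr.le)
      _ = B := by field_simp
  · intro x _
    refine Integrable.of_mem_Icc 0 1 (Measurable.aemeasurable ?_) (ae_of_all _ fun w =>
      ⟨Finset.prod_nonneg fun i _ => G4_nonneg C _,
        Finset.prod_le_one (fun i _ => G4_nonneg C _) (fun i _ => G4_le_one C _)⟩)
    exact Finset.measurable_prod _ fun i _ =>
      (dc_measurable_G4 C).comp (measurable_gz C (fun _ => le_refl T) _ _)

lemma Lm_mean_le (T : ℝ) (B : ℝ)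
    (k m : ℕ) (h : ∀ α : ℕ → V, Chain C α → ∫ w, dc_R C (fun _ => T) α k w ∂(PW V) ≤ B)
    {a b : V} (hab : C.G.Adj a b) : ∫ w, Lm C T k m a b w ∂(PW V) ≤ B := by
  induction m generalizing a b with
  | zero => exact ShW_mean_le C T B k h hab
  | succ m ih =>
    rw [Lm_integral_succ]
    have hr := dc_r_pos C
    have hsum : ∑ c ∈ (C.nb a).erase b, ∫ w, Lm C T k m c a w ∂(PW V) ≤
        ∑ c ∈ (C.nb a).erase b, B :=
      Finset.sum_le_sum fun c hc => ih ((C.hnb a c).1 (Finset.mem_of_mem_erase hc)).symm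
    rw [Finset.sum_const, nsmul_eq_mul, dc_card_erase C hab] at hsum
    calc _ ≤ ((C.d : ℝ) - 1)⁻¹ * (((C.d : ℝ) - 1) * B) :=
          mul_le_mul_of_nonneg_left hsum (inv_nonneg.2 hr.le)
      _ = B := by field_simp

lemma dc_final {I μ₀ J v' e ρ : ℝ} {p k : ℕ} (hp : 1 ≤ p)
    (hI : I ≤ 4 ^ p * (μ₀ ^ (2 * p) + J)) (hJ : J ≤ (4 * e * p * v') ^ p) (hv' : 0 ≤ v')
    (he0 : 0 ≤ e) (he : e ≤ 2.72) (hμD : μ₀ ^ 2 ≤ ρ ^ (2 * k))
    (hvD : 4 * v' * (81 / 100) ≤ ρ ^ (2 * k)) (hρ0 : 0 < ρ) :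
    I ≤ (5 * Real.sqrt p * ρ ^ k) ^ (2 * p) := by
  have hp0 : (1 : ℝ) ≤ p := by exact_mod_cast hp
  generalize hD : ρ ^ (2 * k) = D at hμD hvD
  have hD0 : 0 < D := by
    rw [← hD]
    positivity
  set A := 4 * μ₀ ^ 2 with hA
  set B := 16 * e * p * v' with hB
  have hA0 : 0 ≤ A := by positivity
  have hB0 : 0 ≤ B := by positivity
  have hpD : 0 ≤ (p : ℝ) * D := by positivity
  have hAB : A + B ≤ 25 * p * D := by
    have h4v : 4 * v' ≤ 100 / 81 * D := by linarith
    have h1 : e * (4 * v') ≤ 2.72 * (100 / 81 * D) :=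
      mul_le_mul he h4v (by positivity) (by norm_num)
    have h2 : B = 4 * p * (e * (4 * v')) := by
      rw [hB]
      ring
    have h3 : B ≤ 4 * p * (2.72 * (100 / 81 * D)) := by
      rw [h2]
      exact mul_le_mul_of_nonneg_left h1 (by positivity)
    have h4 : (4 : ℝ) * p * (2.72 * (100 / 81 * D)) ≤ 14 * (p * D) := by
      have e1 : (4 : ℝ) * p * (2.72 * (100 / 81 * D)) = (4 * 2.72 * (100 / 81)) * (p * D) := by ring
      rw [e1]
      exact mul_le_mul_of_nonneg_right (by norm_num) hpD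
    have h5 : A ≤ 4 * (p * D) := by
      have h6 : D ≤ p * D := by nlinarith
      rw [hA]
      linarith
    have e2 : 25 * (p : ℝ) * D = 25 * (p * D) := by ring
    rw [e2]
    linarith
  have hfinal : (5 * Real.sqrt p * ρ ^ k) ^ (2 * p) = (25 * p * D) ^ p := by
    rw [pow_mul, ← hD]
    congr 1
    rw [mul_pow, mul_pow, Real.sq_sqrt (by positivity), pow_mul']
    ring
  rw [hfinal]
  have hval : (4 : ℝ) ^ p * (μ₀ ^ (2 * p) + (4 * e * p * v') ^ p) = A ^ p + B ^ p := by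
    rw [mul_add, pow_mul, ← mul_pow, ← mul_pow]
    congr 2
    rw [hB]
    ring
  calc I ≤ 4 ^ p * (μ₀ ^ (2 * p) + J) := hI
    _ ≤ 4 ^ p * (μ₀ ^ (2 * p) + (4 * e * p * v') ^ p) :=
        mul_le_mul_of_nonneg_left (by linarith) (by positivity)
    _ = A ^ p + B ^ p := hval
    _ ≤ (A + B) ^ p := pow_add_pow_le hA0 hB0 (by omega)
    _ ≤ (25 * p * D) ^ p := pow_le_pow_left₀ (add_nonneg hA0 hB0) hAB p

open ProbabilityTheory in
/-- moments of the level sums: concentration by independence of the sub-branches -/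
theorem Sh_moment : ∃ c K : ℝ, 0 < c ∧ 1 ≤ K ∧ ∀ T : ℝ, ∃ ρ : ℝ, 0 < ρ ∧
    ρ ≤ 1 - c * min 1 (Real.rpow 2 T) ∧
    ∀ (k : ℕ) (a b : V) (p : ℕ), C.G.Adj a b → 1 ≤ p →
      ∫ ω, Sh C T k a b ω ^ (2 * p) ∂(PP V) ≤ (K * Real.sqrt p * ρ ^ k) ^ (2 * p) := by
  obtain ⟨c, hc, hc', hpeel⟩ := peel C
  refine ⟨min (c / 2) (1 / 10), 5, lt_min (by positivity) (by norm_num), by norm_num, ?_⟩
  intro T
  set mn := min 1 (Real.rpow 2 T) with hmn
  have hmn0 : 0 ≤ mn := le_min zero_le_one (Real.rpow_nonneg (by norm_num) _)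
  have hmn1 : mn ≤ 1 := min_le_left _ _
  set w := c * mn with hw
  have hw0 : 0 ≤ w := mul_nonneg hc.le hmn0
  have hw1 : w ≤ 1 / 2 := by nlinarith
  set ρ := max (1 - w / 2) (9 / 10) with hρ
  have hρ9 : (9 : ℝ) / 10 ≤ ρ := le_max_right _ _
  have hρw : 1 - w / 2 ≤ ρ := le_max_left _ _
  have hρ1 : ρ ≤ 1 := max_le (by linarith) (by norm_num)
  have hρ0 : 0 < ρ := by linarith
  have hmean : ∀ (k : ℕ) (α : ℕ → V), Chain C α →
      ∫ x, dc_R C (fun _ => T) α k x ∂(PW V) ≤ (1 - w) ^ k := by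
    intro k α hα
    rw [← dc_peel_conv C (fun _ => T) (fun _ => le_refl T) hα k]
    exact hpeel T T _ (fun _ => le_refl _) (fun _ => le_refl _) α hα k
  refine ⟨ρ, hρ0, ?_, ?_⟩
  · apply max_le
    · have : min (c / 2) (1 / 10) * mn ≤ c / 2 * mn :=
        mul_le_mul_of_nonneg_right (min_le_left _ _) hmn0
      rw [hw]
      linarith
    · have h1 : min (c / 2) (1 / 10) * mn ≤ 1 / 10 * mn :=
        mul_le_mul_of_nonneg_right (min_le_right _ _) hmn0
      linarith
  · intro k a b p hab hp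
    have hp0 : (1 : ℝ) ≤ p := by exact_mod_cast hp
    have hp2 : 2 * p ≠ 0 := by omega
    set m := k / 2 with hm
    set k' := k - k / 2 with hk'
    have hk : k' + m = k := by omega
    -- reduction to the gauge form
    have hgauge : ∫ ω, Sh C T k a b ω ^ (2 * p) ∂(PP V) =
        ∫ x, ShW C T k a b x ^ (2 * p) ∂(PW V) := by
      rw [← dc_integral_snd ((measurable_ShW C T k a b).pow_const (2 * p))]
      congr 1
      funext ω
      rw [Sh_eq_ShW C T k hab]
    rw [hgauge]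
    set Y := Lm C T k' m a b with hY
    have hY0 : ∀ x, 0 ≤ Y x := fun x => Lm_nonneg C T k' m a b x
    have hY1 : ∀ x, Y x ≤ 1 := fun x => Lm_le_one C T k' m hab x
    have hYm : Measurable Y := measurable_Lm C T k' m a b
    set μ₀ := ∫ x, Y x ∂(PW V) with hμ₀
    have hμ0 : 0 ≤ μ₀ := integral_nonneg hY0
    have hμ1 : μ₀ ≤ 1 := by
      have := integral_mono (Lm_integrable C T k' m hab) (integrable_const (1 : ℝ)) hY1
      simpa using this
    have hμB : μ₀ ≤ (1 - w) ^ k' :=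
      Lm_mean_le C T _ k' m (fun α hα => hmean k' α hα) hab
    obtain ⟨v, hv, hsub⟩ := Lm_subG C T k' m hab
    have hv0 : 0 < (v : ℝ) := by
      rw [hv]
      have := inv_pos.2 (dc_r_pos C)
      positivity
    set X := fun x => Y x - μ₀ with hX
    have hXm : Measurable X := hYm.sub_const _
    have hX2 : ∀ x, X x ^ 2 ≤ 1 := by
      intro x
      have h1 := hY0 x
      have h2 := hY1 x
      show (Y x - μ₀) ^ 2 ≤ 1
      nlinarith
    have hXint : Integrable (fun x => X x ^ (2 * p)) (PW V) := by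
      refine Integrable.of_mem_Icc 0 1 (hXm.pow_const _).aemeasurable (ae_of_all _ fun x => ?_)
      constructor
      · rw [pow_mul]
        positivity
      · rw [pow_mul]
        exact pow_le_one₀ (sq_nonneg _) (hX2 x)
    have hXmom := dc_moment hv0 hsub hp hXint
    -- pointwise comparison
    have hpt : ∀ x, ShW C T k a b x ^ (2 * p) ≤ 4 ^ p * (μ₀ ^ (2 * p) + X x ^ (2 * p)) := by
      intro x
      have h1 : ShW C T k a b x ≤ Y x := by
        have := ShW_le_Lm C T k' m (a := a) (b := b) x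
        rwa [hk] at this
      calc ShW C T k a b x ^ (2 * p) ≤ Y x ^ (2 * p) :=
            pow_le_pow_left₀ (ShW_nonneg C T k a b x) h1 _
        _ = (μ₀ + X x) ^ (2 * p) := by
            congr 1
            show Y x = μ₀ + (Y x - μ₀)
            ring
        _ ≤ _ := dc_pow_add _ _ _
    have hInt2 : Integrable (fun x => (4 : ℝ) ^ p * (μ₀ ^ (2 * p) + X x ^ (2 * p))) (PW V) :=
      ((integrable_const (μ₀ ^ (2 * p))).add hXint).const_mul (4 ^ p)
    have hI := integral_mono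
      (Integrable.of_mem_Icc 0 1 ((measurable_ShW C T k a b).pow_const _).aemeasurable
        (ae_of_all _ fun x => ⟨pow_nonneg (ShW_nonneg C T k a b x) _,
          pow_le_one₀ (ShW_nonneg C T k a b x) (ShW_le_one C T k hab x)⟩)) hInt2 hpt
    have hval : ∫ x, (4 : ℝ) ^ p * (μ₀ ^ (2 * p) + X x ^ (2 * p)) ∂(PW V) =
        4 ^ p * (μ₀ ^ (2 * p) + ∫ x, X x ^ (2 * p) ∂(PW V)) := by
      rw [integral_const_mul, integral_add (integrable_const _) hXint]
      simp
    rw [hval] at hI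
    -- numerics
    set D := ρ ^ (2 * k) with hD
    have hD0 : 0 < D := by positivity
    have he : Real.exp 1 ≤ 2.72 := by
      have := Real.exp_one_lt_d9
      norm_num at this ⊢
      linarith
    have he0 := Real.exp_pos 1
    have h1w : 1 - w ≤ ρ ^ 2 := by
      have h0 : 0 ≤ 1 - w / 2 := by linarith
      have : (1 - w / 2) ^ 2 ≤ ρ ^ 2 := pow_le_pow_left₀ h0 hρw 2
      nlinarith [sq_nonneg w]
    have hμD : μ₀ ^ 2 ≤ D := by
      have h0 : 0 ≤ 1 - w := by linarith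
      have h2 : (1 - w) ^ k' ≤ (ρ ^ 2) ^ k' := pow_le_pow_left₀ h0 h1w _
      have h3 : μ₀ ≤ (ρ ^ 2) ^ k' := hμB.trans h2
      calc μ₀ ^ 2 ≤ ((ρ ^ 2) ^ k') ^ 2 := pow_le_pow_left₀ hμ0 h3 2
        _ = ρ ^ (4 * k') := by
            rw [← pow_mul, ← pow_mul]
            congr 1
            ring
        _ ≤ D := pow_le_pow_of_le_one hρ0.le hρ1 (by omega)
    have hrD : (((C.d : ℝ) - 1)⁻¹) ^ m * (81 / 100) ≤ D := by
      have hr2 := d_sub_one_ge C
      have hinv : ((C.d : ℝ) - 1)⁻¹ ≤ ρ ^ 4 := by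
        have h1 : ((C.d : ℝ) - 1)⁻¹ ≤ 1 / 2 := by
          rw [inv_eq_one_div]
          exact one_div_le_one_div_of_le (by norm_num) hr2
        have h2 : ((9 : ℝ) / 10) ^ 4 ≤ ρ ^ 4 := pow_le_pow_left₀ (by norm_num) hρ9 4
        norm_num at h2
        linarith
      have h3 : (((C.d : ℝ) - 1)⁻¹) ^ m ≤ (ρ ^ 4) ^ m :=
        pow_le_pow_left₀ (inv_nonneg.2 (dc_r_pos C).le) hinv _
      have h4 : ((9 : ℝ) / 10) ^ 2 ≤ ρ ^ 2 := pow_le_pow_left₀ (by norm_num) hρ9 2
      have h5 : (ρ ^ 4) ^ m * ρ ^ 2 ≤ D := by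
        rw [← pow_mul, ← pow_add]
        exact pow_le_pow_of_le_one hρ0.le hρ1 (by omega)
      have h6 : 0 ≤ (((C.d : ℝ) - 1)⁻¹) ^ m := pow_nonneg (inv_nonneg.2 (dc_r_pos C).le) _
      norm_num at h4
      calc (((C.d : ℝ) - 1)⁻¹) ^ m * (81 / 100) ≤ (ρ ^ 4) ^ m * ρ ^ 2 :=
            mul_le_mul h3 h4 (by norm_num) (by positivity)
        _ ≤ D := h5
    have hvD : 4 * (v : ℝ) * (81 / 100) ≤ D := by
      rw [hv]
      calc 4 * (1 / 4 * ((C.d : ℝ) - 1)⁻¹ ^ m) * (81 / 100) =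
            ((C.d : ℝ) - 1)⁻¹ ^ m * (81 / 100) := by ring
        _ ≤ D := hrD
    exact dc_final hp hI hXmom v.2 he0.le he hμD hvD hρ0

end Vale.Agent.Lib.P161.Crit
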