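import Vale.Agent.Lib.P161.Channel
import Vale.Agent.Lib.P161.Ising
import Vale.Agent.Lib.P161.Tree

/-!
# The critical case `(d-1) θ² = 1`: basic definitions.

Paper proof: `papers` table row P161/helper26.

Noise: one Boolean root sign and iid uniform `[-1,1]` coordinates `w : Ix V → ℝ`.
`ed e` gives the edge sign, `no j` the observation noise of step `j`, `la j` the label of step `j`.
Steps `j = (ℓ, v)` live on `ℤ × V`.  A step is active when its label is negative; its time is
`ℓ + (cl τ + 1) / 2 ∈ [ℓ, ℓ + 1/2)`.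
-/

open MeasureTheory Filter Topology Finset

noncomputable section
namespace Vale.Agent.Lib.P161.Crit

open scoped Classical
open Vale.Agent.Lib.P161

/-- tree data at the critical coupling -/
structure CT (V : Type) where
  G : SimpleGraph V
  d : ℕ
  hd : 3 ≤ d
  hT : G.IsTree
  nb : V → Finset V
  hnb : ∀ u x, x ∈ nb u ↔ G.Adj u x
  hcard : ∀ u, (nb u).card = d
  θ : ℝ
  hθ0 : 0 < θ
  hκ : ((d : ℝ) - 1) * θ ^ 2 = 1
  o : V

/-- steps -/
abbrev Stp (V : Type) := ℤ × V

/-- noise coordinates -/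
inductive Ix (V : Type) where
  | ed (e : Sym2 V)
  | no (j : Stp V)
  | la (j : Stp V)

/-- noise without the root sign -/
abbrev WW (V : Type) := Ix V → ℝ
/-- labels -/
abbrev Lab (V : Type) := Stp V → ℝ
/-- full sample space -/
abbrev Om (V : Type) := Bool × WW V

/-- iid uniform coordinates -/
def PW (V : Type) : Measure (WW V) := Measure.infinitePi fun _ => lam
/-- iid uniform labels -/
def PL (V : Type) : Measure (Lab V) := Measure.infinitePi fun _ => lam
/-- the fair sign -/
def sM : Measure Bool := (2⁻¹ : ENNReal) • (Measure.dirac true + Measure.dirac false)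
/-- the full probability -/
def PP (V : Type) : Measure (Om V) := sM.prod (PW V)

variable {V : Type}

/-- strength of stage `ℓ`: `ε_ℓ = (1/2) min(1, 2^ℓ)` -/
def eps (ℓ : ℤ) : ℝ := (1 / 2) * min 1 ((2 : ℝ) ^ ℓ)

/-- the labels of a sample -/
def lab (w : WW V) : Lab V := fun j => w (.la j)

/-- time of step `j` under labels `τ` -/
def tm (τ : Lab V) (j : Stp V) : ℝ := (j.1 : ℝ) + (cl (τ j) + 1) / 2

/-- active steps fired before the site time `p v` -/
def Sp (τ : Lab V) (p : V → ℝ) : Set (Stp V) := {j | τ j < 0 ∧ tm τ j < p j.2}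

/-- active steps fired before time `T` -/
def Sq (τ : Lab V) (T : ℝ) : Set (Stp V) := Sp τ fun _ => T

/-- the neighbour of `u` toward `x` (`u` itself when `u = x`) -/
def tw (C : CT V) (x u : V) : V :=
  if h : u ≠ x then (toward_exists C.hT h).choose else u

/-- `tw` iterated `k` times from `u` -/
def twI (C : CT V) (x : V) : ℕ → V → V
  | 0, u => u
  | k + 1, u => tw C x (twI C x k u)

/-- sign of an edge: `+1` with probability `(1 + θ)/2` -/
def eS (C : CT V) (e : Sym2 V) (w : WW V) : ℝ := if w (.ed e) ≤ C.θ then 1 else -1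

/-- product of the edge signs on the path between `u` and `x` -/
def pS (C : CT V) (x u : V) (w : WW V) : ℝ :=
  ∏ i ∈ range (C.G.dist u x), eS C s(twI C x i u, twI C x (i + 1) u) w

/-- the spins: `σ_v = s · ∏_{path o..v} ε_e` -/
def spin (C : CT V) (ω : Om V) (v : V) : ℝ := (if ω.1 then 1 else -1) * pS C C.o v ω.2

/-- gauge noise of stage `ℓ`, density `1 + ε_ℓ t` with respect to `lam` -/
def nz (ℓ : ℤ) (x : ℝ) : ℝ := Sf x (eps ℓ)

/-- the observation of step `j` -/
def yy (C : CT V) (j : Stp V) (ω : Om V) : ℝ := spin C ω j.2 * nz j.1 (ω.2 (.no j))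

/-- log-likelihood field from the steps in `A` -/
def fld (C : CT V) (A : Set (Stp V)) (ω : Om V) (v : V) : ℝ :=
  ∑' ℓ : ℤ, if (ℓ, v) ∈ A then zeta (eps ℓ) (yy C (ℓ, v) ω) else 0

/-- depth-`n` message from `a` toward `b` under the field `X` -/
def msg (C : CT V) (X : V → ℝ) : ℕ → V → V → ℝ
  | 0, a, _ => X a
  | n + 1, a, b => X a + ∑ c ∈ (C.nb a).erase b, psi C.θ (msg C X n c a)

/-- limit message (midpoint of limsup and liminf, so exactly odd in `X`; a genuine limit a.s.) -/
def zl (C : CT V) (X : V → ℝ) (a b : V) : ℝ :=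
  (limsup (fun n => msg C X n a b) atTop + liminf (fun n => msg C X n a b) atTop) / 2

/-- magnetisation -/
def mag (C : CT V) (X : V → ℝ) (x : V) : ℝ :=
  Real.tanh (X x + ∑ c ∈ C.nb x, psi C.θ (zl C X c x))

/-- derivative of `psi θ` at `z` -/
def dpsi (C : CT V) (z : ℝ) : ℝ :=
  C.θ * (1 - Real.tanh z ^ 2) / (1 - C.θ ^ 2 * Real.tanh z ^ 2)

/-- `f = -log (dpsi/θ)`, nonnegative, even, `|f'| ≤ 2 |tanh|` -/
def ff (C : CT V) (z : ℝ) : ℝ :=
  Real.log ((1 - C.θ ^ 2 * Real.tanh z ^ 2) / (1 - Real.tanh z ^ 2))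

/-- `G4 = (dpsi/θ)^2 = exp (-2 f)` -/
def G4 (C : CT V) (z : ℝ) : ℝ := ((1 - Real.tanh z ^ 2) / (1 - C.θ ^ 2 * Real.tanh z ^ 2)) ^ 2

/-- conditional covariance of the spins at `x` and `u` under the field `X`:
`(1 - m_x^2) * ∏ dpsi` along the path, messages pointing toward `x` -/
def cov (C : CT V) (X : V → ℝ) (x u : V) : ℝ :=
  (1 - mag C X x ^ 2) *
    ∏ i ∈ range (C.G.dist u x), dpsi C (zl C X (twI C x i u) (twI C x (i + 1) u))

/-- magnetisation at `x` under the steps in `A` -/
def MA (C : CT V) (A : Set (Stp V)) (x : V) (ω : Om V) : ℝ := mag C (fld C A ω) x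

/-- covariance under the steps in `A` -/
def CA (C : CT V) (A : Set (Stp V)) (x u : V) (ω : Om V) : ℝ := cov C (fld C A ω) x u

/-- the innovation of step `j` under the fixed labels `τ` -/
def Rf (C : CT V) (τ : Lab V) (j : Stp V) (ω : Om V) : ℝ :=
  Tc (eps j.1 * MA C (Sq τ (tm τ j)) j.2 ω) (yy C j ω)

/-- the innovation field of step `j`: zero when inactive -/
def Rw (C : CT V) (j : Stp V) (ω : Om V) : ℝ :=
  if lab ω.2 j < 0 then Rf C (lab ω.2) j ω else 0

/-- labels and innovations -/
def kap (C : CT V) (ω : Om V) : Lab V × (Stp V → ℝ) := (lab ω.2, fun j => Rw C j ω)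

/-- the innovation sigma-algebra (all labels, all innovations) -/
@[reducible] def GG (C : CT V) : MeasurableSpace (Om V) := MeasurableSpace.comap (kap C) inferInstance

/-- state magnetisation at the deterministic time `T` -/
def Ms (C : CT V) (T : ℝ) (x : V) (ω : Om V) : ℝ := MA C (Sq (lab ω.2) T) x ω

/-- state covariance at the deterministic time `T` -/
def Cs (C : CT V) (T : ℝ) (x u : V) (ω : Om V) : ℝ := CA C (Sq (lab ω.2) T) x u ω

/-- limit message at the deterministic time `T` -/
def Zs (C : CT V) (T : ℝ) (a b : V) (ω : Om V) : ℝ := zl C (fld C (Sq (lab ω.2) T) ω) a b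

/-- the distance of the magnetisation from the innovation field -/
def Dd (C : CT V) (T : ℝ) (x : V) : ℝ :=
  ∫ ω, (Ms C T x ω - (PP V)[Ms C T x | GG C] ω) ^ 2 ∂(PP V)

end Vale.Agent.Lib.P161.Crit
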