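import Vale.Agent.Lib.P161.Crit.Meas

/-!
The observations, fields, magnetisations ignore the label coordinates.
-/

open MeasureTheory Filter Topology Finset

noncomputable section
namespace Vale.Agent.Lib.P161.Crit

open scoped Classical
open Vale.Agent.Lib.P161

variable {V : Type} (C : CT V)

@[simp] lemma setLab_ed (τ : Lab V) (w : WW V) (e : Sym2 V) : setLab τ w (.ed e) = w (.ed e) := rfl
@[simp] lemma setLab_no (τ : Lab V) (w : WW V) (j : Stp V) : setLab τ w (.no j) = w (.no j) := rfl
@[simp] lemma setLab_la (τ : Lab V) (w : WW V) (j : Stp V) : setLab τ w (.la j) = τ j := rfl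

@[simp] lemma lab_setL (τ : Lab V) (ω : Om V) : lab (setL τ ω).2 = τ := rfl

lemma ig_eS_setLab (e : Sym2 V) (τ : Lab V) (w : WW V) : eS C e (setLab τ w) = eS C e w := rfl

lemma ig_pS_setLab (x u : V) (τ : Lab V) (w : WW V) : pS C x u (setLab τ w) = pS C x u w := rfl

lemma ig_spin_setL (τ : Lab V) (ω : Om V) (v : V) : spin C (setL τ ω) v = spin C ω v := rfl

lemma ig_yy_setL (τ : Lab V) (j : Stp V) (ω : Om V) : yy C j (setL τ ω) = yy C j ω := rfl

lemma ig_fld_setL (A : Set (Stp V)) (τ : Lab V) (ω : Om V) : fld C A (setL τ ω) = fld C A ω := rfl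

lemma MA_setL (A : Set (Stp V)) (x : V) (τ : Lab V) (ω : Om V) :
    MA C A x (setL τ ω) = MA C A x ω := rfl

lemma CA_setL (A : Set (Stp V)) (x u : V) (τ : Lab V) (ω : Om V) :
    CA C A x u (setL τ ω) = CA C A x u ω := rfl

lemma Rf_setL (τ' : Lab V) (j : Stp V) (τ : Lab V) (ω : Om V) :
    Rf C τ' j (setL τ ω) = Rf C τ' j ω := rfl

lemma Ms_setL (T : ℝ) (x : V) (τ : Lab V) (ω : Om V) :
    Ms C T x (setL τ ω) = MA C (Sq τ T) x ω := rfl

lemma Cs_setL (T : ℝ) (x u : V) (τ : Lab V) (ω : Om V) :
    Cs C T x u (setL τ ω) = CA C (Sq τ T) x u ω := rfl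

lemma Zs_setL (T : ℝ) (a b : V) (τ : Lab V) (ω : Om V) :
    Zs C T a b (setL τ ω) = zl C (fld C (Sq τ T) ω) a b := rfl

lemma Rw_setL (j : Stp V) (τ : Lab V) (ω : Om V) :
    Rw C j (setL τ ω) = if τ j < 0 then Rf C τ j ω else 0 := rfl

/-- joint measurability of the fiber map -/
lemma measurable_setL : Measurable (fun p : Lab V × Om V => setL p.1 p.2) := by
  refine Measurable.prodMk (measurable_fst.comp measurable_snd) ?_
  exact (measurable_setLab (V := V)).comp
    (measurable_fst.prodMk (measurable_snd.comp measurable_snd))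

/-- the inner integral of a whole measurable function is measurable in the labels -/
lemma measurable_fiber_integral {F : Om V → ℝ} (hF : Measurable F) :
    Measurable fun τ : Lab V => ∫ ω, F (setL τ ω) ∂(PP V) := by
  have : StronglyMeasurable (fun p : Lab V × Om V => F (setL p.1 p.2)) :=
    (hF.comp measurable_setL).stronglyMeasurable
  exact (this.integral_prod_right' (ν := PP V)).measurable

end Vale.Agent.Lib.P161.Crit
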