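import Vale.Agent.Lib.P161.Crit.Prod

/-!
The Palm inequality for one step (paper section REC, PALM).
-/

open MeasureTheory Filter Topology Finset

noncomputable section
namespace Vale.Agent.Lib.P161.Crit

open scoped Classical
open Vale.Agent.Lib.P161

variable {V : Type}

lemma lam_real_Ici : lam.real (Set.Ici (0 : ℝ)) = 1 / 2 := by
  have h : lam (Set.Ici (0 : ℝ)) = 2⁻¹ := by
    unfold lam
    simp only [Measure.smul_apply, smul_eq_mul]
    rw [Measure.restrict_apply measurableSet_Ici]
    have : Set.Ici (0 : ℝ) ∩ Set.Icc (-1 : ℝ) 1 = Set.Icc 0 1 := by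
      ext x
      simp only [Set.mem_inter_iff, Set.mem_Ici, Set.mem_Icc]
      constructor
      · rintro ⟨h1, _, h3⟩; exact ⟨h1, h3⟩
      · rintro ⟨h1, h3⟩; exact ⟨h1, by linarith, h3⟩
    rw [this, Real.volume_Icc]
    simp
  simp [Measure.real, h]

lemma integral_affine (l : ℝ) (h : ℝ → ℝ) :
    ∫ T, h (2 * (T - l) - 1) = (1 / 2) * ∫ y, h y := by
  have h1 : ∫ T, h (2 * (T - l) - 1) = ∫ t, h (2 * t - 1) :=
    integral_sub_right_eq_self (fun t => h (2 * t - 1)) l
  have h2 : ∫ t, h (2 * t - 1) = |(2 : ℝ)⁻¹| • ∫ y, h (y - 1) :=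
    Measure.integral_comp_mul_left (fun y => h (y - 1)) 2
  have h3 : ∫ y, h (y - 1) = ∫ y, h y := integral_sub_right_eq_self h 1
  rw [h1, h2, h3, abs_of_pos (by norm_num : (0 : ℝ) < 2⁻¹), smul_eq_mul]
  norm_num

/-- change of variables: the uniform variable against Lebesgue measure of an affine image -/
lemma integral_lam_affine (l : ℝ) (f : ℝ → ℝ) :
    ∫ x, f x ∂lam = ∫ T, (Set.indicator (Set.Icc (-1 : ℝ) 1) f) (2 * (T - l) - 1) := by
  rw [integral_lam, integral_affine, integral_indicator measurableSet_Icc]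

lemma palm_aux (j : Stp V) {F g : Lab V → ℝ} (hF : AEStronglyMeasurable F (PL V)) {B : ℝ}
    (hF0 : ∀ τ, 0 ≤ F τ) (hFB : ∀ τ, F τ ≤ B)
    (hg : ∀ τ x', 0 ≤ x' → F (Function.update τ j x') = g τ) :
    ∫ τ, g τ ∂(PL V) ≤ 2 * ∫ τ, F τ ∂(PL V) := by
  have hB : ∀ τ, |F τ| ≤ B := fun τ => by rw [abs_of_nonneg (hF0 τ)]; exact hFB τ
  rw [integral_update_lab j hF hB]
  have h := mp_update (I := Stp V) j
  have hF' : AEStronglyMeasurable F ((PI (Stp V)).prod lam |>.map (fun p => Function.update p.1 j p.2)) := by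
    rw [h.map_eq]; exact hF
  have hc : AEStronglyMeasurable (fun p : (Stp V → ℝ) × ℝ => F (Function.update p.1 j p.2))
      ((PL V).prod lam) := hF'.comp_aemeasurable h.measurable.aemeasurable
  have hI : AEStronglyMeasurable (fun τ => ∫ x, F (Function.update τ j x) ∂lam) (PL V) :=
    hc.integral_prod_right'
  have hIB : ∀ τ, |∫ x, F (Function.update τ j x) ∂lam| ≤ B := by
    intro τ
    have h1 : ‖∫ x, F (Function.update τ j x) ∂lam‖ ≤ B * lam.real Set.univ := by
      refine norm_integral_le_of_norm_le_const (Eventually.of_forall fun x => ?_)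
      simpa using hB _
    simpa using h1
  have hIi : Integrable (fun τ => 2 * ∫ x, F (Function.update τ j x) ∂lam) (PL V) :=
    (integrable_of_bdd hI hIB).const_mul 2
  rw [← integral_const_mul]
  refine integral_mono_of_nonneg ?_ hIi ?_
  · refine Eventually.of_forall fun τ => ?_
    have := hg τ 0 le_rfl
    rw [← this]
    exact hF0 _
  · have hprod := hc.prodMk_left
    filter_upwards [hprod] with τ hτ
    have hi : Integrable (fun x => F (Function.update τ j x)) lam := integrable_of_bdd hτ (fun _ => hB _)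
    have h1 : ∫ x in Set.Ici (0 : ℝ), F (Function.update τ j x) ∂lam
        ≤ ∫ x, F (Function.update τ j x) ∂lam :=
      setIntegral_le_integral hi (Eventually.of_forall fun _ => hF0 _)
    have h2 : ∫ x in Set.Ici (0 : ℝ), F (Function.update τ j x) ∂lam = (1 / 2) * g τ := by
      rw [setIntegral_congr_fun (g := fun _ => g τ) measurableSet_Ici
        (fun x hx => hg τ x hx), setIntegral_const, lam_real_Ici, smul_eq_mul]
    rw [h2] at h1
    linarith

lemma measurable_tm (j : Stp V) : Measurable (fun τ : Lab V => tm τ j) := by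
  unfold tm
  exact measurable_const.add
    (((measurable_cl.comp (measurable_pi_apply j)).add measurable_const).div measurable_const)

lemma tm_update (τ : Lab V) (j : Stp V) (x : ℝ) :
    tm (Function.update τ j x) j = (j.1 : ℝ) + (cl x + 1) / 2 := by
  simp [tm]

/-- Palm inequality for one step: integrating over the label of `j`. -/
theorem palm (j : Stp V) (s s' : ℝ) (Ξ : Lab V → ℝ → ℝ) (hΞ0 : ∀ τ T, 0 ≤ Ξ τ T) {B : ℝ}
    (hΞB : ∀ τ T, Ξ τ T ≤ B)
    (hm : AEStronglyMeasurable (fun τ => Ξ τ (tm τ j)) (PL V))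
    (hmT : ∀ T ∈ Set.Ico s s' ∩ Set.Ico (j.1 : ℝ) (j.1 + 1 / 2),
      AEStronglyMeasurable (fun τ => Ξ τ T) (PL V))
    (hconst : ∀ τ T x₁ x₂, ¬(x₁ < 0 ∧ tm (Function.update τ j x₁) j < T) →
      ¬(x₂ < 0 ∧ tm (Function.update τ j x₂) j < T) →
      Ξ (Function.update τ j x₁) T = Ξ (Function.update τ j x₂) T) :
    ∃ ρ : ℝ → ℝ, Measurable ρ ∧
      (∫ τ, (if τ j < 0 ∧ s ≤ tm τ j ∧ tm τ j < s' then Ξ τ (tm τ j) else 0) ∂(PL V)
        = ∫ T in Set.Ico s s' ∩ Set.Ico (j.1 : ℝ) (j.1 + 1 / 2), ρ T) ∧
      (∀ T ∈ Set.Ico s s' ∩ Set.Ico (j.1 : ℝ) (j.1 + 1 / 2), 0 ≤ ρ T ∧ ρ T ≤ 2 * ∫ τ, Ξ τ T ∂(PL V)) := by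
  classical
  set l : ℝ := (j.1 : ℝ) with hl
  set W : Set ℝ := Set.Ico s s' ∩ Set.Ico l (l + 1 / 2) with hW
  have hWm : MeasurableSet W := measurableSet_Ico.inter measurableSet_Ico
  -- the measurable version
  have hB0 : 0 ≤ B := (hΞ0 (fun _ => 0) 0).trans (hΞB _ _)
  set Ξ' : Lab V → ℝ := fun τ => Ξ τ (tm τ j) with hΞ'
  let G₀ : Lab V → ℝ := hm.mk Ξ'
  have hG₀m : Measurable G₀ := hm.stronglyMeasurable_mk.measurable
  let G : Lab V → ℝ := fun τ => max 0 (min B (G₀ τ))
  have hGm : Measurable G := measurable_const.max (measurable_const.min hG₀m)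
  have hG0 : ∀ τ, 0 ≤ G τ := fun τ => le_max_left _ _
  have hGB : ∀ τ, G τ ≤ B := fun τ => max_le hB0 (min_le_left _ _)
  have hGabs : ∀ τ, |G τ| ≤ B := fun τ => by rw [abs_of_nonneg (hG0 τ)]; exact hGB τ
  have hGae : Ξ' =ᵐ[PL V] G := by
    filter_upwards [hm.ae_eq_mk] with τ hτ
    have e1 : G τ = max 0 (min B (Ξ' τ)) := by
      show max 0 (min B (hm.mk Ξ' τ)) = _
      rw [← hτ]
    rw [e1, min_eq_right (hΞB _ _), max_eq_right (hΞ0 _ _)]
  -- update map
  have hup := mp_update (I := Stp V) j
  have hbad : ∀ᵐ x ∂lam, ∀ᵐ τ ∂(PL V), G (Function.update τ j x) = Ξ' (Function.update τ j x) := by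
    have h1 : ∀ᵐ p ∂((PL V).prod lam), G (Function.update p.1 j p.2) = Ξ' (Function.update p.1 j p.2) := by
      have := hup.quasiMeasurePreserving.ae hGae
      filter_upwards [this] with p hp using hp.symm
    have h2 : ∀ᵐ p ∂(lam.prod (PL V)), G (Function.update p.2 j p.1) = Ξ' (Function.update p.2 j p.1) :=
      (Measure.measurePreserving_swap (μ := lam) (ν := PL V)).quasiMeasurePreserving.ae h1
    exact Measure.ae_ae_of_ae_prod h2
  set Bad : Set ℝ := {x | ¬ ∀ᵐ τ ∂(PL V), G (Function.update τ j x) = Ξ' (Function.update τ j x)} with hBad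
  have hBad0 : lam Bad = 0 := hbad
  set Nx : Set ℝ := toMeasurable lam Bad with hNx
  have hNxm : MeasurableSet Nx := measurableSet_toMeasurable _ _
  have hNx0 : lam Nx = 0 := by rw [hNx, measure_toMeasurable, hBad0]
  let r₀ : ℝ → ℝ := fun x => ∫ τ, G (Function.update τ j x) ∂(PL V)
  have hupm : Measurable (fun p : Lab V × ℝ => Function.update p.1 j p.2) := measurable_update'
  have hr₀m : Measurable r₀ := by
    have : StronglyMeasurable (Function.uncurry fun (τ : Lab V) (x : ℝ) => G (Function.update τ j x)) :=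
      (hGm.comp hupm).stronglyMeasurable
    exact (this.integral_prod_left).measurable
  let r : ℝ → ℝ := Set.indicator Nxᶜ r₀
  have hrm : Measurable r := hr₀m.indicator hNxm.compl
  have hrae : r =ᵐ[lam] r₀ := by
    have : ∀ᵐ x ∂lam, x ∉ Nx := measure_eq_zero_iff_ae_notMem.1 hNx0
    filter_upwards [this] with x hx
    simp [r, hx]
  refine ⟨fun T => r (2 * (T - l) - 1), hrm.comp (by fun_prop), ?_, ?_⟩
  · -- the integral identity
    let c : ℝ → ℝ := fun x => if x < 0 ∧ s ≤ l + (cl x + 1) / 2 ∧ l + (cl x + 1) / 2 < s' then 1 else 0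
    have hcm : Measurable c := by
      refine Measurable.ite ?_ measurable_const measurable_const
      have h1 : Measurable fun x : ℝ => l + (cl x + 1) / 2 :=
        measurable_const.add ((measurable_cl.add measurable_const).div measurable_const)
      exact (measurableSet_lt measurable_id measurable_const).inter
        ((measurableSet_le measurable_const h1).inter (measurableSet_lt h1 measurable_const))
    have hc01 : ∀ x, |c x| ≤ 1 := by
      intro x
      by_cases h : x < 0 ∧ s ≤ l + (cl x + 1) / 2 ∧ l + (cl x + 1) / 2 < s'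
      · simp [c, h]
      · simp [c, h]
    let L' : Lab V → ℝ := fun τ => if τ j < 0 ∧ s ≤ tm τ j ∧ tm τ j < s' then G τ else 0
    have hL'm : Measurable L' := by
      refine Measurable.ite ?_ hGm measurable_const
      exact (measurableSet_lt (measurable_pi_apply j) measurable_const).inter
        ((measurableSet_le measurable_const (measurable_tm j)).inter
          (measurableSet_lt (measurable_tm j) measurable_const))
    have hL'B : ∀ τ, |L' τ| ≤ B := by
      intro τ
      by_cases h : τ j < 0 ∧ s ≤ tm τ j ∧ tm τ j < s'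
      · simp only [L', if_pos h]; exact hGabs τ
      · simp only [L', if_neg h, abs_zero]; exact hB0
    have e1 : ∫ τ, (if τ j < 0 ∧ s ≤ tm τ j ∧ tm τ j < s' then Ξ τ (tm τ j) else 0) ∂(PL V)
        = ∫ τ, L' τ ∂(PL V) := by
      refine integral_congr_ae ?_
      filter_upwards [hGae] with τ hτ
      by_cases h : τ j < 0 ∧ s ≤ tm τ j ∧ tm τ j < s'
      · simp only [L', if_pos h]; exact hτ
      · simp only [L', if_neg h]
    have e2 : ∀ τ x, L' (Function.update τ j x) = c x * G (Function.update τ j x) := by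
      intro τ x
      simp only [L', c, Function.update_self, tm_update]
      by_cases h : x < 0 ∧ s ≤ (j.1 : ℝ) + (cl x + 1) / 2 ∧ (j.1 : ℝ) + (cl x + 1) / 2 < s'
      · rw [if_pos h, if_pos h, one_mul]
      · rw [if_neg h, if_neg h, zero_mul]
    have hint : Integrable (Function.uncurry fun (τ : Lab V) (x : ℝ) => L' (Function.update τ j x))
        ((PL V).prod lam) :=
      integrable_of_bdd ((hL'm.comp hupm).aestronglyMeasurable) (fun _ => hL'B _)
    have e3 : ∫ τ, L' τ ∂(PL V) = ∫ x, c x * r₀ x ∂lam := by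
      rw [integral_update_lab j hL'm.aestronglyMeasurable hL'B, integral_integral_swap hint]
      refine integral_congr_ae (Eventually.of_forall fun x => ?_)
      show ∫ τ, L' (Function.update τ j x) ∂(PL V) = c x * r₀ x
      simp only [e2, r₀]
      rw [integral_const_mul]
    have e4 : ∫ x, c x * r₀ x ∂lam = ∫ x, c x * r x ∂lam := by
      refine integral_congr_ae ?_
      filter_upwards [hrae] with x hx
      rw [hx]
    have e5 : ∫ x, c x * r x ∂lam = ∫ T in W, r (2 * (T - l) - 1) := by
      rw [integral_lam_affine l, ← integral_indicator hWm]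
      refine integral_congr_ae (Eventually.of_forall fun T => ?_)
      show Set.indicator (Set.Icc (-1 : ℝ) 1) (fun x => c x * r x) (2 * (T - l) - 1) =
        Set.indicator W (fun T => r (2 * (T - l) - 1)) T
      by_cases hx : 2 * (T - l) - 1 ∈ Set.Icc (-1 : ℝ) 1
      · rw [Set.indicator_of_mem hx]
        have hcl : cl (2 * (T - l) - 1) = 2 * (T - l) - 1 := cl_of_mem hx
        have hT : l + (cl (2 * (T - l) - 1) + 1) / 2 = T := by rw [hcl]; ring
        by_cases hTW : T ∈ W
        · rw [Set.indicator_of_mem hTW]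
          have hx0 : 2 * (T - l) - 1 < 0 := by
            have := hTW.2.2; linarith
          have : c (2 * (T - l) - 1) = 1 := by
            simp only [c, hT]
            rw [if_pos ⟨hx0, hTW.1.1, hTW.1.2⟩]
          rw [this, one_mul]
        · rw [Set.indicator_of_notMem hTW]
          have : c (2 * (T - l) - 1) = 0 := by
            simp only [c, hT]
            rw [if_neg]
            rintro ⟨h1, h2, h3⟩
            apply hTW
            refine ⟨⟨h2, h3⟩, ?_, ?_⟩
            · have := hx.1; linarith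
            · linarith
          rw [this, zero_mul]
      · rw [Set.indicator_of_notMem hx]
        by_cases hTW : T ∈ W
        · exfalso; apply hx
          have h1 := hTW.2.1
          have h2 := hTW.2.2
          constructor <;> linarith
        · rw [Set.indicator_of_notMem hTW]
    rw [e1, e3, e4, e5]
  · -- the pointwise bound
    intro T hT
    have hF0 : 0 ≤ ∫ τ, Ξ τ T ∂(PL V) := integral_nonneg fun τ => hΞ0 τ T
    show 0 ≤ r (2 * (T - l) - 1) ∧ r (2 * (T - l) - 1) ≤ 2 * ∫ τ, Ξ τ T ∂(PL V)
    set x : ℝ := 2 * (T - l) - 1 with hx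
    by_cases hxN : x ∈ Nx
    · have : r x = 0 := Set.indicator_of_notMem (by simpa using hxN) _
      rw [this]
      exact ⟨le_rfl, by positivity⟩
    · have e0 : r x = r₀ x := Set.indicator_of_mem (by simpa using hxN) _
      rw [e0]
      have hxB : x ∉ Bad := fun h => hxN (subset_toMeasurable _ _ h)
      have hxg : ∀ᵐ τ ∂(PL V), G (Function.update τ j x) = Ξ' (Function.update τ j x) := by
        by_contra h
        exact hxB h
      have hxI : x ∈ Set.Icc (-1 : ℝ) 1 := by
        have h1 := hT.2.1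
        have h2 := hT.2.2
        constructor <;> rw [hx] <;> linarith
      have hx0 : x < 0 := by
        have h2 := hT.2.2
        rw [hx]; linarith
      have htm : ∀ τ, tm (Function.update τ j x) j = T := by
        intro τ
        rw [tm_update, cl_of_mem hxI, hx]
        show l + _ = T
        ring
      have e1 : r₀ x = ∫ τ, Ξ (Function.update τ j x) T ∂(PL V) := by
        refine integral_congr_ae ?_
        filter_upwards [hxg] with τ hτ
        rw [hτ]
        simp only [hΞ', htm]
      rw [e1]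
      refine ⟨integral_nonneg fun τ => hΞ0 _ _, ?_⟩
      refine palm_aux j (hmT T hT) (fun τ => hΞ0 τ T) (fun τ => hΞB τ T) ?_
      intro τ x' hx'
      refine hconst τ T x' x ?_ ?_
      · rintro ⟨h1, _⟩; exact absurd h1 (not_lt.2 hx')
      · rintro ⟨_, h2⟩
        rw [htm] at h2
        exact lt_irrefl _ h2

end Vale.Agent.Lib.P161.Crit
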