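import Vale.Agent.Lib.P161.Crit.Innov
import Vale.Agent.Lib.P161.Crit.Decay
import Vale.Agent.Lib.P161.Crit.Palm
import Vale.Agent.Lib.P161.Crit.Ign

/-!
The energy identity: the window increment of the magnetisation has second moment the sum of the
second moments of the jumps.
-/

open MeasureTheory Filter Topology Finset

noncomputable section
namespace Vale.Agent.Lib.P161.Crit

open scoped Classical
open Vale.Agent.Lib.P161

variable {V : Type} (C : CT V)

/-- deterministic states are measurable -/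
lemma measurable_MA_det {A : Set (Stp V)} {L : ℤ} (hA : ∀ j ∈ A, j.1 ≤ L) (x : V) :
    Measurable (MA C A x) :=
  (MA_FA C hA x).mono (FA_le C A) le_rfl

lemma abs_MA_le_one (A : Set (Stp V)) (x : V) (ω : Om V) : |MA C A x ω| ≤ 1 :=
  (abs_mag_lt C _ x).le

lemma abs_Dl_le (A : Set (Stp V)) (j : Stp V) (x : V) (ω : Om V) : |Dl C A j x ω| ≤ 2 := by
  unfold Dl
  have h1 := abs_MA_le_one C (insert j A) x ω
  have h2 := abs_MA_le_one C A x ω
  calc _ ≤ |MA C (insert j A) x ω| + |MA C A x ω| := abs_sub _ _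
    _ ≤ 2 := by linarith

/-- the finite sequential energy identity -/
theorem finite_energy (x : V) {B : Set (Stp V)} {L : ℤ} (hB : ∀ i ∈ B, i.1 ≤ L) (t : Stp V → ℝ)
    (J : Finset (Stp V)) (hJL : ∀ i ∈ J, i.1 ≤ L) (hJB : ∀ i ∈ J, i ∉ B)
    (ht : Set.InjOn t J) :
    ∫ ω, (MA C (B ∪ J) x ω - MA C B x ω) ^ 2 ∂(PP V) =
      ∑ j ∈ J, ∫ ω, Dl C (B ∪ {i | i ∈ J ∧ t i < t j}) j x ω ^ 2 ∂(PP V) := by
  induction' hn : J.card with n ih generalizing J
  · have : J = ∅ := Finset.card_eq_zero.1 hn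
    subst this
    simp
  · have hne : J.Nonempty := by
      rw [← Finset.card_pos]; omega
    obtain ⟨j₀, hj₀, hmax⟩ := Finset.exists_max_image J t hne
    set J' := J.erase j₀ with hJ'
    have hJ'c : J'.card = n := by
      rw [hJ', Finset.card_erase_of_mem hj₀, hn]; simp
    have hJ'L : ∀ i ∈ J', i.1 ≤ L := fun i hi => hJL i (Finset.mem_of_mem_erase hi)
    have hJ'B : ∀ i ∈ J', i ∉ B := fun i hi => hJB i (Finset.mem_of_mem_erase hi)
    have hinj' : Set.InjOn t J' := ht.mono (by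
      intro i hi; exact Finset.mem_of_mem_erase hi)
    have IH := ih J' hJ'L hJ'B hinj' hJ'c
    set B' : Set (Stp V) := B ∪ J' with hB'
    have hB'L : ∀ i ∈ B', i.1 ≤ L := by
      rintro i (hi | hi)
      · exact hB i hi
      · exact hJ'L i hi
    have hj₀B' : j₀ ∉ B' := by
      rintro (h | h)
      · exact hJB j₀ hj₀ h
      · exact (Finset.mem_erase.1 h).1 rfl
    have hins : B ∪ J = insert j₀ B' := by
      ext i
      simp only [hB', hJ', Set.mem_union, Finset.mem_coe, Set.mem_insert_iff, Finset.mem_erase]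
      by_cases h : i = j₀
      · subst h; simp [hj₀]
      · simp [h]
    have hj₀L := hJL j₀ hj₀
    -- the martingale step
    have hZm : Measurable[FA C B'] (fun ω => MA C B' x ω - MA C B x ω) :=
      (MA_FA C hB'L x).sub ((MA_FA C hB x).mono (FA_mono C Set.subset_union_left) le_rfl)
    have hZB : ∀ ω, |MA C B' x ω - MA C B x ω| ≤ 2 := fun ω => by
      have h1 := abs_MA_le_one C B' x ω
      have h2 := abs_MA_le_one C B x ω
      calc _ ≤ |MA C B' x ω| + |MA C B x ω| := abs_sub _ _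
        _ ≤ 2 := by linarith
    have hmart := Dl_mart C hB'L hj₀B' hj₀L x hZm hZB
    have hDm : Measurable (Dl C B' j₀ x) := by
      unfold Dl
      refine (measurable_MA_det C (L := L) ?_ x).sub (measurable_MA_det C hB'L x)
      rintro i (rfl | hi)
      · exact hj₀L
      · exact hB'L i hi
    have hZm' : Measurable (fun ω => MA C B' x ω - MA C B x ω) :=
      (measurable_MA_det C hB'L x).sub (measurable_MA_det C hB x)
    have hint1 : Integrable (fun ω => Dl C B' j₀ x ω ^ 2) (PP V) :=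
      Integrable.of_bound (hDm.pow_const 2).aestronglyMeasurable 4
        (Filter.Eventually.of_forall fun ω => by
          rw [Real.norm_of_nonneg (sq_nonneg _)]
          have := abs_Dl_le C B' j₀ x ω
          nlinarith [sq_abs (Dl C B' j₀ x ω), abs_nonneg (Dl C B' j₀ x ω)])
    have hint2 : Integrable (fun ω => (MA C B' x ω - MA C B x ω) ^ 2) (PP V) :=
      Integrable.of_bound (hZm'.pow_const 2).aestronglyMeasurable 4
        (Filter.Eventually.of_forall fun ω => by
          rw [Real.norm_of_nonneg (sq_nonneg _)]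
          have := hZB ω
          nlinarith [sq_abs (MA C B' x ω - MA C B x ω), abs_nonneg (MA C B' x ω - MA C B x ω)])
    have hint3 : Integrable (fun ω => (MA C B' x ω - MA C B x ω) * Dl C B' j₀ x ω) (PP V) :=
      Integrable.of_bound (hZm'.mul hDm).aestronglyMeasurable 4
        (Filter.Eventually.of_forall fun ω => by
          rw [Real.norm_eq_abs, abs_mul]
          have h1 := abs_Dl_le C B' j₀ x ω
          have h2 := hZB ω
          nlinarith [abs_nonneg (Dl C B' j₀ x ω), abs_nonneg (MA C B' x ω - MA C B x ω)])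
    have hsplit : ∫ ω, (MA C (B ∪ J) x ω - MA C B x ω) ^ 2 ∂(PP V) =
        ∫ ω, Dl C B' j₀ x ω ^ 2 ∂(PP V) + ∫ ω, (MA C B' x ω - MA C B x ω) ^ 2 ∂(PP V) := by
      have : ∀ ω, (MA C (B ∪ J) x ω - MA C B x ω) ^ 2 =
          Dl C B' j₀ x ω ^ 2 + (MA C B' x ω - MA C B x ω) ^ 2
            + 2 * ((MA C B' x ω - MA C B x ω) * Dl C B' j₀ x ω) := by
        intro ω
        rw [hins]
        unfold Dl
        ring
      simp_rw [this]
      have hab : Integrable
          (fun ω => Dl C B' j₀ x ω ^ 2 + (MA C B' x ω - MA C B x ω) ^ 2) (PP V) := hint1.add hint2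
      have hmart' : ∫ ω, (MA C B' x ω - MA C B x ω) * Dl C B' j₀ x ω ∂(PP V) = 0 := hmart
      rw [integral_add hab (hint3.const_mul 2), integral_add hint1 hint2,
        integral_const_mul, hmart']
      ring
    rw [hsplit, IH, ← Finset.add_sum_erase J _ hj₀]
    congr 1
    · -- the last step
      have : B ∪ {i | i ∈ J ∧ t i < t j₀} = B' := by
        ext i
        simp only [hB', hJ', Set.mem_union, Set.mem_setOf_eq, Finset.mem_coe, Finset.mem_erase]
        constructor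
        · rintro (h | ⟨h1, h2⟩)
          · exact Or.inl h
          · exact Or.inr ⟨fun h => by subst h; exact lt_irrefl _ h2, h1⟩
        · rintro (h | ⟨h1, h2⟩)
          · exact Or.inl h
          · refine Or.inr ⟨h2, lt_of_le_of_ne (hmax i h2) fun h => h1 (ht h2 hj₀ h)⟩
      rw [this]
    · refine Finset.sum_congr rfl fun j hj => ?_
      have hjJ := Finset.mem_of_mem_erase hj
      have : B ∪ {i | i ∈ J' ∧ t i < t j} = B ∪ {i | i ∈ J ∧ t i < t j} := by
        ext i
        simp only [hJ', Set.mem_union, Set.mem_setOf_eq, Finset.mem_erase]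
        constructor
        · rintro (h | ⟨⟨_, h2⟩, h3⟩)
          · exact Or.inl h
          · exact Or.inr ⟨h2, h3⟩
        · rintro (h | ⟨h2, h3⟩)
          · exact Or.inl h
          · refine Or.inr ⟨⟨fun h => ?_, h2⟩, h3⟩
            subst h
            exact absurd (hmax j hjJ) (not_le.2 h3)
      rw [this]

/-! ### window states -/

/-- window times: `T` on the ball of radius `n` around `x`, `s` elsewhere -/
def Wt (x : V) (n : ℕ) (s T : ℝ) (v : V) : ℝ := if C.G.dist v x ≤ n then T else s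

/-- the window state -/
def An (x : V) (n : ℕ) (s : ℝ) (τ : Lab V) (T : ℝ) : Set (Stp V) := Sp τ (Wt C x n s T)

lemma mem_An {x : V} {n : ℕ} {s T : ℝ} {τ : Lab V} {i : Stp V} :
    i ∈ An C x n s τ T ↔ τ i < 0 ∧ tm τ i < if C.G.dist i.2 x ≤ n then T else s := Iff.rfl

lemma An_mono {x : V} {s T : ℝ} (h : s ≤ T) (τ : Lab V) : Monotone fun n => An C x n s τ T := by
  intro n m hnm i hi
  rw [mem_An] at hi ⊢
  refine ⟨hi.1, ?_⟩
  by_cases h1 : C.G.dist i.2 x ≤ n
  · rw [if_pos h1] at hi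
    rw [if_pos (h1.trans hnm)]
    exact hi.2
  · rw [if_neg h1] at hi
    have := hi.2
    split_ifs <;> linarith

lemma An_iUnion {x : V} {s T : ℝ} (h : s ≤ T) (τ : Lab V) :
    ⋃ n, An C x n s τ T = Sq τ T := by
  ext i
  simp only [Set.mem_iUnion, mem_An]
  constructor
  · rintro ⟨n, h1, h2⟩
    refine ⟨h1, ?_⟩
    show tm τ i < T
    split_ifs at h2 <;> linarith
  · rintro ⟨h1, h2⟩
    exact ⟨C.G.dist i.2 x, h1, by rw [if_pos le_rfl]; exact h2⟩

lemma Sq_subset_An {x : V} {n : ℕ} {s T : ℝ} (h : s ≤ T) (τ : Lab V) : Sq τ s ⊆ An C x n s τ T := by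
  intro i hi
  rw [mem_An]
  refine ⟨hi.1, ?_⟩
  have : tm τ i < s := hi.2
  split_ifs <;> linarith

lemma An_self {x : V} {n : ℕ} {s : ℝ} (τ : Lab V) : An C x n s τ s = Sq τ s := by
  ext i
  rw [mem_An]
  show _ ↔ τ i < 0 ∧ tm τ i < s
  split_ifs <;> simp

lemma An_le {x : V} {n : ℕ} {s T : ℝ} (τ : Lab V) :
    ∀ j ∈ An C x n s τ T, j.1 ≤ LT (max s T) := by
  refine Sp_le (fun v => ?_)
  unfold Wt
  split_ifs
  · exact le_max_right _ _
  · exact le_max_left _ _

/-- time of an active step -/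
lemma tm_lt_of_active {τ : Lab V} {j : Stp V} (h : τ j < 0) : tm τ j < j.1 + 1 / 2 := by
  unfold tm
  have : cl (τ j) ≤ τ j ∨ cl (τ j) < 0 := by
    right
    unfold cl
    have h1 : min 1 (τ j) = τ j := min_eq_right (by linarith)
    rw [h1]
    exact max_lt (by norm_num) h
  rcases this with h2 | h2
  · linarith
  · linarith

lemma le_tm (τ : Lab V) (j : Stp V) : (j.1 : ℝ) ≤ tm τ j := by
  unfold tm
  have := (cl_mem (τ j)).1
  linarith

/-- the stages of the window -/
def stg (s s' : ℝ) : Finset ℤ := Finset.Icc (⌊s⌋ - 1) ⌈s'⌉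

lemma mem_stg_of_window {s s' : ℝ} {τ : Lab V} {j : Stp V} (h0 : τ j < 0) (h1 : s ≤ tm τ j)
    (h2 : tm τ j < s') : j.1 ∈ stg s s' := by
  have h3 := tm_lt_of_active h0
  have h4 := le_tm τ j
  rw [stg, Finset.mem_Icc]
  constructor
  · have : ((⌊s⌋ - 1 : ℤ) : ℝ) < (j.1 : ℝ) + 1 := by
      push_cast
      have := Int.floor_le s
      linarith
    have h5 : ⌊s⌋ - 1 < j.1 + 1 := by exact_mod_cast this
    omega
  · have : (j.1 : ℝ) < (⌈s'⌉ : ℝ) := lt_of_le_of_lt h4 (lt_of_lt_of_le h2 (Int.le_ceil s'))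
    exact_mod_cast this.le

/-- the finite index set of the window on the ball -/
def In (x : V) (n : ℕ) (s s' : ℝ) : Finset (Stp V) :=
  (stg s s') ×ˢ ((Finset.range (n + 1)).biUnion (sph C x))

lemma mem_In {x : V} {n : ℕ} {s s' : ℝ} {j : Stp V} :
    j ∈ In C x n s s' ↔ j.1 ∈ stg s s' ∧ C.G.dist j.2 x ≤ n := by
  unfold In
  simp only [Finset.mem_product, Finset.mem_biUnion, Finset.mem_range, mem_sph]
  constructor
  · rintro ⟨h1, m, h2, h3⟩
    exact ⟨h1, by omega⟩
  · rintro ⟨h1, h2⟩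
    exact ⟨h1, _, by omega, rfl⟩

/-- the condition that `j` fires in the window -/
def Cw (s s' : ℝ) (τ : Lab V) (j : Stp V) : Prop := τ j < 0 ∧ s ≤ tm τ j ∧ tm τ j < s'

/-- the window part under the labels `τ` -/
def Jw (x : V) (n : ℕ) (s s' : ℝ) (τ : Lab V) : Finset (Stp V) :=
  (In C x n s s').filter (Cw s s' τ)

lemma An_eq_union {x : V} {n : ℕ} {s s' T : ℝ} (hsT : s ≤ T) (hTs' : T ≤ s') (τ : Lab V) :
    An C x n s τ T = Sq τ s ∪ {i | i ∈ Jw C x n s s' τ ∧ tm τ i < T} := by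
  ext i
  rw [mem_An]
  simp only [Set.mem_union, Set.mem_setOf_eq, Jw, Finset.mem_filter, mem_In]
  constructor
  · rintro ⟨h1, h2⟩
    by_cases hi : C.G.dist i.2 x ≤ n
    · rw [if_pos hi] at h2
      by_cases h3 : tm τ i < s
      · exact Or.inl ⟨h1, h3⟩
      · have h4 : Cw s s' τ i := ⟨h1, not_lt.1 h3, lt_of_lt_of_le h2 hTs'⟩
        exact Or.inr ⟨⟨⟨mem_stg_of_window h4.1 h4.2.1 h4.2.2, hi⟩, h4⟩, h2⟩
    · rw [if_neg hi] at h2
      exact Or.inl ⟨h1, h2⟩
  · rintro (⟨h1, h2⟩ | ⟨⟨⟨_, hi⟩, h4⟩, h3⟩)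
    · refine ⟨h1, ?_⟩
      have : tm τ i < s := h2
      split_ifs <;> linarith
    · exact ⟨h4.1, by rw [if_pos hi]; exact h3⟩

/-- the energy identity on the ball under good labels -/
theorem ball_energy {x : V} {n : ℕ} {s s' : ℝ} (hss : s ≤ s') {τ : Lab V} (hτ : Good τ) :
    ∫ ω, (MA C (An C x n s τ s') x ω - MA C (Sq τ s) x ω) ^ 2 ∂(PP V) =
      ∑ j ∈ Jw C x n s s' τ, ∫ ω, Dl C (An C x n s τ (tm τ j)) j x ω ^ 2 ∂(PP V) := by
  set L : ℤ := LT (max s s') with hL
  have hB : ∀ i ∈ Sq τ s, i.1 ≤ L := by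
    intro i hi
    have := Sq_le τ s i hi
    refine this.trans ?_
    exact Int.ceil_mono (le_max_left _ _)
  have hJL : ∀ i ∈ Jw C x n s s' τ, i.1 ≤ L := by
    intro i hi
    obtain ⟨-, h4⟩ := Finset.mem_filter.1 hi
    have h5 := le_tm τ i
    have : (i.1 : ℝ) ≤ (L : ℝ) :=
      h5.trans (h4.2.2.le.trans ((le_max_right s s').trans (Int.le_ceil _)))
    exact_mod_cast this
  have hJB : ∀ i ∈ Jw C x n s s' τ, i ∉ Sq τ s := by
    intro i hi h
    obtain ⟨-, h4⟩ := Finset.mem_filter.1 hi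
    exact absurd (show tm τ i < s from h.2) (not_lt.2 h4.2.1)
  have hinj : Set.InjOn (tm τ) (Jw C x n s s' τ) := by
    intro i hi j hj hij
    by_contra hne
    obtain ⟨-, h4⟩ := Finset.mem_filter.1 hi
    obtain ⟨-, h5⟩ := Finset.mem_filter.1 hj
    exact hτ i j h4.1 h5.1 hne hij
  have h := finite_energy C x hB (tm τ) (Jw C x n s s' τ) hJL hJB hinj
  have e1 : An C x n s τ s' = Sq τ s ∪ (Jw C x n s s' τ : Set (Stp V)) := by
    rw [An_eq_union C hss le_rfl τ]
    ext i
    simp only [Set.mem_union, Set.mem_setOf_eq, Finset.mem_coe]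
    constructor
    · rintro (h | ⟨h1, _⟩)
      · exact Or.inl h
      · exact Or.inr h1
    · rintro (h | h1)
      · exact Or.inl h
      · refine Or.inr ⟨h1, ?_⟩
        obtain ⟨-, h4⟩ := Finset.mem_filter.1 h1
        exact h4.2.2
  rw [e1, h]
  refine Finset.sum_congr rfl fun j hj => ?_
  obtain ⟨-, h4⟩ := Finset.mem_filter.1 hj
  rw [An_eq_union C h4.2.1 h4.2.2.le τ]

/-! ### levels -/

/-- the covariance is bounded by the product along a chain -/
lemma cov_sq_le_prod (X : V → ℝ) {x u : V} {a : ℕ → V}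
    (ha : ∀ i ≤ C.G.dist u x, a i = twI C x (C.G.dist u x - i) u) :
    cov C X x u ^ 2 ≤ C.θ ^ (2 * C.G.dist u x) *
      ∏ i ∈ range (C.G.dist u x), G4 C (zl C X (a (i + 1)) (a i)) := by
  set m := C.G.dist u x with hm
  rw [cov_eq_exp, mul_pow, ← pow_mul, mul_comm m 2]
  refine mul_le_mul_of_nonneg_left ?_ (by have := C.hθ0; positivity)
  have h1 : ∏ i ∈ range m, G4 C (zl C X (a (i + 1)) (a i))
      = ∏ i ∈ range m, G4 C (zl C X (twI C x i u) (twI C x (i + 1) u)) := by
    rw [← Finset.prod_range_reflect]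
    refine Finset.prod_congr rfl fun i hi => ?_
    have hi' := Finset.mem_range.1 hi
    rw [ha (m - 1 - i + 1) (by omega), ha (m - 1 - i) (by omega)]
    have e1 : m - (m - 1 - i + 1) = i := by omega
    have e2 : m - (m - 1 - i) = i + 1 := by omega
    rw [e1, e2]
  rw [h1]
  have h2 : ∏ i ∈ range m, G4 C (zl C X (twI C x i u) (twI C x (i + 1) u))
      = Real.exp (-2 * Yr C X x u) := by
    simp only [G4_eq]
    rw [← Real.exp_sum, Yr, ← hm, Finset.mul_sum]
  rw [h2, ← Real.exp_nat_mul]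
  apply Real.exp_le_exp.2
  have h3 : 0 ≤ fo (mag C X x) := fo_nonneg (abs_mag_lt C X x)
  unfold Xr
  push_cast
  nlinarith

/-- the sum over sites reduced to levels -/
lemma sum_level_le (x : V) (U : Finset V) (g : ℕ → ℝ) (hg : ∀ m, 0 ≤ g m) (M : ℕ)
    (hM : ∀ u ∈ U, C.G.dist u x ≤ M) :
    ∑ u ∈ U, C.θ ^ (2 * C.G.dist u x) * g (C.G.dist u x) ≤ 2 * ∑ m ∈ range (M + 1), g m := by
  have hmaps : ∀ u ∈ U, C.G.dist u x ∈ range (M + 1) := fun u hu =>
    Finset.mem_range.2 (Nat.lt_succ_of_le (hM u hu))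
  rw [← Finset.sum_fiberwise_of_maps_to hmaps, Finset.mul_sum]
  refine Finset.sum_le_sum fun m _ => ?_
  have hθ : ((C.d : ℝ) - 1) ^ m * C.θ ^ (2 * m) = 1 := by
    rw [pow_mul, ← mul_pow, C.hκ, one_pow]
  have hsub : U.filter (fun u => C.G.dist u x = m) ⊆ sph C x m := by
    intro u hu
    exact mem_sph C |>.2 (Finset.mem_filter.1 hu).2
  calc ∑ u ∈ U.filter (fun u => C.G.dist u x = m), C.θ ^ (2 * C.G.dist u x) * g (C.G.dist u x)
      = ∑ u ∈ U.filter (fun u => C.G.dist u x = m), C.θ ^ (2 * m) * g m := by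
        refine Finset.sum_congr rfl fun u hu => ?_
        rw [(Finset.mem_filter.1 hu).2]
    _ = ((U.filter (fun u => C.G.dist u x = m)).card : ℝ) * (C.θ ^ (2 * m) * g m) := by
        rw [Finset.sum_const, nsmul_eq_mul]
    _ ≤ ((sph C x m).card : ℝ) * (C.θ ^ (2 * m) * g m) := by
        refine mul_le_mul_of_nonneg_right ?_ (mul_nonneg (by have := C.hθ0; positivity) (hg m))
        exact_mod_cast Finset.card_le_card hsub
    _ ≤ (2 * ((C.d : ℝ) - 1) ^ m) * (C.θ ^ (2 * m) * g m) := by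
        refine mul_le_mul_of_nonneg_right (card_sph_le C x m)
          (mul_nonneg (by have := C.hθ0; positivity) (hg m))
    _ = 2 * g m := by
        calc _ = 2 * (((C.d : ℝ) - 1) ^ m * C.θ ^ (2 * m)) * g m := by ring
          _ = 2 * g m := by rw [hθ, mul_one]

/-- second moment of the covariance at a window state -/
lemma CA_sq_int_le {c : ℝ}
    (hc : ∀ (s T : ℝ) (p : V → ℝ), (∀ v, s ≤ p v) → (∀ v, p v ≤ T) →
      ∀ (a : ℕ → V), Chain C a → ∀ n : ℕ,
        ∫ ω, ∏ i ∈ range n, G4 C (zl C (fld C (Sp (lab ω.2) p) ω) (a (i + 1)) (a i)) ∂(PP V)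
          ≤ (1 - c * min 1 (Real.rpow 2 s)) ^ n)
    {s T : ℝ} {p : V → ℝ} (hs : ∀ v, s ≤ p v) (hT : ∀ v, p v ≤ T) (x u : V) :
    ∫ ω, CA C (Sp (lab ω.2) p) x u ω ^ 2 ∂(PP V) ≤
      C.θ ^ (2 * C.G.dist u x) * (1 - c * min 1 (Real.rpow 2 s)) ^ C.G.dist u x := by
  obtain ⟨a, hch, -, ha⟩ := exists_chain C x u
  set m := C.G.dist u x with hm
  have hL : LS fun w : WW V => Sp (lab w) p := LS_Sp (fun _ => measurable_const)
  have hLe : ∀ w : WW V, ∀ j ∈ Sp (lab w) p, j.1 ≤ LT T := fun w => Sp_le hT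
  have hmCA : Measurable fun ω : Om V => CA C (Sp (lab ω.2) p) x u ω :=
    measurable_CA hL hLe x u
  have hmz : ∀ b b' : V, Measurable fun ω : Om V => zl C (fld C (Sp (lab ω.2) p) ω) b b' :=
    fun b b' => measurable_zl hL hLe b b'
  have hmG : Measurable (G4 C) := by
    unfold G4
    have hct : Continuous Real.tanh := by
      have : Real.tanh = fun x => Real.sinh x / Real.cosh x := by
        funext x; exact Real.tanh_eq_sinh_div_cosh x
      rw [this]
      exact Real.continuous_sinh.div Real.continuous_cosh fun x => (Real.cosh_pos x).ne'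
    exact (((measurable_const.sub (hct.measurable.pow_const 2)).div
      (measurable_const.sub (measurable_const.mul (hct.measurable.pow_const 2)))).pow_const 2)
  have hmP : Measurable fun ω : Om V =>
      ∏ i ∈ range m, G4 C (zl C (fld C (Sp (lab ω.2) p) ω) (a (i + 1)) (a i)) :=
    Finset.measurable_prod _ fun i _ => hmG.comp (hmz _ _)
  have hle : ∀ ω : Om V, CA C (Sp (lab ω.2) p) x u ω ^ 2 ≤ C.θ ^ (2 * m) *
      ∏ i ∈ range m, G4 C (zl C (fld C (Sp (lab ω.2) p) ω) (a (i + 1)) (a i)) :=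
    fun ω => cov_sq_le_prod C _ ha
  have hPb : ∀ ω : Om V, ‖∏ i ∈ range m, G4 C (zl C (fld C (Sp (lab ω.2) p) ω) (a (i + 1)) (a i))‖
      ≤ 1 := fun ω => by
    rw [Real.norm_of_nonneg (Finset.prod_nonneg fun i _ => G4_nonneg C _)]
    exact Finset.prod_le_one (fun i _ => G4_nonneg C _) fun i _ => G4_le_one C _
  have hPi : Integrable (fun ω : Om V =>
      ∏ i ∈ range m, G4 C (zl C (fld C (Sp (lab ω.2) p) ω) (a (i + 1)) (a i))) (PP V) :=
    Integrable.of_bound hmP.aestronglyMeasurable 1 (Filter.Eventually.of_forall hPb)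
  have hCi : Integrable (fun ω : Om V => CA C (Sp (lab ω.2) p) x u ω ^ 2) (PP V) :=
    Integrable.of_bound (hmCA.pow_const 2).aestronglyMeasurable 1
      (Filter.Eventually.of_forall fun ω => by
        rw [Real.norm_of_nonneg (sq_nonneg _)]
        have := abs_CA_le C (Sp (lab ω.2) p) x u ω
        nlinarith [sq_abs (CA C (Sp (lab ω.2) p) x u ω), abs_nonneg (CA C (Sp (lab ω.2) p) x u ω)])
  calc _ ≤ ∫ ω, C.θ ^ (2 * m) *
        ∏ i ∈ range m, G4 C (zl C (fld C (Sp (lab ω.2) p) ω) (a (i + 1)) (a i)) ∂(PP V) :=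
        integral_mono hCi (hPi.const_mul _) hle
    _ = C.θ ^ (2 * m) * ∫ ω,
        ∏ i ∈ range m, G4 C (zl C (fld C (Sp (lab ω.2) p) ω) (a (i + 1)) (a i)) ∂(PP V) :=
        integral_const_mul _ _
    _ ≤ _ := mul_le_mul_of_nonneg_left (hc s T p hs hT a hch m) (by have := C.hθ0; positivity)

end Vale.Agent.Lib.P161.Crit
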