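import Vale.Agent.Lib.P161.Crit.Energy

/-!
The whole-space energy identity.
-/

open MeasureTheory Filter Topology Finset

noncomputable section
namespace Vale.Agent.Lib.P161.Crit

open scoped Classical
open Vale.Agent.Lib.P161

variable {V : Type} (C : CT V)

/-- the jump of step `j` in the window `[s, s')` under the labels of the sample -/
def DlW (s s' : ℝ) (j : Stp V) (x : V) (ω : Om V) : ℝ :=
  if Cw s s' (lab ω.2) j then Dl C (Sq (lab ω.2) (tm (lab ω.2) j)) j x ω else 0

/-- the jump in the ball approximation -/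
def En (x : V) (n : ℕ) (s s' : ℝ) (j : Stp V) (ω : Om V) : ℝ :=
  if j ∈ In C x n s s' ∧ Cw s s' (lab ω.2) j then
    Dl C (An C x n s (lab ω.2) (tm (lab ω.2) j)) j x ω else 0

variable {C}

lemma LS_insert {A : WW V → Set (Stp V)} (hA : LS A) (j : Stp V) :
    LS fun w => insert j (A w) := by
  intro i
  by_cases h : i = j
  · subst h
    simp
  · have : {w | i ∈ insert j (A w)} = {w | i ∈ A w} := by
      ext w
      simp [h]
    rw [this]
    exact hA i

lemma measurable_tm_lab (j : Stp V) : Measurable fun w : WW V => tm (lab w) j :=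
  (measurable_tm j).comp measurable_lab

lemma tm_le (τ : Lab V) (j : Stp V) : tm τ j ≤ j.1 + 1 := by
  unfold tm
  have := (cl_mem (τ j)).2
  linarith

/-- a measurable jump -/
lemma measurable_Dl_state {A : WW V → Set (Stp V)} (hA : LS A) {L : ℤ} {j : Stp V}
    (hL : ∀ w, ∀ i ∈ A w, i.1 ≤ L) (hj : j.1 ≤ L) (x : V) :
    Measurable fun ω : Om V => Dl C (A ω.2) j x ω := by
  unfold Dl
  refine (measurable_MA (C := C) (LS_insert hA j) (L := L) ?_ x).sub (measurable_MA hA hL x)
  intro w i hi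
  rcases hi with rfl | hi
  · exact hj
  · exact hL w i hi

lemma LS_An_tm (x : V) (n : ℕ) (s : ℝ) (j : Stp V) :
    LS fun w : WW V => An C x n s (lab w) (tm (lab w) j) := by
  refine LS_Sp (p := fun w v => Wt C x n s (tm (lab w) j) v) fun v => ?_
  unfold Wt
  split_ifs
  · exact measurable_tm_lab j
  · exact measurable_const

lemma LS_An (x : V) (n : ℕ) (s T : ℝ) :
    LS fun w : WW V => An C x n s (lab w) T := by
  refine LS_Sp (p := fun w v => Wt C x n s T v) fun v => measurable_const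

lemma LS_Sq_tm (j : Stp V) : LS fun w : WW V => Sq (lab w) (tm (lab w) j) := LS_pre j

/-- the uniform stage bound of the states at time `tm τ j` -/
def Lj (s : ℝ) (j : Stp V) : ℤ := max (LT (max s (j.1 + 1))) j.1

lemma le_Lj (s : ℝ) (j : Stp V) : j.1 ≤ Lj s j := le_max_right _ _

lemma An_tm_le {x : V} {n : ℕ} {s : ℝ} (τ : Lab V) (j : Stp V) :
    ∀ i ∈ An C x n s τ (tm τ j), i.1 ≤ Lj s j := by
  intro i hi
  have h1 := An_le C τ i hi
  refine h1.trans (le_trans ?_ (le_max_left _ _))
  exact Int.ceil_mono (max_le_max_left _ (tm_le τ j))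

lemma Sq_tm_le (s : ℝ) (τ : Lab V) (j : Stp V) :
    ∀ i ∈ Sq τ (tm τ j), i.1 ≤ Lj s j := by
  intro i hi
  have h1 := Sq_le τ (tm τ j) i hi
  refine h1.trans (le_trans ?_ (le_max_left _ _))
  exact Int.ceil_mono ((tm_le τ j).trans (le_max_right _ _))

lemma measurableSet_Cw (s s' : ℝ) (j : Stp V) :
    MeasurableSet {w : WW V | Cw s s' (lab w) j} := by
  have h0 : Measurable fun w : WW V => lab w j := (measurable_pi_apply j).comp measurable_lab
  exact (measurableSet_lt h0 measurable_const).inter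
    ((measurableSet_le measurable_const (measurable_tm_lab j)).inter
      (measurableSet_lt (measurable_tm_lab j) measurable_const))

variable (C)

lemma measurable_En (x : V) (n : ℕ) (s s' : ℝ) (j : Stp V) : Measurable (En C x n s s' j) := by
  unfold En
  by_cases hj : j ∈ In C x n s s'
  · simp only [hj, true_and]
    refine Measurable.ite ((measurableSet_Cw s s' j).preimage measurable_snd)
      (measurable_Dl_state (LS_An_tm x n s j) (fun w => An_tm_le (lab w) j) (le_Lj s j) x)
      measurable_const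
  · simp [hj]

lemma measurable_DlW (s s' : ℝ) (j : Stp V) (x : V) : Measurable (DlW C s s' j x) := by
  unfold DlW
  exact Measurable.ite ((measurableSet_Cw s s' j).preimage measurable_snd)
    (measurable_Dl_state (LS_Sq_tm j) (fun w => Sq_tm_le s (lab w) j) (le_Lj s j) x)
    measurable_const

lemma abs_En_le (x : V) (n : ℕ) (s s' : ℝ) (j : Stp V) (ω : Om V) : |En C x n s s' j ω| ≤ 2 := by
  unfold En
  split_ifs
  · exact abs_Dl_le C _ j x ω
  · simp

lemma abs_DlW_le (s s' : ℝ) (j : Stp V) (x : V) (ω : Om V) : |DlW C s s' j x ω| ≤ 2 := by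
  unfold DlW
  split_ifs
  · exact abs_Dl_le C _ j x ω
  · simp

lemma sq_le_four {y : ℝ} (h : |y| ≤ 2) : y ^ 2 ≤ 4 := by
  nlinarith [sq_abs y, abs_nonneg y]

lemma En_setL (x : V) (n : ℕ) (s s' : ℝ) (j : Stp V) (τ : Lab V) (ω : Om V) :
    En C x n s s' j (setL τ ω) =
      if j ∈ In C x n s s' ∧ Cw s s' τ j then Dl C (An C x n s τ (tm τ j)) j x ω else 0 := rfl

lemma DlW_setL (s s' : ℝ) (j : Stp V) (x : V) (τ : Lab V) (ω : Om V) :
    DlW C s s' j x (setL τ ω) =
      if Cw s s' τ j then Dl C (Sq τ (tm τ j)) j x ω else 0 := rfl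

/-- fiber integrability helper -/
lemma integrable_fiber {F : Om V → ℝ} (hF : Measurable F) {B : ℝ} (hB : ∀ ω, |F ω| ≤ B) :
    Integrable (fun τ => ∫ ω, F (setL τ ω) ∂(PP V)) (PL V) := by
  refine Integrable.of_bound (measurable_fiber_integral hF).aestronglyMeasurable B
    (Filter.Eventually.of_forall fun τ => ?_)
  have h1 : ‖∫ ω, F (setL τ ω) ∂(PP V)‖ ≤ ∫ ω, ‖F (setL τ ω)‖ ∂(PP V) :=
    norm_integral_le_integral_norm _
  refine h1.trans ?_
  have hB0 : 0 ≤ B := (abs_nonneg _).trans (hB (true, fun _ => 0))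
  calc ∫ ω, ‖F (setL τ ω)‖ ∂(PP V) ≤ ∫ _ω, B ∂(PP V) := by
        refine integral_mono_of_nonneg (Filter.Eventually.of_forall fun ω => norm_nonneg _)
          (integrable_const _) (Filter.Eventually.of_forall fun ω => hB _)
    _ = B := by simp

/-- energy at level `n` -/
theorem ball_energy_whole {x : V} {n : ℕ} {s s' : ℝ} (hss : s ≤ s') :
    ∑ j ∈ In C x n s s', ∫ ω, En C x n s s' j ω ^ 2 ∂(PP V) =
      ∫ ω, (MA C (An C x n s (lab ω.2) s') x ω - Ms C s x ω) ^ 2 ∂(PP V) := by
  have hm₁ : Measurable fun ω : Om V => MA C (An C x n s (lab ω.2) s') x ω :=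
    measurable_MA (LS_An x n s s') (fun w => An_le C (lab w))  x
  have hm₂ := measurable_Ms (C := C) s x
  have hsq : ∀ j, Measurable fun ω => En C x n s s' j ω ^ 2 := fun j =>
    (measurable_En C x n s s' j).pow_const 2
  have hsqb : ∀ j ω, |En C x n s s' j ω ^ 2| ≤ 4 := fun j ω => by
    rw [abs_of_nonneg (sq_nonneg _)]
    exact sq_le_four (abs_En_le C x n s s' j ω)
  have hrhs : Measurable fun ω : Om V =>
      (MA C (An C x n s (lab ω.2) s') x ω - Ms C s x ω) ^ 2 := (hm₁.sub hm₂).pow_const 2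
  have hrhsb : ∀ ω : Om V, |(MA C (An C x n s (lab ω.2) s') x ω - Ms C s x ω) ^ 2| ≤ 4 := fun ω => by
    rw [abs_of_nonneg (sq_nonneg _)]
    refine sq_le_four ?_
    have h1 := abs_MA_le_one C (An C x n s (lab ω.2) s') x ω
    have h2 := abs_Ms_le C s x ω
    have h3 := abs_sub (MA C (An C x n s (lab ω.2) s') x ω) (Ms C s x ω)
    linarith
  simp_rw [integral_fiber (hsq _) (hsqb _)]
  rw [integral_fiber hrhs hrhsb, ← integral_finset_sum _ fun j _ =>
    integrable_fiber (hsq j) (hsqb j)]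
  refine integral_congr_ae ?_
  filter_upwards [ae_good C] with τ hτ
  have h := ball_energy C (x := x) (n := n) hss hτ
  show ∑ j ∈ In C x n s s', ∫ ω, En C x n s s' j (setL τ ω) ^ 2 ∂(PP V) =
    ∫ ω, (MA C (An C x n s τ s') x ω - MA C (Sq τ s) x ω) ^ 2 ∂(PP V)
  rw [h, Jw, Finset.sum_filter]
  refine Finset.sum_congr rfl fun j hj => ?_
  by_cases hc : Cw s s' τ j
  · rw [if_pos hc]
    refine integral_congr_ae (Filter.Eventually.of_forall fun ω => ?_)
    simp only [En_setL, hj, hc, and_self, if_true]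
  · rw [if_neg hc]
    have : ∀ ω, En C x n s s' j (setL τ ω) ^ 2 = 0 := fun ω => by
      simp [En_setL, hc]
    simp [this]

end Vale.Agent.Lib.P161.Crit
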