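import Vale.Agent.Lib.P161.Crit.Energy2

/-!
The energy identity on the whole tree: Tannery applied to `ball_energy_whole`.
Plan: `whole_limit` and `En_limit` are Levy (`lim_states`) + dominated convergence fiberwise
(`integral_fiber`); `En_sq_le` is `Dl_formula` + `abs_gg_le` + `palm` + `CA_sq_int_le` (from `peel`);
`summable_Dm` is `sum_level_le` + geometric series; `energy` is
`tendsto_tsum_of_dominated_convergence`.
-/

open MeasureTheory Filter Topology Finset

noncomputable section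
namespace Vale.Agent.Lib.P161.Crit

open scoped Classical
open Vale.Agent.Lib.P161

variable {V : Type} (C : CT V)

/-! ### fiberwise limits -/

lemma en3_norm_inner {F : Om V → ℝ} {B : ℝ} (hB : ∀ ω, |F ω| ≤ B) (τ : Lab V) :
    ‖∫ ω, F (setL τ ω) ∂(PP V)‖ ≤ B := by
  have h := norm_integral_le_of_norm_le_const (μ := PP V) (f := fun ω => F (setL τ ω)) (C := B)
    (ae_of_all _ (fun ω => by simpa [Real.norm_eq_abs] using hB _))
  simpa using h

lemma en3_tendsto_fiber {Fn : ℕ → Om V → ℝ} {F : Om V → ℝ} (hm : ∀ n, Measurable (Fn n))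
    (hF : Measurable F) {B : ℝ} (hB : ∀ n ω, |Fn n ω| ≤ B) (hB' : ∀ ω, |F ω| ≤ B)
    (hl : ∀ τ : Lab V, Tendsto (fun n => ∫ ω, Fn n (setL τ ω) ∂(PP V)) atTop
      (𝓝 (∫ ω, F (setL τ ω) ∂(PP V)))) :
    Tendsto (fun n => ∫ ω, Fn n ω ∂(PP V)) atTop (𝓝 (∫ ω, F ω ∂(PP V))) := by
  rw [integral_fiber hF hB']
  have e : (fun n => ∫ ω, Fn n ω ∂(PP V)) =
      fun n => ∫ τ, ∫ ω, Fn n (setL τ ω) ∂(PP V) ∂(PL V) := by
    funext n
    exact integral_fiber (hm n) (hB n)
  rw [e]
  apply tendsto_integral_of_dominated_convergence (fun _ => B)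
  · intro n
    exact (measurable_fiber_integral (hm n)).aestronglyMeasurable
  · exact integrable_const _
  · intro n
    exact ae_of_all _ (en3_norm_inner (hB n))
  · exact ae_of_all _ hl

lemma en3_measurable_setL (τ : Lab V) : Measurable (fun ω : Om V => setL τ ω) :=
  measurable_setL.comp (measurable_const.prodMk measurable_id)

lemma en3_fiber_dct {Fn : ℕ → Om V → ℝ} {F : Om V → ℝ} (hm : ∀ n, Measurable (Fn n)) (τ : Lab V)
    {B : ℝ} (hB : ∀ n ω, |Fn n ω| ≤ B)
    (hl : ∀ᵐ ω ∂(PP V), Tendsto (fun n => Fn n (setL τ ω)) atTop (𝓝 (F (setL τ ω)))) :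
    Tendsto (fun n => ∫ ω, Fn n (setL τ ω) ∂(PP V)) atTop (𝓝 (∫ ω, F (setL τ ω) ∂(PP V))) := by
  apply tendsto_integral_of_dominated_convergence (fun _ => B)
  · intro n
    exact ((hm n).comp (en3_measurable_setL τ)).aestronglyMeasurable
  · exact integrable_const _
  · intro n
    exact ae_of_all _ (fun ω => by simpa [Real.norm_eq_abs] using hB n _)
  · exact hl

lemma en3_lim1 {x₀ : V} {s T : ℝ} (hsT : s ≤ T) (τ : Lab V) (x : V) :
    ∀ᵐ ω ∂(PP V), Tendsto (fun n => MA C (An C x₀ n s τ T) x ω) atTop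
      (𝓝 (MA C (Sq τ T) x ω)) := by
  filter_upwards [lim_states C (An_mono C hsT τ) (An_iUnion C hsT τ) (Sq_le τ T)] with ω hω
  exact hω.1 x

lemma en3_lim2 {x₀ : V} {s T : ℝ} (hsT : s ≤ T) (τ : Lab V) (j : Stp V) (x : V) :
    ∀ᵐ ω ∂(PP V), Tendsto (fun n => MA C (insert j (An C x₀ n s τ T)) x ω) atTop
      (𝓝 (MA C (insert j (Sq τ T)) x ω)) := by
  have hm : Monotone fun n => insert j (An C x₀ n s τ T) :=
    fun n m h => Set.insert_subset_insert (An_mono C hsT τ h)
  have hU : ⋃ n, insert j (An C x₀ n s τ T) = insert j (Sq τ T) := by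
    rw [← An_iUnion C (x := x₀) hsT τ]
    ext i
    simp only [Set.mem_iUnion, Set.mem_insert_iff]
    constructor
    · rintro ⟨n, h | h⟩
      · exact Or.inl h
      · exact Or.inr ⟨n, h⟩
    · rintro (h | ⟨n, h⟩)
      · exact ⟨0, Or.inl h⟩
      · exact ⟨n, Or.inr h⟩
  have hL : ∀ i ∈ insert j (Sq τ T), i.1 ≤ max (LT T) j.1 := by
    intro i hi
    rcases hi with rfl | hi
    · exact le_max_right _ _
    · exact (Sq_le τ T i hi).trans (le_max_left _ _)
  filter_upwards [lim_states C hm hU hL] with ω hω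
  exact hω.1 x

lemma en3_sq_bd {a b : ℝ} (ha : |a| ≤ 1) (hb : |b| ≤ 1) : |(a - b) ^ 2| ≤ 4 := by
  rw [abs_of_nonneg (sq_nonneg _)]
  refine sq_le_four ?_
  have h3 := abs_sub a b
  linarith

lemma en3_sq_abs {a : ℝ} (ha : |a| ≤ 2) : |a ^ 2| ≤ 4 := by
  rw [abs_of_nonneg (sq_nonneg _)]
  exact sq_le_four ha

/-- fiberwise almost sure convergence gives convergence of the integrals -/
lemma el_fiber_limit {F : ℕ → Om V → ℝ} {G : Om V → ℝ} (hF : ∀ n, Measurable (F n))
    (hG : Measurable G) {B : ℝ} (hFB : ∀ n ω, |F n ω| ≤ B) (hGB : ∀ ω, |G ω| ≤ B)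
    (h : ∀ τ : Lab V, ∀ᵐ ω ∂(PP V), Tendsto (fun n => F n (setL τ ω)) atTop (𝓝 (G (setL τ ω)))) :
    Tendsto (fun n => ∫ ω, F n ω ∂(PP V)) atTop (𝓝 (∫ ω, G ω ∂(PP V))) := by
  have hB0 : 0 ≤ B := (abs_nonneg _).trans (hGB (true, fun _ => 0))
  have hsec : Measurable fun p : Om V => ((p.1, p.2) : Om V) := measurable_id
  have hin : ∀ τ : Lab V, Measurable fun ω : Om V => setL τ ω := fun τ =>
    measurable_setL.comp (measurable_const.prodMk measurable_id)
  have hinner : ∀ τ : Lab V, Tendsto (fun n => ∫ ω, F n (setL τ ω) ∂(PP V)) atTop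
      (𝓝 (∫ ω, G (setL τ ω) ∂(PP V))) := by
    intro τ
    refine tendsto_integral_of_dominated_convergence (fun _ => B)
      (fun n => ((hF n).comp (hin τ)).aestronglyMeasurable) (integrable_const _)
      (fun n => ae_of_all _ fun ω => ?_) (h τ)
    rw [Real.norm_eq_abs]
    exact hFB n _
  have hfib : ∀ n, ∫ ω, F n ω ∂(PP V) = ∫ τ, ∫ ω, F n (setL τ ω) ∂(PP V) ∂(PL V) := fun n =>
    integral_fiber (hF n) (hFB n)
  simp_rw [hfib]
  rw [integral_fiber hG hGB]
  refine tendsto_integral_of_dominated_convergence (fun _ => B)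
    (fun n => (measurable_fiber_integral (hF n)).aestronglyMeasurable) (integrable_const _)
    (fun n => ae_of_all _ fun τ => ?_) (ae_of_all _ hinner)
  have h1 : ‖∫ ω, F n (setL τ ω) ∂(PP V)‖ ≤ ∫ ω, ‖F n (setL τ ω)‖ ∂(PP V) :=
    norm_integral_le_integral_norm _
  refine h1.trans ?_
  calc ∫ ω, ‖F n (setL τ ω)‖ ∂(PP V) ≤ ∫ _ω, B ∂(PP V) := by
        refine integral_mono_of_nonneg (Filter.Eventually.of_forall fun ω => norm_nonneg _)
          (integrable_const _) (Filter.Eventually.of_forall fun ω => ?_)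
        show ‖F n (setL τ ω)‖ ≤ B
        rw [Real.norm_eq_abs]
        exact hFB n _
    _ = B := by simp

lemma el_sq_bound {y : ℝ} {B : ℝ} (h : |y| ≤ B) : |y ^ 2| ≤ B ^ 2 := by
  rw [abs_pow]
  exact pow_le_pow_left₀ (abs_nonneg _) h 2

/-- the ball states converge to the whole state: Levy for `An C x n s τ s'` at each fixed `τ`
(`An_mono`, `An_iUnion`, `An_le`), bounded convergence in `ω`, then in `τ`. -/
theorem whole_limit {s s' : ℝ} (hss : s ≤ s') (x : V) :
    Tendsto (fun n => ∫ ω, (MA C (An C x n s (lab ω.2) s') x ω - Ms C s x ω) ^ 2 ∂(PP V)) atTop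
      (𝓝 (∫ ω, (Ms C s' x ω - Ms C s x ω) ^ 2 ∂(PP V))) := by
  have hm₁ : ∀ n, Measurable fun ω : Om V => MA C (An C x n s (lab ω.2) s') x ω := fun n =>
    measurable_MA (LS_An x n s s') (fun w => An_le C (lab w)) x
  have hm₂ := measurable_Ms (C := C) s x
  have hm₃ := measurable_Ms (C := C) s' x
  have hb : ∀ (a b : Om V → ℝ), (∀ ω, |a ω| ≤ 1) → (∀ ω, |b ω| ≤ 1) →
      ∀ ω, |(a ω - b ω) ^ 2| ≤ 2 ^ 2 := by
    intro a b ha hb ω
    refine el_sq_bound ?_
    have h1 := abs_sub (a ω) (b ω)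
    have h2 := ha ω
    have h3 := hb ω
    linarith
  refine el_fiber_limit (B := 2 ^ 2) (fun n => ((hm₁ n).sub hm₂).pow_const 2)
    ((hm₃.sub hm₂).pow_const 2)
    (fun n => hb _ _ (fun ω => abs_MA_le_one C _ x ω) (fun ω => abs_MA_le_one C _ x ω))
    (hb _ _ (fun ω => abs_MA_le_one C _ x ω) (fun ω => abs_MA_le_one C _ x ω)) ?_
  intro τ
  have hl := lim_states (C := C) (An_mono C (x := x) hss τ) (An_iUnion C (x := x) hss τ) (Sq_le τ s')
  filter_upwards [hl] with ω hω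
  exact ((hω.1 x).sub_const _).pow 2

/-- termwise limit. For fixed `τ` with `Cw s s' τ j` and `T = tm τ j`: eventually `j ∈ In`
(`mem_stg_of_window`, `dist j.2 x ≤ n`), and `lim_states` applies to `An C x n s τ T` and to
`insert j (An C x n s τ T)`; when `¬ Cw` both sides vanish. -/
theorem En_limit {s s' : ℝ} (hss : s ≤ s') (x : V) (j : Stp V) :
    Tendsto (fun n => ∫ ω, En C x n s s' j ω ^ 2 ∂(PP V)) atTop
      (𝓝 (∫ ω, DlW C s s' j x ω ^ 2 ∂(PP V))) := by
  refine el_fiber_limit (B := 2 ^ 2) (fun n => (measurable_En C x n s s' j).pow_const 2)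
    ((measurable_DlW C s s' j x).pow_const 2)
    (fun n ω => el_sq_bound (abs_En_le C x n s s' j ω))
    (fun ω => el_sq_bound (abs_DlW_le C s s' j x ω)) ?_
  intro τ
  by_cases hc : Cw s s' τ j
  · set T := tm τ j with hT
    have hsT : s ≤ T := hc.2.1
    have hstg : j.1 ∈ stg s s' := mem_stg_of_window hc.1 hc.2.1 hc.2.2
    have hl1 := lim_states (C := C) (An_mono C (x := x) hsT τ) (An_iUnion C (x := x) hsT τ) (Sq_le τ T)
    have hmono2 : Monotone fun n => insert j (An C x n s τ T) := fun n m hnm =>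
      Set.insert_subset_insert (An_mono C (x := x) hsT τ hnm)
    have hU2 : ⋃ n, insert j (An C x n s τ T) = insert j (Sq τ T) := by
      rw [← An_iUnion C (x := x) hsT τ]
      ext i
      simp only [Set.mem_iUnion, Set.mem_insert_iff]
      constructor
      · rintro ⟨n, h | h⟩
        · exact Or.inl h
        · exact Or.inr ⟨n, h⟩
      · rintro (h | ⟨n, h⟩)
        · exact ⟨0, Or.inl h⟩
        · exact ⟨n, Or.inr h⟩
    have hbd2 : ∀ i ∈ insert j (Sq τ T), i.1 ≤ max (LT T) j.1 := by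
      intro i hi
      rcases hi with rfl | hi
      · exact le_max_right _ _
      · exact (Sq_le τ T i hi).trans (le_max_left _ _)
    have hl2 := lim_states (C := C) hmono2 hU2 hbd2
    filter_upwards [hl1, hl2] with ω h1 h2
    have hlim : Tendsto (fun n => Dl C (An C x n s τ T) j x ω ^ 2) atTop
        (𝓝 (Dl C (Sq τ T) j x ω ^ 2)) := ((h2.1 x).sub (h1.1 x)).pow 2
    have hev : ∀ᶠ n in atTop, Dl C (An C x n s τ T) j x ω ^ 2 = En C x n s s' j (setL τ ω) ^ 2 := by
      filter_upwards [eventually_ge_atTop (C.G.dist j.2 x)] with n hn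
      rw [En_setL, if_pos ⟨(mem_In C).2 ⟨hstg, hn⟩, hc⟩]
    have hG : DlW C s s' j x (setL τ ω) = Dl C (Sq τ T) j x ω := by
      rw [DlW_setL, if_pos hc]
    rw [hG]
    exact hlim.congr' hev
  · refine ae_of_all _ fun ω => ?_
    have h1 : ∀ n, En C x n s s' j (setL τ ω) ^ 2 = 0 := by
      intro n
      rw [En_setL, if_neg (fun h => hc h.2)]
      simp
    have h2 : DlW C s s' j x (setL τ ω) ^ 2 = 0 := by
      rw [DlW_setL, if_neg hc]
      simp
    simp only [h1, h2]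
    exact tendsto_const_nhds

/-- the domination profile -/
def Dm (w₀ : ℝ) (x : V) (s s' : ℝ) (j : Stp V) : ℝ :=
  if j.1 ∈ stg s s' then C.θ ^ (2 * C.G.dist j.2 x) * (1 - w₀) ^ C.G.dist j.2 x else 0

/-- the fiber second moment of the covariance at time `T` in the window state -/
def esXi (x : V) (n : ℕ) (s : ℝ) (j : Stp V) (τ : Lab V) (T : ℝ) : ℝ :=
  if s ≤ T then ∫ ω, CA C (An C x n s τ T) x j.2 ω ^ 2 ∂(PP V) else 0

lemma es_CA_sq_le (x u : V) (A : Set (Stp V)) (ω : Om V) : CA C A x u ω ^ 2 ≤ 1 := by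
  have := abs_CA_le C A x u ω
  nlinarith [sq_abs (CA C A x u ω), abs_nonneg (CA C A x u ω)]

lemma esXi_nonneg (x : V) (n : ℕ) (s : ℝ) (j : Stp V) (τ : Lab V) (T : ℝ) :
    0 ≤ esXi C x n s j τ T := by
  unfold esXi
  split_ifs
  · exact integral_nonneg fun ω => sq_nonneg _
  · exact le_rfl

lemma esXi_le_one (x : V) (n : ℕ) (s : ℝ) (j : Stp V) (τ : Lab V) (T : ℝ) :
    esXi C x n s j τ T ≤ 1 := by
  unfold esXi
  split_ifs
  · calc ∫ ω, CA C (An C x n s τ T) x j.2 ω ^ 2 ∂(PP V) ≤ ∫ _ω, (1 : ℝ) ∂(PP V) :=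
          integral_mono_of_nonneg (Eventually.of_forall fun ω => sq_nonneg _)
            (integrable_const _) (Eventually.of_forall fun ω => es_CA_sq_le C _ _ _ ω)
      _ = 1 := by simp
  · exact zero_le_one

lemma es_measF (x : V) (n : ℕ) (s T : ℝ) (j : Stp V) :
    Measurable fun ω : Om V => CA C (An C x n s (lab ω.2) T) x j.2 ω ^ 2 :=
  (measurable_CA (LS_An x n s T) (fun w => An_le C (lab w)) x j.2).pow_const 2

lemma measurable_esXi_tm (x : V) (n : ℕ) (s : ℝ) (j : Stp V) :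
    Measurable (fun τ : Lab V => esXi C x n s j τ (tm τ j)) := by
  have hF : Measurable fun ω : Om V =>
      CA C (An C x n s (lab ω.2) (tm (lab ω.2) j)) x j.2 ω ^ 2 :=
    (measurable_CA (LS_An_tm x n s j) (fun w => An_tm_le (lab w) j) x j.2).pow_const 2
  refine Measurable.ite (measurableSet_le measurable_const (measurable_tm j)) ?_ measurable_const
  exact measurable_fiber_integral hF

lemma measurable_esXi (x : V) (n : ℕ) (s : ℝ) (j : Stp V) (T : ℝ) :
    Measurable (fun τ : Lab V => esXi C x n s j τ T) := by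
  by_cases hT : s ≤ T
  · simp only [esXi, if_pos hT]
    exact measurable_fiber_integral (es_measF C x n s T j)
  · simp only [esXi, if_neg hT]
    exact measurable_const

/-- the state at time `T` does not see the label of `j` when `j` has not fired -/
lemma esXi_const {x : V} {n : ℕ} {s : ℝ} {j : Stp V} (hdn : C.G.dist j.2 x ≤ n)
    (τ : Lab V) (T x₁ x₂ : ℝ) (h₁ : ¬(x₁ < 0 ∧ tm (Function.update τ j x₁) j < T))
    (h₂ : ¬(x₂ < 0 ∧ tm (Function.update τ j x₂) j < T)) :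
    esXi C x n s j (Function.update τ j x₁) T = esXi C x n s j (Function.update τ j x₂) T := by
  have hA : An C x n s (Function.update τ j x₁) T = An C x n s (Function.update τ j x₂) T := by
    ext i
    rw [mem_An C, mem_An C]
    by_cases hij : i = j
    · subst hij
      simp only [Function.update_self, if_pos hdn]
      constructor
      · intro h
        exact absurd h h₁
      · intro h
        exact absurd h h₂
    · have htm : ∀ y, tm (Function.update τ j y) i = tm τ i := fun y => by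
        simp [tm, Function.update_of_ne hij]
      simp only [Function.update_of_ne hij, htm]
  unfold esXi
  rw [hA]

/-- the pointwise bound on the jump -/
lemma es_jump_le {A : Set (Stp V)} {L : ℤ} (hAL : ∀ i ∈ A, i.1 ≤ L) {j : Stp V} (hjA : j ∉ A)
    (hjL : j.1 ≤ L) (x : V) :
    ∀ᵐ ω ∂(PP V), Dl C A j x ω ^ 2 ≤ CA C A x j.2 ω ^ 2 := by
  filter_upwards [Dl_formula C hAL hjA hjL x] with ω hω
  rw [hω]
  have he0 : 0 < eps j.1 := eps_pos _
  have he1 : eps j.1 ≤ 1 / 2 := eps_le _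
  have hm : |MA C A j.2 ω| ≤ 1 := (abs_mag_lt C _ _).le
  have hcB : |eps j.1 * MA C A j.2 ω| ≤ 1 / 2 := by
    rw [abs_mul, abs_of_pos he0]
    calc eps j.1 * |MA C A j.2 ω| ≤ 1 / 2 * 1 :=
          mul_le_mul he1 hm (abs_nonneg _) (by norm_num)
      _ = 1 / 2 := by norm_num
  have hgg := abs_gg_le hcB (Tc (eps j.1 * MA C A j.2 ω) (yy C j ω))
  generalize gg (Tc (eps j.1 * MA C A j.2 ω) (yy C j ω)) (eps j.1 * MA C A j.2 ω) = G at hgg ⊢
  have hG2 : G ^ 2 ≤ 4 := by nlinarith [sq_abs G, abs_nonneg G]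
  have he2 : eps j.1 ^ 2 ≤ 1 / 4 := by nlinarith
  have h3 : (eps j.1 * G) ^ 2 ≤ 1 := by
    rw [mul_pow]
    calc eps j.1 ^ 2 * G ^ 2 ≤ 1 / 4 * 4 :=
          mul_le_mul he2 hG2 (sq_nonneg _) (by norm_num)
      _ = 1 := by norm_num
  rw [mul_pow]
  nlinarith [sq_nonneg (CA C A x j.2 ω)]

/-- the fiber bound -/
lemma es_fiber {x : V} {n : ℕ} {s s' : ℝ} {j : Stp V} (hIn : j ∈ In C x n s s') (τ : Lab V) :
    ∫ ω, En C x n s s' j (setL τ ω) ^ 2 ∂(PP V) ≤
      if τ j < 0 ∧ s ≤ tm τ j ∧ tm τ j < s' then esXi C x n s j τ (tm τ j) else 0 := by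
  have hdn := ((mem_In C).1 hIn).2
  by_cases hCw : τ j < 0 ∧ s ≤ tm τ j ∧ tm τ j < s'
  · rw [if_pos hCw]
    have hΞval : esXi C x n s j τ (tm τ j) =
        ∫ ω, CA C (An C x n s τ (tm τ j)) x j.2 ω ^ 2 ∂(PP V) := if_pos hCw.2.1
    rw [hΞval]
    have hAL : ∀ i ∈ An C x n s τ (tm τ j), i.1 ≤ Lj s j := An_tm_le τ j
    have hjA : j ∉ An C x n s τ (tm τ j) := by
      intro hmem
      have h1 := ((mem_An C).1 hmem).2
      rw [if_pos hdn] at h1
      exact lt_irrefl _ h1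
    have hCAm : Measurable fun ω => CA C (An C x n s τ (tm τ j)) x j.2 ω ^ 2 :=
      (measurable_CA (A := fun _ => An C x n s τ (tm τ j)) (fun _ => MeasurableSet.const _)
        (fun _ => hAL) x j.2).pow_const 2
    have hCAi : Integrable (fun ω => CA C (An C x n s τ (tm τ j)) x j.2 ω ^ 2) (PP V) :=
      Integrable.of_bound hCAm.aestronglyMeasurable 1 (Eventually.of_forall fun ω => by
        rw [Real.norm_of_nonneg (sq_nonneg _)]
        exact es_CA_sq_le C _ _ _ ω)
    refine integral_mono_of_nonneg (Eventually.of_forall fun ω => sq_nonneg _) hCAi ?_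
    filter_upwards [es_jump_le C hAL hjA (le_Lj s j) x] with ω hω
    show En C x n s s' j (setL τ ω) ^ 2 ≤ CA C (An C x n s τ (tm τ j)) x j.2 ω ^ 2
    rw [En_setL, if_pos ⟨hIn, hCw⟩]
    exact hω
  · rw [if_neg hCw]
    have h0 : ∀ ω, En C x n s s' j (setL τ ω) = 0 := fun ω => by
      rw [En_setL, if_neg (fun h => hCw h.2)]
    simp only [h0]
    simp

lemma es_step1 {x : V} {n : ℕ} {s s' : ℝ} {j : Stp V} (hIn : j ∈ In C x n s s') :
    ∫ ω, En C x n s s' j ω ^ 2 ∂(PP V) ≤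
      ∫ τ, (if τ j < 0 ∧ s ≤ tm τ j ∧ tm τ j < s' then esXi C x n s j τ (tm τ j) else 0) ∂(PL V) := by
  have hEnm : Measurable fun ω => En C x n s s' j ω ^ 2 :=
    (measurable_En C x n s s' j).pow_const 2
  have hEnB : ∀ ω, |En C x n s s' j ω ^ 2| ≤ 4 := fun ω => by
    rw [abs_of_nonneg (sq_nonneg _)]
    exact sq_le_four (abs_En_le C x n s s' j ω)
  have hgm : Measurable fun τ : Lab V =>
      if τ j < 0 ∧ s ≤ tm τ j ∧ tm τ j < s' then esXi C x n s j τ (tm τ j) else 0 := by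
    refine Measurable.ite ?_ (measurable_esXi_tm C x n s j) measurable_const
    exact (measurableSet_lt (measurable_pi_apply j) measurable_const).inter
      ((measurableSet_le measurable_const (measurable_tm j)).inter
        (measurableSet_lt (measurable_tm j) measurable_const))
  have hgi : Integrable (fun τ : Lab V =>
      if τ j < 0 ∧ s ≤ tm τ j ∧ tm τ j < s' then esXi C x n s j τ (tm τ j) else 0) (PL V) := by
    refine Integrable.of_bound hgm.aestronglyMeasurable 1 (Eventually.of_forall fun τ => ?_)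
    split_ifs
    · rw [Real.norm_of_nonneg (esXi_nonneg C _ _ _ _ _ _)]
      exact esXi_le_one C _ _ _ _ _ _
    · simp
  rw [integral_fiber hEnm hEnB]
  refine integral_mono_of_nonneg (Eventually.of_forall fun τ => ?_) hgi
    (Eventually.of_forall (es_fiber C hIn))
  exact integral_nonneg fun ω => sq_nonneg _

/-- the second moment of the covariance at a window state, averaged over the labels -/
lemma es_int_le {c : ℝ}
    (hpeel : ∀ (s T : ℝ) (p : V → ℝ), (∀ v, s ≤ p v) → (∀ v, p v ≤ T) →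
      ∀ (a : ℕ → V), Chain C a → ∀ n : ℕ,
        ∫ ω, ∏ i ∈ range n, G4 C (zl C (fld C (Sp (lab ω.2) p) ω) (a (i + 1)) (a i)) ∂(PP V)
          ≤ (1 - c * min 1 (Real.rpow 2 s)) ^ n)
    (x : V) (n : ℕ) {s T : ℝ} (j : Stp V) (hsT : s ≤ T) :
    ∫ τ, esXi C x n s j τ T ∂(PL V) ≤
      C.θ ^ (2 * C.G.dist j.2 x) * (1 - c * min 1 (Real.rpow 2 s)) ^ C.G.dist j.2 x := by
  have h2 : ∫ τ, esXi C x n s j τ T ∂(PL V) =
      ∫ ω, CA C (An C x n s (lab ω.2) T) x j.2 ω ^ 2 ∂(PP V) := by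
    have hB : ∀ ω : Om V, |CA C (An C x n s (lab ω.2) T) x j.2 ω ^ 2| ≤ 1 := fun ω => by
      rw [abs_of_nonneg (sq_nonneg _)]
      exact es_CA_sq_le C _ _ _ ω
    rw [integral_fiber (es_measF C x n s T j) hB]
    simp only [esXi, if_pos hsT]
    rfl
  rw [h2]
  exact CA_sq_int_le C (c := c) hpeel (s := s) (T := T) (p := Wt C x n s T)
    (fun v => by
      unfold Wt
      split_ifs
      · exact hsT
      · exact le_rfl)
    (fun v => by
      unfold Wt
      split_ifs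
      · exact le_rfl
      · exact hsT) x j.2

lemma es_window {ρ : ℝ → ℝ} {W : Set ℝ} {l M : ℝ} (hM : 0 ≤ M)
    (hWsub : W ⊆ Set.Ico l (l + 1 / 2)) (hρM : ∀ T ∈ W, ‖ρ T‖ ≤ 2 * M) :
    ∫ T in W, ρ T ≤ M := by
  have hIco : volume (Set.Ico l (l + 1 / 2)) = ENNReal.ofReal (1 / 2) := by
    rw [Real.volume_Ico]
    congr 1
    ring
  have hWfin : volume W < ⊤ :=
    lt_of_le_of_lt (measure_mono hWsub) (by rw [hIco]; exact ENNReal.ofReal_lt_top)
  have hWreal : volume.real W ≤ 1 / 2 := by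
    have h1 : volume.real W ≤ volume.real (Set.Ico l (l + 1 / 2)) :=
      measureReal_mono hWsub (by rw [hIco]; exact ENNReal.ofReal_ne_top)
    have h2 : volume.real (Set.Ico l (l + 1 / 2)) = 1 / 2 := by
      simp only [Measure.real, hIco]
      exact ENNReal.toReal_ofReal (by norm_num)
    linarith
  have h5 := norm_setIntegral_le_of_norm_le_const hWfin hρM
  have h6 : ∫ T in W, ρ T ≤ ‖∫ T in W, ρ T‖ := Real.le_norm_self _
  have h7 : 2 * M * volume.real W ≤ 2 * M * (1 / 2) :=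
    mul_le_mul_of_nonneg_left hWreal (by linarith)
  linarith

/-- domination: fiberwise `∫ En(setL τ ·)^2 ≤ 4 ε^2 Ξ τ (tm τ j)` on `Cw` (`Dl_formula`, `abs_gg_le`;
`j ∉ An` because `Wt ≤ T`) with `Ξ τ T := if s ≤ T then ∫ CA (An C x n s τ T) x j.2 ^ 2 else 0`;
then `palm` and `CA_sq_int_le` (with the `c` of `peel`, profile `Wt`). -/
theorem En_sq_le : ∃ c : ℝ, 0 < c ∧ c ≤ 1 / 2 ∧ ∀ (s s' : ℝ), s ≤ s' → ∀ (x : V) (n : ℕ) (j : Stp V),
    ∫ ω, En C x n s s' j ω ^ 2 ∂(PP V) ≤ Dm C (c * min 1 (Real.rpow 2 s)) x s s' j := by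
  obtain ⟨c, hc0, hc1, hpeel⟩ := peel C
  refine ⟨c, hc0, hc1, ?_⟩
  intro s s' _ x n j
  have hmin0 : 0 < min 1 (Real.rpow 2 s) :=
    lt_min one_pos (Real.rpow_pos_of_pos two_pos _)
  have hmin1 : min 1 (Real.rpow 2 s) ≤ 1 := min_le_left _ _
  have hw₀0 : 0 ≤ 1 - c * min 1 (Real.rpow 2 s) := by nlinarith
  have hθ := C.hθ0
  by_cases hIn : j ∈ In C x n s s'
  swap
  · have h0 : ∀ ω, En C x n s s' j ω = 0 := fun ω => by
      unfold En
      rw [if_neg (fun h => hIn h.1)]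
    have hDm : 0 ≤ Dm C (c * min 1 (Real.rpow 2 s)) x s s' j := by
      unfold Dm
      split_ifs
      · positivity
      · exact le_rfl
    simp only [h0]
    simpa using hDm
  obtain ⟨hstg, hdn⟩ := (mem_In C).1 hIn
  have hDm : Dm C (c * min 1 (Real.rpow 2 s)) x s s' j =
      C.θ ^ (2 * C.G.dist j.2 x) * (1 - c * min 1 (Real.rpow 2 s)) ^ C.G.dist j.2 x := by
    unfold Dm
    rw [if_pos hstg]
  rw [hDm]
  have hM0 : 0 ≤ C.θ ^ (2 * C.G.dist j.2 x) * (1 - c * min 1 (Real.rpow 2 s)) ^ C.G.dist j.2 x := by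
    positivity
  obtain ⟨ρ, -, hρeq, hρb⟩ := palm j s s' (esXi C x n s j) (esXi_nonneg C x n s j)
    (esXi_le_one C x n s j) (measurable_esXi_tm C x n s j).aestronglyMeasurable
    (fun T _ => (measurable_esXi C x n s j T).aestronglyMeasurable) (esXi_const C hdn)
  refine (es_step1 C hIn).trans ?_
  rw [hρeq]
  refine es_window hM0 Set.inter_subset_right ?_
  intro T hT
  obtain ⟨h0, h1⟩ := hρb T hT
  rw [Real.norm_of_nonneg h0]
  refine h1.trans ?_
  have h3 := es_int_le C hpeel x n j (T := T) (s := s) hT.1.1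
  linarith

/-- summability of the profile: `sum_level_le` and the geometric series -/
theorem summable_Dm {w₀ : ℝ} (h0 : 0 < w₀) (h1 : w₀ ≤ 1) (x : V) (s s' : ℝ) :
    Summable (Dm C w₀ x s s') := by
  have hθ := C.hθ0
  have hr : 0 ≤ 1 - w₀ := by linarith
  have hDm0 : ∀ j, 0 ≤ Dm C w₀ x s s' j := by
    intro j
    unfold Dm
    split_ifs
    · positivity
    · exact le_refl _
  refine summable_of_sum_le hDm0 (c := ((stg s s').card : ℝ) * (2 * (1 / w₀))) ?_
  intro J
  set U := J.image Prod.snd with hU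
  set M := U.sup (fun u => C.G.dist u x) with hM
  have hgeo : ∑ m ∈ range (M + 1), (1 - w₀) ^ m ≤ 1 / w₀ := by
    rw [le_div_iff₀ h0]
    have h2 := geom_sum_mul_neg (1 - w₀) (M + 1)
    have h3 : 0 ≤ (1 - w₀) ^ (M + 1) := pow_nonneg hr _
    have h4 : (1 : ℝ) - (1 - w₀) = w₀ := by ring
    rw [h4] at h2
    linarith
  have hUb : ∑ u ∈ U, C.θ ^ (2 * C.G.dist u x) * (1 - w₀) ^ C.G.dist u x ≤ 2 * (1 / w₀) := by
    have h2 := sum_level_le C x U (fun m => (1 - w₀) ^ m) (fun m => pow_nonneg hr m) M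
      (fun u hu => Finset.le_sup (f := fun u => C.G.dist u x) hu)
    refine h2.trans ?_
    linarith
  have hfilter : ∑ j ∈ J, Dm C w₀ x s s' j =
      ∑ j ∈ J.filter (fun j => j.1 ∈ stg s s'), Dm C w₀ x s s' j := by
    refine (Finset.sum_filter_of_ne fun j _ hne => ?_).symm
    by_contra hj
    apply hne
    unfold Dm
    rw [if_neg hj]
  have hsub : J.filter (fun j => j.1 ∈ stg s s') ⊆ stg s s' ×ˢ U := by
    intro j hj
    rw [Finset.mem_filter] at hj
    rw [Finset.mem_product]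
    exact ⟨hj.2, Finset.mem_image_of_mem _ hj.1⟩
  calc ∑ j ∈ J, Dm C w₀ x s s' j
      = ∑ j ∈ J.filter (fun j => j.1 ∈ stg s s'), Dm C w₀ x s s' j := hfilter
    _ ≤ ∑ j ∈ stg s s' ×ˢ U, Dm C w₀ x s s' j :=
        Finset.sum_le_sum_of_subset_of_nonneg hsub fun j _ _ => hDm0 j
    _ = ∑ l ∈ stg s s', ∑ u ∈ U, Dm C w₀ x s s' (l, u) := Finset.sum_product _ _ _
    _ ≤ ∑ _l ∈ stg s s', 2 * (1 / w₀) := by
        refine Finset.sum_le_sum fun l hl => ?_
        refine le_trans (le_of_eq ?_) hUb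
        refine Finset.sum_congr rfl fun u _ => ?_
        unfold Dm
        rw [if_pos hl]
    _ = ((stg s s').card : ℝ) * (2 * (1 / w₀)) := by
        rw [Finset.sum_const, nsmul_eq_mul]

/-- the energy identity: the window increment is the orthogonal sum of the jumps -/
theorem energy {s s' : ℝ} (h : s ≤ s') (x : V) :
    HasSum (fun j : Stp V => ∫ ω, DlW C s s' j x ω ^ 2 ∂(PP V))
      (∫ ω, (Ms C s' x ω - Ms C s x ω) ^ 2 ∂(PP V)) := by
  obtain ⟨c, hc, hc2, hEn⟩ := En_sq_le C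
  have hm : 0 < min 1 (Real.rpow 2 s) :=
    lt_min one_pos (Real.rpow_pos_of_pos (by norm_num) s)
  have hm1 : min 1 (Real.rpow 2 s) ≤ 1 := min_le_left _ _
  set w₀ := c * min 1 (Real.rpow 2 s) with hw₀
  have h0 : 0 < w₀ := mul_pos hc hm
  have h1 : w₀ ≤ 1 := by nlinarith
  have hsum := summable_Dm C h0 h1 x s s'
  have hbound : ∀ n j, ‖∫ ω, En C x n s s' j ω ^ 2 ∂(PP V)‖ ≤ Dm C w₀ x s s' j := by
    intro n j
    rw [Real.norm_of_nonneg (integral_nonneg fun ω => sq_nonneg _)]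
    exact hEn s s' h x n j
  have hlim := fun j => En_limit C h x j
  have hT := tendsto_tsum_of_dominated_convergence hsum hlim (Eventually.of_forall hbound)
  have hf : ∀ n, ∑' j, ∫ ω, En C x n s s' j ω ^ 2 ∂(PP V) =
      ∫ ω, (MA C (An C x n s (lab ω.2) s') x ω - Ms C s x ω) ^ 2 ∂(PP V) := by
    intro n
    rw [tsum_eq_sum (s := In C x n s s') (fun j hj => ?_), ball_energy_whole C h]
    have h0 : ∀ ω, En C x n s s' j ω = 0 := by
      intro ω
      unfold En
      rw [if_neg (fun h => hj h.1)]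
    simp [h0]
  simp_rw [hf] at hT
  have huniq := tendsto_nhds_unique hT (whole_limit C h x)
  have hsumg : Summable fun j : Stp V => ∫ ω, DlW C s s' j x ω ^ 2 ∂(PP V) :=
    Summable.of_nonneg_of_le (fun j => integral_nonneg fun _ => sq_nonneg _)
      (fun j => le_of_tendsto' (hlim j) (fun n => hEn s s' h x n j)) hsum
  rw [← huniq]
  exact hsumg.hasSum

end Vale.Agent.Lib.P161.Crit
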