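import Vale.Agent.Lib.P161.Crit.Top
import Vale.Agent.Lib.P161.Code
import Vale.Agent.Lib.P161.Final

/-!
From the vanishing distance to the factor of iid. Statements fixed; add lemmas freely.
-/

open MeasureTheory Filter Topology Finset

noncomputable section
namespace Vale.Agent.Lib.P161.Crit

open scoped Classical
open Vale.Agent.Lib.P161

variable {V : Type} (C : CT V)

/-! ### invariance under the change of labels -/

private lemma fin_yy_setL' (τ : Lab V) (ω : Om V) (j : Stp V) : yy C j (setL τ ω) = yy C j ω := rfl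

private lemma fin_fld_setL' (τ : Lab V) (A : Set (Stp V)) (ω : Om V) :
    fld C A (setL τ ω) = fld C A ω := rfl

private lemma fin_MA_setL' (τ : Lab V) (A : Set (Stp V)) (x : V) (ω : Om V) :
    MA C A x (setL τ ω) = MA C A x ω := rfl

private lemma fin_lab_setL' (τ : Lab V) (ω : Om V) : lab (setL τ ω).2 = τ := rfl

/-- zero distance gives almost sure equality -/
private lemma fin_ae_eq_of_dist_zero {Ω : Type} {m m0 : MeasurableSpace Ω} {μ : Measure Ω}
    [IsProbabilityMeasure μ] (hm : m ≤ m0) {Z : Ω → ℝ} {B : ℝ} (hZm : Measurable[m0] Z)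
    (hZ : ∀ ω, |Z ω| ≤ B) (h0 : ∫ ω, (Z ω - μ[Z | m] ω) ^ 2 ∂μ = 0) : Z =ᵐ[μ] μ[Z | m] := by
  have hEB : ∀ᵐ ω ∂μ, |μ[Z | m] ω| ≤ B := ce_abs_le hm (Eventually.of_forall hZ)
  have hEm : StronglyMeasurable (μ[Z | m]) := stronglyMeasurable_condExp.mono hm
  have hi : Integrable (fun ω => (Z ω - μ[Z | m] ω) ^ 2) μ := by
    refine Integrable.of_bound ((hZm.stronglyMeasurable.sub hEm).pow 2).aestronglyMeasurable
      ((2 * B) ^ 2) ?_
    filter_upwards [hEB] with ω hω
    rw [Real.norm_eq_abs, abs_pow]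
    have h3 : |Z ω - μ[Z | m] ω| ≤ 2 * B := by
      calc |Z ω - μ[Z | m] ω| ≤ |Z ω| + |μ[Z | m] ω| := abs_sub _ _
        _ ≤ 2 * B := by linarith [hZ ω]
    gcongr
  have h1 := (integral_eq_zero_iff_of_nonneg (fun ω => sq_nonneg _) hi).1 h0
  filter_upwards [h1] with ω hω
  have h2 : (Z ω - μ[Z | m] ω) ^ 2 = 0 := hω
  have h3 : Z ω - μ[Z | m] ω = 0 := by simpa using h2
  linarith

/-- the fiber distance vanishes for almost all labels at a fixed time -/
private lemma fin_ae_Dfib_fixed (T : ℝ) (x : V) : ∀ᵐ τ ∂(PL V),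
    ∫ ω, (MA C (Sq τ T) x ω - (PP V)[MA C (Sq τ T) x | GFa C τ] ω) ^ 2 ∂(PP V) = 0 := by
  have hZ : Measurable (Ms C T x) := measurable_Ms T x
  have hB : ∀ ω, |Ms C T x ω| ≤ 1 := abs_Ms_le C T x
  have h0 : ∫ ω, (Ms C T x ω - (PP V)[Ms C T x | GG C] ω) ^ 2 ∂(PP V) = 0 := Dd_zero C T x
  have he := fin_ae_eq_of_dist_zero (GG_le C) hZ hB h0
  have hmp := measurePreserving_fiber (V := V)
  have h1 := hmp.quasiMeasurePreserving.ae he
  have h2 := Measure.ae_ae_of_ae_prod h1
  filter_upwards [h2, slice C hZ hB] with τ h3 h4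
  have h5 : (fun ω => Ms C T x (setL τ ω)) = MA C (Sq τ T) x := rfl
  rw [h5] at h4
  refine integral_eq_zero_of_ae ?_
  filter_upwards [h3, h4] with ω h6 h7
  have h8 : MA C (Sq τ T) x ω = Ms C T x (setL τ ω) := rfl
  simp only [Pi.zero_apply]
  rw [← h7, h8, h6]
  simp

/-- the fiber distance vanishes for almost all labels at all times -/
private lemma fin_ae_Dfib_all : ∀ᵐ τ ∂(PL V), ∀ (T : ℝ) (x : V),
    ∫ ω, (MA C (Sq τ T) x ω - (PP V)[MA C (Sq τ T) x | GFa C τ] ω) ^ 2 ∂(PP V) = 0 := by
  haveI := countable_V C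
  have h1 : ∀ᵐ τ ∂(PL V), ∀ (q : ℚ) (x : V),
      ∫ ω, (MA C (Sq τ (q : ℝ)) x ω - (PP V)[MA C (Sq τ (q : ℝ)) x | GFa C τ] ω) ^ 2 ∂(PP V) = 0 :=
    ae_all_iff.2 fun q => ae_all_iff.2 fun x => fin_ae_Dfib_fixed C q x
  filter_upwards [h1, ae_good C] with τ h2 h3 T x
  obtain ⟨q, hq⟩ := exists_rat_gt T
  have h4 := Dfib_mono C h3 hq.le x
  rw [h2 q x] at h4
  exact le_antisymm h4 (integral_nonneg fun ω => sq_nonneg _)

/-- the bound for the state before step `j` -/
private lemma fin_pre_le (τ : Lab V) (j i : Stp V) (hi : i ∈ Sq τ (tm τ j)) : i.1 ≤ j.1 := by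
  have h1 : tm τ i < tm τ j := hi.2
  unfold tm at h1
  have h2 := cl_mem (τ i)
  have h3 := cl_mem (τ j)
  have h4 : (i.1 : ℝ) < (j.1 : ℝ) + 1 := by
    have := h2.1
    have := h3.2
    linarith
  have h5 : i.1 < j.1 + 1 := by exact_mod_cast h4
  omega

lemma fin_measurable_Sf_comp {α : Type} [MeasurableSpace α] {f g : α → ℝ} (hf : Measurable f)
    (hg : Measurable g) : Measurable fun a => Sf (f a) (g a) := by
  unfold Sf
  have h1 : Measurable fun a => cl (f a) := measurable_cl.comp hf
  exact (hg.add (measurable_const.mul h1)).div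
    (measurable_const.add (Measurable.sqrt
      ((measurable_const.add (hg.pow_const 2)).add ((measurable_const.mul hg).mul h1))))

/-- the observation of an active step is a function of the labels and innovations -/
theorem y_factor (j : Stp V) : ∃ H : Lab V × (Stp V → ℝ) → ℝ, Measurable H ∧
    ∀ᵐ ω ∂(PP V), (if lab ω.2 j < 0 then yy C j ω else 0) = H (kap C ω) := by
  -- the magnetisation just before the step
  set M : Om V → ℝ := fun ω => MA C (Sq (lab ω.2) (tm (lab ω.2) j)) j.2 ω with hM
  have hMm : Measurable M :=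
    measurable_MA (A := fun w => Sq (lab w) (tm (lab w) j)) (LS_pre j)
      (fun w i hi => fin_pre_le (lab w) j i hi) j.2
  have hMB : ∀ ω, |M ω| ≤ 1 := fun ω => (abs_mag_lt C _ _).le
  set h := (PP V)[M | GG C] with hh
  have hhs : StronglyMeasurable[GG C] h := stronglyMeasurable_condExp
  have hhm : Measurable h := (hhs.mono (GG_le C)).measurable
  -- `M` is a.e. `h`
  have hfib : ∀ᵐ τ ∂(PL V), ∀ᵐ ω ∂(PP V), M (setL τ ω) = h (setL τ ω) := by
    filter_upwards [fin_ae_Dfib_all C, slice C hMm hMB] with τ h1 h2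
    have h3 : (fun ω => M (setL τ ω)) = MA C (Sq τ (tm τ j)) j.2 := rfl
    rw [h3] at h2
    have h4 := fin_ae_eq_of_dist_zero (μ := PP V) (GFa_le C τ)
      (Z := MA C (Sq τ (tm τ j)) j.2) (B := 1)
      (measurable_MA (A := fun _ => Sq τ (tm τ j)) (fun i => MeasurableSet.const _)
        (fun w i hi => fin_pre_le τ j i hi) j.2)
      (fun ω => (abs_mag_lt C _ _).le) (h1 _ _)
    filter_upwards [h2, h4] with ω h5 h6
    calc M (setL τ ω) = MA C (Sq τ (tm τ j)) j.2 ω := rfl
      _ = _ := h6
      _ = h (setL τ ω) := h5.symm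
  have hall : ∀ᵐ ω ∂(PP V), M ω = h ω := by
    have hS : MeasurableSet {ω : Om V | M ω = h ω} := measurableSet_eq_fun hMm hhm
    have hmp := measurePreserving_fiber (V := V)
    rw [← hmp.map_eq]
    rw [ae_map_iff hmp.measurable.aemeasurable hS]
    exact (Measure.ae_prod_iff_ae_ae (p := fun x : Lab V × Om V => M (setL x.1 x.2) = h (setL x.1 x.2))
      (hmp.measurable hS)).2 hfib
  -- Doob-Dynkin
  obtain ⟨H₀, hH₀, hH₀e⟩ := Measurable.exists_eq_measurable_comp (f := kap C)
    (hhs.measurable)
  refine ⟨fun κ => if κ.1 j < 0 then Sf (κ.2 j) (eps j.1 * H₀ κ) else 0, ?_, ?_⟩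
  · refine Measurable.ite ?_ ?_ measurable_const
    · exact measurableSet_lt ((measurable_pi_apply j).comp measurable_fst) measurable_const
    · exact fin_measurable_Sf_comp ((measurable_pi_apply j).comp measurable_snd)
        (measurable_const.mul hH₀)
  · filter_upwards [hall] with ω hω
    have h1 : (kap C ω).1 j = lab ω.2 j := rfl
    have h2 : (kap C ω).2 j = Rw C j ω := rfl
    simp only [h1, h2]
    by_cases hneg : lab ω.2 j < 0
    · simp only [hneg, if_true]
      have h3 : Rw C j ω = Tc (eps j.1 * M ω) (yy C j ω) := by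
        simp only [Rw, hneg, if_true, Rf, hM]
      have h4 : H₀ (kap C ω) = M ω := by
        rw [hω]
        exact (congrFun hH₀e ω).symm
      rw [h3, h4]
      have h5 : |eps j.1 * M ω| ≤ 1 / 2 := by
        rw [abs_mul, abs_of_pos (eps_pos j.1)]
        calc eps j.1 * |M ω| ≤ eps j.1 * 1 :=
              mul_le_mul_of_nonneg_left (hMB ω) (eps_pos j.1).le
          _ ≤ 1 / 2 := by linarith [eps_le j.1]
      exact (Sf_Tc (ε := 1 / 2) (by norm_num) h5 (abs_yy_le C j ω)).symm
    · simp [hneg]

/-! ### the law of large numbers -/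

private lemma fin_eps_nat (ℓ : ℕ) : eps (ℓ : ℤ) = 1 / 2 := by
  unfold eps
  have h1 : (1 : ℝ) ≤ (2 : ℝ) ^ (ℓ : ℤ) := by
    rw [zpow_natCast]
    exact one_le_pow₀ (by norm_num)
  rw [min_eq_left h1]
  norm_num

/-- the summand of the readout -/
private def fin_gR (a b : ℝ) : ℝ := if a < 0 then Sf b (1 / 2) else 0

private def fin_XR (v : V) (ℓ : ℕ) (w : WW V) : ℝ :=
  fin_gR (w (.la ((ℓ : ℤ), v))) (w (.no ((ℓ : ℤ), v)))

private lemma fin_measurable_XR (v : V) (ℓ : ℕ) : Measurable (fin_XR v ℓ) :=
  Measurable.ite (measurableSet_lt (measurable_pi_apply _) measurable_const)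
    (fin_measurable_Sf_comp (measurable_pi_apply _) measurable_const) measurable_const

private lemma fin_abs_gR_le (a b : ℝ) : |fin_gR a b| ≤ 1 := by
  unfold fin_gR
  split_ifs
  · exact abs_Sf_le _ _
  · simp

private lemma fin_XR_indep (v : V) {i j : ℕ} (hij : i ≠ j) :
    ProbabilityTheory.IndepFun (fin_XR v i) (fin_XR v j) (PW V) := by
  refine indep_of_dependsOn (I := Ix V) (fin_measurable_XR v i) (fin_measurable_XR v j)
    (S := {.la ((i : ℤ), v), .no ((i : ℤ), v)}) (S' := {.la ((j : ℤ), v), .no ((j : ℤ), v)})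
    ?_ ?_ ?_
  · intro x y hxy
    simp only [fin_XR]
    rw [hxy _ (by simp), hxy _ (by simp)]
  · intro x y hxy
    simp only [fin_XR]
    rw [hxy _ (by simp), hxy _ (by simp)]
  · rw [Set.disjoint_left]
    intro k hk hk'
    simp only [Set.mem_insert_iff, Set.mem_singleton_iff] at hk hk'
    rcases hk with rfl | rfl <;> rcases hk' with h | h <;> simp_all

private lemma fin_XR_ident (v : V) (i : ℕ) :
    ProbabilityTheory.IdentDistrib (fin_XR v i) (fin_XR v 0) (PW V) (PW V) := by
  let e : Equiv.Perm (Ix V) := (Equiv.swap (.la ((i : ℤ), v)) (.la (((0 : ℕ) : ℤ), v))).trans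
    (Equiv.swap (.no ((i : ℤ), v)) (.no (((0 : ℕ) : ℤ), v)))
  have hmp : MeasurePreserving (fun w : WW V => fun k => w (e.symm k)) (PW V) (PW V) :=
    measurePreserving_perm e
  have he1 : e.symm (.la (((0 : ℕ) : ℤ), v)) = .la ((i : ℤ), v) := by
    simp only [e, Equiv.symm_trans_apply, Equiv.symm_swap]
    have h1 : Equiv.swap (Ix.no ((i : ℤ), v)) (Ix.no (((0 : ℕ) : ℤ), v)) (Ix.la (((0 : ℕ) : ℤ), v)) =
        Ix.la (((0 : ℕ) : ℤ), v) := Equiv.swap_apply_of_ne_of_ne (by simp) (by simp)
    rw [h1, Equiv.swap_apply_right]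
  have he2 : e.symm (.no (((0 : ℕ) : ℤ), v)) = .no ((i : ℤ), v) := by
    simp only [e, Equiv.symm_trans_apply, Equiv.symm_swap]
    have h1 : Equiv.swap (Ix.la ((i : ℤ), v)) (Ix.la (((0 : ℕ) : ℤ), v)) (Ix.no ((i : ℤ), v)) =
        Ix.no ((i : ℤ), v) := Equiv.swap_apply_of_ne_of_ne (by simp) (by simp)
    rw [Equiv.swap_apply_right, h1]
  have hX : fin_XR v i = fin_XR v 0 ∘ fun w k => w (e.symm k) := by
    funext w
    simp only [fin_XR, Function.comp_apply, he1, he2]
  refine ⟨(fin_measurable_XR v i).aemeasurable, (fin_measurable_XR v 0).aemeasurable, ?_⟩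
  rw [hX, ← Measure.map_map (fin_measurable_XR v 0) hmp.measurable, hmp.map_eq]

private lemma fin_integral_ind_neg : ∫ x, (if x < 0 then (1 : ℝ) else 0) ∂lam = 1 / 2 := by
  rw [integral_lam]
  have h1 : (fun t : ℝ => if t < 0 then (1 : ℝ) else 0) = (Set.Iio (0 : ℝ)).indicator 1 := by
    funext t
    simp [Set.indicator_apply]
  rw [h1, setIntegral_indicator measurableSet_Iio]
  have h2 : Set.Icc (-1 : ℝ) 1 ∩ Set.Iio 0 = Set.Ico (-1) 0 := by
    ext x
    simp only [Set.mem_inter_iff, Set.mem_Icc, Set.mem_Iio, Set.mem_Ico]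
    constructor
    · rintro ⟨⟨h3, _⟩, h5⟩
      exact ⟨h3, h5⟩
    · rintro ⟨h3, h5⟩
      exact ⟨⟨h3, by linarith⟩, h5⟩
  rw [h2]
  simp

private lemma fin_integral_Sf_half : ∫ t, Sf t (1 / 2) ∂lam = 1 / 6 := by
  have h1 := integral_Sf (ε := 1 / 2) (c := 1 / 2) (by norm_num) (by norm_num [abs_of_pos]) id
  simp only [id] at h1
  rw [h1, integral_lam]
  have h2 : ∫ t in Set.Icc (-1 : ℝ) 1, cl t * (1 + 1 / 2 * cl t) =
      ∫ t in Set.Icc (-1 : ℝ) 1, (t + (1 / 2) * t ^ 2) := by
    apply setIntegral_congr_fun measurableSet_Icc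
    intro t ht
    simp only [cl_of_mem ht]
    ring
  rw [h2, integral_Icc_eq_integral_Ioc, ← intervalIntegral.integral_of_le (by norm_num)]
  rw [intervalIntegral.integral_add (by apply Continuous.intervalIntegrable; fun_prop)
    (by apply Continuous.intervalIntegrable; fun_prop), intervalIntegral.integral_const_mul,
    integral_id, integral_pow]
  norm_num

private lemma fin_integral_coord {F : ℝ → ℝ} (hF : Measurable F) (i : Ix V) :
    ∫ w, F (w i) ∂(PW V) = ∫ x, F x ∂lam := by
  have hmp : MeasurePreserving (fun w : WW V => w i) (PW V) lam :=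
    measurePreserving_eval_infinitePi (fun _ : Ix V => lam) i
  have h1 := integral_map (μ := PW V) (φ := fun w : WW V => w i) hmp.measurable.aemeasurable
    (f := F) (by rw [hmp.map_eq]; exact hF.aestronglyMeasurable)
  rw [hmp.map_eq] at h1
  exact h1.symm

private lemma fin_XR_mean (v : V) : ∫ w, fin_XR v 0 w ∂(PW V) = 1 / 12 := by
  set f : WW V → ℝ := fun w => if w (.la (((0 : ℕ) : ℤ), v)) < 0 then (1 : ℝ) else 0 with hf
  set g : WW V → ℝ := fun w => Sf (w (.no (((0 : ℕ) : ℤ), v))) (1 / 2) with hg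
  have hfm : Measurable f := Measurable.ite
    (measurableSet_lt (measurable_pi_apply _) measurable_const) measurable_const measurable_const
  have hgm : Measurable g := fin_measurable_Sf_comp (measurable_pi_apply _) measurable_const
  have hind : ProbabilityTheory.IndepFun f g (PW V) := by
    refine indep_of_dependsOn (I := Ix V) hfm hgm
      (S := {.la (((0 : ℕ) : ℤ), v)}) (S' := {.no (((0 : ℕ) : ℤ), v)}) ?_ ?_ ?_
    · intro x y hxy
      simp only [hf]
      rw [hxy _ (by simp)]
    · intro x y hxy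
      simp only [hg]
      rw [hxy _ (by simp)]
    · rw [Set.disjoint_left]
      intro k hk hk'
      simp only [Set.mem_singleton_iff] at hk hk'
      rw [hk] at hk'
      simp at hk'
  have hX : fin_XR v 0 = f * g := by
    funext w
    simp only [fin_XR, fin_gR, Pi.mul_apply, hf, hg]
    split_ifs <;> simp
  rw [hX, hind.integral_mul_eq_mul_integral hfm.aestronglyMeasurable hgm.aestronglyMeasurable]
  have h1 : ∫ w, f w ∂(PW V) = 1 / 2 := by
    rw [← fin_integral_ind_neg]
    exact fin_integral_coord (F := fun x => if x < 0 then (1 : ℝ) else 0)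
      (Measurable.ite measurableSet_Iio measurable_const measurable_const) _
  have h2 : ∫ w, g w ∂(PW V) = 1 / 6 := by
    rw [← fin_integral_Sf_half]
    exact fin_integral_coord (F := fun x => Sf x (1 / 2))
      (fin_measurable_Sf_comp measurable_id measurable_const) _
  rw [h1, h2]
  norm_num

/-- the law of large numbers recovers the spin from the observations -/
theorem readout (v : V) : ∀ᵐ ω ∂(PP V), Tendsto
    (fun N : ℕ => (12 / (N : ℝ)) * ∑ ℓ ∈ range N,
      (if lab ω.2 ((ℓ : ℤ), v) < 0 then yy C ((ℓ : ℤ), v) ω else 0))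
    atTop (𝓝 (spin C ω v)) := by
  have hint : Integrable (fin_XR v 0) (PW V) :=
    Integrable.of_bound (fin_measurable_XR v 0).aestronglyMeasurable 1
      (Eventually.of_forall fun w => by
        rw [Real.norm_eq_abs]
        exact fin_abs_gR_le _ _)
  have hstrong := ProbabilityTheory.strong_law_ae_real (μ := PW V) (fin_XR v) hint
    (fun i j hij => fin_XR_indep v hij) (fin_XR_ident v)
  rw [fin_XR_mean] at hstrong
  have hlift : ∀ᵐ ω ∂(PP V), Tendsto (fun n : ℕ => (∑ i ∈ range n, fin_XR v i ω.2) / n) atTop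
      (𝓝 (1 / 12)) := by
    have := Measure.quasiMeasurePreserving_snd (μ := sM) (ν := PW V)
    exact this.ae hstrong
  filter_upwards [hlift] with ω hω
  have h1 := hω.const_mul (12 * spin C ω v)
  have h2 : (fun N : ℕ => (12 / (N : ℝ)) * ∑ ℓ ∈ range N,
      (if lab ω.2 ((ℓ : ℤ), v) < 0 then yy C ((ℓ : ℤ), v) ω else 0)) =
      fun n : ℕ => 12 * spin C ω v * ((∑ i ∈ range n, fin_XR v i ω.2) / n) := by
    funext N
    have h3 : ∀ ℓ ∈ range N, (if lab ω.2 ((ℓ : ℤ), v) < 0 then yy C ((ℓ : ℤ), v) ω else 0) =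
        spin C ω v * fin_XR v ℓ ω.2 := by
      intro ℓ _
      simp only [fin_XR, fin_gR, lab, yy, nz, fin_eps_nat]
      split_ifs <;> simp
    rw [Finset.sum_congr rfl h3, ← Finset.mul_sum]
    ring
  rw [h2]
  convert h1 using 2
  ring

/-- the spins are a function of the labels and innovations -/
theorem spin_factor : ∃ H : Lab V × (Stp V → ℝ) → V → Bool, Measurable H ∧
    ∀ᵐ ω ∂(PP V), ∀ v, spinOf (H (kap C ω) v) = spin C ω v := by
  haveI := countable_V C
  choose Hy hHm hHe using y_factor C
  set Rv : Lab V × (Stp V → ℝ) → V → ℝ := fun κ v =>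
    limsup (fun N : ℕ => (12 / (N : ℝ)) * ∑ ℓ ∈ range N, Hy ((ℓ : ℤ), v) κ) atTop with hRv
  have hRm : ∀ v, Measurable fun κ => Rv κ v := fun v =>
    Measurable.limsup fun N => measurable_const.mul (Finset.measurable_sum _ fun ℓ _ => hHm _)
  refine ⟨fun κ v => decide (0 < Rv κ v), ?_, ?_⟩
  · refine measurable_pi_iff.2 fun v => measurable_to_bool ?_
    have : (fun κ => decide (0 < Rv κ v)) ⁻¹' {true} = {κ | 0 < Rv κ v} := by
      ext κ
      simp
    rw [this]
    exact measurableSet_lt measurable_const (hRm v)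
  · have h1 : ∀ᵐ ω ∂(PP V), ∀ j, (if lab ω.2 j < 0 then yy C j ω else 0) = Hy j (kap C ω) :=
      ae_all_iff.2 hHe
    have h2 := ae_all_iff.2 (readout C)
    filter_upwards [h1, h2] with ω h3 h4 v
    have h5 : Rv (kap C ω) v = spin C ω v := by
      have h6 : (fun N : ℕ => (12 / (N : ℝ)) * ∑ ℓ ∈ range N, Hy ((ℓ : ℤ), v) (kap C ω)) =
          fun N : ℕ => (12 / (N : ℝ)) * ∑ ℓ ∈ range N,
            (if lab ω.2 ((ℓ : ℤ), v) < 0 then yy C ((ℓ : ℤ), v) ω else 0) := by
        funext N
        congr 1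
        exact Finset.sum_congr rfl fun ℓ _ => (h3 _).symm
      simp only [hRv]
      rw [h6]
      exact (h4 v).limsup_eq
    simp only [h5]
    rcases spin_cases C ω v with h7 | h7 <;> simp [h7, spinOf]

/-! ### the law of the innovations -/

/-- masking -/
private def fin_maskF (τ : Lab V) (j : Stp V) (x : ℝ) : ℝ := if τ j < 0 then x else 0

private lemma fin_measurable_maskF (τ : Lab V) (j : Stp V) : Measurable (fin_maskF τ j) := by
  by_cases h : τ j < 0
  · have h1 : fin_maskF τ j = id := by
      funext x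
      simp [fin_maskF, h]
    rw [h1]
    exact measurable_id
  · have h1 : fin_maskF τ j = fun _ => 0 := by
      funext x
      simp [fin_maskF, h]
    rw [h1]
    exact measurable_const

private lemma fin_measurable_RfW (τ : Lab V) : Measurable (fun ω j => RfW C τ j ω) := by
  refine measurable_pi_iff.2 fun j => ?_
  unfold RfW
  by_cases h : τ j < 0
  · simpa [h] using measurable_Rf C τ j
  · simpa [h] using measurable_const

/-- for good labels the innovations are independent masked uniforms -/
private lemma fin_map_RfW {τ : Lab V} (hτ : Good τ) :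
    (PP V).map (fun ω j => RfW C τ j ω) = (PL V).map (fun q j => fin_maskF τ j (q j)) := by
  haveI : ∀ j, IsProbabilityMeasure (lam.map (fin_maskF τ j)) := fun j =>
    Measure.isProbabilityMeasure_map (fin_measurable_maskF τ j).aemeasurable
  have hR : (PL V).map (fun q j => fin_maskF τ j (q j)) =
      Measure.infinitePi (fun j => lam.map (fin_maskF τ j)) :=
    Measure.infinitePi_map_pi (fun _ : Stp V => lam) (fun j => fin_measurable_maskF τ j)
  rw [hR]
  apply Measure.eq_infinitePi
  intro s t ht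
  have hS : MeasurableSet (Set.pi (s : Set (Stp V)) t) :=
    MeasurableSet.pi s.countable_toSet fun i _ => ht i
  rw [Measure.map_apply (fin_measurable_RfW C τ) hS]
  set A : Set (Om V) := (fun ω j => RfW C τ j ω) ⁻¹' (Set.pi (s : Set (Stp V)) t) with hA
  have hAm : MeasurableSet A := fin_measurable_RfW C τ hS
  -- the test functions
  set φ : Stp V → ℝ → ℝ := fun j => (t j).indicator (fun _ => (1 : ℝ)) with hφ
  have hφm : ∀ j, Measurable (φ j) := fun j => measurable_const.indicator (ht j)
  have hφB : ∀ j x, |φ j x| ≤ 1 := by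
    intro j x
    simp only [hφ, Set.indicator_apply]
    split_ifs <;> simp
  have hφ0 : ∀ j x, 0 ≤ φ j x := by
    intro j x
    simp only [hφ, Set.indicator_apply]
    split_ifs <;> simp
  -- the factorised integral
  set a : Stp V → ℝ := fun j => ∫ x, φ j (fin_maskF τ j x) ∂lam with ha
  have ha0 : ∀ j, 0 ≤ a j := fun j => integral_nonneg fun x => hφ0 j _
  have hprod : ∫ ω, ∏ j ∈ s, φ j (RfW C τ j ω) ∂(PP V) = ∏ j ∈ s, a j := by
    set J := s.filter (fun j => τ j < 0) with hJ
    set K := s.filter (fun j => ¬ τ j < 0) with hK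
    have h1 : ∀ ω, ∏ j ∈ s, φ j (RfW C τ j ω) =
        (∏ j ∈ K, φ j 0) * ∏ j ∈ J, φ j (Rf C τ j ω) := by
      intro ω
      rw [← Finset.prod_filter_mul_prod_filter_not s (fun j => τ j < 0), mul_comm]
      congr 1
      · refine Finset.prod_congr rfl fun j hj => ?_
        have := (Finset.mem_filter.1 hj).2
        simp [RfW, this]
      · refine Finset.prod_congr rfl fun j hj => ?_
        have := (Finset.mem_filter.1 hj).2
        simp [RfW, this]
    simp_rw [h1]
    rw [integral_const_mul, Rf_iid C hτ J (fun j hj => (Finset.mem_filter.1 hj).2) hφm hφB,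
      ← Finset.prod_filter_mul_prod_filter_not s (fun j => τ j < 0), mul_comm]
    congr 1
    · refine Finset.prod_congr rfl fun j hj => ?_
      have h2 := (Finset.mem_filter.1 hj).2
      simp [ha, fin_maskF, h2]
    · refine Finset.prod_congr rfl fun j hj => ?_
      have h2 := (Finset.mem_filter.1 hj).2
      simp [ha, fin_maskF, h2]
  -- the set
  have hind : ∀ ω, A.indicator (fun _ => (1 : ℝ)) ω = ∏ j ∈ s, φ j (RfW C τ j ω) := by
    intro ω
    by_cases hω : ω ∈ A
    · rw [Set.indicator_of_mem hω]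
      symm
      refine Finset.prod_eq_one fun j hj => ?_
      have := hω j (Finset.mem_coe.2 hj)
      simp only [hφ, Set.indicator_of_mem this]
    · rw [Set.indicator_of_notMem hω]
      have : ∃ j ∈ s, RfW C τ j ω ∉ t j := by
        by_contra hc
        push Not at hc
        exact hω fun j hj => hc j (Finset.mem_coe.1 hj)
      obtain ⟨j, hj, hjt⟩ := this
      symm
      refine Finset.prod_eq_zero hj ?_
      simp only [hφ, Set.indicator_of_notMem hjt]
  have hreal : (PP V).real A = ∏ j ∈ s, a j := by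
    rw [← hprod]
    simp_rw [← hind]
    have := integral_indicator_one (μ := PP V) hAm
    rw [← this]
    rfl
  have hjreal : ∀ j, (lam.map (fin_maskF τ j)).real (t j) = a j := by
    intro j
    have h3 : ∫ y, (t j).indicator (fun _ => (1 : ℝ)) y ∂(lam.map (fin_maskF τ j)) =
        ∫ x, φ j (fin_maskF τ j x) ∂lam :=
      integral_map (fin_measurable_maskF τ j).aemeasurable (hφm j).aestronglyMeasurable
    rw [ha]
    simp only
    rw [← h3]
    have h4 := integral_indicator_one (μ := lam.map (fin_maskF τ j)) (ht j)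
    rw [← h4]
    rfl
  calc (PP V) A = ENNReal.ofReal ((PP V).real A) := (ofReal_measureReal).symm
    _ = ENNReal.ofReal (∏ j ∈ s, a j) := by rw [hreal]
    _ = ∏ j ∈ s, ENNReal.ofReal (a j) :=
        ENNReal.ofReal_prod_of_nonneg fun j _ => ha0 j
    _ = ∏ j ∈ s, (lam.map (fin_maskF τ j)) (t j) := by
        refine Finset.prod_congr rfl fun j _ => ?_
        rw [← hjreal j, ofReal_measureReal]

/-- the law of the labels and innovations -/
theorem kap_law : (PP V).map (kap C) =
    ((PL V).prod (PL V)).map (fun q => (q.1, fun j => if q.1 j < 0 then q.2 j else 0)) := by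
  have hmp := measurePreserving_fiber (V := V)
  have hkm := measurable_kap C
  have hrm : Measurable (fun q : Lab V × Lab V =>
      ((q.1, fun j => if q.1 j < 0 then q.2 j else 0) : Lab V × (Stp V → ℝ))) := by
    refine measurable_fst.prodMk (measurable_pi_iff.2 fun j => ?_)
    exact Measurable.ite
      (measurableSet_lt ((measurable_pi_apply j).comp measurable_fst) measurable_const)
      ((measurable_pi_apply j).comp measurable_snd) measurable_const
  ext S hS
  rw [Measure.map_apply hrm hS]
  rw [← hmp.map_eq, Measure.map_map hkm hmp.measurable,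
    Measure.map_apply (hkm.comp hmp.measurable) hS]
  rw [Measure.prod_apply ((hkm.comp hmp.measurable) hS), Measure.prod_apply (hrm hS)]
  apply lintegral_congr_ae
  filter_upwards [ae_good C] with τ hτ
  have hsec : MeasurableSet (Prod.mk τ ⁻¹' S) := measurable_prodMk_left hS
  have h1 : Prod.mk τ ⁻¹' ((kap C ∘ fun p : Lab V × Om V => setL p.1 p.2) ⁻¹' S) =
      (fun ω j => RfW C τ j ω) ⁻¹' (Prod.mk τ ⁻¹' S) := rfl
  have h2 : Prod.mk τ ⁻¹' ((fun q : Lab V × Lab V =>
      ((q.1, fun j => if q.1 j < 0 then q.2 j else 0) : Lab V × (Stp V → ℝ))) ⁻¹' S) =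
      (fun q j => fin_maskF τ j (q j)) ⁻¹' (Prod.mk τ ⁻¹' S) := rfl
  have hmm : Measurable (fun q : Lab V => fun j => fin_maskF τ j (q j)) :=
    measurable_pi_iff.2 fun j => (fin_measurable_maskF τ j).comp (measurable_pi_apply j)
  rw [h1, h2, ← Measure.map_apply (fin_measurable_RfW C τ) hsec, fin_map_RfW C hτ,
    Measure.map_apply hmm hsec]

/-! ### coding the labels and the uniforms by one variable per vertex -/

private abbrev fin_Cd := Bool × ℤ

private def fin_zipL (q : Lab V × Lab V) : V × fin_Cd → ℝ := fun p =>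
  cond p.2.1 (q.2 (p.2.2, p.1)) (q.1 (p.2.2, p.1))

private def fin_unzipL (x : V × fin_Cd → ℝ) : Lab V × Lab V :=
  (fun j => x (j.2, (false, j.1)), fun j => x (j.2, (true, j.1)))

private lemma fin_measurable_zipL : Measurable (fin_zipL (V := V)) := by
  refine measurable_pi_iff.2 fun p => ?_
  obtain ⟨v, b, ℓ⟩ := p
  cases b with
  | false => exact (measurable_pi_apply (ℓ, v)).comp measurable_fst
  | true => exact (measurable_pi_apply (ℓ, v)).comp measurable_snd

private lemma fin_measurable_unzipL : Measurable (fin_unzipL (V := V)) :=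
  (measurable_pi_iff.2 fun j => measurable_pi_apply (j.2, (false, j.1))).prodMk
    (measurable_pi_iff.2 fun j => measurable_pi_apply (j.2, (true, j.1)))

private lemma fin_map_zipL :
    ((PL V).prod (PL V)).map fin_zipL = Measure.infinitePi (fun _ : V × fin_Cd => lam) := by
  apply Measure.eq_infinitePi
  intro s t ht
  rw [Measure.map_apply fin_measurable_zipL (MeasurableSet.pi s.countable_toSet fun i _ => ht i)]
  have hinj₀ : Function.Injective (fun j : Stp V => (j.2, ((false, j.1) : fin_Cd))) := by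
    rintro ⟨a, b⟩ ⟨c, d⟩ h
    simp only [Prod.mk.injEq, true_and] at h
    rw [h.1, h.2]
  have hinj₁ : Function.Injective (fun j : Stp V => (j.2, ((true, j.1) : fin_Cd))) := by
    rintro ⟨a, b⟩ ⟨c, d⟩ h
    simp only [Prod.mk.injEq, true_and] at h
    rw [h.1, h.2]
  set s₀ : Finset (Stp V) := s.preimage (fun j => (j.2, ((false, j.1) : fin_Cd))) hinj₀.injOn with hs₀
  set s₁ : Finset (Stp V) := s.preimage (fun j => (j.2, ((true, j.1) : fin_Cd))) hinj₁.injOn with hs₁
  have hpre : fin_zipL ⁻¹' (Set.pi s t)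
      = (Set.pi s₀ (fun j => t (j.2, ((false, j.1) : fin_Cd)))) ×ˢ
        (Set.pi s₁ (fun j => t (j.2, ((true, j.1) : fin_Cd)))) := by
    ext q
    simp only [Set.mem_preimage, Set.mem_pi, Finset.mem_coe, Set.mem_prod, hs₀, hs₁,
      Finset.mem_preimage]
    constructor
    · intro h
      exact ⟨fun j hj => h _ hj, fun j hj => h _ hj⟩
    · rintro ⟨h1, h2⟩ p hp
      obtain ⟨v, b, ℓ⟩ := p
      cases b with
      | false => exact h1 (ℓ, v) hp
      | true => exact h2 (ℓ, v) hp
  rw [hpre, Measure.prod_prod, PL,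
    Measure.infinitePi_pi _ (fun i _ => ht _), Measure.infinitePi_pi _ (fun i _ => ht _)]
  have h₀ := Finset.prod_preimage' (fun j : Stp V => (j.2, ((false, j.1) : fin_Cd))) s hinj₀.injOn
    (fun q => lam (t q))
  have h₁ := Finset.prod_preimage' (fun j : Stp V => (j.2, ((true, j.1) : fin_Cd))) s hinj₁.injOn
    (fun q => lam (t q))
  rw [hs₀, hs₁, h₀, h₁]
  have hfilter : s.filter (fun q => q ∈ Set.range (fun j : Stp V => (j.2, ((true, j.1) : fin_Cd))))
      = s.filter (fun q => ¬ q ∈ Set.range (fun j : Stp V => (j.2, ((false, j.1) : fin_Cd)))) := by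
    refine Finset.filter_congr fun q _ => ?_
    obtain ⟨v, b, ℓ⟩ := q
    constructor
    · rintro ⟨k, hk⟩ ⟨u, hu⟩
      simp only [Prod.mk.injEq] at hk hu
      rw [← hk.2.1] at hu
      simp at hu
    · intro h
      cases b with
      | false => exact absurd ⟨(ℓ, v), rfl⟩ h
      | true => exact ⟨(ℓ, v), rfl⟩
  rw [hfilter, Finset.prod_filter_mul_prod_filter_not]

/-- the coding map -/
private lemma fin_exists_code' : ∃ code : (V → unitInterval) → Lab V × Lab V, Measurable code ∧
    (unif V).map code = (PL V).prod (PL V) ∧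
    ∀ (e : V ≃ V) (U : V → unitInterval), code (fun v => U (e.symm v)) =
      ((fun j => (code U).1 (j.1, e.symm j.2)), (fun j => (code U).2 (j.1, e.symm j.2))) := by
  obtain ⟨f, hf, hmap⟩ := Measure.exists_measurable_map_eq
    (Measure.infinitePi (fun _ : fin_Cd => lam))
  let code₁ : (V → unitInterval) → (V → fin_Cd → ℝ) := fun U v => f (U v)
  have hcode₁ : Measurable code₁ := measurable_pi_iff.2 fun v => hf.comp (measurable_pi_apply v)
  have h1 : (unif V).map code₁ =
      Measure.infinitePi (fun _ : V => Measure.infinitePi (fun _ : fin_Cd => lam)) := by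
    have := Measure.infinitePi_map_pi (μ := fun _ : V => (volume : Measure unitInterval))
      (f := fun _ => f) (fun _ => hf)
    simp only [hmap] at this
    exact this
  let code₂ : (V → fin_Cd → ℝ) → (V × fin_Cd → ℝ) := (MeasurableEquiv.curry V fin_Cd ℝ).symm
  have hcode₂ : Measurable code₂ := (MeasurableEquiv.curry V fin_Cd ℝ).symm.measurable
  have h2 : (Measure.infinitePi (fun _ : V => Measure.infinitePi (fun _ : fin_Cd => lam))).map code₂
      = Measure.infinitePi (fun _ : V × fin_Cd => lam) :=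
    Measure.infinitePi_map_curry_symm (fun (_ : V) (_ : fin_Cd) => lam)
  refine ⟨fun U => fin_unzipL (code₂ (code₁ U)), fin_measurable_unzipL.comp (hcode₂.comp hcode₁), ?_, ?_⟩
  · have e : (fun U => fin_unzipL (code₂ (code₁ U))) = fin_unzipL ∘ (code₂ ∘ code₁) := rfl
    rw [e, ← Measure.map_map fin_measurable_unzipL (hcode₂.comp hcode₁),
      ← Measure.map_map hcode₂ hcode₁, h1, h2, ← fin_map_zipL,
      Measure.map_map fin_measurable_unzipL fin_measurable_zipL]
    have h3 : fin_unzipL ∘ fin_zipL = (id : Lab V × Lab V → Lab V × Lab V) := by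
      funext q
      rfl
    rw [h3, Measure.map_id]
  · intro e U
    rfl

private lemma fin_spinOf_inj' {a b : Bool} (h : spinOf a = spinOf b) : a = b := by
  cases a <;> cases b <;> first | rfl | (exfalso; norm_num [spinOf] at h)

private lemma fin_measurable_mk : Measurable (fun q : Lab V × Lab V =>
    ((q.1, fun j => if q.1 j < 0 then q.2 j else 0) : Lab V × (Stp V → ℝ))) := by
  refine measurable_fst.prodMk (measurable_pi_iff.2 fun j => ?_)
  exact Measurable.ite
    (measurableSet_lt ((measurable_pi_apply j).comp measurable_fst) measurable_const)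
    ((measurable_pi_apply j).comp measurable_snd) measurable_const

/-- the critical factor of iid -/
theorem crit_fiid : ∃ Φ : (V → unitInterval) → (V → Bool), Measurable Φ ∧
    (∀ g : C.G ≃g C.G, ∀ᵐ U ∂(unif V), Φ (fun v => U (g.symm v)) = fun v => Φ U (g.symm v)) ∧
    ∀ D : Finset V, (C.G.induce (D : Set V)).Connected → ∀ η : V → Bool,
      (unif V).real {U | ∀ v ∈ D, Φ U v = η v} = isingWeight C.G C.θ D (fun v => spinOf (η v)) := by
  obtain ⟨H, hHm, hHa⟩ := spin_factor C
  obtain ⟨code, hcm, hmap, hcode⟩ := fin_exists_code' (V := V)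
  set mk : Lab V × Lab V → Lab V × (Stp V → ℝ) :=
    fun q => (q.1, fun j => if q.1 j < 0 then q.2 j else 0) with hmk
  have hmkm : Measurable mk := fin_measurable_mk
  set K : (V → unitInterval) → Lab V × (Stp V → ℝ) := fun U => mk (code U) with hK
  have hKm : Measurable K := hmkm.comp hcm
  have hKmap : (unif V).map K = (PP V).map (kap C) := by
    rw [kap_law C, ← hmap, Measure.map_map hmkm hcm]
    rfl
  refine ⟨fun U => H (K U), hHm.comp hKm, ?_, ?_⟩
  · intro g
    have hcount := countable_V C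
    let aκ : Lab V × (Stp V → ℝ) → Lab V × (Stp V → ℝ) := fun κ =>
      (fun j => κ.1 (j.1, g.symm j.2), fun j => κ.2 (j.1, g.symm j.2))
    have haκm : Measurable aκ :=
      (measurable_pi_iff.2 fun j => (measurable_pi_apply _).comp measurable_fst).prodMk
        (measurable_pi_iff.2 fun j => (measurable_pi_apply _).comp measurable_snd)
    have hkapact : ∀ ω, kap C (act C g ω) = aκ (kap C ω) := by
      intro ω
      apply Prod.ext
      · funext j
        have h2 := lab_act C g (j.1, g.symm j.2) ω.2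
        simp only [stpMap, RelIso.apply_symm_apply] at h2
        exact h2
      · funext j
        have h2 := Rw_act C g (j.1, g.symm j.2) ω
        simp only [stpMap, RelIso.apply_symm_apply] at h2
        exact h2
    have h1 : ∀ᵐ ω ∂(PP V), ∀ v, H (aκ (kap C ω)) (g v) = H (kap C ω) v := by
      have h2 := (act_mp C g).quasiMeasurePreserving.ae hHa
      filter_upwards [h2, hHa] with ω h3 h4 v
      have h5 := h3 (g v)
      rw [hkapact, spin_act, ← h4 v] at h5
      exact fin_spinOf_inj' h5
    have hset : MeasurableSet {κ : Lab V × (Stp V → ℝ) | ∀ v, H (aκ κ) (g v) = H κ v} := by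
      have h2 : {κ : Lab V × (Stp V → ℝ) | ∀ v, H (aκ κ) (g v) = H κ v} =
          ⋂ v, {κ | H (aκ κ) (g v) = H κ v} := by
        ext κ
        simp
      rw [h2]
      refine MeasurableSet.iInter fun v => ?_
      exact measurableSet_eq_fun ((measurable_pi_iff.1 hHm (g v)).comp haκm)
        (measurable_pi_iff.1 hHm v)
    have h6 : ∀ᵐ κ ∂((PP V).map (kap C)), ∀ v, H (aκ κ) (g v) = H κ v :=
      (ae_map_iff (measurable_kap C).aemeasurable hset).2 h1
    rw [← hKmap] at h6
    have h7 := (ae_map_iff hKm.aemeasurable hset).1 h6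
    filter_upwards [h7] with U hU
    funext v
    have hK2 : K (fun v => U (g.symm v)) = aκ (K U) := by
      simp only [hK]
      have e1 : (fun v => U (g.symm v)) = fun v => U (g.toEquiv.symm v) := rfl
      rw [e1, hcode g.toEquiv U]
      rfl
    show H (K fun v => U (g.symm v)) v = H (K U) (g.symm v)
    rw [hK2]
    have h8 := hU (g.symm v)
    rwa [RelIso.apply_symm_apply] at h8
  · intro D hD η
    have hconv := conv_of_connected C.hT hD
    have hne : D.Nonempty := by
      obtain ⟨⟨x, hx⟩⟩ := hD.nonempty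
      exact ⟨x, hx⟩
    have hS : MeasurableSet {κ : Lab V × (Stp V → ℝ) | ∀ v ∈ D, H κ v = η v} := by
      have h2 : {κ : Lab V × (Stp V → ℝ) | ∀ v ∈ D, H κ v = η v} =
          ⋂ v ∈ D, {κ | H κ v = η v} := by
        ext κ
        simp
      rw [h2]
      refine Finset.measurableSet_biInter _ fun v _ => ?_
      exact (measurable_pi_iff.1 hHm v) (measurableSet_singleton (η v))
    have h1 : (unif V).real {U | ∀ v ∈ D, H (K U) v = η v} =
        ((unif V).map K).real {κ | ∀ v ∈ D, H κ v = η v} :=
      (map_measureReal_apply hKm hS).symm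
    rw [h1, hKmap, map_measureReal_apply (measurable_kap C) hS]
    set A : Set (Om V) := kap C ⁻¹' {κ | ∀ v ∈ D, H κ v = η v} with hA
    have hAm : MeasurableSet A := (measurable_kap C) hS
    have hind : ∀ᵐ ω ∂(PP V), A.indicator (fun _ => (1 : ℝ)) ω =
        ∏ v ∈ D, ((1 + spinOf (η v) * spin C ω v) / 2) := by
      filter_upwards [hHa] with ω hω
      by_cases hωA : ω ∈ A
      · rw [Set.indicator_of_mem hωA]
        symm
        refine Finset.prod_eq_one fun v hv => ?_
        have h3 : H (kap C ω) v = η v := hωA v hv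
        rw [← hω v, h3, spinOf_mul_self]
        norm_num
      · rw [Set.indicator_of_notMem hωA]
        have h2 : ∃ v ∈ D, H (kap C ω) v ≠ η v := by
          by_contra hc
          push Not at hc
          exact hωA hc
        obtain ⟨v, hv, hne'⟩ := h2
        symm
        refine Finset.prod_eq_zero hv ?_
        rw [← hω v]
        revert hne'
        cases H (kap C ω) v <;> cases η v <;> simp [spinOf]
    have h2 := integral_indicator_one (μ := PP V) hAm
    have h3 : (PP V).real A = ∫ ω, A.indicator (fun _ => (1 : ℝ)) ω ∂(PP V) := h2.symm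
    rw [h3, integral_congr_ae hind]
    have h4 := spin_law C hconv hne
      (F := fun σ => ∏ v ∈ D, ((1 + spinOf (η v) * σ v) / 2))
      (fun σ σ' hσ => Finset.prod_congr rfl fun v hv => by rw [hσ v hv])
    rw [h4]
    exact Ex_indicator C.θ D η

end Vale.Agent.Lib.P161.Crit

namespace Vale.Agent.Lib.P161

open Crit

/-- `free_ising_fiid` extended to the critical coupling: all `(d-1) θ² ≤ 1`. -/
theorem free_ising_fiid_all {d : ℕ} (hd : 3 ≤ d) {V : Type} {G : SimpleGraph V} (hT : G.IsTree)
    (hdeg : ∀ v, (G.neighborSet v).ncard = d) {θ : ℝ} (h0 : 0 ≤ θ)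
    (hκ : ((d : ℝ) - 1) * θ ^ 2 ≤ 1) :
    ∃ Φ : (V → unitInterval) → (V → Bool), Measurable Φ ∧
      (∀ g : G ≃g G, ∀ᵐ U ∂unif V, Φ (fun v => U (g.symm v)) = fun v => Φ U (g.symm v)) ∧
      ∀ D : Finset V, (G.induce (D : Set V)).Connected → ∀ η : V → Bool,
        (unif V).real {U | ∀ v ∈ D, Φ U v = η v} = isingWeight G θ D (fun v => spinOf (η v)) := by
  rcases lt_or_eq_of_le hκ with hlt | heq
  · exact free_ising_fiid hd hT hdeg h0 hlt
  · have hθ0 : 0 < θ := by
      rcases h0.lt_or_eq with h | h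
      · exact h
      · rw [← h] at heq
        norm_num at heq
    have hfin : ∀ v, (G.neighborSet v).Finite := fun v =>
      Set.finite_of_ncard_ne_zero (by rw [hdeg v]; omega)
    let nb : V → Finset V := fun v => (hfin v).toFinset
    have hnb : ∀ u x, x ∈ nb u ↔ G.Adj u x := fun u x => by
      simp [nb]
    have hcard : ∀ u, (nb u).card = d := fun u => by
      have := Set.ncard_eq_toFinset_card _ (hfin u)
      rw [hdeg u] at this
      exact this.symm
    obtain ⟨o⟩ := hT.connected.nonempty
    let C : CT V := ⟨G, d, hd, hT, nb, hnb, hcard, θ, hθ0, heq, o⟩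
    exact crit_fiid C

end Vale.Agent.Lib.P161
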