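import Mathlib
import Vale.Agent.Lib.P161.Crit.CE

/-!
The symmetric (Nishimori) class on an arbitrary probability space: abstract, no tree.
Statements fixed; add lemmas freely.

`Z` is in the class when `E h(Z) = E h(Z) tanh Z` for bounded odd `h`.
-/

open MeasureTheory Filter Topology

noncomputable section
namespace Vale.Agent.Lib.P161.Crit

variable {Ω : Type} {m0 : MeasurableSpace Ω} {μ : Measure Ω} [IsProbabilityMeasure μ]

/-- the symmetric class -/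
def Nish (μ : Measure Ω) (Z : Ω → ℝ) : Prop :=
  Measurable Z ∧ (∃ B, ∀ ω, |Z ω| ≤ B) ∧
    ∀ h : ℝ → ℝ, Measurable h → (∃ B, ∀ x, |h x| ≤ B) → (∀ x, h (-x) = -h x) →
      ∫ ω, h (Z ω) ∂μ = ∫ ω, h (Z ω) * Real.tanh (Z ω) ∂μ

section Helpers

/-- bounded measurable functions -/
def BMf {α : Type*} [MeasurableSpace α] (f : α → ℝ) : Prop :=
  Measurable f ∧ ∃ B, ∀ x, |f x| ≤ B

variable {α β : Type*} [MeasurableSpace α] [MeasurableSpace β]

lemma BMf.integrable {ν : Measure α} [IsFiniteMeasure ν] {f : α → ℝ} (hf : BMf f) :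
    Integrable f ν := by
  obtain ⟨hm, B, hB⟩ := hf
  exact Integrable.of_bound hm.aestronglyMeasurable B
    (ae_of_all _ (fun x => by simpa [Real.norm_eq_abs] using hB x))

lemma BMf.add {f g : α → ℝ} (hf : BMf f) (hg : BMf g) : BMf (fun x => f x + g x) := by
  obtain ⟨hm, B, hB⟩ := hf
  obtain ⟨hm', B', hB'⟩ := hg
  exact ⟨hm.add hm', B + B', fun x => (abs_add_le _ _).trans (add_le_add (hB x) (hB' x))⟩

lemma BMf.sub {f g : α → ℝ} (hf : BMf f) (hg : BMf g) : BMf (fun x => f x - g x) := by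
  obtain ⟨hm, B, hB⟩ := hf
  obtain ⟨hm', B', hB'⟩ := hg
  exact ⟨hm.sub hm', B + B', fun x => (abs_sub _ _).trans (add_le_add (hB x) (hB' x))⟩

lemma BMf.mul {f g : α → ℝ} (hf : BMf f) (hg : BMf g) : BMf (fun x => f x * g x) := by
  obtain ⟨hm, B, hB⟩ := hf
  obtain ⟨hm', B', hB'⟩ := hg
  refine ⟨hm.mul hm', B * B', fun x => ?_⟩
  rw [abs_mul]
  exact mul_le_mul (hB x) (hB' x) (abs_nonneg _) ((abs_nonneg _).trans (hB x))

lemma BMf.const (c : ℝ) : BMf (fun _ : α => c) := ⟨measurable_const, |c|, fun _ => le_rfl⟩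

lemma BMf.comp {f : β → ℝ} (hf : BMf f) {g : α → β} (hg : Measurable g) :
    BMf (fun x => f (g x)) := by
  obtain ⟨hm, B, hB⟩ := hf
  exact ⟨hm.comp hg, B, fun x => hB _⟩

lemma measurable_tanh' : Measurable Real.tanh := by
  have : Real.tanh = fun x => Real.sinh x / Real.cosh x := funext Real.tanh_eq_sinh_div_cosh
  rw [this]
  exact Real.measurable_sinh.div Real.measurable_cosh

lemma bm_tanh : BMf Real.tanh :=
  ⟨measurable_tanh', 1, fun x => (Real.abs_tanh_lt_one x).le⟩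

lemma continuous_tanh' : Continuous Real.tanh := by
  have : Real.tanh = fun x => Real.sinh x / Real.cosh x := funext Real.tanh_eq_sinh_div_cosh
  rw [this]
  exact Real.continuous_sinh.div Real.continuous_cosh (fun x => (Real.cosh_pos x).ne')

lemma tanh_add' (x y : ℝ) :
    (1 + Real.tanh x * Real.tanh y) * Real.tanh (x + y) = Real.tanh x + Real.tanh y := by
  have hx := (Real.cosh_pos x).ne'
  have hy := (Real.cosh_pos y).ne'
  have hxy : Real.cosh x * Real.cosh y + Real.sinh x * Real.sinh y ≠ 0 := by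
    rw [← Real.cosh_add]
    exact (Real.cosh_pos _).ne'
  rw [Real.tanh_eq_sinh_div_cosh, Real.tanh_eq_sinh_div_cosh, Real.tanh_eq_sinh_div_cosh,
    Real.sinh_add, Real.cosh_add]
  field_simp

lemma tanh_sub' (x y : ℝ) :
    (1 - Real.tanh x * Real.tanh y) * Real.tanh (x - y) = Real.tanh x - Real.tanh y := by
  have h := tanh_add' x (-y)
  rw [Real.tanh_neg, ← sub_eq_add_neg] at h
  linarith

lemma tanh_mul_pos (x y : ℝ) : 0 < 1 + Real.tanh x * Real.tanh y := by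
  have h1 := Real.abs_tanh_lt_one x
  have h2 := Real.abs_tanh_lt_one y
  have h3 : |Real.tanh x * Real.tanh y| < 1 := by
    rw [abs_mul]
    exact mul_lt_one_of_nonneg_of_lt_one_left (abs_nonneg _) h1 h2.le
  linarith [(abs_lt.1 h3).1]

lemma tanh_mul_pos' (x y : ℝ) : 0 < 1 - Real.tanh x * Real.tanh y := by
  have h1 := Real.abs_tanh_lt_one x
  have h2 := Real.abs_tanh_lt_one y
  have h3 : |Real.tanh x * Real.tanh y| < 1 := by
    rw [abs_mul]
    exact mul_lt_one_of_nonneg_of_lt_one_left (abs_nonneg _) h1 h2.le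
  linarith [(abs_lt.1 h3).2]

/-- Fubini under independence. -/
lemma nb_fub {Z₁ Z₂ : Ω → ℝ} (hZ₁ : Measurable Z₁) (hZ₂ : Measurable Z₂)
    (hi : ProbabilityTheory.IndepFun Z₁ Z₂ μ) {F : ℝ × ℝ → ℝ} (hF : BMf F) :
    ∫ ω, F (Z₁ ω, Z₂ ω) ∂μ = ∫ y, ∫ ω, F (Z₁ ω, y) ∂μ ∂(μ.map Z₂) := by
  have h := (ProbabilityTheory.indepFun_iff_map_prod_eq_prod_map_map hZ₁.aemeasurable
    hZ₂.aemeasurable).1 hi
  have : IsProbabilityMeasure (μ.map Z₁) := Measure.isProbabilityMeasure_map hZ₁.aemeasurable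
  have : IsProbabilityMeasure (μ.map Z₂) := Measure.isProbabilityMeasure_map hZ₂.aemeasurable
  have e1 : ∫ ω, F (Z₁ ω, Z₂ ω) ∂μ = ∫ p, F p ∂(μ.map (fun ω => (Z₁ ω, Z₂ ω))) :=
    (integral_map (hZ₁.prodMk hZ₂).aemeasurable hF.1.aestronglyMeasurable).symm
  rw [e1, h, integral_prod_symm _ hF.integrable]
  apply integral_congr_ae
  filter_upwards with y
  exact integral_map hZ₁.aemeasurable
    ((hF.1.comp (measurable_id.prodMk measurable_const)).aestronglyMeasurable)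

/-- Odd in the first variable: insert `tanh Z₁`. -/
lemma nish_odd1 {Z₁ Z₂ : Ω → ℝ} (h₁ : Nish μ Z₁) (hZ₂ : Measurable Z₂)
    (hi : ProbabilityTheory.IndepFun Z₁ Z₂ μ) {F : ℝ × ℝ → ℝ} (hF : BMf F)
    (hodd : ∀ x y, F (-x, y) = -F (x, y)) :
    ∫ ω, F (Z₁ ω, Z₂ ω) ∂μ = ∫ ω, F (Z₁ ω, Z₂ ω) * Real.tanh (Z₁ ω) ∂μ := by
  have hF' : BMf (fun p : ℝ × ℝ => F p * Real.tanh p.1) := hF.mul (bm_tanh.comp measurable_fst)
  have e := nb_fub h₁.1 hZ₂ hi hF'
  simp only at e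
  rw [nb_fub h₁.1 hZ₂ hi hF, e]
  apply integral_congr_ae
  filter_upwards with y
  obtain ⟨B, hB⟩ := hF.2
  exact h₁.2.2 (fun x => F (x, y)) (hF.1.comp (measurable_id.prodMk measurable_const))
    ⟨B, fun x => hB _⟩ (fun x => hodd x y)

/-- Odd in the second variable: insert `tanh Z₂`. -/
lemma nish_odd2 {Z₁ Z₂ : Ω → ℝ} (hZ₁ : Measurable Z₁) (h₂ : Nish μ Z₂)
    (hi : ProbabilityTheory.IndepFun Z₁ Z₂ μ) {F : ℝ × ℝ → ℝ} (hF : BMf F)
    (hodd : ∀ x y, F (x, -y) = -F (x, y)) :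
    ∫ ω, F (Z₁ ω, Z₂ ω) ∂μ = ∫ ω, F (Z₁ ω, Z₂ ω) * Real.tanh (Z₂ ω) ∂μ :=
  nish_odd1 h₂ hZ₁ hi.symm (F := fun p => F (p.2, p.1)) (hF.comp measurable_swap)
    (fun x y => hodd y x)

lemma nb_pair {Z₁ Z₂ : Ω → ℝ} (hZ₁ : Measurable Z₁) (hZ₂ : Measurable Z₂) :
    Measurable (fun ω => (Z₁ ω, Z₂ ω)) := hZ₁.prodMk hZ₂

end Helpers

/-- two-point formula for even `Φ` -/
theorem nish_two_point {Z₁ Z₂ : Ω → ℝ} (h₁ : Nish μ Z₁) (h₂ : Nish μ Z₂)
    (hi : ProbabilityTheory.IndepFun Z₁ Z₂ μ) {Φ : ℝ → ℝ} (hΦ : Measurable Φ)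
    (hΦB : ∃ B, ∀ x, |Φ x| ≤ B) (hev : ∀ x, Φ (-x) = Φ x) :
    ∫ ω, Φ (Z₁ ω + Z₂ ω) ∂μ =
      ∫ ω, ((1 + Real.tanh (Z₁ ω) * Real.tanh (Z₂ ω)) / 2 * Φ (Z₁ ω + Z₂ ω)
        + (1 - Real.tanh (Z₁ ω) * Real.tanh (Z₂ ω)) / 2 * Φ (Z₁ ω - Z₂ ω)) ∂μ := by
  have hΦBM : BMf Φ := ⟨hΦ, hΦB⟩
  have hpp : BMf (fun p : ℝ × ℝ => Φ (p.1 + p.2)) :=
    hΦBM.comp (measurable_fst.add measurable_snd)
  have hpm : BMf (fun p : ℝ × ℝ => Φ (p.1 - p.2)) :=
    hΦBM.comp (measurable_fst.sub measurable_snd)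
  let A : ℝ × ℝ → ℝ := fun p => Φ (p.1 + p.2) - Φ (p.1 - p.2)
  have hA : BMf A := hpp.sub hpm
  have hA1 : ∀ x y, A (-x, y) = -A (x, y) := by
    intro x y
    simp only [A]
    rw [show -x + y = -(x - y) by ring, show -x - y = -(x + y) by ring, hev, hev]
    ring
  have hAt : BMf (fun p : ℝ × ℝ => A p * Real.tanh p.1) := hA.mul (bm_tanh.comp measurable_fst)
  have hA2 : ∀ x y, (fun p : ℝ × ℝ => A p * Real.tanh p.1) (x, -y) =
      -(fun p : ℝ × ℝ => A p * Real.tanh p.1) (x, y) := by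
    intro x y
    simp only [A]
    rw [show x + -y = x - y by ring, show x - -y = x + y by ring]
    ring
  have k1 := nish_odd1 h₁ h₂.1 hi hA hA1
  have k2 := nish_odd2 h₁.1 h₂ hi hAt hA2
  simp only at k2
  have hP := nb_pair h₁.1 h₂.1
  have e : ∀ ω, ((1 + Real.tanh (Z₁ ω) * Real.tanh (Z₂ ω)) / 2 * Φ (Z₁ ω + Z₂ ω)
        + (1 - Real.tanh (Z₁ ω) * Real.tanh (Z₂ ω)) / 2 * Φ (Z₁ ω - Z₂ ω)) =
      Φ (Z₁ ω + Z₂ ω) - (1 / 2) * A (Z₁ ω, Z₂ ω) +
        (1 / 2) * (A (Z₁ ω, Z₂ ω) * Real.tanh (Z₁ ω) * Real.tanh (Z₂ ω)) := by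
    intro ω
    simp only [A]
    ring
  have i0 : Integrable (fun ω => Φ (Z₁ ω + Z₂ ω)) μ := (hpp.comp hP).integrable
  have i1 : Integrable (fun ω => A (Z₁ ω, Z₂ ω)) μ := (hA.comp hP).integrable
  have i2 : Integrable (fun ω => A (Z₁ ω, Z₂ ω) * Real.tanh (Z₁ ω) * Real.tanh (Z₂ ω)) μ :=
    ((hAt.mul (bm_tanh.comp measurable_snd)).comp hP).integrable
  have i3 : Integrable (fun ω => Φ (Z₁ ω + Z₂ ω) - (1 / 2) * A (Z₁ ω, Z₂ ω)) μ :=
    i0.sub (i1.const_mul _)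
  rw [integral_congr_ae (ae_of_all _ e), integral_add i3 (i2.const_mul _),
    integral_sub i0 (i1.const_mul _), integral_const_mul, integral_const_mul, ← k2, ← k1]
  ring

theorem nish_add {Z₁ Z₂ : Ω → ℝ} (h₁ : Nish μ Z₁) (h₂ : Nish μ Z₂)
    (hi : ProbabilityTheory.IndepFun Z₁ Z₂ μ) : Nish μ (fun ω => Z₁ ω + Z₂ ω) := by
  obtain ⟨B₁, hB₁⟩ := h₁.2.1
  obtain ⟨B₂, hB₂⟩ := h₂.2.1
  refine ⟨h₁.1.add h₂.1, ⟨B₁ + B₂, fun ω => (abs_add_le _ _).trans (add_le_add (hB₁ ω) (hB₂ ω))⟩,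
    ?_⟩
  intro h hm hB hodd
  have hBM : BMf h := ⟨hm, hB⟩
  have hpp : BMf (fun p : ℝ × ℝ => h (p.1 + p.2)) :=
    hBM.comp (measurable_fst.add measurable_snd)
  have hpm : BMf (fun p : ℝ × ℝ => h (p.1 - p.2)) :=
    hBM.comp (measurable_fst.sub measurable_snd)
  let Ap : ℝ × ℝ → ℝ := fun p => h (p.1 + p.2) + h (p.1 - p.2)
  let Bp : ℝ × ℝ → ℝ := fun p => h (p.1 + p.2) - h (p.1 - p.2)
  have hA : BMf Ap := hpp.add hpm
  have hB' : BMf Bp := hpp.sub hpm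
  have hA1 : ∀ x y, Ap (-x, y) = -Ap (x, y) := by
    intro x y
    simp only [Ap]
    rw [show -x + y = -(x - y) by ring, show -x - y = -(x + y) by ring, hodd, hodd]
    ring
  have hB2 : ∀ x y, Bp (x, -y) = -Bp (x, y) := by
    intro x y
    simp only [Bp]
    rw [show x + -y = x - y by ring, show x - -y = x + y by ring]
    ring
  have k1 := nish_odd1 h₁ h₂.1 hi hA hA1
  have k2 := nish_odd2 h₁.1 h₂ hi hB' hB2
  -- the even function
  have hΦ : BMf (fun z => h z * Real.tanh z) := hBM.mul bm_tanh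
  have tp := nish_two_point h₁ h₂ hi hΦ.1 hΦ.2 (fun x => by
    simp only [Real.tanh_neg, hodd]
    ring)
  have hP := nb_pair h₁.1 h₂.1
  have iA : Integrable (fun ω => Ap (Z₁ ω, Z₂ ω)) μ := (hA.comp hP).integrable
  have iB : Integrable (fun ω => Bp (Z₁ ω, Z₂ ω)) μ := (hB'.comp hP).integrable
  have iAU : Integrable (fun ω => Ap (Z₁ ω, Z₂ ω) * Real.tanh (Z₁ ω)) μ :=
    ((hA.mul (bm_tanh.comp measurable_fst)).comp hP).integrable
  have iBV : Integrable (fun ω => Bp (Z₁ ω, Z₂ ω) * Real.tanh (Z₂ ω)) μ :=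
    ((hB'.mul (bm_tanh.comp measurable_snd)).comp hP).integrable
  have e1 : ∀ ω, h (Z₁ ω + Z₂ ω) = (1 / 2) * (Ap (Z₁ ω, Z₂ ω) + Bp (Z₁ ω, Z₂ ω)) := by
    intro ω
    simp only [Ap, Bp]
    ring
  have e2 : ∀ ω, ((1 + Real.tanh (Z₁ ω) * Real.tanh (Z₂ ω)) / 2 *
        (h (Z₁ ω + Z₂ ω) * Real.tanh (Z₁ ω + Z₂ ω))
        + (1 - Real.tanh (Z₁ ω) * Real.tanh (Z₂ ω)) / 2 *
          (h (Z₁ ω - Z₂ ω) * Real.tanh (Z₁ ω - Z₂ ω))) =
      (1 / 2) * (Ap (Z₁ ω, Z₂ ω) * Real.tanh (Z₁ ω) + Bp (Z₁ ω, Z₂ ω) * Real.tanh (Z₂ ω)) := by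
    intro ω
    have t1 := tanh_add' (Z₁ ω) (Z₂ ω)
    have t2 := tanh_sub' (Z₁ ω) (Z₂ ω)
    simp only [Ap, Bp]
    have r1 : (1 + Real.tanh (Z₁ ω) * Real.tanh (Z₂ ω)) / 2 *
        (h (Z₁ ω + Z₂ ω) * Real.tanh (Z₁ ω + Z₂ ω)) =
        h (Z₁ ω + Z₂ ω) * (((1 + Real.tanh (Z₁ ω) * Real.tanh (Z₂ ω)) *
          Real.tanh (Z₁ ω + Z₂ ω)) / 2) := by ring
    have r2 : (1 - Real.tanh (Z₁ ω) * Real.tanh (Z₂ ω)) / 2 *
        (h (Z₁ ω - Z₂ ω) * Real.tanh (Z₁ ω - Z₂ ω)) =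
        h (Z₁ ω - Z₂ ω) * (((1 - Real.tanh (Z₁ ω) * Real.tanh (Z₂ ω)) *
          Real.tanh (Z₁ ω - Z₂ ω)) / 2) := by ring
    rw [r1, r2, t1, t2]
    ring
  have tp' : ∫ ω, h (Z₁ ω + Z₂ ω) * Real.tanh (Z₁ ω + Z₂ ω) ∂μ =
      (1 / 2) * ((∫ ω, Ap (Z₁ ω, Z₂ ω) * Real.tanh (Z₁ ω) ∂μ) +
        ∫ ω, Bp (Z₁ ω, Z₂ ω) * Real.tanh (Z₂ ω) ∂μ) := by
    rw [tp, integral_congr_ae (ae_of_all _ e2), integral_const_mul, integral_add iAU iBV]
  rw [tp', ← k1, ← k2, integral_congr_ae (ae_of_all _ e1), integral_const_mul,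
    integral_add iA iB]

theorem nish_zero : Nish μ (fun _ => 0) := by
  refine ⟨measurable_const, ⟨0, fun _ => by simp⟩, ?_⟩
  intro h _ _ hodd
  have h0 : h 0 = 0 := by
    have := hodd 0
    rw [neg_zero] at this
    linarith
  simp [h0]

/-- finite independent sums -/
theorem nish_sum {ι : Type} (s : Finset ι) {Z : ι → Ω → ℝ} (h : ∀ i ∈ s, Nish μ (Z i))
    (hi : ProbabilityTheory.iIndepFun Z μ) : Nish μ (fun ω => ∑ i ∈ s, Z i ω) := by
  classical
  -- replace the variables outside `s` by zero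
  let g : ι → ℝ → ℝ := fun i x => if i ∈ s then x else 0
  have hg : ∀ i, Measurable (g i) := by
    intro i
    by_cases his : i ∈ s
    · simp only [g, if_pos his]
      exact measurable_id
    · simp only [g, if_neg his]
      exact measurable_const
  let Z' : ι → Ω → ℝ := fun i => g i ∘ Z i
  have hi' : ProbabilityTheory.iIndepFun Z' μ := hi.comp g hg
  have hZ'm : ∀ i, Measurable (Z' i) := by
    intro i
    by_cases his : i ∈ s
    · have : Z' i = Z i := by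
        funext ω
        simp [Z', g, his]
      rw [this]
      exact (h i his).1
    · have : Z' i = fun _ => 0 := by
        funext ω
        simp [Z', g, his]
      rw [this]
      exact measurable_const
  have hZ' : ∀ i ∈ s, Z' i = Z i := by
    intro i his
    funext ω
    simp [Z', g, his]
  have key : ∀ t : Finset ι, t ⊆ s → Nish μ (fun ω => ∑ i ∈ t, Z' i ω) := by
    intro t
    induction t using Finset.induction_on with
    | empty =>
      intro _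
      simpa using (nish_zero : Nish μ (fun _ => (0 : ℝ)))
    | insert a t hat ih =>
      intro hts
      have hts' : t ⊆ s := (Finset.subset_insert _ _).trans hts
      have has : a ∈ s := hts (Finset.mem_insert_self _ _)
      have h3 := ih hts'
      have h4 : Nish μ (Z' a) := by
        rw [hZ' a has]
        exact h a has
      have hind : ProbabilityTheory.IndepFun (Z' a) (fun ω => ∑ i ∈ t, Z' i ω) μ := by
        have := hi'.indepFun_finsetSum_of_notMem hZ'm hat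
        have e : (∑ j ∈ t, Z' j) = fun ω => ∑ i ∈ t, Z' i ω := by
          funext ω
          simp
        rw [e] at this
        exact this.symm
      have h5 := nish_add h4 h3 hind
      have e : (fun ω => ∑ i ∈ insert a t, Z' i ω) = fun ω => Z' a ω + ∑ i ∈ t, Z' i ω := by
        funext ω
        rw [Finset.sum_insert hat]
      rw [e]
      exact h5
  have h6 := key s subset_rfl
  have e : (fun ω => ∑ i ∈ s, Z i ω) = fun ω => ∑ i ∈ s, Z' i ω := by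
    funext ω
    apply Finset.sum_congr rfl
    intro i his
    rw [hZ' i his]
  rw [e]
  exact h6

/-- the symmetric class is closed under bounded pointwise limits -/
theorem nish_lim {Z : ℕ → Ω → ℝ} {Z' : Ω → ℝ} {B : ℝ} (h : ∀ n, Nish μ (Z n))
    (hB : ∀ n ω, |Z n ω| ≤ B) (hZ' : Measurable Z')
    (hl : ∀ᵐ ω ∂μ, Tendsto (fun n => Z n ω) atTop (𝓝 (Z' ω))) (hB' : ∀ ω, |Z' ω| ≤ B) :
    Nish μ Z' := by
  refine ⟨hZ', ⟨B, hB'⟩, ?_⟩
  -- step 1: continuous odd bounded test functions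
  have hcont : ∀ g : ℝ → ℝ, Continuous g → (∃ C, ∀ x, |g x| ≤ C) → (∀ x, g (-x) = -g x) →
      ∫ ω, g (Z' ω) ∂μ = ∫ ω, g (Z' ω) * Real.tanh (Z' ω) ∂μ := by
    intro g hg hC hodd
    obtain ⟨C, hC⟩ := hC
    have hC0 : 0 ≤ C := (abs_nonneg _).trans (hC 0)
    have l1 : Tendsto (fun n => ∫ ω, g (Z n ω) ∂μ) atTop (𝓝 (∫ ω, g (Z' ω) ∂μ)) := by
      apply tendsto_integral_of_dominated_convergence (fun _ => C)
      · intro n
        exact (hg.measurable.comp (h n).1).aestronglyMeasurable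
      · exact integrable_const _
      · intro n
        exact ae_of_all _ (fun ω => by simpa [Real.norm_eq_abs] using hC _)
      · filter_upwards [hl] with ω hω
        exact (hg.tendsto _).comp hω
    have hgt : Continuous (fun z => g z * Real.tanh z) := hg.mul continuous_tanh'
    have hgtB : ∀ z, |g z * Real.tanh z| ≤ C := by
      intro z
      rw [abs_mul]
      have := (Real.abs_tanh_lt_one z).le
      have h2 := hC z
      nlinarith [abs_nonneg (g z), abs_nonneg (Real.tanh z)]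
    have l2 : Tendsto (fun n => ∫ ω, g (Z n ω) * Real.tanh (Z n ω) ∂μ) atTop
        (𝓝 (∫ ω, g (Z' ω) * Real.tanh (Z' ω) ∂μ)) := by
      apply tendsto_integral_of_dominated_convergence (fun _ => C)
      · intro n
        exact (hgt.measurable.comp (h n).1).aestronglyMeasurable
      · exact integrable_const _
      · intro n
        exact ae_of_all _ (fun ω => by simpa [Real.norm_eq_abs] using hgtB _)
      · filter_upwards [hl] with ω hω
        exact (hgt.tendsto _).comp hω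
    have e : ∀ n, ∫ ω, g (Z n ω) ∂μ = ∫ ω, g (Z n ω) * Real.tanh (Z n ω) ∂μ :=
      fun n => (h n).2.2 g hg.measurable ⟨C, hC⟩ hodd
    simp only [e] at l1
    exact tendsto_nhds_unique l1 l2
  -- step 2: the tilted measure
  have hdens : ∀ ω, 0 ≤ 1 - Real.tanh (Z' ω) := fun ω => by
    linarith [Real.tanh_lt_one (Z' ω)]
  let f : Ω → NNReal := fun ω => (1 - Real.tanh (Z' ω)).toNNReal
  have hfm : Measurable f := ((measurable_const.sub (measurable_tanh'.comp hZ'))).real_toNNReal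
  have hfc : ∀ ω, (f ω : ℝ) = 1 - Real.tanh (Z' ω) := fun ω => Real.coe_toNNReal _ (hdens ω)
  let τ : Measure Ω := μ.withDensity (fun ω => (f ω : ENNReal))
  have hdi : Integrable (fun ω => 1 - Real.tanh (Z' ω)) μ :=
    ((BMf.const 1).sub (bm_tanh.comp hZ')).integrable
  have : IsFiniteMeasure τ :=
    isFiniteMeasure_withDensity_ofReal (f := fun ω => 1 - Real.tanh (Z' ω)) hdi.2
  have hτ : ∀ g : Ω → ℝ, ∫ ω, g ω ∂τ = ∫ ω, (1 - Real.tanh (Z' ω)) * g ω ∂μ := by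
    intro g
    have := integral_withDensity_eq_integral_smul (μ := μ) hfm g
    refine this.trans ?_
    apply integral_congr_ae
    filter_upwards with ω
    rw [NNReal.smul_def, smul_eq_mul, hfc]
  have hneg : Measurable (fun ω => -Z' ω) := hZ'.neg
  have hsymm : τ.map Z' = τ.map (fun ω => -Z' ω) := by
    apply ext_of_forall_integral_eq_of_IsFiniteMeasure
    intro f₀
    rw [integral_map hZ'.aemeasurable f₀.continuous.aestronglyMeasurable,
      integral_map hneg.aemeasurable f₀.continuous.aestronglyMeasurable, hτ, hτ]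
    -- the odd part
    let g : ℝ → ℝ := fun x => f₀ x - f₀ (-x)
    have hg : Continuous g := f₀.continuous.sub (f₀.continuous.comp continuous_neg)
    have hgB : ∃ C, ∀ x, |g x| ≤ C := by
      refine ⟨‖f₀‖ + ‖f₀‖, fun x => ?_⟩
      refine (abs_sub _ _).trans (add_le_add ?_ ?_)
      · exact f₀.norm_coe_le_norm x
      · exact f₀.norm_coe_le_norm (-x)
    have hgo : ∀ x, g (-x) = -g x := by
      intro x
      simp only [g, neg_neg]
      ring
    have k := hcont g hg hgB hgo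
    obtain ⟨C, hC⟩ := hgB
    have hgBM : BMf g := ⟨hg.measurable, C, hC⟩
    have i1 : Integrable (fun ω => g (Z' ω)) μ := (hgBM.comp hZ').integrable
    have i2 : Integrable (fun ω => g (Z' ω) * Real.tanh (Z' ω)) μ :=
      ((hgBM.mul bm_tanh).comp hZ').integrable
    have hf0BM : BMf (fun x => f₀ x) :=
      ⟨f₀.continuous.measurable, ‖f₀‖, fun x => f₀.norm_coe_le_norm x⟩
    have hf1BM : BMf (fun x => f₀ (-x)) :=
      ⟨(f₀.continuous.comp continuous_neg).measurable, ‖f₀‖, fun x => f₀.norm_coe_le_norm (-x)⟩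
    have hT : BMf (fun x => 1 - Real.tanh x) := (BMf.const 1).sub bm_tanh
    have i3 : Integrable (fun ω => (1 - Real.tanh (Z' ω)) * f₀ (Z' ω)) μ :=
      ((hT.mul hf0BM).comp hZ').integrable
    have i4 : Integrable (fun ω => (1 - Real.tanh (Z' ω)) * f₀ (-Z' ω)) μ :=
      ((hT.mul hf1BM).comp hZ').integrable
    have e : ∀ ω, (1 - Real.tanh (Z' ω)) * f₀ (Z' ω) - (1 - Real.tanh (Z' ω)) * f₀ (-Z' ω) =
        g (Z' ω) - g (Z' ω) * Real.tanh (Z' ω) := by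
      intro ω
      simp only [g]
      ring
    have h0 : (∫ ω, (1 - Real.tanh (Z' ω)) * f₀ (Z' ω) ∂μ) -
        ∫ ω, (1 - Real.tanh (Z' ω)) * f₀ (-Z' ω) ∂μ = 0 := by
      rw [← integral_sub i3 i4, integral_congr_ae (ae_of_all _ e), integral_sub i1 i2, k]
      ring
    linarith
  -- step 3: general odd test functions
  intro h₀ hm hB₀ hodd
  have hBM : BMf h₀ := ⟨hm, hB₀⟩
  have e1 : ∫ ω, h₀ (Z' ω) ∂τ = ∫ ω, h₀ (-Z' ω) ∂τ := by
    have a1 : ∫ x, h₀ x ∂(τ.map Z') = ∫ ω, h₀ (Z' ω) ∂τ :=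
      integral_map hZ'.aemeasurable hm.aestronglyMeasurable
    have a2 : ∫ x, h₀ x ∂(τ.map (fun ω => -Z' ω)) = ∫ ω, h₀ (-Z' ω) ∂τ :=
      integral_map hneg.aemeasurable hm.aestronglyMeasurable
    rw [← a1, ← a2, hsymm]
  have e2 : ∫ ω, h₀ (-Z' ω) ∂τ = -∫ ω, h₀ (Z' ω) ∂τ := by
    rw [← integral_neg]
    exact integral_congr_ae (ae_of_all _ (fun ω => hodd _))
  have e3 : ∫ ω, h₀ (Z' ω) ∂τ = 0 := by linarith
  rw [hτ] at e3
  have i1 : Integrable (fun ω => h₀ (Z' ω)) μ := (hBM.comp hZ').integrable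
  have i2 : Integrable (fun ω => h₀ (Z' ω) * Real.tanh (Z' ω)) μ :=
    ((hBM.mul bm_tanh).comp hZ').integrable
  have e4 : ∀ ω, (1 - Real.tanh (Z' ω)) * h₀ (Z' ω) =
      h₀ (Z' ω) - h₀ (Z' ω) * Real.tanh (Z' ω) := by
    intro ω
    ring
  rw [integral_congr_ae (ae_of_all _ e4), integral_sub i1 i2] at e3
  linarith

/-- the channel map of an independent sign with mean `θ`: `tanh (psi z) = θ tanh z` -/
theorem nish_sign {θ : ℝ} (hθ0 : 0 ≤ θ) (hθ1 : θ < 1) {ψ : ℝ → ℝ} (hψm : Measurable ψ)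
    (hψo : ∀ z, ψ (-z) = -ψ z) (hψB : ∃ B, ∀ z, |ψ z| ≤ B)
    (hψ : ∀ z, Real.tanh (ψ z) = θ * Real.tanh z) {ε ζ : Ω → ℝ} (hε : Measurable ε)
    (hε1 : ∀ ω, ε ω = 1 ∨ ε ω = -1) (hεm : ∫ ω, ε ω ∂μ = θ) (hζ : Nish μ ζ)
    (hi : ProbabilityTheory.IndepFun ε ζ μ) : Nish μ (fun ω => ε ω * ψ (ζ ω)) := by
  obtain ⟨Bψ, hBψ⟩ := hψB
  refine ⟨hε.mul (hψm.comp hζ.1), ⟨Bψ, fun ω => ?_⟩, ?_⟩
  · rcases hε1 ω with e | e <;> simp [e, hBψ]
  intro h hm hB hodd
  have e1 : ∀ ω, h (ε ω * ψ (ζ ω)) = ε ω * h (ψ (ζ ω)) := by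
    intro ω
    rcases hε1 ω with e | e
    · simp [e]
    · simp [e, hodd]
  have e2 : ∀ ω, h (ε ω * ψ (ζ ω)) * Real.tanh (ε ω * ψ (ζ ω)) =
      θ * (h (ψ (ζ ω)) * Real.tanh (ζ ω)) := by
    intro ω
    rcases hε1 ω with e | e
    · simp only [e, one_mul, hψ]
      ring
    · simp only [e, neg_mul, one_mul, hodd, Real.tanh_neg, hψ]
      ring
  have hgm : Measurable (fun z => h (ψ z)) := hm.comp hψm
  obtain ⟨Bh, hBh⟩ := hB
  have k := hζ.2.2 (fun z => h (ψ z)) hgm ⟨Bh, fun x => hBh _⟩ (fun x => by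
    simp only [hψo, hodd])
  have ind : ∫ ω, ε ω * h (ψ (ζ ω)) ∂μ = θ * ∫ ω, h (ψ (ζ ω)) ∂μ := by
    have hi' : ProbabilityTheory.IndepFun ε (fun ω => h (ψ (ζ ω))) μ :=
      hi.comp (φ := id) (ψ := fun z => h (ψ z)) measurable_id hgm
    have := hi'.integral_fun_mul_eq_mul_integral hε.aestronglyMeasurable
      (hgm.comp hζ.1).aestronglyMeasurable
    rw [this, hεm]
  rw [integral_congr_ae (ae_of_all _ e1), integral_congr_ae (ae_of_all _ e2), ind,
    integral_const_mul, k]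

/-- an independent on/off switch keeps the class -/
theorem nish_switch {Z : Ω → ℝ} {E : Set Ω} (hE : MeasurableSet E) (hZ : Nish μ Z)
    (hi : ProbabilityTheory.IndepFun (E.indicator (fun _ => (1 : ℝ))) Z μ) :
    Nish μ (fun ω => E.indicator (fun _ => (1 : ℝ)) ω * Z ω) := by
  have hIm : Measurable (E.indicator (fun _ => (1 : ℝ))) := measurable_const.indicator hE
  obtain ⟨B, hB⟩ := hZ.2.1
  refine ⟨hIm.mul hZ.1, ⟨|B|, fun ω => ?_⟩, ?_⟩
  · by_cases hω : ω ∈ E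
    · simp only [Set.indicator_of_mem hω, one_mul]
      exact (hB ω).trans (le_abs_self B)
    · simp only [Set.indicator_of_notMem hω, zero_mul, abs_zero]
      exact abs_nonneg B
  intro h hm hBh hodd
  have h0 : h 0 = 0 := by
    have := hodd 0
    rw [neg_zero] at this
    linarith
  have e1 : ∀ ω, h (E.indicator (fun _ => (1 : ℝ)) ω * Z ω) =
      E.indicator (fun _ => (1 : ℝ)) ω * h (Z ω) := by
    intro ω
    by_cases hω : ω ∈ E
    · simp only [Set.indicator_of_mem hω, one_mul]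
    · simp only [Set.indicator_of_notMem hω, zero_mul, h0]
  have e2 : ∀ ω, h (E.indicator (fun _ => (1 : ℝ)) ω * Z ω) *
      Real.tanh (E.indicator (fun _ => (1 : ℝ)) ω * Z ω) =
      E.indicator (fun _ => (1 : ℝ)) ω * (h (Z ω) * Real.tanh (Z ω)) := by
    intro ω
    by_cases hω : ω ∈ E
    · simp only [Set.indicator_of_mem hω, one_mul]
    · simp only [Set.indicator_of_notMem hω, zero_mul, h0]
  have hBM : BMf h := ⟨hm, hBh⟩
  have hg2 : BMf (fun z => h z * Real.tanh z) := hBM.mul bm_tanh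
  have i1 := (hi.comp (φ := id) (ψ := h) measurable_id hm).integral_fun_mul_eq_mul_integral
    hIm.aestronglyMeasurable (hm.comp hZ.1).aestronglyMeasurable
  have i2 := (hi.comp (φ := id) (ψ := fun z => h z * Real.tanh z) measurable_id
    hg2.1).integral_fun_mul_eq_mul_integral
    hIm.aestronglyMeasurable (hg2.1.comp hZ.1).aestronglyMeasurable
  rw [integral_congr_ae (ae_of_all _ e1), integral_congr_ae (ae_of_all _ e2)]
  simp only [id_eq, Function.comp] at i1 i2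
  rw [i1, i2, hZ.2.2 h hm hBh hodd]

/-! ### second moments -/

section Second

/-- The pointwise identity behind `nish_sec`. -/
lemma nb_sec_pt (x y : ℝ) :
    (1 + Real.tanh x * Real.tanh y) / 2 * (1 - Real.tanh (x + y) ^ 2)
      + (1 - Real.tanh x * Real.tanh y) / 2 * (1 - Real.tanh (x - y) ^ 2) =
    (1 - Real.tanh x ^ 2) * (1 - Real.tanh y ^ 2) / (1 - Real.tanh x ^ 2 * Real.tanh y ^ 2) := by
  have hp := tanh_mul_pos x y
  have hm := tanh_mul_pos' x y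
  have t1 : Real.tanh (x + y) = (Real.tanh x + Real.tanh y) / (1 + Real.tanh x * Real.tanh y) := by
    rw [eq_div_iff hp.ne', mul_comm]
    exact tanh_add' x y
  have t2 : Real.tanh (x - y) = (Real.tanh x - Real.tanh y) / (1 - Real.tanh x * Real.tanh y) := by
    rw [eq_div_iff hm.ne', mul_comm]
    exact tanh_sub' x y
  have hd : 1 - Real.tanh x ^ 2 * Real.tanh y ^ 2 ≠ 0 := by
    have : 1 - Real.tanh x ^ 2 * Real.tanh y ^ 2 =
        (1 + Real.tanh x * Real.tanh y) * (1 - Real.tanh x * Real.tanh y) := by ring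
    rw [this]
    exact (mul_pos hp hm).ne'
  rw [t1, t2]
  generalize Real.tanh x = U at *
  generalize Real.tanh y = V at *
  have hp' := hp.ne'
  have hm' := hm.ne'
  field_simp
  ring

lemma nb_bm_sq : BMf (fun z => 1 - Real.tanh z ^ 2) := by
  refine ⟨measurable_const.sub (measurable_tanh'.pow_const 2), 1, fun z => ?_⟩
  have h1 := Real.tanh_sq_lt_one z
  have h2 := sq_nonneg (Real.tanh z)
  rw [abs_le]
  constructor <;> linarith

lemma nb_bm_sq' : BMf (fun z => Real.tanh z ^ 2) := by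
  refine ⟨measurable_tanh'.pow_const 2, 1, fun z => ?_⟩
  have h1 := Real.tanh_sq_lt_one z
  have h2 := sq_nonneg (Real.tanh z)
  rw [abs_le]
  constructor <;> linarith

lemma nb_one_sub {f : Ω → ℝ} (hf : Integrable f μ) :
    ∫ ω, (1 - f ω) ∂μ = 1 - ∫ ω, f ω ∂μ := by
  rw [integral_sub (integrable_const 1) hf]
  simp

/-- second moment identity -/
theorem nish_sec {Z₁ Z₂ : Ω → ℝ} (h₁ : Nish μ Z₁) (h₂ : Nish μ Z₂)
    (hi : ProbabilityTheory.IndepFun Z₁ Z₂ μ) :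
    1 - ∫ ω, Real.tanh (Z₁ ω + Z₂ ω) ^ 2 ∂μ =
      ∫ ω, (1 - Real.tanh (Z₁ ω) ^ 2) * (1 - Real.tanh (Z₂ ω) ^ 2)
        / (1 - Real.tanh (Z₁ ω) ^ 2 * Real.tanh (Z₂ ω) ^ 2) ∂μ := by
  have tp := nish_two_point h₁ h₂ hi nb_bm_sq.1 nb_bm_sq.2 (fun x => by
    simp only [Real.tanh_neg]
    ring)
  have hS : Measurable (fun ω => Z₁ ω + Z₂ ω) := h₁.1.add h₂.1
  rw [← nb_one_sub (nb_bm_sq'.comp hS).integrable, tp]
  exact integral_congr_ae (ae_of_all _ (fun ω => nb_sec_pt _ _))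

/-- `E [(1-U²)(1-V²)] = (1 - E U²)(1 - E V²)`. -/
lemma nb_prod_indep {Z₁ Z₂ : Ω → ℝ} (h₁ : Nish μ Z₁) (h₂ : Nish μ Z₂)
    (hi : ProbabilityTheory.IndepFun Z₁ Z₂ μ) :
    ∫ ω, (1 - Real.tanh (Z₁ ω) ^ 2) * (1 - Real.tanh (Z₂ ω) ^ 2) ∂μ =
      (1 - ∫ ω, Real.tanh (Z₁ ω) ^ 2 ∂μ) * (1 - ∫ ω, Real.tanh (Z₂ ω) ^ 2 ∂μ) := by
  have := (hi.comp (φ := fun z => 1 - Real.tanh z ^ 2) (ψ := fun z => 1 - Real.tanh z ^ 2)
    nb_bm_sq.1 nb_bm_sq.1).integral_fun_mul_eq_mul_integral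
    (nb_bm_sq.1.comp h₁.1).aestronglyMeasurable (nb_bm_sq.1.comp h₂.1).aestronglyMeasurable
  simp only [Function.comp] at this
  rw [this, nb_one_sub (nb_bm_sq'.comp h₁.1).integrable,
    nb_one_sub (nb_bm_sq'.comp h₂.1).integrable]

lemma nb_prod_indep' {Z₁ Z₂ : Ω → ℝ} (h₁ : Nish μ Z₁) (h₂ : Nish μ Z₂)
    (hi : ProbabilityTheory.IndepFun Z₁ Z₂ μ) :
    ∫ ω, Real.tanh (Z₁ ω) ^ 2 * Real.tanh (Z₂ ω) ^ 2 ∂μ =
      (∫ ω, Real.tanh (Z₁ ω) ^ 2 ∂μ) * ∫ ω, Real.tanh (Z₂ ω) ^ 2 ∂μ := by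
  have := (hi.comp (φ := fun z => Real.tanh z ^ 2) (ψ := fun z => Real.tanh z ^ 2)
    nb_bm_sq'.1 nb_bm_sq'.1).integral_fun_mul_eq_mul_integral
    (nb_bm_sq'.1.comp h₁.1).aestronglyMeasurable (nb_bm_sq'.1.comp h₂.1).aestronglyMeasurable
  simp only [Function.comp] at this
  rw [this]

lemma nb_xy_facts (x y : ℝ) :
    0 < 1 - Real.tanh x ^ 2 * Real.tanh y ^ 2 ∧ 1 - Real.tanh x ^ 2 * Real.tanh y ^ 2 ≤ 1 ∧
      0 ≤ Real.tanh x ^ 2 ∧ Real.tanh x ^ 2 < 1 ∧ 0 ≤ Real.tanh y ^ 2 ∧ Real.tanh y ^ 2 < 1 := by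
  have h1 := Real.tanh_sq_lt_one x
  have h2 := Real.tanh_sq_lt_one y
  have h3 := sq_nonneg (Real.tanh x)
  have h4 := sq_nonneg (Real.tanh y)
  refine ⟨?_, ?_, h3, h1, h4, h2⟩
  · nlinarith
  · nlinarith [mul_nonneg h3 h4]

lemma nb_bm_ratio : BMf (fun p : ℝ × ℝ =>
    (1 - Real.tanh p.1 ^ 2) * (1 - Real.tanh p.2 ^ 2) /
      (1 - Real.tanh p.1 ^ 2 * Real.tanh p.2 ^ 2)) := by
  refine ⟨?_, 1, ?_⟩
  · have m1 : Measurable (fun p : ℝ × ℝ => Real.tanh p.1 ^ 2) :=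
      nb_bm_sq'.1.comp measurable_fst
    have m2 : Measurable (fun p : ℝ × ℝ => Real.tanh p.2 ^ 2) :=
      nb_bm_sq'.1.comp measurable_snd
    exact ((measurable_const.sub m1).mul (measurable_const.sub m2)).div
      (measurable_const.sub (m1.mul m2))
  · intro p
    obtain ⟨h1, h2, h3, h4, h5, h6⟩ := nb_xy_facts p.1 p.2
    rw [abs_of_nonneg (div_nonneg (mul_nonneg (by linarith) (by linarith)) h1.le)]
    rw [div_le_one h1]
    nlinarith

/-- upper bound: `1 - E T² ≥ (1 - E U²)(1 - E V²)` -/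
theorem nish_sec_upper {Z₁ Z₂ : Ω → ℝ} (h₁ : Nish μ Z₁) (h₂ : Nish μ Z₂)
    (hi : ProbabilityTheory.IndepFun Z₁ Z₂ μ) :
    (1 - ∫ ω, Real.tanh (Z₁ ω) ^ 2 ∂μ) * (1 - ∫ ω, Real.tanh (Z₂ ω) ^ 2 ∂μ) ≤
      1 - ∫ ω, Real.tanh (Z₁ ω + Z₂ ω) ^ 2 ∂μ := by
  rw [nish_sec h₁ h₂ hi, ← nb_prod_indep h₁ h₂ hi]
  have hP := nb_pair h₁.1 h₂.1
  apply integral_mono
  · exact ((nb_bm_sq.comp measurable_fst).mul (nb_bm_sq.comp measurable_snd)).comp hP |>.integrable
  · exact (nb_bm_ratio.comp hP).integrable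
  · intro ω
    obtain ⟨h1, h2, h3, h4, h5, h6⟩ := nb_xy_facts (Z₁ ω) (Z₂ ω)
    apply (le_div_iff₀ h1).2
    have h7 : 0 ≤ (1 - Real.tanh (Z₁ ω) ^ 2) * (1 - Real.tanh (Z₂ ω) ^ 2) :=
      mul_nonneg (by linarith) (by linarith)
    nlinarith

/-- lower bound: `E T² ≥ a + b - 3 a b` when `|tanh Z₂|² ≤ 1/2`; monotonicity `E T² ≥ a` -/
theorem nish_sec_lower {Z₁ Z₂ : Ω → ℝ} (h₁ : Nish μ Z₁) (h₂ : Nish μ Z₂)
    (hi : ProbabilityTheory.IndepFun Z₁ Z₂ μ) (hV : ∀ ω, Real.tanh (Z₂ ω) ^ 2 ≤ 1 / 2) :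
    (∫ ω, Real.tanh (Z₁ ω) ^ 2 ∂μ) + (∫ ω, Real.tanh (Z₂ ω) ^ 2 ∂μ)
        - 3 * (∫ ω, Real.tanh (Z₁ ω) ^ 2 ∂μ) * (∫ ω, Real.tanh (Z₂ ω) ^ 2 ∂μ) ≤
      ∫ ω, Real.tanh (Z₁ ω + Z₂ ω) ^ 2 ∂μ := by
  have hs := nish_sec h₁ h₂ hi
  have hP := nb_pair h₁.1 h₂.1
  have i1 : Integrable (fun ω => (1 - Real.tanh (Z₁ ω) ^ 2) * (1 - Real.tanh (Z₂ ω) ^ 2)) μ :=
    ((nb_bm_sq.comp measurable_fst).mul (nb_bm_sq.comp measurable_snd)).comp hP |>.integrable
  have i2 : Integrable (fun ω => Real.tanh (Z₁ ω) ^ 2 * Real.tanh (Z₂ ω) ^ 2) μ :=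
    ((nb_bm_sq'.comp measurable_fst).mul (nb_bm_sq'.comp measurable_snd)).comp hP |>.integrable
  have hle : ∫ ω, (1 - Real.tanh (Z₁ ω) ^ 2) * (1 - Real.tanh (Z₂ ω) ^ 2)
        / (1 - Real.tanh (Z₁ ω) ^ 2 * Real.tanh (Z₂ ω) ^ 2) ∂μ ≤
      ∫ ω, ((1 - Real.tanh (Z₁ ω) ^ 2) * (1 - Real.tanh (Z₂ ω) ^ 2) +
        2 * (Real.tanh (Z₁ ω) ^ 2 * Real.tanh (Z₂ ω) ^ 2)) ∂μ := by
    apply integral_mono
    · exact (nb_bm_ratio.comp hP).integrable
    · exact i1.add (i2.const_mul 2)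
    · intro ω
      obtain ⟨h1, h2, h3, h4, h5, h6⟩ := nb_xy_facts (Z₁ ω) (Z₂ ω)
      have hy := hV ω
      simp only
      rw [div_le_iff₀ h1]
      generalize Real.tanh (Z₁ ω) ^ 2 = x at *
      generalize Real.tanh (Z₂ ω) ^ 2 = y at *
      have hxy : 0 ≤ x * y := mul_nonneg h3 h5
      have h7 : 0 ≤ 1 + x + y - 3 * (x * y) := by nlinarith
      nlinarith [mul_nonneg hxy h7]
  rw [integral_add i1 (i2.const_mul 2), integral_const_mul, nb_prod_indep h₁ h₂ hi,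
    nb_prod_indep' h₁ h₂ hi] at hle
  nlinarith

theorem nish_sec_mono {Z₁ Z₂ : Ω → ℝ} (h₁ : Nish μ Z₁) (h₂ : Nish μ Z₂)
    (hi : ProbabilityTheory.IndepFun Z₁ Z₂ μ) :
    ∫ ω, Real.tanh (Z₁ ω) ^ 2 ∂μ ≤ ∫ ω, Real.tanh (Z₁ ω + Z₂ ω) ^ 2 ∂μ := by
  have hs := nish_sec h₁ h₂ hi
  have hP := nb_pair h₁.1 h₂.1
  have hle : ∫ ω, (1 - Real.tanh (Z₁ ω) ^ 2) * (1 - Real.tanh (Z₂ ω) ^ 2)
        / (1 - Real.tanh (Z₁ ω) ^ 2 * Real.tanh (Z₂ ω) ^ 2) ∂μ ≤
      ∫ ω, (1 - Real.tanh (Z₁ ω) ^ 2) ∂μ := by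
    apply integral_mono
    · exact (nb_bm_ratio.comp hP).integrable
    · exact (nb_bm_sq.comp h₁.1).integrable
    · intro ω
      obtain ⟨h1, h2, h3, h4, h5, h6⟩ := nb_xy_facts (Z₁ ω) (Z₂ ω)
      simp only
      rw [div_le_iff₀ h1]
      nlinarith [mul_nonneg h5 (sq_nonneg (1 - Real.tanh (Z₁ ω) ^ 2))]
  rw [nb_one_sub (nb_bm_sq'.comp h₁.1).integrable] at hle
  linarith

end Second

/-! ### convex domination -/

section Cosh

/-- chord bound for `cosh (a ·)` -/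
lemma nb_chord (a : ℝ) {l t r : ℝ} (h1 : l ≤ t) (h2 : t ≤ r) (h3 : l < r) :
    Real.cosh (a * t) ≤ ((r - t) * Real.cosh (a * l) + (t - l) * Real.cosh (a * r)) / (r - l) := by
  have hd : 0 < r - l := by linarith
  set s₁ := (r - t) / (r - l) with hs₁
  set s₂ := (t - l) / (r - l) with hs₂
  have hs₁0 : 0 ≤ s₁ := div_nonneg (by linarith) hd.le
  have hs₂0 : 0 ≤ s₂ := div_nonneg (by linarith) hd.le
  have hs : s₁ + s₂ = 1 := by
    rw [hs₁, hs₂]
    field_simp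
    ring
  have ht : s₁ * l + s₂ * r = t := by
    rw [hs₁, hs₂]
    field_simp
    ring
  have key : ∀ b : ℝ, Real.exp (b * t) ≤ s₁ * Real.exp (b * l) + s₂ * Real.exp (b * r) := by
    intro b
    have := convexOn_exp.2 (Set.mem_univ (b * l)) (Set.mem_univ (b * r)) hs₁0 hs₂0 hs
    simp only [smul_eq_mul] at this
    have e : s₁ * (b * l) + s₂ * (b * r) = b * t := by
      rw [← ht]
      ring
    rwa [e] at this
  have e1 := key a
  have e2 := key (-a)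
  have e3 : ((r - t) * Real.cosh (a * l) + (t - l) * Real.cosh (a * r)) / (r - l) =
      s₁ * Real.cosh (a * l) + s₂ * Real.cosh (a * r) := by
    rw [hs₁, hs₂]
    field_simp
  rw [e3]
  simp only [Real.cosh_eq]
  simp only [neg_mul] at e2
  linarith

/-- the left-hand side of the pointwise domination -/
def nbL (a U V : ℝ) : ℝ :=
  (1 + U * V) / 2 * Real.cosh (a * ((U + V) / (1 + U * V))) +
    (1 - U * V) / 2 * Real.cosh (a * ((U - V) / (1 - U * V)))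

lemma nbL_core (a : ℝ) {X Y : ℝ} (hY : 0 ≤ Y) (hYX : Y ≤ X) (hX : X < 1) :
    nbL a X Y ≤ Real.cosh (a * X) * Real.cosh (a * Y) := by
  rcases hY.eq_or_lt with rfl | hY0
  · simp [nbL]
    ring_nf
    exact le_rfl
  have hX0 : 0 < X := by linarith
  have hXY : 0 ≤ X * Y := by positivity
  have hXY1 : X * Y < 1 := by nlinarith
  have hp : 0 < 1 + X * Y := by linarith
  have hm : 0 < 1 - X * Y := by linarith
  set Tp := (X + Y) / (1 + X * Y) with hTp
  set Tm := (X - Y) / (1 - X * Y) with hTm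
  have eTp : (1 + X * Y) * Tp = X + Y := by
    rw [hTp]
    field_simp
  have eTm : (1 - X * Y) * Tm = X - Y := by
    rw [hTm]
    field_simp
  have hl : X - Y < X + Y := by linarith
  have hTp1 : X - Y ≤ Tp := by
    rw [hTp, le_div_iff₀ hp]
    nlinarith [mul_nonneg hY0.le (mul_nonneg hX0.le (sub_nonneg.2 hYX)),
      mul_nonneg hX0.le (sub_nonneg.2 hYX)]
  have hTp2 : Tp ≤ X + Y := by
    rw [hTp, div_le_iff₀ hp]
    nlinarith
  have hTm1 : X - Y ≤ Tm := by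
    rw [hTm, le_div_iff₀ hm]
    nlinarith [mul_nonneg (sub_nonneg.2 hYX) hXY]
  have hTm2 : Tm ≤ X + Y := by
    rw [hTm, div_le_iff₀ hm]
    nlinarith [mul_nonneg hY0.le (mul_nonneg hX0.le hX0.le), mul_pos hX0 hY0]
  have c1 := nb_chord a hTp1 hTp2 hl
  have c2 := nb_chord a hTm1 hTm2 hl
  have hd : (X + Y) - (X - Y) = 2 * Y := by ring
  rw [hd] at c1 c2
  have w1 : (1 + X * Y) / 2 * Real.cosh (a * Tp) ≤ (1 + X * Y) / 2 *
      ((((X + Y) - Tp) * Real.cosh (a * (X - Y)) + (Tp - (X - Y)) * Real.cosh (a * (X + Y))) /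
        (2 * Y)) := mul_le_mul_of_nonneg_left c1 (by linarith)
  have w2 : (1 - X * Y) / 2 * Real.cosh (a * Tm) ≤ (1 - X * Y) / 2 *
      ((((X + Y) - Tm) * Real.cosh (a * (X - Y)) + (Tm - (X - Y)) * Real.cosh (a * (X + Y))) /
        (2 * Y)) := mul_le_mul_of_nonneg_left c2 (by linarith)
  have hprod : Real.cosh (a * X) * Real.cosh (a * Y) =
      (Real.cosh (a * (X - Y)) + Real.cosh (a * (X + Y))) / 2 := by
    rw [mul_sub, mul_add, Real.cosh_sub, Real.cosh_add]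
    ring
  rw [hprod]
  unfold nbL
  rw [← hTp, ← hTm]
  have hsum : (1 + X * Y) / 2 *
      ((((X + Y) - Tp) * Real.cosh (a * (X - Y)) + (Tp - (X - Y)) * Real.cosh (a * (X + Y))) /
        (2 * Y)) + (1 - X * Y) / 2 *
      ((((X + Y) - Tm) * Real.cosh (a * (X - Y)) + (Tm - (X - Y)) * Real.cosh (a * (X + Y))) /
        (2 * Y)) = (Real.cosh (a * (X - Y)) + Real.cosh (a * (X + Y))) / 2 := by
    have e1 : (1 + X * Y) / 2 * (X + Y - Tp) + (1 - X * Y) / 2 * (X + Y - Tm) = Y := by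
      have : (1 + X * Y) / 2 * (X + Y - Tp) + (1 - X * Y) / 2 * (X + Y - Tm) =
          (X + Y) - ((1 + X * Y) * Tp + (1 - X * Y) * Tm) / 2 := by ring
      rw [this, eTp, eTm]
      ring
    have e2 : (1 + X * Y) / 2 * (Tp - (X - Y)) + (1 - X * Y) / 2 * (Tm - (X - Y)) = Y := by
      have : (1 + X * Y) / 2 * (Tp - (X - Y)) + (1 - X * Y) / 2 * (Tm - (X - Y)) =
          ((1 + X * Y) * Tp + (1 - X * Y) * Tm) / 2 - (X - Y) := by ring
      rw [this, eTp, eTm]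
      ring
    have e3 : (1 + X * Y) / 2 *
      ((((X + Y) - Tp) * Real.cosh (a * (X - Y)) + (Tp - (X - Y)) * Real.cosh (a * (X + Y))) /
        (2 * Y)) + (1 - X * Y) / 2 *
      ((((X + Y) - Tm) * Real.cosh (a * (X - Y)) + (Tm - (X - Y)) * Real.cosh (a * (X + Y))) /
        (2 * Y)) =
        (((1 + X * Y) / 2 * (X + Y - Tp) + (1 - X * Y) / 2 * (X + Y - Tm)) *
            Real.cosh (a * (X - Y)) +
          ((1 + X * Y) / 2 * (Tp - (X - Y)) + (1 - X * Y) / 2 * (Tm - (X - Y))) *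
            Real.cosh (a * (X + Y))) / (2 * Y) := by ring
    rw [e3, e1, e2]
    field_simp
  linarith

lemma nbL_neg_left (a U V : ℝ) : nbL a (-U) V = nbL a U V := by
  unfold nbL
  have e1 : (-U + V) / (1 + -U * V) = -((U - V) / (1 - U * V)) := by
    rw [show 1 + -U * V = 1 - U * V by ring, show -U + V = -(U - V) by ring, neg_div]
  have e2 : (-U - V) / (1 - -U * V) = -((U + V) / (1 + U * V)) := by
    rw [show 1 - -U * V = 1 + U * V by ring, show -U - V = -(U + V) by ring, neg_div]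
  rw [e1, e2, mul_neg, mul_neg, Real.cosh_neg, Real.cosh_neg,
    show 1 + -U * V = 1 - U * V by ring, show 1 - -U * V = 1 + U * V by ring]
  ring

lemma nbL_neg_right (a U V : ℝ) : nbL a U (-V) = nbL a U V := by
  unfold nbL
  have e1 : (U + -V) / (1 + U * -V) = (U - V) / (1 - U * V) := by
    rw [show 1 + U * -V = 1 - U * V by ring, show U + -V = U - V by ring]
  have e2 : (U - -V) / (1 - U * -V) = (U + V) / (1 + U * V) := by
    rw [show 1 - U * -V = 1 + U * V by ring, show U - -V = U + V by ring]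
  rw [e1, e2, show 1 + U * -V = 1 - U * V by ring, show 1 - U * -V = 1 + U * V by ring]
  ring

lemma nbL_swap (a U V : ℝ) : nbL a V U = nbL a U V := by
  unfold nbL
  have e1 : (V + U) / (1 + V * U) = (U + V) / (1 + U * V) := by
    rw [add_comm V U, mul_comm V U]
  have e2 : (V - U) / (1 - V * U) = -((U - V) / (1 - U * V)) := by
    rw [mul_comm V U, show V - U = -(U - V) by ring, neg_div]
  rw [e1, e2, mul_neg, Real.cosh_neg, mul_comm V U]

lemma nbL_abs (a U V : ℝ) : nbL a |U| |V| = nbL a U V := by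
  rcases abs_choice U with h | h <;> rcases abs_choice V with h' | h' <;> rw [h, h'] <;>
    simp only [nbL_neg_left, nbL_neg_right]

lemma nbL_le (a : ℝ) {U V : ℝ} (hU : |U| < 1) (hV : |V| < 1) :
    nbL a U V ≤ Real.cosh (a * U) * Real.cosh (a * V) := by
  have e1 : Real.cosh (a * |U|) = Real.cosh (a * U) := by
    rcases abs_choice U with h | h <;> rw [h]
    rw [mul_neg, Real.cosh_neg]
  have e2 : Real.cosh (a * |V|) = Real.cosh (a * V) := by
    rcases abs_choice V with h | h <;> rw [h]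
    rw [mul_neg, Real.cosh_neg]
  rw [← nbL_abs, ← e1, ← e2]
  rcases le_total |V| |U| with h | h
  · exact nbL_core a (abs_nonneg _) h hU
  · rw [nbL_swap, mul_comm]
    exact nbL_core a (abs_nonneg _) h hV

lemma nb_bm_cosh (a : ℝ) : BMf (fun z => Real.cosh (a * Real.tanh z)) := by
  refine ⟨Real.measurable_cosh.comp (measurable_const.mul measurable_tanh'), Real.cosh a, fun z => ?_⟩
  rw [abs_of_pos (Real.cosh_pos _)]
  rw [← Real.cosh_abs (a * Real.tanh z), ← Real.cosh_abs a]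
  rw [Real.cosh_le_cosh]
  rw [abs_abs, abs_abs, abs_mul]
  have := (Real.abs_tanh_lt_one z).le
  nlinarith [abs_nonneg a]

/-- domination in convex order: `E cosh(μ T) ≤ E cosh(μ U) E cosh(μ V)`.
Pointwise step: for `0 ≤ Y ≤ X < 1` the two-point law on `T₊=(X+Y)/(1+XY)`, `T₋=(X-Y)/(1-XY)` with
weights `(1±XY)/2` has mean `X` and lies in `[X-Y, X+Y]`; compare chords of a convex function. -/
theorem nish_dom_cosh {Z₁ Z₂ : Ω → ℝ} (h₁ : Nish μ Z₁) (h₂ : Nish μ Z₂)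
    (hi : ProbabilityTheory.IndepFun Z₁ Z₂ μ) (a : ℝ) :
    ∫ ω, Real.cosh (a * Real.tanh (Z₁ ω + Z₂ ω)) ∂μ ≤
      (∫ ω, Real.cosh (a * Real.tanh (Z₁ ω)) ∂μ) * ∫ ω, Real.cosh (a * Real.tanh (Z₂ ω)) ∂μ := by
  have hc := nb_bm_cosh a
  have tp := nish_two_point h₁ h₂ hi hc.1 hc.2 (fun x => by
    rw [Real.tanh_neg, mul_neg, Real.cosh_neg])
  have hP := nb_pair h₁.1 h₂.1
  have ind := (hi.comp (φ := fun z => Real.cosh (a * Real.tanh z))
    (ψ := fun z => Real.cosh (a * Real.tanh z)) hc.1 hc.1).integral_fun_mul_eq_mul_integral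
    (hc.1.comp h₁.1).aestronglyMeasurable (hc.1.comp h₂.1).aestronglyMeasurable
  simp only [Function.comp] at ind
  have e : (∫ ω, Real.cosh (a * Real.tanh (Z₁ ω)) ∂μ) * ∫ ω, Real.cosh (a * Real.tanh (Z₂ ω)) ∂μ =
      ∫ ω, Real.cosh (a * Real.tanh (Z₁ ω)) * Real.cosh (a * Real.tanh (Z₂ ω)) ∂μ := ind.symm
  rw [e, tp]
  apply integral_mono
  · have b1 : BMf (fun p : ℝ × ℝ => (1 + Real.tanh p.1 * Real.tanh p.2) / 2) :=
      ⟨((measurable_const.add ((measurable_tanh'.comp measurable_fst).mul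
        (measurable_tanh'.comp measurable_snd))).div_const 2), 1, fun p => by
        have h1 := tanh_mul_pos p.1 p.2
        have h2 := tanh_mul_pos' p.1 p.2
        rw [abs_le]
        constructor <;> linarith⟩
    have b2 : BMf (fun p : ℝ × ℝ => (1 - Real.tanh p.1 * Real.tanh p.2) / 2) :=
      ⟨((measurable_const.sub ((measurable_tanh'.comp measurable_fst).mul
        (measurable_tanh'.comp measurable_snd))).div_const 2), 1, fun p => by
        have h1 := tanh_mul_pos p.1 p.2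
        have h2 := tanh_mul_pos' p.1 p.2
        rw [abs_le]
        constructor <;> linarith⟩
    exact (((b1.mul (hc.comp (measurable_fst.add measurable_snd))).add
      (b2.mul (hc.comp (measurable_fst.sub measurable_snd)))).comp hP).integrable
  · exact ((hc.comp measurable_fst).mul (hc.comp measurable_snd)).comp hP |>.integrable
  · intro ω
    have hp := tanh_mul_pos (Z₁ ω) (Z₂ ω)
    have hm := tanh_mul_pos' (Z₁ ω) (Z₂ ω)
    have t1 : Real.tanh (Z₁ ω + Z₂ ω) =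
        (Real.tanh (Z₁ ω) + Real.tanh (Z₂ ω)) / (1 + Real.tanh (Z₁ ω) * Real.tanh (Z₂ ω)) := by
      rw [eq_div_iff hp.ne', mul_comm]
      exact tanh_add' _ _
    have t2 : Real.tanh (Z₁ ω - Z₂ ω) =
        (Real.tanh (Z₁ ω) - Real.tanh (Z₂ ω)) / (1 - Real.tanh (Z₁ ω) * Real.tanh (Z₂ ω)) := by
      rw [eq_div_iff hm.ne', mul_comm]
      exact tanh_sub' _ _
    simp only
    rw [t1, t2]
    exact nbL_le a (Real.abs_tanh_lt_one _) (Real.abs_tanh_lt_one _)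

/-- even moment from the `cosh` transform: `E x^{2p} ≤ (2p)! a^{-2p} E cosh(a x)` -/
theorem moment_of_cosh {X : Ω → ℝ} (hX : Measurable X) {B : ℝ} (hB : ∀ ω, |X ω| ≤ B) {a : ℝ}
    (ha : 0 < a) (p : ℕ) :
    ∫ ω, X ω ^ (2 * p) ∂μ ≤ (2 * p).factorial / a ^ (2 * p) * ∫ ω, Real.cosh (a * X ω) ∂μ := by
  have hXB : BMf X := ⟨hX, B, hB⟩
  have hpow : BMf (fun ω => X ω ^ (2 * p)) := by
    refine ⟨hX.pow_const _, |B| ^ (2 * p), fun ω => ?_⟩
    rw [abs_pow]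
    exact pow_le_pow_left₀ (abs_nonneg _) ((hB ω).trans (le_abs_self B)) _
  have hcosh : BMf (fun ω => Real.cosh (a * X ω)) := by
    refine ⟨Real.measurable_cosh.comp (measurable_const.mul hX), Real.cosh (a * |B|), fun ω => ?_⟩
    rw [abs_of_pos (Real.cosh_pos _), ← Real.cosh_abs (a * X ω), ← Real.cosh_abs (a * |B|),
      Real.cosh_le_cosh, abs_abs, abs_abs, abs_mul, abs_mul, abs_abs]
    exact mul_le_mul_of_nonneg_left ((hB ω).trans (le_abs_self B)) (abs_nonneg a)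
  rw [← integral_const_mul]
  apply integral_mono hpow.integrable (hcosh.integrable.const_mul _)
  intro ω
  simp only
  have hs := Real.hasSum_cosh (a * X ω)
  have hterm : (a * X ω) ^ (2 * p) / ((2 * p).factorial : ℝ) ≤ Real.cosh (a * X ω) :=
    le_hasSum hs p (fun n _ => by
      have : 0 ≤ (a * X ω) ^ (2 * n) := by
        rw [pow_mul]
        positivity
      positivity)
  have hfac : (0 : ℝ) < (2 * p).factorial := by positivity
  have hapow : 0 < a ^ (2 * p) := by positivity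
  rw [mul_pow, div_le_iff₀ hfac] at hterm
  rw [div_mul_eq_mul_div, le_div_iff₀ hapow]
  linarith

end Cosh

end Vale.Agent.Lib.P161.Crit
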