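import Vale.Agent.Lib.P161.Crit.Post
import Vale.Agent.Lib.P161.Crit.Nish

/-!
Gauge form of the messages: all even quantities are functions of the iid coordinates `WW V`.
Statements fixed; add lemmas freely.
-/

open MeasureTheory Filter Topology Finset

noncomputable section
namespace Vale.Agent.Lib.P161.Crit

open scoped Classical
open Vale.Agent.Lib.P161

variable {V : Type} (C : CT V)

/-- own-site field in gauge form -/
def gx (p : V → ℝ) (w : WW V) (v : V) : ℝ :=
  ∑' ℓ : ℤ, if (ℓ, v) ∈ Sp (lab w) p then zeta (eps ℓ) (nz ℓ (w (.no (ℓ, v)))) else 0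

/-- depth-`n` message in gauge form -/
def gm (p : V → ℝ) : ℕ → V → V → WW V → ℝ
  | 0, a, _, w => gx p w a
  | n + 1, a, b, w => gx p w a + ∑ c ∈ (C.nb a).erase b, eS C s(a, c) w * psi C.θ (gm p n c a w)

/-- limit message in gauge form -/
def gz (p : V → ℝ) (a b : V) (w : WW V) : ℝ :=
  (limsup (fun n => gm C p n a b w) atTop + liminf (fun n => gm C p n a b w) atTop) / 2

/-- the coordinates of the side of `a` away from `b` -/
def Bc (a b : V) : Set (Ix V) :=
  {i | match i with
    | .ed e => ∀ v ∈ e, C.G.dist v a < C.G.dist v b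
    | .no j => C.G.dist j.2 a < C.G.dist j.2 b
    | .la j => C.G.dist j.2 a < C.G.dist j.2 b}

/-! ### elementary facts -/

lemma g_zeta_neg (ε t : ℝ) : zeta ε (-t) = -zeta ε t := by
  unfold zeta
  have : (1 + ε * -t) / (1 - ε * -t) = ((1 + ε * t) / (1 - ε * t))⁻¹ := by
    rw [inv_div]; congr 1 <;> ring
  rw [this, Real.log_inv]; ring

lemma zeta_sign {s : ℝ} (hs : s = 1 ∨ s = -1) (ε t : ℝ) : zeta ε (s * t) = s * zeta ε t := by
  rcases hs with rfl | rfl
  · simp
  · simp [g_zeta_neg]

lemma psi_sign {s : ℝ} (hs : s = 1 ∨ s = -1) (z : ℝ) : psi C.θ (s * z) = s * psi C.θ z := by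
  rcases hs with rfl | rfl
  · simp
  · simp [psi_neg]

lemma sign_mul_self {s : ℝ} (hs : s = 1 ∨ s = -1) : s * s = 1 := by
  rcases hs with rfl | rfl <;> norm_num

lemma spin_mul_self' (ω : Om V) (v : V) : spin C ω v * spin C ω v = 1 :=
  sign_mul_self (spin_cases C ω v)

lemma real_limsup_neg (u : ℕ → ℝ) :
    limsup (fun n => -u n) atTop = -liminf u atTop := by
  have key : {a : ℝ | ∀ᶠ n in atTop, -u n ≤ a} = -{b : ℝ | ∀ᶠ n in atTop, b ≤ u n} := by
    ext a
    simp only [Set.mem_ofPred_eq, Set.mem_neg]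
    constructor
    · intro h; filter_upwards [h] with n hn; linarith
    · intro h; filter_upwards [h] with n hn; linarith
  simp only [limsup, liminf, limsSup, limsInf, eventually_map]
  rw [key, Real.sInf_def, neg_neg]

lemma real_liminf_neg (u : ℕ → ℝ) :
    liminf (fun n => -u n) atTop = -limsup u atTop := by
  have h := real_limsup_neg (fun n => -u n)
  simp only [neg_neg] at h
  rw [h, neg_neg]

lemma mid_sign {s : ℝ} (hs : s = 1 ∨ s = -1) (u : ℕ → ℝ) :
    (limsup (fun n => s * u n) atTop + liminf (fun n => s * u n) atTop) / 2 =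
      s * ((limsup u atTop + liminf u atTop) / 2) := by
  rcases hs with rfl | rfl
  · simp
  · simp only [neg_one_mul]
    rw [real_limsup_neg, real_liminf_neg]; ring

lemma mid_of_tendsto {u : ℕ → ℝ} {z : ℝ} (h : Tendsto u atTop (𝓝 z)) :
    (limsup u atTop + liminf u atTop) / 2 = z := by
  rw [h.limsup_eq, h.liminf_eq]; ring

lemma abs_mid_le {u : ℕ → ℝ} {B : ℝ} (h : ∀ n, |u n| ≤ B) :
    |(limsup u atTop + liminf u atTop) / 2| ≤ B := by
  have h1 : ∀ n, u n ≤ B := fun n => (abs_le.1 (h n)).2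
  have h2 : ∀ n, -B ≤ u n := fun n => (abs_le.1 (h n)).1
  have hb : IsBoundedUnder (· ≤ ·) atTop u := isBoundedUnder_of ⟨B, h1⟩
  have hb' : IsBoundedUnder (· ≥ ·) atTop u := isBoundedUnder_of ⟨-B, h2⟩
  have s1 : limsup u atTop ≤ B := limsup_le_of_le hb'.isCoboundedUnder_le (Eventually.of_forall h1)
  have s2 : -B ≤ limsup u atTop :=
    le_limsup_of_frequently_le (Eventually.of_forall h2).frequently hb
  have s3 : liminf u atTop ≤ B :=
    liminf_le_of_frequently_le (Eventually.of_forall h1).frequently hb'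
  have s4 : -B ≤ liminf u atTop :=
    le_liminf_of_le hb.isCoboundedUnder_ge (Eventually.of_forall h2)
  rw [abs_le]; constructor <;> linarith

lemma g_continuous_psi : Continuous (psi C.θ) := by
  have h := psi_lipschitz (C.hθ0.le) (th_lt_one C)
  have : LipschitzWith ⟨C.θ, C.hθ0.le⟩ (psi C.θ) := by
    refine LipschitzWith.of_dist_le_mul fun x y => ?_
    rw [Real.dist_eq, Real.dist_eq]
    exact h x y
  exact this.continuous

lemma g_measurable_psi : Measurable (psi C.θ) := (g_continuous_psi C).measurable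

lemma g_pM_nonneg : 0 ≤ pM C := (abs_nonneg _).trans (abs_psi_le C 0)

/-! ### the gauge relations -/

lemma gauge_fld (p : V → ℝ) (ω : Om V) (v : V) :
    fld C (Sp (lab ω.2) p) ω v = spin C ω v * gx p ω.2 v := by
  unfold fld gx
  rw [← tsum_mul_left]
  refine tsum_congr fun ℓ => ?_
  by_cases h : (ℓ, v) ∈ Sp (lab ω.2) p
  · simp only [if_pos h]
    unfold yy
    exact zeta_sign (spin_cases C ω v) _ _
  · simp only [if_neg h, mul_zero]

lemma spin_step (ω : Om V) {a c : V} (hac : C.G.Adj a c) :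
    spin C ω c = spin C ω a * eS C s(a, c) ω.2 := by
  rw [← spin_adj C ω hac, ← mul_assoc, spin_mul_self', one_mul]

theorem gauge_msg (p : V → ℝ) (ω : Om V) (n : ℕ) (a b : V) (hab : C.G.Adj a b) :
    msg C (fld C (Sp (lab ω.2) p) ω) n a b = spin C ω a * gm C p n a b ω.2 := by
  induction n generalizing a b with
  | zero => simp only [msg, gm]; exact gauge_fld C p ω a
  | succ n ih =>
    simp only [msg, gm]
    rw [gauge_fld, mul_add, Finset.mul_sum]
    congr 1
    refine Finset.sum_congr rfl fun c hc => ?_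
    have hac : C.G.Adj a c := (C.hnb a c).1 (Finset.mem_of_mem_erase hc)
    rw [ih c a hac.symm, psi_sign C (spin_cases C ω c), spin_step C ω hac]
    ring

theorem gauge_zl (p : V → ℝ) (ω : Om V) (a b : V) (hab : C.G.Adj a b) :
    zl C (fld C (Sp (lab ω.2) p) ω) a b = spin C ω a * gz C p a b ω.2 := by
  unfold zl gz
  simp only [gauge_msg C p ω _ a b hab]
  exact mid_sign (spin_cases C ω a) _

lemma gx_eq (p : V → ℝ) (s : Bool) (w : WW V) (v : V) :
    gx p w v = spin C (s, w) v * fld C (Sp (lab w) p) (s, w) v := by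
  have h := gauge_fld C p (s, w) v
  simp only at h
  rw [h, ← mul_assoc, spin_mul_self', one_mul]

/-- the summands of the own-site field -/
def tg (p : V → ℝ) (v : V) (ℓ : ℤ) (w : WW V) : ℝ :=
  if (ℓ, v) ∈ Sp (lab w) p then zeta (eps ℓ) (nz ℓ (w (.no (ℓ, v)))) else 0

/-- the bound of the summands -/
def bb (L ℓ : ℤ) : ℝ := if ℓ ≤ L then zeta (eps ℓ) 1 else 0

lemma eps_lt_one (ℓ : ℤ) : eps ℓ < 1 := by
  have := eps_le ℓ
  linarith

lemma zeta_le_one {ε t : ℝ} (h0 : 0 ≤ ε) (h1 : ε < 1) (ht : |t| ≤ 1) : zeta ε t ≤ zeta ε 1 := by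
  obtain ⟨t1, t2⟩ := abs_le.1 ht
  have hεt : ε * t ≤ ε := by nlinarith
  have hεt' : -ε ≤ ε * t := by nlinarith
  have hp : 0 < 1 + ε * t := by linarith
  have hm : 0 < 1 - ε * t := by linarith
  have hm1 : 0 < 1 - ε * 1 := by linarith
  unfold zeta
  refine mul_le_mul_of_nonneg_left (Real.log_le_log (by positivity) ?_) (by norm_num)
  rw [div_le_div_iff₀ hm hm1]
  nlinarith

lemma abs_zeta_le {ε t : ℝ} (h0 : 0 ≤ ε) (h1 : ε < 1) (ht : |t| ≤ 1) :
    |zeta ε t| ≤ zeta ε 1 := by
  rw [abs_le]
  constructor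
  · have := zeta_le_one h0 h1 (t := -t) (by rwa [abs_neg])
    rw [g_zeta_neg] at this
    linarith
  · exact zeta_le_one h0 h1 ht

lemma g_zeta_one_nonneg {ε : ℝ} (h0 : 0 ≤ ε) (h1 : ε < 1) : 0 ≤ zeta ε 1 :=
  (abs_nonneg _).trans (abs_zeta_le (t := 1) h0 h1 (by norm_num))

lemma abs_term_le (ℓ : ℤ) (x : ℝ) : |zeta (eps ℓ) (nz ℓ x)| ≤ zeta (eps ℓ) 1 :=
  abs_zeta_le (eps_pos ℓ).le (eps_lt_one ℓ) (abs_nz_le ℓ x)

lemma bb_nonneg (L ℓ : ℤ) : 0 ≤ bb L ℓ := by
  unfold bb
  split_ifs
  · exact g_zeta_one_nonneg (eps_pos ℓ).le (eps_lt_one ℓ)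
  · exact le_rfl

lemma abs_tg_le {p : V → ℝ} {T : ℝ} (hp : ∀ v, p v ≤ T) (v : V) (ℓ : ℤ) (w : WW V) :
    |tg p v ℓ w| ≤ bb (LT T) ℓ := by
  unfold tg
  split_ifs with h
  · have h2 : ℓ ≤ LT T := Sp_le hp _ h
    unfold bb
    rw [if_pos h2]
    exact abs_term_le ℓ _
  · rw [abs_zero]; exact bb_nonneg _ _

lemma summable_bb (L : ℤ) : Summable (bb L) := summable_Bf L

lemma hasSum_tg {p : V → ℝ} {T : ℝ} (hp : ∀ v, p v ≤ T) (v : V) (w : WW V) :
    HasSum (fun ℓ => tg p v ℓ w) (gx p w v) :=
  (Summable.of_norm_bounded (summable_bb (LT T)) (fun ℓ => by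
    rw [Real.norm_eq_abs]; exact abs_tg_le hp v ℓ w)).hasSum

lemma measurable_set_fired (p : V → ℝ) (v : V) (ℓ : ℤ) :
    MeasurableSet {w : WW V | (ℓ, v) ∈ Sp (lab w) p} :=
  (LS_Sp (p := fun _ => p) (fun _ => measurable_const)) (ℓ, v)

lemma measurable_no_term (ℓ : ℤ) (j : Stp V) :
    Measurable fun w : WW V => zeta (eps ℓ) (nz ℓ (w (.no j))) :=
  (measurable_zeta _).comp ((measurable_nz ℓ).comp (measurable_pi_apply _))

lemma measurable_tg (p : V → ℝ) (v : V) (ℓ : ℤ) : Measurable (tg p v ℓ) :=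
  Measurable.ite (measurable_set_fired p v ℓ) (measurable_no_term ℓ _) measurable_const

/-- an exhaustion of the stages -/
def gm_stg (n : ℕ) : Finset ℤ := Finset.Icc (-(n : ℤ)) n

lemma tendsto_gm_stg : Tendsto gm_stg atTop atTop := by
  refine tendsto_atTop_finset_of_monotone ?_ ?_
  · intro m n h x hx
    simp only [gm_stg, Finset.mem_Icc] at hx ⊢
    have : (m : ℤ) ≤ n := by exact_mod_cast h
    omega
  · intro x
    refine ⟨x.natAbs, ?_⟩
    simp only [gm_stg, Finset.mem_Icc]
    omega

lemma tendsto_partial {p : V → ℝ} {T : ℝ} (hp : ∀ v, p v ≤ T) (v : V) (w : WW V) :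
    Tendsto (fun n => ∑ ℓ ∈ gm_stg n, tg p v ℓ w) atTop (𝓝 (gx p w v)) :=
  (hasSum_tg hp v w).comp tendsto_gm_stg

lemma measurable_partial (p : V → ℝ) (v : V) (n : ℕ) :
    Measurable fun w : WW V => ∑ ℓ ∈ gm_stg n, tg p v ℓ w :=
  Finset.measurable_sum _ fun ℓ _ => measurable_tg p v ℓ

lemma measurable_gx {p : V → ℝ} {T : ℝ} (hp : ∀ v, p v ≤ T) (v : V) :
    Measurable fun w : WW V => gx p w v :=
  measurable_of_tendsto_metrizable (measurable_partial p v)
    (tendsto_pi_nhds.2 fun w => tendsto_partial hp v w)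

lemma measurable_gm {p : V → ℝ} {T : ℝ} (hp : ∀ v, p v ≤ T) (n : ℕ) (a b : V) :
    Measurable (gm C p n a b) := by
  induction n generalizing a b with
  | zero =>
    have : gm C p 0 a b = fun w => gx p w a := by funext w; simp only [gm]
    rw [this]; exact measurable_gx hp a
  | succ n ih =>
    have : gm C p (n + 1) a b = fun w => gx p w a +
        ∑ c ∈ (C.nb a).erase b, eS C s(a, c) w * psi C.θ (gm C p n c a w) := by
      funext w; simp only [gm]
    rw [this]
    refine (measurable_gx hp a).add (Finset.measurable_sum _ fun c _ => ?_)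
    exact (measurable_eS C _).mul ((g_measurable_psi C).comp (ih c a))

lemma measurable_gz {p : V → ℝ} {T : ℝ} (hp : ∀ v, p v ≤ T) (a b : V) :
    Measurable (gz C p a b) := by
  unfold gz
  have h := fun n => measurable_gm C hp n a b
  exact ((Measurable.limsup h).add (Measurable.liminf h)).div_const 2

lemma abs_gx_le {p : V → ℝ} {T : ℝ} (hp : ∀ v, p v ≤ T) (w : WW V) (v : V) :
    |gx p w v| ≤ Bf (LT T) := by
  have := tsum_of_norm_bounded (summable_bb (LT T)).hasSum (f := fun ℓ => tg p v ℓ w) (fun ℓ => by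
    rw [Real.norm_eq_abs]; exact abs_tg_le hp v ℓ w)
  rwa [Real.norm_eq_abs] at this

lemma abs_gm_le {p : V → ℝ} {T : ℝ} (hp : ∀ v, p v ≤ T) (n : ℕ) (a b : V) (w : WW V) :
    |gm C p n a b w| ≤ Bf (LT T) + C.d * pM C := by
  have hpM := g_pM_nonneg C
  cases n with
  | zero =>
    simp only [gm]
    have := abs_gx_le hp w a
    have h2 : (0 : ℝ) ≤ C.d * pM C := by positivity
    linarith
  | succ n =>
    simp only [gm]
    refine (abs_add_le _ _).trans (add_le_add (abs_gx_le hp w a) ?_)
    refine (Finset.abs_sum_le_sum_abs _ _).trans ?_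
    have hterm : ∀ c ∈ (C.nb a).erase b,
        |eS C s(a, c) w * psi C.θ (gm C p n c a w)| ≤ pM C := by
      intro c _
      rw [abs_mul]
      have h1 : |eS C s(a, c) w| = 1 := by
        rcases eS_cases C s(a, c) w with h | h <;> rw [h] <;> simp
      rw [h1, one_mul]
      exact abs_psi_le C _
    refine (Finset.sum_le_card_nsmul _ _ _ hterm).trans ?_
    rw [nsmul_eq_mul]
    have h3 : (((C.nb a).erase b).card : ℝ) ≤ C.d := by
      have := Finset.card_erase_le (s := C.nb a) (a := b)
      rw [C.hcard a] at this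
      exact_mod_cast this
    exact mul_le_mul_of_nonneg_right h3 hpM

lemma abs_gz_le {p : V → ℝ} {T : ℝ} (hp : ∀ v, p v ≤ T) (a b : V) (w : WW V) :
    |gz C p a b w| ≤ Bf (LT T) + C.d * pM C :=
  abs_mid_le fun n => abs_gm_le C hp n a b w

/-- the gauge messages converge almost surely -/
theorem gm_tendsto {p : V → ℝ} {T : ℝ} (hp : ∀ v, p v ≤ T) :
    ∀ᵐ w ∂(PW V), ∀ a b, C.G.Adj a b →
      Tendsto (fun n => gm C p n a b w) atTop (𝓝 (gz C p a b w)) := by
  have h := mc_ae_ls C (A := fun τ => Sp τ p) (L := LT T) (fun τ => Sp_le hp)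
    (LS_Sp (p := fun _ => p) (fun _ => measurable_const))
  have h2 := Measure.ae_ae_of_ae_prod (μ := sM) (ν := PW V) h
  obtain ⟨s, hs⟩ := h2.exists
  filter_upwards [hs] with w hw a b hab
  obtain ⟨z, hz⟩ := hw a b hab
  have hsq := spin_mul_self' C (s, w) a
  have e : ∀ n, gm C p n a b w = spin C (s, w) a * msg C (fld C (Sp (lab w) p) (s, w)) n a b := by
    intro n
    have := gauge_msg C p (s, w) n a b hab
    simp only at this
    rw [this, ← mul_assoc, hsq, one_mul]
  have hl : Tendsto (fun n => gm C p n a b w) atTop (𝓝 (spin C (s, w) a * z)) := by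
    simp only [e]
    exact hz.const_mul _
  have hm : gz C p a b w = spin C (s, w) a * z := mid_of_tendsto hl
  rw [hm]; exact hl

/-- belief propagation in gauge form -/
theorem gz_bp {p : V → ℝ} {T : ℝ} (hp : ∀ v, p v ≤ T) :
    ∀ᵐ w ∂(PW V), ∀ a b, C.G.Adj a b →
      gz C p a b w = gx p w a + ∑ c ∈ (C.nb a).erase b, eS C s(a, c) w * psi C.θ (gz C p c a w) := by
  filter_upwards [gm_tendsto C hp] with w hw a b hab
  have h1 := (hw a b hab).comp (tendsto_add_atTop_nat 1)
  have h2 : Tendsto (fun n => gx p w a + ∑ c ∈ (C.nb a).erase b,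
      eS C s(a, c) w * psi C.θ (gm C p n c a w)) atTop
      (𝓝 (gx p w a + ∑ c ∈ (C.nb a).erase b, eS C s(a, c) w * psi C.θ (gz C p c a w))) := by
    refine tendsto_const_nhds.add (tendsto_finsetSum _ fun c hc => ?_)
    have hac : C.G.Adj a c := (C.hnb a c).1 (Finset.mem_of_mem_erase hc)
    exact tendsto_const_nhds.mul
      (((g_continuous_psi C).tendsto _).comp (hw c a hac.symm))
  refine tendsto_nhds_unique h1 ?_
  refine h2.congr fun n => ?_
  simp only [Function.comp, gm]

/-! ### graph facts -/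

lemma side_unique {a c c' v : V} (hc : C.G.Adj a c) (hc' : C.G.Adj a c')
    (h : C.G.dist v c < C.G.dist v a) (h' : C.G.dist v c' < C.G.dist v a) : c = c' := by
  have e1 : C.G.dist c v + 1 = C.G.dist a v := by
    rcases dist_adj C.hT v hc with h1 | h1
    · rw [dist_sym c v, dist_sym a v]; omega
    · omega
  have e2 : C.G.dist c' v + 1 = C.G.dist a v := by
    rcases dist_adj C.hT v hc' with h1 | h1
    · rw [dist_sym c' v, dist_sym a v]; omega
    · omega
  exact toward_unique C.hT hc hc' e1 e2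

lemma side_mono {a b c v : V} (hab : C.G.Adj a b) (hac : C.G.Adj a c) (hne : c ≠ b)
    (h : C.G.dist v c < C.G.dist v a) : C.G.dist v a < C.G.dist v b := by
  rcases dist_adj C.hT v hab with h1 | h1
  · exact absurd (side_unique C hac hab h (by omega)) hne
  · omega

lemma dist_self_lt {a b : V} (hab : C.G.Adj a b) : C.G.dist a a < C.G.dist a b := by
  rw [SimpleGraph.dist_self, dist_one_of_adj hab]; norm_num

/-- dependence on the branch coordinates -/
lemma gx_dependsOn_site' (p : V → ℝ) (a : V) {x y : WW V}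
    (hla : ∀ ℓ : ℤ, x (.la (ℓ, a)) = y (.la (ℓ, a)))
    (hno : ∀ ℓ : ℤ, x (.no (ℓ, a)) = y (.no (ℓ, a))) : gx p x a = gx p y a := by
  unfold gx
  refine tsum_congr fun ℓ => ?_
  have h : (ℓ, a) ∈ Sp (lab x) p ↔ (ℓ, a) ∈ Sp (lab y) p := by
    simp [Sp, tm, lab, hla ℓ]
  simp only [h, hno ℓ]

lemma gx_dependsOn (p : V → ℝ) {a b : V} (hab : C.G.Adj a b) :
    DependsOn (fun w : WW V => gx p w a) (Bc C a b) := by
  intro x y h
  refine gx_dependsOn_site' p a (fun ℓ => h _ ?_) (fun ℓ => h _ ?_)
  · exact dist_self_lt C hab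
  · exact dist_self_lt C hab

/-- site coordinates of `a` -/
def Sc (a : V) : Set (Ix V) :=
  {i | match i with
    | .ed _ => False
    | .no j => j.2 = a
    | .la j => j.2 = a}

lemma gx_dependsOn_site (p : V → ℝ) (a : V) :
    DependsOn (fun w : WW V => gx p w a) (Sc a) := by
  intro x y h
  exact gx_dependsOn_site' p a (fun ℓ => h _ rfl) (fun ℓ => h _ rfl)

/-- the sibling branches at `a` (through the edges `a c`) use disjoint coordinates, disjoint
from the site of `a` -/
def Sb (a c : V) : Set (Ix V) := Bc C c a ∪ {.ed s(a, c)}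

lemma Sb_disjoint {a c c' : V} (hc : C.G.Adj a c) (hc' : C.G.Adj a c') (hne : c ≠ c') :
    Disjoint (Sb C a c) (Sb C a c') := by
  rw [Set.disjoint_left]
  intro i hi hi'
  rcases hi with hi | hi <;> rcases hi' with hi' | hi'
  · cases i with
    | ed e =>
      induction e using Sym2.ind with
      | _ u v =>
        exact hne (side_unique C hc hc' (hi u (Sym2.mem_mk_left u v)) (hi' u (Sym2.mem_mk_left u v)))
    | no j => exact hne (side_unique C hc hc' hi hi')
    | la j => exact hne (side_unique C hc hc' hi hi')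
  · simp only [Set.mem_singleton_iff] at hi'
    subst hi'
    have := hi a (Sym2.mem_mk_left a c')
    rw [SimpleGraph.dist_self] at this
    omega
  · simp only [Set.mem_singleton_iff] at hi
    subst hi
    have := hi' a (Sym2.mem_mk_left a c)
    rw [SimpleGraph.dist_self] at this
    omega
  · simp only [Set.mem_singleton_iff] at hi hi'
    rw [hi] at hi'
    have h2 : s(a, c) = s(a, c') := by simpa using hi'
    exact hne (Sym2.congr_right.1 h2)

lemma Sb_disjoint_site {a c : V} (hc : C.G.Adj a c) : Disjoint (Sb C a c) (Sc a) := by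
  rw [Set.disjoint_left]
  intro i hi hi'
  rcases hi with hi | hi
  · cases i with
    | ed e => exact hi'
    | no j =>
      have h2 : j.2 = a := hi'
      have h3 : C.G.dist j.2 c < C.G.dist j.2 a := hi
      rw [h2, SimpleGraph.dist_self] at h3
      omega
    | la j =>
      have h2 : j.2 = a := hi'
      have h3 : C.G.dist j.2 c < C.G.dist j.2 a := hi
      rw [h2, SimpleGraph.dist_self] at h3
      omega
  · simp only [Set.mem_singleton_iff] at hi
    subst hi
    exact hi'

lemma Sb_subset {a b c : V} (hab : C.G.Adj a b) (hc : C.G.Adj a c) (hne : c ≠ b) :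
    Sb C a c ⊆ Bc C a b := by
  intro i hi
  rcases hi with hi | hi
  · cases i with
    | ed e => exact fun v hv => side_mono C hab hc hne (hi v hv)
    | no j => exact side_mono C hab hc hne hi
    | la j => exact side_mono C hab hc hne hi
  · simp only [Set.mem_singleton_iff] at hi
    subst hi
    intro v hv
    rcases Sym2.mem_iff.1 hv with rfl | rfl
    · exact dist_self_lt C hab
    · exact side_mono C hab hc hne (dist_self_lt C hc.symm)

lemma gm_dependsOn (p : V → ℝ) (n : ℕ) {a b : V} (hab : C.G.Adj a b) :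
    DependsOn (gm C p n a b) (Bc C a b) := by
  induction n generalizing a b with
  | zero =>
    intro x y h
    simp only [gm]
    exact gx_dependsOn C p hab h
  | succ n ih =>
    intro x y h
    simp only [gm]
    congr 1
    · exact gx_dependsOn C p hab h
    · refine Finset.sum_congr rfl fun c hc => ?_
      have hac : C.G.Adj a c := (C.hnb a c).1 (Finset.mem_of_mem_erase hc)
      have hne : c ≠ b := Finset.ne_of_mem_erase hc
      have hS := Sb_subset C hab hac hne
      have e : eS C s(a, c) x = eS C s(a, c) y := by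
        unfold eS
        rw [h (.ed s(a, c)) (hS (Or.inr rfl))]
      rw [e, ih hac.symm (fun i hi => h i (hS (Or.inl hi)))]

lemma gz_dependsOn (p : V → ℝ) {a b : V} (hab : C.G.Adj a b) :
    DependsOn (gz C p a b) (Bc C a b) := by
  intro x y h
  unfold gz
  have e : ∀ n, gm C p n a b x = gm C p n a b y := fun n => gm_dependsOn C p n hab h
  simp only [e]

lemma integral_coord (i : Ix V) {f : ℝ → ℝ} (hf : Measurable f) :
    ∫ w : WW V, f (w i) ∂(PW V) = ∫ x, f x ∂lam := by
  have hmp : MeasurePreserving (fun w : WW V => w i) (PW V) lam :=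
    measurePreserving_eval_infinitePi (fun _ : Ix V => lam) i
  have h := integral_map (μ := PW V) hmp.measurable.aemeasurable (f := f)
    (by rw [hmp.map_eq]; exact hf.aestronglyMeasurable)
  rw [hmp.map_eq] at h
  exact h.symm

lemma eS_mean (e : Sym2 V) : ∫ w, eS C e w ∂(PW V) = C.θ := by
  have h1 : ∫ w, eS C e w ∂(PW V) = ∫ x, (if x ≤ C.θ then (1 : ℝ) else -1) ∂lam :=
    integral_coord (.ed e) (f := fun x => if x ≤ C.θ then (1 : ℝ) else -1)
      (Measurable.ite measurableSet_Iic measurable_const measurable_const)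
  rw [h1]
  have h2 := integral_eS_lam C 0 id
  simp only [id] at h2
  rw [h2]; ring

/-! ### the symmetric class -/

lemma cl_neg (t : ℝ) : cl (-t) = -cl t := by
  simp only [cl, max_def, min_def]
  split_ifs <;> linarith

lemma integral_lam_neg (F : ℝ → ℝ) : ∫ t, F (-t) ∂lam = ∫ t, F t ∂lam := by
  rw [integral_lam, integral_lam]
  congr 1
  rw [integral_Icc_eq_integral_Ioc, integral_Icc_eq_integral_Ioc,
    ← intervalIntegral.integral_of_le (by norm_num),
    ← intervalIntegral.integral_of_le (by norm_num), intervalIntegral.integral_comp_neg]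
  norm_num

lemma tanh_zeta {ε t : ℝ} (h : |ε * t| < 1) : Real.tanh (zeta ε t) = ε * t := by
  obtain ⟨h2, h3⟩ := abs_lt.1 h
  have hp : 0 < 1 + ε * t := by linarith
  have hm : 0 < 1 - ε * t := by linarith
  have hr : 0 < (1 + ε * t) / (1 - ε * t) := by positivity
  have hE2 : Real.exp (zeta ε t) ^ 2 = (1 + ε * t) / (1 - ε * t) := by
    rw [← Real.exp_nat_mul]
    unfold zeta
    have : ((2 : ℕ) : ℝ) * (1 / 2 * Real.log ((1 + ε * t) / (1 - ε * t))) =
        Real.log ((1 + ε * t) / (1 - ε * t)) := by push_cast; ring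
    rw [this, Real.exp_log hr]
  have hEpos : 0 < Real.exp (zeta ε t) := Real.exp_pos _
  rw [Real.tanh_eq_sinh_div_cosh, Real.sinh_eq, Real.cosh_eq, Real.exp_neg]
  generalize Real.exp (zeta ε t) = E at hE2 hEpos
  have e1 : (E - E⁻¹) / 2 = (E ^ 2 - 1) / (2 * E) := by field_simp
  have e2 : (E + E⁻¹) / 2 = (E ^ 2 + 1) / (2 * E) := by field_simp
  rw [e1, e2, hE2]
  field_simp
  ring

lemma nish_core {ε : ℝ} (h0 : 0 ≤ ε) (h1 : ε < 1) {h : ℝ → ℝ} (hm : Measurable h) {B : ℝ}
    (hB : ∀ x, |h x| ≤ B) (hodd : ∀ x, h (-x) = -h x) :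
    ∫ x, h (zeta ε (Sf x ε)) ∂lam =
      ∫ x, h (zeta ε (Sf x ε)) * Real.tanh (zeta ε (Sf x ε)) ∂lam := by
  have hc : |ε| ≤ ε := (abs_of_nonneg h0).le
  rw [integral_Sf h1 hc (fun t => h (zeta ε t)),
    integral_Sf h1 hc (fun t => h (zeta ε t) * Real.tanh (zeta ε t))]
  have hB0 : 0 ≤ B := (abs_nonneg _).trans (hB 0)
  have hbd : ∀ t, |ε * cl t| < 1 := by
    intro t
    rw [abs_mul, abs_of_nonneg h0]
    have := abs_cl_le t
    nlinarith [abs_nonneg (cl t)]
  have hHm : Measurable fun t => h (zeta ε (cl t)) :=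
    hm.comp ((measurable_zeta ε).comp measurable_cl)
  have hclm : Measurable cl := measurable_cl
  have hint1 : Integrable (fun t => h (zeta ε (cl t)) * (1 + ε * cl t)) lam := by
    refine Integrable.of_bound (C := B * 2)
      (hHm.mul (measurable_const.add (measurable_const.mul hclm))).aestronglyMeasurable
      (ae_of_all _ fun t => ?_)
    rw [Real.norm_eq_abs, abs_mul]
    have h3 : |1 + ε * cl t| ≤ 2 := by
      have := abs_lt.1 (hbd t)
      rw [abs_le]; constructor <;> linarith [this.1, this.2]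
    exact mul_le_mul (hB _) h3 (abs_nonneg _) hB0
  have hint2 : Integrable (fun t => h (zeta ε (cl t)) * (ε * cl t) * (1 + ε * cl t)) lam := by
    refine Integrable.of_bound (C := B * 2)
      ((hHm.mul (measurable_const.mul hclm)).mul
        (measurable_const.add (measurable_const.mul hclm))).aestronglyMeasurable
      (ae_of_all _ fun t => ?_)
    rw [Real.norm_eq_abs, abs_mul, abs_mul]
    have h3 : |1 + ε * cl t| ≤ 2 := by
      have := abs_lt.1 (hbd t)
      rw [abs_le]; constructor <;> linarith [this.1, this.2]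
    have h4 : |h (zeta ε (cl t))| * |ε * cl t| ≤ B :=
      calc |h (zeta ε (cl t))| * |ε * cl t| ≤ B * 1 :=
            mul_le_mul (hB _) (hbd t).le (abs_nonneg _) hB0
        _ = B := mul_one B
    exact mul_le_mul h4 h3 (abs_nonneg _) hB0
  have e2 : (fun t => h (zeta ε (cl t)) * Real.tanh (zeta ε (cl t)) * (1 + ε * cl t)) =
      fun t => h (zeta ε (cl t)) * (ε * cl t) * (1 + ε * cl t) := by
    funext t
    rw [tanh_zeta (hbd t)]
  rw [e2, ← sub_eq_zero, ← integral_sub hint1 hint2]
  -- the integrand is odd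
  set F : ℝ → ℝ := fun t =>
    h (zeta ε (cl t)) * (1 + ε * cl t) - h (zeta ε (cl t)) * (ε * cl t) * (1 + ε * cl t) with hF
  have hoddF : ∀ t, F (-t) = -F t := by
    intro t
    simp only [hF, cl_neg, g_zeta_neg, hodd]
    ring
  have h5 := integral_lam_neg F
  simp only [hoddF] at h5
  rw [integral_neg] at h5
  linarith

lemma g_measurable_tanh : Measurable Real.tanh := by
  have : Real.tanh = fun x => Real.sinh x / Real.cosh x := by
    funext x; exact Real.tanh_eq_sinh_div_cosh x
  rw [this]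
  exact Real.measurable_sinh.div Real.measurable_cosh

lemma nish_coord (ℓ : ℤ) (j : Stp V) :
    Nish (PW V) (fun w => zeta (eps ℓ) (nz ℓ (w (.no j)))) := by
  refine ⟨measurable_no_term ℓ j, ⟨zeta (eps ℓ) 1, fun w => abs_term_le ℓ _⟩, ?_⟩
  rintro h hm ⟨B, hB⟩ hodd
  have hm1 : Measurable fun x => zeta (eps ℓ) (nz ℓ x) := (measurable_zeta _).comp (measurable_nz ℓ)
  have e1 := integral_coord (V := V) (.no j) (f := fun x => h (zeta (eps ℓ) (nz ℓ x))) (hm.comp hm1)
  have e2 := integral_coord (V := V) (.no j)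
    (f := fun x => h (zeta (eps ℓ) (nz ℓ x)) * Real.tanh (zeta (eps ℓ) (nz ℓ x)))
    ((hm.comp hm1).mul (g_measurable_tanh.comp hm1))
  rw [e1, e2]
  exact nish_core (eps_pos ℓ).le (eps_lt_one ℓ) hm hB hodd

lemma nish_tg (p : V → ℝ) (v : V) (ℓ : ℤ) : Nish (PW V) (tg p v ℓ) := by
  set E : Set (WW V) := {w | (ℓ, v) ∈ Sp (lab w) p} with hE
  have hEm : MeasurableSet E := measurable_set_fired p v ℓ
  have hi : ProbabilityTheory.IndepFun (E.indicator (fun _ => (1 : ℝ)))
      (fun w : WW V => zeta (eps ℓ) (nz ℓ (w (.no (ℓ, v))))) (PW V) := by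
    refine indep_of_dependsOn (S := {.la (ℓ, v)}) (S' := {.no (ℓ, v)})
      (measurable_const.indicator hEm) (measurable_no_term ℓ _) ?_ ?_ ?_
    · intro x y h
      have hla : x (.la (ℓ, v)) = y (.la (ℓ, v)) := h _ rfl
      have hiff : x ∈ E ↔ y ∈ E := by
        simp [hE, Sp, tm, lab, hla]
      by_cases hx : x ∈ E
      · rw [Set.indicator_of_mem hx, Set.indicator_of_mem (hiff.1 hx)]
      · rw [Set.indicator_of_notMem hx, Set.indicator_of_notMem (fun hy => hx (hiff.2 hy))]
    · intro x y h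
      have hno : x (.no (ℓ, v)) = y (.no (ℓ, v)) := h _ rfl
      simp only [hno]
    · simp
  have h := nish_switch hEm (nish_coord ℓ (ℓ, v)) hi
  have e : tg p v ℓ = fun w => E.indicator (fun _ => (1 : ℝ)) w *
      zeta (eps ℓ) (nz ℓ (w (.no (ℓ, v)))) := by
    funext w
    unfold tg
    by_cases hw : w ∈ E
    · rw [Set.indicator_of_mem hw, one_mul, if_pos (show (ℓ, v) ∈ Sp (lab w) p from hw)]
    · rw [Set.indicator_of_notMem hw, zero_mul, if_neg (show ¬ (ℓ, v) ∈ Sp (lab w) p from hw)]
  rw [e]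
  exact h

lemma iIndep_tg (p : V → ℝ) (v : V) :
    ProbabilityTheory.iIndepFun (fun (ℓ : ℤ) => tg p v ℓ) (PW V) := by
  refine iIndep_of_dependsOn (S := fun ℓ : ℤ => {.la (ℓ, v), .no (ℓ, v)})
    (measurable_tg p v) ?_ ?_
  · intro ℓ x y h
    have hla : x (.la (ℓ, v)) = y (.la (ℓ, v)) := h _ (Or.inl rfl)
    have hno : x (.no (ℓ, v)) = y (.no (ℓ, v)) := h _ (Or.inr rfl)
    have hiff : (ℓ, v) ∈ Sp (lab x) p ↔ (ℓ, v) ∈ Sp (lab y) p := by
      simp [Sp, tm, lab, hla]
    unfold tg
    simp only [hiff, hno]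
  · intro ℓ ℓ' hne
    rw [Set.disjoint_left]
    intro i hi hi'
    rcases hi with rfl | rfl <;> rcases hi' with hi' | hi' <;> simp_all

/-- own-site field is in the symmetric class -/
theorem nish_gx {p : V → ℝ} {T : ℝ} (hp : ∀ v, p v ≤ T) (v : V) :
    Nish (PW V) (fun w => gx p w v) := by
  refine nish_lim (Z := fun n w => ∑ ℓ ∈ gm_stg n, tg p v ℓ w) (B := Bf (LT T))
    (fun n => nish_sum (gm_stg n) (fun ℓ _ => nish_tg p v ℓ) (iIndep_tg p v)) ?_
    (measurable_gx hp v) (ae_of_all _ fun w => tendsto_partial hp v w) (fun w => abs_gx_le hp w v)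
  intro n w
  refine (Finset.abs_sum_le_sum_abs _ _).trans ?_
  refine (Finset.sum_le_sum fun ℓ _ => abs_tg_le hp v ℓ w).trans ?_
  exact (summable_bb (LT T)).sum_le_tsum _ (fun ℓ _ => bb_nonneg _ _)

lemma eS_dependsOn (e : Sym2 V) : DependsOn (eS C e) {.ed e} := by
  intro x y h
  unfold eS
  rw [h (.ed e) rfl]

lemma term_dependsOn (p : V → ℝ) (n : ℕ) {a c : V} (hac : C.G.Adj a c) :
    DependsOn (fun w => eS C s(a, c) w * psi C.θ (gm C p n c a w)) (Sb C a c) := by
  intro x y h
  have e : eS C s(a, c) x = eS C s(a, c) y := by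
    unfold eS
    rw [h (.ed s(a, c)) (Or.inr rfl)]
  simp only
  rw [e, gm_dependsOn C p n hac.symm (fun i hi => h i (Or.inl hi))]

lemma measurable_term {p : V → ℝ} {T : ℝ} (hp : ∀ v, p v ≤ T) (n : ℕ) (a c : V) :
    Measurable (fun w => eS C s(a, c) w * psi C.θ (gm C p n c a w)) :=
  (measurable_eS C _).mul ((g_measurable_psi C).comp (measurable_gm C hp n c a))

/-- depth-`n` messages are in the symmetric class -/
theorem nish_gm {p : V → ℝ} {T : ℝ} (hp : ∀ v, p v ≤ T) (n : ℕ) {a b : V} (hab : C.G.Adj a b) :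
    Nish (PW V) (gm C p n a b) := by
  induction n generalizing a b with
  | zero =>
    have : gm C p 0 a b = fun w => gx p w a := by funext w; simp only [gm]
    rw [this]; exact nish_gx hp a
  | succ n ih =>
    have hadj : ∀ c : ((C.nb a).erase b : Finset V), C.G.Adj a c.1 := fun c =>
      (C.hnb a c.1).1 (Finset.mem_of_mem_erase c.2)
    have hterm : ∀ c : ((C.nb a).erase b : Finset V), Nish (PW V)
        (fun w => eS C s(a, c.1) w * psi C.θ (gm C p n c.1 a w)) := by
      intro c
      have hac := hadj c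
      refine nish_sign C.hθ0.le (th_lt_one C) (g_measurable_psi C) (psi_neg C)
        ⟨pM C, abs_psi_le C⟩ (tanh_psi C) (measurable_eS C _) (eS_cases C _) (eS_mean C _)
        (ih hac.symm) ?_
      refine indep_of_dependsOn (measurable_eS C _) (measurable_gm C hp n _ _)
        (eS_dependsOn C _) (gm_dependsOn C p n hac.symm) ?_
      rw [Set.disjoint_left]
      intro i hi hi'
      simp only [Set.mem_singleton_iff] at hi
      subst hi
      have := hi' a (Sym2.mem_mk_left a c.1)
      rw [SimpleGraph.dist_self] at this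
      omega
    have hind : ProbabilityTheory.iIndepFun (fun (c : ((C.nb a).erase b : Finset V)) w =>
        eS C s(a, c.1) w * psi C.θ (gm C p n c.1 a w)) (PW V) := by
      refine iIndep_of_dependsOn (S := fun c : ((C.nb a).erase b : Finset V) => Sb C a c.1)
        (fun c => measurable_term C hp n a c.1) (fun c => term_dependsOn C p n (hadj c)) ?_
      intro c c' hne
      exact Sb_disjoint C (hadj c) (hadj c') (fun h => hne (Subtype.ext h))
    have hsum := nish_sum Finset.univ (fun c _ => hterm c) hind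
    have esum : (fun w => ∑ c : ((C.nb a).erase b : Finset V),
        eS C s(a, c.1) w * psi C.θ (gm C p n c.1 a w)) =
        fun w => ∑ c ∈ (C.nb a).erase b, eS C s(a, c) w * psi C.θ (gm C p n c a w) := by
      funext w
      exact Finset.sum_coe_sort ((C.nb a).erase b)
        (fun c => eS C s(a, c) w * psi C.θ (gm C p n c a w))
    rw [esum] at hsum
    have hi : ProbabilityTheory.IndepFun (fun w : WW V => gx p w a)
        (fun w => ∑ c ∈ (C.nb a).erase b, eS C s(a, c) w * psi C.θ (gm C p n c a w)) (PW V) := by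
      refine indep_of_dependsOn (S := Sc a)
        (S' := {i | ∃ c ∈ (C.nb a).erase b, i ∈ Sb C a c})
        (measurable_gx hp a) (Finset.measurable_sum _ fun c _ => measurable_term C hp n a c)
        (gx_dependsOn_site p a) ?_ ?_
      · intro x y h
        refine Finset.sum_congr rfl fun c hc => ?_
        have hac : C.G.Adj a c := (C.hnb a c).1 (Finset.mem_of_mem_erase hc)
        exact term_dependsOn C p n hac (fun i hi => h i ⟨c, hc, hi⟩)
      · rw [Set.disjoint_left]
        rintro i hi ⟨c, hc, hic⟩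
        have hac : C.G.Adj a c := (C.hnb a c).1 (Finset.mem_of_mem_erase hc)
        exact Set.disjoint_left.1 (Sb_disjoint_site C hac) hic hi
    have := nish_add (nish_gx hp a) hsum hi
    have e : gm C p (n + 1) a b = fun w => gx p w a +
        ∑ c ∈ (C.nb a).erase b, eS C s(a, c) w * psi C.θ (gm C p n c a w) := by
      funext w; simp only [gm]
    rw [e]
    exact this

theorem nish_gz {p : V → ℝ} {T : ℝ} (hp : ∀ v, p v ≤ T) {a b : V} (hab : C.G.Adj a b) :
    Nish (PW V) (gz C p a b) := by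
  refine nish_lim (fun n => nish_gm C hp n hab) (fun n w => abs_gm_le C hp n a b w)
    (measurable_gz C hp a b) ?_ (fun w => abs_gz_le C hp a b w)
  filter_upwards [gm_tendsto C hp] with w hw using hw a b hab

/-- the coordinate action of an automorphism -/
def IxMap (g : C.G ≃g C.G) : Ix V ≃ Ix V where
  toFun i := match i with
    | .ed e => .ed (Sym2.map g e)
    | .no j => .no (j.1, g j.2)
    | .la j => .la (j.1, g j.2)
  invFun i := match i with
    | .ed e => .ed (Sym2.map g.symm e)
    | .no j => .no (j.1, g.symm j.2)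
    | .la j => .la (j.1, g.symm j.2)
  left_inv := by
    intro i
    cases i with
    | ed e =>
      induction e using Sym2.ind with
      | _ u v => simp
    | no j => simp
    | la j => simp
  right_inv := by
    intro i
    cases i with
    | ed e =>
      induction e using Sym2.ind with
      | _ u v => simp
    | no j => simp
    | la j => simp

/-- the action on the noise -/
def actW (g : C.G ≃g C.G) (w : WW V) : WW V := fun i => w ((IxMap C g).symm i)

lemma actW_mp (g : C.G ≃g C.G) : MeasurePreserving (actW C g) (PW V) (PW V) :=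
  measurePreserving_perm (IxMap C g)

lemma g_actW_no (g : C.G ≃g C.G) (w : WW V) (ℓ : ℤ) (v : V) :
    actW C g w (.no (ℓ, g v)) = w (.no (ℓ, v)) := by
  simp [actW, IxMap]

lemma g_actW_la (g : C.G ≃g C.G) (w : WW V) (ℓ : ℤ) (v : V) :
    actW C g w (.la (ℓ, g v)) = w (.la (ℓ, v)) := by
  simp [actW, IxMap]

lemma g_actW_ed (g : C.G ≃g C.G) (w : WW V) (a c : V) :
    actW C g w (.ed s(g a, g c)) = w (.ed s(a, c)) := by
  simp [actW, IxMap]

lemma gx_act (g : C.G ≃g C.G) (T : ℝ) (v : V) (w : WW V) :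
    gx (fun _ => T) (actW C g w) (g v) = gx (fun _ => T) w v := by
  unfold gx
  refine tsum_congr fun ℓ => ?_
  have hiff : (ℓ, g v) ∈ Sp (lab (actW C g w)) (fun _ => T) ↔ (ℓ, v) ∈ Sp (lab w) fun _ => T := by
    simp [Sp, tm, lab, g_actW_la]
  simp only [hiff, g_actW_no]

/-- equivariance of the gauge messages at a deterministic common time -/
lemma gm_act (g : C.G ≃g C.G) (T : ℝ) (n : ℕ) (a b : V) (w : WW V) :
    gm C (fun _ => T) n (g a) (g b) (actW C g w) = gm C (fun _ => T) n a b w := by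
  induction n generalizing a b with
  | zero => simp only [gm]; exact gx_act C g T a w
  | succ n ih =>
    simp only [gm]
    rw [gx_act]
    congr 1
    symm
    refine Finset.sum_bij (fun c _ => g c) ?_ ?_ ?_ ?_
    · intro c hc
      have hac : C.G.Adj a c := (C.hnb a c).1 (Finset.mem_of_mem_erase hc)
      have hne : c ≠ b := Finset.ne_of_mem_erase hc
      refine Finset.mem_erase.2 ⟨fun h => hne (g.injective h), (C.hnb _ _).2 ?_⟩
      exact g.map_adj_iff.2 hac
    · intro c _ c' _ h
      exact g.injective h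
    · intro d hd
      have hd1 : C.G.Adj (g a) d := (C.hnb _ _).1 (Finset.mem_of_mem_erase hd)
      have hne : d ≠ g b := Finset.ne_of_mem_erase hd
      refine ⟨g.symm d, Finset.mem_erase.2 ⟨fun h => hne ?_, (C.hnb _ _).2 ?_⟩, by simp⟩
      · rw [← h]; simp
      · have : C.G.Adj (g a) (g (g.symm d)) := by simpa using hd1
        exact g.map_adj_iff.1 this
    · intro c _
      have e : eS C s(g a, g c) (actW C g w) = eS C s(a, c) w := by
        unfold eS
        rw [g_actW_ed]
      rw [e, ih c a]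

lemma gz_act (g : C.G ≃g C.G) (T : ℝ) (a b : V) (w : WW V) :
    gz C (fun _ => T) (g a) (g b) (actW C g w) = gz C (fun _ => T) a b w := by
  unfold gz
  simp only [gm_act]

end Vale.Agent.Lib.P161.Crit
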