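import Vale.Agent.Lib.P161.Crit.StaticE

/-!
Static estimates at criticality: second moment of the messages of order `2^T`, subgaussian moments.
Statements fixed; add lemmas freely. See the paper (papers row P161/helper26), section STATIC.
-/

open MeasureTheory Filter Topology Finset

noncomputable section
namespace Vale.Agent.Lib.P161.Crit

open scoped Classical
open Vale.Agent.Lib.P161

variable {V : Type} (C : CT V)

namespace Static

lemma spin_sq (ω : Om V) (v : V) : spin C ω v * spin C ω v = 1 := by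
  rcases spin_cases C ω v with h | h <;> rw [h] <;> norm_num

lemma spin_adj_eq (ω : Om V) {x c : V} (hxc : C.G.Adj x c) :
    spin C ω c = spin C ω x * eS C s(x, c) ω.2 := by
  rw [← spin_adj C ω hxc, ← mul_assoc, spin_sq, one_mul]

lemma psi_spin (ω : Om V) (v : V) (z : ℝ) :
    psi C.θ (spin C ω v * z) = spin C ω v * psi C.θ z := by
  rcases spin_cases C ω v with h | h <;> rw [h]
  · rw [one_mul, one_mul]
  · rw [neg_one_mul, neg_one_mul, psi_neg]

/-- the magnetisation in gauge form -/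
lemma Ms_gauge (T : ℝ) (x : V) (ω : Om V) :
    Ms C T x ω = spin C ω x * Real.tanh (Zv C T x ω.2) := by
  have h1 : Ms C T x ω = Real.tanh (fld C (Sp (lab ω.2) fun _ => T) ω x +
      ∑ c ∈ C.nb x, psi C.θ (zl C (fld C (Sp (lab ω.2) fun _ => T) ω) c x)) := rfl
  have h2 : fld C (Sp (lab ω.2) fun _ => T) ω x +
      ∑ c ∈ C.nb x, psi C.θ (zl C (fld C (Sp (lab ω.2) fun _ => T) ω) c x)
      = spin C ω x * Zv C T x ω.2 := by
    unfold Zv Tf
    rw [gauge_fld, mul_add, Finset.mul_sum]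
    congr 1
    refine Finset.sum_congr rfl fun c hc => ?_
    have hxc : C.G.Adj x c := (C.hnb x c).1 hc
    rw [gauge_zl C _ ω c x hxc.symm, psi_spin, spin_adj_eq C ω hxc]
    unfold Yt
    ring
  rw [h1, h2]
  rcases spin_cases C ω x with h | h <;> rw [h]
  · rw [one_mul, one_mul]
  · rw [neg_one_mul, neg_one_mul, Real.tanh_neg]

lemma Ms_pow (T : ℝ) (x : V) (ω : Om V) (p : ℕ) :
    Ms C T x ω ^ (2 * p) = Real.tanh (Zv C T x ω.2) ^ (2 * p) := by
  rw [Ms_gauge, pow_mul, pow_mul, mul_pow]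
  have : spin C ω x ^ 2 = 1 := by rw [sq, spin_sq]
  rw [this, one_mul]

lemma integral_Ms_pow (T : ℝ) (x : V) (p : ℕ) :
    ∫ ω, Ms C T x ω ^ (2 * p) ∂(PP V) = ∫ w, Real.tanh (Zv C T x w) ^ (2 * p) ∂(PW V) := by
  simp only [Ms_pow]
  have := integral_fun_snd (μ := sM) (ν := PW V) (fun w => Real.tanh (Zv C T x w) ^ (2 * p))
  unfold PP
  rw [this, probReal_univ, one_smul]

lemma measurable_Zv (T : ℝ) (x : V) : Measurable (Zv C T x) :=
  (fam_nish_and (NF_msg C (fun _ => le_rfl) x) (C.nb x) fun c hc => (C.hnb x c).1 hc).1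

lemma integral_tanh_pow_le (T : ℝ) (x : V) (p : ℕ) :
    ∫ w, Real.tanh (Zv C T x w) ^ (2 * p) ∂(PW V) ≤ 1 := by
  have hle : ∀ z : ℝ, Real.tanh z ^ (2 * p) ≤ 1 := fun z => by
    rw [pow_mul]
    exact pow_le_one₀ (sq_nonneg _) (tanh_sq_le_one z)
  calc ∫ w, Real.tanh (Zv C T x w) ^ (2 * p) ∂(PW V) ≤ ∫ _w, (1 : ℝ) ∂(PW V) :=
        integral_mono_of_nonneg (ae_of_all _ fun w => by
          simp only [Pi.zero_apply]
          rw [pow_mul]; positivity) (integrable_const _) (ae_of_all _ fun w => hle _)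
    _ = 1 := by simp

lemma exists_adj : ∃ a b : V, C.G.Adj a b := by
  have h : 0 < (C.nb C.o).card := by
    rw [C.hcard]
    have := C.hd
    omega
  obtain ⟨b, hb⟩ := Finset.card_pos.1 h
  exact ⟨C.o, b, (C.hnb _ _).1 hb⟩

/-- the main moment computation -/
lemma moment_main {T : ℝ} (x : V) {p : ℕ} (hp1 : 1 ≤ p) (hR1 : Real.rpow 2 T < 1)
    (hpR : (p : ℝ) * Real.rpow 2 T < 1) :
    ∫ w, Real.tanh (Zv C T x w) ^ (2 * p) ∂(PW V) ≤ (156 * p * Real.rpow 2 T) ^ p := by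
  obtain ⟨a, b, hab⟩ := exists_adj C
  set R := Real.rpow 2 T with hRdef
  have hR : 0 < R := Real.rpow_pos_of_pos (by norm_num) T
  have hT : T ≤ 0 := by
    by_contra hc
    rw [not_le] at hc
    have : 1 < R := Real.one_lt_rpow (by norm_num) hc
    linarith
  have hp0 : (0 : ℝ) < p := by exact_mod_cast hp1
  have hp1' : (1 : ℝ) ≤ p := by exact_mod_cast hp1
  set β := Real.sqrt ((p : ℝ) / (13 * R)) with hβ
  have hβ2 : β ^ 2 = (p : ℝ) / (13 * R) := Real.sq_sqrt (by positivity)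
  have hβ0 : 0 < β := Real.sqrt_pos.2 (by positivity)
  -- the number of iterations
  set k := 2 * ⌈-T⌉₊ with hk
  have hkθ : C.θ ^ k ≤ R := theta_pow_le C hT
  have hθ1 := th_lt_one C
  have hθ0 := C.hθ0
  have hRβ : R * β ≤ 1 := by
    have h1 : (R * β) ^ 2 ≤ 1 ^ 2 := by
      rw [mul_pow, hβ2]
      have : R ^ 2 * ((p : ℝ) / (13 * R)) = (p * R) / 13 := by
        field_simp
      rw [this]
      linarith
    exact (abs_le_of_sq_le_sq' h1 (by norm_num)).2
  have hiter : C.θ ^ k * |β * C.θ| ≤ 1 := by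
    rw [abs_of_pos (mul_pos hβ0 hθ0)]
    have h1 : β * C.θ ≤ β := by nlinarith
    calc C.θ ^ k * (β * C.θ) ≤ R * β :=
          mul_le_mul hkθ h1 (by positivity) hR.le
      _ ≤ 1 := hRβ
  have hch := chM_Zv C T β x hab k hiter
  have hq := q_le C T hR1.le hab
  -- the bracket
  have hj : (⌈-T⌉₊ : ℝ) ≤ 1 - T := by
    have := Nat.ceil_lt_add_one (a := -T) (by linarith)
    linarith
  have hjR : (⌈-T⌉₊ : ℝ) * R ≤ 2 :=
    (mul_le_mul_of_nonneg_right hj hR.le).trans (one_sub_mul_rpow_le hT)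
  have hkc : (k : ℝ) = 2 * (⌈-T⌉₊ : ℝ) := by rw [hk]; push_cast; ring
  have hbr : 2 / 3 * R ^ 2 + 3 / 2 * ((k : ℝ) * (2 / 3 * R ^ 2) + sqM (gz C (fun _ => T) a b))
      ≤ 13 * R := by
    rw [hkc]
    have h1 : 2 * (⌈-T⌉₊ : ℝ) * (2 / 3 * R ^ 2) = 4 / 3 * ((⌈-T⌉₊ : ℝ) * R) * R := by ring
    rw [h1]
    have h2 : 4 / 3 * ((⌈-T⌉₊ : ℝ) * R) * R ≤ 8 / 3 * R := by nlinarith
    have h3 : R ^ 2 ≤ R := by nlinarith
    nlinarith
  have hexp : chM β (Zv C T x) ≤ Real.exp p := by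
    refine hch.trans (Real.exp_le_exp.2 ?_)
    calc β ^ 2 * (2 / 3 * R ^ 2 + 3 / 2 * ((k : ℝ) * (2 / 3 * R ^ 2) + sqM (gz C (fun _ => T) a b)))
        ≤ β ^ 2 * (13 * R) := mul_le_mul_of_nonneg_left hbr (sq_nonneg _)
      _ = p := by rw [hβ2]; field_simp
  -- moment
  have hm := moment_of_cosh (μ := PW V) (X := fun w => Real.tanh (Zv C T x w))
    (measurable_tanh'.comp (measurable_Zv C T x)) (B := 1)
    (fun w => (Real.abs_tanh_lt_one _).le) hβ0 p
  have hfac : ((2 * p).factorial : ℝ) ≤ (4 * (p : ℝ) ^ 2) ^ p := by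
    have h1 : (2 * p).factorial ≤ (2 * p) ^ (2 * p) := Nat.factorial_le_pow _
    have h2 : ((2 * p).factorial : ℝ) ≤ ((2 * p : ℕ) : ℝ) ^ (2 * p) := by exact_mod_cast h1
    refine h2.trans (le_of_eq ?_)
    rw [pow_mul]
    congr 1
    push_cast
    ring
  have hβp : β ^ (2 * p) = ((p : ℝ) / (13 * R)) ^ p := by rw [pow_mul, hβ2]
  have he : Real.exp p ≤ 3 ^ p := by
    have h1 : Real.exp p = Real.exp 1 ^ p := by
      rw [← Real.exp_nat_mul]; simp
    rw [h1]
    exact pow_le_pow_left₀ (Real.exp_pos _).le (Real.exp_one_lt_d9.le.trans (by norm_num)) _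
  refine hm.trans ?_
  change ((2 * p).factorial : ℝ) / β ^ (2 * p) * chM β (Zv C T x) ≤ _
  rw [hβp]
  have hp' : (0 : ℝ) < ((p : ℝ) / (13 * R)) ^ p := by positivity
  calc ((2 * p).factorial : ℝ) / ((p : ℝ) / (13 * R)) ^ p * chM β (Zv C T x)
      ≤ (4 * (p : ℝ) ^ 2) ^ p / ((p : ℝ) / (13 * R)) ^ p * 3 ^ p := by
        refine mul_le_mul ?_ (hexp.trans he) (chM_nonneg _ _) (by positivity)
        exact div_le_div_of_nonneg_right hfac hp'.le
    _ = (156 * p * R) ^ p := by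
        rw [← div_pow, ← mul_pow]
        congr 1
        field_simp
        ring

end Static

/-- message second moment lower bound -/
theorem msg_sq_lower : ∃ c : ℝ, 0 < c ∧ c ≤ 1 ∧ ∀ (T : ℝ) (a b : V), C.G.Adj a b →
    c * min 1 (Real.rpow 2 T) ≤ ∫ w, Real.tanh (gz C (fun _ => T) a b w) ^ 2 ∂(PW V) :=
  msg_sq_lower' C

/-- subgaussian moments of the magnetisation -/
theorem Ms_moment : ∃ K : ℝ, 1 ≤ K ∧ ∀ (T : ℝ) (x : V) (p : ℕ), 1 ≤ p →
    ∫ ω, Ms C T x ω ^ (2 * p) ∂(PP V) ≤ (K * p * min 1 (Real.rpow 2 T)) ^ p := by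
  refine ⟨156, by norm_num, fun T x p hp1 => ?_⟩
  rw [Static.integral_Ms_pow]
  have hR : 0 ≤ Real.rpow 2 T := Real.rpow_nonneg (by norm_num) T
  have hp1' : (1 : ℝ) ≤ p := by exact_mod_cast hp1
  by_cases h : (p : ℝ) * min 1 (Real.rpow 2 T) < 1
  · have hR1 : Real.rpow 2 T < 1 := by
      by_contra hc
      rw [not_lt] at hc
      rw [min_eq_left hc] at h
      linarith
    rw [min_eq_right hR1.le] at h ⊢
    exact Static.moment_main C x hp1 hR1 h
  · rw [not_lt] at h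
    refine (Static.integral_tanh_pow_le C T x p).trans ?_
    apply one_le_pow₀
    nlinarith

end Vale.Agent.Lib.P161.Crit
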