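import Vale.Agent.Lib.P161.Crit.BSV
import Vale.Agent.Lib.P161.Crit.Aut
import Vale.Agent.Lib.P161.Crit.Static

/-!
The perpendicular parts of `f` along a path: linear variance; Lipschitz bound by `Dd`.
Statements fixed; add lemmas freely. Paper section HEAD.
-/

open MeasureTheory Filter Topology Finset

noncomputable section
namespace Vale.Agent.Lib.P161.Crit

open scoped Classical
open Vale.Agent.Lib.P161

variable {V : Type} (C : CT V)

/-- `f` of the message -/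
def Fs (T : ℝ) (a b : V) (ω : Om V) : ℝ := ff C (Zs C T a b ω)

/-- perpendicular part of `f` of the message -/
def Fp (T : ℝ) (a b : V) (ω : Om V) : ℝ :=
  Fs C T a b ω - (PP V)[Fs C T a b | GG C] ω

/-- `fo` of the magnetisation -/
def Gs (T : ℝ) (x : V) (ω : Om V) : ℝ := fo (Ms C T x ω)

/-- perpendicular part of `fo` of the magnetisation -/
def Gp (T : ℝ) (x : V) (ω : Om V) : ℝ :=
  Gs C T x ω - (PP V)[Gs C T x | GG C] ω

/-- perpendicular part of the magnetisation -/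
def Mp (T : ℝ) (x : V) (ω : Om V) : ℝ :=
  Ms C T x ω - (PP V)[Ms C T x | GG C] ω

lemma Dd_eq (T : ℝ) (x : V) : Dd C T x = ∫ ω, Mp C T x ω ^ 2 ∂(PP V) := rfl

/-! ### deterministic facts -/

lemma hd_continuous_tanh : Continuous Real.tanh := by
  have : Real.tanh = fun x => Real.sinh x / Real.cosh x := by
    funext x; exact Real.tanh_eq_sinh_div_cosh x
  rw [this]
  exact Real.continuous_sinh.div Real.continuous_cosh (fun x => (Real.cosh_pos x).ne')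

lemma hd_measurable_tanh : Measurable Real.tanh := hd_continuous_tanh.measurable

lemma hd_ff_zero : ff C 0 = 0 := by
  simp [ff]

lemma hd_fo_zero : fo 0 = 0 := by
  simp [fo]

lemma hd_measurable_ff : Measurable (ff C) := by
  have h : LipschitzWith 2 (ff C) := LipschitzWith.of_dist_le_mul (fun x y => by
    simpa [Real.dist_eq] using ff_lip C x y)
  exact h.continuous.measurable

lemma hd_measurable_fo : Measurable fo := by
  unfold fo
  exact (Real.measurable_log.comp (measurable_const.sub (measurable_id.pow_const 2))).neg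

lemma hd_abs_ff_le (z : ℝ) : |ff C z| ≤ 2 * |z| := by
  have := ff_lip C z 0
  simpa [hd_ff_zero] using this

lemma hd_abs_tanh_le (y : ℝ) : |Real.tanh y| ≤ |y| := by
  have hd : ∀ x : ℝ, HasDerivAt Real.tanh (1 / Real.cosh x ^ 2) x := by
    intro x
    have h := (Real.hasDerivAt_sinh x).div (Real.hasDerivAt_cosh x) (Real.cosh_pos x).ne'
    have hfun : Real.sinh / Real.cosh = Real.tanh := by
      funext z; exact (Real.tanh_eq_sinh_div_cosh z).symm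
    have hc := Real.cosh_sq x
    have hv : (Real.cosh x * Real.cosh x - Real.sinh x * Real.sinh x) / Real.cosh x ^ 2 =
        1 / Real.cosh x ^ 2 := by
      congr 1
      nlinarith
    rw [hfun, hv] at h
    exact h
  have hb : ∀ x ∈ (Set.univ : Set ℝ), ‖1 / Real.cosh x ^ 2‖ ≤ 1 := by
    intro x _
    have h1 : 1 ≤ Real.cosh x := Real.one_le_cosh x
    have h2 : 1 ≤ Real.cosh x ^ 2 := by nlinarith
    rw [Real.norm_eq_abs, abs_of_nonneg (by positivity)]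
    exact (div_le_one (by positivity)).mpr h2
  have := Convex.norm_image_sub_le_of_norm_hasDerivWithin_le
    (f := Real.tanh) (f' := fun x => 1 / Real.cosh x ^ 2) (s := Set.univ) (C := 1) (x := 0) (y := y)
    (fun x _ => (hd x).hasDerivWithinAt) hb convex_univ (Set.mem_univ _) (Set.mem_univ _)
  simpa [Real.norm_eq_abs] using this

/-- one-sided Lipschitz estimate for `artanh` -/
lemma hd_artanh_sub_le {M x y : ℝ} (hM : M < 1) (hx : |x| ≤ M) (hy : |y| ≤ M) :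
    Real.artanh x - Real.artanh y ≤ |x - y| / (1 - M) := by
  obtain ⟨hx1, hx2⟩ := abs_le.mp hx
  obtain ⟨hy1, hy2⟩ := abs_le.mp hy
  have hm : 0 < 1 - M := by linarith
  have hxI : x ∈ Set.Icc (-1 : ℝ) 1 := ⟨by linarith, by linarith⟩
  have hyI : y ∈ Set.Icc (-1 : ℝ) 1 := ⟨by linarith, by linarith⟩
  have h1x : 0 < 1 + x := by linarith
  have h2x : 0 < 1 - x := by linarith
  have h1y : 0 < 1 + y := by linarith
  have h2y : 0 < 1 - y := by linarith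
  rw [Real.artanh_eq_half_log hxI, Real.artanh_eq_half_log hyI,
    Real.log_div h1x.ne' h2x.ne', Real.log_div h1y.ne' h2y.ne']
  have e1 : Real.log (1 + x) - Real.log (1 + y) ≤ |x - y| / (1 - M) := by
    rw [← Real.log_div h1x.ne' h1y.ne']
    have := Real.log_le_sub_one_of_pos (div_pos h1x h1y)
    have h3 : (1 + x) / (1 + y) - 1 = (x - y) / (1 + y) := by field_simp; ring
    rw [h3] at this
    refine this.trans ?_
    calc (x - y) / (1 + y) ≤ |x - y| / (1 + y) :=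
          div_le_div_of_nonneg_right (le_abs_self _) h1y.le
      _ ≤ |x - y| / (1 - M) :=
          div_le_div_of_nonneg_left (abs_nonneg _) hm (by linarith)
  have e2 : Real.log (1 - y) - Real.log (1 - x) ≤ |x - y| / (1 - M) := by
    rw [← Real.log_div h2y.ne' h2x.ne']
    have := Real.log_le_sub_one_of_pos (div_pos h2y h2x)
    have h3 : (1 - y) / (1 - x) - 1 = (x - y) / (1 - x) := by field_simp; ring
    rw [h3] at this
    refine this.trans ?_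
    calc (x - y) / (1 - x) ≤ |x - y| / (1 - x) :=
          div_le_div_of_nonneg_right (le_abs_self _) h2x.le
      _ ≤ |x - y| / (1 - M) :=
          div_le_div_of_nonneg_left (abs_nonneg _) hm (by linarith)
  linarith

lemma hd_artanh_lip {M x y : ℝ} (hM : M < 1) (hx : |x| ≤ M) (hy : |y| ≤ M) :
    |Real.artanh x - Real.artanh y| ≤ |x - y| / (1 - M) := by
  rw [abs_le]
  refine ⟨?_, hd_artanh_sub_le hM hx hy⟩
  have := hd_artanh_sub_le hM hy hx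
  rw [abs_sub_comm] at this
  linarith

lemma hd_abs_artanh_le {M x : ℝ} (hM : M < 1) (hx : |x| ≤ M) :
    |Real.artanh x| ≤ |x| / (1 - M) := by
  have hM0 : 0 ≤ M := (abs_nonneg _).trans hx
  have := hd_artanh_lip (y := 0) hM hx (by simpa using hM0)
  simpa [Real.artanh_zero] using this

lemma hd_measurable_artanh : Measurable Real.artanh := by
  unfold Real.artanh
  exact Real.measurable_log.comp (Real.continuous_sqrt.measurable.comp
    ((measurable_const.add measurable_id).div (measurable_const.sub measurable_id)))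

/-- the clip to `[-b, b]` -/
def hdClip (b x : ℝ) : ℝ := max (-b) (min x b)

lemma hd_abs_clip_le {b : ℝ} (hb : 0 ≤ b) (x : ℝ) : |hdClip b x| ≤ b :=
  abs_le.mpr ⟨le_max_left _ _, max_le (by linarith) (min_le_right _ _)⟩

lemma hd_clip_eq {b x : ℝ} (h : |x| ≤ b) : hdClip b x = x := by
  obtain ⟨h1, h2⟩ := abs_le.mp h
  unfold hdClip
  rw [min_eq_left h2, max_eq_right h1]

lemma hd_measurable_clip (b : ℝ) : Measurable (hdClip b) := by
  unfold hdClip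
  exact measurable_const.max (measurable_id.min measurable_const)

/-- the edge map inverted on the limit messages -/
lemma hd_edge_inv {Ti : ℝ × ℝ → ℝ × ℝ} (hTi : ∀ p, Ti (Th C p) = p) {X : V → ℝ} (h : MC C X)
    {a b : V} (hab : C.G.Adj a b) :
    Ti (Real.artanh (mag C X a), Real.artanh (mag C X b)) = (zl C X a b, zl C X b a) := by
  rw [mag_edge C h hab, mag_edge C h hab.symm, Real.artanh_tanh, Real.artanh_tanh]
  exact hTi (zl C X a b, zl C X b a)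

include C in
lemma hd_Bf_nonneg (L : ℤ) : 0 ≤ Bf L := by
  have h := abs_fld_le C (A := ∅) (L := L) (by simp) ((true, fun _ => 0) : Om V) C.o
  exact (abs_nonneg _).trans h

lemma hd_pM_nonneg : 0 ≤ pM C := (abs_nonneg _).trans (abs_psi_le C 0)

lemma hd_LT_mono {T T₀ : ℝ} (h : T ≤ T₀) : LT T ≤ LT T₀ := Int.ceil_mono h

lemma hd_Sq_le {T T₀ : ℝ} (h : T ≤ T₀) (τ : Lab V) : ∀ j ∈ Sq τ T, j.1 ≤ LT T₀ :=
  fun j hj => (Sq_le τ T j hj).trans (hd_LT_mono h)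

/-- bound of the messages -/
def hdR (T₀ : ℝ) : ℝ := Bf (LT T₀) + C.d * pM C

lemma hdR_nonneg (T₀ : ℝ) : 0 ≤ hdR C T₀ := by
  unfold hdR
  have := hd_Bf_nonneg C (LT T₀)
  have := hd_pM_nonneg C
  positivity

/-- bound of the magnetisations -/
def hdM (T₀ : ℝ) : ℝ := Real.tanh (Bf (LT T₀) + C.d * pM C + C.d * pM C)

lemma hdM_lt_one (T₀ : ℝ) : hdM C T₀ < 1 := Real.tanh_lt_one _

lemma hd_abs_Zs_le {T T₀ : ℝ} (h : T ≤ T₀) (a b : V) (ω : Om V) : |Zs C T a b ω| ≤ hdR C T₀ :=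
  abs_zl_le C (fun v => abs_fld_le C (hd_Sq_le h _) ω v) a b

lemma hd_abs_Ms_le {T T₀ : ℝ} (h : T ≤ T₀) (x : V) (ω : Om V) : |Ms C T x ω| ≤ hdM C T₀ :=
  abs_MA_le C (hd_Sq_le h _) x ω

lemma hdM_nonneg (T₀ : ℝ) : 0 ≤ hdM C T₀ :=
  (abs_nonneg _).trans (hd_abs_Ms_le C (le_refl T₀) C.o ((true, fun _ => 0) : Om V))

lemma hd_abs_Fs_le {T T₀ : ℝ} (h : T ≤ T₀) (a b : V) (ω : Om V) : |Fs C T a b ω| ≤ 2 * hdR C T₀ := by
  have h1 := hd_abs_ff_le C (Zs C T a b ω)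
  have h2 := hd_abs_Zs_le C h a b ω
  unfold Fs
  linarith

lemma hd_abs_fo_le {m M : ℝ} (hM : M < 1) (hM1 : M ≤ 1) (h : |m| ≤ M) : |fo m| ≤ 2 / (1 - M ^ 2) := by
  have hM0 : 0 ≤ M := (abs_nonneg _).trans h
  have h0 : |(0 : ℝ)| ≤ M := by simpa using hM0
  have := fo_lip hM h h0
  simp only [hd_fo_zero, sub_zero, abs_zero, add_zero] at this
  have hpos : 0 < 1 - M ^ 2 := by nlinarith
  have hk : 0 ≤ 2 / (1 - M ^ 2) := by positivity
  have hm1 : |m| ≤ 1 := h.trans hM1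
  have hmm : |m| * |m| ≤ 1 := by nlinarith [abs_nonneg m]
  calc |fo m| ≤ 2 / (1 - M ^ 2) * |m| * |m| := this
    _ = 2 / (1 - M ^ 2) * (|m| * |m|) := by ring
    _ ≤ 2 / (1 - M ^ 2) * 1 := mul_le_mul_of_nonneg_left hmm hk
    _ = 2 / (1 - M ^ 2) := by ring

lemma hd_abs_Gs_le {T T₀ : ℝ} (h : T ≤ T₀) (x : V) (ω : Om V) :
    |Gs C T x ω| ≤ 2 / (1 - hdM C T₀ ^ 2) :=
  hd_abs_fo_le (hdM_lt_one C T₀) (hdM_lt_one C T₀).le (hd_abs_Ms_le C h x ω)

lemma hd_measurable_Fs (T : ℝ) (a b : V) : Measurable (Fs C T a b) :=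
  (hd_measurable_ff C).comp (measurable_Zs T a b)

lemma hd_measurable_Gs (T : ℝ) (x : V) : Measurable (Gs C T x) :=
  hd_measurable_fo.comp (measurable_Ms T x)

lemma hd_measurable_ce (Z : Om V → ℝ) : Measurable ((PP V)[Z | GG C]) :=
  (stronglyMeasurable_condExp.mono (GG_le C)).measurable

lemma hd_measurable_Fp (T : ℝ) (a b : V) : Measurable (Fp C T a b) :=
  (hd_measurable_Fs C T a b).sub (hd_measurable_ce C _)

lemma hd_measurable_Gp (T : ℝ) (x : V) : Measurable (Gp C T x) :=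
  (hd_measurable_Gs C T x).sub (hd_measurable_ce C _)

lemma Fs_bdd (T : ℝ) : ∃ B, 0 ≤ B ∧ ∀ a b ω, C.G.Adj a b → |Fs C T a b ω| ≤ B :=
  ⟨2 * hdR C T, by have := hdR_nonneg C T; positivity, fun a b ω _ => hd_abs_Fs_le C le_rfl a b ω⟩

lemma Gs_bdd (T : ℝ) : ∃ B, 0 ≤ B ∧ ∀ x ω, |Gs C T x ω| ≤ B := by
  have h1 := hdM_lt_one C T
  have h0 := hdM_nonneg C T
  have hpos : 0 < 1 - hdM C T ^ 2 := by nlinarith
  exact ⟨2 / (1 - hdM C T ^ 2), by positivity, fun x ω => hd_abs_Gs_le C le_rfl x ω⟩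

/-! ### the perpendicular part as a function of the noise -/

lemma hd_ae_of_ae_snd {P : WW V → Prop} (h : ∀ᵐ w ∂(PW V), P w) : ∀ᵐ ω ∂(PP V), P ω.2 := by
  have hq : Measure.QuasiMeasurePreserving (Prod.snd : Om V → WW V) (PP V) (PW V) :=
    Measure.quasiMeasurePreserving_snd
  exact hq.ae h

lemma hd_ae_snd_of_ae {P : WW V → Prop} (h : ∀ᵐ ω ∂(PP V), P ω.2) : ∀ᵐ w ∂(PW V), P w := by
  have h2 : ∀ᵐ b ∂sM, ∀ᵐ w ∂(PW V), P ((b, w) : Om V).2 := Measure.ae_ae_of_ae_prod h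
  obtain ⟨b, hb⟩ := h2.exists
  exact hb

lemma hd_integral_snd (f : WW V → ℝ) (hf : Measurable f) :
    ∫ ω, f ω.2 ∂(PP V) = ∫ w, f w ∂(PW V) := by
  have hmap : (PP V).map Prod.snd = PW V := by
    unfold PP
    rw [Measure.map_snd_prod, measure_univ, one_smul]
  have := integral_map (μ := PP V) (φ := Prod.snd) (f := f) measurable_snd.aemeasurable
    (by rw [hmap]; exact hf.aestronglyMeasurable)
  rw [hmap] at this
  exact this.symm

/-- the fibre of `Fp` at root sign `true` -/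
def hdH (T : ℝ) (a b : V) (w : WW V) : ℝ := hdClip (2 * (2 * hdR C T)) (Fp C T a b (true, w))

lemma hdH_meas (T : ℝ) (a b : V) : Measurable (hdH C T a b) := by
  unfold hdH
  exact (hd_measurable_clip _).comp
    ((hd_measurable_Fp C T a b).comp (measurable_const.prodMk measurable_id))

lemma hdH_bdd (T : ℝ) (a b : V) (w : WW V) : |hdH C T a b w| ≤ 2 * (2 * hdR C T) :=
  hd_abs_clip_le (by have := hdR_nonneg C T; positivity) _

lemma hd_Fs_flp (T : ℝ) (a b : V) (ω : Om V) : Fs C T a b (flp ω) = Fs C T a b ω := by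
  unfold Fs
  rw [Zs_flp, ff_neg]

lemma hd_Fp_flip (T : ℝ) (a b : V) :
    ∀ᵐ w ∂(PW V), Fp C T a b (true, w) = Fp C T a b (false, w) := by
  have h := perp_even C (hd_measurable_Fs C T a b) (hd_abs_Fs_le C (le_refl T) a b) (hd_Fs_flp C T a b)
  filter_upwards [h] with w hw
  unfold Fp
  rw [hw]
  have h1 : Fs C T a b (false, w) = Fs C T a b (flp (true, w)) := rfl
  rw [h1, hd_Fs_flp]

lemma hd_abs_Fp_le (T : ℝ) (a b : V) : ∀ᵐ ω ∂(PP V), |Fp C T a b ω| ≤ 2 * (2 * hdR C T) := by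
  have h := ce_abs_le (μ := PP V) (GG_le C) (Z := Fs C T a b)
    (Eventually.of_forall (hd_abs_Fs_le C (le_refl T) a b))
  filter_upwards [h] with ω hω
  have h2 := hd_abs_Fs_le C (le_refl T) a b ω
  unfold Fp
  calc |Fs C T a b ω - (PP V)[Fs C T a b | GG C] ω|
      ≤ |Fs C T a b ω| + |(PP V)[Fs C T a b | GG C] ω| := abs_sub _ _
    _ ≤ _ := by linarith

lemma hd_Fp_eq_H (T : ℝ) (a b : V) : ∀ᵐ ω ∂(PP V), Fp C T a b ω = hdH C T a b ω.2 := by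
  filter_upwards [hd_abs_Fp_le C T a b, hd_ae_of_ae_snd (hd_Fp_flip C T a b)] with ω h1 h2
  obtain ⟨s, w⟩ := ω
  cases s with
  | true =>
    simp only [hdH]
    exact (hd_clip_eq h1).symm
  | false =>
    simp only [hdH]
    simp only at h1 h2
    rw [h2]
    exact (hd_clip_eq h1).symm

lemma hd_Fs_act (g : C.G ≃g C.G) (T : ℝ) (a b : V) (ω : Om V) :
    Fs C T (g a) (g b) (act C g ω) = Fs C T a b ω := by
  unfold Fs
  rw [Zs_act]

lemma hd_Fp_act (g : C.G ≃g C.G) (T : ℝ) (a b : V) :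
    ∀ᵐ ω ∂(PP V), Fp C T (g a) (g b) (act C g ω) = Fp C T a b ω := by
  have h := Pj_act C g (hd_measurable_Fs C T (g a) (g b)) (hd_abs_Fs_le C (le_refl T) (g a) (g b))
  have he : Fs C T (g a) (g b) ∘ act C g = Fs C T a b := by
    funext ω
    exact hd_Fs_act C g T a b ω
  rw [he] at h
  filter_upwards [h] with ω hω
  unfold Fp
  rw [hω, hd_Fs_act]
  rfl

lemma hdH_factor (T : ℝ) : EdgeFactor C (hdH C T) (2 * (2 * hdR C T)) where
  meas a b := hdH_meas C T a b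
  bdd a b w := hdH_bdd C T a b w
  mean a b _ := by
    rw [← hd_integral_snd _ (hdH_meas C T a b)]
    have h1 : ∫ ω, hdH C T a b ω.2 ∂(PP V) = ∫ ω, Fp C T a b ω ∂(PP V) :=
      integral_congr_ae ((hd_Fp_eq_H C T a b).mono fun ω hω => hω.symm)
    rw [h1]
    have hi : Integrable (Fs C T a b) (PP V) :=
      Integrable.of_bound (hd_measurable_Fs C T a b).aestronglyMeasurable (2 * hdR C T)
        (Eventually.of_forall fun ω => by simpa using hd_abs_Fs_le C (le_refl T) a b ω)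
    unfold Fp
    rw [integral_sub hi integrable_condExp, integral_condExp (GG_le C), sub_self]
  equiv g a b _ := by
    apply hd_ae_snd_of_ae
    have hact := (act_mp C g).quasiMeasurePreserving.ae (hd_Fp_eq_H C T (g a) (g b))
    filter_upwards [hd_Fp_eq_H C T a b, hact, hd_Fp_act C g T a b] with ω h1 h2 h3
    have h4 : (act C g ω).2 = actW C g ω.2 := rfl
    rw [h4] at h2
    rw [← h2, h3, h1]

/-- linear variance along a geodesic chain (BSV, the perpendicular part is an even factor of the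
iid coordinates) -/
theorem head_sum (T : ℝ) {a : ℕ → V} (ha : ∀ i, C.G.Adj (a i) (a (i + 1)))
    (hb : ∀ i, a (i + 2) ≠ a i) (n : ℕ) :
    ∫ ω, (∑ i ∈ range n, Fp C T (a (i + 1)) (a i) ω) ^ 2 ∂(PP V) ≤
      60 * n * ∫ ω, Fp C T (a 1) (a 0) ω ^ 2 ∂(PP V) := by
  have hall : ∀ᵐ ω ∂(PP V), ∀ i : ℕ, Fp C T (a (i + 1)) (a i) ω = hdH C T (a (i + 1)) (a i) ω.2 :=
    ae_all_iff.mpr fun i => hd_Fp_eq_H C T _ _
  have e1 : ∫ ω, (∑ i ∈ range n, Fp C T (a (i + 1)) (a i) ω) ^ 2 ∂(PP V) =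
      ∫ w, (∑ i ∈ range n, hdH C T (a (i + 1)) (a i) w) ^ 2 ∂(PW V) := by
    rw [← hd_integral_snd (fun w => (∑ i ∈ range n, hdH C T (a (i + 1)) (a i) w) ^ 2)
      ((Finset.measurable_sum _ fun i _ => hdH_meas C T _ _).pow_const 2)]
    apply integral_congr_ae
    filter_upwards [hall] with ω hω
    simp only [hω]
  have e2 : ∫ ω, Fp C T (a 1) (a 0) ω ^ 2 ∂(PP V) = ∫ w, hdH C T (a 1) (a 0) w ^ 2 ∂(PW V) := by
    rw [← hd_integral_snd (fun w => hdH C T (a 1) (a 0) w ^ 2) ((hdH_meas C T _ _).pow_const 2)]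
    apply integral_congr_ae
    filter_upwards [hd_Fp_eq_H C T (a 1) (a 0)] with ω hω
    simp only [hω]
  rw [e1, e2]
  exact bsv_sum C (hdH_factor C T) ha hb n

/-- the second moment of `Fp` does not depend on the edge -/
lemma Fp_indep (T : ℝ) {a b a' b' : V} (h : C.G.Adj a b) (h' : C.G.Adj a' b') :
    ∫ ω, Fp C T a b ω ^ 2 ∂(PP V) = ∫ ω, Fp C T a' b' ω ^ 2 ∂(PP V) := by
  have hd : C.G.dist a b = C.G.dist a' b' := by
    rw [SimpleGraph.dist_eq_one_iff_adj.mpr h, SimpleGraph.dist_eq_one_iff_adj.mpr h']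
  obtain ⟨g, rfl, rfl⟩ := exists_aut C hd
  have hmp := act_mp C g
  have e1 : ∫ ω, Fp C T (g a) (g b) ω ^ 2 ∂(PP V) =
      ∫ ω, Fp C T (g a) (g b) (act C g ω) ^ 2 ∂(PP V) := by
    conv_lhs => rw [← hmp.map_eq]
    exact integral_map hmp.measurable.aemeasurable
      ((hd_measurable_Fp C T _ _).pow_const 2).aestronglyMeasurable
  rw [e1]
  apply integral_congr_ae
  filter_upwards [hd_Fp_act C g T a b] with ω hω
  simp only [hω]


/-! ### the candidates -/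

lemma hd_int {f : Om V → ℝ} {B : ℝ} (hf : Measurable f) (hB : ∀ ω, |f ω| ≤ B) :
    Integrable f (PP V) :=
  Integrable.of_bound hf.aestronglyMeasurable B
    (Eventually.of_forall fun ω => by simpa using hB ω)

/-- the clipped projection of the magnetisation -/
def hdC (T₀ T : ℝ) (x : V) (ω : Om V) : ℝ := hdClip (hdM C T₀) ((PP V)[Ms C T x | GG C] ω)

lemma hdC_meas (T₀ T : ℝ) (x : V) : Measurable[GG C] (hdC C T₀ T x) :=
  (hd_measurable_clip _).comp stronglyMeasurable_condExp.measurable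

lemma hdC_meas' (T₀ T : ℝ) (x : V) : Measurable (hdC C T₀ T x) :=
  (hdC_meas C T₀ T x).mono (GG_le C) le_rfl

lemma abs_hdC_le (T₀ T : ℝ) (x : V) (ω : Om V) : |hdC C T₀ T x ω| ≤ hdM C T₀ :=
  hd_abs_clip_le (hdM_nonneg C T₀) _

lemma hdC_ae {T T₀ : ℝ} (h : T ≤ T₀) (x : V) :
    ∀ᵐ ω ∂(PP V), hdC C T₀ T x ω = (PP V)[Ms C T x | GG C] ω := by
  filter_upwards [ce_abs_le (μ := PP V) (GG_le C) (Z := Ms C T x)
    (Eventually.of_forall (hd_abs_Ms_le C h x))] with ω hω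
  exact hd_clip_eq hω

lemma hdC_sq {T T₀ : ℝ} (h : T ≤ T₀) (x : V) :
    ∫ ω, (Ms C T x ω - hdC C T₀ T x ω) ^ 2 ∂(PP V) = Dd C T x := by
  unfold Dd
  apply integral_congr_ae
  filter_upwards [hdC_ae C h x] with ω hω
  rw [hω]

lemma hdC_pow {T T₀ : ℝ} (h : T ≤ T₀) (x : V) (p : ℕ) :
    ∫ ω, hdC C T₀ T x ω ^ (2 * p) ∂(PP V) ≤ ∫ ω, Ms C T x ω ^ (2 * p) ∂(PP V) := by
  have e : ∫ ω, hdC C T₀ T x ω ^ (2 * p) ∂(PP V) =
      ∫ ω, ((PP V)[Ms C T x | GG C] ω) ^ (2 * p) ∂(PP V) := by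
    apply integral_congr_ae
    filter_upwards [hdC_ae C h x] with ω hω
    rw [hω]
  rw [e]
  exact ce_moment_le (GG_le C) (measurable_Ms T x) (hd_abs_Ms_le C h x) p

/-- the truncation step -/
lemma hd_core {Z c G W : Om V → ℝ} {B B₂ W₂ κ b : ℝ} {p : ℕ} (hp : 1 ≤ p) (hb : 0 < b)
    (hZm : Measurable Z) (hZ : ∀ ω, |Z ω| ≤ B) (hc : Measurable[GG C] c) (hcB : ∀ ω, |c ω| ≤ B)
    (hGm : Measurable G) (hG0 : ∀ ω, 0 ≤ G ω) (hG2 : ∀ ω, G ω ≤ B₂)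
    (hWm : Measurable W) (hW0 : ∀ ω, 0 ≤ W ω) (hW2 : ∀ ω, W ω ≤ W₂) (hκ : 0 ≤ κ)
    (hpt : ∀ᵐ ω ∂(PP V), (Z ω - c ω) ^ 2 ≤ κ * (G ω * W ω))
    (hmom : ∫ ω, W ω ^ p ∂(PP V) ≤ b ^ p) :
    ∫ ω, (Z ω - (PP V)[Z | GG C] ω) ^ 2 ∂(PP V) ≤
      κ * (Real.exp 1 * b * ∫ ω, G ω ∂(PP V) + B₂ * b * Real.exp (1 - p)) := by
  have h1 := ce_min (μ := PP V) (GG_le C) hZm hZ hc hcB
  have h2 := trunc_moment (μ := PP V) hp hb hGm hWm hG0 hG2 hW0 hW2 hmom
  have hcm : Measurable c := hc.mono (GG_le C) le_rfl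
  have hi1 : Integrable (fun ω => (Z ω - c ω) ^ 2) (PP V) := by
    refine hd_int ((hZm.sub hcm).pow_const 2) (B := (B + B) ^ 2) fun ω => ?_
    rw [abs_pow]
    exact pow_le_pow_left₀ (abs_nonneg _) ((abs_sub _ _).trans (add_le_add (hZ ω) (hcB ω))) _
  have hi2 : Integrable (fun ω => κ * (G ω * W ω)) (PP V) := by
    refine (hd_int (hGm.mul hWm) (B := B₂ * W₂) fun ω => ?_).const_mul κ
    show |G ω * W ω| ≤ _
    rw [abs_mul, abs_of_nonneg (hG0 ω), abs_of_nonneg (hW0 ω)]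
    exact mul_le_mul (hG2 ω) (hW2 ω) (hW0 ω) ((hG0 ω).trans (hG2 ω))
  calc ∫ ω, (Z ω - (PP V)[Z | GG C] ω) ^ 2 ∂(PP V) ≤ ∫ ω, (Z ω - c ω) ^ 2 ∂(PP V) := h1
    _ ≤ ∫ ω, κ * (G ω * W ω) ∂(PP V) := integral_mono_ae hi1 hi2 hpt
    _ = κ * ∫ ω, G ω * W ω ∂(PP V) := integral_const_mul _ _
    _ ≤ _ := mul_le_mul_of_nonneg_left h2 hκ

/-- without truncation -/
lemma hd_core2 {Z c G : Om V → ℝ} {B B₂ κ : ℝ}
    (hZm : Measurable Z) (hZ : ∀ ω, |Z ω| ≤ B) (hc : Measurable[GG C] c) (hcB : ∀ ω, |c ω| ≤ B)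
    (hGm : Measurable G) (hG0 : ∀ ω, 0 ≤ G ω) (hG2 : ∀ ω, G ω ≤ B₂)
    (hpt : ∀ᵐ ω ∂(PP V), (Z ω - c ω) ^ 2 ≤ κ * G ω) :
    ∫ ω, (Z ω - (PP V)[Z | GG C] ω) ^ 2 ∂(PP V) ≤ κ * ∫ ω, G ω ∂(PP V) := by
  have h1 := ce_min (μ := PP V) (GG_le C) hZm hZ hc hcB
  have hcm : Measurable c := hc.mono (GG_le C) le_rfl
  have hi1 : Integrable (fun ω => (Z ω - c ω) ^ 2) (PP V) := by
    refine hd_int ((hZm.sub hcm).pow_const 2) (B := (B + B) ^ 2) fun ω => ?_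
    rw [abs_pow]
    exact pow_le_pow_left₀ (abs_nonneg _) ((abs_sub _ _).trans (add_le_add (hZ ω) (hcB ω))) _
  have hi2 : Integrable (fun ω => κ * G ω) (PP V) := by
    refine (hd_int hGm (B := B₂) fun ω => ?_).const_mul κ
    rw [abs_of_nonneg (hG0 ω)]
    exact hG2 ω
  calc ∫ ω, (Z ω - (PP V)[Z | GG C] ω) ^ 2 ∂(PP V) ≤ ∫ ω, (Z ω - c ω) ^ 2 ∂(PP V) := h1
    _ ≤ ∫ ω, κ * G ω ∂(PP V) := integral_mono_ae hi1 hi2 hpt
    _ = κ * ∫ ω, G ω ∂(PP V) := integral_const_mul _ _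

lemma hd_add_pow_le {x y : ℝ} (hx : 0 ≤ x) (hy : 0 ≤ y) (n : ℕ) :
    (x + y) ^ n ≤ 2 ^ n * (x ^ n + y ^ n) := by
  have h := add_pow_le hx hy n
  have h0 : 0 ≤ x ^ n + y ^ n := by positivity
  have h1 : (2 : ℝ) ^ (n - 1) ≤ 2 ^ n := pow_le_pow_right₀ (by norm_num) (Nat.sub_le _ _)
  exact h.trans (mul_le_mul_of_nonneg_right h1 h0)

lemma hd_add4_pow_le {x y u v : ℝ} (hx : 0 ≤ x) (hy : 0 ≤ y) (hu : 0 ≤ u) (hv : 0 ≤ v) (n : ℕ) :
    (x + y + u + v) ^ n ≤ 4 ^ n * (x ^ n + y ^ n + u ^ n + v ^ n) := by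
  have h1 : (x + y + u + v) ^ n ≤ 2 ^ n * ((x + y) ^ n + (u + v) ^ n) := by
    have := hd_add_pow_le (add_nonneg hx hy) (add_nonneg hu hv) n
    have e : x + y + u + v = x + y + (u + v) := by ring
    rw [e]
    exact this
  have h2 := hd_add_pow_le hx hy n
  have h3 := hd_add_pow_le hu hv n
  have h4 : (4 : ℝ) ^ n = 2 ^ n * 2 ^ n := by
    rw [← mul_pow]; norm_num
  have h5 : (0 : ℝ) ≤ 2 ^ n := by positivity
  calc (x + y + u + v) ^ n ≤ 2 ^ n * ((x + y) ^ n + (u + v) ^ n) := h1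
    _ ≤ 2 ^ n * (2 ^ n * (x ^ n + y ^ n) + 2 ^ n * (u ^ n + v ^ n)) :=
        mul_le_mul_of_nonneg_left (add_le_add h2 h3) h5
    _ = 4 ^ n * (x ^ n + y ^ n + u ^ n + v ^ n) := by rw [h4]; ring

/-- the Lipschitz estimate for the inverse edge map composed with `artanh` -/
lemma hd_Ti_est {Ti : ℝ × ℝ → ℝ × ℝ}
    (hLip : ∀ u v, |(Ti u).1 - (Ti v).1| ≤ (|u.1 - v.1| + |u.2 - v.2|) / (1 - C.θ))
    {M x y x' y' : ℝ} (hM : M < 1) (hx : |x| ≤ M) (hy : |y| ≤ M) (hx' : |x'| ≤ M) (hy' : |y'| ≤ M) :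
    |(Ti (Real.artanh x, Real.artanh y)).1 - (Ti (Real.artanh x', Real.artanh y')).1| ≤
      (|x - x'| + |y - y'|) * (1 / ((1 - C.θ) * (1 - M))) := by
  have h := hLip (Real.artanh x, Real.artanh y) (Real.artanh x', Real.artanh y')
  simp only at h
  have h1 := hd_artanh_lip hM hx hx'
  have h2 := hd_artanh_lip hM hy hy'
  have hθ : 0 < 1 - C.θ := sub_pos.2 (th_lt_one C)
  have hm : 0 < 1 - M := by linarith
  calc _ ≤ (|Real.artanh x - Real.artanh x'| + |Real.artanh y - Real.artanh y'|) / (1 - C.θ) := h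
    _ ≤ (|x - x'| / (1 - M) + |y - y'| / (1 - M)) / (1 - C.θ) :=
        div_le_div_of_nonneg_right (add_le_add h1 h2) hθ.le
    _ = (|x - x'| + |y - y'|) * (1 / ((1 - C.θ) * (1 - M))) := by
        field_simp

lemma hd_psi_zero : psi C.θ 0 = 0 := by
  have := abs_psi_le_abs C 0
  simpa using this

lemma hd_Ti_zero {Ti : ℝ × ℝ → ℝ × ℝ} (hTi : ∀ p, Ti (Th C p) = p) : Ti (0, 0) = (0, 0) := by
  have := hTi (0, 0)
  simpa [Th, hd_psi_zero C] using this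

/-- a.e. the messages are obtained from the magnetisations -/
lemma hd_Zs_eq {Ti : ℝ × ℝ → ℝ × ℝ} (hTi : ∀ p, Ti (Th C p) = p) (T : ℝ) {a b : V}
    (hab : C.G.Adj a b) :
    ∀ᵐ ω ∂(PP V), Zs C T a b ω =
      (Ti (Real.artanh (Ms C T a ω), Real.artanh (Ms C T b ω))).1 := by
  have h := mc_ae_ls (C := C) (A := fun τ => Sq τ T) (L := LT T) (fun τ => Sq_le τ T) (LS_Sq T)
  filter_upwards [h] with ω hω
  have h2 := hd_edge_inv C hTi hω hab
  have h3 : (Ti (Real.artanh (Ms C T a ω), Real.artanh (Ms C T b ω))) =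
      (zl C (fld C (Sq (lab ω.2) T) ω) a b, zl C (fld C (Sq (lab ω.2) T) ω) b a) := h2
  rw [h3]
  rfl

lemma hd_mu_pos (T : ℝ) : 0 < min 1 (Real.rpow 2 T) :=
  lt_min one_pos (Real.rpow_pos_of_pos (by norm_num) T)

/-- the bound for `Fp` -/
lemma hd_Fp_main {Ti : ℝ × ℝ → ℝ × ℝ} (hTim : Measurable Ti) (hTi : ∀ p, Ti (Th C p) = p)
    (hLip : ∀ u v, |(Ti u).1 - (Ti v).1| ≤ (|u.1 - v.1| + |u.2 - v.2|) / (1 - C.θ))
    {K₀ : ℝ} (hK₀ : 1 ≤ K₀) (hmom : ∀ (T : ℝ) (x : V) (p : ℕ), 1 ≤ p →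
      ∫ ω, Ms C T x ω ^ (2 * p) ∂(PP V) ≤ (K₀ * p * min 1 (Real.rpow 2 T)) ^ p)
    {T T₀ : ℝ} (hT : T ≤ T₀) {p : ℕ} (hp : 1 ≤ p) {a b : V} (hab : C.G.Adj a b) :
    let K := 1 / ((1 - C.θ) * (1 - hdM C T₀))
    ∫ ω, Fp C T a b ω ^ 2 ∂(PP V) ≤ (8 * K ^ 2) * (Real.exp 1 *
        (64 * K ^ 2 * K₀ * p * min 1 (Real.rpow 2 T)) * (Dd C T a + Dd C T b) +
        8 * (64 * K ^ 2 * K₀ * p * min 1 (Real.rpow 2 T)) * Real.exp (1 - p)) ∧
    ∫ ω, Fp C T a b ω ^ 2 ∂(PP V) ≤ (8 * K ^ 2) * (Dd C T a + Dd C T b) := by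
  intro K
  set M := hdM C T₀ with hMdef
  have hM1 : M < 1 := hdM_lt_one C T₀
  have hM0 : 0 ≤ M := hdM_nonneg C T₀
  have hθ : 0 < 1 - C.θ := sub_pos.2 (th_lt_one C)
  have hm : 0 < 1 - M := by linarith
  have hKpos : 0 < K := by
    show 0 < 1 / ((1 - C.θ) * (1 - M))
    positivity
  have hzero : |(0 : ℝ)| ≤ M := by simpa using hM0
  set Ca := hdC C T₀ T a with hCa
  set Cb := hdC C T₀ T b with hCb
  have hCaB : ∀ ω, |Ca ω| ≤ M := abs_hdC_le C T₀ T a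
  have hCbB : ∀ ω, |Cb ω| ≤ M := abs_hdC_le C T₀ T b
  have hmaB : ∀ ω, |Ms C T a ω| ≤ M := hd_abs_Ms_le C hT a
  have hmbB : ∀ ω, |Ms C T b ω| ≤ M := hd_abs_Ms_le C hT b
  set Zt : Om V → ℝ := fun ω => (Ti (Real.artanh (Ca ω), Real.artanh (Cb ω))).1 with hZt
  have hZtGG : Measurable[GG C] Zt := by
    have h1 : Measurable[GG C] fun ω => (Real.artanh (Ca ω), Real.artanh (Cb ω)) :=
      (hd_measurable_artanh.comp (hdC_meas C T₀ T a)).prodMk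
        (hd_measurable_artanh.comp (hdC_meas C T₀ T b))
    exact measurable_fst.comp (hTim.comp h1)
  have hZtm : Measurable Zt := hZtGG.mono (GG_le C) le_rfl
  have hTi0 := hd_Ti_zero C hTi
  -- the bound of a value of the inverse map
  have hval : ∀ {x y : ℝ}, |x| ≤ M → |y| ≤ M →
      |(Ti (Real.artanh x, Real.artanh y)).1| ≤ (|x| + |y|) * K := by
    intro x y hx hy
    have h := hd_Ti_est C hLip hM1 hx hy hzero hzero
    rw [Real.artanh_zero, hTi0] at h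
    simp only [sub_zero] at h
    exact h
  have hZt0 : ∀ ω, |Zt ω| ≤ (|Ca ω| + |Cb ω|) * K := fun ω => hval (hCaB ω) (hCbB ω)
  have hZtB : ∀ ω, |Zt ω| ≤ 2 * K := by
    intro ω
    have h1 := hZt0 ω
    have h2 := hCaB ω
    have h3 := hCbB ω
    nlinarith
  set c : Om V → ℝ := fun ω => ff C (Zt ω) with hc
  have hcGG : Measurable[GG C] c := (hd_measurable_ff C).comp hZtGG
  have hcB0 : ∀ ω, |c ω| ≤ 4 * K := by
    intro ω
    have h1 := hd_abs_ff_le C (Zt ω)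
    have h2 := hZtB ω
    show |ff C (Zt ω)| ≤ _
    linarith
  have hR := hdR_nonneg C T₀
  set B := 2 * hdR C T₀ + 4 * K with hB
  have hFB : ∀ ω, |Fs C T a b ω| ≤ B := fun ω => by
    have := hd_abs_Fs_le C hT a b ω
    rw [hB]; linarith
  have hcB : ∀ ω, |c ω| ≤ B := fun ω => by
    have := hcB0 ω
    rw [hB]; linarith
  set G : Om V → ℝ := fun ω => (Ms C T a ω - Ca ω) ^ 2 + (Ms C T b ω - Cb ω) ^ 2 with hG
  have hGm : Measurable G :=
    (((measurable_Ms T a).sub (hdC_meas' C T₀ T a)).pow_const 2).add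
      (((measurable_Ms T b).sub (hdC_meas' C T₀ T b)).pow_const 2)
  have hG0 : ∀ ω, 0 ≤ G ω := fun ω => by positivity
  have hsqb : ∀ {x y : ℝ}, |x| ≤ M → |y| ≤ M → (x - y) ^ 2 ≤ 4 := by
    intro x y hx hy
    have h1 := abs_le.mp hx
    have h2 := abs_le.mp hy
    have h3 : |x - y| ≤ 2 := by
      rw [abs_le]; constructor <;> linarith [h1.1, h1.2, h2.1, h2.2]
    have h4 := sq_abs (x - y)
    nlinarith [abs_nonneg (x - y)]
  have hG8 : ∀ ω, G ω ≤ 8 := fun ω => by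
    have h1 := hsqb (hmaB ω) (hCaB ω)
    have h2 := hsqb (hmbB ω) (hCbB ω)
    show (Ms C T a ω - Ca ω) ^ 2 + (Ms C T b ω - Cb ω) ^ 2 ≤ 8
    linarith
  have hGint : ∫ ω, G ω ∂(PP V) = Dd C T a + Dd C T b := by
    have i1 : Integrable (fun ω => (Ms C T a ω - Ca ω) ^ 2) (PP V) := by
      refine hd_int (((measurable_Ms T a).sub (hdC_meas' C T₀ T a)).pow_const 2) (B := 4) fun ω => ?_
      rw [abs_of_nonneg (sq_nonneg _)]
      exact hsqb (hmaB ω) (hCaB ω)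
    have i2 : Integrable (fun ω => (Ms C T b ω - Cb ω) ^ 2) (PP V) := by
      refine hd_int (((measurable_Ms T b).sub (hdC_meas' C T₀ T b)).pow_const 2) (B := 4) fun ω => ?_
      rw [abs_of_nonneg (sq_nonneg _)]
      exact hsqb (hmbB ω) (hCbB ω)
    rw [integral_add i1 i2, hdC_sq C hT a, hdC_sq C hT b]
  -- the good event
  have hgood := hd_Zs_eq C hTi T hab
  have hdiff : ∀ᵐ ω ∂(PP V),
      |Zs C T a b ω - Zt ω| ≤ (|Ms C T a ω - Ca ω| + |Ms C T b ω - Cb ω|) * K := by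
    filter_upwards [hgood] with ω hω
    rw [hω]
    exact hd_Ti_est C hLip hM1 (hmaB ω) (hmbB ω) (hCaB ω) (hCbB ω)
  have hZs0 : ∀ᵐ ω ∂(PP V), |Zs C T a b ω| ≤ (|Ms C T a ω| + |Ms C T b ω|) * K := by
    filter_upwards [hgood] with ω hω
    rw [hω]
    exact hval (hmaB ω) (hmbB ω)
  have htwo : ∀ x y : ℝ, (|x| + |y|) ^ 2 ≤ 2 * (x ^ 2 + y ^ 2) := by
    intro x y
    have h1 := sq_abs x
    have h2 := sq_abs y
    nlinarith [sq_nonneg (|x| - |y|)]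
  have hDsq : ∀ᵐ ω ∂(PP V), (Zs C T a b ω - Zt ω) ^ 2 ≤ 2 * K ^ 2 * G ω := by
    filter_upwards [hdiff] with ω hω
    have h1 : (Zs C T a b ω - Zt ω) ^ 2 ≤ ((|Ms C T a ω - Ca ω| + |Ms C T b ω - Cb ω|) * K) ^ 2 := by
      rw [← sq_abs (Zs C T a b ω - Zt ω)]
      exact pow_le_pow_left₀ (abs_nonneg _) hω _
    have h2 := htwo (Ms C T a ω - Ca ω) (Ms C T b ω - Cb ω)
    have h3 : 0 ≤ K ^ 2 := by positivity
    calc (Zs C T a b ω - Zt ω) ^ 2
        ≤ ((|Ms C T a ω - Ca ω| + |Ms C T b ω - Cb ω|)) ^ 2 * K ^ 2 := by rwa [mul_pow] at h1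
      _ ≤ (2 * ((Ms C T a ω - Ca ω) ^ 2 + (Ms C T b ω - Cb ω) ^ 2)) * K ^ 2 :=
          mul_le_mul_of_nonneg_right h2 h3
      _ = 2 * K ^ 2 * G ω := by simp only [hG]; ring
  -- second bound
  have hpt2 : ∀ᵐ ω ∂(PP V), (Fs C T a b ω - c ω) ^ 2 ≤ (8 * K ^ 2) * G ω := by
    filter_upwards [hDsq] with ω hω
    have h1 : |Fs C T a b ω - c ω| ≤ 2 * |Zs C T a b ω - Zt ω| := ff_lip C _ _
    have h2 : (Fs C T a b ω - c ω) ^ 2 ≤ (2 * |Zs C T a b ω - Zt ω|) ^ 2 := by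
      rw [← sq_abs (Fs C T a b ω - c ω)]
      exact pow_le_pow_left₀ (abs_nonneg _) h1 _
    have h3 := sq_abs (Zs C T a b ω - Zt ω)
    rw [mul_pow, h3] at h2
    linarith
  have hsecond : ∫ ω, Fp C T a b ω ^ 2 ∂(PP V) ≤ (8 * K ^ 2) * (Dd C T a + Dd C T b) := by
    rw [← hGint]
    exact hd_core2 C (Z := Fs C T a b) (c := c) (G := G) (B := B) (B₂ := 8) (κ := 8 * K ^ 2)
      (hd_measurable_Fs C T a b) hFB hcGG hcB hGm hG0 hG8 hpt2
  refine ⟨?_, hsecond⟩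
  -- first bound
  set W : Om V → ℝ := fun ω => (|Real.tanh (Zs C T a b ω)| + |Real.tanh (Zt ω)|) ^ 2 with hW
  have hWm : Measurable W :=
    ((continuous_abs.measurable.comp (hd_measurable_tanh.comp (measurable_Zs T a b))).add
      (continuous_abs.measurable.comp (hd_measurable_tanh.comp hZtm))).pow_const 2
  have hW0 : ∀ ω, 0 ≤ W ω := fun ω => sq_nonneg _
  have hW4 : ∀ ω, W ω ≤ 4 := fun ω => by
    have h1 := (Real.abs_tanh_lt_one (Zs C T a b ω)).le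
    have h2 := (Real.abs_tanh_lt_one (Zt ω)).le
    have h3 := abs_nonneg (Real.tanh (Zs C T a b ω))
    have h4 := abs_nonneg (Real.tanh (Zt ω))
    show (|Real.tanh (Zs C T a b ω)| + |Real.tanh (Zt ω)|) ^ 2 ≤ 4
    nlinarith
  have hpt1 : ∀ᵐ ω ∂(PP V), (Fs C T a b ω - c ω) ^ 2 ≤ (8 * K ^ 2) * (G ω * W ω) := by
    filter_upwards [hDsq] with ω hω
    have h1 : |Fs C T a b ω - c ω| ≤
        2 * (|Real.tanh (Zs C T a b ω)| + |Real.tanh (Zt ω)|) * |Zs C T a b ω - Zt ω| :=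
      ff_lip' C _ _
    have h2 : (Fs C T a b ω - c ω) ^ 2 ≤
        (2 * (|Real.tanh (Zs C T a b ω)| + |Real.tanh (Zt ω)|) * |Zs C T a b ω - Zt ω|) ^ 2 := by
      rw [← sq_abs (Fs C T a b ω - c ω)]
      exact pow_le_pow_left₀ (abs_nonneg _) h1 _
    have h3 := sq_abs (Zs C T a b ω - Zt ω)
    rw [mul_pow, mul_pow, h3] at h2
    have h4 : W ω * (Zs C T a b ω - Zt ω) ^ 2 ≤ W ω * (2 * K ^ 2 * G ω) :=
      mul_le_mul_of_nonneg_left hω (hW0 ω)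
    have h5 : (|Real.tanh (Zs C T a b ω)| + |Real.tanh (Zt ω)|) ^ 2 = W ω := rfl
    rw [h5] at h2
    nlinarith
  have hmu := hd_mu_pos T
  have hp0 : (0 : ℝ) < p := by exact_mod_cast hp
  have hK₀pos : 0 < K₀ := by linarith
  set μ' := min 1 (Real.rpow 2 T) with hμ'
  set Q := K₀ * p * μ' with hQ
  have hQpos : 0 < Q := by positivity
  have hbpos : 0 < 64 * K ^ 2 * K₀ * p * μ' := by positivity
  -- the moment bound of the weight
  have hwpt : ∀ᵐ ω ∂(PP V), W ω ^ p ≤ (16 * K ^ 2) ^ p * (Ms C T a ω ^ (2 * p) + Ms C T b ω ^ (2 * p) +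
      Ca ω ^ (2 * p) + Cb ω ^ (2 * p)) := by
    filter_upwards [hZs0] with ω hω
    have h1 : |Real.tanh (Zs C T a b ω)| + |Real.tanh (Zt ω)| ≤
        (|Ms C T a ω| + |Ms C T b ω| + |Ca ω| + |Cb ω|) * K := by
      have e1 := (hd_abs_tanh_le (Zs C T a b ω)).trans hω
      have e2 := (hd_abs_tanh_le (Zt ω)).trans (hZt0 ω)
      calc _ ≤ (|Ms C T a ω| + |Ms C T b ω|) * K + (|Ca ω| + |Cb ω|) * K := add_le_add e1 e2
        _ = _ := by ring
    have h2 : W ω ≤ ((|Ms C T a ω| + |Ms C T b ω| + |Ca ω| + |Cb ω|) * K) ^ 2 :=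
      pow_le_pow_left₀ (by positivity) h1 _
    have h3 : W ω ^ p ≤ (|Ms C T a ω| + |Ms C T b ω| + |Ca ω| + |Cb ω|) ^ (2 * p) * (K ^ 2) ^ p := by
      calc W ω ^ p ≤ (((|Ms C T a ω| + |Ms C T b ω| + |Ca ω| + |Cb ω|) * K) ^ 2) ^ p :=
            pow_le_pow_left₀ (hW0 ω) h2 _
        _ = _ := by rw [mul_pow, mul_pow, pow_mul]
    have h4 := hd_add4_pow_le (abs_nonneg (Ms C T a ω)) (abs_nonneg (Ms C T b ω))
      (abs_nonneg (Ca ω)) (abs_nonneg (Cb ω)) (2 * p)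
    have hev : Even (2 * p) := even_two_mul p
    rw [hev.pow_abs, hev.pow_abs, hev.pow_abs, hev.pow_abs] at h4
    have h5 : (4 : ℝ) ^ (2 * p) * (K ^ 2) ^ p = (16 * K ^ 2) ^ p := by
      rw [pow_mul, ← mul_pow]; norm_num
    calc W ω ^ p ≤ (|Ms C T a ω| + |Ms C T b ω| + |Ca ω| + |Cb ω|) ^ (2 * p) * (K ^ 2) ^ p := h3
      _ ≤ (4 ^ (2 * p) * (Ms C T a ω ^ (2 * p) + Ms C T b ω ^ (2 * p) + Ca ω ^ (2 * p) +
            Cb ω ^ (2 * p))) * (K ^ 2) ^ p := mul_le_mul_of_nonneg_right h4 (by positivity)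
      _ = (4 ^ (2 * p) * (K ^ 2) ^ p) * (Ms C T a ω ^ (2 * p) + Ms C T b ω ^ (2 * p) +
            Ca ω ^ (2 * p) + Cb ω ^ (2 * p)) := by ring
      _ = _ := by rw [h5]
  have hfint : ∀ {f : Om V → ℝ}, Measurable f → (∀ ω, |f ω| ≤ M) →
      Integrable (fun ω => f ω ^ (2 * p)) (PP V) := by
    intro f hf hB
    refine hd_int (hf.pow_const _) (B := 1) fun ω => ?_
    rw [abs_pow]
    exact pow_le_one₀ (abs_nonneg _) ((hB ω).trans hM1.le)
  have hma := hfint (measurable_Ms T a) hmaB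
  have hmb := hfint (measurable_Ms T b) hmbB
  have hca : Integrable (fun ω => Ca ω ^ (2 * p)) (PP V) := hfint (hdC_meas' C T₀ T a) hCaB
  have hcb : Integrable (fun ω => Cb ω ^ (2 * p)) (PP V) := hfint (hdC_meas' C T₀ T b) hCbB
  have hWint : Integrable (fun ω => W ω ^ p) (PP V) := by
    refine hd_int (hWm.pow_const _) (B := 4 ^ p) fun ω => ?_
    rw [abs_pow, abs_of_nonneg (hW0 ω)]
    exact pow_le_pow_left₀ (hW0 ω) (hW4 ω) _
  have h16 : (0 : ℝ) ≤ (16 * K ^ 2) ^ p := by positivity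
  have hmomW : ∫ ω, W ω ^ p ∂(PP V) ≤ (64 * K ^ 2 * K₀ * p * μ') ^ p := by
    have h1 : ∫ ω, W ω ^ p ∂(PP V) ≤ ∫ ω, (16 * K ^ 2) ^ p * (Ms C T a ω ^ (2 * p) +
        Ms C T b ω ^ (2 * p) + Ca ω ^ (2 * p) + Cb ω ^ (2 * p)) ∂(PP V) :=
      integral_mono_ae hWint (((hma.add hmb).add hca).add hcb |>.const_mul _) hwpt
    have e2 : ∫ ω, (16 * K ^ 2) ^ p * (Ms C T a ω ^ (2 * p) +
        Ms C T b ω ^ (2 * p) + Ca ω ^ (2 * p) + Cb ω ^ (2 * p)) ∂(PP V) =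
        (16 * K ^ 2) ^ p * (∫ ω, Ms C T a ω ^ (2 * p) ∂(PP V) + ∫ ω, Ms C T b ω ^ (2 * p) ∂(PP V) +
          ∫ ω, Ca ω ^ (2 * p) ∂(PP V) + ∫ ω, Cb ω ^ (2 * p) ∂(PP V)) := by
      have i3 : Integrable (fun ω => Ms C T a ω ^ (2 * p) + Ms C T b ω ^ (2 * p)) (PP V) :=
        hma.add hmb
      have i4 : Integrable (fun ω => Ms C T a ω ^ (2 * p) + Ms C T b ω ^ (2 * p) +
          Ca ω ^ (2 * p)) (PP V) := i3.add hca
      rw [integral_const_mul, integral_add i4 hcb, integral_add i3 hca, integral_add hma hmb]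
    have m1 := hmom T a p hp
    have m2 := hmom T b p hp
    have m3 := (hdC_pow C hT a p).trans m1
    have m4 := (hdC_pow C hT b p).trans m2
    have h4p : (4 : ℝ) ≤ 4 ^ p := by
      calc (4 : ℝ) = 4 ^ 1 := by norm_num
        _ ≤ 4 ^ p := pow_le_pow_right₀ (by norm_num) hp
    have hQp : 0 ≤ Q ^ p := by positivity
    calc ∫ ω, W ω ^ p ∂(PP V) ≤ _ := h1
      _ = _ := e2
      _ ≤ (16 * K ^ 2) ^ p * (4 * Q ^ p) :=
          mul_le_mul_of_nonneg_left (by linarith) h16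
      _ ≤ (16 * K ^ 2) ^ p * (4 ^ p * Q ^ p) :=
          mul_le_mul_of_nonneg_left (mul_le_mul_of_nonneg_right h4p hQp) h16
      _ = (64 * K ^ 2 * K₀ * p * μ') ^ p := by
          rw [← mul_pow, ← mul_pow]
          congr 1
          rw [hQ]
          ring
  have hfirst := hd_core C (Z := Fs C T a b) (c := c) (G := G) (W := W) (B := B) (B₂ := 8)
    (W₂ := 4) (κ := 8 * K ^ 2) (b := 64 * K ^ 2 * K₀ * p * μ') hp hbpos
    (hd_measurable_Fs C T a b) hFB hcGG hcB hGm hG0 hG8 hWm hW0 hW4 (by positivity) hpt1 hmomW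
  rw [hGint] at hfirst
  exact hfirst

/-- the bound for `Gp` -/
lemma hd_Gp_main {K₀ : ℝ} (hK₀ : 1 ≤ K₀) (hmom : ∀ (T : ℝ) (x : V) (p : ℕ), 1 ≤ p →
      ∫ ω, Ms C T x ω ^ (2 * p) ∂(PP V) ≤ (K₀ * p * min 1 (Real.rpow 2 T)) ^ p)
    {T T₀ : ℝ} (hT : T ≤ T₀) {p : ℕ} (hp : 1 ≤ p) (x : V) :
    let K := 2 / (1 - hdM C T₀ ^ 2)
    ∫ ω, Gp C T x ω ^ 2 ∂(PP V) ≤ K ^ 2 * (Real.exp 1 *
        (8 * K₀ * p * min 1 (Real.rpow 2 T)) * Dd C T x +
        4 * (8 * K₀ * p * min 1 (Real.rpow 2 T)) * Real.exp (1 - p)) ∧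
    ∫ ω, Gp C T x ω ^ 2 ∂(PP V) ≤ (4 * K ^ 2) * Dd C T x := by
  intro K
  set M := hdM C T₀ with hMdef
  have hM1 : M < 1 := hdM_lt_one C T₀
  have hM0 : 0 ≤ M := hdM_nonneg C T₀
  have hm : 0 < 1 - M ^ 2 := by nlinarith
  have hKpos : 0 < K := by
    show 0 < 2 / (1 - M ^ 2)
    positivity
  set Cx := hdC C T₀ T x with hCx
  have hCB : ∀ ω, |Cx ω| ≤ M := abs_hdC_le C T₀ T x
  have hmB : ∀ ω, |Ms C T x ω| ≤ M := hd_abs_Ms_le C hT x
  set c : Om V → ℝ := fun ω => fo (Cx ω) with hc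
  have hcGG : Measurable[GG C] c := hd_measurable_fo.comp (hdC_meas C T₀ T x)
  have hZB : ∀ ω, |Gs C T x ω| ≤ K := hd_abs_Gs_le C hT x
  have hcB : ∀ ω, |c ω| ≤ K := fun ω => hd_abs_fo_le hM1 hM1.le (hCB ω)
  set G : Om V → ℝ := fun ω => (Ms C T x ω - Cx ω) ^ 2 with hG
  have hGm : Measurable G := ((measurable_Ms T x).sub (hdC_meas' C T₀ T x)).pow_const 2
  have hG0 : ∀ ω, 0 ≤ G ω := fun ω => sq_nonneg _
  have hG4 : ∀ ω, G ω ≤ 4 := fun ω => by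
    have h1 := abs_le.mp (hmB ω)
    have h2 := abs_le.mp (hCB ω)
    have h3 : |Ms C T x ω - Cx ω| ≤ 2 := by
      rw [abs_le]; constructor <;> linarith [h1.1, h1.2, h2.1, h2.2]
    have h4 := sq_abs (Ms C T x ω - Cx ω)
    show (Ms C T x ω - Cx ω) ^ 2 ≤ 4
    nlinarith [abs_nonneg (Ms C T x ω - Cx ω)]
  have hGint : ∫ ω, G ω ∂(PP V) = Dd C T x := hdC_sq C hT x
  set W : Om V → ℝ := fun ω => (|Ms C T x ω| + |Cx ω|) ^ 2 with hW
  have hWm : Measurable W :=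
    ((continuous_abs.measurable.comp (measurable_Ms T x)).add
      (continuous_abs.measurable.comp (hdC_meas' C T₀ T x))).pow_const 2
  have hW0 : ∀ ω, 0 ≤ W ω := fun ω => sq_nonneg _
  have hW4 : ∀ ω, W ω ≤ 4 := fun ω => by
    have h1 := hmB ω
    have h2 := hCB ω
    have h3 := abs_nonneg (Ms C T x ω)
    have h4 := abs_nonneg (Cx ω)
    show (|Ms C T x ω| + |Cx ω|) ^ 2 ≤ 4
    nlinarith
  have hpt1 : ∀ ω, (Gs C T x ω - c ω) ^ 2 ≤ K ^ 2 * (G ω * W ω) := fun ω => by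
    have h1 : |Gs C T x ω - c ω| ≤ K * (|Ms C T x ω| + |Cx ω|) * |Ms C T x ω - Cx ω| :=
      fo_lip hM1 (hmB ω) (hCB ω)
    have h2 : (Gs C T x ω - c ω) ^ 2 ≤ (K * (|Ms C T x ω| + |Cx ω|) * |Ms C T x ω - Cx ω|) ^ 2 := by
      rw [← sq_abs (Gs C T x ω - c ω)]
      exact pow_le_pow_left₀ (abs_nonneg _) h1 _
    have h3 := sq_abs (Ms C T x ω - Cx ω)
    rw [mul_pow, mul_pow, h3] at h2
    calc _ ≤ _ := h2
      _ = K ^ 2 * (G ω * W ω) := by simp only [hG, hW]; ring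
  have hpt2 : ∀ ω, (Gs C T x ω - c ω) ^ 2 ≤ (4 * K ^ 2) * G ω := fun ω => by
    have h1 := hpt1 ω
    have h2 : G ω * W ω ≤ G ω * 4 := mul_le_mul_of_nonneg_left (hW4 ω) (hG0 ω)
    have h3 : K ^ 2 * (G ω * W ω) ≤ K ^ 2 * (G ω * 4) :=
      mul_le_mul_of_nonneg_left h2 (by positivity)
    linarith
  have hsecond : ∫ ω, Gp C T x ω ^ 2 ∂(PP V) ≤ (4 * K ^ 2) * Dd C T x := by
    rw [← hGint]
    exact hd_core2 C (Z := Gs C T x) (c := c) (G := G) (B := K) (B₂ := 4) (κ := 4 * K ^ 2)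
      (hd_measurable_Gs C T x) hZB hcGG hcB hGm hG0 hG4 (Eventually.of_forall hpt2)
  refine ⟨?_, hsecond⟩
  have hmu := hd_mu_pos T
  have hp0 : (0 : ℝ) < p := by exact_mod_cast hp
  have hK₀pos : 0 < K₀ := by linarith
  set μ' := min 1 (Real.rpow 2 T) with hμ'
  set Q := K₀ * p * μ' with hQ
  have hQpos : 0 < Q := by positivity
  have hbpos : 0 < 8 * K₀ * p * μ' := by positivity
  have hwpt : ∀ ω, W ω ^ p ≤ 4 ^ p * (Ms C T x ω ^ (2 * p) + Cx ω ^ (2 * p)) := fun ω => by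
    have h4 := hd_add_pow_le (abs_nonneg (Ms C T x ω)) (abs_nonneg (Cx ω)) (2 * p)
    have hev : Even (2 * p) := even_two_mul p
    rw [hev.pow_abs, hev.pow_abs] at h4
    have e : W ω ^ p = (|Ms C T x ω| + |Cx ω|) ^ (2 * p) := by
      show ((|Ms C T x ω| + |Cx ω|) ^ 2) ^ p = _
      rw [pow_mul]
    have e2 : (2 : ℝ) ^ (2 * p) = 4 ^ p := by
      rw [pow_mul]; norm_num
    rw [e, ← e2]
    exact h4
  have hfint : ∀ {f : Om V → ℝ}, Measurable f → (∀ ω, |f ω| ≤ M) →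
      Integrable (fun ω => f ω ^ (2 * p)) (PP V) := by
    intro f hf hB
    refine hd_int (hf.pow_const _) (B := 1) fun ω => ?_
    rw [abs_pow]
    exact pow_le_one₀ (abs_nonneg _) ((hB ω).trans hM1.le)
  have hma := hfint (measurable_Ms T x) hmB
  have hca := hfint (hdC_meas' C T₀ T x) hCB
  have hWint : Integrable (fun ω => W ω ^ p) (PP V) := by
    refine hd_int (hWm.pow_const _) (B := 4 ^ p) fun ω => ?_
    rw [abs_pow, abs_of_nonneg (hW0 ω)]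
    exact pow_le_pow_left₀ (hW0 ω) (hW4 ω) _
  have h4p0 : (0 : ℝ) ≤ 4 ^ p := by positivity
  have hmomW : ∫ ω, W ω ^ p ∂(PP V) ≤ (8 * K₀ * p * μ') ^ p := by
    have h1 : ∫ ω, W ω ^ p ∂(PP V) ≤
        ∫ ω, 4 ^ p * (Ms C T x ω ^ (2 * p) + Cx ω ^ (2 * p)) ∂(PP V) :=
      integral_mono hWint ((hma.add hca).const_mul _) hwpt
    have e2 : ∫ ω, (4 : ℝ) ^ p * (Ms C T x ω ^ (2 * p) + Cx ω ^ (2 * p)) ∂(PP V) =
        4 ^ p * (∫ ω, Ms C T x ω ^ (2 * p) ∂(PP V) + ∫ ω, Cx ω ^ (2 * p) ∂(PP V)) := by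
      rw [integral_const_mul, integral_add hma hca]
    have m1 := hmom T x p hp
    have m3 := (hdC_pow C hT x p).trans m1
    have h2p : (2 : ℝ) ≤ 2 ^ p := by
      calc (2 : ℝ) = 2 ^ 1 := by norm_num
        _ ≤ 2 ^ p := pow_le_pow_right₀ (by norm_num) hp
    have hQp : 0 ≤ Q ^ p := by positivity
    calc ∫ ω, W ω ^ p ∂(PP V) ≤ _ := h1
      _ = _ := e2
      _ ≤ 4 ^ p * (2 * Q ^ p) := mul_le_mul_of_nonneg_left (by linarith) h4p0
      _ ≤ 4 ^ p * (2 ^ p * Q ^ p) :=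
          mul_le_mul_of_nonneg_left (mul_le_mul_of_nonneg_right h2p hQp) h4p0
      _ = (8 * K₀ * p * μ') ^ p := by
          rw [← mul_pow, ← mul_pow]
          congr 1
          rw [hQ]
          ring
  have hfirst := hd_core C (Z := Gs C T x) (c := c) (G := G) (W := W) (B := K) (B₂ := 4)
    (W₂ := 4) (κ := K ^ 2) (b := 8 * K₀ * p * μ') hp hbpos
    (hd_measurable_Gs C T x) hZB hcGG hcB hGm hG0 hG4 hWm hW0 hW4 (by positivity)
    (Eventually.of_forall hpt1) hmomW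
  rw [hGint] at hfirst
  exact hfirst

/-- Lipschitz bounds: `Fp`, `Gp` are controlled by `Dd`, with the gain from the moments. -/
theorem Fp_le (T₀ : ℝ) : ∃ K : ℝ, 0 < K ∧ ∀ (T : ℝ), T ≤ T₀ → ∀ (p : ℕ), 1 ≤ p → ∀ a b x : V,
    C.G.Adj a b →
    ∫ ω, Fp C T a b ω ^ 2 ∂(PP V) ≤ K * min 1 (Real.rpow 2 T) * p * (Dd C T x + Real.exp (-p)) ∧
    ∫ ω, Fp C T a b ω ^ 2 ∂(PP V) ≤ K * Dd C T x ∧
    ∫ ω, Gp C T x ω ^ 2 ∂(PP V) ≤ K * min 1 (Real.rpow 2 T) * p * (Dd C T x + Real.exp (-p)) ∧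
    ∫ ω, Gp C T x ω ^ 2 ∂(PP V) ≤ K * Dd C T x := by
  obtain ⟨Ti, hTim, hTi, hLip⟩ := exists_thInv C
  obtain ⟨K₀, hK₀, hmom⟩ := Ms_moment C
  set M := hdM C T₀ with hMdef
  have hM1 : M < 1 := hdM_lt_one C T₀
  have hM0 : 0 ≤ M := hdM_nonneg C T₀
  set K₁ := 1 / ((1 - C.θ) * (1 - M)) with hK₁
  set K₂ := 2 / (1 - M ^ 2) with hK₂
  have hθ : 0 < 1 - C.θ := sub_pos.2 (th_lt_one C)
  have hm : 0 < 1 - M := by linarith
  have hm2 : 0 < 1 - M ^ 2 := by nlinarith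
  have hK₁pos : 0 < K₁ := by rw [hK₁]; positivity
  have hK₂pos : 0 < K₂ := by rw [hK₂]; positivity
  have hK₀pos : 0 < K₀ := by linarith
  have he : 0 < Real.exp 1 := Real.exp_pos _
  set c₁ := 4096 * Real.exp 1 * K₁ ^ 2 * K₁ ^ 2 * K₀ with hc₁
  set c₂ := 16 * K₁ ^ 2 with hc₂
  set c₃ := 32 * Real.exp 1 * K₂ ^ 2 * K₀ with hc₃
  set c₄ := 4 * K₂ ^ 2 with hc₄
  have hc₁p : 0 ≤ c₁ := by rw [hc₁]; positivity
  have hc₂p : 0 ≤ c₂ := by rw [hc₂]; positivity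
  have hc₃p : 0 ≤ c₃ := by rw [hc₃]; positivity
  have hc₄p : 0 ≤ c₄ := by rw [hc₄]; positivity
  refine ⟨c₁ + c₂ + c₃ + c₄ + 1, by positivity, ?_⟩
  intro T hT p hp a b x hab
  have hmu : 0 < min 1 (Real.rpow 2 T) := hd_mu_pos T
  have hp0 : (0 : ℝ) < p := by exact_mod_cast hp
  set μ' := min 1 (Real.rpow 2 T) with hμ'
  have hDa : Dd C T a = Dd C T x := Dd_indep C T a x
  have hDb : Dd C T b = Dd C T x := Dd_indep C T b x
  set D := Dd C T x with hD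
  have hD0 : 0 ≤ D := Dd_nonneg C T x
  set E := Real.exp (-(p : ℝ)) with hE
  have hE0 : 0 < E := Real.exp_pos _
  have hexp : Real.exp (1 - p) = Real.exp 1 * E := by
    rw [hE, ← Real.exp_add]
    ring_nf
  obtain ⟨f1, f2⟩ := hd_Fp_main C hTim hTi hLip hK₀ hmom hT hp hab
  obtain ⟨g1, g2⟩ := hd_Gp_main C hK₀ hmom hT hp x
  rw [hDa, hDb, ← hμ', hexp] at f1
  rw [hDa, hDb] at f2
  rw [← hμ', hexp] at g1
  have hY : 0 ≤ μ' * p * (D + E) := by positivity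
  refine ⟨?_, ?_, ?_, ?_⟩
  · have h1 : (8 * K₁ ^ 2) * (Real.exp 1 * (64 * K₁ ^ 2 * K₀ * p * μ') * (D + D) +
        8 * (64 * K₁ ^ 2 * K₀ * p * μ') * (Real.exp 1 * E)) ≤ c₁ * (μ' * p * (D + E)) := by
      have hS : 0 ≤ Real.exp 1 * K₁ ^ 2 * K₁ ^ 2 * K₀ * p * μ' := by positivity
      have e1 : (8 * K₁ ^ 2) * (Real.exp 1 * (64 * K₁ ^ 2 * K₀ * p * μ') * (D + D) +
          8 * (64 * K₁ ^ 2 * K₀ * p * μ') * (Real.exp 1 * E)) =
          (Real.exp 1 * K₁ ^ 2 * K₁ ^ 2 * K₀ * p * μ') * (1024 * D + 4096 * E) := by ring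
      have e2 : c₁ * (μ' * p * (D + E)) =
          (Real.exp 1 * K₁ ^ 2 * K₁ ^ 2 * K₀ * p * μ') * (4096 * D + 4096 * E) := by
        rw [hc₁]; ring
      rw [e1, e2]
      exact mul_le_mul_of_nonneg_left (by linarith) hS
    have h2 : c₁ ≤ c₁ + c₂ + c₃ + c₄ + 1 := by linarith
    calc _ ≤ _ := f1
      _ ≤ _ := h1
      _ ≤ (c₁ + c₂ + c₃ + c₄ + 1) * (μ' * p * (D + E)) := mul_le_mul_of_nonneg_right h2 hY
      _ = _ := by ring
  · have h1 : (8 * K₁ ^ 2) * (D + D) = c₂ * D := by rw [hc₂]; ring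
    have h2 : c₂ ≤ c₁ + c₂ + c₃ + c₄ + 1 := by linarith
    calc _ ≤ _ := f2
      _ = _ := h1
      _ ≤ _ := mul_le_mul_of_nonneg_right h2 hD0
  · have h1 : K₂ ^ 2 * (Real.exp 1 * (8 * K₀ * p * μ') * D +
        4 * (8 * K₀ * p * μ') * (Real.exp 1 * E)) ≤ c₃ * (μ' * p * (D + E)) := by
      have hS : 0 ≤ Real.exp 1 * K₂ ^ 2 * K₀ * p * μ' := by positivity
      have e1 : K₂ ^ 2 * (Real.exp 1 * (8 * K₀ * p * μ') * D +
          4 * (8 * K₀ * p * μ') * (Real.exp 1 * E)) =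
          (Real.exp 1 * K₂ ^ 2 * K₀ * p * μ') * (8 * D + 32 * E) := by ring
      have e2 : c₃ * (μ' * p * (D + E)) =
          (Real.exp 1 * K₂ ^ 2 * K₀ * p * μ') * (32 * D + 32 * E) := by
        rw [hc₃]; ring
      rw [e1, e2]
      exact mul_le_mul_of_nonneg_left (by linarith) hS
    have h2 : c₃ ≤ c₁ + c₂ + c₃ + c₄ + 1 := by linarith
    calc _ ≤ _ := g1
      _ ≤ _ := h1
      _ ≤ (c₁ + c₂ + c₃ + c₄ + 1) * (μ' * p * (D + E)) := mul_le_mul_of_nonneg_right h2 hY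
      _ = _ := by ring
  · have h2 : c₄ ≤ c₁ + c₂ + c₃ + c₄ + 1 := by linarith
    calc _ ≤ _ := g2
      _ ≤ _ := mul_le_mul_of_nonneg_right h2 hD0

end Vale.Agent.Lib.P161.Crit
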