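import Vale.Agent.Lib.P161.Crit.Post
import Vale.Agent.Lib.P161.Crit.CE

/-!
Fixed labels: the innovations. One-step density, update in terms of the innovation, sequential
independence, dropping the future. Statements fixed; add lemmas freely. Paper section INNOV.
-/

open MeasureTheory Filter Topology Finset

noncomputable section
namespace Vale.Agent.Lib.P161.Crit

open scoped Classical
open Vale.Agent.Lib.P161

variable {V : Type} (C : CT V)

/-- distinct times of active steps -/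
def Good (τ : Lab V) : Prop := ∀ i j, τ i < 0 → τ j < 0 → i ≠ j → tm τ i ≠ tm τ j

lemma inn_lam_Iio : lam (Set.Iio (-1)) = 0 := by
  unfold lam
  simp only [Measure.smul_apply, smul_eq_mul]
  rw [Measure.restrict_apply measurableSet_Iio]
  have : Set.Iio (-1 : ℝ) ∩ Set.Icc (-1 : ℝ) 1 = ∅ := by
    ext x; simp only [Set.mem_inter_iff, Set.mem_Iio, Set.mem_Icc, Set.mem_empty_iff_false,
      iff_false, not_and, not_le]
    intro h1 h2; linarith
  rw [this]; simp

lemma inn_lam_bad (ℓ : ℤ) (c : ℝ) :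
    ∀ᵐ x ∂lam, ¬ (x < 0 ∧ (ℓ : ℝ) + (cl x + 1) / 2 = c) := by
  have h0 : lam (Set.Iio (-1) ∪ {2 * (c - ℓ) - 1}) = 0 :=
    measure_union_null inn_lam_Iio (lam_singleton _)
  rw [ae_iff]
  refine measure_mono_null ?_ h0
  intro x hx
  simp only [Set.mem_ofPred_eq, not_not] at hx
  obtain ⟨h1, h2⟩ := hx
  by_cases hx1 : x < -1
  · exact Or.inl hx1
  · right
    have : cl x = x := cl_of_mem ⟨not_lt.1 hx1, by linarith⟩
    rw [this] at h2
    simp only [Set.mem_singleton_iff]
    linarith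

include C in
theorem ae_good : ∀ᵐ τ ∂(PL V), Good τ := by
  have : Countable V := countable_of_tree C.hT C.hnb
  have key : ∀ i j : Stp V, i ≠ j → ∀ᵐ τ ∂(PL V), τ i < 0 → τ j < 0 → tm τ i ≠ tm τ j := by
    intro i j hij
    let S : Set (Lab V) := {τ | τ i < 0 ∧ τ j < 0 ∧ tm τ i = tm τ j}
    have hmtm : ∀ k : Stp V, Measurable fun τ : Lab V => tm τ k := by
      intro k
      unfold tm
      exact measurable_const.add
        (((measurable_cl.comp (measurable_pi_apply k)).add measurable_const).div_const _)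
    have hS : MeasurableSet S := by
      refine (measurableSet_lt (measurable_pi_apply i) measurable_const).inter
        ((measurableSet_lt (measurable_pi_apply j) measurable_const).inter
          (measurableSet_eq_fun (hmtm i) (hmtm j)))
    have h1 : ∫ τ, S.indicator (fun _ => (1 : ℝ)) τ ∂(PL V) = 0 := by
      rw [integral_update_lab i
        ((measurable_const.indicator hS).aestronglyMeasurable) (B := 1)
        (fun τ => by
          by_cases h : τ ∈ S <;> simp [h])]
      refine integral_eq_zero_of_ae (ae_of_all _ fun τ => ?_)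
      refine integral_eq_zero_of_ae ?_
      filter_upwards [inn_lam_bad i.1 (tm τ j)] with x hx
      have hnot : Function.update τ i x ∉ S := by
        intro hin
        obtain ⟨h1, _, h3⟩ := hin
        apply hx
        refine ⟨by simpa using h1, ?_⟩
        have e1 : tm (Function.update τ i x) i = (i.1 : ℝ) + (cl x + 1) / 2 := by
          simp [tm]
        have e2 : tm (Function.update τ i x) j = tm τ j := by
          simp [tm, Function.update_of_ne hij.symm]
        rw [← e1, h3, e2]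
      simp [hnot]
    have h2 : (PL V) S = 0 := by
      rw [integral_indicator hS] at h1
      simp only [integral_const, smul_eq_mul, mul_one] at h1
      have := (measureReal_eq_zero_iff (μ := (PL V).restrict S) (s := Set.univ)).1 h1
      simpa using this
    filter_upwards [measure_eq_zero_iff_ae_notMem.1 h2] with τ hτ h1 h2 h3 using hτ ⟨h1, h2, h3⟩
  have : ∀ᵐ τ ∂(PL V), ∀ i j : Stp V, i ≠ j → τ i < 0 → τ j < 0 → tm τ i ≠ tm τ j := by
    rw [ae_all_iff]; intro i; rw [ae_all_iff]; intro j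
    by_cases hij : i = j
    · exact ae_of_all _ fun τ h => absurd hij h
    · filter_upwards [key i j hij] with τ h _ using h
  filter_upwards [this] with τ h i j hi hj hij using h i j hij hi hj

/-- innovations under fixed labels, zero when inactive -/
def RfW (τ : Lab V) (j : Stp V) (ω : Om V) : ℝ := if τ j < 0 then Rf C τ j ω else 0

/-- the past innovations under fixed labels -/
def GF (τ : Lab V) (T : ℝ) : MeasurableSpace (Om V) :=
  ⨆ j ∈ Sq τ T, MeasurableSpace.comap (Rf C τ j) inferInstance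

/-- all the innovations under fixed labels -/
def GFa (τ : Lab V) : MeasurableSpace (Om V) :=
  MeasurableSpace.comap (fun ω j => RfW C τ j ω) inferInstance

lemma inn_measurable_Tc : Measurable (Function.uncurry Tc) := by
  have : Function.uncurry Tc = fun p : ℝ × ℝ => p.2 + p.1 * (p.2 ^ 2 - 1) / 2 := by
    funext p; rfl
  rw [this]; fun_prop

lemma inn_yy_FA {A : Set (Stp V)} {j : Stp V} (hj : j ∈ A) : Measurable[FA C A] (yy C j) := by
  rw [measurable_iff_comap_le]
  exact le_iSup₂_of_le j hj le_rfl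

/-- the innovation is a function of the observations -/
lemma inn_Rf_FA {τ : Lab V} {j : Stp V} {A' : Set (Stp V)} (hj : j ∈ A')
    (hsub : Sq τ (tm τ j) ⊆ A') : Measurable[FA C A'] (Rf C τ j) := by
  have h1 : Measurable[FA C A'] (MA C (Sq τ (tm τ j)) j.2) :=
    (MA_FA C (Sq_le τ _) j.2).mono (FA_mono C hsub) le_rfl
  have h2 := inn_yy_FA C hj
  have h3 : Measurable[FA C A'] (fun ω => (eps j.1 * MA C (Sq τ (tm τ j)) j.2 ω, yy C j ω)) :=
    (h1.const_mul _).prodMk h2
  exact inn_measurable_Tc.comp h3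

lemma GF_le_FA (τ : Lab V) (T : ℝ) : GF C τ T ≤ FA C (Sq τ T) := by
  refine iSup₂_le fun j hj => ?_
  rw [← measurable_iff_comap_le]
  refine inn_Rf_FA C hj ?_
  intro i hi
  exact ⟨hi.1, hi.2.trans hj.2⟩

lemma GF_le_GFa (τ : Lab V) (T : ℝ) : GF C τ T ≤ GFa C τ := by
  refine iSup₂_le fun j hj => ?_
  have h1 : Rf C τ j = (fun ω => RfW C τ j ω) := by
    funext ω; simp [RfW, hj.1]
  rw [h1, ← measurable_iff_comap_le]
  have : Measurable[GFa C τ] (fun ω j => RfW C τ j ω) :=
    comap_measurable _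
  exact (measurable_pi_apply j).comp this

lemma GFa_le (τ : Lab V) : GFa C τ ≤ (inferInstance : MeasurableSpace (Om V)) := by
  have : Measurable (fun (ω : Om V) j => RfW C τ j ω) := by
    refine measurable_pi_iff.2 fun j => ?_
    unfold RfW
    by_cases h : τ j < 0
    · simpa [h] using measurable_Rf C τ j
    · simp [h]
  exact this.comap_le

/-! ### integrating out a noise coordinate -/

/-- replace the noise coordinate of step `j` -/
def setNo (j : Stp V) (x : ℝ) (ω : Om V) : Om V := (ω.1, Function.update ω.2 (.no j) x)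

lemma inn_measurable_setNo (j : Stp V) : Measurable fun p : Om V × ℝ => setNo j p.2 p.1 := by
  unfold setNo
  refine (measurable_fst.comp measurable_fst).prodMk (measurable_pi_iff.2 fun i => ?_)
  by_cases h : i = Ix.no j
  · subst h; simpa using measurable_snd
  · simp only [Function.update_of_ne h]
    exact (measurable_pi_apply i).comp (measurable_snd.comp measurable_fst)

lemma inn_eS_update (e : Sym2 V) (j : Stp V) (x : ℝ) (w : WW V) :
    eS C e (Function.update w (.no j) x) = eS C e w := by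
  unfold eS
  rw [Function.update_of_ne (by simp)]

lemma inn_spin_setNo (j : Stp V) (x : ℝ) (ω : Om V) (v : V) :
    spin C (setNo j x ω) v = spin C ω v := by
  unfold spin pS setNo
  simp only [inn_eS_update]

lemma inn_yy_setNo_of_ne {i j : Stp V} (h : i ≠ j) (x : ℝ) (ω : Om V) :
    yy C i (setNo j x ω) = yy C i ω := by
  unfold yy
  rw [inn_spin_setNo]
  have : (setNo j x ω).2 (.no i) = ω.2 (.no i) := by
    unfold setNo
    simp only
    rw [Function.update_of_ne]
    intro h'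
    exact h (Ix.no.inj h')
  rw [this]

lemma inn_yy_setNo_self (j : Stp V) (x : ℝ) (ω : Om V) :
    yy C j (setNo j x ω) = spin C ω j.2 * nz j.1 x := by
  unfold yy
  rw [inn_spin_setNo]
  unfold setNo
  simp

/-- an observation measurable function does not see the noise of an unobserved step -/
lemma inn_FA_inv {A : Set (Stp V)} {j : Stp V} (hj : j ∉ A) {E : Type} [MeasurableSpace E]
    [MeasurableSingletonClass E] {Z : Om V → E} (hZ : Measurable[FA C A] Z) (x : ℝ) (ω : Om V) :
    Z (setNo j x ω) = Z ω := by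
  let m' : MeasurableSpace (Om V) :=
    { MeasurableSet' := fun S => ∀ ω, setNo j x ω ∈ S ↔ ω ∈ S
      measurableSet_empty := by simp
      measurableSet_compl := fun S hS ω => by
        simp only [Set.mem_compl_iff]
        rw [hS ω]
      measurableSet_iUnion := fun f hf ω => by
        simp only [Set.mem_iUnion]
        constructor
        · rintro ⟨i, hi⟩; exact ⟨i, (hf i ω).1 hi⟩
        · rintro ⟨i, hi⟩; exact ⟨i, (hf i ω).2 hi⟩ }
  have hle : FA C A ≤ m' := by
    refine iSup₂_le fun i hi => ?_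
    rintro S ⟨B, _, rfl⟩
    intro ω'
    have hne : i ≠ j := fun h => hj (h ▸ hi)
    simp only [Set.mem_preimage]
    rw [inn_yy_setNo_of_ne C hne]
  have hS : MeasurableSet[FA C A] (Z ⁻¹' {Z ω}) := hZ (measurableSet_singleton _)
  have := (hle _ hS : ∀ ω', setNo j x ω' ∈ Z ⁻¹' {Z ω} ↔ ω' ∈ Z ⁻¹' {Z ω}) ω
  exact this.2 rfl

lemma inn_integrable {f : Om V → ℝ} (hf : Measurable f) {B : ℝ} (hB : ∀ ω, |f ω| ≤ B) :
    Integrable f (PP V) :=
  Integrable.of_bound hf.aestronglyMeasurable B (ae_of_all _ fun ω => by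
    simpa [Real.norm_eq_abs] using hB ω)

lemma integral_setNo (j : Stp V) {F : Om V → ℝ} (hF : Measurable F) {B : ℝ}
    (hB : ∀ ω, |F ω| ≤ B) :
    ∫ ω, F ω ∂(PP V) = ∫ ω, ∫ x, F (setNo j x ω) ∂lam ∂(PP V) := by
  have hm2 : Measurable fun ω : Om V => ∫ x, F (setNo j x ω) ∂lam :=
    (hF.comp (inn_measurable_setNo j)).stronglyMeasurable.integral_prod_right'.measurable
  have hb2 : ∀ ω : Om V, |∫ x, F (setNo j x ω) ∂lam| ≤ B := by
    intro ω
    have := norm_integral_le_of_norm_le_const (μ := lam) (f := fun x => F (setNo j x ω)) (C := B)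
      (ae_of_all _ fun x => by simpa [Real.norm_eq_abs] using hB _)
    simpa [Real.norm_eq_abs] using this
  unfold PP
  rw [integral_prod _ (inn_integrable hF hB), integral_prod _ (inn_integrable hm2 hb2)]
  refine integral_congr_ae (ae_of_all _ fun b => ?_)
  have hF' : Measurable fun w : Ix V → ℝ => F (b, w) := hF.comp (measurable_const.prodMk measurable_id)
  exact integral_update (I := Ix V) (.no j) hF' (B := B) (fun w => hB _)


lemma inn_cl_neg (t : ℝ) : cl (-t) = -cl t := by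
  unfold cl
  simp only [max_def, min_def]
  split_ifs <;> linarith

lemma inn_integral_neg_lam (f : ℝ → ℝ) : ∫ t, f (-t) ∂lam = ∫ t, f t ∂lam := by
  rw [integral_lam, integral_lam]
  congr 1
  rw [← integral_indicator measurableSet_Icc, ← integral_indicator measurableSet_Icc]
  rw [← integral_neg_eq_self (fun t => (Set.Icc (-1 : ℝ) 1).indicator f t) volume]
  congr 1
  funext t
  by_cases h : t ∈ Set.Icc (-1 : ℝ) 1
  · have h' : -t ∈ Set.Icc (-1 : ℝ) 1 := ⟨by linarith [h.2], by linarith [h.1]⟩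
    simp [Set.indicator_of_mem h, Set.indicator_of_mem h']
  · have h' : -t ∉ Set.Icc (-1 : ℝ) 1 := fun h'' => h ⟨by linarith [h''.2], by linarith [h''.1]⟩
    simp only [Set.indicator_of_notMem h, Set.indicator_of_notMem h']

lemma inn_integral_cl_comp (g : ℝ → ℝ) : ∫ t, g (cl t) ∂lam = ∫ t, g t ∂lam := by
  rw [integral_lam, integral_lam]
  congr 1
  exact setIntegral_congr_fun measurableSet_Icc fun t ht => by simp only [cl_of_mem ht]

lemma inn_integral_sign {s e : ℝ} (hs : s = 1 ∨ s = -1) (he : |e| ≤ 1 / 2) (g : ℝ → ℝ) :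
    ∫ x, g (s * Sf x e) ∂lam = ∫ t, g (cl t) * (1 + e * s * cl t) ∂lam := by
  rcases hs with rfl | rfl
  · have := integral_Sf (ε := 1 / 2) (c := e) (by norm_num) he g
    simpa using this
  · have h1 := integral_Sf (ε := 1 / 2) (c := e) (by norm_num) he (fun y => g (-y))
    have h2 := inn_integral_neg_lam (fun t => g (cl t) * (1 + e * -1 * cl t))
    simp only [inn_cl_neg] at h2
    rw [← h2]
    simp only [neg_one_mul] at *
    rw [h1]
    refine integral_congr_ae (ae_of_all _ fun t => ?_)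
    simp only
    ring

lemma inn_abs_integral_le {f : ℝ → ℝ} {B : ℝ} (hB : ∀ t, |f t| ≤ B) : |∫ t, f t ∂lam| ≤ B := by
  have := norm_integral_le_of_norm_le_const (μ := lam) (f := f) (C := B)
    (ae_of_all _ fun x => by simpa [Real.norm_eq_abs] using hB x)
  simpa [Real.norm_eq_abs] using this

/-- the core: integrating out the noise of a new step, then Bayes -/
theorem step_core {A : Set (Stp V)} {L : ℤ} (hA : ∀ i ∈ A, i.1 ≤ L) {j : Stp V} (hj : j ∉ A)
    {E : Type} [MeasurableSpace E] [MeasurableSingletonClass E]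
    {Z : Om V → ℝ} {Y : Om V → E} {B : ℝ} (hZ : Measurable[FA C A] Z) (hZB : ∀ ω, |Z ω| ≤ B)
    (hY : Measurable[FA C A] Y) {h : ℝ → E → ℝ} (hh : Measurable (Function.uncurry h))
    (hhB : ∀ t y, |h t y| ≤ B) :
    ∫ ω, Z ω * h (yy C j ω) (Y ω) ∂(PP V) =
      ∫ ω, Z ω * ∫ t, h (cl t) (Y ω) * (1 + eps j.1 * MA C A j.2 ω * cl t) ∂lam ∂(PP V) := by
  have hB0 : 0 ≤ B := (abs_nonneg _).trans (hZB (true, fun _ => 0))
  have hZm : Measurable Z := hZ.mono (FA_le C A) le_rfl
  have hYm : Measurable Y := hY.mono (FA_le C A) le_rfl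
  have he : |eps j.1| ≤ 1 / 2 := by
    rw [abs_of_pos (eps_pos _)]; exact eps_le _
  have hh1 : ∀ y, Measurable fun t : ℝ => h t y := fun y =>
    hh.comp (measurable_id.prodMk measurable_const)
  have hFm : Measurable fun ω => Z ω * h (yy C j ω) (Y ω) :=
    hZm.mul (hh.comp ((measurable_yy C j).prodMk hYm))
  have hFB : ∀ ω, |Z ω * h (yy C j ω) (Y ω)| ≤ B * B := fun ω => by
    rw [abs_mul]; exact mul_le_mul (hZB ω) (hhB _ _) (abs_nonneg _) hB0
  -- the two inner linear functionals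
  let a : E → ℝ := fun y => ∫ t, h (cl t) y ∂lam
  let b : E → ℝ := fun y => ∫ t, h (cl t) y * cl t ∂lam
  have hma : Measurable a := by
    have : Measurable fun p : E × ℝ => h (cl p.2) p.1 :=
      hh.comp ((measurable_cl.comp measurable_snd).prodMk measurable_fst)
    exact this.stronglyMeasurable.integral_prod_right'.measurable
  have hmb : Measurable b := by
    have : Measurable fun p : E × ℝ => h (cl p.2) p.1 * cl p.2 :=
      (hh.comp ((measurable_cl.comp measurable_snd).prodMk measurable_fst)).mul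
        (measurable_cl.comp measurable_snd)
    exact this.stronglyMeasurable.integral_prod_right'.measurable
  have hab : ∀ y, |a y| ≤ B := fun y => inn_abs_integral_le fun t => hhB _ _
  have hbb : ∀ y, |b y| ≤ B := fun y => inn_abs_integral_le fun t => by
    rw [abs_mul]
    calc |h (cl t) y| * |cl t| ≤ B * 1 := mul_le_mul (hhB _ _) (abs_cl_le t) (abs_nonneg _) hB0
      _ = B := mul_one B
  have hint1 : ∀ y, Integrable (fun t => h (cl t) y) lam := fun y =>
    Integrable.of_bound ((hh1 y).comp measurable_cl).aestronglyMeasurable B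
      (ae_of_all _ fun t => by simpa [Real.norm_eq_abs] using hhB _ _)
  have hint2 : ∀ y, Integrable (fun t => h (cl t) y * cl t) lam := fun y =>
    (hint1 y).mul_bdd (c := 1) measurable_cl.aestronglyMeasurable
      (ae_of_all _ fun t => by simpa [Real.norm_eq_abs] using abs_cl_le t)
  have hlin : ∀ (y : E) (c : ℝ),
      ∫ t, h (cl t) y * (1 + c * cl t) ∂lam = a y + c * b y := by
    intro y c
    have : (fun t => h (cl t) y * (1 + c * cl t)) =
        fun t => h (cl t) y + c * (h (cl t) y * cl t) := by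
      funext t; ring
    rw [this, integral_add (hint1 y) ((hint2 y).const_mul c), integral_const_mul]
  -- integrate out the noise
  rw [integral_setNo j hFm hFB]
  have hstep : ∀ ω, ∫ x, Z (setNo j x ω) * h (yy C j (setNo j x ω)) (Y (setNo j x ω)) ∂lam =
      Z ω * (a (Y ω) + eps j.1 * spin C ω j.2 * b (Y ω)) := by
    intro ω
    have : ∀ x, Z (setNo j x ω) * h (yy C j (setNo j x ω)) (Y (setNo j x ω)) =
        Z ω * h (spin C ω j.2 * Sf x (eps j.1)) (Y ω) := by
      intro x
      rw [inn_FA_inv C hj hZ, inn_FA_inv C hj hY, inn_yy_setNo_self]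
      rfl
    simp only [this]
    rw [integral_const_mul, inn_integral_sign (spin_cases C ω j.2) he (fun y' => h y' (Y ω)),
      hlin]
  simp only [hstep]
  have hfin : ∀ ω, ∫ t, h (cl t) (Y ω) * (1 + eps j.1 * MA C A j.2 ω * cl t) ∂lam =
      a (Y ω) + eps j.1 * MA C A j.2 ω * b (Y ω) := fun ω => hlin _ _
  simp only [hfin]
  -- Bayes
  let W : Om V → ℝ := fun ω => Z ω * b (Y ω)
  have hW : Measurable[FA C A] W := hZ.mul (hmb.comp hY)
  have hWm : Measurable W := hW.mono (FA_le C A) le_rfl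
  have hWB : ∀ ω, |W ω| ≤ B * B := fun ω => by
    simp only [W, abs_mul]; exact mul_le_mul (hZB ω) (hbb _) (abs_nonneg _) hB0
  have hspB : ∀ ω, |spin C ω j.2| ≤ 1 := fun ω => by
    rcases spin_cases C ω j.2 with h | h <;> simp [h]
  have hBay : ∫ ω, W ω * spin C ω j.2 ∂(PP V) = ∫ ω, W ω * MA C A j.2 ω ∂(PP V) := by
    have h1 := ce_integral_mul (μ := PP V) (m := FA C A) (FA_le C A)
      (Z := fun ω => spin C ω j.2) (c := W) (B := max 1 (B * B))
      (measurable_spin C j.2) (fun ω => (hspB ω).trans (le_max_left _ _)) hW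
      (fun ω => (hWB ω).trans (le_max_right _ _))
    rw [← h1]
    refine integral_congr_ae ?_
    filter_upwards [post C hA j.2] with ω hω
    rw [hω]
  have hmMA : Measurable (MA C A j.2) := (MA_FA C hA j.2).mono (FA_le C A) le_rfl
  have hMAB : ∀ ω, |MA C A j.2 ω| ≤ 1 := fun ω => (abs_mag_lt C _ _).le
  have hI0 : Integrable (fun ω => Z ω * a (Y ω)) (PP V) :=
    inn_integrable (hZm.mul (hma.comp hYm)) (B := B * B) fun ω => by
      rw [abs_mul]; exact mul_le_mul (hZB ω) (hab _) (abs_nonneg _) hB0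
  have hI1 : Integrable (fun ω => W ω * spin C ω j.2) (PP V) :=
    inn_integrable (hWm.mul (measurable_spin C j.2)) (B := B * B * 1) fun ω => by
      rw [abs_mul]; exact mul_le_mul (hWB ω) (hspB ω) (abs_nonneg _) (mul_nonneg hB0 hB0)
  have hI2 : Integrable (fun ω => W ω * MA C A j.2 ω) (PP V) :=
    inn_integrable (hWm.mul hmMA) (B := B * B * 1) fun ω => by
      rw [abs_mul]; exact mul_le_mul (hWB ω) (hMAB ω) (abs_nonneg _) (mul_nonneg hB0 hB0)
  have e1 : ∀ ω, Z ω * (a (Y ω) + eps j.1 * spin C ω j.2 * b (Y ω)) =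
      Z ω * a (Y ω) + eps j.1 * (W ω * spin C ω j.2) := fun ω => by simp only [W]; ring
  have e2 : ∀ ω, Z ω * (a (Y ω) + eps j.1 * MA C A j.2 ω * b (Y ω)) =
      Z ω * a (Y ω) + eps j.1 * (W ω * MA C A j.2 ω) := fun ω => by simp only [W]; ring
  simp only [e1, e2]
  rw [integral_add hI0 (hI1.const_mul _), integral_add hI0 (hI2.const_mul _), integral_const_mul,
    integral_const_mul, hBay]

/-- one-step density: given the observations in `A`, the next observation at `j` has density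
`1 + ε m_u t`; so the innovation is uniform given the past. -/
theorem step_density {A : Set (Stp V)} {L : ℤ} (hA : ∀ i ∈ A, i.1 ≤ L) {j : Stp V} (hj : j ∉ A)
    {Z Y : Om V → ℝ} {B : ℝ} (hZ : Measurable[FA C A] Z) (hZB : ∀ ω, |Z ω| ≤ B)
    (hY : Measurable[FA C A] Y) {h : ℝ → ℝ → ℝ} (hh : Measurable (Function.uncurry h))
    (hhB : ∀ t y, |h t y| ≤ B) :
    ∫ ω, Z ω * h (yy C j ω) (Y ω) ∂(PP V) =
      ∫ ω, Z ω * ∫ t, h (cl t) (Y ω) * (1 + eps j.1 * MA C A j.2 ω * cl t) ∂lam ∂(PP V) :=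
  step_core C hA hj hZ hZB hY hh hhB

/-- general form of `step_uniform`: the side information has any type -/
theorem step_uniform_gen {A : Set (Stp V)} {L : ℤ} (hA : ∀ i ∈ A, i.1 ≤ L) {j : Stp V} (hj : j ∉ A)
    {E : Type} [MeasurableSpace E] [MeasurableSingletonClass E]
    {Z : Om V → ℝ} {Y : Om V → E} {B : ℝ} (hZ : Measurable[FA C A] Z) (hZB : ∀ ω, |Z ω| ≤ B)
    (hY : Measurable[FA C A] Y) {h : ℝ → E → ℝ} (hh : Measurable (Function.uncurry h))
    (hhB : ∀ t y, |h t y| ≤ B) :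
    ∫ ω, Z ω * h (Tc (eps j.1 * MA C A j.2 ω) (yy C j ω)) (Y ω) ∂(PP V) =
      ∫ ω, Z ω * ∫ t, h t (Y ω) ∂lam ∂(PP V) := by
  have he : |eps j.1| ≤ 1 / 2 := by
    rw [abs_of_pos (eps_pos _)]; exact eps_le _
  have hMAB : ∀ ω, |MA C A j.2 ω| ≤ 1 := fun ω => (abs_mag_lt C _ _).le
  have hcB : ∀ ω, |eps j.1 * MA C A j.2 ω| ≤ 1 / 2 := fun ω => by
    rw [abs_mul]
    calc |eps j.1| * |MA C A j.2 ω| ≤ 1 / 2 * 1 :=
          mul_le_mul he (hMAB ω) (abs_nonneg _) (by norm_num)
      _ = 1 / 2 := by norm_num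
  let h' : ℝ → ℝ × E → ℝ := fun y p => h (Tc (eps j.1 * p.1) y) p.2
  have hh' : Measurable (Function.uncurry h') := by
    have h1 : Measurable fun q : ℝ × ℝ × E => Tc (eps j.1 * q.2.1) q.1 :=
      inn_measurable_Tc.comp
        ((measurable_const.mul (measurable_fst.comp measurable_snd)).prodMk measurable_fst)
    exact hh.comp (h1.prodMk (measurable_snd.comp measurable_snd))
  have key := step_core C hA hj hZ hZB (Y := fun ω => (MA C A j.2 ω, Y ω))
    ((MA_FA C hA j.2).prodMk hY) (h := h') hh' (fun t y => hhB _ _)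
  simp only [h'] at key
  rw [key]
  refine integral_congr_ae (ae_of_all _ fun ω => ?_)
  simp only
  congr 1
  have h2 := integral_Sf (ε := 1 / 2) (c := eps j.1 * MA C A j.2 ω) (by norm_num) (hcB ω)
    (fun y => h (Tc (eps j.1 * MA C A j.2 ω) y) (Y ω))
  simp only [Tc_Sf] at h2
  rw [← h2]
  exact inn_integral_cl_comp (fun t => h t (Y ω))

/-- the innovation is uniform given the past -/
theorem step_uniform {A : Set (Stp V)} {L : ℤ} (hA : ∀ i ∈ A, i.1 ≤ L) {j : Stp V} (hj : j ∉ A)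
    {Z Y : Om V → ℝ} {B : ℝ} (hZ : Measurable[FA C A] Z) (hZB : ∀ ω, |Z ω| ≤ B)
    (hY : Measurable[FA C A] Y) {h : ℝ → ℝ → ℝ} (hh : Measurable (Function.uncurry h))
    (hhB : ∀ t y, |h t y| ≤ B) :
    ∫ ω, Z ω * h (Tc (eps j.1 * MA C A j.2 ω) (yy C j ω)) (Y ω) ∂(PP V) =
      ∫ ω, Z ω * ∫ t, h t (Y ω) ∂lam ∂(PP V) :=
  step_uniform_gen C hA hj hZ hZB hY hh hhB


/-- the update function in terms of the innovation -/
def gg (r c : ℝ) : ℝ := Sf r c / (1 + c * Sf r c)

lemma inn_denom_ge {c : ℝ} (hc : |c| ≤ 1 / 2) (r : ℝ) : 1 / 2 ≤ 1 + c * Sf r c := by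
  have h1 := abs_Sf_le r c
  have h2 : |c * Sf r c| ≤ 1 / 2 := by
    rw [abs_mul]
    calc |c| * |Sf r c| ≤ 1 / 2 * 1 := mul_le_mul hc h1 (abs_nonneg _) (by norm_num)
      _ = 1 / 2 := by norm_num
  have := (abs_le.1 h2).1
  linarith

lemma abs_gg_le {c : ℝ} (hc : |c| ≤ 1 / 2) (r : ℝ) : |gg r c| ≤ 2 := by
  unfold gg
  have hd := inn_denom_ge hc r
  rw [abs_div, abs_of_pos (by linarith : (0 : ℝ) < 1 + c * Sf r c),
    div_le_iff₀ (by linarith : (0 : ℝ) < 1 + c * Sf r c)]
  have := abs_Sf_le r c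
  linarith

lemma gg_lip {c c' : ℝ} (hc : |c| ≤ 1 / 2) (hc' : |c'| ≤ 1 / 2) (r : ℝ) :
    |gg r c - gg r c'| ≤ 16 * |c - c'| := by
  unfold gg
  have hd := inn_denom_ge hc r
  have hd' := inn_denom_ge hc' r
  have hs := abs_Sf_le r c
  have hs' := abs_Sf_le r c'
  have hl : |Sf r c - Sf r c'| ≤ |c - c'| := by
    have := Sf_lipschitz (ε := 1 / 2) (r := r) (r' := r) (c := c) (c' := c') (by norm_num) hc
    simp only [sub_self, abs_zero, zero_add] at this
    calc |Sf r c - Sf r c'| ≤ |c - c'| / 2 / (1 - 1 / 2) := this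
      _ = |c - c'| := by ring
  set s := Sf r c
  set s' := Sf r c'
  have hpos : 0 < 1 + c * s := by linarith
  have hpos' : 0 < 1 + c' * s' := by linarith
  have heq : s / (1 + c * s) - s' / (1 + c' * s') =
      (s - s' + s * s' * (c' - c)) / ((1 + c * s) * (1 + c' * s')) := by
    rw [div_sub_div _ _ hpos.ne' hpos'.ne']
    congr 1
    ring
  rw [heq, abs_div, abs_of_pos (mul_pos hpos hpos')]
  have hnum : |s - s' + s * s' * (c' - c)| ≤ 2 * |c - c'| := by
    have h1 : |s * s' * (c' - c)| ≤ |c - c'| := by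
      rw [abs_mul, abs_mul, abs_sub_comm c' c]
      have : |s| * |s'| ≤ 1 := by
        calc |s| * |s'| ≤ 1 * 1 := mul_le_mul hs hs' (abs_nonneg _) (by norm_num)
          _ = 1 := by norm_num
      nlinarith [abs_nonneg (c - c')]
    calc |s - s' + s * s' * (c' - c)| ≤ |s - s'| + |s * s' * (c' - c)| := abs_add_le _ _
      _ ≤ 2 * |c - c'| := by linarith
  have hden : 1 / 4 ≤ (1 + c * s) * (1 + c' * s') := by nlinarith
  rw [div_le_iff₀ (by linarith)]
  nlinarith [abs_nonneg (c - c')]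

lemma inn_measurable_Sf : Measurable (Function.uncurry Sf) := by
  have : Function.uncurry Sf = fun p : ℝ × ℝ =>
      (p.2 + 2 * cl p.1) / (1 + Real.sqrt (1 + p.2 ^ 2 + 2 * p.2 * cl p.1)) := by
    funext p; rfl
  rw [this]
  have h1 : Measurable fun p : ℝ × ℝ => cl p.1 := measurable_cl.comp measurable_fst
  have h2 : Measurable fun p : ℝ × ℝ => p.2 := measurable_snd
  exact (h2.add (h1.const_mul 2)).div
    (measurable_const.add (((measurable_const.add (h2.pow_const 2)).add
      ((h2.const_mul 2).mul h1)).sqrt))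

lemma measurable_gg : Measurable (Function.uncurry gg) := by
  have : Function.uncurry gg = fun p : ℝ × ℝ =>
      Function.uncurry Sf p / (1 + p.2 * Function.uncurry Sf p) := by
    funext p; rfl
  rw [this]
  exact inn_measurable_Sf.div (measurable_const.add (measurable_snd.mul inn_measurable_Sf))

lemma integral_gg {c : ℝ} (hc : |c| ≤ 1 / 2) : ∫ r, gg r c ∂lam = 0 := by
  have h := integral_Sf (ε := 1 / 2) (c := c) (by norm_num) hc (fun y => y / (1 + c * y))
  unfold gg
  rw [h]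
  rw [← integral_cl_lam]
  refine integral_congr_ae (ae_of_all _ fun t => ?_)
  simp only
  have h1 := abs_cl_le t
  have h2 : |c * cl t| ≤ 1 / 2 := by
    rw [abs_mul]
    calc |c| * |cl t| ≤ 1 / 2 * 1 := mul_le_mul hc h1 (abs_nonneg _) (by norm_num)
      _ = 1 / 2 := by norm_num
  have h3 : 1 + c * cl t ≠ 0 := by
    have := (abs_le.1 h2).1
    intro h0
    linarith
  exact div_mul_cancel₀ _ h3

/-- the jump of the magnetisation when step `j` is added -/
def Dl (A : Set (Stp V)) (j : Stp V) (x : V) (ω : Om V) : ℝ :=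
  MA C (insert j A) x ω - MA C A x ω

lemma inn_tanh_zeta {ε t : ℝ} (ht : |ε * t| < 1) : Real.tanh (zeta ε t) = ε * t := by
  have h1 := abs_lt.1 ht
  have hp : 0 < 1 + ε * t := by linarith
  have hm : 0 < 1 - ε * t := by linarith
  set r := (1 + ε * t) / (1 - ε * t) with hr
  have hrpos : 0 < r := div_pos hp hm
  unfold zeta
  rw [← hr]
  set u := Real.exp ((1 / 2) * Real.log r) with hu
  have hupos : 0 < u := Real.exp_pos _
  have hu2 : u * u = r := by
    rw [hu, ← Real.exp_add]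
    have : 1 / 2 * Real.log r + 1 / 2 * Real.log r = Real.log r := by ring
    rw [this, Real.exp_log hrpos]
  rw [Real.tanh_eq_sinh_div_cosh, Real.sinh_eq, Real.cosh_eq, Real.exp_neg, ← hu]
  have hne : u ≠ 0 := hupos.ne'
  have hden : u * u + 1 ≠ 0 := by positivity
  have : (u - u⁻¹) / 2 / ((u + u⁻¹) / 2) = (u * u - 1) / (u * u + 1) := by
    field_simp
  rw [this, hu2, hr]
  field_simp
  ring

/-- the field after adding a step -/
lemma inn_fld_insert_of_ne {A : Set (Stp V)} {j : Stp V} (ω : Om V) {v : V} (hv : v ≠ j.2) :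
    fld C (insert j A) ω v = fld C A ω v := by
  unfold fld
  refine tsum_congr fun ℓ => ?_
  have : (ℓ, v) ∈ insert j A ↔ (ℓ, v) ∈ A := by
    constructor
    · intro h
      rcases h with h | h
      · exact absurd (by rw [← h]) hv
      · exact h
    · exact Or.inr
  simp only [this]

lemma inn_fld_insert_self {A : Set (Stp V)} {L : ℤ} (hA : ∀ i ∈ A, i.1 ≤ L) {j : Stp V}
    (hj : j ∉ A) (hjL : j.1 ≤ L) (ω : Om V) :
    fld C (insert j A) ω j.2 - fld C A ω j.2 = zeta (eps j.1) (yy C j ω) := by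
  have hA' : ∀ i ∈ insert j A, i.1 ≤ L := by
    intro i hi
    rcases hi with rfl | hi
    · exact hjL
    · exact hA i hi
  unfold fld
  rw [← (summable_fld C hA' ω j.2).tsum_sub (summable_fld C hA ω j.2)]
  rw [tsum_eq_single j.1]
  · have h1 : (j.1, j.2) ∈ insert j A := Or.inl rfl
    have h2 : (j.1, j.2) ∉ A := hj
    simp [h2]
  · intro ℓ hℓ
    have h3 : (ℓ, j.2) ∈ insert j A ↔ (ℓ, j.2) ∈ A := by
      constructor
      · intro h
        rcases h with h | h
        · exact absurd (congrArg Prod.fst h) hℓ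
        · exact h
      · exact Or.inr
    simp only [h3]
    simp

/-- update formula at a state -/
theorem Dl_formula {A : Set (Stp V)} {L : ℤ} (hA : ∀ i ∈ A, i.1 ≤ L) {j : Stp V} (hj : j ∉ A)
    (hjL : j.1 ≤ L) (x : V) :
    ∀ᵐ ω ∂(PP V), Dl C A j x ω =
      eps j.1 * gg (Tc (eps j.1 * MA C A j.2 ω) (yy C j ω)) (eps j.1 * MA C A j.2 ω)
        * CA C A x j.2 ω := by
  have hA' : ∀ i ∈ insert j A, i.1 ≤ L := by
    intro i hi
    rcases hi with rfl | hi
    · exact hjL
    · exact hA i hi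
  filter_upwards [mc_ae C hA, mc_ae C hA'] with ω h1 h2
  have he0 : 0 < eps j.1 := eps_pos _
  have he1 : eps j.1 ≤ 1 / 2 := eps_le _
  have hy := abs_yy_le C j ω
  have hey : |eps j.1 * yy C j ω| < 1 := by
    rw [abs_mul, abs_of_pos he0]
    calc eps j.1 * |yy C j ω| ≤ 1 / 2 * 1 := mul_le_mul he1 hy (abs_nonneg _) (by norm_num)
      _ < 1 := by norm_num
  have hup := mag_update C h1 h2 (u := j.2) (fun v hv => inn_fld_insert_of_ne C ω hv) hey
    (by rw [inn_fld_insert_self C hA hj hjL]; exact inn_tanh_zeta hey) x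
  unfold Dl MA CA
  rw [hup]
  set m := mag C (fld C A ω) j.2
  set y := yy C j ω
  have hm : |m| ≤ 1 := (abs_mag_lt C _ _).le
  have hcB : |eps j.1 * m| ≤ 1 / 2 := by
    rw [abs_mul, abs_of_pos he0]
    calc eps j.1 * |m| ≤ 1 / 2 * 1 := mul_le_mul he1 hm (abs_nonneg _) (by norm_num)
      _ = 1 / 2 := by norm_num
  unfold gg
  rw [Sf_Tc (ε := 1 / 2) (by norm_num) hcB hy]
  have hd : 1 + eps j.1 * m * y ≠ 0 := by
    have h3 : |eps j.1 * m * y| ≤ 1 / 2 := by
      rw [abs_mul]
      calc |eps j.1 * m| * |y| ≤ 1 / 2 * 1 := mul_le_mul hcB hy (abs_nonneg _) (by norm_num)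
        _ = 1 / 2 := by norm_num
    have := (abs_le.1 h3).1
    intro h0
    linarith
  have hd' : 1 + eps j.1 * y * m ≠ 0 := by
    intro h0
    apply hd
    linarith [h0]
  field_simp

/-- conditional mean zero of the jump -/
theorem Dl_mart {A : Set (Stp V)} {L : ℤ} (hA : ∀ i ∈ A, i.1 ≤ L) {j : Stp V} (hj : j ∉ A)
    (hjL : j.1 ≤ L) (x : V) {Z : Om V → ℝ} {B : ℝ} (hZ : Measurable[FA C A] Z)
    (hZB : ∀ ω, |Z ω| ≤ B) :
    ∫ ω, Z ω * Dl C A j x ω ∂(PP V) = 0 := by
  have he0 : 0 < eps j.1 := eps_pos _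
  have he1 : eps j.1 ≤ 1 / 2 := eps_le _
  -- clipped side parameters
  let clip : ℝ → ℝ := fun c => (1 / 2) * cl (2 * c)
  have hclip : ∀ c, |clip c| ≤ 1 / 2 := fun c => by
    simp only [clip, abs_mul]
    have := abs_cl_le (2 * c)
    rw [abs_of_pos (by norm_num : (0:ℝ) < 1 / 2)]
    linarith
  have hclip' : ∀ c, |c| ≤ 1 / 2 → clip c = c := fun c hc => by
    have h := abs_le.1 hc
    simp only [clip]
    rw [cl_of_mem ⟨by linarith [h.1], by linarith [h.2]⟩]
    ring
  let h : ℝ → ℝ × ℝ → ℝ := fun t p => eps j.1 * gg t (clip (eps j.1 * p.1)) * cl p.2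
  have hh : Measurable (Function.uncurry h) := by
    have h1 : Measurable fun q : ℝ × ℝ × ℝ => clip (eps j.1 * q.2.1) :=
      measurable_const.mul (measurable_cl.comp
        (measurable_const.mul (measurable_const.mul (measurable_fst.comp measurable_snd))))
    have h2 : Measurable fun q : ℝ × ℝ × ℝ => gg q.1 (clip (eps j.1 * q.2.1)) :=
      measurable_gg.comp (measurable_fst.prodMk h1)
    exact (measurable_const.mul h2).mul (measurable_cl.comp (measurable_snd.comp measurable_snd))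
  have hhB : ∀ t y, |h t y| ≤ max B 1 := fun t y => by
    simp only [h, abs_mul]
    have h1 := abs_gg_le (hclip (eps j.1 * y.1)) t
    have h2 := abs_cl_le y.2
    rw [abs_of_pos he0]
    have : eps j.1 * |gg t (clip (eps j.1 * y.1))| * |cl y.2| ≤ 1 / 2 * 2 * 1 :=
      mul_le_mul (mul_le_mul he1 h1 (abs_nonneg _) (by norm_num)) h2 (abs_nonneg _) (by norm_num)
    exact le_max_of_le_right (by linarith)
  have key := step_uniform_gen C hA hj (Z := Z) (B := max B 1) hZ
    (fun ω => (hZB ω).trans (le_max_left _ _)) (Y := fun ω => (MA C A j.2 ω, CA C A x j.2 ω))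
    ((MA_FA C hA j.2).prodMk (CA_FA C hA x j.2)) hh hhB
  have hrhs : ∀ ω, ∫ t, h t (MA C A j.2 ω, CA C A x j.2 ω) ∂lam = 0 := by
    intro ω
    simp only [h]
    have : ∀ t, eps j.1 * gg t (clip (eps j.1 * MA C A j.2 ω)) * cl (CA C A x j.2 ω) =
        (eps j.1 * cl (CA C A x j.2 ω)) * gg t (clip (eps j.1 * MA C A j.2 ω)) := fun t => by ring
    simp only [this]
    rw [integral_const_mul, integral_gg (hclip _), mul_zero]
  simp only [hrhs, mul_zero, integral_zero] at key
  rw [← key]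
  refine integral_congr_ae ?_
  filter_upwards [Dl_formula C hA hj hjL x] with ω hω
  rw [hω]
  simp only [h]
  have hm : |MA C A j.2 ω| ≤ 1 := (abs_mag_lt C _ _).le
  have hcB : |eps j.1 * MA C A j.2 ω| ≤ 1 / 2 := by
    rw [abs_mul, abs_of_pos he0]
    calc eps j.1 * |MA C A j.2 ω| ≤ 1 / 2 * 1 := mul_le_mul he1 hm (abs_nonneg _) (by norm_num)
      _ = 1 / 2 := by norm_num
  rw [hclip' _ hcB, cl_of_mem (abs_le.1 (abs_CA_le C A x j.2 ω))]


lemma inn_Sq_mono (τ : Lab V) {T T' : ℝ} (h : T ≤ T') : Sq τ T ⊆ Sq τ T' :=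
  fun _ hi => ⟨hi.1, hi.2.trans_le h⟩

/-- product formula: future innovations are uniform and independent of the past observations -/
theorem inn_Rf_prod {τ : Lab V} (hτ : Good τ) (T : ℝ) (J : Finset (Stp V))
    (hJ : ∀ j ∈ J, τ j < 0 ∧ T ≤ tm τ j) {Z : Om V → ℝ} {B : ℝ}
    (hZ : Measurable[FA C (Sq τ T)] Z) (hZB : ∀ ω, |Z ω| ≤ B) {φ : Stp V → ℝ → ℝ}
    (hφ : ∀ j, Measurable (φ j)) {B' : ℝ} (hB : ∀ j t, |φ j t| ≤ B') :
    ∫ ω, Z ω * ∏ j ∈ J, φ j (Rf C τ j ω) ∂(PP V) =
      (∫ ω, Z ω ∂(PP V)) * ∏ j ∈ J, ∫ t, φ j t ∂lam := by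
  have hB'0 : 0 ≤ B' := (abs_nonneg _).trans (hB (0, C.o) 0)
  have hB0 : 0 ≤ B := (abs_nonneg _).trans (hZB (true, fun _ => 0))
  revert hJ
  refine Finset.induction_on_max_value (tm τ) J ?_ ?_
  · intro _
    simp
  intro a s ha hmax ih hJ
  have hJs : ∀ j ∈ s, τ j < 0 ∧ T ≤ tm τ j := fun j hj => hJ j (Finset.mem_insert_of_mem hj)
  have hJa := hJ a (Finset.mem_insert_self _ _)
  have ih' := ih hJs
  set A := Sq τ (tm τ a) with hAdef
  have hxA : ∀ x ∈ s, x ∈ A := by
    intro x hx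
    have hxa : x ≠ a := fun h => ha (h ▸ hx)
    refine ⟨(hJs x hx).1, lt_of_le_of_ne (hmax x hx) ?_⟩
    exact hτ x a (hJs x hx).1 hJa.1 hxa
  have haA : a ∉ A := fun h => lt_irrefl _ h.2
  have hZA : Measurable[FA C A] Z := hZ.mono (FA_mono C (inn_Sq_mono τ hJa.2)) le_rfl
  have hpm : Measurable[FA C A] fun ω => ∏ j ∈ s, φ j (Rf C τ j ω) := by
    refine Finset.measurable_prod s fun j hj => ?_
    refine (hφ j).comp (inn_Rf_FA C (hxA j hj) (inn_Sq_mono τ ?_))
    exact (hmax j hj)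
  have hpB : ∀ ω, |∏ j ∈ s, φ j (Rf C τ j ω)| ≤ B' ^ s.card := fun ω => by
    rw [Finset.abs_prod]
    calc ∏ j ∈ s, |φ j (Rf C τ j ω)| ≤ ∏ _j ∈ s, B' :=
          Finset.prod_le_prod (fun _ _ => abs_nonneg _) (fun _ _ => hB _ _)
      _ = B' ^ s.card := by simp
  have hpow : 0 ≤ B' ^ s.card := pow_nonneg hB'0 _
  let Z' : Om V → ℝ := fun ω => Z ω * ∏ j ∈ s, φ j (Rf C τ j ω)
  have hZ' : Measurable[FA C A] Z' := hZA.mul hpm
  have hZ'B : ∀ ω, |Z' ω| ≤ max (B * B' ^ s.card) B' := fun ω => by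
    simp only [Z', abs_mul]
    exact le_max_of_le_left (mul_le_mul (hZB ω) (hpB ω) (abs_nonneg _) hB0)
  have key := step_uniform_gen C (Sq_le τ (tm τ a)) haA (E := ℝ) hZ' hZ'B
    (Y := fun _ => (0 : ℝ)) measurable_const (h := fun t _ => φ a t)
    ((hφ a).comp measurable_fst) (fun t _ => (hB a t).trans (le_max_right _ _))
  have e1 : ∀ ω, Z ω * ∏ j ∈ insert a s, φ j (Rf C τ j ω) =
      Z' ω * φ a (Tc (eps a.1 * MA C A a.2 ω) (yy C a ω)) := by
    intro ω
    rw [Finset.prod_insert ha]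
    simp only [Z']
    have : Rf C τ a ω = Tc (eps a.1 * MA C A a.2 ω) (yy C a ω) := rfl
    rw [this]
    ring
  simp only [e1]
  rw [key, integral_mul_const, Finset.prod_insert ha]
  simp only [Z']
  rw [ih']
  ring

/-- the innovations are iid uniform under good labels -/
theorem Rf_iid {τ : Lab V} (hτ : Good τ) (J : Finset (Stp V)) (hJ : ∀ j ∈ J, τ j < 0)
    {φ : Stp V → ℝ → ℝ} (hφ : ∀ j, Measurable (φ j)) {B : ℝ} (hB : ∀ j t, |φ j t| ≤ B) :
    ∫ ω, ∏ j ∈ J, φ j (Rf C τ j ω) ∂(PP V) = ∏ j ∈ J, ∫ t, φ j t ∂lam := by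
  obtain ⟨T, hT⟩ := (J.image (tm τ)).bddBelow
  have hT' : ∀ j ∈ J, T ≤ tm τ j := fun j hj => hT (Finset.mem_coe.2 (Finset.mem_image_of_mem _ hj))
  have := inn_Rf_prod C hτ T J (fun j hj => ⟨hJ j hj, hT' j hj⟩) (Z := fun _ => 1) (B := 1)
    measurable_const (fun _ => by simp) hφ hB
  simpa using this

/-- the future innovations -/
def GFut (τ : Lab V) (T : ℝ) : MeasurableSpace (Om V) :=
  ⨆ j ∈ {j : Stp V | τ j < 0 ∧ T ≤ tm τ j}, MeasurableSpace.comap (Rf C τ j) inferInstance

lemma inn_GFut_le (τ : Lab V) (T : ℝ) : GFut C τ T ≤ (inferInstance : MeasurableSpace (Om V)) :=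
  iSup₂_le fun j _ => (measurable_Rf C τ j).comap_le

lemma inn_GFa_eq (τ : Lab V) (T : ℝ) : GFa C τ = GF C τ T ⊔ GFut C τ T := by
  apply le_antisymm
  · unfold GFa
    have hmm : @Measurable _ _ (GF C τ T ⊔ GFut C τ T) _ (fun ω j => RfW C τ j ω) := ?_
    · exact hmm.comap_le
    refine @measurable_pi_lambda _ _ _ (GF C τ T ⊔ GFut C τ T) _ _ fun j => ?_
    unfold RfW
    by_cases hj : τ j < 0
    · simp only [hj, if_true]
      by_cases hT : tm τ j < T
      · have : MeasurableSpace.comap (Rf C τ j) inferInstance ≤ GF C τ T :=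
          le_iSup₂_of_le (f := fun j (_ : j ∈ Sq τ T) =>
            MeasurableSpace.comap (Rf C τ j) inferInstance) j ⟨hj, hT⟩ le_rfl
        exact measurable_iff_comap_le.2 (this.trans le_sup_left)
      · have : MeasurableSpace.comap (Rf C τ j) inferInstance ≤ GFut C τ T :=
          le_iSup₂_of_le (f := fun j (_ : j ∈ {j : Stp V | τ j < 0 ∧ T ≤ tm τ j}) =>
            MeasurableSpace.comap (Rf C τ j) inferInstance) j ⟨hj, not_lt.1 hT⟩ le_rfl
        exact measurable_iff_comap_le.2 (this.trans le_sup_right)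
    · simp only [hj, if_false]
      exact measurable_const
  · refine sup_le (GF_le_GFa C τ T) ?_
    refine iSup₂_le fun j hj => ?_
    have h1 : Rf C τ j = (fun ω => RfW C τ j ω) := by
      funext ω; simp [RfW, hj.1]
    rw [h1, ← measurable_iff_comap_le]
    have : Measurable[GFa C τ] (fun ω j => RfW C τ j ω) :=
      comap_measurable _
    exact (measurable_pi_apply j).comp this

/-- the past observations are independent of the future innovations -/
theorem inn_indep {τ : Lab V} (hτ : Good τ) (T : ℝ) :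
    ProbabilityTheory.Indep (FA C (Sq τ T)) (GFut C τ T) (PP V) := by
  refine ProbabilityTheory.IndepSets.indep (p1 := {S | MeasurableSet[FA C (Sq τ T)] S})
    (p2 := piiUnionInter (fun j : Stp V =>
      {s | MeasurableSet[MeasurableSpace.comap (Rf C τ j) inferInstance] s})
      {j : Stp V | τ j < 0 ∧ T ≤ tm τ j}) (FA_le C _) (inn_GFut_le C τ T)
    (@MeasurableSpace.isPiSystem_measurableSet _ (FA C (Sq τ T)))
    (isPiSystem_piiUnionInter _
      (fun j => @MeasurableSpace.isPiSystem_measurableSet _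
        (MeasurableSpace.comap (Rf C τ j) inferInstance)) _)
    (@MeasurableSpace.generateFrom_measurableSet _ (FA C (Sq τ T))).symm
    (generateFrom_piiUnionInter_measurableSet _ _).symm ?_
  rw [ProbabilityTheory.IndepSets_iff]
  intro S E hS hE
  obtain ⟨t, ht, f, hf, rfl⟩ := hE
  have hch : ∀ x, ∃ B : Set ℝ, MeasurableSet B ∧ (x ∈ t → Rf C τ x ⁻¹' B = f x) := by
    intro x
    by_cases hx : x ∈ t
    · obtain ⟨B, hB, hBe⟩ := hf x hx
      exact ⟨B, hB, fun _ => hBe⟩
    · exact ⟨∅, MeasurableSet.empty, fun h => absurd h hx⟩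
  choose B hB hBe using hch
  let φ : Stp V → ℝ → ℝ := fun x => (B x).indicator fun _ => 1
  have hφ : ∀ x, Measurable (φ x) := fun x => measurable_const.indicator (hB x)
  have hφB : ∀ x s, |φ x s| ≤ 1 := fun x s => by
    simp only [φ]
    by_cases h : s ∈ B x <;> simp [h]
  let E : Set (Om V) := ⋂ x ∈ t, f x
  have hEm : MeasurableSet E := by
    refine Finset.measurableSet_biInter t fun x hx => ?_
    rw [← hBe x hx]
    exact (measurable_Rf C τ x) (hB x)
  have hSm : MeasurableSet S := FA_le C _ S hS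
  have hprod : ∀ ω, ∏ x ∈ t, φ x (Rf C τ x ω) = E.indicator (fun _ => (1 : ℝ)) ω := by
    intro ω
    by_cases hω : ω ∈ E
    · rw [Set.indicator_of_mem hω]
      refine Finset.prod_eq_one fun x hx => ?_
      have : ω ∈ f x := Set.mem_iInter₂.1 hω x hx
      rw [← hBe x hx] at this
      have this' : Rf C τ x ω ∈ B x := this
      simp only [φ]
      rw [Set.indicator_of_mem this']
    · rw [Set.indicator_of_notMem hω]
      have : ∃ x ∈ t, ω ∉ f x := by
        by_contra hcon
        push Not at hcon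
        exact hω (Set.mem_iInter₂.2 hcon)
      obtain ⟨x, hx, hxω⟩ := this
      refine Finset.prod_eq_zero hx ?_
      rw [← hBe x hx] at hxω
      have this' : Rf C τ x ω ∉ B x := hxω
      simp only [φ]
      rw [Set.indicator_of_notMem this']
  have htJ : ∀ j ∈ t, τ j < 0 ∧ T ≤ tm τ j := fun j hj => ht (Finset.mem_coe.2 hj)
  have h1 := inn_Rf_prod C hτ T t htJ (Z := S.indicator fun _ => (1 : ℝ)) (B := 1)
    (measurable_const.indicator hS) (fun ω => by
      by_cases h : ω ∈ S <;> simp [h]) hφ hφB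
  have h2 := inn_Rf_prod C hτ T t htJ (Z := fun _ => (1 : ℝ)) (B := 1)
    measurable_const (fun _ => by simp) hφ hφB
  simp only [hprod] at h1 h2
  have e1 : ∀ ω, S.indicator (fun _ => (1 : ℝ)) ω * E.indicator (fun _ => (1 : ℝ)) ω =
      (S ∩ E).indicator (fun _ => (1 : ℝ)) ω := by
    intro ω
    by_cases h : ω ∈ S <;> by_cases h' : ω ∈ E <;> simp [h, h']
  simp only [e1, one_mul] at h1 h2
  have i1 : ∀ {s : Set (Om V)}, MeasurableSet s →
      ∫ ω, s.indicator (fun _ => (1 : ℝ)) ω ∂(PP V) = ((PP V) s).toReal := by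
    intro s hs
    rw [integral_indicator hs]
    simp [Measure.real]
  rw [i1 (hSm.inter hEm)] at h1
  rw [i1 hSm] at h1
  rw [i1 hEm] at h2
  simp only [integral_const, probReal_univ, smul_eq_mul, one_mul] at h2
  rw [← h2] at h1
  rw [← ENNReal.toReal_eq_toReal_iff' (measure_ne_top _ _)
    (ENNReal.mul_ne_top (measure_ne_top _ _) (measure_ne_top _ _)), ENNReal.toReal_mul]
  exact h1

/-- future innovations may be dropped when projecting functions of the past -/
theorem drop_future {τ : Lab V} (hτ : Good τ) (T : ℝ) {Z : Om V → ℝ} {B : ℝ}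
    (hZ : Measurable[FA C (Sq τ T)] Z) (hZB : ∀ ω, |Z ω| ≤ B) :
    (PP V)[Z | GFa C τ] =ᵐ[PP V] (PP V)[Z | GF C τ T] := by
  rw [inn_GFa_eq C τ T]
  refine ce_indep_drop ((GF_le_GFa C τ T).trans (GFa_le C τ)) (inn_GFut_le C τ T)
    (hZ.mono (FA_le C _) le_rfl) hZB ?_
  exact ProbabilityTheory.indep_of_indep_of_le_left (inn_indep C hτ T)
    (sup_le hZ.comap_le (GF_le_FA C τ T))


lemma inn_int_mul {f g : Om V → ℝ} (hf : Measurable f) (hg : Measurable g) {a b : ℝ}
    (hfB : ∀ ω, |f ω| ≤ a) (hgB : ∀ ω, |g ω| ≤ b) :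
    Integrable (fun ω => f ω * g ω) (PP V) :=
  inn_integrable (f := fun ω => f ω * g ω) (hf.mul hg) (B := a * b) fun ω => by
    rw [abs_mul]
    exact mul_le_mul (hfB ω) (hgB ω) (abs_nonneg _) ((abs_nonneg _).trans (hfB ω))

/-- fiberwise monotonicity of the distance (the past part is a conditional mean of the future
part): `M_T^⊥ = E [M_T'^⊥ | F_T]` -/
theorem Dfib_mono {τ : Lab V} (hτ : Good τ) {T T' : ℝ} (hT : T ≤ T') (x : V) :
    ∫ ω, (MA C (Sq τ T) x ω - (PP V)[MA C (Sq τ T) x | GFa C τ] ω) ^ 2 ∂(PP V) ≤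
      ∫ ω, (MA C (Sq τ T') x ω - (PP V)[MA C (Sq τ T') x | GFa C τ] ω) ^ 2 ∂(PP V) := by
  set M := MA C (Sq τ T) x with hM
  set M' := MA C (Sq τ T') x with hM'
  have hMF : Measurable[FA C (Sq τ T)] M := MA_FA C (Sq_le τ T) x
  have hMF' : Measurable[FA C (Sq τ T')] M' := MA_FA C (Sq_le τ T') x
  have hMm : Measurable M := hMF.mono (FA_le C _) le_rfl
  have hMm' : Measurable M' := hMF'.mono (FA_le C _) le_rfl
  have hMB : ∀ ω, |M ω| ≤ 1 := fun ω => (abs_mag_lt C _ _).le
  have hMB' : ∀ ω, |M' ω| ≤ 1 := fun ω => (abs_mag_lt C _ _).le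
  have hGle := GFa_le C τ
  have hGle1 : GF C τ T ≤ (inferInstance : MeasurableSpace (Om V)) :=
    (GF_le_GFa C τ T).trans hGle
  let p : Om V → ℝ := fun ω => cl ((PP V)[M | GFa C τ] ω)
  let p' : Om V → ℝ := fun ω => cl ((PP V)[M' | GFa C τ] ω)
  let q : Om V → ℝ := fun ω => cl ((PP V)[M | GF C τ T] ω)
  have hpG : Measurable[GFa C τ] p :=
    measurable_cl.comp stronglyMeasurable_condExp.measurable
  have hpG' : Measurable[GFa C τ] p' :=
    measurable_cl.comp stronglyMeasurable_condExp.measurable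
  have hqF : Measurable[FA C (Sq τ T)] q :=
    (measurable_cl.comp (stronglyMeasurable_condExp (m := GF C τ T)).measurable).mono
      (GF_le_FA C τ T) le_rfl
  have hpm : Measurable p := hpG.mono hGle le_rfl
  have hpm' : Measurable p' := hpG'.mono hGle le_rfl
  have hqm : Measurable q := hqF.mono (FA_le C _) le_rfl
  have hpB : ∀ ω, |p ω| ≤ 1 := fun ω => abs_cl_le _
  have hpB' : ∀ ω, |p' ω| ≤ 1 := fun ω => abs_cl_le _
  have hqB : ∀ ω, |q ω| ≤ 1 := fun ω => abs_cl_le _
  have hpae : p =ᵐ[PP V] (PP V)[M | GFa C τ] := by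
    filter_upwards [ce_abs_le (μ := PP V) hGle (ae_of_all _ hMB)] with ω h
    exact cl_of_mem (abs_le.1 h)
  have hpae' : p' =ᵐ[PP V] (PP V)[M' | GFa C τ] := by
    filter_upwards [ce_abs_le (μ := PP V) hGle (ae_of_all _ hMB')] with ω h
    exact cl_of_mem (abs_le.1 h)
  have hqp : q =ᵐ[PP V] p := by
    filter_upwards [drop_future C hτ T hMF hMB] with ω h
    simp only [p, q]
    rw [h]
  -- orthogonality to the innovations
  have O1 : ∀ c : Om V → ℝ, Measurable[GFa C τ] c → (∀ ω, |c ω| ≤ 2) →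
      ∫ ω, c ω * (M ω - p ω) ∂(PP V) = 0 := by
    intro c hc hcB
    have hcm : Measurable c := hc.mono hGle le_rfl
    have h1 := ce_integral_mul (μ := PP V) hGle hMm (B := 2)
      (fun ω => (hMB ω).trans (by norm_num)) hc hcB
    have h2 : ∫ ω, c ω * p ω ∂(PP V) = ∫ ω, c ω * (PP V)[M | GFa C τ] ω ∂(PP V) := by
      refine integral_congr_ae ?_
      filter_upwards [hpae] with ω h
      rw [h]
    have e : ∀ ω, c ω * (M ω - p ω) = c ω * M ω - c ω * p ω := fun ω => by ring
    simp only [e]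
    rw [integral_sub (inn_int_mul hcm hMm hcB hMB) (inn_int_mul hcm hpm hcB hpB),
      h2, h1, sub_self]
  -- tower
  have hMae : (PP V)[M' | FA C (Sq τ T)] =ᵐ[PP V] M := by
    have h1 : (PP V)[M' | FA C (Sq τ T)] =ᵐ[PP V]
        (PP V)[(PP V)[fun ω => spin C ω x | FA C (Sq τ T')] | FA C (Sq τ T)] :=
      condExp_congr_ae (post C (Sq_le τ T') x).symm
    have h2 := condExp_condExp_of_le (μ := PP V) (f := fun ω => spin C ω x)
      (FA_mono C (inn_Sq_mono τ hT)) (FA_le C (Sq τ T'))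
    exact h1.trans (h2.trans (post C (Sq_le τ T) x))
  -- orthogonality to the past observations
  have O2 : ∀ c : Om V → ℝ, Measurable[FA C (Sq τ T)] c → (∀ ω, |c ω| ≤ 1) →
      ∫ ω, c ω * (M' ω - M ω) ∂(PP V) = 0 := by
    intro c hc hcB
    have hcm : Measurable c := hc.mono (FA_le C _) le_rfl
    have h1 := ce_integral_mul (μ := PP V) (FA_le C (Sq τ T)) hMm' (B := 1) hMB' hc hcB
    have h2 : ∫ ω, c ω * (PP V)[M' | FA C (Sq τ T)] ω ∂(PP V) = ∫ ω, c ω * M ω ∂(PP V) := by
      refine integral_congr_ae ?_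
      filter_upwards [hMae] with ω h
      rw [h]
    have e : ∀ ω, c ω * (M' ω - M ω) = c ω * M' ω - c ω * M ω := fun ω => by ring
    simp only [e]
    rw [integral_sub (inn_int_mul hcm hMm' hcB hMB') (inn_int_mul hcm hMm hcB hMB),
      ← h1, h2, sub_self]
  -- the expansion
  have e1 : ∫ ω, (M ω - (PP V)[M | GFa C τ] ω) ^ 2 ∂(PP V) = ∫ ω, (M ω - p ω) ^ 2 ∂(PP V) := by
    refine integral_congr_ae ?_
    filter_upwards [hpae] with ω h
    rw [h]
  have e2 : ∫ ω, (M' ω - (PP V)[M' | GFa C τ] ω) ^ 2 ∂(PP V) =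
      ∫ ω, (M' ω - p' ω) ^ 2 ∂(PP V) := by
    refine integral_congr_ae ?_
    filter_upwards [hpae'] with ω h
    rw [h]
  rw [e1, e2]
  have hrG : Measurable[GFa C τ] fun ω => p' ω - p ω := hpG'.sub hpG
  have hrB : ∀ ω, |p' ω - p ω| ≤ 2 := fun ω => by
    have := abs_sub (p' ω) (p ω)
    have h1 := hpB ω
    have h2 := hpB' ω
    linarith
  have o1 := O1 _ hrG hrB
  have o2 := O2 M hMF hMB
  have o3 := O2 q hqF hqB
  have o3' : ∫ ω, p ω * (M' ω - M ω) ∂(PP V) = 0 := by
    rw [← o3]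
    refine integral_congr_ae ?_
    filter_upwards [hqp] with ω h
    rw [h]
  have bd2 : ∀ {f g : Om V → ℝ}, Measurable f → Measurable g → (∀ ω, |f ω| ≤ 2) →
      (∀ ω, |g ω| ≤ 4) → Integrable (fun ω => f ω * g ω) (PP V) := by
    intro f g hf hg hfB hgB
    exact inn_int_mul hf hg hfB hgB
  have hMB2 : ∀ ω, |M ω| ≤ 2 := fun ω => (hMB ω).trans (by norm_num)
  have hpB2 : ∀ ω, |p ω| ≤ 2 := fun ω => (hpB ω).trans (by norm_num)
  have hRB : ∀ ω, |M' ω - M ω| ≤ 4 := fun ω => by
    have := abs_sub (M' ω) (M ω)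
    have h1 := hMB ω
    have h2 := hMB' ω
    linarith
  have hsB : ∀ ω, |M ω - p ω| ≤ 4 := fun ω => by
    have := abs_sub (M ω) (p ω)
    have h1 := hMB ω
    have h2 := hpB ω
    linarith
  have I1 : Integrable (fun ω => (M ω - p ω) ^ 2) (PP V) := by
    refine inn_integrable (f := fun ω => (M ω - p ω) ^ 2) ((hMm.sub hpm).pow_const 2)
      (B := 16) fun ω => ?_
    rw [abs_pow]
    have := hsB ω
    have h0 := abs_nonneg (M ω - p ω)
    nlinarith
  have I2 : Integrable (fun ω => (M' ω - M ω - (p' ω - p ω)) ^ 2) (PP V) := by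
    refine inn_integrable (f := fun ω => (M' ω - M ω - (p' ω - p ω)) ^ 2)
      (((hMm'.sub hMm).sub (hpm'.sub hpm)).pow_const 2) (B := 36) fun ω => ?_
    rw [abs_pow]
    have h1 := hRB ω
    have h2 := hrB ω
    have h3 : |M' ω - M ω - (p' ω - p ω)| ≤ 6 := by
      have := abs_sub (M' ω - M ω) (p' ω - p ω)
      linarith
    have h0 := abs_nonneg (M' ω - M ω - (p' ω - p ω))
    nlinarith
  have I3 : Integrable (fun ω => M ω * (M' ω - M ω)) (PP V) :=
    bd2 (g := fun ω => M' ω - M ω) hMm (hMm'.sub hMm) hMB2 hRB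
  have I4 : Integrable (fun ω => p ω * (M' ω - M ω)) (PP V) :=
    bd2 (g := fun ω => M' ω - M ω) hpm (hMm'.sub hMm) hpB2 hRB
  have I5 : Integrable (fun ω => (p' ω - p ω) * (M ω - p ω)) (PP V) :=
    bd2 (f := fun ω => p' ω - p ω) (g := fun ω => M ω - p ω) (hpm'.sub hpm) (hMm.sub hpm) hrB hsB
  have I34 : Integrable (fun ω => M ω * (M' ω - M ω) - p ω * (M' ω - M ω)) (PP V) := I3.sub I4
  have I345 : Integrable
      (fun ω => M ω * (M' ω - M ω) - p ω * (M' ω - M ω) - (p' ω - p ω) * (M ω - p ω)) (PP V) :=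
    I34.sub I5
  have I12 : Integrable (fun ω => (M ω - p ω) ^ 2 + (M' ω - M ω - (p' ω - p ω)) ^ 2) (PP V) :=
    I1.add I2
  have hexp : ∀ ω, (M' ω - p' ω) ^ 2 = (M ω - p ω) ^ 2 + (M' ω - M ω - (p' ω - p ω)) ^ 2 +
      2 * (M ω * (M' ω - M ω) - p ω * (M' ω - M ω) - (p' ω - p ω) * (M ω - p ω)) := fun ω => by
    ring
  simp only [hexp]
  rw [integral_add I12 (I345.const_mul 2), integral_add I1 I2,
    integral_const_mul, integral_sub I34 I5, integral_sub I3 I4, o1, o2, o3']
  have : 0 ≤ ∫ ω, (M' ω - M ω - (p' ω - p ω)) ^ 2 ∂(PP V) :=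
    integral_nonneg fun ω => sq_nonneg _
  linarith

end Vale.Agent.Lib.P161.Crit
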