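import Vale.Agent.Lib.P161.Crit.Head
import Vale.Agent.Lib.P161.Crit.Decay

/-!
The kernel bound at a fixed time: the sum over the sites of the error terms is at most
`K p e^{r/4} (Dd + e^{-p})`. Statements fixed; add lemmas freely. Paper section KERNEL.
-/

open MeasureTheory Filter Topology Finset

noncomputable section
namespace Vale.Agent.Lib.P161.Crit

open scoped Classical
open Vale.Agent.Lib.P161

variable {V : Type} (C : CT V)

/-- projection -/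
abbrev Pj (Z : Om V → ℝ) : Om V → ℝ := (PP V)[Z | GG C]

/-- `Lev`: the error of the projection of the covariance -/
def Lev (T : ℝ) (x u : V) : ℝ := ∫ ω, (Cs C T x u ω - Pj C (Cs C T x u) ω) ^ 2 ∂(PP V)

/-- `Psi`: the error from the parameter of the innovation -/
def Psi (T : ℝ) (x u : V) : ℝ :=
  ∫ ω, (Ms C T u ω - Pj C (Ms C T u) ω) ^ 2 * (Pj C (Cs C T x u) ω) ^ 2 ∂(PP V)

/-! ### elementary inequalities -/

lemma kn_exp_sub_sq {a b : ℝ} (ha : 0 ≤ a) (hb : 0 ≤ b) :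
    (Real.exp (-a) - Real.exp (-b)) ^ 2 ≤ (a - b) ^ 2 * (Real.exp (-2 * a) + Real.exp (-2 * b)) := by
  have key : ∀ a b : ℝ, 0 ≤ a → a ≤ b →
      (Real.exp (-a) - Real.exp (-b)) ^ 2 ≤ (a - b) ^ 2 * Real.exp (-2 * a) := by
    intro a b _ hab
    have h1 : Real.exp (-b) = Real.exp (-a) * Real.exp (-(b - a)) := by
      rw [← Real.exp_add]; ring_nf
    have h2 : 1 - (b - a) ≤ Real.exp (-(b - a)) := by
      have := Real.add_one_le_exp (-(b - a)); linarith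
    have h3 : Real.exp (-(b - a)) ≤ 1 := Real.exp_le_one_iff.2 (by linarith)
    have h4 : Real.exp (-2 * a) = Real.exp (-a) ^ 2 := by
      rw [← Real.exp_nat_mul]; ring_nf
    rw [h1, h4]
    have hpos := Real.exp_pos (-a)
    have : Real.exp (-a) - Real.exp (-a) * Real.exp (-(b - a))
        = Real.exp (-a) * (1 - Real.exp (-(b - a))) := by ring
    rw [this, mul_pow, mul_comm ((a - b) ^ 2)]
    apply mul_le_mul_of_nonneg_left _ (sq_nonneg _)
    have h5 : 0 ≤ 1 - Real.exp (-(b - a)) := by linarith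
    have h6 : 1 - Real.exp (-(b - a)) ≤ b - a := by linarith
    nlinarith
  rcases le_total a b with h | h
  · have := key a b ha h
    have h0 := Real.exp_pos (-2 * b)
    nlinarith [sq_nonneg (a - b)]
  · have := key b a hb h
    have h0 := Real.exp_pos (-2 * a)
    have e1 : (Real.exp (-a) - Real.exp (-b)) ^ 2 = (Real.exp (-b) - Real.exp (-a)) ^ 2 := by ring
    have e2 : (a - b) ^ 2 = (b - a) ^ 2 := by ring
    rw [e1, e2]
    nlinarith [sq_nonneg (b - a)]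

lemma kn_exp_sub_sq' {a b : ℝ} (ha : 0 ≤ a) (hb : 0 ≤ b) :
    (Real.exp (-a) - Real.exp (-b)) ^ 2 ≤ (a - b) ^ 2 := by
  have key : ∀ a b : ℝ, 0 ≤ a → a ≤ b →
      (Real.exp (-a) - Real.exp (-b)) ^ 2 ≤ (a - b) ^ 2 := by
    intro a b h0 hab
    have h1 : Real.exp (-b) = Real.exp (-a) * Real.exp (-(b - a)) := by
      rw [← Real.exp_add]; ring_nf
    have h2 : 1 - (b - a) ≤ Real.exp (-(b - a)) := by
      have := Real.add_one_le_exp (-(b - a)); linarith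
    have h3 : Real.exp (-(b - a)) ≤ 1 := Real.exp_le_one_iff.2 (by linarith)
    have h4 : Real.exp (-a) ≤ 1 := Real.exp_le_one_iff.2 (by linarith)
    have hpos := Real.exp_pos (-a)
    have h5 : 0 ≤ Real.exp (-a) - Real.exp (-b) := by
      rw [h1]; nlinarith
    have h6 : Real.exp (-a) - Real.exp (-b) ≤ b - a := by
      rw [h1]; nlinarith
    have e2 : (a - b) ^ 2 = (b - a) ^ 2 := by ring
    rw [e2]
    exact pow_le_pow_left₀ h5 h6 2
  rcases le_total a b with h | h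
  · exact key a b ha h
  · have := key b a hb h
    have e1 : (Real.exp (-a) - Real.exp (-b)) ^ 2 = (Real.exp (-b) - Real.exp (-a)) ^ 2 := by ring
    have e2 : (a - b) ^ 2 = (b - a) ^ 2 := by ring
    rw [e1, e2]; exact this

/-! ### measurability and bounds -/

lemma kn_meas_tanh : Measurable Real.tanh := by
  have : Real.tanh = fun x => Real.sinh x / Real.cosh x := by
    ext x; exact Real.tanh_eq_sinh_div_cosh x
  rw [this]
  exact Real.measurable_sinh.div Real.measurable_cosh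

variable {C} in
lemma kn_meas_ff : Measurable (ff C) := by
  unfold ff
  have h := kn_meas_tanh
  fun_prop

variable {C} in
lemma kn_meas_G4 : Measurable (G4 C) := by
  unfold G4
  have h := kn_meas_tanh
  fun_prop

lemma kn_meas_fo : Measurable fo := by
  unfold fo
  fun_prop

variable {C} in
lemma kn_meas_Fs (T : ℝ) (a b : V) : Measurable (Fs C T a b) :=
  kn_meas_ff.comp (measurable_Zs T a b)

variable {C} in
lemma kn_meas_Gs (T : ℝ) (x : V) : Measurable (Gs C T x) :=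
  kn_meas_fo.comp (measurable_Ms T x)

lemma kn_ff_zero : ff C 0 = 0 := by
  unfold ff
  simp

lemma kn_abs_ff (z : ℝ) : |ff C z| ≤ 2 * |z| := by
  have := ff_lip C z 0
  rwa [kn_ff_zero, sub_zero, sub_zero] at this

/-- uniform bound of the messages -/
lemma kn_Zs_bd {T T₀ : ℝ} (hT : T ≤ T₀) (a b : V) (ω : Om V) :
    |Zs C T a b ω| ≤ Bf (LT T₀) + C.d * pM C := by
  unfold Zs
  apply abs_zl_le
  intro v
  apply abs_fld_le
  intro j hj
  exact (Sq_le _ T j hj).trans (Int.ceil_mono hT)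

lemma kn_Fs_bound (T₀ : ℝ) : ∃ B : ℝ, 0 ≤ B ∧ ∀ T, T ≤ T₀ → ∀ a b ω, |Fs C T a b ω| ≤ B := by
  refine ⟨2 * (Bf (LT T₀) + C.d * pM C), ?_, ?_⟩
  · have h := abs_nonneg (Zs C T₀ C.o C.o (true, fun _ => 0))
    have h2 := kn_Zs_bd C (le_refl T₀) C.o C.o (true, fun _ => 0)
    linarith
  · intro T hT a b ω
    unfold Fs
    exact (kn_abs_ff C _).trans (by
      have := kn_Zs_bd C hT a b ω
      linarith)

lemma kn_Gs_bound (T₀ : ℝ) : ∃ B : ℝ, 0 ≤ B ∧ ∀ T, T ≤ T₀ → ∀ x ω, |Gs C T x ω| ≤ B := by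
  set M := Real.tanh (Bf (LT T₀) + C.d * pM C + C.d * pM C) with hM
  have hM1 : M < 1 := Real.tanh_lt_one _
  have hM0 : 0 ≤ M := by
    have h := abs_MA_le C (A := Sq (lab (fun _ => (0 : ℝ))) T₀) (L := LT T₀) (Sq_le _ T₀) C.o (true, fun _ => 0)
    exact (abs_nonneg _).trans h
  have hpos : 0 < 1 - M ^ 2 := by nlinarith
  refine ⟨-Real.log (1 - M ^ 2), ?_, ?_⟩
  · have : Real.log (1 - M ^ 2) ≤ 0 := Real.log_nonpos hpos.le (by nlinarith)
    linarith
  · intro T hT x ω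
    unfold Gs
    have hm : |Ms C T x ω| ≤ M := by
      unfold Ms
      apply abs_MA_le C (L := LT T₀)
      intro j hj
      exact (Sq_le _ T j hj).trans (Int.ceil_mono hT)
    have hm1 : |Ms C T x ω| < 1 := lt_of_le_of_lt hm hM1
    have h0 : 0 ≤ fo (Ms C T x ω) := fo_nonneg hm1
    rw [abs_of_nonneg h0]
    unfold fo
    have hsq : Ms C T x ω ^ 2 ≤ M ^ 2 := by
      rw [← sq_abs (Ms C T x ω)]
      exact pow_le_pow_left₀ (abs_nonneg _) hm 2
    have : Real.log (1 - M ^ 2) ≤ Real.log (1 - Ms C T x ω ^ 2) :=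
      Real.log_le_log hpos (by linarith)
    linarith


/-! ### the projection of bounded functions -/

variable {C} in
lemma kn_meas_Pj (Z : Om V → ℝ) : Measurable (Pj C Z) :=
  (stronglyMeasurable_condExp (m := GG C)).measurable.mono (GG_le C) le_rfl

variable {C} in
lemma kn_meas_Pj' (Z : Om V → ℝ) : Measurable[GG C] (Pj C Z) :=
  (stronglyMeasurable_condExp (m := GG C)).measurable

variable {C} in
lemma kn_Pj_bd {Z : Om V → ℝ} {B : ℝ} (hZ : ∀ ω, |Z ω| ≤ B) : ∀ᵐ ω ∂(PP V), |Pj C Z ω| ≤ B :=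
  ce_abs_le (GG_le C) (ae_of_all _ hZ)

lemma kn_int {f : Om V → ℝ} (hf : Measurable f) {B : ℝ} (h : ∀ᵐ ω ∂(PP V), |f ω| ≤ B) :
    Integrable f (PP V) :=
  Integrable.of_bound hf.aestronglyMeasurable B (by simpa using h)

/-- the exponent -/
def kX (T : ℝ) (x u : V) (ω : Om V) : ℝ := Xr C (fld C (Sq (lab ω.2) T) ω) x u

lemma kX_eq (T : ℝ) (x u : V) (ω : Om V) :
    kX C T x u ω = Gs C T x ω +
      ∑ i ∈ range (C.G.dist u x), Fs C T (twI C x i u) (twI C x (i + 1) u) ω := rfl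

lemma kCs_eq (T : ℝ) (x u : V) (ω : Om V) :
    Cs C T x u ω = C.θ ^ (C.G.dist u x) * Real.exp (-kX C T x u ω) :=
  cov_eq_exp C _ x u

lemma kX_nonneg (T : ℝ) (x u : V) (ω : Om V) : 0 ≤ kX C T x u ω := Xr_nonneg C _ x u

lemma kn_sum_chain {a : ℕ → V} {x u : V} (ha : ∀ i ≤ C.G.dist u x, a i = twI C x (C.G.dist u x - i) u)
    (f : V → V → ℝ) :
    ∑ i ∈ range (C.G.dist u x), f (twI C x i u) (twI C x (i + 1) u)
      = ∑ k ∈ range (C.G.dist u x), f (a (k + 1)) (a k) := by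
  rw [← Finset.sum_range_reflect (fun k => f (a (k + 1)) (a k))]
  apply Finset.sum_congr rfl
  intro i hi
  have hi' : i < C.G.dist u x := Finset.mem_range.1 hi
  set n := C.G.dist u x
  have h1 : n - 1 - i + 1 ≤ n := by omega
  have h2 : n - 1 - i ≤ n := by omega
  rw [ha _ h1, ha _ h2]
  have e1 : n - (n - 1 - i + 1) = i := by omega
  have e2 : n - (n - 1 - i) = i + 1 := by omega
  rw [e1, e2]

lemma kX_eq_chain {a : ℕ → V} {x u : V} (ha : ∀ i ≤ C.G.dist u x, a i = twI C x (C.G.dist u x - i) u)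
    (T : ℝ) (ω : Om V) :
    kX C T x u ω = Gs C T x ω + ∑ k ∈ range (C.G.dist u x), Fs C T (a (k + 1)) (a k) ω := by
  rw [kX_eq]
  rw [kn_sum_chain C ha (fun p q => Fs C T p q ω)]

lemma kn_Fs_int (T : ℝ) (a b : V) : Integrable (Fs C T a b) (PP V) := by
  obtain ⟨B, _, hB⟩ := kn_Fs_bound C T
  exact kn_int (kn_meas_Fs T a b) (ae_of_all _ (hB T le_rfl a b))

lemma kn_Gs_int (T : ℝ) (x : V) : Integrable (Gs C T x) (PP V) := by
  obtain ⟨B, _, hB⟩ := kn_Gs_bound C T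
  exact kn_int (kn_meas_Gs T x) (ae_of_all _ (hB T le_rfl x))

lemma kX_meas (T : ℝ) (x u : V) : Measurable (kX C T x u) := by
  have : kX C T x u = fun ω => Gs C T x ω +
      ∑ i ∈ range (C.G.dist u x), Fs C T (twI C x i u) (twI C x (i + 1) u) ω := by
    funext ω; exact kX_eq C T x u ω
  rw [this]
  exact (kn_meas_Gs T x).add (Finset.measurable_sum _ fun i _ => kn_meas_Fs T _ _)

lemma kX_bound (T : ℝ) (x u : V) : ∃ B : ℝ, 0 ≤ B ∧ ∀ ω, |kX C T x u ω| ≤ B := by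
  obtain ⟨B, hB0, hB⟩ := kn_Fs_bound C T
  obtain ⟨B', hB'0, hB'⟩ := kn_Gs_bound C T
  refine ⟨B' + (C.G.dist u x : ℝ) * B, by positivity, fun ω => ?_⟩
  rw [kX_eq]
  refine (abs_add_le _ _).trans (add_le_add (hB' T le_rfl x ω) ?_)
  refine (Finset.abs_sum_le_sum_abs _ _).trans ?_
  refine (Finset.sum_le_sum fun i _ => hB T le_rfl _ _ ω).trans ?_
  simp

lemma kX_int (T : ℝ) (x u : V) : Integrable (kX C T x u) (PP V) := by
  obtain ⟨B, _, hB⟩ := kX_bound C T x u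
  exact kn_int (kX_meas C T x u) (ae_of_all _ hB)

/-- perpendicular part of the exponent along a chain -/
lemma kX_perp {a : ℕ → V} {x u : V} (ha : ∀ i ≤ C.G.dist u x, a i = twI C x (C.G.dist u x - i) u)
    (T : ℝ) :
    ∀ᵐ ω ∂(PP V), kX C T x u ω - Pj C (kX C T x u) ω =
      Gp C T x ω + ∑ k ∈ range (C.G.dist u x), Fp C T (a (k + 1)) (a k) ω := by
  have hX : kX C T x u = Gs C T x + ∑ k ∈ range (C.G.dist u x), Fs C T (a (k + 1)) (a k) := by
    funext ω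
    rw [kX_eq_chain C ha T ω]
    simp [Finset.sum_apply]
  have h1 : Pj C (kX C T x u) =ᵐ[PP V] Pj C (Gs C T x) +
      Pj C (∑ k ∈ range (C.G.dist u x), Fs C T (a (k + 1)) (a k)) := by
    rw [hX]
    exact condExp_add (kn_Gs_int C T x)
      (integrable_finsetSum' _ fun k _ => kn_Fs_int C T _ _) _
  have h2 : Pj C (∑ k ∈ range (C.G.dist u x), Fs C T (a (k + 1)) (a k)) =ᵐ[PP V]
      ∑ k ∈ range (C.G.dist u x), Pj C (Fs C T (a (k + 1)) (a k)) :=
    condExp_finsetSum (fun k _ => kn_Fs_int C T _ _) _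
  filter_upwards [h1, h2] with ω h1 h2
  rw [h1, Pi.add_apply, h2, kX_eq_chain C ha T ω]
  simp only [Finset.sum_apply, Fp, Gp, Finset.sum_sub_distrib]
  ring

/-- the key candidate bound -/
lemma kLev_le (T : ℝ) (x u : V) :
    Lev C T x u ≤ C.θ ^ (2 * C.G.dist u x) *
      ∫ ω, (Real.exp (-kX C T x u ω) - Real.exp (-Pj C (kX C T x u) ω)) ^ 2 ∂(PP V) := by
  set n := C.G.dist u x
  set c : Om V → ℝ := fun ω => C.θ ^ n * Real.exp (-max (Pj C (kX C T x u) ω) 0) with hc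
  have hθ0 := C.hθ0
  have hθ1 := th_lt_one C
  have hθn0 : 0 ≤ C.θ ^ n := by positivity
  have hθn1 : C.θ ^ n ≤ 1 := pow_le_one₀ hθ0.le hθ1.le
  have hcm : Measurable[GG C] c := by
    refine Measurable.const_mul ?_ _
    exact Real.measurable_exp.comp (((kn_meas_Pj' (C := C) (kX C T x u)).max measurable_const).neg)
  have hcB : ∀ ω, |c ω| ≤ 1 := by
    intro ω
    have h1 : Real.exp (-max (Pj C (kX C T x u) ω) 0) ≤ 1 :=
      Real.exp_le_one_iff.2 (by have := le_max_right (Pj C (kX C T x u) ω) 0; linarith)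
    have h2 := Real.exp_pos (-max (Pj C (kX C T x u) ω) 0)
    rw [hc]
    simp only
    rw [abs_of_nonneg (by positivity)]
    nlinarith
  have h := ce_min (μ := PP V) (GG_le C) (measurable_Cs T x u) (abs_Cs_le C T x u) hcm hcB
  refine h.trans ?_
  have hnn : ∀ᵐ ω ∂(PP V), 0 ≤ Pj C (kX C T x u) ω :=
    ce_nonneg (m := GG C) (ae_of_all _ (kX_nonneg C T x u))
  rw [← integral_const_mul]
  apply integral_mono_of_nonneg (ae_of_all _ fun _ => sq_nonneg _)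
  · obtain ⟨B, _, hB⟩ := kX_bound C T x u
    have hPb : ∀ᵐ ω ∂(PP V), |Pj C (kX C T x u) ω| ≤ B := kn_Pj_bd hB
    refine kn_int (B := C.θ ^ (2 * n) * (1 + 1) ^ 2) ?_ ?_
    · have m1 : Measurable fun ω => Real.exp (-kX C T x u ω) :=
        Real.measurable_exp.comp (kX_meas C T x u).neg
      have m2 : Measurable fun ω => Real.exp (-Pj C (kX C T x u) ω) :=
        Real.measurable_exp.comp (kn_meas_Pj (C := C) (kX C T x u)).neg
      exact ((m1.sub m2).pow_const 2).const_mul _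
    · filter_upwards [hnn] with ω h0
      have a1 : Real.exp (-kX C T x u ω) ≤ 1 :=
        Real.exp_le_one_iff.2 (by have := kX_nonneg C T x u ω; linarith)
      have a2 : Real.exp (-Pj C (kX C T x u) ω) ≤ 1 := Real.exp_le_one_iff.2 (by linarith)
      have a3 := Real.exp_pos (-kX C T x u ω)
      have a4 := Real.exp_pos (-Pj C (kX C T x u) ω)
      rw [abs_of_nonneg (by positivity)]
      apply mul_le_mul_of_nonneg_left _ (by positivity)
      have : |Real.exp (-kX C T x u ω) - Real.exp (-Pj C (kX C T x u) ω)| ≤ 1 + 1 := by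
        rw [abs_le]; constructor <;> linarith
      calc (Real.exp (-kX C T x u ω) - Real.exp (-Pj C (kX C T x u) ω)) ^ 2
          = |Real.exp (-kX C T x u ω) - Real.exp (-Pj C (kX C T x u) ω)| ^ 2 := (sq_abs _).symm
        _ ≤ (1 + 1) ^ 2 := pow_le_pow_left₀ (abs_nonneg _) this 2
  · filter_upwards [hnn] with ω h0
    rw [hc]
    simp only
    rw [max_eq_left h0, kCs_eq C T x u ω, ← mul_sub, mul_pow, ← pow_mul, mul_comm n 2]


/-! ### bounds on the perpendicular parts -/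

lemma kn_Fp_meas (T : ℝ) (a b : V) : Measurable (Fp C T a b) :=
  (kn_meas_Fs T a b).sub (kn_meas_Pj (C := C) _)

lemma kn_Gp_meas (T : ℝ) (x : V) : Measurable (Gp C T x) :=
  (kn_meas_Gs T x).sub (kn_meas_Pj (C := C) _)

lemma kn_Fp_bd {T T₀ : ℝ} (hT : T ≤ T₀) {B : ℝ} (hB : ∀ T, T ≤ T₀ → ∀ a b ω, |Fs C T a b ω| ≤ B)
    (a b : V) : ∀ᵐ ω ∂(PP V), |Fp C T a b ω| ≤ 2 * B := by
  filter_upwards [kn_Pj_bd (C := C) (hB T hT a b)] with ω h
  have := hB T hT a b ω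
  unfold Fp
  refine (abs_sub _ _).trans ?_
  linarith

lemma kn_Gp_bd {T T₀ : ℝ} (hT : T ≤ T₀) {B : ℝ} (hB : ∀ T, T ≤ T₀ → ∀ x ω, |Gs C T x ω| ≤ B)
    (x : V) : ∀ᵐ ω ∂(PP V), |Gp C T x ω| ≤ 2 * B := by
  filter_upwards [kn_Pj_bd (C := C) (hB T hT x)] with ω h
  have := hB T hT x ω
  unfold Gp
  refine (abs_sub _ _).trans ?_
  linarith

lemma kn_Fp_sq_int (T : ℝ) (a b : V) : Integrable (fun ω => Fp C T a b ω ^ 2) (PP V) := by
  obtain ⟨B, _, hB⟩ := kn_Fs_bound C T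
  refine kn_int (B := (2 * B) ^ 2) ((kn_Fp_meas C T a b).pow_const 2) ?_
  filter_upwards [kn_Fp_bd C (le_refl T) hB a b] with ω h
  rw [abs_of_nonneg (sq_nonneg _), ← sq_abs]
  exact pow_le_pow_left₀ (abs_nonneg _) h 2

lemma kn_Gp_sq_int (T : ℝ) (x : V) : Integrable (fun ω => Gp C T x ω ^ 2) (PP V) := by
  obtain ⟨B, _, hB⟩ := kn_Gs_bound C T
  refine kn_int (B := (2 * B) ^ 2) ((kn_Gp_meas C T x).pow_const 2) ?_
  filter_upwards [kn_Gp_bd C (le_refl T) hB x] with ω h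
  rw [abs_of_nonneg (sq_nonneg _), ← sq_abs]
  exact pow_le_pow_left₀ (abs_nonneg _) h 2

lemma kn_sumFp_sq_int (T : ℝ) (a : ℕ → V) (n : ℕ) :
    Integrable (fun ω => (∑ k ∈ range n, Fp C T (a (k + 1)) (a k) ω) ^ 2) (PP V) := by
  obtain ⟨B, _, hB⟩ := kn_Fs_bound C T
  refine kn_int (B := ((n : ℝ) * (2 * B)) ^ 2) ?_ ?_
  · exact (Finset.measurable_sum _ fun k _ => kn_Fp_meas C T _ _).pow_const 2
  · have : ∀ᵐ ω ∂(PP V), ∀ k, |Fp C T (a (k + 1)) (a k) ω| ≤ 2 * B :=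
      ae_all_iff.2 fun k => kn_Fp_bd C (le_refl T) hB _ _
    filter_upwards [this] with ω h
    rw [abs_of_nonneg (sq_nonneg _), ← sq_abs]
    apply pow_le_pow_left₀ (abs_nonneg _)
    refine (Finset.abs_sum_le_sum_abs _ _).trans ?_
    refine (Finset.sum_le_sum fun k _ => h k).trans ?_
    simp

/-- per-level bound using BSV (short paths) -/
theorem head_level (T₀ : ℝ) : ∃ K : ℝ, 0 < K ∧ ∀ (T : ℝ), T ≤ T₀ → ∀ (p : ℕ), 1 ≤ p → ∀ x u : V,
    Lev C T x u ≤ C.θ ^ (2 * C.G.dist u x) * K * (1 + (C.G.dist u x : ℝ))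
      * (min 1 (Real.rpow 2 T) * p * (Dd C T x + Real.exp (-p))) := by
  obtain ⟨K₁, hK₁, hF⟩ := Fp_le C T₀
  refine ⟨120 * K₁, by positivity, ?_⟩
  intro T hT p hp x u
  obtain ⟨a, ha, ha0, hai⟩ := exists_chain C x u
  have hθ := C.hθ0
  set n := C.G.dist u x with hn
  set D := min 1 (Real.rpow 2 T) * p * (Dd C T x + Real.exp (-p)) with hD
  have hD0 : 0 ≤ D := by
    have h1 : 0 ≤ Real.rpow 2 T := Real.rpow_nonneg (by norm_num) _
    have h2 : 0 ≤ min 1 (Real.rpow 2 T) := le_min zero_le_one h1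
    have h3 := Dd_nonneg C T x
    have h4 := Real.exp_pos (-(p : ℝ))
    positivity
  refine (kLev_le C T x u).trans ?_
  have main : ∫ ω, (Real.exp (-kX C T x u ω) - Real.exp (-Pj C (kX C T x u) ω)) ^ 2 ∂(PP V)
      ≤ 120 * K₁ * (1 + (n : ℝ)) * D := by
    have hnn : ∀ᵐ ω ∂(PP V), 0 ≤ Pj C (kX C T x u) ω :=
      ce_nonneg (m := GG C) (ae_of_all _ (kX_nonneg C T x u))
    have hint : Integrable (fun ω => 2 * Gp C T x ω ^ 2 +
        2 * (∑ k ∈ range n, Fp C T (a (k + 1)) (a k) ω) ^ 2) (PP V) :=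
      ((kn_Gp_sq_int C T x).const_mul 2).add ((kn_sumFp_sq_int C T a n).const_mul 2)
    have step1 : ∫ ω, (Real.exp (-kX C T x u ω) - Real.exp (-Pj C (kX C T x u) ω)) ^ 2 ∂(PP V)
        ≤ ∫ ω, (2 * Gp C T x ω ^ 2 +
          2 * (∑ k ∈ range n, Fp C T (a (k + 1)) (a k) ω) ^ 2) ∂(PP V) := by
      apply integral_mono_of_nonneg (ae_of_all _ fun _ => sq_nonneg _) hint
      filter_upwards [hnn, kX_perp C hai T] with ω h0 hp
      refine (kn_exp_sub_sq' (kX_nonneg C T x u ω) h0).trans ?_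
      rw [hp]
      nlinarith [sq_nonneg (Gp C T x ω - ∑ k ∈ range n, Fp C T (a (k + 1)) (a k) ω)]
    refine step1.trans ?_
    rw [integral_add ((kn_Gp_sq_int C T x).const_mul 2) ((kn_sumFp_sq_int C T a n).const_mul 2),
      integral_const_mul, integral_const_mul]
    have h1 := head_sum C T ha.1 ha.2 n
    obtain ⟨h2, -, h3, -⟩ := hF T hT p hp (a 1) (a 0) x (ha.1 0).symm
    have hn0 : (0 : ℝ) ≤ n := Nat.cast_nonneg n
    have hFD : 0 ≤ ∫ ω, Fp C T (a 1) (a 0) ω ^ 2 ∂(PP V) :=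
      integral_nonneg fun _ => sq_nonneg _
    have h4 : (60 : ℝ) * n * ∫ ω, Fp C T (a 1) (a 0) ω ^ 2 ∂(PP V) ≤ 60 * n * (K₁ * D) := by
      apply mul_le_mul_of_nonneg_left _ (by positivity)
      calc _ ≤ _ := h2
        _ = K₁ * D := by rw [hD]; ring
    have h5 : ∫ ω, Gp C T x ω ^ 2 ∂(PP V) ≤ K₁ * D := by
      calc _ ≤ _ := h3
        _ = K₁ * D := by rw [hD]; ring
    nlinarith [mul_nonneg hK₁.le hD0, mul_nonneg hn0 (mul_nonneg hK₁.le hD0)]
  have hθn : 0 ≤ C.θ ^ (2 * n) := by positivity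
  calc C.θ ^ (2 * n) * _ ≤ C.θ ^ (2 * n) * (120 * K₁ * (1 + (n : ℝ)) * D) :=
        mul_le_mul_of_nonneg_left main hθn
    _ = C.θ ^ (2 * n) * (120 * K₁) * (1 + (n : ℝ)) * D := by ring


/-! ### truncation, a.e. version -/

lemma kn_trunc {G W : Om V → ℝ} {B b : ℝ} {p : ℕ} (hp : 1 ≤ p) (hB : 0 ≤ B) (hb : 0 < b)
    (hGm : Measurable G) (hWm : Measurable W) (hG0 : ∀ᵐ ω ∂(PP V), 0 ≤ G ω)
    (hGB : ∀ᵐ ω ∂(PP V), G ω ≤ B) (hW0 : ∀ᵐ ω ∂(PP V), 0 ≤ W ω) (hW1 : ∀ᵐ ω ∂(PP V), W ω ≤ 1)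
    (hmom : ∫ ω, W ω ^ p ∂(PP V) ≤ b ^ p) :
    ∫ ω, G ω * W ω ∂(PP V) ≤ Real.exp 1 * b * ∫ ω, G ω ∂(PP V) + B * b * Real.exp (1 - p) := by
  set G' : Om V → ℝ := fun ω => max 0 (min (G ω) B) with hG'
  set W' : Om V → ℝ := fun ω => max 0 (min (W ω) 1) with hW'
  have eG : G' =ᵐ[PP V] G := by
    filter_upwards [hG0, hGB] with ω h0 h1
    simp only [hG', min_eq_left h1, max_eq_right h0]
  have eW : W' =ᵐ[PP V] W := by
    filter_upwards [hW0, hW1] with ω h0 h1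
    simp only [hW', min_eq_left h1, max_eq_right h0]
  have hG'm : Measurable G' := measurable_const.max (hGm.min measurable_const)
  have hW'm : Measurable W' := measurable_const.max (hWm.min measurable_const)
  have h1 := trunc_moment (μ := PP V) (G := G') (W := W') (B := B) (b := b) (p := p) (W' := 1) hp hb hG'm hW'm
    (fun ω => le_max_left _ _) (fun ω => max_le hB (min_le_right _ _))
    (fun ω => le_max_left _ _) (fun ω => max_le zero_le_one (min_le_right _ _))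
    (by
      have : ∫ ω, W' ω ^ p ∂(PP V) = ∫ ω, W ω ^ p ∂(PP V) :=
        integral_congr_ae (by filter_upwards [eW] with ω h; rw [h])
      rw [this]; exact hmom)
  have e1 : ∫ ω, G' ω * W' ω ∂(PP V) = ∫ ω, G ω * W ω ∂(PP V) :=
    integral_congr_ae (by filter_upwards [eG, eW] with ω h1 h2; rw [h1, h2])
  have e2 : ∫ ω, G' ω ∂(PP V) = ∫ ω, G ω ∂(PP V) := integral_congr_ae eG
  rw [e1, e2] at h1
  exact h1

/-! ### products of `G4` -/

/-- product of `G4` along the path from `x` to `α` -/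
def Ax (T : ℝ) (α x : V) (ω : Om V) : ℝ :=
  ∏ i ∈ range (C.G.dist x α), G4 C (Zs C T (twI C α i x) (twI C α (i + 1) x) ω)

/-- the sum of `f` along the path from `x` to `α` -/
def kY (T : ℝ) (α x : V) (ω : Om V) : ℝ :=
  ∑ i ∈ range (C.G.dist x α), Fs C T (twI C α i x) (twI C α (i + 1) x) ω

lemma Ax_eq (T : ℝ) (α x : V) (ω : Om V) : Ax C T α x ω = Real.exp (-2 * kY C T α x ω) := by
  unfold Ax kY
  rw [Finset.mul_sum, Real.exp_sum]
  apply Finset.prod_congr rfl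
  intro i _
  rw [G4_eq]
  rfl

lemma Ax_nonneg (T : ℝ) (α x : V) (ω : Om V) : 0 ≤ Ax C T α x ω :=
  Finset.prod_nonneg fun _ _ => G4_nonneg C _

lemma Ax_le_one (T : ℝ) (α x : V) (ω : Om V) : Ax C T α x ω ≤ 1 :=
  Finset.prod_le_one (fun _ _ => G4_nonneg C _) (fun _ _ => G4_le_one C _)

lemma Ax_abs (T : ℝ) (α x : V) (ω : Om V) : |Ax C T α x ω| ≤ 1 := by
  rw [abs_of_nonneg (Ax_nonneg C T α x ω)]; exact Ax_le_one C T α x ω

lemma Ax_meas (T : ℝ) (α x : V) : Measurable (Ax C T α x) := by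
  unfold Ax
  exact Finset.measurable_prod _ fun _ _ => kn_meas_G4.comp (measurable_Zs T _ _)

lemma kY_meas (T : ℝ) (α x : V) : Measurable (kY C T α x) := by
  unfold kY
  exact Finset.measurable_sum _ fun _ _ => kn_meas_Fs T _ _

lemma kY_bound (T : ℝ) (α x : V) : ∃ B : ℝ, 0 ≤ B ∧ ∀ ω, |kY C T α x ω| ≤ B := by
  obtain ⟨B, hB0, hB⟩ := kn_Fs_bound C T
  refine ⟨(C.G.dist x α : ℝ) * B, by positivity, fun ω => ?_⟩
  unfold kY
  refine (Finset.abs_sum_le_sum_abs _ _).trans ?_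
  refine (Finset.sum_le_sum fun i _ => hB T le_rfl _ _ ω).trans ?_
  simp

lemma kY_nonneg (T : ℝ) (α x : V) (ω : Om V) : 0 ≤ kY C T α x ω :=
  Finset.sum_nonneg fun _ _ => ff_nonneg C _

lemma kY_int (T : ℝ) (α x : V) : Integrable (kY C T α x) (PP V) := by
  obtain ⟨B, _, hB⟩ := kY_bound C T α x
  exact kn_int (kY_meas C T α x) (ae_of_all _ hB)

lemma Ax_act (g : C.G ≃g C.G) (T : ℝ) {α : V} (hα : g α = α) (x : V) (ω : Om V) :
    Ax C T α (g x) (act C g ω) = Ax C T α x ω := by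
  unfold Ax
  have hd : C.G.dist (g x) α = C.G.dist x α := by
    have := dist_map C g x α
    rwa [hα] at this
  rw [hd]
  apply Finset.prod_congr rfl
  intro i _
  have h1 := twI_map C g α x i
  have h2 := twI_map C g α x (i + 1)
  rw [hα] at h1 h2
  rw [h1, h2, Zs_act]

lemma Sh_eq (T : ℝ) (k : ℕ) {α β : V} (hαβ : C.G.Adj α β) (ω : Om V) :
    Sh C T k α β ω = (((C.d : ℝ) - 1) ^ k)⁻¹ * ∑ x ∈ bh C α β k, Ax C T α x ω := by
  unfold Sh
  congr 1
  apply Finset.sum_congr rfl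
  intro x hx
  unfold Ax
  rw [((mem_bh C hαβ).1 hx).1]

/-! ### tree metric -/

lemma kn_bh_dist {α β x u : V} (hαβ : C.G.Adj α β) {k j : ℕ} (hx : x ∈ bh C α β k)
    (hu : u ∈ bh C β α j) : C.G.dist x u = k + 1 + j := by
  obtain ⟨h1, h2⟩ := (mem_bh C hαβ).1 hx
  obtain ⟨h3, h4⟩ := (mem_bh C hαβ.symm).1 hu
  have := desc_of_away C.hT x (C.G.dist β u) β α u rfl hαβ.symm
    (by rw [dist_sym α x, dist_sym β x]; omega) (by rw [dist_sym α u, dist_sym β u]; omega)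
  rw [dist_sym β x, dist_sym β u] at this
  rw [dist_sym x u, this]
  omega

lemma kn_geod_unique : ∀ (n : ℕ) (x u p q : V), C.G.dist x p = n → C.G.dist x q = n →
    C.G.dist x p + C.G.dist p u = C.G.dist x u → C.G.dist x q + C.G.dist q u = C.G.dist x u →
    p = q := by
  intro n
  induction n with
  | zero =>
    intro x u p q h1 h2 _ _
    have e1 : x = p := (dist_eq_zero' C.hT).1 h1
    have e2 : x = q := (dist_eq_zero' C.hT).1 h2
    rw [← e1, ← e2]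
  | succ n ih =>
    intro x u p q h1 h2 h3 h4
    have hxu : x ≠ u := by
      rintro rfl
      simp only [SimpleGraph.dist_self] at h3
      omega
    obtain ⟨c, hc, dc⟩ := toward_exists C.hT hxu
    have key : ∀ r, C.G.dist x r = n + 1 → C.G.dist x r + C.G.dist r u = C.G.dist x u →
        C.G.dist c r = n := by
      intro r hr hr2
      have hxr : x ≠ r := by
        rintro rfl
        simp only [SimpleGraph.dist_self] at hr
        omega
      obtain ⟨c', hc', dc'⟩ := toward_exists C.hT hxr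
      have t1 : C.G.dist c' u ≤ C.G.dist c' r + C.G.dist r u := dist_tri C.hT c' r u
      have t2 : C.G.dist x u ≤ C.G.dist x c' + C.G.dist c' u := dist_tri C.hT x c' u
      have t3 : C.G.dist x c' = 1 := dist_one_of_adj hc'
      have e : c' = c := toward_unique C.hT hc' hc (by omega) dc
      rw [← e]
      omega
    have hcp := key p h1 h3
    have hcq := key q h2 h4
    exact ih c u p q hcp hcq (by omega) (by omega)

/-- automorphisms fixing an edge act transitively on the pairs of behind-vertices -/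
lemma kn_aut {α β x x' u u' : V} (hαβ : C.G.Adj α β) {k j : ℕ} (hx : x ∈ bh C α β k)
    (hx' : x' ∈ bh C α β k) (hu : u ∈ bh C β α j) (hu' : u' ∈ bh C β α j) :
    ∃ g : C.G ≃g C.G, g α = α ∧ g β = β ∧ g x = x' ∧ g u = u' := by
  have d1 := kn_bh_dist C hαβ hx hu
  have d2 := kn_bh_dist C hαβ hx' hu'
  obtain ⟨g, gx, gu⟩ := exists_aut C (x := x) (u := u) (x' := x') (u' := u') (by rw [d1, d2])
  obtain ⟨a1, a2⟩ := (mem_bh C hαβ).1 hx
  obtain ⟨a3, a4⟩ := (mem_bh C hαβ).1 hx'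
  obtain ⟨b1, b2⟩ := (mem_bh C hαβ.symm).1 hu
  obtain ⟨b3, b4⟩ := (mem_bh C hαβ.symm).1 hu'
  have gd : ∀ a b, C.G.dist (g a) (g b) = C.G.dist a b := dist_map C g
  have e1 : g α = α := by
    have p1 : C.G.dist x' (g α) = k := by rw [← gx, gd]; exact a1
    have p2 : C.G.dist (g α) u' = j + 1 := by rw [← gu, gd, dist_sym]; exact b2
    have q2 : C.G.dist α u' = j + 1 := by rw [dist_sym]; exact b4
    exact kn_geod_unique C k x' u' (g α) α p1 a3 (by omega) (by omega)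
  have e2 : g β = β := by
    have p1 : C.G.dist x' (g β) = k + 1 := by rw [← gx, gd]; exact a2
    have p2 : C.G.dist (g β) u' = j := by rw [← gu, gd, dist_sym]; exact b1
    have q2 : C.G.dist β u' = j := by rw [dist_sym]; exact b3
    exact kn_geod_unique C (k + 1) x' u' (g β) β p1 a4 (by omega) (by omega)
  exact ⟨g, e1, e2, gx, gu⟩


/-! ### averaging over the behind sets -/

lemma kn_map_act (g : C.G ≃g C.G) {F : Om V → ℝ} (hF : Measurable F) :
    ∫ ω, F (act C g ω) ∂(PP V) = ∫ ω, F ω ∂(PP V) := by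
  have := integral_map (μ := PP V) (φ := act C g) (f := F)
    (act_mp C g).measurable.aemeasurable hF.aestronglyMeasurable
  rw [(act_mp C g).map_eq] at this
  exact this.symm

lemma kn_d1_pos : (0 : ℝ) < (C.d : ℝ) - 1 := by
  have := d_sub_one_ge C
  linarith

/-- averaging -/
lemma kn_avg {α β : V} (hαβ : C.G.Adj α β) {k j : ℕ} {x u : V} (hx : x ∈ bh C α β k)
    (hu : u ∈ bh C β α j) {G : Om V → ℝ} (hGm : Measurable G) {BG : ℝ}
    (hGb : ∀ᵐ ω ∂(PP V), |G ω| ≤ BG)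
    (hGinv : ∀ g : C.G ≃g C.G, g α = α → g β = β → G ∘ act C g =ᵐ[PP V] G)
    {A B : V → Om V → ℝ} (hAm : ∀ v, Measurable (A v)) (hBm : ∀ v, Measurable (B v))
    (hAb : ∀ v, ∀ᵐ ω ∂(PP V), |A v ω| ≤ 1) (hBb : ∀ v, ∀ᵐ ω ∂(PP V), |B v ω| ≤ 1)
    (hAinv : ∀ g : C.G ≃g C.G, g α = α → g β = β → ∀ v, A (g v) ∘ act C g =ᵐ[PP V] A v)
    (hBinv : ∀ g : C.G ≃g C.G, g α = α → g β = β → ∀ v, B (g v) ∘ act C g =ᵐ[PP V] B v) :
    ∫ ω, G ω * (A x ω * B u ω) ∂(PP V) =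
      ∫ ω, G ω * ((((C.d : ℝ) - 1) ^ k)⁻¹ * ∑ v ∈ bh C α β k, A v ω) *
        ((((C.d : ℝ) - 1) ^ j)⁻¹ * ∑ v ∈ bh C β α j, B v ω) ∂(PP V) := by
  have hd := kn_d1_pos C
  have hint : ∀ v v', Integrable (fun ω => G ω * (A v ω * B v' ω)) (PP V) := by
    intro v v'
    refine kn_int (B := BG * (1 * 1)) (hGm.mul ((hAm v).mul (hBm v'))) ?_
    have hBG : ∀ᵐ ω ∂(PP V), 0 ≤ BG := by
      filter_upwards [hGb] with ω h using (abs_nonneg _).trans h
    filter_upwards [hGb, hAb v, hBb v', hBG] with ω h1 h2 h3 h0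
    rw [abs_mul, abs_mul]
    exact mul_le_mul h1 (mul_le_mul h2 h3 (abs_nonneg _) zero_le_one)
      (mul_nonneg (abs_nonneg _) (abs_nonneg _)) h0
  have key : ∀ v ∈ bh C α β k, ∀ v' ∈ bh C β α j,
      ∫ ω, G ω * (A v ω * B v' ω) ∂(PP V) = ∫ ω, G ω * (A x ω * B u ω) ∂(PP V) := by
    intro v hv v' hv'
    obtain ⟨g, g1, g2, g3, g4⟩ := kn_aut C hαβ hx hv hu hv'
    have hm : Measurable fun ω => G ω * (A v ω * B v' ω) := hGm.mul ((hAm v).mul (hBm v'))
    rw [← kn_map_act C g hm]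
    apply integral_congr_ae
    have h1 := hGinv g g1 g2
    have h2 := hAinv g g1 g2 x
    have h3 := hBinv g g1 g2 u
    rw [g3] at h2
    rw [g4] at h3
    filter_upwards [h1, h2, h3] with ω h1 h2 h3
    simp only [Function.comp] at h1 h2 h3
    rw [h1, h2, h3]
  have hcard1 := card_bh C hαβ k
  have hcard2 := card_bh C hαβ.symm j
  have hexp : ∀ ω, G ω * ((((C.d : ℝ) - 1) ^ k)⁻¹ * ∑ v ∈ bh C α β k, A v ω) *
        ((((C.d : ℝ) - 1) ^ j)⁻¹ * ∑ v ∈ bh C β α j, B v ω) =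
      (((C.d : ℝ) - 1) ^ k)⁻¹ * (((C.d : ℝ) - 1) ^ j)⁻¹ *
        ∑ v ∈ bh C α β k, ∑ v' ∈ bh C β α j, G ω * (A v ω * B v' ω) := by
    intro ω
    have e : G ω * ((((C.d : ℝ) - 1) ^ k)⁻¹ * ∑ v ∈ bh C α β k, A v ω) *
        ((((C.d : ℝ) - 1) ^ j)⁻¹ * ∑ v ∈ bh C β α j, B v ω) =
        (((C.d : ℝ) - 1) ^ k)⁻¹ * (((C.d : ℝ) - 1) ^ j)⁻¹ *
          (G ω * ((∑ v ∈ bh C α β k, A v ω) * ∑ v ∈ bh C β α j, B v ω)) := by ring
    rw [e, Finset.sum_mul_sum]
    congr 1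
    rw [Finset.mul_sum]
    apply Finset.sum_congr rfl
    intro v _
    rw [Finset.mul_sum]
  simp_rw [hexp]
  rw [integral_const_mul, integral_finsetSum _ (fun v _ => integrable_finsetSum _ (fun v' _ => hint v v'))]
  simp_rw [integral_finsetSum _ (fun v' _ => hint _ v')]
  rw [Finset.sum_congr rfl (fun v hv => Finset.sum_congr rfl (fun v' hv' => key v hv v' hv'))]
  simp only [Finset.sum_const, nsmul_eq_mul]
  rw [hcard1, hcard2]
  have h1 : ((C.d : ℝ) - 1) ^ k ≠ 0 := pow_ne_zero _ hd.ne'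
  have h2 : ((C.d : ℝ) - 1) ^ j ≠ 0 := pow_ne_zero _ hd.ne'
  field_simp

/-- moments of a product -/
lemma kn_moment_prod {f g : Om V → ℝ} (hfm : Measurable f) (hgm : Measurable g)
    (hf1 : ∀ᵐ ω ∂(PP V), |f ω| ≤ 1) (hg1 : ∀ᵐ ω ∂(PP V), |g ω| ≤ 1)
    {A D : ℝ} (hA : 0 < A) (hD : 0 < D) {p : ℕ}
    (hf : ∫ ω, f ω ^ (2 * p) ∂(PP V) ≤ A ^ (2 * p)) (hg : ∫ ω, g ω ^ (2 * p) ∂(PP V) ≤ D ^ (2 * p)) :
    ∫ ω, (f ω * g ω) ^ p ∂(PP V) ≤ (A * D) ^ p := by
  set s := A ^ p with hs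
  set t := D ^ p with ht
  have hs0 : 0 < s := by positivity
  have ht0 : 0 < t := by positivity
  have pw : ∀ ω, (f ω * g ω) ^ p ≤ t / (2 * s) * f ω ^ (2 * p) + s / (2 * t) * g ω ^ (2 * p) := by
    intro ω
    rw [mul_pow, pow_mul', pow_mul' (g ω)]
    have h := sq_nonneg (t * f ω ^ p - s * g ω ^ p)
    have e : t / (2 * s) * (f ω ^ p) ^ 2 + s / (2 * t) * (g ω ^ p) ^ 2 - f ω ^ p * g ω ^ p
        = (t * f ω ^ p - s * g ω ^ p) ^ 2 / (2 * s * t) := by
      field_simp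
      ring
    have : 0 ≤ (t * f ω ^ p - s * g ω ^ p) ^ 2 / (2 * s * t) := by positivity
    linarith
  have intf : Integrable (fun ω => f ω ^ (2 * p)) (PP V) := by
    refine kn_int (B := 1) (hfm.pow_const _) ?_
    filter_upwards [hf1] with ω h
    rw [abs_pow]
    exact pow_le_one₀ (abs_nonneg _) h
  have intg : Integrable (fun ω => g ω ^ (2 * p)) (PP V) := by
    refine kn_int (B := 1) (hgm.pow_const _) ?_
    filter_upwards [hg1] with ω h
    rw [abs_pow]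
    exact pow_le_one₀ (abs_nonneg _) h
  have intfg : Integrable (fun ω => (f ω * g ω) ^ p) (PP V) := by
    refine kn_int (B := 1) ((hfm.mul hgm).pow_const _) ?_
    filter_upwards [hf1, hg1] with ω h1 h2
    rw [abs_pow, abs_mul]
    exact pow_le_one₀ (mul_nonneg (abs_nonneg _) (abs_nonneg _))
      (by nlinarith [abs_nonneg (f ω), abs_nonneg (g ω)])
  have h1 : ∫ ω, (f ω * g ω) ^ p ∂(PP V) ≤
      ∫ ω, (t / (2 * s) * f ω ^ (2 * p) + s / (2 * t) * g ω ^ (2 * p)) ∂(PP V) :=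
    integral_mono intfg ((intf.const_mul _).add (intg.const_mul _)) pw
  refine h1.trans ?_
  rw [integral_add (intf.const_mul _) (intg.const_mul _), integral_const_mul, integral_const_mul]
  have e1 : A ^ (2 * p) = s ^ 2 := by rw [hs, pow_mul']
  have e2 : D ^ (2 * p) = t ^ 2 := by rw [ht, pow_mul']
  rw [e1] at hf
  rw [e2] at hg
  have c1 : t / (2 * s) * ∫ ω, f ω ^ (2 * p) ∂(PP V) ≤ t / (2 * s) * s ^ 2 :=
    mul_le_mul_of_nonneg_left hf (by positivity)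
  have c2 : s / (2 * t) * ∫ ω, g ω ^ (2 * p) ∂(PP V) ≤ s / (2 * t) * t ^ 2 :=
    mul_le_mul_of_nonneg_left hg (by positivity)
  have e3 : t / (2 * s) * s ^ 2 + s / (2 * t) * t ^ 2 = (A * D) ^ p := by
    rw [mul_pow, ← hs, ← ht]
    field_simp
    ring
  linarith


/-! ### the terms on an edge -/

lemma kn_perp_inv {Z : Om V → ℝ} {B : ℝ} (hZm : Measurable Z) (hZb : ∀ ω, |Z ω| ≤ B)
    (g : C.G ≃g C.G) (hinv : ∀ ω, Z (act C g ω) = Z ω) :
    (fun ω => (Z ω - Pj C Z ω) ^ 2) ∘ act C g =ᵐ[PP V] fun ω => (Z ω - Pj C Z ω) ^ 2 := by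
  have h := Pj_act C g hZm hZb
  have e : Z ∘ act C g = Z := funext hinv
  rw [e] at h
  filter_upwards [h] with ω hω
  simp only [Function.comp] at hω ⊢
  have h' : Pj C Z (act C g ω) = Pj C Z ω := hω.symm
  rw [hinv, h']

lemma kn_Pj_Ax_inv (T : ℝ) {α : V} (g : C.G ≃g C.G) (hα : g α = α) (v : V) :
    Pj C (Ax C T α (g v)) ∘ act C g =ᵐ[PP V] Pj C (Ax C T α v) := by
  have h := Pj_act C g (Ax_meas C T α (g v)) (Ax_abs C T α (g v))
  have e : Ax C T α (g v) ∘ act C g = Ax C T α v := funext fun ω => Ax_act C g T hα v ω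
  rw [e] at h
  exact h.symm

lemma kn_Pj_Sh (T : ℝ) (k : ℕ) {α β : V} (hαβ : C.G.Adj α β) :
    ∀ᵐ ω ∂(PP V), (((C.d : ℝ) - 1) ^ k)⁻¹ * ∑ v ∈ bh C α β k, Pj C (Ax C T α v) ω
      = Pj C (Sh C T k α β) ω := by
  have e : Sh C T k α β = (((C.d : ℝ) - 1) ^ k)⁻¹ • ∑ v ∈ bh C α β k, Ax C T α v := by
    funext ω
    rw [Sh_eq C T k hαβ]
    simp [Finset.sum_apply]
  have hi : ∀ v ∈ bh C α β k, Integrable (Ax C T α v) (PP V) := fun v _ =>
    kn_int (Ax_meas C T α v) (ae_of_all _ (Ax_abs C T α v))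
  have h1 := condExp_smul (μ := PP V) (((C.d : ℝ) - 1) ^ k)⁻¹ (∑ v ∈ bh C α β k, Ax C T α v) (GG C)
  have h2 := condExp_finsetSum (μ := PP V) hi (GG C)
  rw [e]
  filter_upwards [h1, h2] with ω h1 h2
  have e1 : Pj C ((((C.d : ℝ) - 1) ^ k)⁻¹ • ∑ v ∈ bh C α β k, Ax C T α v) ω = _ := h1
  rw [e1, Pi.smul_apply, h2, Finset.sum_apply, smul_eq_mul]

lemma kn_Sh_abs (T : ℝ) (k : ℕ) {a b : V} (hab : C.G.Adj a b) (ω : Om V) :
    |Sh C T k a b ω| ≤ 1 := by
  rw [abs_of_nonneg (Sh_nonneg C T k a b ω)]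
  exact Sh_le_one C T k hab ω

theorem kn_edge {T : ℝ} {p : ℕ} (hp : 1 ≤ p) {K ρ : ℝ} (hK : 0 < K) (hρ : 0 < ρ)
    (hS : ∀ (k : ℕ) (a b : V), C.G.Adj a b →
      ∫ ω, Sh C T k a b ω ^ (2 * p) ∂(PP V) ≤ (K * Real.sqrt p * ρ ^ k) ^ (2 * p))
    {α β : V} (hαβ : C.G.Adj α β) {k j : ℕ} {x u : V} (hx : x ∈ bh C α β k)
    (hu : u ∈ bh C β α j) {G : Om V → ℝ} {B : ℝ} (hB : 0 ≤ B) (hGm : Measurable G)
    (hG0 : ∀ᵐ ω ∂(PP V), 0 ≤ G ω) (hGB : ∀ᵐ ω ∂(PP V), G ω ≤ B)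
    (hGinv : ∀ g : C.G ≃g C.G, g α = α → g β = β → G ∘ act C g =ᵐ[PP V] G) :
    ∫ ω, G ω * (Ax C T α x ω * Ax C T β u ω + Pj C (Ax C T α x) ω * Pj C (Ax C T β u) ω) ∂(PP V)
      ≤ 2 * (Real.exp 1 * (K ^ 2 * p * ρ ^ (k + j)) * ∫ ω, G ω ∂(PP V)
          + B * (K ^ 2 * p * ρ ^ (k + j)) * Real.exp (1 - p)) := by
  have hp0 : (0 : ℝ) < p := by exact_mod_cast hp
  set b := K ^ 2 * p * ρ ^ (k + j) with hb
  have hb0 : 0 < b := by positivity
  have hGb : ∀ᵐ ω ∂(PP V), |G ω| ≤ B := by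
    filter_upwards [hG0, hGB] with ω h0 h1
    rw [abs_of_nonneg h0]; exact h1
  have hAD : (K * Real.sqrt p * ρ ^ k) * (K * Real.sqrt p * ρ ^ j) = b := by
    have : Real.sqrt p * Real.sqrt p = p := Real.mul_self_sqrt hp0.le
    rw [hb, pow_add]
    calc _ = K ^ 2 * (Real.sqrt p * Real.sqrt p) * (ρ ^ k * ρ ^ j) := by ring
      _ = _ := by rw [this]
  have hA : 0 < K * Real.sqrt p * ρ ^ k := by
    have : 0 < Real.sqrt p := Real.sqrt_pos.2 hp0
    positivity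
  have hD : 0 < K * Real.sqrt p * ρ ^ j := by
    have : 0 < Real.sqrt p := Real.sqrt_pos.2 hp0
    positivity
  -- first term
  have s1 : ∫ ω, G ω * (Ax C T α x ω * Ax C T β u ω) ∂(PP V) =
      ∫ ω, G ω * (Sh C T k α β ω * Sh C T j β α ω) ∂(PP V) := by
    have := kn_avg C hαβ hx hu hGm hGb hGinv (A := Ax C T α) (B := Ax C T β)
      (Ax_meas C T α) (Ax_meas C T β) (fun v => ae_of_all _ (Ax_abs C T α v))
      (fun v => ae_of_all _ (Ax_abs C T β v))
      (fun g g1 _ v => ae_of_all _ fun ω => Ax_act C g T g1 v ω)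
      (fun g _ g2 v => ae_of_all _ fun ω => Ax_act C g T g2 v ω)
    rw [this]
    apply integral_congr_ae
    refine ae_of_all _ fun ω => ?_
    beta_reduce
    rw [Sh_eq C T k hαβ, Sh_eq C T j hαβ.symm]
    ring
  have t1 : ∫ ω, G ω * (Sh C T k α β ω * Sh C T j β α ω) ∂(PP V) ≤
      Real.exp 1 * b * ∫ ω, G ω ∂(PP V) + B * b * Real.exp (1 - p) := by
    refine kn_trunc hp hB hb0 hGm ((measurable_Sh C T k α β).mul (measurable_Sh C T j β α)) hG0 hGB
      (ae_of_all _ fun ω => mul_nonneg (Sh_nonneg C T k α β ω) (Sh_nonneg C T j β α ω))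
      (ae_of_all _ fun ω => mul_le_one₀ (Sh_le_one C T k hαβ ω) (Sh_nonneg C T j β α ω)
        (Sh_le_one C T j hαβ.symm ω)) ?_
    rw [← hAD]
    exact kn_moment_prod (measurable_Sh C T k α β) (measurable_Sh C T j β α)
      (ae_of_all _ (kn_Sh_abs C T k hαβ)) (ae_of_all _ (kn_Sh_abs C T j hαβ.symm)) hA hD
      (hS k α β hαβ) (hS j β α hαβ.symm)
  -- second term
  have s2 : ∫ ω, G ω * (Pj C (Ax C T α x) ω * Pj C (Ax C T β u) ω) ∂(PP V) =
      ∫ ω, G ω * (Pj C (Sh C T k α β) ω * Pj C (Sh C T j β α) ω) ∂(PP V) := by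
    have := kn_avg C hαβ hx hu hGm hGb hGinv (A := fun v => Pj C (Ax C T α v))
      (B := fun v => Pj C (Ax C T β v))
      (fun v => kn_meas_Pj _) (fun v => kn_meas_Pj _)
      (fun v => kn_Pj_bd (Ax_abs C T α v)) (fun v => kn_Pj_bd (Ax_abs C T β v))
      (fun g g1 _ v => kn_Pj_Ax_inv C T g g1 v)
      (fun g _ g2 v => kn_Pj_Ax_inv C T g g2 v)
    rw [this]
    apply integral_congr_ae
    filter_upwards [kn_Pj_Sh C T k hαβ, kn_Pj_Sh C T j hαβ.symm] with ω h1 h2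
    rw [← h1, ← h2]
    ring
  have hPb1 : ∀ᵐ ω ∂(PP V), |Pj C (Sh C T k α β) ω| ≤ 1 := kn_Pj_bd (kn_Sh_abs C T k hαβ)
  have hPb2 : ∀ᵐ ω ∂(PP V), |Pj C (Sh C T j β α) ω| ≤ 1 := kn_Pj_bd (kn_Sh_abs C T j hαβ.symm)
  have hPn1 : ∀ᵐ ω ∂(PP V), 0 ≤ Pj C (Sh C T k α β) ω :=
    ce_nonneg (m := GG C) (ae_of_all _ (Sh_nonneg C T k α β))
  have hPn2 : ∀ᵐ ω ∂(PP V), 0 ≤ Pj C (Sh C T j β α) ω :=
    ce_nonneg (m := GG C) (ae_of_all _ (Sh_nonneg C T j β α))
  have t2 : ∫ ω, G ω * (Pj C (Sh C T k α β) ω * Pj C (Sh C T j β α) ω) ∂(PP V) ≤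
      Real.exp 1 * b * ∫ ω, G ω ∂(PP V) + B * b * Real.exp (1 - p) := by
    refine kn_trunc hp hB hb0 hGm ((kn_meas_Pj _).mul (kn_meas_Pj _)) hG0 hGB ?_ ?_ ?_
    · filter_upwards [hPn1, hPn2] with ω h1 h2 using mul_nonneg h1 h2
    · filter_upwards [hPn1, hPn2, hPb1, hPb2] with ω h1 h2 h3 h4
      rw [abs_of_nonneg h1] at h3
      rw [abs_of_nonneg h2] at h4
      exact mul_le_one₀ h3 h2 h4
    · rw [← hAD]
      refine kn_moment_prod (kn_meas_Pj _) (kn_meas_Pj _) hPb1 hPb2 hA hD ?_ ?_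
      · exact (ce_moment_le (GG_le C) (measurable_Sh C T k α β) (kn_Sh_abs C T k hαβ) p).trans
          (hS k α β hαβ)
      · exact (ce_moment_le (GG_le C) (measurable_Sh C T j β α) (kn_Sh_abs C T j hαβ.symm) p).trans
          (hS j β α hαβ.symm)
  -- integrability
  have i1 : Integrable (fun ω => G ω * (Ax C T α x ω * Ax C T β u ω)) (PP V) := by
    refine kn_int (B := B * (1 * 1)) (hGm.mul ((Ax_meas C T α x).mul (Ax_meas C T β u))) ?_
    filter_upwards [hGb] with ω h1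
    rw [abs_mul, abs_mul]
    exact mul_le_mul h1 (mul_le_mul (Ax_abs C T α x ω) (Ax_abs C T β u ω) (abs_nonneg _) zero_le_one)
      (mul_nonneg (abs_nonneg _) (abs_nonneg _)) hB
  have i2 : Integrable (fun ω => G ω * (Pj C (Ax C T α x) ω * Pj C (Ax C T β u) ω)) (PP V) := by
    refine kn_int (B := B * (1 * 1)) (hGm.mul ((kn_meas_Pj _).mul (kn_meas_Pj _))) ?_
    filter_upwards [hGb, kn_Pj_bd (C := C) (Ax_abs C T α x), kn_Pj_bd (C := C) (Ax_abs C T β u)] with ω h1 h2 h3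
    rw [abs_mul, abs_mul]
    exact mul_le_mul h1 (mul_le_mul h2 h3 (abs_nonneg _) zero_le_one)
      (mul_nonneg (abs_nonneg _) (abs_nonneg _)) hB
  have e : ∀ ω, G ω * (Ax C T α x ω * Ax C T β u ω + Pj C (Ax C T α x) ω * Pj C (Ax C T β u) ω) =
      G ω * (Ax C T α x ω * Ax C T β u ω) + G ω * (Pj C (Ax C T α x) ω * Pj C (Ax C T β u) ω) :=
    fun ω => mul_add _ _ _
  simp_rw [e]
  rw [integral_add i1 i2, s1, s2]
  linarith

/-- the exponent dominates the two sides of an edge -/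
lemma kn_E_edge (T : ℝ) {α β x u : V} (hαβ : C.G.Adj α β) {i j : ℕ} (hx : x ∈ bh C α β i)
    (hu : u ∈ bh C β α j) :
    ∀ᵐ ω ∂(PP V), Real.exp (-2 * kX C T x u ω) ≤ Ax C T α x ω * Ax C T β u ω ∧
      Real.exp (-2 * Pj C (kX C T x u) ω) ≤ Pj C (Ax C T α x) ω * Pj C (Ax C T β u) ω := by
  have hmc : ∀ᵐ ω ∂(PP V), MC C (fld C (Sq (lab ω.2) T) ω) :=
    mc_ae_ls C (A := fun τ => Sq τ T) (L := LT T) (fun τ => Sq_le τ T) (LS_Sq T)
  have hle : ∀ᵐ ω ∂(PP V), kY C T α x ω + kY C T β u ω ≤ kX C T x u ω := by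
    filter_upwards [hmc] with ω h
    have hs := Xr_split C h hαβ hx hu
    have h1 : 0 ≤ fo (mag C (fld C (Sq (lab ω.2) T) ω) α) := fo_nonneg (abs_mag_lt C _ α)
    have h2 : 0 ≤ ff C (zl C (fld C (Sq (lab ω.2) T) ω) β α) := ff_nonneg C _
    have e1 : kX C T x u ω = Xr C (fld C (Sq (lab ω.2) T) ω) x u := rfl
    have e2 : kY C T α x ω = Yr C (fld C (Sq (lab ω.2) T) ω) α x := rfl
    have e3 : kY C T β u ω = Yr C (fld C (Sq (lab ω.2) T) ω) β u := rfl
    rw [e1, e2, e3, hs]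
    linarith
  have hint1 := kY_int C T α x
  have hint2 := kY_int C T β u
  have hmono : Pj C (kY C T α x + kY C T β u) ≤ᵐ[PP V] Pj C (kX C T x u) :=
    condExp_mono (hint1.add hint2) (kX_int C T x u) (by
      filter_upwards [hle] with ω h
      simpa using h)
  have hadd := condExp_add (μ := PP V) hint1 hint2 (GG C)
  obtain ⟨B1, _, hB1⟩ := kY_bound C T α x
  obtain ⟨B2, _, hB2⟩ := kY_bound C T β u
  have j1 := ce_exp_le (μ := PP V) (GG_le C) (kY_meas C T α x) hB1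
  have j2 := ce_exp_le (μ := PP V) (GG_le C) (kY_meas C T β u) hB2
  have f1 : (fun ω => Real.exp (-2 * kY C T α x ω)) = Ax C T α x := funext fun ω => (Ax_eq C T α x ω).symm
  have f2 : (fun ω => Real.exp (-2 * kY C T β u ω)) = Ax C T β u := funext fun ω => (Ax_eq C T β u ω).symm
  rw [f1] at j1
  rw [f2] at j2
  filter_upwards [hle, hmono, hadd, j1, j2] with ω h1 h2 h3 h4 h5
  constructor
  · rw [Ax_eq, Ax_eq, ← Real.exp_add]
    apply Real.exp_le_exp.2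
    linarith
  · have h3' : Pj C (kY C T α x + kY C T β u) ω = Pj C (kY C T α x) ω + Pj C (kY C T β u) ω := h3
    have h6 : Pj C (kY C T α x) ω + Pj C (kY C T β u) ω ≤ Pj C (kX C T x u) ω := by
      rw [← h3']; exact h2
    calc Real.exp (-2 * Pj C (kX C T x u) ω)
        ≤ Real.exp (-2 * Pj C (kY C T α x) ω + -2 * Pj C (kY C T β u) ω) :=
          Real.exp_le_exp.2 (by linarith)
      _ = Real.exp (-2 * Pj C (kY C T α x) ω) * Real.exp (-2 * Pj C (kY C T β u) ω) := Real.exp_add _ _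
      _ ≤ _ := mul_le_mul h4 h5 (Real.exp_pos _).le ((Real.exp_pos _).le.trans h4)

/-- the exponent dominates the path -/
lemma kn_E_own (T : ℝ) (x u : V) :
    ∀ᵐ ω ∂(PP V), Real.exp (-2 * kX C T x u ω) ≤ Ax C T x u ω ∧
      Real.exp (-2 * Pj C (kX C T x u) ω) ≤ Pj C (Ax C T x u) ω := by
  have hle : ∀ ω, kY C T x u ω ≤ kX C T x u ω := by
    intro ω
    have e : kX C T x u ω = Gs C T x ω + kY C T x u ω := rfl
    have : 0 ≤ Gs C T x ω := fo_nonneg (abs_mag_lt C _ x)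
    linarith
  have hmono : Pj C (kY C T x u) ≤ᵐ[PP V] Pj C (kX C T x u) :=
    condExp_mono (kY_int C T x u) (kX_int C T x u) (ae_of_all _ hle)
  obtain ⟨B1, _, hB1⟩ := kY_bound C T x u
  have j1 := ce_exp_le (μ := PP V) (GG_le C) (kY_meas C T x u) hB1
  have f1 : (fun ω => Real.exp (-2 * kY C T x u ω)) = Ax C T x u := funext fun ω => (Ax_eq C T x u ω).symm
  rw [f1] at j1
  filter_upwards [hmono, j1] with ω h2 h4
  constructor
  · rw [Ax_eq]
    apply Real.exp_le_exp.2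
    have := hle ω
    linarith
  · exact (Real.exp_le_exp.2 (by linarith)).trans h4


/-! ### tail level -/

lemma kn_cs (g : ℝ) (f : ℕ → ℝ) (n : ℕ) :
    (g + ∑ k ∈ range n, f k) ^ 2 ≤ ((n : ℝ) + 1) * (g ^ 2 + ∑ k ∈ range n, f k ^ 2) := by
  have h := @sq_sum_le_card_mul_sum_sq ℕ ℝ _ _ _ _ (range (n + 1)) (fun i => if i < n then f i else g)
  rw [Finset.sum_range_succ, Finset.sum_range_succ] at h
  have e1 : ∑ i ∈ range n, (if i < n then f i else g) = ∑ i ∈ range n, f i :=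
    Finset.sum_congr rfl fun i hi => if_pos (Finset.mem_range.1 hi)
  have e2 : ∑ i ∈ range n, (if i < n then f i else g) ^ 2 = ∑ i ∈ range n, f i ^ 2 :=
    Finset.sum_congr rfl fun i hi => by rw [if_pos (Finset.mem_range.1 hi)]
  rw [e1, e2] at h
  simp only [lt_irrefl, if_false, Finset.card_range, Nat.cast_add, Nat.cast_one] at h
  calc _ = (∑ k ∈ range n, f k + g) ^ 2 := by ring
    _ ≤ _ := h
    _ = _ := by ring

lemma kn_num {e KS p r r' Dd x KF B S I : ℝ} (he : 0 ≤ e) (hp : 0 ≤ p) (hr' : 0 ≤ r') (hrr : r' ≤ r)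
    (hDd : 0 ≤ Dd) (hx : 0 ≤ x) (hI : I ≤ KF * Dd) (hKF : KF ≤ S) (hB : B ≤ S)
    (hB0 : 0 ≤ B) (hS : 0 ≤ S) (hI0 : 0 ≤ I) :
    2 * (e * (KS ^ 2 * p * r') * I + B * (KS ^ 2 * p * r') * (e * x))
      ≤ 2 * e * KS ^ 2 * (S + S) * (r * (p * (Dd + x))) := by
  have hKF' : KF * Dd ≤ S * Dd := mul_le_mul_of_nonneg_right hKF hDd
  have h1 : I + B * x ≤ S * (Dd + x) := by
    have : B * x ≤ S * x := mul_le_mul_of_nonneg_right hB hx
    nlinarith
  have h2 : 0 ≤ I + B * x := by positivity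
  have h3 : r' * (I + B * x) ≤ r * (S * (Dd + x)) :=
    mul_le_mul hrr h1 h2 (hr'.trans hrr)
  have h4 : 0 ≤ 2 * e * KS ^ 2 * p := by positivity
  have h5 := mul_le_mul_of_nonneg_left h3 h4
  have h6 : 0 ≤ 2 * e * KS ^ 2 * p * (r * (S * (Dd + x))) :=
    mul_nonneg h4 (mul_nonneg (hr'.trans hrr) (mul_nonneg hS (by positivity)))
  nlinarith

/-- per-level bound using the level sums (long paths): with `ρ` from `Sh_moment` -/
theorem tail_level (T₀ : ℝ) : ∃ c K : ℝ, 0 < c ∧ 0 < K ∧ ∀ (T : ℝ), T ≤ T₀ → ∃ ρ : ℝ, 0 < ρ ∧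
    ρ ≤ 1 - c * min 1 (Real.rpow 2 T) ∧ ∀ (p : ℕ), 1 ≤ p → ∀ x u : V, 1 ≤ C.G.dist u x →
    Lev C T x u ≤ C.θ ^ (2 * C.G.dist u x) * K * (1 + (C.G.dist u x : ℝ)) ^ 2
      * ρ ^ (C.G.dist u x - 1) * (p * (Dd C T x + Real.exp (-p))) := by
  obtain ⟨c, KS, hc, hKS, hS⟩ := Sh_moment C
  obtain ⟨KF, hKF, hF⟩ := Fp_le C T₀
  obtain ⟨BF, hBF0, hBF⟩ := kn_Fs_bound C T₀
  obtain ⟨BG, hBG0, hBG⟩ := kn_Gs_bound C T₀
  set B₁ := (2 * BF) ^ 2 with hB₁
  set B₂ := (2 * BG) ^ 2 with hB₂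
  have hB₁0 : 0 ≤ B₁ := by positivity
  have hB₂0 : 0 ≤ B₂ := by positivity
  set S := KF + B₁ + B₂ + 1 with hSS
  have hS0 : 0 < S := by positivity
  set K' := 2 * Real.exp 1 * KS ^ 2 * (S + S) with hK'
  have hKS0 : 0 < KS := by linarith
  have hK'0 : 0 < K' := by positivity
  refine ⟨c, K', hc, hK'0, ?_⟩
  intro T hT
  obtain ⟨ρ, hρ0, hρ, hmom⟩ := hS T
  refine ⟨ρ, hρ0, hρ, ?_⟩
  intro p hp x u hn
  have hp0 : (0 : ℝ) < p := by exact_mod_cast hp
  obtain ⟨a, ha, ha0, hai⟩ := exists_chain C x u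
  set n := C.G.dist u x with hndef
  have han : a n = u := by
    have := hai n le_rfl
    rw [this, Nat.sub_self]
    rfl
  have hθ := C.hθ0
  have hρ1 : ρ ≤ 1 := by
    have h1 : 0 ≤ Real.rpow 2 T := Real.rpow_nonneg (by norm_num) _
    have h2 : 0 ≤ min 1 (Real.rpow 2 T) := le_min zero_le_one h1
    nlinarith
  set Dp := Dd C T x + Real.exp (-p) with hDp
  have hDd0 := Dd_nonneg C T x
  have hx0 := (Real.exp_pos (-(p : ℝ))).le
  set R := ρ ^ (n - 1) * (p * Dp) with hR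
  have hR0 : 0 ≤ R := by positivity
  have hSm : ∀ (k : ℕ) (a b : V), C.G.Adj a b →
      ∫ ω, Sh C T k a b ω ^ (2 * p) ∂(PP V) ≤ (KS * Real.sqrt p * ρ ^ k) ^ (2 * p) :=
    fun k a b hab => hmom k a b p hab hp
  -- the weight
  set E : Om V → ℝ := fun ω => Real.exp (-2 * kX C T x u ω) + Real.exp (-2 * Pj C (kX C T x u) ω) with hE
  have hEm : Measurable E :=
    (Real.measurable_exp.comp ((kX_meas C T x u).const_mul _)).add
      (Real.measurable_exp.comp ((kn_meas_Pj (C := C) _).const_mul _))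
  have hnn : ∀ᵐ ω ∂(PP V), 0 ≤ Pj C (kX C T x u) ω :=
    ce_nonneg (m := GG C) (ae_of_all _ (kX_nonneg C T x u))
  have hEb : ∀ᵐ ω ∂(PP V), 0 ≤ E ω ∧ E ω ≤ 2 := by
    filter_upwards [hnn] with ω h0
    have a1 : Real.exp (-2 * kX C T x u ω) ≤ 1 :=
      Real.exp_le_one_iff.2 (by have := kX_nonneg C T x u ω; linarith)
    have a2 : Real.exp (-2 * Pj C (kX C T x u) ω) ≤ 1 := Real.exp_le_one_iff.2 (by linarith)
    have a3 := Real.exp_pos (-2 * kX C T x u ω)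
    have a4 := Real.exp_pos (-2 * Pj C (kX C T x u) ω)
    constructor
    · simp only [hE]; positivity
    · simp only [hE]; linarith
  -- generic weight integrability
  have hGE : ∀ {G : Om V → ℝ} {B : ℝ}, 0 ≤ B → Measurable G → (∀ᵐ ω ∂(PP V), 0 ≤ G ω) →
      (∀ᵐ ω ∂(PP V), G ω ≤ B) → Integrable (fun ω => G ω * E ω) (PP V) := by
    intro G B hB hGm hG0 hGB
    refine kn_int (B := B * 2) (hGm.mul hEm) ?_
    filter_upwards [hG0, hGB, hEb] with ω h1 h2 h3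
    rw [abs_mul, abs_of_nonneg h1, abs_of_nonneg h3.1]
    exact mul_le_mul h2 h3.2 h3.1 hB
  -- term bound: Fp
  have hFterm : ∀ k ∈ range n,
      ∫ ω, Fp C T (a (k + 1)) (a k) ω ^ 2 * E ω ∂(PP V) ≤ K' * R := by
    intro k hk
    have hkn : k < n := Finset.mem_range.1 hk
    set α := a k with hα
    set β := a (k + 1) with hβ
    have hαβ : C.G.Adj α β := ha.1 k
    have d1 : C.G.dist x α = k := by
      have := chain_dist C ha 0 k
      rwa [Nat.zero_add, ha0] at this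
    have d2 : C.G.dist x β = k + 1 := by
      have := chain_dist C ha 0 (k + 1)
      rwa [Nat.zero_add, ha0] at this
    have d3 : C.G.dist u β = n - k - 1 := by
      have := chain_dist C ha (k + 1) (n - k - 1)
      have e : k + 1 + (n - k - 1) = n := by omega
      rw [e, han] at this
      rw [dist_sym]
      exact this
    have d4 : C.G.dist u α = n - k := by
      have := chain_dist C ha k (n - k)
      have e : k + (n - k) = n := by omega
      rw [e, han] at this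
      rw [dist_sym]
      exact this
    have hx' : x ∈ bh C α β k := (mem_bh C hαβ).2 ⟨d1, d2⟩
    have hu' : u ∈ bh C β α (n - k - 1) :=
      (mem_bh C hαβ.symm).2 ⟨d3, by omega⟩
    have hGm : Measurable fun ω => Fp C T β α ω ^ 2 := (kn_Fp_meas C T β α).pow_const 2
    have hG0 : ∀ᵐ ω ∂(PP V), 0 ≤ Fp C T β α ω ^ 2 := ae_of_all _ fun _ => sq_nonneg _
    have hGB : ∀ᵐ ω ∂(PP V), Fp C T β α ω ^ 2 ≤ B₁ := by
      filter_upwards [kn_Fp_bd C hT hBF β α] with ω h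
      rw [← sq_abs]
      exact pow_le_pow_left₀ (abs_nonneg _) h 2
    have hinv : ∀ g : C.G ≃g C.G, g α = α → g β = β →
        (fun ω => Fp C T β α ω ^ 2) ∘ act C g =ᵐ[PP V] fun ω => Fp C T β α ω ^ 2 := by
      intro g g1 g2
      obtain ⟨B, _, hB⟩ := kn_Fs_bound C T
      refine kn_perp_inv C (kn_meas_Fs T β α) (hB T le_rfl β α) g ?_
      intro ω
      unfold Fs
      have := Zs_act C g T β α ω
      rw [g1, g2] at this
      rw [this]
    have hedge := kn_edge C hp hKS0 hρ0 hSm hαβ hx' hu' hB₁0 hGm hG0 hGB hinv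
    have hmono : ∫ ω, Fp C T β α ω ^ 2 * E ω ∂(PP V) ≤
        ∫ ω, Fp C T β α ω ^ 2 * (Ax C T α x ω * Ax C T β u ω + Pj C (Ax C T α x) ω * Pj C (Ax C T β u) ω) ∂(PP V) := by
      apply integral_mono_ae (hGE hB₁0 hGm hG0 hGB)
      · refine kn_int (B := B₁ * (1 * 1 + 1 * 1))
          (hGm.mul (((Ax_meas C T α x).mul (Ax_meas C T β u)).add ((kn_meas_Pj _).mul (kn_meas_Pj _)))) ?_
        filter_upwards [hGB, kn_Pj_bd (C := C) (Ax_abs C T α x), kn_Pj_bd (C := C) (Ax_abs C T β u)] with ω h1 h2 h3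
        rw [abs_mul, abs_of_nonneg (sq_nonneg _)]
        apply mul_le_mul h1 _ (abs_nonneg _) hB₁0
        refine (abs_add_le _ _).trans (add_le_add ?_ ?_)
        · rw [abs_mul]
          exact mul_le_mul (Ax_abs C T α x ω) (Ax_abs C T β u ω) (abs_nonneg _) zero_le_one
        · rw [abs_mul]
          exact mul_le_mul h2 h3 (abs_nonneg _) zero_le_one
      · filter_upwards [kn_E_edge C T hαβ hx' hu'] with ω h
        exact mul_le_mul_of_nonneg_left (add_le_add h.1 h.2) (sq_nonneg _)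
    have hF2 : ∫ ω, Fp C T β α ω ^ 2 ∂(PP V) ≤ KF * Dd C T x :=
      (hF T hT p hp β α x hαβ.symm).2.1
    have hexp : Real.exp (1 - p) = Real.exp 1 * Real.exp (-p) := by
      rw [sub_eq_add_neg, Real.exp_add]
    refine hmono.trans (hedge.trans ?_)
    rw [hexp]
    have eidx : k + (n - k - 1) = n - 1 := by omega
    rw [eidx]
    have hI0 : 0 ≤ ∫ ω, Fp C T β α ω ^ 2 ∂(PP V) := integral_nonneg fun _ => sq_nonneg _
    have := kn_num (e := Real.exp 1) (KS := KS) (p := p) (r := ρ ^ (n - 1)) (r' := ρ ^ (n - 1))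
      (Dd := Dd C T x) (x := Real.exp (-p)) (KF := KF) (B := B₁) (S := S)
      (I := ∫ ω, Fp C T β α ω ^ 2 ∂(PP V)) (Real.exp_pos 1).le hp0.le (by positivity) le_rfl hDd0 hx0 hF2
      (by rw [hSS]; linarith) (by rw [hSS]; linarith) hB₁0 hS0.le hI0
    exact this
  -- term bound: Gp
  have hGterm : ∫ ω, Gp C T x ω ^ 2 * E ω ∂(PP V) ≤ K' * R := by
    -- a neighbour of `x` away from `u`
    have hne : u ≠ x := by
      intro h
      rw [h] at hndef
      simp only [SimpleGraph.dist_self] at hndef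
      omega
    have hne' : x ≠ u := hne.symm
    obtain ⟨c₁, hc₁, dc₁⟩ := toward_exists C.hT hne'
    have hcard : 1 < (C.nb x).card := by
      rw [C.hcard x]
      have := C.hd
      omega
    obtain ⟨β, hβm, hβne⟩ := Finset.exists_mem_ne hcard c₁
    have hαβ : C.G.Adj x β := (C.hnb x β).1 hβm
    have hβd : C.G.dist β u = C.G.dist x u + 1 :=
      away_of_ne_toward C.hT hαβ hc₁ dc₁ hβne
    have hx' : u ∈ bh C x β n := by
      refine (mem_bh C hαβ).2 ⟨rfl, ?_⟩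
      rw [dist_sym u β, hβd, dist_sym x u]
    have hu' : β ∈ bh C β x 0 := by
      refine (mem_bh C hαβ.symm).2 ⟨by simp, ?_⟩
      rw [dist_sym]
      simpa using dist_one_of_adj hαβ
    have hGm : Measurable fun ω => Gp C T x ω ^ 2 := (kn_Gp_meas C T x).pow_const 2
    have hG0 : ∀ᵐ ω ∂(PP V), 0 ≤ Gp C T x ω ^ 2 := ae_of_all _ fun _ => sq_nonneg _
    have hGB : ∀ᵐ ω ∂(PP V), Gp C T x ω ^ 2 ≤ B₂ := by
      filter_upwards [kn_Gp_bd C hT hBG x] with ω h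
      rw [← sq_abs]
      exact pow_le_pow_left₀ (abs_nonneg _) h 2
    have hinv : ∀ g : C.G ≃g C.G, g x = x → g β = β →
        (fun ω => Gp C T x ω ^ 2) ∘ act C g =ᵐ[PP V] fun ω => Gp C T x ω ^ 2 := by
      intro g g1 _
      obtain ⟨B, _, hB⟩ := kn_Gs_bound C T
      refine kn_perp_inv C (kn_meas_Gs T x) (hB T le_rfl x) g ?_
      intro ω
      unfold Gs
      have := Ms_act C g T x ω
      rw [g1] at this
      rw [this]
    have hedge := kn_edge C hp hKS0 hρ0 hSm hαβ hx' hu' hB₂0 hGm hG0 hGB hinv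
    have hAone : Ax C T β β = fun _ => 1 := by
      funext ω
      unfold Ax
      simp
    have hPone : Pj C (Ax C T β β) = fun _ => 1 := by
      rw [hAone]
      exact condExp_const (GG_le C) (1 : ℝ)
    have hmono : ∫ ω, Gp C T x ω ^ 2 * E ω ∂(PP V) ≤
        ∫ ω, Gp C T x ω ^ 2 * (Ax C T x u ω * Ax C T β β ω + Pj C (Ax C T x u) ω * Pj C (Ax C T β β) ω) ∂(PP V) := by
      rw [hPone, hAone]
      apply integral_mono_ae (hGE hB₂0 hGm hG0 hGB)
      · refine kn_int (B := B₂ * (1 * 1 + 1 * 1))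
          (hGm.mul (((Ax_meas C T x u).mul measurable_const).add ((kn_meas_Pj _).mul measurable_const))) ?_
        filter_upwards [hGB, kn_Pj_bd (C := C) (Ax_abs C T x u)] with ω h1 h2
        rw [abs_mul, abs_of_nonneg (sq_nonneg _)]
        apply mul_le_mul h1 _ (abs_nonneg _) hB₂0
        refine (abs_add_le _ _).trans (add_le_add ?_ ?_)
        · rw [abs_mul]
          exact mul_le_mul (Ax_abs C T x u ω) (by simp) (abs_nonneg _) zero_le_one
        · rw [abs_mul]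
          exact mul_le_mul h2 (by simp) (abs_nonneg _) zero_le_one
      · filter_upwards [kn_E_own C T x u] with ω h
        apply mul_le_mul_of_nonneg_left _ (sq_nonneg _)
        have h3 : E ω ≤ Ax C T x u ω + Pj C (Ax C T x u) ω := add_le_add h.1 h.2
        simpa using h3
    have hG2 : ∫ ω, Gp C T x ω ^ 2 ∂(PP V) ≤ KF * Dd C T x :=
      (hF T hT p hp x β x hαβ).2.2.2
    have hexp : Real.exp (1 - p) = Real.exp 1 * Real.exp (-p) := by
      rw [sub_eq_add_neg, Real.exp_add]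
    refine hmono.trans (hedge.trans ?_)
    rw [hexp, Nat.add_zero]
    have hI0 : 0 ≤ ∫ ω, Gp C T x ω ^ 2 ∂(PP V) := integral_nonneg fun _ => sq_nonneg _
    have hrr : ρ ^ n ≤ ρ ^ (n - 1) := pow_le_pow_of_le_one hρ0.le hρ1 (by omega)
    have := kn_num (e := Real.exp 1) (KS := KS) (p := p) (r := ρ ^ (n - 1)) (r' := ρ ^ n)
      (Dd := Dd C T x) (x := Real.exp (-p)) (KF := KF) (B := B₂) (S := S)
      (I := ∫ ω, Gp C T x ω ^ 2 ∂(PP V)) (Real.exp_pos 1).le hp0.le (by positivity) hrr hDd0 hx0 hG2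
      (by rw [hSS]; linarith) (by rw [hSS]; linarith) hB₂0 hS0.le hI0
    exact this
  -- main
  refine (kLev_le C T x u).trans ?_
  have hFm : ∀ k, Measurable fun ω => Fp C T (a (k + 1)) (a k) ω ^ 2 :=
    fun k => (kn_Fp_meas C T _ _).pow_const 2
  have hFint : ∀ k, Integrable (fun ω => Fp C T (a (k + 1)) (a k) ω ^ 2 * E ω) (PP V) := by
    intro k
    refine hGE (B := B₁) hB₁0 (hFm k) (ae_of_all _ fun _ => sq_nonneg _) ?_
    filter_upwards [kn_Fp_bd C hT hBF (a (k + 1)) (a k)] with ω h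
    rw [← sq_abs]
    exact pow_le_pow_left₀ (abs_nonneg _) h 2
  have hGint : Integrable (fun ω => Gp C T x ω ^ 2 * E ω) (PP V) := by
    refine hGE (B := B₂) hB₂0 ((kn_Gp_meas C T x).pow_const 2) (ae_of_all _ fun _ => sq_nonneg _) ?_
    filter_upwards [kn_Gp_bd C hT hBG x] with ω h
    rw [← sq_abs]
    exact pow_le_pow_left₀ (abs_nonneg _) h 2
  have hsumint : Integrable (fun ω => ((n : ℝ) + 1) * (Gp C T x ω ^ 2 * E ω +
      ∑ k ∈ range n, Fp C T (a (k + 1)) (a k) ω ^ 2 * E ω)) (PP V) :=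
    (hGint.add (integrable_finsetSum _ fun k _ => hFint k)).const_mul _
  have main : ∫ ω, (Real.exp (-kX C T x u ω) - Real.exp (-Pj C (kX C T x u) ω)) ^ 2 ∂(PP V)
      ≤ ∫ ω, ((n : ℝ) + 1) * (Gp C T x ω ^ 2 * E ω +
        ∑ k ∈ range n, Fp C T (a (k + 1)) (a k) ω ^ 2 * E ω) ∂(PP V) := by
    apply integral_mono_of_nonneg (ae_of_all _ fun _ => sq_nonneg _) hsumint
    filter_upwards [hnn, kX_perp C hai T, hEb] with ω h0 hperp hE2
    refine (kn_exp_sub_sq (kX_nonneg C T x u ω) h0).trans ?_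
    rw [hperp]
    have hc := kn_cs (Gp C T x ω) (fun k => Fp C T (a (k + 1)) (a k) ω) n
    have := mul_le_mul_of_nonneg_right hc hE2.1
    calc _ ≤ _ := this
      _ = _ := by
        rw [← Finset.sum_mul]
        ring
  have hθn : 0 ≤ C.θ ^ (2 * n) := by positivity
  have hn0 : (0 : ℝ) ≤ n := Nat.cast_nonneg n
  have step : ∫ ω, ((n : ℝ) + 1) * (Gp C T x ω ^ 2 * E ω +
        ∑ k ∈ range n, Fp C T (a (k + 1)) (a k) ω ^ 2 * E ω) ∂(PP V)
      ≤ ((n : ℝ) + 1) * (((n : ℝ) + 1) * (K' * R)) := by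
    rw [integral_const_mul, integral_add hGint (integrable_finsetSum _ fun k _ => hFint k),
      integral_finsetSum _ fun k _ => hFint k]
    apply mul_le_mul_of_nonneg_left _ (by positivity)
    have h2 : ∑ k ∈ range n, ∫ ω, Fp C T (a (k + 1)) (a k) ω ^ 2 * E ω ∂(PP V) ≤ n * (K' * R) := by
      refine (Finset.sum_le_sum hFterm).trans ?_
      simp
    nlinarith
  calc C.θ ^ (2 * n) * _ ≤ C.θ ^ (2 * n) * (((n : ℝ) + 1) * (((n : ℝ) + 1) * (K' * R))) :=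
        mul_le_mul_of_nonneg_left (main.trans step) hθn
    _ = _ := by rw [hR]; ring


/-! ### the parameter error -/

lemma kn_prod_chain {a : ℕ → V} {x u : V} (ha : ∀ i ≤ C.G.dist u x, a i = twI C x (C.G.dist u x - i) u)
    (f : V → V → ℝ) :
    ∏ i ∈ range (C.G.dist u x), f (twI C x i u) (twI C x (i + 1) u)
      = ∏ k ∈ range (C.G.dist u x), f (a (k + 1)) (a k) := by
  rw [← Finset.prod_range_reflect (fun k => f (a (k + 1)) (a k))]
  apply Finset.prod_congr rfl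
  intro i hi
  have hi' : i < C.G.dist u x := Finset.mem_range.1 hi
  set n := C.G.dist u x
  have h1 : n - 1 - i + 1 ≤ n := by omega
  have h2 : n - 1 - i ≤ n := by omega
  rw [ha _ h1, ha _ h2]
  have e1 : n - (n - 1 - i + 1) = i := by omega
  have e2 : n - (n - 1 - i) = i + 1 := by omega
  rw [e1, e2]

theorem psi_level' : ∃ c K : ℝ, 0 < c ∧ c ≤ 1 / 2 ∧ 0 < K ∧ ∀ (T : ℝ) (p : ℕ), 1 ≤ p →
    ∀ x u : V,
    Psi C T x u ≤ C.θ ^ (2 * C.G.dist u x) * K
      * (1 - c * min 1 (Real.rpow 2 T)) ^ ((C.G.dist u x : ℝ) / p) * (Dd C T x + Real.exp (-p)) := by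
  obtain ⟨c, hc, hc2, hpeel⟩ := peel C
  refine ⟨c, 4 * Real.exp 1, hc, hc2, by positivity, ?_⟩
  intro T p hp x u
  have hp0 : (0 : ℝ) < p := by exact_mod_cast hp
  obtain ⟨a, ha, ha0, hai⟩ := exists_chain C x u
  set n := C.G.dist u x with hndef
  set m := min 1 (Real.rpow 2 T) with hm
  have hm0 : 0 ≤ m := le_min zero_le_one (Real.rpow_nonneg (by norm_num) _)
  have hm1 : m ≤ 1 := min_le_left _ _
  set w := c * m with hw
  have hw1 : w ≤ 1 / 2 := by nlinarith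
  have hw0 : 0 ≤ w := by positivity
  have h1w : 0 < 1 - w := by linarith
  set b := (1 - w) ^ ((n : ℝ) / p) with hb
  have hb0 : 0 < b := Real.rpow_pos_of_pos h1w _
  have hθ := C.hθ0
  have hθn : 0 < C.θ ^ n := by positivity
  have hbp : b ^ p = (1 - w) ^ n := by
    rw [hb, ← Real.rpow_natCast, ← Real.rpow_mul h1w.le, div_mul_cancel₀ _ hp0.ne', Real.rpow_natCast]
  set G : Om V → ℝ := fun ω => (Ms C T u ω - Pj C (Ms C T u) ω) ^ 2 with hG
  set W : Om V → ℝ := fun ω => (Pj C (Cs C T x u) ω / C.θ ^ n) ^ 2 with hW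
  have hGm : Measurable G := ((measurable_Ms T u).sub (kn_meas_Pj _)).pow_const 2
  have hWm : Measurable W := ((kn_meas_Pj _).div_const _).pow_const 2
  have hCb : ∀ ω, |Cs C T x u ω| ≤ C.θ ^ n := by
    intro ω
    rw [kCs_eq, abs_mul, abs_of_pos hθn, abs_of_pos (Real.exp_pos _)]
    have : Real.exp (-kX C T x u ω) ≤ 1 :=
      Real.exp_le_one_iff.2 (by have := kX_nonneg C T x u ω; linarith)
    nlinarith
  have hPCb : ∀ᵐ ω ∂(PP V), |Pj C (Cs C T x u) ω| ≤ C.θ ^ n := kn_Pj_bd hCb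
  have hW1 : ∀ᵐ ω ∂(PP V), W ω ≤ 1 := by
    filter_upwards [hPCb] with ω h
    simp only [hW]
    rw [div_pow, div_le_one (by positivity), ← sq_abs]
    exact pow_le_pow_left₀ (abs_nonneg _) h 2
  have hG4 : ∀ᵐ ω ∂(PP V), G ω ≤ 4 := by
    filter_upwards [kn_Pj_bd (C := C) (abs_Ms_le C T u)] with ω h
    simp only [hG]
    have h1 := abs_Ms_le C T u ω
    have : |Ms C T u ω - Pj C (Ms C T u) ω| ≤ 2 := (abs_sub _ _).trans (by linarith)
    calc (Ms C T u ω - Pj C (Ms C T u) ω) ^ 2 = |Ms C T u ω - Pj C (Ms C T u) ω| ^ 2 := (sq_abs _).symm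
      _ ≤ 2 ^ 2 := pow_le_pow_left₀ (abs_nonneg _) this 2
      _ = 4 := by norm_num
  have hAint : ∫ ω, Ax C T x u ω ∂(PP V) ≤ (1 - w) ^ n := by
    have h := hpeel T T (fun _ => T) (fun _ => le_rfl) (fun _ => le_rfl) a ha n
    have e : ∀ ω, Ax C T x u ω = ∏ i ∈ range n, G4 C (zl C (fld C (Sp (lab ω.2) fun _ => T) ω) (a (i + 1)) (a i)) := by
      intro ω
      unfold Ax
      exact kn_prod_chain C hai (fun p q => G4 C (Zs C T p q ω))
    simp_rw [e]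
    exact h
  have hmom : ∫ ω, W ω ^ p ∂(PP V) ≤ b ^ p := by
    rw [hbp]
    refine le_trans ?_ hAint
    have e1 : ∀ ω, W ω ^ p = ((C.θ ^ n) ^ (2 * p))⁻¹ * Pj C (Cs C T x u) ω ^ (2 * p) := by
      intro ω
      simp only [hW]
      rw [div_pow, div_pow, ← pow_mul, ← pow_mul, ← pow_mul, inv_mul_eq_div]
    simp_rw [e1]
    rw [integral_const_mul]
    have h2 := ce_moment_le (μ := PP V) (GG_le C) (measurable_Cs T x u) (abs_Cs_le C T x u) p
    have hinv : 0 ≤ ((C.θ ^ n) ^ (2 * p))⁻¹ := by positivity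
    refine (mul_le_mul_of_nonneg_left h2 hinv).trans ?_
    rw [← integral_const_mul]
    apply integral_mono_of_nonneg
    · exact ae_of_all _ fun ω => mul_nonneg hinv (by rw [pow_mul]; positivity)
    · exact kn_int (Ax_meas C T x u) (ae_of_all _ (Ax_abs C T x u))
    · filter_upwards [kn_E_own C T x u] with ω h
      refine le_trans ?_ h.1
      have hX := kX_nonneg C T x u ω
      have e2 : ((C.θ ^ n) ^ (2 * p))⁻¹ * Cs C T x u ω ^ (2 * p) = Real.exp (-kX C T x u ω) ^ (2 * p) := by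
        rw [kCs_eq, mul_pow]
        field_simp
        rfl
      rw [e2]
      have e3 : Real.exp (-2 * kX C T x u ω) = Real.exp (-kX C T x u ω) ^ 2 := by
        rw [← Real.exp_nat_mul]; ring_nf
      rw [e3]
      exact pow_le_pow_of_le_one (Real.exp_pos _).le
        (Real.exp_le_one_iff.2 (by linarith)) (by omega)
  have hkey := kn_trunc (G := G) (W := W) (B := 4) (b := b) hp (by norm_num) hb0 hGm hWm
    (ae_of_all _ fun _ => sq_nonneg _) hG4 (ae_of_all _ fun _ => sq_nonneg _) hW1 hmom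
  have hGint : ∫ ω, G ω ∂(PP V) = Dd C T x := by
    rw [Dd_indep C T x u]
    rfl
  rw [hGint] at hkey
  have hPsi : Psi C T x u = C.θ ^ (2 * n) * ∫ ω, G ω * W ω ∂(PP V) := by
    unfold Psi
    rw [← integral_const_mul]
    apply integral_congr_ae
    refine ae_of_all _ fun ω => ?_
    simp only [hG, hW]
    rw [div_pow, pow_mul' C.θ 2 n]
    field_simp
  rw [hPsi]
  have hexp : Real.exp (1 - p) = Real.exp 1 * Real.exp (-p) := by
    rw [sub_eq_add_neg, Real.exp_add]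
  rw [hexp] at hkey
  have hDd0 := Dd_nonneg C T x
  have hx0 := (Real.exp_pos (-(p : ℝ))).le
  have he := Real.exp_pos 1
  have hfin : Real.exp 1 * b * Dd C T x + 4 * b * (Real.exp 1 * Real.exp (-p))
      ≤ 4 * Real.exp 1 * b * (Dd C T x + Real.exp (-p)) := by
    have h0 : 0 ≤ Real.exp 1 * b * Dd C T x := by positivity
    nlinarith
  have hθ2 : 0 ≤ C.θ ^ (2 * n) := by positivity
  calc C.θ ^ (2 * n) * _ ≤ C.θ ^ (2 * n) * (4 * Real.exp 1 * b * (Dd C T x + Real.exp (-p))) :=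
        mul_le_mul_of_nonneg_left (hkey.trans hfin) hθ2
    _ = _ := by ring

/-- per-level bound of the parameter error -/
theorem psi_level (T₀ : ℝ) : ∃ c K : ℝ, 0 < c ∧ 0 < K ∧ ∀ (T : ℝ), T ≤ T₀ → ∀ (p : ℕ), 1 ≤ p →
    ∀ x u : V,
    Psi C T x u ≤ C.θ ^ (2 * C.G.dist u x) * K
      * (1 - c * min 1 (Real.rpow 2 T)) ^ ((C.G.dist u x : ℝ) / p) * (Dd C T x + Real.exp (-p)) := by
  obtain ⟨c, K, hc, _, hK, h⟩ := psi_level' C
  exact ⟨c, K, hc, hK, fun T _ p hp x u => h T p hp x u⟩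


/-! ### the kernel -/

lemma kn_sum_sph (x : V) (U : Finset V) {A : ℕ → ℝ} (hA : ∀ n, 0 ≤ A n) {N : ℕ}
    (hN : ∀ u ∈ U, C.G.dist u x < N) :
    ∑ u ∈ U, C.θ ^ (2 * C.G.dist u x) * A (C.G.dist u x) ≤ 2 * ∑ n ∈ range N, A n := by
  have hmaps : ∀ u ∈ U, C.G.dist u x ∈ range N := fun u hu => Finset.mem_range.2 (hN u hu)
  rw [← Finset.sum_fiberwise_of_maps_to hmaps, Finset.mul_sum]
  apply Finset.sum_le_sum
  intro n _
  have e : ∑ u ∈ U with C.G.dist u x = n, C.θ ^ (2 * C.G.dist u x) * A (C.G.dist u x)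
      = ((U.filter fun u => C.G.dist u x = n).card : ℝ) * (C.θ ^ (2 * n) * A n) := by
    rw [Finset.sum_congr rfl (g := fun _ => C.θ ^ (2 * n) * A n)]
    · simp
    · intro u hu
      rw [(Finset.mem_filter.1 hu).2]
  rw [e]
  have hsub : (U.filter fun u => C.G.dist u x = n) ⊆ sph C x n := by
    intro u hu
    exact (mem_sph C).2 (Finset.mem_filter.1 hu).2
  have hc1 : ((U.filter fun u => C.G.dist u x = n).card : ℝ) ≤ (sph C x n).card := by
    exact_mod_cast Finset.card_le_card hsub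
  have hc2 := card_sph_le C x n
  have hθ := C.hθ0
  have hd := kn_d1_pos C
  have h1 : ((C.d : ℝ) - 1) ^ n * C.θ ^ (2 * n) = 1 := by
    rw [pow_mul, ← mul_pow, C.hκ, one_pow]
  have h2 : 0 ≤ C.θ ^ (2 * n) * A n := mul_nonneg (by positivity) (hA n)
  calc ((U.filter fun u => C.G.dist u x = n).card : ℝ) * (C.θ ^ (2 * n) * A n)
      ≤ (2 * ((C.d : ℝ) - 1) ^ n) * (C.θ ^ (2 * n) * A n) :=
        mul_le_mul_of_nonneg_right (hc1.trans hc2) h2
    _ = 2 * (((C.d : ℝ) - 1) ^ n * C.θ ^ (2 * n)) * A n := by ring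
    _ = 2 * A n := by rw [h1]; ring

lemma kn_geo {w : ℝ} {p : ℕ} (hw0 : 0 < w) (hw1 : w ≤ 1) (hp : 1 ≤ p) (N : ℕ) :
    ∑ n ∈ range N, (1 - w) ^ ((n : ℝ) / p) ≤ p / w := by
  have hp0 : (0 : ℝ) < p := by exact_mod_cast hp
  have hpne : p ≠ 0 := by omega
  have h1w : 0 ≤ 1 - w := by linarith
  set β := (1 - w) ^ ((p : ℝ)⁻¹) with hβ
  have hβ0 : 0 ≤ β := Real.rpow_nonneg h1w _
  have e : ∀ n : ℕ, (1 - w) ^ ((n : ℝ) / p) = β ^ n := by
    intro n
    rw [hβ, ← Real.rpow_natCast, ← Real.rpow_mul h1w]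
    congr 1
    field_simp
  simp_rw [e]
  have hle : β ≤ 1 - w / p := by
    have hw' : w / p ≤ 1 := by
      rw [div_le_one hp0]
      have : (1 : ℝ) ≤ p := by exact_mod_cast hp
      linarith
    have hB : 1 - w ≤ (1 - w / p) ^ p := by
      have := one_add_mul_le_pow (a := -(w / p)) (by linarith [div_nonneg hw0.le hp0.le]) p
      have e2 : (p : ℝ) * -(w / p) = -w := by field_simp
      rw [e2] at this
      have e3 : (1 + -(w / p)) = 1 - w / p := by ring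
      rw [e3] at this
      linarith
    have h0 : 0 ≤ 1 - w / p := by linarith
    calc β ≤ ((1 - w / p) ^ p) ^ ((p : ℝ)⁻¹) :=
          Real.rpow_le_rpow h1w hB (by positivity)
      _ = 1 - w / p := Real.pow_rpow_inv_natCast h0 hpne
  have hgeo : (∑ n ∈ range N, β ^ n) * (1 - β) = 1 - β ^ N := geom_sum_mul_neg β N
  have hS0 : 0 ≤ ∑ n ∈ range N, β ^ n := Finset.sum_nonneg fun n _ => by positivity
  have hβN : 0 ≤ β ^ N := by positivity
  have h3 : (∑ n ∈ range N, β ^ n) * (w / p) ≤ 1 := by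
    have : (∑ n ∈ range N, β ^ n) * (w / p) ≤ (∑ n ∈ range N, β ^ n) * (1 - β) :=
      mul_le_mul_of_nonneg_left (by linarith) hS0
    linarith
  rw [le_div_iff₀ hw0]
  have e4 : (∑ n ∈ range N, β ^ n) * (w / p) = ((∑ n ∈ range N, β ^ n) * w) / p := by ring
  rw [e4, div_le_one hp0] at h3
  exact h3

/-- the constant of the tail -/
def kC : ℝ := 4 * (Nat.factorial 24 : ℝ) * 2 ^ 24

lemma kC_pos : 0 < kC := by
  unfold kC
  positivity

lemma kn_tail_sum {ρ q : ℝ} (hq : 0 < q) (hρ0 : 0 ≤ ρ) (hρ : ρ ≤ 1 - q) (n0 N : ℕ) (hn0 : 1 ≤ n0) :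
    ∑ n ∈ range N, (if n0 < n then (1 + (n : ℝ)) ^ 2 * ρ ^ (n - 1) else 0)
      ≤ 2 * (kC * (q ^ 24)⁻¹ * ((n0 : ℝ) ^ 20)⁻¹) := by
  have hC := kC_pos
  have hn0' : (1 : ℝ) ≤ n0 := by exact_mod_cast hn0
  have hn00 : (0 : ℝ) < n0 := by linarith
  set M := kC * (q ^ 24)⁻¹ * ((n0 : ℝ) ^ 20)⁻¹ with hM
  have hM0 : 0 ≤ M := by positivity
  have per : ∀ n : ℕ, n0 < n → (1 + (n : ℝ)) ^ 2 * ρ ^ (n - 1) ≤ M * ((n : ℝ) ^ 2)⁻¹ := by
    intro n hn
    have hn2 : 2 ≤ n := by omega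
    have hnr : (2 : ℝ) ≤ n := by exact_mod_cast hn2
    have hnn : (n0 : ℝ) ≤ n := by exact_mod_cast hn.le
    have hn1 : (0 : ℝ) < n := by linarith
    set x := q * n / 2 with hx
    have hx0 : 0 < x := by positivity
    have h1 : ρ ≤ Real.exp (-q) := by
      have := Real.add_one_le_exp (-q)
      linarith
    have h2 : ρ ^ (n - 1) ≤ Real.exp (-x) := by
      calc ρ ^ (n - 1) ≤ Real.exp (-q) ^ (n - 1) := pow_le_pow_left₀ hρ0 h1 _
        _ = Real.exp (((n - 1 : ℕ) : ℝ) * -q) := (Real.exp_nat_mul _ _).symm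
        _ ≤ Real.exp (-x) := by
          apply Real.exp_le_exp.2
          have e : ((n - 1 : ℕ) : ℝ) = n - 1 := by
            rw [Nat.cast_sub (by omega)]; simp
          rw [e, hx]
          nlinarith
    have h3 : Real.exp (-x) ≤ (Nat.factorial 24 : ℝ) * (x ^ 24)⁻¹ := by
      have h := Real.pow_div_factorial_le_exp x hx0.le 24
      have hf : (0 : ℝ) < Nat.factorial 24 := by positivity
      rw [Real.exp_neg]
      rw [div_le_iff₀ hf] at h
      have hxp : 0 < x ^ 24 := by positivity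
      have hexp := Real.exp_pos x
      rw [inv_le_comm₀ hexp (by positivity)]
      rw [mul_inv, inv_inv]
      calc (Nat.factorial 24 : ℝ)⁻¹ * x ^ 24 = x ^ 24 / (Nat.factorial 24 : ℝ) := by
            rw [div_eq_inv_mul]
        _ ≤ Real.exp x := by
            rw [div_le_iff₀ hf]
            exact h
    have h4 : (1 + (n : ℝ)) ^ 2 ≤ 4 * (n : ℝ) ^ 2 := by nlinarith
    have h5 : ((n : ℝ) ^ 20)⁻¹ ≤ ((n0 : ℝ) ^ 20)⁻¹ :=
      inv_anti₀ (by positivity) (pow_le_pow_left₀ hn00.le hnn 20)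
    have hxe : x ^ 24 = q ^ 24 * (n : ℝ) ^ 24 / 2 ^ 24 := by
      rw [hx]; ring
    have h6 : (1 + (n : ℝ)) ^ 2 * ρ ^ (n - 1) ≤ 4 * (n : ℝ) ^ 2 * ((Nat.factorial 24 : ℝ) * (x ^ 24)⁻¹) :=
      mul_le_mul h4 (h2.trans h3) (pow_nonneg hρ0 _) (by positivity)
    refine h6.trans ?_
    have e : 4 * (n : ℝ) ^ 2 * ((Nat.factorial 24 : ℝ) * (x ^ 24)⁻¹)
        = kC * (q ^ 24)⁻¹ * ((n : ℝ) ^ 20)⁻¹ * ((n : ℝ) ^ 2)⁻¹ := by
      rw [hxe]
      unfold kC
      field_simp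
    rw [e]
    apply mul_le_mul_of_nonneg_right _ (by positivity)
    rw [hM]
    exact mul_le_mul_of_nonneg_left h5 (by positivity)
  have h1 : ∀ n ∈ range N, (if n0 < n then (1 + (n : ℝ)) ^ 2 * ρ ^ (n - 1) else 0)
      ≤ if n0 < n then M * ((n : ℝ) ^ 2)⁻¹ else 0 := by
    intro n _
    split_ifs with h
    · exact per n h
    · exact le_rfl
  refine (Finset.sum_le_sum h1).trans ?_
  rw [← Finset.sum_filter, ← Finset.mul_sum, mul_comm]
  apply mul_le_mul_of_nonneg_right _ hM0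
  have hsub : (range N).filter (fun n => n0 < n) ⊆ Finset.Ioo 0 N := by
    intro n hn
    obtain ⟨h1, h2⟩ := Finset.mem_filter.1 hn
    exact Finset.mem_Ioo.2 ⟨by omega, Finset.mem_range.1 h1⟩
  refine (Finset.sum_le_sum_of_subset_of_nonneg hsub fun n _ _ => by positivity).trans ?_
  have := sum_Ioo_inv_sq_le (α := ℝ) 0 N
  simpa using this

lemma kn_y4 {r y : ℝ} (hy0 : 0 < y) (hy8 : y ^ 8 = min 1 (Real.rpow 2 r)) :
    y ^ 4 ≤ Real.exp (r / 4) := by
  rcases le_or_gt 0 r with hr | hr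
  · have hy1 : y ^ 8 ≤ 1 := by rw [hy8]; exact min_le_left _ _
    have h4 : y ^ 4 ≤ 1 := by
      have : (y ^ 4) ^ 2 ≤ 1 := by
        calc (y ^ 4) ^ 2 = y ^ 8 := by ring
          _ ≤ 1 := hy1
      nlinarith [sq_nonneg (y ^ 4), pow_pos hy0 4]
    have : 1 ≤ Real.exp (r / 4) := Real.one_le_exp (by linarith)
    linarith
  · have h1 : y ^ 8 ≤ Real.rpow 2 r := by rw [hy8]; exact min_le_right _ _
    have h2 : Real.rpow 2 r = Real.exp (Real.log 2 * r) :=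
      Real.rpow_def_of_pos (by norm_num) r
    have hl := Real.log_two_gt_d9
    have h3 : Real.log 2 * r ≤ r / 2 := by nlinarith
    have h4 : y ^ 8 ≤ Real.exp (r / 2) := by
      rw [h2] at h1
      exact h1.trans (Real.exp_le_exp.2 h3)
    have h5 : Real.exp (r / 2) = Real.exp (r / 4) ^ 2 := by
      rw [← Real.exp_nat_mul]; ring_nf
    have h6 : (y ^ 4) ^ 2 ≤ Real.exp (r / 4) ^ 2 := by
      calc (y ^ 4) ^ 2 = y ^ 8 := by ring
        _ ≤ _ := h4
        _ = _ := h5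
    exact (pow_le_pow_iff_left₀ (by positivity) (Real.exp_pos _).le (by norm_num)).1 h6

/-- the kernel bound -/
theorem kernel (T₀ : ℝ) : ∃ K : ℝ, 0 < K ∧ ∀ (r : ℝ), r ≤ T₀ → ∀ (p : ℕ), 1 ≤ p → ∀ (x : V)
    (U : Finset V),
    (eps ⌊r⌋) ^ 2 * ∑ u ∈ U, (Lev C r x u + (eps ⌊r⌋) ^ 2 * Psi C r x u)
      ≤ K * p * Real.exp (r / 4) * (Dd C r x + Real.exp (-p)) := by
  obtain ⟨Kh, hKh, hhead⟩ := head_level C T₀
  obtain ⟨ct, Kt, hct, hKt, htail⟩ := tail_level C T₀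
  obtain ⟨cp, Kp, hcp, hcp2, hKp, hpsi⟩ := psi_level' C
  have hC' := kC_pos
  refine ⟨9 / 2 * Kh + Kt * kC * (ct ^ 24)⁻¹ + Kp / (8 * cp), by positivity, ?_⟩
  intro r hr p hp x U
  obtain ⟨ρ, hρ0, hρ, htl⟩ := htail r hr
  have hp0 : (0 : ℝ) < p := by exact_mod_cast hp
  set m := min 1 (Real.rpow 2 r) with hm
  have hm0 : 0 < m := lt_min one_pos (Real.rpow_pos_of_pos (by norm_num) _)
  have hm1 : m ≤ 1 := min_le_left _ _
  set y := m ^ ((8 : ℕ) : ℝ)⁻¹ with hy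
  have hy0 : 0 < y := Real.rpow_pos_of_pos hm0 _
  have hy8 : y ^ 8 = m := Real.rpow_inv_natCast_pow hm0.le (by norm_num)
  have hy1 : y ≤ 1 := Real.rpow_le_one hm0.le hm1 (by positivity)
  have hy4 : y ^ 4 ≤ Real.exp (r / 4) := kn_y4 hy0 hy8
  set ε := eps ⌊r⌋ with hε
  have hε0 : 0 < ε := eps_pos ⌊r⌋
  have hεm : ε ≤ m / 2 := by
    rw [hε]
    unfold eps
    have h1 : (2 : ℝ) ^ (⌊r⌋ : ℤ) ≤ Real.rpow 2 r := by
      rw [← Real.rpow_intCast]
      exact Real.rpow_le_rpow_of_exponent_le (by norm_num) (Int.floor_le r)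
    have h2 : min 1 ((2 : ℝ) ^ (⌊r⌋ : ℤ)) ≤ m := min_le_min_left _ h1
    linarith
  have hε2 : ε ^ 2 ≤ y ^ 16 / 4 := by
    have : ε ^ 2 ≤ (m / 2) ^ 2 := pow_le_pow_left₀ hε0.le hεm 2
    rw [← hy8] at this
    calc ε ^ 2 ≤ _ := this
      _ = y ^ 16 / 4 := by ring
  set Dp := Dd C r x + Real.exp (-p) with hDp
  have hDp0 : 0 ≤ Dp := by
    have := Dd_nonneg C r x
    have := Real.exp_pos (-(p : ℝ))
    positivity
  set A := (p : ℝ) * Dp with hA
  have hA0 : 0 ≤ A := by positivity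
  set Y := (y⁻¹) ^ 9 with hY
  have hY1 : 1 ≤ Y := one_le_pow₀ ((one_le_inv₀ hy0).2 hy1)
  set n0 := ⌈Y⌉₊ with hn0
  have hn0Y : Y ≤ n0 := Nat.le_ceil Y
  have hn0le : (n0 : ℝ) < Y + 1 := Nat.ceil_lt_add_one (by linarith)
  have hn01 : 1 ≤ n0 := by
    have : (1 : ℝ) ≤ n0 := hY1.trans hn0Y
    exact_mod_cast this
  -- the bounds as functions of the distance
  set q := ct * m with hq
  have hq0 : 0 < q := by positivity
  set w := cp * m with hw
  have hw0 : 0 < w := by positivity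
  have hw1 : w ≤ 1 := by nlinarith
  let Lh : ℕ → ℝ := fun n => if n ≤ n0 then Kh * (1 + (n : ℝ)) * (m * A) else 0
  let Lt : ℕ → ℝ := fun n => if n0 < n then Kt * ((1 + (n : ℝ)) ^ 2 * ρ ^ (n - 1)) * A else 0
  let Pn : ℕ → ℝ := fun n => Kp * (1 - w) ^ ((n : ℝ) / p) * Dp
  have hLh0 : ∀ n, 0 ≤ Lh n := by
    intro n
    simp only [Lh]
    split_ifs <;> positivity
  have hLt0 : ∀ n, 0 ≤ Lt n := by
    intro n
    simp only [Lt]
    split_ifs <;> positivity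
  have h1w : 0 ≤ 1 - w := by linarith
  have hPn0 : ∀ n, 0 ≤ Pn n := by
    intro n
    have : 0 ≤ (1 - w) ^ ((n : ℝ) / p) := Real.rpow_nonneg h1w _
    simp only [Pn]
    positivity
  have hLev : ∀ u, Lev C r x u ≤ C.θ ^ (2 * C.G.dist u x) * (Lh (C.G.dist u x) + Lt (C.G.dist u x)) := by
    intro u
    have hθ := C.hθ0
    set n := C.G.dist u x with hn
    by_cases hc : n ≤ n0
    · have := hhead r hr p hp x u
      simp only [Lh, Lt, if_pos hc, if_neg (not_lt.2 hc), add_zero]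
      refine this.trans (le_of_eq ?_)
      rw [hA]
      ring
    · have hc' : n0 < n := not_le.1 hc
      have hn1 : 1 ≤ n := by omega
      have := htl p hp x u hn1
      simp only [Lh, Lt, if_neg hc, if_pos hc', zero_add]
      refine this.trans (le_of_eq ?_)
      rw [hA]
      ring
  have hPsi : ∀ u, Psi C r x u ≤ C.θ ^ (2 * C.G.dist u x) * Pn (C.G.dist u x) := by
    intro u
    have := hpsi r p hp x u
    simp only [Pn]
    refine this.trans (le_of_eq ?_)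
    ring
  set N := U.sup (fun u => C.G.dist u x) + 1 with hN
  have hNlt : ∀ u ∈ U, C.G.dist u x < N := by
    intro u hu
    have : C.G.dist u x ≤ U.sup (fun u => C.G.dist u x) := Finset.le_sup (f := fun u => C.G.dist u x) hu
    omega
  have hsum : ∑ u ∈ U, (Lev C r x u + ε ^ 2 * Psi C r x u)
      ≤ 2 * ∑ n ∈ range N, (Lh n + Lt n + ε ^ 2 * Pn n) := by
    refine le_trans ?_ (kn_sum_sph C x U (A := fun n => Lh n + Lt n + ε ^ 2 * Pn n)
      (fun n => by have := hLh0 n; have := hLt0 n; have := hPn0 n; positivity) hNlt)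
    apply Finset.sum_le_sum
    intro u _
    have h1 := hLev u
    have h2 := mul_le_mul_of_nonneg_left (hPsi u) (by positivity : 0 ≤ ε ^ 2)
    calc _ ≤ _ := add_le_add h1 h2
      _ = _ := by ring
  -- the three sums
  have hS1 : ∑ n ∈ range N, Lh n ≤ Kh * ((n0 : ℝ) + 1) ^ 2 * (m * A) := by
    have h1 : ∑ n ∈ range N, Lh n = ∑ n ∈ (range N).filter (fun n => n ≤ n0),
        Kh * (1 + (n : ℝ)) * (m * A) := by
      simp only [Lh]
      rw [Finset.sum_filter]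
    rw [h1]
    have hsub : (range N).filter (fun n => n ≤ n0) ⊆ range (n0 + 1) := by
      intro n hn
      exact Finset.mem_range.2 (Nat.lt_succ_of_le (Finset.mem_filter.1 hn).2)
    refine (Finset.sum_le_sum_of_subset_of_nonneg hsub fun n _ _ => by positivity).trans ?_
    have hle : ∀ n ∈ range (n0 + 1), Kh * (1 + (n : ℝ)) * (m * A) ≤ Kh * ((n0 : ℝ) + 1) * (m * A) := by
      intro n hn
      have : (n : ℝ) ≤ n0 := by
        exact_mod_cast Nat.le_of_lt_succ (Finset.mem_range.1 hn)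
      apply mul_le_mul_of_nonneg_right _ (by positivity)
      apply mul_le_mul_of_nonneg_left _ hKh.le
      linarith
    refine (Finset.sum_le_sum hle).trans ?_
    rw [Finset.sum_const, Finset.card_range, nsmul_eq_mul]
    push_cast
    apply le_of_eq
    ring
  have hS2 : ∑ n ∈ range N, Lt n ≤ Kt * A * (2 * (kC * (q ^ 24)⁻¹ * ((n0 : ℝ) ^ 20)⁻¹)) := by
    have hρq : ρ ≤ 1 - q := hρ
    have h := kn_tail_sum hq0 hρ0.le hρq n0 N hn01
    have e : ∑ n ∈ range N, Lt n = Kt * A *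
        ∑ n ∈ range N, (if n0 < n then (1 + (n : ℝ)) ^ 2 * ρ ^ (n - 1) else 0) := by
      rw [Finset.mul_sum]
      apply Finset.sum_congr rfl
      intro n _
      simp only [Lt]
      split_ifs
      · ring
      · ring
    rw [e]
    exact mul_le_mul_of_nonneg_left h (by positivity)
  have hS3 : ∑ n ∈ range N, Pn n ≤ Kp * Dp * (p / w) := by
    have h := kn_geo hw0 hw1 hp N
    have e : ∑ n ∈ range N, Pn n = Kp * Dp * ∑ n ∈ range N, (1 - w) ^ ((n : ℝ) / p) := by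
      rw [Finset.mul_sum]
      apply Finset.sum_congr rfl
      intro n _
      simp only [Pn]
      ring
    rw [e]
    exact mul_le_mul_of_nonneg_left h (by positivity)
  -- numerics
  have hyinv : y⁻¹ * y = 1 := inv_mul_cancel₀ hy0.ne'
  have hn1Y : (n0 : ℝ) + 1 ≤ 3 * Y := by linarith
  have hn1Y2 : ((n0 : ℝ) + 1) ^ 2 ≤ 9 * (y⁻¹) ^ 18 := by
    have : ((n0 : ℝ) + 1) ^ 2 ≤ (3 * Y) ^ 2 :=
      pow_le_pow_left₀ (by positivity) hn1Y 2
    refine this.trans (le_of_eq ?_)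
    rw [hY]; ring
  have T1 : ε ^ 2 * (Kh * ((n0 : ℝ) + 1) ^ 2 * (m * A)) ≤ 9 / 4 * Kh * y ^ 4 * A := by
    have h1 : ε ^ 2 * ((n0 : ℝ) + 1) ^ 2 ≤ y ^ 16 / 4 * (9 * (y⁻¹) ^ 18) :=
      mul_le_mul hε2 hn1Y2 (by positivity) (by positivity)
    have h2 : y ^ 16 / 4 * (9 * (y⁻¹) ^ 18) * m = 9 / 4 * y ^ 6 := by
      rw [← hy8]
      field_simp
    have h3 : ε ^ 2 * ((n0 : ℝ) + 1) ^ 2 * m ≤ 9 / 4 * y ^ 6 := by
      rw [← h2]
      exact mul_le_mul_of_nonneg_right h1 hm0.le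
    have h4 : y ^ 6 ≤ y ^ 4 := pow_le_pow_of_le_one hy0.le hy1 (by norm_num)
    have h5 : ε ^ 2 * ((n0 : ℝ) + 1) ^ 2 * m ≤ 9 / 4 * y ^ 4 := by linarith
    calc ε ^ 2 * (Kh * ((n0 : ℝ) + 1) ^ 2 * (m * A))
        = Kh * A * (ε ^ 2 * ((n0 : ℝ) + 1) ^ 2 * m) := by ring
      _ ≤ Kh * A * (9 / 4 * y ^ 4) := mul_le_mul_of_nonneg_left h5 (by positivity)
      _ = _ := by ring
  have T2 : ε ^ 2 * (Kt * A * (2 * (kC * (q ^ 24)⁻¹ * ((n0 : ℝ) ^ 20)⁻¹)))
      ≤ 1 / 2 * (Kt * kC * (ct ^ 24)⁻¹) * y ^ 4 * A := by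
    have hn20 : ((n0 : ℝ) ^ 20)⁻¹ ≤ y ^ 180 := by
      have h1 : Y ^ 20 ≤ (n0 : ℝ) ^ 20 := pow_le_pow_left₀ (by positivity) hn0Y 20
      have h2 : ((n0 : ℝ) ^ 20)⁻¹ ≤ (Y ^ 20)⁻¹ := inv_anti₀ (by positivity) h1
      refine h2.trans (le_of_eq ?_)
      rw [hY]
      field_simp
    have hq24 : (q ^ 24)⁻¹ = (ct ^ 24)⁻¹ * (y ^ 192)⁻¹ := by
      rw [hq, ← hy8, mul_pow, mul_inv]
      ring_nf
    have h3 : (q ^ 24)⁻¹ * ((n0 : ℝ) ^ 20)⁻¹ ≤ (ct ^ 24)⁻¹ * (y ^ 12)⁻¹ := by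
      rw [hq24]
      calc (ct ^ 24)⁻¹ * (y ^ 192)⁻¹ * ((n0 : ℝ) ^ 20)⁻¹
          ≤ (ct ^ 24)⁻¹ * (y ^ 192)⁻¹ * y ^ 180 :=
            mul_le_mul_of_nonneg_left hn20 (by positivity)
        _ = _ := by
            field_simp
    have h4 : ε ^ 2 * ((q ^ 24)⁻¹ * ((n0 : ℝ) ^ 20)⁻¹) ≤ y ^ 16 / 4 * ((ct ^ 24)⁻¹ * (y ^ 12)⁻¹) :=
      mul_le_mul hε2 h3 (by positivity) (by positivity)
    have h5 : y ^ 16 / 4 * ((ct ^ 24)⁻¹ * (y ^ 12)⁻¹) = 1 / 4 * (ct ^ 24)⁻¹ * y ^ 4 := by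
      field_simp
    rw [h5] at h4
    calc ε ^ 2 * (Kt * A * (2 * (kC * (q ^ 24)⁻¹ * ((n0 : ℝ) ^ 20)⁻¹)))
        = 2 * Kt * A * kC * (ε ^ 2 * ((q ^ 24)⁻¹ * ((n0 : ℝ) ^ 20)⁻¹)) := by ring
      _ ≤ 2 * Kt * A * kC * (1 / 4 * (ct ^ 24)⁻¹ * y ^ 4) :=
          mul_le_mul_of_nonneg_left h4 (by positivity)
      _ = _ := by ring
  have T3 : ε ^ 2 * (ε ^ 2 * (Kp * Dp * (p / w))) ≤ Kp / (16 * cp) * y ^ 4 * A := by
    have h1 : ε ^ 2 * ε ^ 2 ≤ y ^ 16 / 4 * (y ^ 16 / 4) :=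
      mul_le_mul hε2 hε2 (by positivity) (by positivity)
    have h2 : y ^ 16 / 4 * (y ^ 16 / 4) / w = y ^ 24 / (16 * cp) := by
      rw [hw, ← hy8]
      field_simp
      norm_num
    have h3 : ε ^ 2 * ε ^ 2 / w ≤ y ^ 24 / (16 * cp) := by
      rw [← h2]
      exact div_le_div_of_nonneg_right h1 hw0.le
    have h4 : y ^ 24 ≤ y ^ 4 := pow_le_pow_of_le_one hy0.le hy1 (by norm_num)
    have h5 : ε ^ 2 * ε ^ 2 / w ≤ y ^ 4 / (16 * cp) :=
      h3.trans (div_le_div_of_nonneg_right h4 (by positivity))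
    calc ε ^ 2 * (ε ^ 2 * (Kp * Dp * (p / w)))
        = Kp * A * (ε ^ 2 * ε ^ 2 / w) := by rw [hA]; ring
      _ ≤ Kp * A * (y ^ 4 / (16 * cp)) := mul_le_mul_of_nonneg_left h5 (by positivity)
      _ = _ := by ring
  -- assemble
  have hsplit : ∑ n ∈ range N, (Lh n + Lt n + ε ^ 2 * Pn n)
      = ∑ n ∈ range N, Lh n + ∑ n ∈ range N, Lt n + ε ^ 2 * ∑ n ∈ range N, Pn n := by
    rw [Finset.sum_add_distrib, Finset.sum_add_distrib, Finset.mul_sum]
  have hε20 : 0 ≤ ε ^ 2 := by positivity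
  have B1 := mul_le_mul_of_nonneg_left hS1 hε20
  have B2 := mul_le_mul_of_nonneg_left hS2 hε20
  have B3 : ε ^ 2 * (ε ^ 2 * ∑ n ∈ range N, Pn n) ≤ ε ^ 2 * (ε ^ 2 * (Kp * Dp * (p / w))) :=
    mul_le_mul_of_nonneg_left (mul_le_mul_of_nonneg_left hS3 hε20) hε20
  have hK0 : 0 ≤ 9 / 2 * Kh + Kt * kC * (ct ^ 24)⁻¹ + Kp / (8 * cp) := by positivity
  calc ε ^ 2 * ∑ u ∈ U, (Lev C r x u + ε ^ 2 * Psi C r x u)
      ≤ ε ^ 2 * (2 * ∑ n ∈ range N, (Lh n + Lt n + ε ^ 2 * Pn n)) :=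
        mul_le_mul_of_nonneg_left hsum hε20
    _ = 2 * (ε ^ 2 * ∑ n ∈ range N, Lh n + ε ^ 2 * ∑ n ∈ range N, Lt n +
          ε ^ 2 * (ε ^ 2 * ∑ n ∈ range N, Pn n)) := by rw [hsplit]; ring
    _ ≤ 2 * (9 / 4 * Kh * y ^ 4 * A + 1 / 2 * (Kt * kC * (ct ^ 24)⁻¹) * y ^ 4 * A +
          Kp / (16 * cp) * y ^ 4 * A) := by
        have := B1.trans T1
        have := B2.trans T2
        have := B3.trans T3
        linarith
    _ = (9 / 2 * Kh + Kt * kC * (ct ^ 24)⁻¹ + Kp / (8 * cp)) * A * y ^ 4 := by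
        field_simp
        ring
    _ ≤ (9 / 2 * Kh + Kt * kC * (ct ^ 24)⁻¹ + Kp / (8 * cp)) * A * Real.exp (r / 4) :=
        mul_le_mul_of_nonneg_left hy4 (by positivity)
    _ = _ := by rw [hA]; ring

end Vale.Agent.Lib.P161.Crit
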