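import Vale.Agent.Lib.P161.Crit.Defs

/-!
Product measure tools on `I → ℝ` with iid `lam` coordinates (I arbitrary).
-/

open MeasureTheory Filter Topology Finset

noncomputable section
namespace Vale.Agent.Lib.P161.Crit

open scoped Classical
open Vale.Agent.Lib.P161

variable {I : Type}

/-- iid uniform coordinates on `I` -/
abbrev PI (I : Type) : Measure (I → ℝ) := Measure.infinitePi fun _ => lam

/-- overlay: coordinates in `S` from `w₁`, the others from `w₂` -/
def glue (S : Set I) (w₁ w₂ : I → ℝ) : I → ℝ := fun i => if i ∈ S then w₁ i else w₂ i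

lemma measurable_glue (S : Set I) :
    Measurable (fun p : (I → ℝ) × (I → ℝ) => glue S p.1 p.2) := by
  refine measurable_pi_lambda _ fun i => ?_
  by_cases h : i ∈ S
  · simp only [glue, h, if_true]
    exact (measurable_pi_apply i).comp measurable_fst
  · simp only [glue, h, if_false]
    exact (measurable_pi_apply i).comp measurable_snd

/-- glueing two independent samples gives a sample -/
theorem map_glue (S : Set I) :
    ((PI I).prod (PI I)).map (fun p => glue S p.1 p.2) = PI I := by
  refine Measure.eq_infinitePi _ fun s t ht => ?_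
  have hm : MeasurableSet ((s : Set I).pi t) :=
    MeasurableSet.pi s.countable_toSet fun i _ => ht i
  rw [Measure.map_apply (measurable_glue S) hm]
  have hpre : (fun p : (I → ℝ) × (I → ℝ) => glue S p.1 p.2) ⁻¹' ((s : Set I).pi t) =
      ((s.filter (· ∈ S) : Finset I) : Set I).pi t ×ˢ
        ((s.filter (· ∉ S) : Finset I) : Set I).pi t := by
    ext ⟨w₁, w₂⟩
    simp only [Set.mem_preimage, Set.mem_pi, Finset.mem_coe, Set.mem_prod, Finset.mem_filter, glue]
    constructor
    · intro h
      constructor
      · rintro i ⟨hi, hS⟩
        have := h i hi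
        rwa [if_pos hS] at this
      · rintro i ⟨hi, hS⟩
        have := h i hi
        rwa [if_neg hS] at this
    · rintro ⟨h1, h2⟩ i hi
      by_cases hS : i ∈ S
      · rw [if_pos hS]; exact h1 i ⟨hi, hS⟩
      · rw [if_neg hS]; exact h2 i ⟨hi, hS⟩
  rw [hpre, Measure.prod_prod, Measure.infinitePi_pi _ (fun i _ => ht i),
    Measure.infinitePi_pi _ (fun i _ => ht i), Finset.prod_filter_mul_prod_filter_not]

lemma measurePreserving_glue (S : Set I) :
    MeasurePreserving (fun p : (I → ℝ) × (I → ℝ) => glue S p.1 p.2) ((PI I).prod (PI I)) (PI I) :=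
  ⟨measurable_glue S, map_glue S⟩

lemma integrable_of_bdd {α : Type} [MeasurableSpace α] {μ : Measure α} [IsFiniteMeasure μ]
    {F : α → ℝ} (hF : AEStronglyMeasurable F μ) {B : ℝ} (hB : ∀ w, |F w| ≤ B) : Integrable F μ :=
  Integrable.of_bound hF B (Eventually.of_forall fun w => by simpa using hB w)

/-- integrate over the coordinates separately -/
theorem integral_glue (S : Set I) {F : (I → ℝ) → ℝ} (hF : Measurable F) {B : ℝ}
    (hB : ∀ w, |F w| ≤ B) :
    ∫ w, F w ∂(PI I) = ∫ w₁, ∫ w₂, F (glue S w₁ w₂) ∂(PI I) ∂(PI I) := by
  have hg := measurable_glue S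
  calc ∫ w, F w ∂(PI I) = ∫ w, F w ∂(((PI I).prod (PI I)).map (fun p => glue S p.1 p.2)) := by
        rw [map_glue]
    _ = ∫ p, F (glue S p.1 p.2) ∂((PI I).prod (PI I)) :=
        integral_map hg.aemeasurable hF.aestronglyMeasurable
    _ = _ := integral_prod _ (integrable_of_bdd (hF.comp hg).aestronglyMeasurable (fun _ => hB _))

/-- The update map is measure preserving. -/
lemma mp_update [DecidableEq I] (i : I) :
    MeasurePreserving (fun p : (I → ℝ) × ℝ => Function.update p.1 i p.2) ((PI I).prod lam) (PI I) := by
  refine ⟨measurable_update', ?_⟩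
  refine Measure.eq_infinitePi _ fun s t ht => ?_
  have hm : MeasurableSet ((s : Set I).pi t) :=
    MeasurableSet.pi s.countable_toSet fun i _ => ht i
  rw [Measure.map_apply measurable_update' hm]
  by_cases hi : i ∈ s
  · have hpre : (fun p : (I → ℝ) × ℝ => Function.update p.1 i p.2) ⁻¹' ((s : Set I).pi t) =
        ((s.erase i : Finset I) : Set I).pi t ×ˢ t i := by
      ext ⟨w, x⟩
      simp only [Set.mem_preimage, Set.mem_pi, Finset.mem_coe, Set.mem_prod, Finset.mem_erase]
      constructor
      · intro h
        refine ⟨?_, ?_⟩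
        · rintro k ⟨hk, hks⟩
          have := h k hks
          rwa [Function.update_of_ne hk] at this
        · have := h i hi
          simpa using this
      · rintro ⟨h1, h2⟩ k hk
        by_cases hki : k = i
        · subst hki; simpa using h2
        · rw [Function.update_of_ne hki]; exact h1 k ⟨hki, hk⟩
    rw [hpre, Measure.prod_prod, Measure.infinitePi_pi _ (fun i _ => ht i),
      ← Finset.prod_erase_mul s _ hi]
  · have hpre : (fun p : (I → ℝ) × ℝ => Function.update p.1 i p.2) ⁻¹' ((s : Set I).pi t) =
        ((s : Set I).pi t) ×ˢ Set.univ := by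
      ext ⟨w, x⟩
      simp only [Set.mem_preimage, Set.mem_pi, Finset.mem_coe, Set.mem_prod, Set.mem_univ, and_true]
      constructor
      · intro h k hk
        have hki : k ≠ i := fun e => hi (e ▸ hk)
        have := h k hk
        rwa [Function.update_of_ne hki] at this
      · intro h k hk
        have hki : k ≠ i := fun e => hi (e ▸ hk)
        rw [Function.update_of_ne hki]
        exact h k hk
    rw [hpre, Measure.prod_prod, Measure.infinitePi_pi _ (fun i _ => ht i), measure_univ, mul_one]

/-- integrate out a single coordinate -/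
theorem integral_update (i : I) {F : (I → ℝ) → ℝ} (hF : Measurable F) {B : ℝ}
    (hB : ∀ w, |F w| ≤ B) :
    ∫ w, F w ∂(PI I) = ∫ w, ∫ x, F (Function.update w i x) ∂lam ∂(PI I) := by
  have hg : Measurable (fun p : (I → ℝ) × ℝ => Function.update p.1 i p.2) := measurable_update'
  calc ∫ w, F w ∂(PI I) = ∫ w, F w ∂(((PI I).prod lam).map (fun p => Function.update p.1 i p.2)) := by
        rw [(mp_update i).map_eq]
    _ = ∫ p, F (Function.update p.1 i p.2) ∂((PI I).prod lam) :=
        integral_map hg.aemeasurable hF.aestronglyMeasurable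
    _ = _ := integral_prod _ (integrable_of_bdd (hF.comp hg).aestronglyMeasurable (fun _ => hB _))

/-- Injective reindexing: restriction to a family of distinct coordinates is a sample. -/
lemma map_reindex {J : Type} {φ : J → I} (hφ : Function.Injective φ) :
    (PI I).map (fun w j => w (φ j)) = PI J := by
  have hmeas : Measurable (fun (w : I → ℝ) (j : J) => w (φ j)) :=
    measurable_pi_lambda _ fun j => measurable_pi_apply (φ j)
  refine Measure.eq_infinitePi _ fun s t ht => ?_
  have hm : MeasurableSet ((s : Set J).pi t) :=
    MeasurableSet.pi s.countable_toSet fun i _ => ht i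
  rw [Measure.map_apply hmeas hm]
  set t' : I → Set ℝ := fun i => {x | ∀ j, φ j = i → x ∈ t j} with ht'
  have ht'φ : ∀ j, t' (φ j) = t j := by
    intro j
    ext x
    simp only [ht', Set.mem_ofPred_eq]
    constructor
    · intro h; exact h j rfl
    · intro h k hk
      rw [hφ hk]; exact h
  have hpre : (fun (w : I → ℝ) (j : J) => w (φ j)) ⁻¹' ((s : Set J).pi t) =
      ((s.map ⟨φ, hφ⟩ : Finset I) : Set I).pi t' := by
    ext w
    simp only [Set.mem_preimage, Set.mem_pi, Finset.mem_coe, Finset.mem_map,
      Function.Embedding.coeFn_mk]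
    constructor
    · rintro h i ⟨j, hj, rfl⟩
      rw [ht'φ]; exact h j hj
    · intro h j hj
      have := h (φ j) ⟨j, hj, rfl⟩
      rwa [ht'φ] at this
  rw [hpre, Measure.infinitePi_pi]
  · rw [Finset.prod_map]
    apply Finset.prod_congr rfl
    intro j _
    simp only [Function.Embedding.coeFn_mk, ht'φ]
  · intro i hi
    obtain ⟨j, _, rfl⟩ := Finset.mem_map.1 hi
    simp only [Function.Embedding.coeFn_mk, ht'φ]
    exact ht j

/-- coordinate permutations preserve the measure -/
theorem map_perm (e : I ≃ I) : (PI I).map (fun w i => w (e.symm i)) = PI I :=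
  map_reindex e.symm.injective

lemma measurePreserving_perm (e : I ≃ I) :
    MeasurePreserving (fun w : I → ℝ => fun i => w (e.symm i)) (PI I) (PI I) :=
  ⟨measurable_pi_lambda _ fun i => measurable_pi_apply (e.symm i), map_perm e⟩

/-- functions of disjoint blocks of coordinates are independent -/
theorem indep_of_dependsOn {E E' : Type} [MeasurableSpace E] [MeasurableSpace E']
    {f : (I → ℝ) → E} {g : (I → ℝ) → E'} {S S' : Set I}
    (hf : Measurable f) (hg : Measurable g) (hfS : DependsOn f S) (hgS : DependsOn g S')
    (hd : Disjoint S S') : ProbabilityTheory.IndepFun f g (PI I) := by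
  rw [ProbabilityTheory.indepFun_iff_map_prod_eq_prod_map_map hf.aemeasurable hg.aemeasurable]
  have hfg : Measurable (fun w => (f w, g w)) := hf.prodMk hg
  have h1 : (PI I).map (fun w => (f w, g w)) =
      ((PI I).prod (PI I)).map (Prod.map f g) := by
    conv_lhs => rw [← map_glue S]
    rw [Measure.map_map hfg (measurable_glue S)]
    congr 1
    funext p
    simp only [Function.comp, Prod.map]
    congr 1
    · apply hfS
      intro i hi
      simp [glue, hi]
    · apply hgS
      intro i hi
      have : i ∉ S := fun h => (Set.disjoint_left.1 hd) h hi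
      simp [glue, this]
  rw [h1, Measure.map_prod_map _ _ hf hg]

/-- functions of pairwise disjoint blocks of coordinates are jointly independent -/
theorem iIndep_of_dependsOn {ι : Type} {f : ι → (I → ℝ) → ℝ} {S : ι → Set I}
    (hf : ∀ i, Measurable (f i)) (hfS : ∀ i, DependsOn (f i) (S i))
    (hd : Pairwise fun i j => Disjoint (S i) (S j)) :
    ProbabilityTheory.iIndepFun f (PI I) := by
  rw [ProbabilityTheory.iIndepFun_iff_measure_inter_preimage_eq_mul]
  intro s sets hsets
  induction s using Finset.induction_on with
  | empty => simp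
  | insert a s ha ih =>
    have ih' := ih (fun i hi => hsets i (Finset.mem_insert_of_mem hi))
    rw [Finset.prod_insert ha, ← ih', Finset.set_biInter_insert]
    -- the two events are independent
    set A : Set (I → ℝ) := f a ⁻¹' sets a with hA
    set B : Set (I → ℝ) := ⋂ i ∈ s, f i ⁻¹' sets i with hB
    have hAm : MeasurableSet A := hf a (hsets a (Finset.mem_insert_self a s))
    have hBm : MeasurableSet B := by
      apply Finset.measurableSet_biInter
      intro i hi
      exact hf i (hsets i (Finset.mem_insert_of_mem hi))
    have hind := indep_of_dependsOn (E := Prop) (E' := Prop) (f := fun w => w ∈ A) (g := fun w => w ∈ B)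
      (S := S a) (S' := ⋃ i ∈ s, S i) (measurable_mem.2 hAm) (measurable_mem.2 hBm) ?_ ?_ ?_
    · have := hind.measure_inter_preimage_eq_mul {True} {True} (measurableSet_singleton _)
        (measurableSet_singleton _)
      have e1 : (fun w => w ∈ A) ⁻¹' {True} = A := by ext w; simp
      have e2 : (fun w => w ∈ B) ⁻¹' {True} = B := by ext w; simp
      rwa [e1, e2] at this
    · intro w w' h
      have : f a w = f a w' := hfS a h
      simp only [hA, Set.mem_preimage, this]
    · intro w w' h
      simp only [hB, Set.mem_iInter, Set.mem_preimage, eq_iff_iff]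
      have key : ∀ i ∈ s, f i w = f i w' := by
        intro i hi
        apply hfS i
        intro k hk
        exact h k (Set.mem_biUnion (Finset.mem_coe.2 hi) hk)
      constructor
      · intro h1 i hi
        rw [← key i hi]; exact h1 i hi
      · intro h1 i hi
        rw [key i hi]; exact h1 i hi
    · rw [Set.disjoint_iUnion₂_right]
      intro i hi
      exact hd (fun e => ha (e ▸ hi))

/-! ### the space `WW V`, labels -/

variable {V : Type}

instance : IsProbabilityMeasure (PW V) := by
  unfold PW; infer_instance
instance : IsProbabilityMeasure (PL V) := by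
  unfold PL; infer_instance
instance : IsProbabilityMeasure sM := by
  constructor
  simp only [sM, Measure.smul_apply, Measure.add_apply, measure_univ, smul_eq_mul]
  rw [one_add_one_eq_two]
  exact ENNReal.inv_mul_cancel (by norm_num) (by norm_num)
instance : IsProbabilityMeasure (PP V) := by
  unfold PP; infer_instance

lemma integral_sM (f : Bool → ℝ) : ∫ b, f b ∂sM = (f true + f false) / 2 := by
  have hi : ∀ b : Bool, Integrable f (Measure.dirac b) := fun b =>
    integrable_dirac (by simp)
  simp only [sM]
  rw [integral_smul_measure, integral_add_measure (hi _) (hi _), integral_dirac, integral_dirac]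
  simp only [ENNReal.toReal_inv, ENNReal.toReal_ofNat, smul_eq_mul]
  ring

/-- replace the labels of a noise sample -/
def setLab (τ : Lab V) (w : WW V) : WW V := fun i =>
  match i with
  | .la j => τ j
  | i => w i

lemma measurable_lab : Measurable (lab : WW V → Lab V) :=
  measurable_pi_lambda _ fun j => measurable_pi_apply (Ix.la j)

lemma lab_setLab (τ : Lab V) (w : WW V) : lab (setLab τ w) = τ := rfl

lemma measurable_setLab : Measurable (fun p : Lab V × WW V => setLab p.1 p.2) := by
  refine measurable_pi_lambda _ fun i => ?_
  cases i with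
  | ed e => exact (measurable_pi_apply _).comp measurable_snd
  | no j => exact (measurable_pi_apply _).comp measurable_snd
  | la j => exact (measurable_pi_apply _).comp measurable_fst

/-- replace the labels of a full sample -/
def setL (τ : Lab V) (ω : Om V) : Om V := (ω.1, setLab τ ω.2)

lemma map_lab : (PW V).map lab = PL V := by
  have : Function.Injective (Ix.la : Stp V → Ix V) := fun _ _ h => by cases h; rfl
  exact map_reindex this

/-- setting the labels of one sample on another one -/
lemma mp_setLab : MeasurePreserving (fun p : Lab V × WW V => setLab p.1 p.2)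
    ((PL V).prod (PW V)) (PW V) := by
  refine ⟨measurable_setLab, ?_⟩
  have h1 : (PL V).prod (PW V) = ((PW V).prod (PW V)).map (Prod.map lab id) := by
    rw [← Measure.map_prod_map _ _ measurable_lab measurable_id, map_lab, Measure.map_id]
  rw [h1, Measure.map_map measurable_setLab (measurable_lab.prodMap measurable_id)]
  have h2 := map_glue (I := Ix V) {i | ∃ j, i = Ix.la j}
  have h3 : (fun p : Lab V × WW V => setLab p.1 p.2) ∘ Prod.map lab id =
      fun p : WW V × WW V => glue {i | ∃ j, i = Ix.la j} p.1 p.2 := by
    funext p
    funext i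
    cases i with
    | ed e => simp [setLab, glue]
    | no j => simp [setLab, glue]
    | la j =>
      have hmem : Ix.la j ∈ {i : Ix V | ∃ j', i = Ix.la j'} := ⟨j, rfl⟩
      simp only [Function.comp, Prod.map, setLab, glue, lab, if_pos hmem]
  rw [h3]
  exact h2

/-- the pair (labels of one sample, rest of another) is a sample -/
theorem measurePreserving_fiber :
    MeasurePreserving (fun p : Lab V × Om V => setL p.1 p.2) ((PL V).prod (PP V)) (PP V) := by
  have h1 : MeasurePreserving (fun p : Bool × (Lab V × WW V) => (p.1, setLab p.2.1 p.2.2))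
      (sM.prod ((PL V).prod (PW V))) (PP V) :=
    (MeasurePreserving.id sM).prod mp_setLab
  have h2 : MeasurePreserving (fun p : Lab V × (Bool × WW V) => (p.2.1, (p.1, p.2.2)))
      ((PL V).prod (sM.prod (PW V))) (sM.prod ((PL V).prod (PW V))) := by
    have e1 := (measurePreserving_prodAssoc (PL V) sM (PW V)).symm
    have e2 : MeasurePreserving (Prod.map (Prod.swap : Lab V × Bool → Bool × Lab V) (id : WW V → WW V))
        (((PL V).prod sM).prod (PW V)) ((sM.prod (PL V)).prod (PW V)) :=
      (Measure.measurePreserving_swap).prod (MeasurePreserving.id _)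
    have e3 := measurePreserving_prodAssoc sM (PL V) (PW V)
    exact (e3.comp e2).comp e1
  exact h1.comp h2

/-- disintegration over the labels -/
theorem integral_fiber {F : Om V → ℝ} (hF : Measurable F) {B : ℝ} (hB : ∀ ω, |F ω| ≤ B) :
    ∫ ω, F ω ∂(PP V) = ∫ τ, ∫ ω, F (setL τ ω) ∂(PP V) ∂(PL V) := by
  have h := measurePreserving_fiber (V := V)
  calc ∫ ω, F ω ∂(PP V) = ∫ ω, F ω ∂(((PL V).prod (PP V)).map (fun p : Lab V × Om V => setL p.1 p.2)) := by
        rw [h.map_eq]
    _ = ∫ p, F (setL p.1 p.2) ∂((PL V).prod (PP V)) :=
        integral_map h.measurable.aemeasurable hF.aestronglyMeasurable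
    _ = _ := integral_prod _ (integrable_of_bdd (hF.comp h.measurable).aestronglyMeasurable (fun _ => hB _))

/-- integrate out a single label -/
theorem integral_update_lab (j : Stp V) {F : Lab V → ℝ} (hF : AEStronglyMeasurable F (PL V))
    {B : ℝ} (hB : ∀ τ, |F τ| ≤ B) :
    ∫ τ, F τ ∂(PL V) = ∫ τ, ∫ x, F (Function.update τ j x) ∂lam ∂(PL V) := by
  have h := mp_update (I := Stp V) j
  have hF' : AEStronglyMeasurable F ((PI (Stp V)).prod lam |>.map (fun p => Function.update p.1 j p.2)) := by
    rw [h.map_eq]; exact hF
  have e : ∫ τ, F τ ∂(PL V) = ∫ τ, F τ ∂(((PI (Stp V)).prod lam).map (fun p => Function.update p.1 j p.2)) := by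
    rw [h.map_eq]; rfl
  rw [e, integral_map h.measurable.aemeasurable hF']
  have hc : AEStronglyMeasurable (fun p : (Stp V → ℝ) × ℝ => F (Function.update p.1 j p.2))
      ((PI (Stp V)).prod lam) := hF'.comp_aemeasurable h.measurable.aemeasurable
  exact integral_prod _ (integrable_of_bdd hc (fun _ => hB _))

end Vale.Agent.Lib.P161.Crit
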