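import Vale.Agent.Lib.P161.Crit.Msg
import Vale.Agent.Lib.P161.Crit.Prod
import Vale.Agent.Lib.P161.Crit.CE

/-!
Measurability and boundedness of all the objects. Statements fixed; add lemmas freely.
A *label-measurable state* is a map `A : WW V → Set (Stp V)` with measurable membership.
-/

open MeasureTheory Filter Topology Finset

noncomputable section
namespace Vale.Agent.Lib.P161.Crit

open scoped Classical
open Vale.Agent.Lib.P161

variable {V : Type} (C : CT V)

lemma eps_pos (ℓ : ℤ) : 0 < eps ℓ := by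
  unfold eps
  have : 0 < min (1:ℝ) ((2 : ℝ) ^ ℓ) := lt_min one_pos (zpow_pos (by norm_num) _)
  linarith

lemma eps_le (ℓ : ℤ) : eps ℓ ≤ 1 / 2 := by
  unfold eps
  have : min (1:ℝ) ((2 : ℝ) ^ ℓ) ≤ 1 := min_le_left _ _
  linarith

/-! ### helpers -/

lemma measurable_tanh' : Measurable Real.tanh := by
  have : Real.tanh = fun x => Real.sinh x / Real.cosh x := by
    funext x; exact Real.tanh_eq_sinh_div_cosh x
  rw [this]
  exact Real.measurable_sinh.div Real.measurable_cosh

lemma continuous_psi' : Continuous (psi C.θ) := by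
  have h := fun a b => psi_lipschitz C.hθ0.le (th_lt_one C) a b
  have hL : LipschitzWith (Real.toNNReal C.θ) (psi C.θ) := by
    refine LipschitzWith.of_dist_le_mul fun a b => ?_
    rw [Real.dist_eq, Real.dist_eq, Real.coe_toNNReal _ C.hθ0.le]
    exact h a b
  exact hL.continuous

lemma measurable_psi' : Measurable (psi C.θ) := (continuous_psi' C).measurable

lemma measurable_dpsi' : Measurable (dpsi C) := by
  unfold dpsi
  have h := measurable_tanh'
  fun_prop

lemma measurable_Tc : Measurable fun p : ℝ × ℝ => Tc p.1 p.2 := by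
  unfold Tc
  fun_prop

lemma zeta_neg' (ε t : ℝ) : zeta ε (-t) = -zeta ε t := by
  unfold zeta
  have : (1 + ε * -t) / (1 - ε * -t) = ((1 + ε * t) / (1 - ε * t))⁻¹ := by
    rw [inv_div]; ring_nf
  rw [this, Real.log_inv]
  ring

lemma zeta_le_one' {ε t : ℝ} (h0 : 0 ≤ ε) (h1 : ε < 1) (ht : |t| ≤ 1) : zeta ε t ≤ zeta ε 1 := by
  unfold zeta
  have ht' := abs_le.1 ht
  have hεt : |ε * t| ≤ ε := by
    rw [abs_mul, abs_of_nonneg h0]
    nlinarith [abs_nonneg t]
  have h2 := abs_le.1 hεt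
  have hp1 : 0 < 1 - ε * t := by linarith
  have hp2 : 0 < 1 + ε * t := by linarith
  have hp3 : 0 < 1 - ε * 1 := by linarith
  refine mul_le_mul_of_nonneg_left ?_ (by norm_num)
  refine Real.log_le_log (div_pos hp2 hp1) ?_
  rw [div_le_div_iff₀ hp1 hp3]
  nlinarith

lemma zeta_one_nonneg {ε : ℝ} (h0 : 0 ≤ ε) (h1 : ε < 1) : 0 ≤ zeta ε 1 := by
  have h := zeta_le_one' h0 h1 (t := -1) (by simp)
  rw [zeta_neg'] at h
  linarith

lemma abs_zeta_le' {ε t : ℝ} (h0 : 0 ≤ ε) (h1 : ε < 1) (ht : |t| ≤ 1) :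
    |zeta ε t| ≤ zeta ε 1 := by
  rw [abs_le]
  constructor
  · have h := zeta_le_one' h0 h1 (t := -t) (by simpa using ht)
    rw [zeta_neg'] at h
    linarith
  · exact zeta_le_one' h0 h1 ht

lemma zeta_one_le_two_pow (ℓ : ℤ) : zeta (eps ℓ) 1 ≤ (2 : ℝ) ^ ℓ := by
  have h0 := eps_pos ℓ
  have h1 := eps_le ℓ
  have hl := zeta_lipschitz h0.le (by linarith : eps ℓ < 1) (s := 1) (t := 0) (by simp) (by simp)
  have hz : zeta (eps ℓ) 0 = 0 := by simp [zeta]
  rw [hz, sub_zero, sub_zero, abs_one, mul_one] at hl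
  have h2 : eps ℓ ≤ (1 / 2) * (2 : ℝ) ^ ℓ := by
    unfold eps
    have : min (1:ℝ) ((2 : ℝ) ^ ℓ) ≤ (2 : ℝ) ^ ℓ := min_le_right _ _
    linarith
  have h3 : eps ℓ / (1 - eps ℓ ^ 2) ≤ 2 * eps ℓ := by
    have h4 : 0 < 1 - eps ℓ ^ 2 := by nlinarith
    rw [div_le_iff₀ h4]
    nlinarith
  have h5 := abs_le.1 hl
  linarith [h5.2]

lemma abs_nz_le (ℓ : ℤ) (x : ℝ) : |nz ℓ x| ≤ 1 := by
  exact abs_Sf_le x (eps ℓ)

lemma measurable_nz (ℓ : ℤ) : Measurable (nz ℓ) := by
  unfold nz Sf
  have h := measurable_cl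
  fun_prop

lemma measurable_eS (e : Sym2 V) : Measurable (eS C e) := by
  unfold eS
  exact Measurable.ite (measurableSet_le (measurable_pi_apply _) measurable_const)
    measurable_const measurable_const

lemma eS_cases (e : Sym2 V) (w : WW V) : eS C e w = 1 ∨ eS C e w = -1 := by
  unfold eS
  split_ifs
  · exact Or.inl rfl
  · exact Or.inr rfl

lemma measurable_spin (v : V) : Measurable (fun ω : Om V => spin C ω v) := by
  unfold spin pS
  refine Measurable.mul ?_ ?_
  · exact (measurable_from_top (f := fun b : Bool => if b then (1:ℝ) else -1)).comp measurable_fst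
  · exact Finset.measurable_prod _ fun i _ => (measurable_eS C _).comp measurable_snd

lemma spin_cases (ω : Om V) (v : V) : spin C ω v = 1 ∨ spin C ω v = -1 := by
  have key : ∀ s : Finset ℕ, ∀ f : ℕ → Sym2 V, (∏ i ∈ s, eS C (f i) ω.2) = 1 ∨
      (∏ i ∈ s, eS C (f i) ω.2) = -1 := by
    intro s f
    induction s using Finset.induction_on with
    | empty => left; simp
    | insert a s ha ih =>
      rw [Finset.prod_insert ha]
      rcases eS_cases C (f a) ω.2 with h | h <;> rcases ih with h' | h' <;> rw [h, h'] <;> simp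
  unfold spin pS
  rcases key (range (C.G.dist v C.o)) (fun i => s(twI C C.o i v, twI C C.o (i + 1) v)) with h | h
  · by_cases hb : ω.1 = true
    · left; simp only [hb, if_true]; rw [h]; simp
    · right; simp only [hb, if_false]; rw [h]; simp
  · by_cases hb : ω.1 = true
    · right; simp only [hb, if_true]; rw [h]; simp
    · left; simp only [hb, if_false]; rw [h]; simp

lemma measurable_yy (j : Stp V) : Measurable (yy C j) := by
  unfold yy
  exact (measurable_spin C j.2).mul ((measurable_nz j.1).comp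
    ((measurable_pi_apply _).comp measurable_snd))

lemma abs_yy_le (j : Stp V) (ω : Om V) : |yy C j ω| ≤ 1 := by
  unfold yy
  rw [abs_mul]
  have h1 : |spin C ω j.2| = 1 := by
    rcases spin_cases C ω j.2 with h | h <;> rw [h] <;> simp
  rw [h1, one_mul]
  exact abs_nz_le _ _

/-- bound of the field up to stage `L` -/
def Bf (L : ℤ) : ℝ := ∑' ℓ : ℤ, if ℓ ≤ L then zeta (eps ℓ) 1 else 0

lemma summable_Bf (L : ℤ) : Summable fun ℓ : ℤ => if ℓ ≤ L then zeta (eps ℓ) 1 else 0 := by
  have hg : Summable fun ℓ : ℤ => if ℓ ≤ L then ((2 : ℝ) ^ ℓ) else 0 := by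
    refine Summable.of_nat_of_neg ?_ ?_
    · refine summable_of_ne_finset_zero (s := Finset.range (L.toNat + 1)) ?_
      intro n hn
      have hn' : L.toNat + 1 ≤ n := by simpa using hn
      have : ¬ ((n : ℤ) ≤ L) := by
        have := Int.self_le_toNat L
        omega
      simp [this]
    · refine Summable.of_nonneg_of_le (f := fun n : ℕ => ((1:ℝ)/2)^n) ?_ ?_ summable_geometric_two
      · intro n
        split_ifs
        · positivity
        · exact le_rfl
      · intro n
        split_ifs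
        · rw [zpow_neg, zpow_natCast, one_div, inv_pow]
        · positivity
  refine Summable.of_nonneg_of_le ?_ ?_ hg
  · intro ℓ
    split_ifs
    · exact zeta_one_nonneg (eps_pos ℓ).le (by linarith [eps_le ℓ])
    · exact le_rfl
  · intro ℓ
    split_ifs
    · exact zeta_one_le_two_pow ℓ
    · exact le_rfl

lemma term_abs_le {A : Set (Stp V)} {L : ℤ} (hA : ∀ j ∈ A, j.1 ≤ L) (ω : Om V) (v : V) (ℓ : ℤ) :
    ‖if (ℓ, v) ∈ A then zeta (eps ℓ) (yy C (ℓ, v) ω) else 0‖ ≤
      if ℓ ≤ L then zeta (eps ℓ) 1 else 0 := by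
  by_cases h : (ℓ, v) ∈ A
  · have hL : ℓ ≤ L := hA _ h
    simp only [h, if_true, hL]
    rw [Real.norm_eq_abs]
    exact abs_zeta_le' (eps_pos ℓ).le (by linarith [eps_le ℓ]) (abs_yy_le C _ ω)
  · simp only [h, if_false, norm_zero]
    split_ifs
    · exact zeta_one_nonneg (eps_pos ℓ).le (by linarith [eps_le ℓ])
    · exact le_rfl

lemma abs_fld_le {A : Set (Stp V)} {L : ℤ} (hA : ∀ j ∈ A, j.1 ≤ L) (ω : Om V) (v : V) :
    |fld C A ω v| ≤ Bf L := by
  have hb := term_abs_le C hA ω v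
  have hs := summable_Bf L
  have hab : Summable fun ℓ : ℤ => |if (ℓ, v) ∈ A then zeta (eps ℓ) (yy C (ℓ, v) ω) else 0| :=
    Summable.of_nonneg_of_le (fun _ => abs_nonneg _) hb hs
  unfold fld Bf
  calc |∑' ℓ : ℤ, if (ℓ, v) ∈ A then zeta (eps ℓ) (yy C (ℓ, v) ω) else 0|
      = ‖∑' ℓ : ℤ, if (ℓ, v) ∈ A then zeta (eps ℓ) (yy C (ℓ, v) ω) else 0‖ := rfl
    _ ≤ ∑' ℓ : ℤ, ‖if (ℓ, v) ∈ A then zeta (eps ℓ) (yy C (ℓ, v) ω) else 0‖ :=
        norm_tsum_le_tsum_norm hab
    _ = ∑' ℓ : ℤ, |if (ℓ, v) ∈ A then zeta (eps ℓ) (yy C (ℓ, v) ω) else 0| := rfl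
    _ ≤ _ := hab.tsum_le_tsum hb hs

lemma summable_fld {A : Set (Stp V)} {L : ℤ} (hA : ∀ j ∈ A, j.1 ≤ L) (ω : Om V) (v : V) :
    Summable fun ℓ : ℤ => if (ℓ, v) ∈ A then zeta (eps ℓ) (yy C (ℓ, v) ω) else 0 := by
  have hb := term_abs_le C hA ω v
  have hs := summable_Bf L
  have hab : Summable fun ℓ : ℤ => ‖if (ℓ, v) ∈ A then zeta (eps ℓ) (yy C (ℓ, v) ω) else 0‖ :=
    Summable.of_nonneg_of_le (fun _ => norm_nonneg _) hb hs
  exact hab.of_norm

/-- label-measurable state -/
def LS (A : WW V → Set (Stp V)) : Prop := ∀ j, MeasurableSet {w | j ∈ A w}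

variable {C}

lemma measurable_fld {A : WW V → Set (Stp V)} (hA : LS A) {L : ℤ} (hL : ∀ w, ∀ j ∈ A w, j.1 ≤ L)
    (v : V) : Measurable fun ω : Om V => fld C (A ω.2) ω v := by
  have hterm : ∀ ℓ : ℤ, Measurable fun ω : Om V =>
      if (ℓ, v) ∈ A ω.2 then zeta (eps ℓ) (yy C (ℓ, v) ω) else 0 := by
    intro ℓ
    refine Measurable.ite ?_ ((measurable_zeta _).comp (measurable_yy C _)) measurable_const
    exact measurable_snd (hA (ℓ, v))
  unfold fld
  refine measurable_of_tendsto_metrizable' (u := (atTop : Filter (Finset ℤ)))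
    (f := fun (s : Finset ℤ) (ω : Om V) =>
      ∑ ℓ ∈ s, if (ℓ, v) ∈ A ω.2 then zeta (eps ℓ) (yy C (ℓ, v) ω) else 0) ?_ ?_
  · intro s
    exact Finset.measurable_sum _ fun ℓ _ => hterm ℓ
  · rw [tendsto_pi_nhds]
    intro ω
    exact (summable_fld C (hL ω.2) ω v).hasSum

lemma measurable_msg {A : WW V → Set (Stp V)} (hA : LS A) {L : ℤ} (hL : ∀ w, ∀ j ∈ A w, j.1 ≤ L)
    (n : ℕ) (a b : V) : Measurable fun ω : Om V => msg C (fld C (A ω.2) ω) n a b := by
  induction n generalizing a b with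
  | zero =>
    simp only [msg]
    exact measurable_fld hA hL a
  | succ n ih =>
    simp only [msg]
    refine (measurable_fld hA hL a).add (Finset.measurable_sum _ fun c _ => ?_)
    exact (measurable_psi' C).comp (ih c a)

lemma measurable_zl {A : WW V → Set (Stp V)} (hA : LS A) {L : ℤ} (hL : ∀ w, ∀ j ∈ A w, j.1 ≤ L)
    (a b : V) : Measurable fun ω : Om V => zl C (fld C (A ω.2) ω) a b := by
  unfold zl
  exact ((Measurable.limsup fun n => measurable_msg hA hL n a b).add
    (Measurable.liminf fun n => measurable_msg hA hL n a b)).div_const 2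

lemma measurable_MA {A : WW V → Set (Stp V)} (hA : LS A) {L : ℤ} (hL : ∀ w, ∀ j ∈ A w, j.1 ≤ L)
    (x : V) : Measurable fun ω : Om V => MA C (A ω.2) x ω := by
  unfold MA mag
  refine measurable_tanh'.comp ((measurable_fld hA hL x).add (Finset.measurable_sum _ fun c _ => ?_))
  exact (measurable_psi' C).comp (measurable_zl hA hL c x)

lemma measurable_CA {A : WW V → Set (Stp V)} (hA : LS A) {L : ℤ} (hL : ∀ w, ∀ j ∈ A w, j.1 ≤ L)
    (x u : V) : Measurable fun ω : Om V => CA C (A ω.2) x u ω := by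
  unfold CA cov
  refine Measurable.mul ?_ ?_
  · have := measurable_MA (C := C) hA hL x
    exact measurable_const.sub (this.pow_const 2)
  · refine Finset.measurable_prod _ fun i _ => ?_
    exact (measurable_dpsi' C).comp (measurable_zl hA hL _ _)

variable (C)

lemma abs_CA_le (A : Set (Stp V)) (x u : V) (ω : Om V) : |CA C A x u ω| ≤ 1 := by
  unfold CA
  rw [abs_of_nonneg (cov_nonneg C _ x u)]
  exact cov_le_one C _ x u

lemma abs_MA_le {A : Set (Stp V)} {L : ℤ} (hA : ∀ j ∈ A, j.1 ≤ L) (x : V) (ω : Om V) :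
    |MA C A x ω| ≤ Real.tanh (Bf L + C.d * pM C + C.d * pM C) := by
  exact abs_mag_le C (fun v => abs_fld_le C hA ω v) x

/-- the bound of the message fields at times at most `T` -/
def LT (T : ℝ) : ℤ := ⌈T⌉

lemma Sp_le {τ : Lab V} {p : V → ℝ} {T : ℝ} (hp : ∀ v, p v ≤ T) : ∀ j ∈ Sp τ p, j.1 ≤ LT T := by
  intro j hj
  have h1 : (j.1 : ℝ) < T := by
    have h2 := hj.2
    have h3 := hp j.2
    have h4 : (j.1 : ℝ) ≤ tm τ j := by
      unfold tm
      have := (cl_mem (τ j)).1
      linarith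
    linarith
  have h2 : T ≤ ((LT T : ℤ) : ℝ) := Int.le_ceil T
  have h3 : (j.1 : ℝ) < ((LT T : ℤ) : ℝ) := lt_of_lt_of_le h1 h2
  exact (Int.cast_lt.1 h3).le

lemma Sq_le (τ : Lab V) (T : ℝ) : ∀ j ∈ Sq τ T, j.1 ≤ LT T :=
  Sp_le (fun _ => le_rfl)

/-- the state with measurable site times is label-measurable -/
lemma LS_Sp {p : WW V → V → ℝ} (hp : ∀ v, Measurable fun w => p w v) :
    LS fun w => Sp (lab w) (p w) := by
  intro j
  have hlab : Measurable fun w : WW V => lab w j := measurable_pi_apply (Ix.la j)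
  have htm : Measurable fun w : WW V => tm (lab w) j := by
    unfold tm
    exact measurable_const.add ((measurable_cl.comp hlab).add_const 1 |>.div_const 2)
  have : {w : WW V | j ∈ Sp (lab w) (p w)} = {w | lab w j < 0} ∩ {w | tm (lab w) j < p w j.2} := rfl
  rw [this]
  exact (measurableSet_lt hlab measurable_const).inter (measurableSet_lt htm (hp j.2))

lemma LS_Sq (T : ℝ) : LS fun w : WW V => Sq (lab w) T :=
  LS_Sp (fun _ => measurable_const)

lemma LS_pre (j : Stp V) : LS fun w : WW V => Sq (lab w) (tm (lab w) j) := by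
  refine LS_Sp fun _ => ?_
  have hlab : Measurable fun w : WW V => lab w j := measurable_pi_apply (Ix.la j)
  unfold tm
  exact measurable_const.add ((measurable_cl.comp hlab).add_const 1 |>.div_const 2)

variable {C}

lemma measurable_Ms (T : ℝ) (x : V) : Measurable (Ms C T x) :=
  measurable_MA (LS_Sq T) (fun w => Sq_le (lab w) T) x

lemma measurable_Cs (T : ℝ) (x u : V) : Measurable (Cs C T x u) :=
  measurable_CA (LS_Sq T) (fun w => Sq_le (lab w) T) x u

lemma measurable_Zs (T : ℝ) (a b : V) : Measurable (Zs C T a b) :=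
  measurable_zl (LS_Sq T) (fun w => Sq_le (lab w) T) a b

variable (C)

lemma measurable_Rf (τ : Lab V) (j : Stp V) : Measurable (Rf C τ j) := by
  unfold Rf
  have hc : Measurable fun ω : Om V => MA C (Sq τ (tm τ j)) j.2 ω :=
    measurable_MA (A := fun _ => Sq τ (tm τ j)) (fun i => MeasurableSet.const _)
      (fun _ => Sq_le τ _) j.2
  exact measurable_Tc.comp ((hc.const_mul _).prodMk (measurable_yy C j))

lemma measurable_Rw (j : Stp V) : Measurable (Rw C j) := by
  unfold Rw
  refine Measurable.ite ?_ ?_ measurable_const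
  · have hlab : Measurable fun w : WW V => lab w j := measurable_pi_apply (Ix.la j)
    exact measurable_snd (measurableSet_lt hlab measurable_const)
  · unfold Rf
    have hc : Measurable fun ω : Om V => MA C (Sq (lab ω.2) (tm (lab ω.2) j)) j.2 ω :=
      measurable_MA (LS_pre j) (L := LT ((j.1 : ℝ) + 1))
        (fun w => Sp_le (T := (j.1 : ℝ) + 1) fun _ => by
          unfold tm
          have := (cl_mem (lab w j)).2
          linarith) j.2
    exact measurable_Tc.comp ((hc.const_mul _).prodMk (measurable_yy C j))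

lemma abs_Rf_le (τ : Lab V) (j : Stp V) (ω : Om V) : |Rf C τ j ω| ≤ 1 := by
  unfold Rf
  refine abs_Tc_le ?_ (abs_yy_le C j ω)
  rw [abs_mul, abs_of_pos (eps_pos _)]
  have h1 : |MA C (Sq τ (tm τ j)) j.2 ω| < 1 := abs_mag_lt C _ _
  have h2 := eps_le j.1
  have h3 := eps_pos j.1
  nlinarith [abs_nonneg (MA C (Sq τ (tm τ j)) j.2 ω)]

lemma measurable_kap : Measurable (kap C) := by
  unfold kap
  exact (measurable_lab.comp measurable_snd).prodMk (measurable_pi_lambda _ fun j => measurable_Rw C j)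

lemma GG_le : GG C ≤ (inferInstance : MeasurableSpace (Om V)) :=
  (measurable_kap C).comap_le

lemma abs_Ms_le (T : ℝ) (x : V) (ω : Om V) : |Ms C T x ω| ≤ 1 := by
  exact (abs_mag_lt C _ x).le

lemma abs_Cs_le (T : ℝ) (x u : V) (ω : Om V) : |Cs C T x u ω| ≤ 1 :=
  abs_CA_le C _ x u ω

lemma Dd_nonneg (T : ℝ) (x : V) : 0 ≤ Dd C T x :=
  integral_nonneg fun _ => sq_nonneg _

/-- `Dd` is at most the second moment, in particular at most `1` -/
lemma Dd_le_sq (T : ℝ) (x : V) : Dd C T x ≤ ∫ ω, Ms C T x ω ^ 2 ∂(PP V) := by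
  have h := ce_min (μ := PP V) (GG_le C) (Z := Ms C T x) (c := fun _ => (0:ℝ)) (B := 1)
    (measurable_Ms T x) (abs_Ms_le C T x) measurable_const (fun _ => by simp)
  simpa [Dd] using h

lemma Dd_le_one (T : ℝ) (x : V) : Dd C T x ≤ 1 := by
  refine (Dd_le_sq C T x).trans ?_
  have hm : Measurable fun ω => Ms C T x ω ^ 2 := (measurable_Ms T x).pow_const 2
  have hint : Integrable (fun ω => Ms C T x ω ^ 2) (PP V) := by
    refine Integrable.of_bound hm.aestronglyMeasurable 1 (ae_of_all _ fun ω => ?_)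
    have h := abs_Ms_le C T x ω
    rw [Real.norm_eq_abs, abs_of_nonneg (sq_nonneg _)]
    exact (sq_le_one_iff_abs_le_one _).2 h
  calc ∫ ω, Ms C T x ω ^ 2 ∂(PP V) ≤ ∫ _, (1:ℝ) ∂(PP V) := by
        refine integral_mono hint (integrable_const _) fun ω => ?_
        exact (sq_le_one_iff_abs_le_one _).2 (abs_Ms_le C T x ω)
    _ = 1 := by simp

end Vale.Agent.Lib.P161.Crit
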