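import Vale.Agent.Lib.P161.Crit.Tree2

/-!
Deterministic message calculus: belief propagation fixed points, covariance path formula, update
formula, the bi-Lipschitz edge map. Statements fixed; add lemmas freely.
-/

open MeasureTheory Filter Topology Finset

noncomputable section
namespace Vale.Agent.Lib.P161.Crit

open scoped Classical
open Vale.Agent.Lib.P161

variable {V : Type} (C : CT V)

lemma th_pos : 0 < C.θ := C.hθ0
lemma d_sub_one_ge : (2 : ℝ) ≤ (C.d : ℝ) - 1 := by
  have : (3 : ℝ) ≤ C.d := by exact_mod_cast C.hd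
  linarith
lemma th_sq_le : C.θ ^ 2 ≤ 1 / 2 := by
  have h := C.hκ
  have h2 := d_sub_one_ge C
  nlinarith [sq_nonneg C.θ]
lemma th_lt_one : C.θ < 1 := by
  have h := th_sq_le C
  nlinarith [C.hθ0]

/-- all messages converge -/
def MC (X : V → ℝ) : Prop :=
  ∀ a b, C.G.Adj a b → ∃ z, Tendsto (fun n => msg C X n a b) atTop (𝓝 z)

/-- bound of `|psi|` -/
def pM : ℝ := (1 / 2) * Real.log ((1 + C.θ) / (1 - C.θ))

/-! ### hyperbolic tangent -/

lemma m_tanh_add (a b : ℝ) :
    Real.tanh (a + b) = (Real.tanh a + Real.tanh b) / (1 + Real.tanh a * Real.tanh b) := by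
  have ca := (Real.cosh_pos a).ne'
  have cb := (Real.cosh_pos b).ne'
  have hd : 0 < 1 + Real.tanh a * Real.tanh b := by
    have h1 := Real.abs_tanh_lt_one a
    have h2 := Real.abs_tanh_lt_one b
    have : |Real.tanh a * Real.tanh b| < 1 := by
      rw [abs_mul]
      nlinarith [abs_nonneg (Real.tanh a), abs_nonneg (Real.tanh b)]
    linarith [(abs_lt.1 this).1]
  have hc : 0 < Real.cosh (a + b) := Real.cosh_pos _
  rw [Real.tanh_eq_sinh_div_cosh, Real.tanh_eq_sinh_div_cosh, Real.tanh_eq_sinh_div_cosh,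
    Real.sinh_add, Real.cosh_add] at *
  have hpos : Real.cosh a * Real.cosh b + Real.sinh a * Real.sinh b ≠ 0 := hc.ne'
  field_simp
  
lemma m_tanh_mono {a b : ℝ} (h : a ≤ b) : Real.tanh a ≤ Real.tanh b := by
  by_contra hlt
  have hlt := not_le.1 hlt
  have := Real.artanh_lt_artanh (Real.neg_one_lt_tanh b) (Real.tanh_lt_one a) hlt
  rw [Real.artanh_tanh, Real.artanh_tanh] at this
  linarith

lemma m_tanh_nonneg {a : ℝ} (h : 0 ≤ a) : 0 ≤ Real.tanh a := by
  have := m_tanh_mono h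
  rwa [Real.tanh_zero] at this

lemma m_abs_tanh (a : ℝ) : |Real.tanh a| = Real.tanh |a| := by
  rcases le_total 0 a with h | h
  · rw [abs_of_nonneg h, abs_of_nonneg (m_tanh_nonneg h)]
  · rw [abs_of_nonpos h, Real.tanh_neg, abs_of_nonpos]
    have := m_tanh_mono h
    rwa [Real.tanh_zero] at this

lemma m_abs_tanh_mono {a b : ℝ} (h : |a| ≤ |b|) : |Real.tanh a| ≤ |Real.tanh b| := by
  rw [m_abs_tanh, m_abs_tanh]; exact m_tanh_mono h

lemma m_sq_lt (z : ℝ) : Real.tanh z ^ 2 < 1 := Real.tanh_sq_lt_one z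

/-- in the open range of `θ` -/
lemma m_th0 : 0 ≤ C.θ := C.hθ0.le
lemma m_th1 : C.θ < 1 := th_lt_one C

lemma m_den_pos (z : ℝ) : 0 < 1 - C.θ ^ 2 * Real.tanh z ^ 2 := by
  have h1 := th_sq_le C
  have h2 := m_sq_lt z
  nlinarith [sq_nonneg C.θ, sq_nonneg (Real.tanh z)]

lemma m_num_pos (z : ℝ) : 0 < 1 - Real.tanh z ^ 2 := by
  have h2 := m_sq_lt z; linarith

lemma m_th_sq_le_one : C.θ ^ 2 ≤ 1 := by
  have := th_sq_le C; linarith

lemma tanh_psi (z : ℝ) : Real.tanh (psi C.θ z) = C.θ * Real.tanh z := by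
  have h0 := m_th0 C
  have h1 := m_th1 C
  have hc := Cpsi_pos h0 h1 z
  have e1 := Cpsi_exp_pos h0 h1 z
  have e2 := Cpsi_exp_neg h0 h1 z
  rw [Real.tanh_eq, Real.tanh_eq]
  have hs : Real.exp (psi C.θ z) + Real.exp (-psi C.θ z) ≠ 0 := by positivity
  have hz : Real.exp z + Real.exp (-z) ≠ 0 := by positivity
  have hm : Cpsi C.θ z ≠ 0 := hc.ne'
  have h3 : Real.exp (psi C.θ z) = Bp C.θ z / Cpsi C.θ z := by
    rw [← e1]; field_simp
  have h4 : Real.exp (-psi C.θ z) = Bm C.θ z / Cpsi C.θ z := by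
    rw [← e2]; field_simp
  have hb : Bp C.θ z + Bm C.θ z = Real.exp z + Real.exp (-z) := by unfold Bp Bm; ring
  have hb' : Bp C.θ z - Bm C.θ z = C.θ * (Real.exp z - Real.exp (-z)) := by unfold Bp Bm; ring
  rw [h3, h4]
  rw [show Bp C.θ z / Cpsi C.θ z - Bm C.θ z / Cpsi C.θ z = (Bp C.θ z - Bm C.θ z) / Cpsi C.θ z by
    ring, show Bp C.θ z / Cpsi C.θ z + Bm C.θ z / Cpsi C.θ z = (Bp C.θ z + Bm C.θ z) / Cpsi C.θ z by
    ring, hb, hb']
  field_simp

lemma psi_neg (z : ℝ) : psi C.θ (-z) = -psi C.θ z := by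
  have h0 := m_th0 C
  have h1 := m_th1 C
  have hp := Bp_pos h0 h1 z
  have hm := Bm_pos h0 h1 z
  have e1 : Bp C.θ (-z) = Bm C.θ z := by unfold Bp Bm; simp only [neg_neg]; ring
  have e2 : Bm C.θ (-z) = Bp C.θ z := by unfold Bp Bm; simp only [neg_neg]; ring
  unfold psi
  rw [e1, e2, Real.log_div hm.ne' hp.ne', Real.log_div hp.ne' hm.ne']
  ring

lemma psi_zero : psi C.θ 0 = 0 := by
  unfold psi Bp Bm
  simp only [neg_zero, Real.exp_zero, mul_one]
  have : (1 + C.θ) / 2 + (1 - C.θ) / 2 = 1 := by ring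
  have h2 : (1 - C.θ) / 2 + (1 + C.θ) / 2 = 1 := by ring
  rw [this, h2]; simp

lemma pM_nonneg : 0 ≤ pM C := by
  have h0 := m_th0 C
  have h1 := m_th1 C
  unfold pM
  have : 1 ≤ (1 + C.θ) / (1 - C.θ) := by
    rw [le_div_iff₀ (by linarith)]; linarith
  have := Real.log_nonneg this
  positivity

lemma psi_le_pM (z : ℝ) : psi C.θ z ≤ pM C := by
  have h0 := m_th0 C
  have h1 := m_th1 C
  have hp := Bp_pos h0 h1 z
  have hm := Bm_pos h0 h1 z
  unfold psi pM
  have hr : Bp C.θ z / Bm C.θ z ≤ (1 + C.θ) / (1 - C.θ) := by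
    rw [div_le_div_iff₀ hm (by linarith)]
    unfold Bp Bm
    have he := Real.exp_pos (-z)
    nlinarith [mul_nonneg h0 he.le]
  have := Real.log_le_log (div_pos hp hm) hr
  linarith

lemma abs_psi_le (z : ℝ) : |psi C.θ z| ≤ pM C := by
  rw [abs_le]
  constructor
  · have := psi_le_pM C (-z)
    rw [psi_neg] at this
    linarith
  · exact psi_le_pM C z

lemma abs_psi_le_abs (z : ℝ) : |psi C.θ z| ≤ C.θ * |z| := by
  have := psi_lipschitz (m_th0 C) (m_th1 C) z 0
  rwa [psi_zero, sub_zero, sub_zero] at this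

lemma m_psi_cont : Continuous (psi C.θ) := by
  have : LipschitzWith (Real.toNNReal C.θ) (psi C.θ) := by
    apply LipschitzWith.of_dist_le_mul
    intro a b
    rw [Real.dist_eq, Real.dist_eq, Real.coe_toNNReal _ (m_th0 C)]
    exact psi_lipschitz (m_th0 C) (m_th1 C) a b
  exact this.continuous

lemma msg_neg (X : V → ℝ) (n : ℕ) (a b : V) :
    msg C (fun v => -X v) n a b = -msg C X n a b := by
  induction n generalizing a b with
  | zero => rfl
  | succ n ih =>
    simp only [msg]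
    rw [neg_add, ← Finset.sum_neg_distrib]
    congr 1
    apply Finset.sum_congr rfl
    intro c _
    rw [ih, psi_neg]

lemma m_limsup_neg (u : ℕ → ℝ) :
    limsup (fun n => -u n) atTop = -liminf u atTop := by
  unfold limsup liminf limsSup limsInf
  rw [Real.sInf_def]
  congr 2
  ext a
  simp only [Set.mem_neg, Set.mem_ofPred_eq, Filter.eventually_map, neg_le_neg_iff]

lemma m_liminf_neg (u : ℕ → ℝ) :
    liminf (fun n => -u n) atTop = -limsup u atTop := by
  have := m_limsup_neg (fun n => -u n)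
  simp only [neg_neg] at this
  linarith

lemma zl_neg (X : V → ℝ) (a b : V) : zl C (fun v => -X v) a b = -zl C X a b := by
  unfold zl
  simp_rw [msg_neg]
  rw [m_limsup_neg, m_liminf_neg]
  ring

lemma mag_neg (X : V → ℝ) (x : V) : mag C (fun v => -X v) x = -mag C X x := by
  unfold mag
  rw [← Real.tanh_neg]
  congr 1
  rw [neg_add, ← Finset.sum_neg_distrib]
  congr 1
  apply Finset.sum_congr rfl
  intro c _
  rw [zl_neg, psi_neg]

lemma dpsi_neg (z : ℝ) : dpsi C (-z) = dpsi C z := by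
  unfold dpsi
  rw [Real.tanh_neg, neg_sq]

lemma cov_neg (X : V → ℝ) (x u : V) : cov C (fun v => -X v) x u = cov C X x u := by
  unfold cov
  rw [mag_neg, neg_sq]
  congr 1
  apply Finset.prod_congr rfl
  intro i _
  rw [zl_neg, dpsi_neg]

lemma m_card_erase_le (a b : V) : (((C.nb a).erase b).card : ℝ) ≤ C.d := by
  have := Finset.card_erase_le (s := C.nb a) (a := b)
  rw [C.hcard] at this
  exact_mod_cast this

lemma m_sum_psi_le (s : Finset V) (hs : (s.card : ℝ) ≤ C.d) (f : V → ℝ) :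
    |∑ c ∈ s, psi C.θ (f c)| ≤ C.d * pM C := by
  calc |∑ c ∈ s, psi C.θ (f c)| ≤ ∑ c ∈ s, |psi C.θ (f c)| := Finset.abs_sum_le_sum_abs _ _
    _ ≤ ∑ _c ∈ s, pM C := Finset.sum_le_sum fun c _ => abs_psi_le C _
    _ = s.card * pM C := by rw [Finset.sum_const, nsmul_eq_mul]
    _ ≤ C.d * pM C := mul_le_mul_of_nonneg_right hs (pM_nonneg C)

lemma abs_msg_le {X : V → ℝ} {B : ℝ} (hB : ∀ v, |X v| ≤ B) (n : ℕ) (a b : V) :
    |msg C X n a b| ≤ B + C.d * pM C := by
  have hp : 0 ≤ (C.d : ℝ) * pM C := mul_nonneg (Nat.cast_nonneg _) (pM_nonneg C)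
  cases n with
  | zero => 
    have := hB a
    simp only [msg]
    linarith
  | succ n =>
    simp only [msg]
    calc _ ≤ |X a| + |∑ c ∈ (C.nb a).erase b, psi C.θ (msg C X n c a)| := abs_add_le _ _
      _ ≤ _ := add_le_add (hB a) (m_sum_psi_le C _ (m_card_erase_le C a b) _)

lemma m_abs_lim {u : ℕ → ℝ} {M : ℝ} (h : ∀ n, |u n| ≤ M) :
    |limsup u atTop| ≤ M ∧ |liminf u atTop| ≤ M := by
  have h1 : ∀ n, u n ≤ M := fun n => (abs_le.1 (h n)).2
  have h2 : ∀ n, -M ≤ u n := fun n => (abs_le.1 (h n)).1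
  have hbu : IsBoundedUnder (· ≤ ·) atTop u := isBoundedUnder_of ⟨M, h1⟩
  have hbl : IsBoundedUnder (· ≥ ·) atTop u := isBoundedUnder_of ⟨-M, h2⟩
  have hcu : IsCoboundedUnder (· ≤ ·) atTop u := hbl.isCoboundedUnder_flip
  have hcl : IsCoboundedUnder (· ≥ ·) atTop u := hbu.isCoboundedUnder_flip
  have a1 : limsup u atTop ≤ M := limsup_le_of_le hcu (Eventually.of_forall h1)
  have a2 : -M ≤ limsup u atTop := le_limsup_of_frequently_le
    (Eventually.of_forall h2).frequently hbu
  have a3 : liminf u atTop ≤ M := liminf_le_of_frequently_le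
    (Eventually.of_forall h1).frequently hbl
  have a4 : -M ≤ liminf u atTop := le_liminf_of_le hcl (Eventually.of_forall h2)
  exact ⟨abs_le.2 ⟨a2, a1⟩, abs_le.2 ⟨a4, a3⟩⟩

lemma abs_zl_le {X : V → ℝ} {B : ℝ} (hB : ∀ v, |X v| ≤ B) (a b : V) :
    |zl C X a b| ≤ B + C.d * pM C := by
  obtain ⟨h1, h2⟩ := m_abs_lim (fun n => abs_msg_le C hB n a b)
  unfold zl
  rw [abs_le] at *
  constructor <;> linarith [h1.1, h1.2, h2.1, h2.2]

lemma zl_of_tendsto {X : V → ℝ} {a b : V} {z : ℝ}
    (h : Tendsto (fun n => msg C X n a b) atTop (𝓝 z)) : zl C X a b = z := by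
  unfold zl
  rw [h.limsup_eq, h.liminf_eq]
  ring

lemma msg_tendsto {X : V → ℝ} (h : MC C X) {a b : V} (hab : C.G.Adj a b) :
    Tendsto (fun n => msg C X n a b) atTop (𝓝 (zl C X a b)) := by
  obtain ⟨z, hz⟩ := h a b hab
  rw [zl_of_tendsto C hz]
  exact hz

lemma m_adj_of_mem {a c : V} (hc : c ∈ C.nb a) : C.G.Adj a c := (C.hnb a c).1 hc

/-- belief propagation at the limit -/
lemma zl_bp {X : V → ℝ} (h : MC C X) {a b : V} (hab : C.G.Adj a b) :
    zl C X a b = X a + ∑ c ∈ (C.nb a).erase b, psi C.θ (zl C X c a) := by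
  have h1 := msg_tendsto C h hab
  have h2 := (tendsto_add_atTop_iff_nat 1).2 h1
  have h3 : Tendsto (fun n => msg C X (n + 1) a b) atTop
      (𝓝 (X a + ∑ c ∈ (C.nb a).erase b, psi C.θ (zl C X c a))) := by
    simp only [msg]
    apply Tendsto.const_add
    apply tendsto_finsetSum
    intro c hc
    have hac := m_adj_of_mem C (Finset.mem_of_mem_erase hc)
    exact (m_psi_cont C).continuousAt.tendsto.comp (msg_tendsto C h hac.symm)
  exact tendsto_nhds_unique h2 h3

lemma m_sum_nb (f : V → ℝ) {a b : V} (hab : C.G.Adj a b) :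
    ∑ c ∈ C.nb a, f c = f b + ∑ c ∈ (C.nb a).erase b, f c := by
  rw [Finset.add_sum_erase _ _ ((C.hnb a b).2 hab)]

lemma mag_edge {X : V → ℝ} (h : MC C X) {a b : V} (hab : C.G.Adj a b) :
    mag C X a = Real.tanh (zl C X a b + psi C.θ (zl C X b a)) := by
  unfold mag
  rw [m_sum_nb C _ hab, zl_bp C h hab]
  congr 1
  ring

lemma abs_mag_lt (X : V → ℝ) (x : V) : |mag C X x| < 1 := Real.abs_tanh_lt_one _

lemma m_mag_sq_lt (X : V → ℝ) (x : V) : mag C X x ^ 2 < 1 := Real.tanh_sq_lt_one _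

lemma abs_mag_le {X : V → ℝ} {B : ℝ} (hB : ∀ v, |X v| ≤ B) (x : V) :
    |mag C X x| ≤ Real.tanh (B + C.d * pM C + C.d * pM C) := by
  unfold mag
  have hp : 0 ≤ (C.d : ℝ) * pM C := mul_nonneg (Nat.cast_nonneg _) (pM_nonneg C)
  have hB0 : 0 ≤ B := (abs_nonneg _).trans (hB x)
  have h1 : |X x + ∑ c ∈ C.nb x, psi C.θ (zl C X c x)| ≤ B + C.d * pM C + C.d * pM C := by
    calc _ ≤ |X x| + |∑ c ∈ C.nb x, psi C.θ (zl C X c x)| := abs_add_le _ _
      _ ≤ B + C.d * pM C := add_le_add (hB x) (m_sum_psi_le C _ (by rw [C.hcard]) _)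
      _ ≤ _ := by linarith
  rw [m_abs_tanh]
  exact m_tanh_mono h1

/-! ### detailed balance, covariance -/

lemma m_tanh_add_psi (a b : ℝ) :
    Real.tanh (a + psi C.θ b) =
      (Real.tanh a + C.θ * Real.tanh b) / (1 + C.θ * Real.tanh a * Real.tanh b) := by
  rw [m_tanh_add, tanh_psi]
  congr 1
  ring

lemma m_den_edge (a b : ℝ) : 0 < 1 + C.θ * Real.tanh a * Real.tanh b := by
  have h1 := Real.abs_tanh_lt_one a
  have h2 := Real.abs_tanh_lt_one b
  have h3 := m_th1 C
  have h0 := C.hθ0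
  have : |C.θ * Real.tanh a * Real.tanh b| < 1 := by
    rw [abs_mul, abs_mul, abs_of_pos h0]
    have : |Real.tanh a| * |Real.tanh b| < 1 := by
      nlinarith [abs_nonneg (Real.tanh a), abs_nonneg (Real.tanh b)]
    nlinarith [abs_nonneg (Real.tanh a), abs_nonneg (Real.tanh b),
      mul_nonneg (abs_nonneg (Real.tanh a)) (abs_nonneg (Real.tanh b))]
  linarith [(abs_lt.1 this).1]

/-- the product formula behind detailed balance -/
lemma m_one_sub_sq_mul_dpsi (a b : ℝ) :
    (1 - Real.tanh (a + psi C.θ b) ^ 2) * dpsi C b =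
      C.θ * (1 - Real.tanh a ^ 2) * (1 - Real.tanh b ^ 2) /
        (1 + C.θ * Real.tanh a * Real.tanh b) ^ 2 := by
  rw [m_tanh_add_psi]
  unfold dpsi
  have h1 := (m_den_edge C a b).ne'
  have h2 := (m_den_pos C b).ne'
  have hX := div_mul_cancel₀ (Real.tanh a + C.θ * Real.tanh b) h1
  have hY := div_mul_cancel₀ (C.θ * (1 - Real.tanh b ^ 2)) h2
  rw [eq_div_iff (pow_ne_zero 2 h1)]
  generalize (Real.tanh a + C.θ * Real.tanh b) / (1 + C.θ * Real.tanh a * Real.tanh b) = X at *
  generalize C.θ * (1 - Real.tanh b ^ 2) / (1 - C.θ ^ 2 * Real.tanh b ^ 2) = Y at *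
  linear_combination (-Y * (X * (1 + C.θ * Real.tanh a * Real.tanh b) + (Real.tanh a + C.θ * Real.tanh b))) * hX + (1 - Real.tanh a ^ 2) * hY

/-- detailed balance -/
lemma detailed_balance {X : V → ℝ} (h : MC C X) {a b : V} (hab : C.G.Adj a b) :
    (1 - mag C X a ^ 2) * dpsi C (zl C X b a) = (1 - mag C X b ^ 2) * dpsi C (zl C X a b) := by
  rw [mag_edge C h hab, mag_edge C h hab.symm, m_one_sub_sq_mul_dpsi, m_one_sub_sq_mul_dpsi]
  have : C.θ * Real.tanh (zl C X a b) * Real.tanh (zl C X b a) =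
      C.θ * Real.tanh (zl C X b a) * Real.tanh (zl C X a b) := by ring
  rw [this]
  ring

lemma cov_self (X : V → ℝ) (x : V) : cov C X x x = 1 - mag C X x ^ 2 := by
  unfold cov
  simp

lemma m_dist_le_of_twI (x u : V) (k : ℕ) (hk : k ≤ C.G.dist u x) : C.G.dist u (twI C x k u) ≤ k := by
  induction k with
  | zero => simp [twI]
  | succ k ih =>
    have hk' : k < C.G.dist u x := hk
    have hadj := twI_adj C x u hk'
    have h1 := ih hk'.le
    have h2 := C.hT.connected.dist_triangle (u := u) (v := twI C x k u) (w := twI C x (k + 1) u)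
    have h3 : C.G.dist (twI C x k u) (twI C x (k + 1) u) = 1 := SimpleGraph.dist_eq_one_iff_adj.2 hadj
    omega

lemma m_dist_twI (x u : V) {k : ℕ} (hk : k ≤ C.G.dist u x) : C.G.dist (twI C x k u) u = k := by
  have h1 := m_dist_le_of_twI C x u k hk
  have h2 := twI_dist C x u hk
  have h3 := C.hT.connected.dist_triangle (u := u) (v := twI C x k u) (w := x)
  rw [SimpleGraph.dist_comm] at h1
  have h4 : C.G.dist u (twI C x k u) = C.G.dist (twI C x k u) u := SimpleGraph.dist_comm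
  omega

/-- reversing a geodesic -/
lemma m_twI_rev (x u : V) {k : ℕ} (hk : k ≤ C.G.dist u x) :
    twI C u k x = twI C x (C.G.dist u x - k) u := by
  induction k with
  | zero =>
    simp only [twI, Nat.sub_zero]
    rw [twI_end]
  | succ k ih =>
    have hk' : k < C.G.dist u x := hk
    simp only [twI]
    rw [ih hk'.le]
    obtain ⟨m, hm⟩ : ∃ m, C.G.dist u x - k = m + 1 := ⟨C.G.dist u x - k - 1, by omega⟩
    have hm2 : C.G.dist u x - (k + 1) = m := by omega
    rw [hm, hm2]
    have hmlt : m < C.G.dist u x := by omega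
    have hadj := twI_adj C x u hmlt
    apply tw_unique C hadj.symm
    rw [m_dist_twI C x u hmlt.le, m_dist_twI C x u (by omega)]

/-- telescoping detailed balance along a path -/
lemma m_tele {X : V → ℝ} (h : MC C X) (p : ℕ → V) (n : ℕ)
    (hp : ∀ i < n, C.G.Adj (p i) (p (i + 1))) :
    (1 - mag C X (p n) ^ 2) * ∏ i ∈ range n, dpsi C (zl C X (p i) (p (i + 1))) =
      (1 - mag C X (p 0) ^ 2) * ∏ i ∈ range n, dpsi C (zl C X (p (i + 1)) (p i)) := by
  induction n with
  | zero => simp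
  | succ n ih =>
    rw [Finset.prod_range_succ, Finset.prod_range_succ, ← mul_assoc, ← mul_assoc]
    have h1 := detailed_balance C h (hp n (Nat.lt_succ_self n))
    have h2 := ih (fun i hi => hp i (by omega))
    calc _ = (1 - mag C X (p (n + 1)) ^ 2) * dpsi C (zl C X (p n) (p (n + 1))) *
          ∏ i ∈ range n, dpsi C (zl C X (p i) (p (i + 1))) := by ring
      _ = (1 - mag C X (p n) ^ 2) * dpsi C (zl C X (p (n + 1)) (p n)) *
          ∏ i ∈ range n, dpsi C (zl C X (p i) (p (i + 1))) := by rw [h1]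
      _ = ((1 - mag C X (p n) ^ 2) * ∏ i ∈ range n, dpsi C (zl C X (p i) (p (i + 1)))) *
          dpsi C (zl C X (p (n + 1)) (p n)) := by ring
      _ = _ := by rw [h2]

lemma cov_symm {X : V → ℝ} (h : MC C X) (x u : V) : cov C X x u = cov C X u x := by
  unfold cov
  set n := C.G.dist u x with hn
  have hn' : C.G.dist x u = n := SimpleGraph.dist_comm
  rw [hn']
  set p : ℕ → V := fun i => twI C x i u with hp
  have ht := m_tele C h p n (fun i hi => twI_adj C x u hi)
  have hp0 : p 0 = u := rfl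
  have hpn : p n = x := twI_end C x u
  rw [hp0, hpn] at ht
  rw [show (∏ i ∈ range n, dpsi C (zl C X (twI C x i u) (twI C x (i + 1) u))) =
    ∏ i ∈ range n, dpsi C (zl C X (p i) (p (i + 1))) from rfl, ht]
  congr 1
  rw [← Finset.prod_range_reflect]
  apply Finset.prod_congr rfl
  intro i hi
  have hi' : i < n := Finset.mem_range.1 hi
  have e1 : twI C u i x = p (n - 1 - i + 1) := by
    rw [m_twI_rev C x u hi'.le]
    simp only [hp]
    congr 1
    omega
  have e2 : twI C u (i + 1) x = p (n - 1 - i) := by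
    rw [m_twI_rev C x u hi']
    simp only [hp]
    congr 1
    omega
  rw [e1, e2]

lemma m_dpsi_nonneg (z : ℝ) : 0 ≤ dpsi C z := by
  unfold dpsi
  exact div_nonneg (mul_nonneg C.hθ0.le (m_num_pos z).le) (m_den_pos C z).le

lemma m_dpsi_le_one (z : ℝ) : dpsi C z ≤ 1 := by
  unfold dpsi
  rw [div_le_one (m_den_pos C z)]
  have h1 := m_th1 C
  have h2 := m_num_pos z
  have h3 := m_th_sq_le_one C
  nlinarith [sq_nonneg (Real.tanh z), sq_nonneg C.θ, C.hθ0]

lemma cov_nonneg (X : V → ℝ) (x u : V) : 0 ≤ cov C X x u := by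
  unfold cov
  have := m_mag_sq_lt C X x
  exact mul_nonneg (by linarith) (Finset.prod_nonneg fun i _ => m_dpsi_nonneg C _)

lemma cov_le_one (X : V → ℝ) (x u : V) : cov C X x u ≤ 1 := by
  unfold cov
  have h1 := m_mag_sq_lt C X x
  have h2 : ∏ i ∈ range (C.G.dist u x), dpsi C (zl C X (twI C x i u) (twI C x (i + 1) u)) ≤ 1 :=
    Finset.prod_le_one (fun i _ => m_dpsi_nonneg C _) (fun i _ => m_dpsi_le_one C _)
  have h3 : 0 ≤ ∏ i ∈ range (C.G.dist u x), dpsi C (zl C X (twI C x i u) (twI C x (i + 1) u)) :=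
    Finset.prod_nonneg fun i _ => m_dpsi_nonneg C _
  nlinarith [sq_nonneg (mag C X x)]

/-! ### messages do not see the far side -/

/-- Messages from `a` toward `b` do not see a site on the far side of the edge. -/
lemma m_msg_congr {X Y : V → ℝ} {u : V} (hYv : ∀ v, v ≠ u → Y v = X v) (n : ℕ) (a b : V)
    (hab : C.G.Adj a b) (hd : C.G.dist b u + 1 = C.G.dist a u) :
    msg C Y n a b = msg C X n a b := by
  have hau : a ≠ u := by
    rintro rfl
    simp at hd
  induction n generalizing a b with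
  | zero => exact hYv a hau
  | succ n ih =>
    simp only [msg]
    rw [hYv a hau]
    congr 1
    apply Finset.sum_congr rfl
    intro c hc
    have hcb : c ≠ b := Finset.ne_of_mem_erase hc
    have hac := m_adj_of_mem C (Finset.mem_of_mem_erase hc)
    have hd2 : C.G.dist a u + 1 = C.G.dist c u := by
      have e1 : C.G.dist u a = C.G.dist a u := SimpleGraph.dist_comm
      have e2 : C.G.dist u c = C.G.dist c u := SimpleGraph.dist_comm
      rcases dist_adj C.hT u hac with h | h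
      · -- `dist u a = dist u c + 1` forces `c = b`
        exfalso
        apply hcb
        exact toward_unique C.hT (x := u) hac hab (by omega) hd
      · omega
    have hcu : c ≠ u := by
      rintro rfl
      simp at hd2
    rw [ih c a hac.symm hd2 hcu]

lemma m_zl_congr {X Y : V → ℝ} {u : V} (hYv : ∀ v, v ≠ u → Y v = X v) {a b : V}
    (hab : C.G.Adj a b) (hd : C.G.dist b u + 1 = C.G.dist a u) :
    zl C Y a b = zl C X a b := by
  unfold zl
  have : (fun n => msg C Y n a b) = fun n => msg C X n a b :=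
    funext fun n => m_msg_congr C hYv n a b hab hd
  rw [this]

/-- the magnetisation at `x` is affine in the magnetisation at `y` -/
lemma m_edge_affine (a b b' : ℝ) :
    Real.tanh (a + psi C.θ b') - Real.tanh (a + psi C.θ b) =
      dpsi C a * (Real.tanh (b' + psi C.θ a) - Real.tanh (b + psi C.θ a)) := by
  have key : ∀ w : ℝ, Real.tanh (a + psi C.θ w) =
      Real.tanh a * (1 - C.θ ^ 2) / (1 - C.θ ^ 2 * Real.tanh a ^ 2) +
        dpsi C a * Real.tanh (w + psi C.θ a) := by
    intro w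
    rw [m_tanh_add_psi, m_tanh_add_psi]
    unfold dpsi
    have h1 := (m_den_edge C a w).ne'
    have h3 := (m_den_edge C w a).ne'
    have h5 := (m_den_pos C a).ne'
    have hX := div_mul_cancel₀ (Real.tanh a + C.θ * Real.tanh w) h1
    have hZ := div_mul_cancel₀ (Real.tanh w + C.θ * Real.tanh a) h3
    have hA := div_mul_cancel₀ (Real.tanh a * (1 - C.θ ^ 2)) h5
    have hY := div_mul_cancel₀ (C.θ * (1 - Real.tanh a ^ 2)) h5
    have e3 : 1 + C.θ * Real.tanh w * Real.tanh a = 1 + C.θ * Real.tanh a * Real.tanh w := by ring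
    rw [e3] at hZ h3 ⊢
    apply mul_right_cancel₀ (mul_ne_zero h1 h5)
    generalize (Real.tanh a + C.θ * Real.tanh w) / (1 + C.θ * Real.tanh a * Real.tanh w) = X at *
    generalize (Real.tanh w + C.θ * Real.tanh a) / (1 + C.θ * Real.tanh a * Real.tanh w) = Z at *
    generalize Real.tanh a * (1 - C.θ ^ 2) / (1 - C.θ ^ 2 * Real.tanh a ^ 2) = A at *
    generalize C.θ * (1 - Real.tanh a ^ 2) / (1 - C.θ ^ 2 * Real.tanh a ^ 2) = Y at *
    linear_combination (1 - C.θ ^ 2 * Real.tanh a ^ 2) * hX - (1 + C.θ * Real.tanh a * Real.tanh w) * hA - Z * (1 + C.θ * Real.tanh a * Real.tanh w) * hY - C.θ * (1 - Real.tanh a ^ 2) * hZ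
  rw [key b, key b']
  ring

/-- update formula: adding `atanh e` to the field at `u` -/
theorem mag_update {X Y : V → ℝ} (hX : MC C X) (hY : MC C Y) {u : V}
    (hYv : ∀ v, v ≠ u → Y v = X v) {e : ℝ} (he : |e| < 1) (hu : Real.tanh (Y u - X u) = e) (x : V) :
    mag C Y x - mag C X x = e * cov C X x u / (1 + e * mag C X u) := by
  have hm := abs_mag_lt C X u
  have hden : 1 + e * mag C X u ≠ 0 := by
    have : |e * mag C X u| < 1 := by
      rw [abs_mul]
      nlinarith [abs_nonneg e, abs_nonneg (mag C X u)]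
    have := (abs_lt.1 this).1
    intro h0
    linarith
  -- induction on the distance
  obtain ⟨k, hk⟩ : ∃ k, C.G.dist x u = k := ⟨_, rfl⟩
  induction k generalizing x with
  | zero =>
    have hxu : x = u := C.hT.connected.dist_eq_zero_iff.1 hk
    subst hxu
    rw [cov_self]
    have h1 : mag C Y x = Real.tanh ((Y x - X x) + (X x + ∑ c ∈ C.nb x, psi C.θ (zl C X c x))) := by
      unfold mag
      congr 1
      have : ∑ c ∈ C.nb x, psi C.θ (zl C Y c x) = ∑ c ∈ C.nb x, psi C.θ (zl C X c x) := by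
        apply Finset.sum_congr rfl
        intro c hc
        have hc' := m_adj_of_mem C hc
        rw [m_zl_congr C hYv hc'.symm (by
          rw [SimpleGraph.dist_self, zero_add]
          exact (SimpleGraph.dist_eq_one_iff_adj.2 hc'.symm).symm)]
      rw [this]
      ring
    rw [h1, m_tanh_add, hu]
    change (e + mag C X x) / (1 + e * mag C X x) - mag C X x = _
    field_simp
    ring
  | succ k ih =>
    have hxu : x ≠ u := by
      rintro rfl
      simp at hk
    set y := tw C u x with hy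
    have hadj : C.G.Adj x y := tw_adj C hxu
    have hdy : C.G.dist y u + 1 = C.G.dist x u := tw_dist C hxu
    have hyk : C.G.dist y u = k := by omega
    have hih := ih y hyk
    -- the message from `x` toward `y` does not change
    have hz : zl C Y x y = zl C X x y := m_zl_congr C hYv hadj hdy
    have haff : mag C Y x - mag C X x = dpsi C (zl C X x y) * (mag C Y y - mag C X y) := by
      rw [mag_edge C hY hadj, mag_edge C hX hadj, mag_edge C hY hadj.symm, mag_edge C hX hadj.symm,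
        hz]
      exact m_edge_affine C _ _ _
    -- covariance recursion
    have hcov : cov C X x u = dpsi C (zl C X x y) * cov C X y u := by
      rw [cov_symm C hX x u, cov_symm C hX y u]
      unfold cov
      have hd1 : C.G.dist x u = k + 1 := hk
      have hd2 : C.G.dist y u = k := hyk
      rw [hd1, hd2, Finset.prod_range_succ']
      have hshift : ∀ i, twI C u (i + 1) x = twI C u i y := by
        intro i
        induction i with
        | zero => rfl
        | succ i ih2 =>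
          change tw C u (twI C u (i + 1) x) = tw C u (twI C u i y)
          rw [ih2]
      have e0 : dpsi C (zl C X (twI C u 0 x) (twI C u (0 + 1) x)) = dpsi C (zl C X x y) := rfl
      have e1 : ∏ i ∈ range k, dpsi C (zl C X (twI C u (i + 1) x) (twI C u (i + 1 + 1) x)) =
          ∏ i ∈ range k, dpsi C (zl C X (twI C u i y) (twI C u (i + 1) y)) :=
        Finset.prod_congr rfl (fun i _ => by rw [hshift, hshift (i + 1)])
      rw [e0, e1]
      ring
    rw [haff, hih, hcov]
    ring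

/-! ### the function `f` -/

lemma m_ratio_ge (z : ℝ) : 1 ≤ (1 - C.θ ^ 2 * Real.tanh z ^ 2) / (1 - Real.tanh z ^ 2) := by
  rw [le_div_iff₀ (m_num_pos z)]
  have := m_th_sq_le_one C
  nlinarith [sq_nonneg (Real.tanh z)]

lemma ff_nonneg (z : ℝ) : 0 ≤ ff C z := Real.log_nonneg (m_ratio_ge C z)

lemma ff_neg (z : ℝ) : ff C (-z) = ff C z := by
  unfold ff
  rw [Real.tanh_neg, neg_sq]

lemma m_exp_ff (z : ℝ) : Real.exp (ff C z) =
    (1 - C.θ ^ 2 * Real.tanh z ^ 2) / (1 - Real.tanh z ^ 2) :=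
  Real.exp_log (div_pos (m_den_pos C z) (m_num_pos z))

lemma m_exp_neg_ff (z : ℝ) : Real.exp (-ff C z) =
    (1 - Real.tanh z ^ 2) / (1 - C.θ ^ 2 * Real.tanh z ^ 2) := by
  rw [Real.exp_neg, m_exp_ff, inv_div]

lemma dpsi_eq (z : ℝ) : dpsi C z = C.θ * Real.exp (-ff C z) := by
  rw [m_exp_neg_ff]
  unfold dpsi
  ring

lemma G4_eq (z : ℝ) : G4 C z = Real.exp (-2 * ff C z) := by
  rw [show -2 * ff C z = -ff C z + -ff C z by ring, Real.exp_add, m_exp_neg_ff]
  unfold G4
  ring

lemma G4_nonneg (z : ℝ) : 0 ≤ G4 C z := by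
  rw [G4_eq]; exact (Real.exp_pos _).le

lemma G4_le_one (z : ℝ) : G4 C z ≤ 1 := by
  rw [G4_eq, Real.exp_le_one_iff]
  have := ff_nonneg C z
  linarith

/-- `f` as a smooth function -/
lemma m_ff_eq (z : ℝ) :
    ff C z = Real.log (Real.cosh z ^ 2 - C.θ ^ 2 * Real.sinh z ^ 2) := by
  unfold ff
  congr 1
  have hc := (Real.cosh_pos z).ne'
  have hnum := m_num_pos z
  rw [Real.tanh_eq_sinh_div_cosh] at *
  have h1 : 1 - (Real.sinh z / Real.cosh z) ^ 2 = 1 / Real.cosh z ^ 2 := by
    field_simp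
    have := Real.cosh_sq z
    rw [this]
    ring
  rw [h1]
  field_simp

lemma m_den2_pos (z : ℝ) : 0 < Real.cosh z ^ 2 - C.θ ^ 2 * Real.sinh z ^ 2 := by
  have h := Real.cosh_sq z
  have h1 := m_th_sq_le_one C
  have h2 := sq_nonneg (Real.sinh z)
  nlinarith

lemma m_ff_deriv (z : ℝ) : HasDerivAt (ff C)
    (2 * (1 - C.θ ^ 2) * Real.sinh z * Real.cosh z /
      (Real.cosh z ^ 2 - C.θ ^ 2 * Real.sinh z ^ 2)) z := by
  have hfun : ff C = fun z => Real.log (Real.cosh z ^ 2 - C.θ ^ 2 * Real.sinh z ^ 2) :=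
    funext (m_ff_eq C)
  rw [hfun]
  have h1 : HasDerivAt (fun z => Real.cosh z ^ 2 - C.θ ^ 2 * Real.sinh z ^ 2)
      (2 * Real.cosh z ^ (2 - 1) * Real.sinh z -
        C.θ ^ 2 * (2 * Real.sinh z ^ (2 - 1) * Real.cosh z)) z :=
    ((Real.hasDerivAt_cosh z).pow 2).sub (((Real.hasDerivAt_sinh z).pow 2).const_mul _)
  have h2 := h1.log (m_den2_pos C z).ne'
  convert h2 using 1
  simp only [Nat.add_one_sub_one, pow_one]
  ring

/-- bound on the derivative of `f` -/
lemma m_ff_deriv_le (z : ℝ) :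
    |2 * (1 - C.θ ^ 2) * Real.sinh z * Real.cosh z /
      (Real.cosh z ^ 2 - C.θ ^ 2 * Real.sinh z ^ 2)| ≤ 2 * |Real.tanh z| := by
  have hd := m_den2_pos C z
  have hc := Real.cosh_pos z
  have hth := m_th_sq_le_one C
  rw [abs_div, abs_of_pos hd, div_le_iff₀ hd, Real.tanh_eq_sinh_div_cosh, abs_div, abs_of_pos hc]
  have h1 : |2 * (1 - C.θ ^ 2) * Real.sinh z * Real.cosh z| =
      2 * (1 - C.θ ^ 2) * |Real.sinh z| * Real.cosh z := by
    rw [abs_mul, abs_mul, abs_mul, abs_of_pos hc, abs_of_nonneg (by linarith : 0 ≤ 1 - C.θ ^ 2)]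
    simp
  rw [h1]
  have hs := abs_nonneg (Real.sinh z)
  have h2 : (1 - C.θ ^ 2) * Real.cosh z ^ 2 ≤ Real.cosh z ^ 2 - C.θ ^ 2 * Real.sinh z ^ 2 := by
    have := Real.cosh_sq z
    nlinarith [sq_nonneg (Real.sinh z)]
  have e : 2 * (|Real.sinh z| / Real.cosh z) * (Real.cosh z ^ 2 - C.θ ^ 2 * Real.sinh z ^ 2) =
      2 * |Real.sinh z| * ((Real.cosh z ^ 2 - C.θ ^ 2 * Real.sinh z ^ 2) / Real.cosh z) := by ring
  rw [e]
  have h3 : (1 - C.θ ^ 2) * Real.cosh z ≤
      (Real.cosh z ^ 2 - C.θ ^ 2 * Real.sinh z ^ 2) / Real.cosh z := by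
    rw [le_div_iff₀ hc]
    nlinarith
  have := mul_le_mul_of_nonneg_left h3 (mul_nonneg (by norm_num : (0 : ℝ) ≤ 2) hs)
  nlinarith

lemma m_ff_lip_aux {M : ℝ} {z z' : ℝ} (hM : ∀ ξ ∈ Set.uIcc z z', |Real.tanh ξ| ≤ M) :
    |ff C z - ff C z'| ≤ 2 * M * |z - z'| := by
  have hconv : Convex ℝ (Set.uIcc z z') := convex_uIcc z z'
  have := hconv.norm_image_sub_le_of_norm_hasDerivWithin_le (f := ff C) (C := 2 * M)
    (f' := fun z => 2 * (1 - C.θ ^ 2) * Real.sinh z * Real.cosh z /
      (Real.cosh z ^ 2 - C.θ ^ 2 * Real.sinh z ^ 2))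
    (fun x _ => (m_ff_deriv C x).hasDerivWithinAt)
    (fun x hx => by
      rw [Real.norm_eq_abs]
      exact (m_ff_deriv_le C x).trans (by linarith [hM x hx]))
    (Set.right_mem_uIcc) (Set.left_mem_uIcc)
  simpa [Real.norm_eq_abs] using this

lemma ff_lip (z z' : ℝ) : |ff C z - ff C z'| ≤ 2 * |z - z'| := by
  have := m_ff_lip_aux C (M := 1) (z := z) (z' := z') (fun ξ _ => (Real.abs_tanh_lt_one ξ).le)
  simpa using this

lemma m_abs_tanh_between {z z' ξ : ℝ} (hξ : ξ ∈ Set.uIcc z z') :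
    |Real.tanh ξ| ≤ |Real.tanh z| + |Real.tanh z'| := by
  have h : |ξ| ≤ max |z| |z'| := by
    rcases Set.mem_uIcc.1 hξ with h | h
    · exact (abs_le_max_abs_abs h.1 h.2).trans (le_refl _)
    · rw [max_comm]; exact (abs_le_max_abs_abs h.1 h.2)
  rcases le_total |z| |z'| with h2 | h2
  · rw [max_eq_right h2] at h
    linarith [m_abs_tanh_mono h, abs_nonneg (Real.tanh z)]
  · rw [max_eq_left h2] at h
    linarith [m_abs_tanh_mono h, abs_nonneg (Real.tanh z')]

lemma ff_lip' (z z' : ℝ) :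
    |ff C z - ff C z'| ≤ 2 * (|Real.tanh z| + |Real.tanh z'|) * |z - z'| :=
  m_ff_lip_aux C (fun _ hξ => m_abs_tanh_between hξ)

lemma G4_anti {z z' : ℝ} (h : |z| ≤ |z'|) : G4 C z' ≤ G4 C z := by
  rw [G4_eq, G4_eq, Real.exp_le_exp]
  have h1 : |Real.tanh z| ≤ |Real.tanh z'| := m_abs_tanh_mono h
  have h2 : Real.tanh z ^ 2 ≤ Real.tanh z' ^ 2 := sq_le_sq.2 h1
  have hff : ff C z ≤ ff C z' := by
    unfold ff
    apply Real.log_le_log (div_pos (m_den_pos C z) (m_num_pos z))
    rw [div_le_div_iff₀ (m_num_pos z) (m_num_pos z')]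
    have hth := m_th_sq_le_one C
    nlinarith [mul_nonneg (sub_nonneg.2 hth) (sub_nonneg.2 h2)]
  linarith

lemma G4_psi (z : ℝ) :
    C.θ ^ 2 * (1 - C.θ ^ 2) * Real.tanh z ^ 2 ≤ 1 - G4 C (psi C.θ z) := by
  have hth := m_th_sq_le_one C
  have h0 := C.hθ0
  unfold G4
  rw [tanh_psi]
  set t := Real.tanh z with ht
  have ht2 : t ^ 2 < 1 := m_sq_lt z
  have hB : 0 < 1 - C.θ ^ 2 * (C.θ * t) ^ 2 := by
    have := m_den_pos C (psi C.θ z)
    rwa [tanh_psi] at this
  have hN : 0 < 1 - (C.θ * t) ^ 2 := by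
    have := m_num_pos (psi C.θ z)
    rwa [tanh_psi] at this
  set g := (1 - (C.θ * t) ^ 2) / (1 - C.θ ^ 2 * (C.θ * t) ^ 2) with hg
  have hg0 : 0 ≤ g := (div_pos hN hB).le
  have hg1 : g ≤ 1 := by
    rw [hg, div_le_one hB]
    nlinarith [mul_nonneg (sub_nonneg.2 hth) (sq_nonneg (C.θ * t))]
  have hgsq : g ^ 2 ≤ g := by nlinarith
  have h1g : C.θ ^ 2 * (1 - C.θ ^ 2) * t ^ 2 ≤ 1 - g := by
    have e : 1 - g = C.θ ^ 2 * (1 - C.θ ^ 2) * t ^ 2 / (1 - C.θ ^ 2 * (C.θ * t) ^ 2) := by
      rw [hg, eq_div_iff hB.ne']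
      have := div_mul_cancel₀ (1 - (C.θ * t) ^ 2) hB.ne'
      rw [sub_mul, one_mul, this]
      ring
    rw [e]
    rw [le_div_iff₀ hB]
    have h5 : 0 ≤ C.θ ^ 2 * (1 - C.θ ^ 2) * t ^ 2 := by
      apply mul_nonneg (mul_nonneg (sq_nonneg _) (by linarith)) (sq_nonneg _)
    have h6 : 0 ≤ C.θ ^ 2 * (C.θ * t) ^ 2 := by positivity
    nlinarith
  linarith

/-- `-log (1 - m^2)` -/
def fo (m : ℝ) : ℝ := -Real.log (1 - m ^ 2)

lemma fo_nonneg {m : ℝ} (h : |m| < 1) : 0 ≤ fo m := by
  unfold fo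
  have h2 : m ^ 2 < 1 := (sq_lt_one_iff_abs_lt_one m).2 h
  have : Real.log (1 - m ^ 2) ≤ 0 :=
    Real.log_nonpos (by linarith) (by nlinarith [sq_nonneg m])
  linarith

lemma m_log_sub_le {A B : ℝ} (hA : 0 < A) (hB : 0 < B) : Real.log A - Real.log B ≤ (A - B) / B := by
  rw [← Real.log_div hA.ne' hB.ne']
  have := Real.log_le_sub_one_of_pos (div_pos hA hB)
  have e : (A - B) / B = A / B - 1 := by field_simp
  rw [e]
  exact this

lemma fo_lip {m m' M : ℝ} (hM : M < 1) (h : |m| ≤ M) (h' : |m'| ≤ M) :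
    |fo m - fo m'| ≤ 2 / (1 - M ^ 2) * (|m| + |m'|) * |m - m'| := by
  have hM0 : 0 ≤ M := (abs_nonneg m).trans h
  have hM2 : 0 < 1 - M ^ 2 := by nlinarith
  have hsq : m ^ 2 ≤ M ^ 2 := sq_le_sq' (by linarith [(abs_le.1 h).1]) (abs_le.1 h).2
  have hsq' : m' ^ 2 ≤ M ^ 2 := sq_le_sq' (by linarith [(abs_le.1 h').1]) (abs_le.1 h').2
  have hA : 0 < 1 - m ^ 2 := by linarith
  have hB : 0 < 1 - m' ^ 2 := by linarith
  have hdiff : |m ^ 2 - m' ^ 2| ≤ (|m| + |m'|) * |m - m'| := by
    have e : m ^ 2 - m' ^ 2 = (m + m') * (m - m') := by ring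
    rw [e, abs_mul]
    exact mul_le_mul_of_nonneg_right (abs_add_le _ _) (abs_nonneg _)
  have key : ∀ {a b : ℝ}, a ^ 2 ≤ M ^ 2 → b ^ 2 ≤ M ^ 2 → |a ^ 2 - b ^ 2| ≤ (|m| + |m'|) * |m - m'| →
      Real.log (1 - a ^ 2) - Real.log (1 - b ^ 2) ≤ (|m| + |m'|) * |m - m'| / (1 - M ^ 2) := by
    intro a b ha hb hab
    have hA' : 0 < 1 - a ^ 2 := by linarith
    have hB' : 0 < 1 - b ^ 2 := by linarith
    refine (m_log_sub_le hA' hB').trans ?_
    have hn : (1 - a ^ 2) - (1 - b ^ 2) ≤ (|m| + |m'|) * |m - m'| := by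
      have := (abs_le.1 hab).1
      linarith
    have hnn : 0 ≤ (|m| + |m'|) * |m - m'| := by positivity
    calc _ ≤ (|m| + |m'|) * |m - m'| / (1 - b ^ 2) := by gcongr
      _ ≤ _ := by
        apply div_le_div_of_nonneg_left hnn hM2
        linarith
  have h1 := key hsq hsq' hdiff
  have h2 := key hsq' hsq (by rw [abs_sub_comm]; exact hdiff)
  have hnn : 0 ≤ (|m| + |m'|) * |m - m'| / (1 - M ^ 2) := by positivity
  have e : 2 / (1 - M ^ 2) * (|m| + |m'|) * |m - m'| =
      2 * ((|m| + |m'|) * |m - m'| / (1 - M ^ 2)) := by ring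
  rw [e]
  unfold fo
  rw [abs_le]
  constructor <;> linarith

/-- sum of `f` along the path from `x` to `a`, messages toward `a` -/
def Yr (X : V → ℝ) (a x : V) : ℝ :=
  ∑ i ∈ range (C.G.dist x a), ff C (zl C X (twI C a i x) (twI C a (i + 1) x))

/-- the exponent of the covariance -/
def Xr (X : V → ℝ) (x u : V) : ℝ := fo (mag C X x) + Yr C X x u

lemma m_Yr_nonneg (X : V → ℝ) (a x : V) : 0 ≤ Yr C X a x :=
  Finset.sum_nonneg fun _ _ => ff_nonneg C _

lemma Xr_nonneg (X : V → ℝ) (x u : V) : 0 ≤ Xr C X x u :=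
  add_nonneg (fo_nonneg (abs_mag_lt C X x)) (m_Yr_nonneg C X x u)

lemma cov_eq_exp (X : V → ℝ) (x u : V) :
    cov C X x u = C.θ ^ (C.G.dist u x) * Real.exp (-Xr C X x u) := by
  unfold cov Xr Yr
  have h1 : 1 - mag C X x ^ 2 = Real.exp (-fo (mag C X x)) := by
    unfold fo
    rw [neg_neg, Real.exp_log]
    linarith [m_mag_sq_lt C X x]
  rw [h1, neg_add, Real.exp_add, ← Finset.sum_neg_distrib, Real.exp_sum]
  have h2 : ∀ i ∈ range (C.G.dist u x), dpsi C (zl C X (twI C x i u) (twI C x (i + 1) u)) =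
      C.θ * Real.exp (-ff C (zl C X (twI C x i u) (twI C x (i + 1) u))) :=
    fun i _ => dpsi_eq C _
  rw [Finset.prod_congr rfl h2, Finset.prod_mul_distrib, Finset.prod_const, Finset.card_range]
  ring

/-- `Xr` is symmetric -/
lemma m_Xr_symm {X : V → ℝ} (h : MC C X) (x u : V) : Xr C X x u = Xr C X u x := by
  have h1 := cov_symm C h x u
  rw [cov_eq_exp, cov_eq_exp, SimpleGraph.dist_comm (u := x) (v := u)] at h1
  have h0 : C.θ ^ (C.G.dist u x) ≠ 0 := pow_ne_zero _ C.hθ0.ne'
  have h2 := mul_left_cancel₀ h0 h1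
  have h3 := Real.exp_injective h2
  linarith

/-! ### tree: two sides of an edge -/

lemma m_dist_adj' {a b v : V} (hab : C.G.Adj a b) :
    C.G.dist a v = C.G.dist b v + 1 ∨ C.G.dist b v = C.G.dist a v + 1 := by
  have e1 : C.G.dist v a = C.G.dist a v := SimpleGraph.dist_comm
  have e2 : C.G.dist v b = C.G.dist b v := SimpleGraph.dist_comm
  rcases dist_adj C.hT v hab with h | h
  · left; omega
  · right; omega

/-- the only edge between the two sides of `ab` is `ab` -/
lemma m_cross {a b c c' : V} (hab : C.G.Adj a b) (hc : C.G.Adj c c')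
    (h1 : C.G.dist c b + 1 = C.G.dist c a) (h2 : C.G.dist c' a + 1 = C.G.dist c' b) :
    c = b ∧ c' = a := by
  have sa := m_dist_adj' C (v := a) hc
  have sb := m_dist_adj' C (v := b) hc
  have h3 : C.G.dist c' a + 1 = C.G.dist c a := by omega
  have h4 : C.G.dist c' b = C.G.dist c b + 1 := by omega
  have hcb : c = b := by
    by_contra hne
    have hadj := tw_adj C hne
    have hd := tw_dist C hne
    have e : tw C b c = c' := by
      apply toward_unique C.hT (x := a) hadj hc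
      · have t1 : C.G.dist (tw C b c) a ≤ C.G.dist (tw C b c) b + C.G.dist b a :=
          C.hT.connected.dist_triangle
        have t2 : C.G.dist b a = 1 := SimpleGraph.dist_eq_one_iff_adj.2 hab.symm
        have sa2 := m_dist_adj' C (v := a) hadj
        omega
      · exact h3
    rw [e] at hd
    omega
  refine ⟨hcb, ?_⟩
  subst hcb
  have h5 : C.G.dist c a = 1 := SimpleGraph.dist_eq_one_iff_adj.2 hab.symm
  have h6 : C.G.dist c' a = 0 := by omega
  exact C.hT.connected.dist_eq_zero_iff.1 h6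

/-- walks between the sides are long -/
lemma m_walk_le {a b : V} (hab : C.G.Adj a b) {x : V} (hx : C.G.dist x a + 1 = C.G.dist x b)
    {u v : V} (w : C.G.Walk u v) (hv : v = x) (hu : C.G.dist u b + 1 = C.G.dist u a) :
    C.G.dist u b + 1 + C.G.dist x a ≤ w.length := by
  induction w with
  | nil =>
    subst hv
    omega
  | @cons u c v hc w' ih =>
    simp only [SimpleGraph.Walk.length_cons]
    rcases dist_adj C.hT c hab with h | h
    · -- `c` on the `b`-side
      have hh := ih hv (by omega)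
      have t1 : C.G.dist u b ≤ C.G.dist u c + C.G.dist c b := C.hT.connected.dist_triangle
      have t2 : C.G.dist u c = 1 := SimpleGraph.dist_eq_one_iff_adj.2 hc
      omega
    · -- crossing
      obtain ⟨e1, e2⟩ := m_cross C hab hc hu (by omega)
      have h3 := SimpleGraph.dist_le w'
      have e4 : C.G.dist c v = C.G.dist a v := by rw [e2]
      have e3 : C.G.dist a v = C.G.dist v a := SimpleGraph.dist_comm
      rw [e1, SimpleGraph.dist_self, ← hv]
      omega

/-- distance across an edge -/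
lemma m_dist_sides {a b x u : V} (hab : C.G.Adj a b) (hx : C.G.dist x a + 1 = C.G.dist x b)
    (hu : C.G.dist u b + 1 = C.G.dist u a) :
    C.G.dist u x = C.G.dist u b + 1 + C.G.dist x a := by
  apply le_antisymm
  · have t1 : C.G.dist u x ≤ C.G.dist u b + C.G.dist b x := C.hT.connected.dist_triangle
    have t2 : C.G.dist b x ≤ C.G.dist b a + C.G.dist a x := C.hT.connected.dist_triangle
    have t3 : C.G.dist b a = 1 := SimpleGraph.dist_eq_one_iff_adj.2 hab.symm
    have t4 : C.G.dist a x = C.G.dist x a := SimpleGraph.dist_comm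
    omega
  · obtain ⟨w, hw⟩ := C.hT.connected.exists_walk_length_eq_dist u x
    rw [← hw]
    exact m_walk_le C hab hx w rfl hu

lemma m_twI_add (x u : V) (m k : ℕ) : twI C x (m + k) u = twI C x k (twI C x m u) := by
  induction k with
  | zero => rfl
  | succ k ih =>
    change tw C x (twI C x (m + k) u) = tw C x (twI C x k (twI C x m u))
    rw [ih]

/-- moving toward `x` and moving toward `b` coincide on the `b`-side -/
lemma m_twI_side {a b x u : V} (hab : C.G.Adj a b) (hx : C.G.dist x a + 1 = C.G.dist x b)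
    (hu : C.G.dist u b + 1 = C.G.dist u a) {k : ℕ} (hk : k ≤ C.G.dist u b) :
    twI C x k u = twI C b k u := by
  induction k with
  | zero => rfl
  | succ k ih =>
    have hk' : k < C.G.dist u b := hk
    change tw C x (twI C x k u) = tw C b (twI C b k u)
    rw [ih hk'.le]
    set v := twI C b k u with hv
    have hvd : C.G.dist v b + k = C.G.dist u b := twI_dist C b u hk'.le
    have hvne : v ≠ b := by
      rintro h
      rw [h, SimpleGraph.dist_self] at hvd
      omega
    have hvu : C.G.dist u v ≤ k := m_dist_le_of_twI C b u k hk'.le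
    have hva : C.G.dist v b + 1 = C.G.dist v a := by
      have t1 : C.G.dist u a ≤ C.G.dist u v + C.G.dist v a := C.hT.connected.dist_triangle
      rcases dist_adj C.hT v hab with h | h <;> omega
    have hc := tw_adj C hvne
    have hcd := tw_dist C hvne
    set c := tw C b v with hcdef
    have hca : C.G.dist c b + 1 = C.G.dist c a := by
      have t1 : C.G.dist v a ≤ C.G.dist v c + C.G.dist c a := C.hT.connected.dist_triangle
      have t2 : C.G.dist v c = 1 := SimpleGraph.dist_eq_one_iff_adj.2 hc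
      rcases dist_adj C.hT c hab with h | h <;> omega
    apply tw_unique C hc
    rw [m_dist_sides C hab hx hva, m_dist_sides C hab hx hca]
    omega

/-- splitting the exponent at an edge `(a, b)` of the geodesic from `x` to `u` -/
theorem Xr_split {X : V → ℝ} (h : MC C X) {a b x u : V} (hab : C.G.Adj a b) {i j : ℕ}
    (hx : x ∈ bh C a b i) (hu : u ∈ bh C b a j) :
    Xr C X x u = fo (mag C X a) + Yr C X a x + Yr C X b u + ff C (zl C X b a) := by
  obtain ⟨hx1, hx2⟩ := (mem_bh C hab).1 hx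
  obtain ⟨hu1, hu2⟩ := (mem_bh C hab.symm).1 hu
  have hxs : C.G.dist x a + 1 = C.G.dist x b := by omega
  have hus : C.G.dist u b + 1 = C.G.dist u a := by omega
  have hd : C.G.dist u x = j + 1 + i := by
    rw [m_dist_sides C hab hxs hus, hu1, hx1]
  have hxa := m_Xr_symm C h x a
  -- the path from `u` toward `x`
  have hb : twI C x j u = b := by
    rw [m_twI_side C hab hxs hus (by omega)]
    rw [← hu1]
    exact twI_end C b u
  have hbx : C.G.dist b x = i + 1 := by
    rw [SimpleGraph.dist_comm]; exact hx2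
  have hax : C.G.dist a x = i := by
    rw [SimpleGraph.dist_comm]; exact hx1
  have hta : tw C x b = a := by
    apply tw_unique C hab.symm
    omega
  have hsplit : Yr C X x u = Yr C X b u + ff C (zl C X b a) + Yr C X x a := by
    unfold Yr
    rw [hd, hu1, hax, Finset.sum_range_add, Finset.sum_range_succ]
    congr 1
    · congr 1
      · apply Finset.sum_congr rfl
        intro k hk
        have hk' : k < j := Finset.mem_range.1 hk
        rw [m_twI_side C hab hxs hus (by omega), m_twI_side C hab hxs hus (by omega)]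
      · have : twI C x (j + 1) u = a := by
          change tw C x (twI C x j u) = a
          rw [hb, hta]
        rw [hb, this]
    · apply Finset.sum_congr rfl
      intro k _
      have e1 : twI C x (j + 1 + k) u = twI C x k a := by
        rw [m_twI_add]
        congr 1
        change tw C x (twI C x j u) = a
        rw [hb, hta]
      have e2 : twI C x (j + 1 + k + 1) u = twI C x (k + 1) a := by
        change tw C x (twI C x (j + 1 + k) u) = tw C x (twI C x k a)
        rw [e1]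
      rw [e1, e2]
  have hxa' : fo (mag C X x) + Yr C X x a = fo (mag C X a) + Yr C X a x := hxa
  unfold Xr
  rw [hsplit]
  linarith

/-! ### the edge map -/

/-- the edge map -/
def Th (p : ℝ × ℝ) : ℝ × ℝ := (p.1 + psi C.θ p.2, p.2 + psi C.θ p.1)

/-- the map whose fixed point inverts the edge map -/
def m_Phi (u : ℝ × ℝ) (p : ℝ × ℝ) : ℝ × ℝ := (u.1 - psi C.θ p.2, u.2 - psi C.θ p.1)

lemma m_Phi_contr (u : ℝ × ℝ) : ContractingWith (Real.toNNReal C.θ) (m_Phi C u) := by
  constructor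
  · have : Real.toNNReal C.θ < 1 := by
      rw [Real.toNNReal_lt_one]
      exact m_th1 C
    exact_mod_cast this
  · apply LipschitzWith.of_dist_le_mul
    intro p q
    rw [Real.coe_toNNReal _ (m_th0 C)]
    rw [Prod.dist_eq, Prod.dist_eq]
    have h0 := C.hθ0
    have h1 : dist (m_Phi C u p).1 (m_Phi C u q).1 ≤ C.θ * max (dist p.1 q.1) (dist p.2 q.2) := by
      simp only [m_Phi, Real.dist_eq]
      have := psi_lipschitz (m_th0 C) (m_th1 C) p.2 q.2
      have e : u.1 - psi C.θ p.2 - (u.1 - psi C.θ q.2) = -(psi C.θ p.2 - psi C.θ q.2) := by ring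
      rw [e, abs_neg]
      refine this.trans (mul_le_mul_of_nonneg_left ?_ h0.le)
      exact le_max_right _ _
    have h2 : dist (m_Phi C u p).2 (m_Phi C u q).2 ≤ C.θ * max (dist p.1 q.1) (dist p.2 q.2) := by
      simp only [m_Phi, Real.dist_eq]
      have := psi_lipschitz (m_th0 C) (m_th1 C) p.1 q.1
      have e : u.2 - psi C.θ p.1 - (u.2 - psi C.θ q.1) = -(psi C.θ p.1 - psi C.θ q.1) := by ring
      rw [e, abs_neg]
      refine this.trans (mul_le_mul_of_nonneg_left ?_ h0.le)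
      exact le_max_left _ _
    exact max_le h1 h2

/-- the inverse of the edge map -/
def m_Ti (u : ℝ × ℝ) : ℝ × ℝ := ContractingWith.fixedPoint (m_Phi C u) (m_Phi_contr C u)

lemma m_Ti_fixed (u : ℝ × ℝ) : m_Phi C u (m_Ti C u) = m_Ti C u :=
  ContractingWith.fixedPoint_isFixedPt (m_Phi_contr C u)

lemma m_Ti_bound (u v : ℝ × ℝ) :
    max |(m_Ti C u).1 - (m_Ti C v).1| |(m_Ti C u).2 - (m_Ti C v).2| ≤
      (|u.1 - v.1| + |u.2 - v.2|) / (1 - C.θ) := by
  have h0 := C.hθ0
  have h1 := m_th1 C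
  set p := m_Ti C u with hp
  set q := m_Ti C v with hq
  have fp := m_Ti_fixed C u
  have fq := m_Ti_fixed C v
  rw [← hp] at fp
  rw [← hq] at fq
  have p1 : p.1 = u.1 - psi C.θ p.2 := (congrArg Prod.fst fp).symm
  have p2 : p.2 = u.2 - psi C.θ p.1 := (congrArg Prod.snd fp).symm
  have q1 : q.1 = v.1 - psi C.θ q.2 := (congrArg Prod.fst fq).symm
  have q2 : q.2 = v.2 - psi C.θ q.1 := (congrArg Prod.snd fq).symm
  set M := max |p.1 - q.1| |p.2 - q.2| with hM
  have l1 := psi_lipschitz (m_th0 C) (m_th1 C) p.2 q.2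
  have l2 := psi_lipschitz (m_th0 C) (m_th1 C) p.1 q.1
  have a1 : |p.1 - q.1| ≤ |u.1 - v.1| + C.θ * M := by
    have e : p.1 - q.1 = (u.1 - v.1) - (psi C.θ p.2 - psi C.θ q.2) := by
      rw [p1, q1]; ring
    rw [e]
    refine (abs_sub _ _).trans ?_
    have : C.θ * |p.2 - q.2| ≤ C.θ * M := mul_le_mul_of_nonneg_left (le_max_right _ _) h0.le
    linarith
  have a2 : |p.2 - q.2| ≤ |u.2 - v.2| + C.θ * M := by
    have e : p.2 - q.2 = (u.2 - v.2) - (psi C.θ p.1 - psi C.θ q.1) := by
      rw [p2, q2]; ring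
    rw [e]
    refine (abs_sub _ _).trans ?_
    have : C.θ * |p.1 - q.1| ≤ C.θ * M := mul_le_mul_of_nonneg_left (le_max_left _ _) h0.le
    linarith
  have hM2 : M ≤ |u.1 - v.1| + |u.2 - v.2| + C.θ * M := by
    apply max_le
    · linarith [abs_nonneg (u.2 - v.2)]
    · linarith [abs_nonneg (u.1 - v.1)]
  rw [le_div_iff₀ (by linarith)]
  nlinarith

/-- the edge map has a Lipschitz measurable inverse -/
theorem exists_thInv : ∃ Ti : ℝ × ℝ → ℝ × ℝ, Measurable Ti ∧ (∀ p, Ti (Th C p) = p) ∧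
    ∀ u v, |(Ti u).1 - (Ti v).1| ≤ (|u.1 - v.1| + |u.2 - v.2|) / (1 - C.θ) := by
  refine ⟨m_Ti C, ?_, ?_, ?_⟩
  · have h1 := m_th1 C
    have hl : LipschitzWith (Real.toNNReal (2 / (1 - C.θ))) (m_Ti C) := by
      apply LipschitzWith.of_dist_le_mul
      intro u v
      rw [Real.coe_toNNReal _ (by apply div_nonneg <;> linarith)]
      have h := m_Ti_bound C u v
      have hd1 : |u.1 - v.1| ≤ dist u v := by
        rw [Prod.dist_eq, Real.dist_eq, Real.dist_eq]; exact le_max_left _ _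
      have hd2 : |u.2 - v.2| ≤ dist u v := by
        rw [Prod.dist_eq, Real.dist_eq, Real.dist_eq]; exact le_max_right _ _
      rw [Prod.dist_eq, Real.dist_eq, Real.dist_eq]
      refine h.trans ?_
      rw [div_mul_eq_mul_div]
      apply div_le_div_of_nonneg_right _ (by linarith)
      linarith
    exact hl.continuous.measurable
  · intro p
    have hp : Function.IsFixedPt (m_Phi C (Th C p)) p := by
      show m_Phi C (Th C p) p = p
      ext <;> simp [m_Phi, Th]
    exact ((m_Phi_contr C (Th C p)).fixedPoint_unique hp).symm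
  · intro u v
    exact (le_max_left _ _).trans (m_Ti_bound C u v)

end Vale.Agent.Lib.P161.Crit
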