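import Mathlib

/-!
The Osgood comparison: a monotone function with the integral inequality and limit `0` at `-∞`
vanishes.
-/

open MeasureTheory Filter Topology

noncomputable section
namespace Vale.Agent.Lib.P161.Crit

/-- the modulus `2 D (log (1/D) + 2)` (zero at zero) -/
def om (D : ℝ) : ℝ := 2 * D * (Real.log (1 / D) + 2)

lemma om_zero : om 0 = 0 := by simp [om]

lemma om_eq (D : ℝ) : om D = 4 * D - 2 * (D * Real.log D) := by
  unfold om
  rw [one_div, Real.log_inv]; ring

lemma continuous_om : Continuous om := by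
  have h : om = fun D => 4 * D - 2 * (D * Real.log D) := funext om_eq
  rw [h]
  exact (continuous_const.mul continuous_id).sub (continuous_const.mul Real.continuous_mul_log)

/-- For `0 < D ≤ 1` the choice `p = ⌈log (1/D)⌉ + 1` gives `p (D + e^{-p}) ≤ om D`. -/
lemma exists_p {D : ℝ} (h0 : 0 < D) (h1 : D ≤ 1) :
    ∃ p : ℕ, 1 ≤ p ∧ p * (D + Real.exp (-p)) ≤ om D := by
  set L := Real.log (1 / D) with hL
  have hL0 : 0 ≤ L := Real.log_nonneg (by rw [le_div_iff₀ h0]; linarith)
  refine ⟨⌈L⌉₊ + 1, by omega, ?_⟩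
  have hp1 : L ≤ ((⌈L⌉₊ + 1 : ℕ) : ℝ) := by
    have := Nat.le_ceil L
    push_cast
    linarith
  have hp2 : ((⌈L⌉₊ + 1 : ℕ) : ℝ) ≤ L + 2 := by
    have := Nat.ceil_lt_add_one hL0
    push_cast
    linarith
  have hexp : Real.exp (-((⌈L⌉₊ + 1 : ℕ) : ℝ)) ≤ D := by
    have h2 : Real.exp (-L) = D := by
      rw [hL, one_div, Real.log_inv, neg_neg, Real.exp_log h0]
    calc Real.exp (-((⌈L⌉₊ + 1 : ℕ) : ℝ)) ≤ Real.exp (-L) := Real.exp_le_exp.mpr (by linarith)
      _ = D := h2
  have h3 : ((⌈L⌉₊ + 1 : ℕ) : ℝ) * (D + Real.exp (-((⌈L⌉₊ + 1 : ℕ) : ℝ))) ≤ (L + 2) * (2 * D) := by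
    apply mul_le_mul hp2 (by linarith) (by positivity) (by linarith)
  unfold om
  calc _ ≤ _ := h3
    _ = _ := by ring

/-- `p e^{-p} → 0`: for `D = 0` -/
lemma tendsto_p_exp : Tendsto (fun p : ℕ => (p : ℝ) * Real.exp (-p)) atTop (𝓝 0) := by
  have h := Real.tendsto_pow_mul_exp_neg_atTop_nhds_zero 1
  have h2 := h.comp tendsto_natCast_atTop_atTop
  simpa [Function.comp_def] using h2

lemma om_nonneg {D : ℝ} (h0 : 0 ≤ D) (h1 : D ≤ 1) : 0 ≤ om D := by
  rcases h0.eq_or_lt with h | h
  · rw [← h, om_zero]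
  · unfold om
    have : 0 ≤ Real.log (1 / D) := Real.log_nonneg (by rw [le_div_iff₀ h]; linarith)
    positivity

lemma om_le_six {D : ℝ} (h0 : 0 ≤ D) (h1 : D ≤ 1) : om D ≤ 6 := by
  rcases h0.eq_or_lt with h | h
  · rw [← h, om_zero]; norm_num
  · have h2 : Real.log (1 / D) ≤ 1 / D - 1 := Real.log_le_sub_one_of_pos (by positivity)
    have h3 : D * Real.log (1 / D) ≤ D * (1 / D - 1) := mul_le_mul_of_nonneg_left h2 h.le
    have h4 : D * (1 / D - 1) = 1 - D := by field_simp
    unfold om
    nlinarith

/-- Osgood -/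
theorem osgood {D : ℝ → ℝ} {K T₀ : ℝ} (hK : 0 < K) (hm : Monotone D) (h0 : ∀ s, 0 ≤ D s)
    (h1 : ∀ s, D s ≤ 1) (hlim : Tendsto D atBot (𝓝 0))
    (hrec : ∀ s s', s ≤ s' → s' ≤ T₀ → D s' - D s ≤ ∫ r in s..s', K * Real.exp (r / 4) * om (D r)) :
    ∀ s, s ≤ T₀ → D s = 0 := by
  set g : ℝ → ℝ := fun r => K * Real.exp (r / 4) * om (D r) with hg
  have hC0 : 0 ≤ K * Real.exp (T₀ / 4) * 6 := by positivity
  have hlip : ∀ s s', s ≤ s' → s' ≤ T₀ → D s' - D s ≤ (K * Real.exp (T₀ / 4) * 6) * (s' - s) := by
    intro s s' h h'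
    have h2 := hrec s s' h h'
    have hb : ‖∫ r in s..s', g r‖ ≤ (K * Real.exp (T₀ / 4) * 6) * |s' - s| := by
      apply intervalIntegral.norm_integral_le_of_norm_le_const
      intro r hr
      have hr' : r ≤ T₀ := by
        rw [Set.uIoc_of_le h] at hr
        exact hr.2.trans h'
      have hexp : Real.exp (r / 4) ≤ Real.exp (T₀ / 4) := Real.exp_le_exp.mpr (by linarith)
      simp only [hg]
      rw [Real.norm_of_nonneg (by have := om_nonneg (h0 r) (h1 r); positivity)]
      have h6 := om_le_six (h0 r) (h1 r)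
      have h60 := om_nonneg (h0 r) (h1 r)
      have hpos := Real.exp_pos (r / 4)
      exact mul_le_mul (mul_le_mul_of_nonneg_left hexp hK.le) h6 h60 (by positivity)
    rw [abs_of_nonneg (by linarith)] at hb
    exact h2.trans ((le_abs_self _).trans hb)
  have hcont : ContinuousOn D (Set.Iic T₀) := by
    have : LipschitzOnWith ⟨K * Real.exp (T₀ / 4) * 6, hC0⟩ D (Set.Iic T₀) := by
      apply LipschitzOnWith.of_dist_le_mul
      intro x hx y hy
      simp only [Real.dist_eq]
      rcases le_total x y with hxy | hxy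
      · have h2 := hlip x y hxy hy
        have h3 := hm hxy
        rw [abs_sub_comm, abs_of_nonneg (by linarith), abs_sub_comm, abs_of_nonneg (by linarith)]
        exact h2
      · have h2 := hlip y x hxy hx
        have h3 := hm hxy
        rw [abs_of_nonneg (by linarith), abs_of_nonneg (by linarith)]
        exact h2
    exact this.continuousOn
  have hgcont : ContinuousOn g (Set.Iic T₀) := by
    apply ContinuousOn.mul
    · exact continuousOn_const.mul (Real.continuous_exp.comp_continuousOn (by fun_prop))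
    · exact continuous_om.comp_continuousOn hcont
  intro s hs
  by_contra hne
  have hDs : 0 < D s := lt_of_le_of_ne (h0 s) (Ne.symm hne)
  set Ast : ℝ := 8 * (K + 1) * Real.exp (s / 4) with hAst
  set M : ℝ := (2 - Real.log (D s)) * Real.exp Ast + 1 with hM
  have hlogD : Real.log (D s) ≤ 0 := Real.log_nonpos hDs.le (h1 s)
  have hM0 : 0 < M := by
    have : 0 ≤ (2 - Real.log (D s)) * Real.exp Ast := by
      apply mul_nonneg (by linarith) (Real.exp_pos _).le
    linarith
  set δ : ℝ := Real.exp (-M) with hδ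
  have hδ0 : 0 < δ := Real.exp_pos _
  obtain ⟨s0, hs0, hs0s⟩ :=
    ((hlim.eventually (gt_mem_nhds hδ0)).and (eventually_le_atBot s)).exists
  -- the comparison function
  set y0 : ℝ := 2 + M with hy0
  set A : ℝ → ℝ := fun x => 8 * (K + 1) * (Real.exp (x / 4) - Real.exp (s0 / 4)) with hA
  set E : ℝ → ℝ := fun x => Real.exp (2 - y0 * Real.exp (-A x)) with hE
  have hE0 : ∀ x, 0 < E x := fun x => Real.exp_pos _
  have hy0pos : 0 < y0 := by rw [hy0]; linarith
  have hAder : ∀ x, HasDerivAt A (2 * (K + 1) * Real.exp (x / 4)) x := by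
    intro x
    have h2 : HasDerivAt (fun x : ℝ => x / 4) (1 / 4) x := (hasDerivAt_id x).div_const 4
    have h3 := h2.exp
    have h4 := (h3.sub_const (Real.exp (s0 / 4))).const_mul (8 * (K + 1))
    exact h4.congr_deriv (by ring)
  have hEder : ∀ x, HasDerivAt E
      (E x * (y0 * Real.exp (-A x) * (2 * (K + 1) * Real.exp (x / 4)))) x := by
    intro x
    have h2 := ((hAder x).neg.exp.const_mul y0).const_sub 2
    have h3 := h2.exp
    exact h3.congr_deriv (by simp only [hE, Pi.neg_apply]; ring)
  have hEom : ∀ x, om (E x) = 2 * E x * (y0 * Real.exp (-A x)) := by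
    intro x
    unfold om
    have h2 : Real.log (1 / E x) = -(2 - y0 * Real.exp (-A x)) := by
      rw [one_div, Real.log_inv]
      simp only [hE]
      rw [Real.log_exp]
    rw [h2]; ring
  have hmain : ∀ x ∈ Set.Icc s0 s, D x ≤ E x := by
    apply image_le_of_liminf_slope_right_lt_deriv_boundary
      (f := D) (f' := g) (B := E)
      (B' := fun x => E x * (y0 * Real.exp (-A x) * (2 * (K + 1) * Real.exp (x / 4))))
    · exact hcont.mono (fun x hx => hx.2.trans hs)
    · intro x hx r hr
      have hxT : x < T₀ := lt_of_lt_of_le hx.2 hs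
      have hgat : ContinuousAt g x := hgcont.continuousAt (Iic_mem_nhds hxT)
      set ρ : ℝ := (g x + r) / 2 with hρ
      have hρ1 : g x < ρ := by rw [hρ]; linarith
      have hρ2 : ρ < r := by rw [hρ]; linarith
      have hev : ∀ᶠ y in 𝓝 x, g y < ρ := hgat.eventually (gt_mem_nhds hρ1)
      obtain ⟨η, hη, hηy⟩ := Metric.eventually_nhds_iff.mp hev
      apply Eventually.frequently
      have hmem : Set.Ioo x (x + min η (T₀ - x)) ∈ 𝓝[>] x :=
        Ioo_mem_nhdsGT (by have : 0 < min η (T₀ - x) := lt_min hη (by linarith); linarith)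
      filter_upwards [hmem] with z hz
      have hz1 : x < z := hz.1
      have hz2 : z < x + η := by
        have := hz.2
        have h3 := min_le_left η (T₀ - x)
        linarith
      have hz3 : z ≤ T₀ := by
        have := hz.2
        have h3 := min_le_right η (T₀ - x)
        linarith
      have h4 := hrec x z hz1.le hz3
      have hint : IntervalIntegrable g volume x z := by
        apply ContinuousOn.intervalIntegrable
        apply hgcont.mono
        intro t ht
        rw [Set.uIcc_of_le hz1.le] at ht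
        exact ht.2.trans hz3
      have h5 : ∫ t in x..z, g t ≤ ∫ t in x..z, ρ := by
        apply intervalIntegral.integral_mono_on hz1.le hint (intervalIntegrable_const)
        intro t ht
        apply (hηy _).le
        rw [Real.dist_eq, abs_of_nonneg (by linarith [ht.1])]
        linarith [ht.2]
      rw [intervalIntegral.integral_const, smul_eq_mul] at h5
      rw [slope_def_field, div_lt_iff₀ (by linarith)]
      have h6 : (z - x) * ρ < r * (z - x) := by
        have : 0 < z - x := by linarith
        nlinarith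
      have h7 : D z - D x ≤ ∫ t in x..z, g t := h4
      linarith
    · have h2 : E s0 = δ := by
        simp only [hE, hA]
        have : (2 : ℝ) - y0 * Real.exp (-(8 * (K + 1) * (Real.exp (s0 / 4) - Real.exp (s0 / 4))))
            = -M := by
          simp [hy0]
        rw [this]
      rw [h2]
      exact hs0.le
    · exact hEder
    · intro x _ hx
      simp only [hg]
      rw [hx, hEom]
      have h2 := hE0 x
      have h3 := Real.exp_pos (-A x)
      have h4 := Real.exp_pos (x / 4)
      have h5 : 0 < E x * (y0 * Real.exp (-A x)) * Real.exp (x / 4) := by positivity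
      nlinarith
  have hfin := hmain s ⟨hs0s, le_refl s⟩
  have hAs : A s ≤ Ast := by
    simp only [hA, hAst]
    have := Real.exp_pos (s0 / 4)
    have hK1 : 0 < 8 * (K + 1) := by linarith
    nlinarith
  have hexpA : Real.exp (-Ast) ≤ Real.exp (-A s) := Real.exp_le_exp.mpr (by linarith)
  have hkey : Real.log (D s) > 2 - y0 * Real.exp (-A s) := by
    have h2 : M * Real.exp (-Ast) = (2 - Real.log (D s)) + Real.exp (-Ast) := by
      rw [hM, add_mul, mul_assoc, ← Real.exp_add]
      simp
    have h3 : M * Real.exp (-Ast) ≤ y0 * Real.exp (-A s) := by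
      apply mul_le_mul (by rw [hy0]; linarith) hexpA (Real.exp_pos _).le hy0pos.le
    have h4 := Real.exp_pos (-Ast)
    linarith
  have hlt : E s < D s := by
    simp only [hE]
    calc Real.exp (2 - y0 * Real.exp (-A s)) < Real.exp (Real.log (D s)) := Real.exp_lt_exp.mpr hkey
      _ = D s := Real.exp_log hDs
  linarith

end Vale.Agent.Lib.P161.Crit
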