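import Vale.Agent.Lib.P161.Crit.CE

/-!
Abstract Pythagoras bound for a sum of orthogonal jumps and their perpendicular parts.
`b = a + ∑ Δ_j` in `L²`, the `Δ_j` are orthogonal and so are `a^⊥`, `Δ_j^⊥`; then
`‖b^⊥‖² ≤ ‖a^⊥‖² + S` where `S` bounds all finite sums of `‖Δ_j^⊥‖²`.
Proof plan: `R_J := b - a - ∑_J Δ_j`; expanding with `hc`, `ho`: `∫ R_J² = ∫ (b-a)² - ∑_J ∫ Δ_j²`,
which tends to `0` along finite sets by `hE`. Then `b^⊥ = a^⊥ + ∑_J Δ_j^⊥ + R_J^⊥` a.e.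
(`condExp_add`, `condExp_finsetSum`), `∫ (R_J^⊥)² ≤ ∫ R_J²` (`ce_min` with `c = 0`), and
`∫ (a^⊥ + ∑_J Δ_j^⊥)² = ∫ (a^⊥)² + ∑_J ∫ (Δ_j^⊥)²` by `hpa`, `hpo`. Conclude with
`∫ (X+Y)² ≤ (1+η) ∫ X² + (1+1/η) ∫ Y²`, let `J` grow then `η → 0`.
-/

open MeasureTheory Filter Topology Finset

noncomputable section
namespace Vale.Agent.Lib.P161.Crit

variable {Ω : Type} {m m0 : MeasurableSpace Ω} {μ : Measure Ω} [IsProbabilityMeasure μ]

/-- a.e. bounded a.e.-measurable functions -/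
def prB (μ : Measure Ω) (f : Ω → ℝ) : Prop :=
  AEStronglyMeasurable f μ ∧ ∃ C : ℝ, ∀ᵐ ω ∂μ, |f ω| ≤ C

lemma prB.integrable {f : Ω → ℝ} (h : prB μ f) : Integrable f μ := by
  obtain ⟨h1, C, hC⟩ := h
  exact Integrable.of_bound h1 C (by simpa [Real.norm_eq_abs] using hC)

lemma prB.add {f g : Ω → ℝ} (hf : prB μ f) (hg : prB μ g) : prB μ (fun ω => f ω + g ω) := by
  obtain ⟨h1, C, hC⟩ := hf
  obtain ⟨h2, D, hD⟩ := hg
  refine ⟨h1.add h2, C + D, ?_⟩
  filter_upwards [hC, hD] with ω a b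
  exact (abs_add_le _ _).trans (add_le_add a b)

lemma prB.sub {f g : Ω → ℝ} (hf : prB μ f) (hg : prB μ g) : prB μ (fun ω => f ω - g ω) := by
  obtain ⟨h1, C, hC⟩ := hf
  obtain ⟨h2, D, hD⟩ := hg
  refine ⟨h1.sub h2, C + D, ?_⟩
  filter_upwards [hC, hD] with ω a b
  exact (abs_sub _ _).trans (add_le_add a b)

lemma prB.mul {f g : Ω → ℝ} (hf : prB μ f) (hg : prB μ g) : prB μ (fun ω => f ω * g ω) := by
  obtain ⟨h1, C, hC⟩ := hf
  obtain ⟨h2, D, hD⟩ := hg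
  refine ⟨h1.mul h2, |C| * |D|, ?_⟩
  filter_upwards [hC, hD] with ω a b
  rw [abs_mul]
  exact mul_le_mul (a.trans (le_abs_self _)) (b.trans (le_abs_self _)) (abs_nonneg _) (abs_nonneg _)

lemma prB.sq {f : Ω → ℝ} (hf : prB μ f) : prB μ (fun ω => f ω ^ 2) := by
  simpa [pow_two] using hf.mul hf

lemma prB.sum {ι : Type*} (J : Finset ι) {f : ι → Ω → ℝ} (hf : ∀ j ∈ J, prB μ (f j)) :
    prB μ (fun ω => ∑ j ∈ J, f j ω) := by
  classical
  induction J using Finset.induction_on with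
  | empty =>
    simp only [Finset.sum_empty]
    exact ⟨aestronglyMeasurable_const, 0, by simp⟩
  | insert i J hi ih =>
    have h1 := hf i (Finset.mem_insert_self _ _)
    have h2 := ih (fun j hj => hf j (Finset.mem_insert_of_mem hj))
    have := h1.add h2
    simpa [Finset.sum_insert hi] using this

lemma prB_of_bdd {f : Ω → ℝ} {B : ℝ} (hf : Measurable f) (hB : ∀ ω, |f ω| ≤ B) : prB μ f :=
  ⟨hf.aestronglyMeasurable, B, Eventually.of_forall hB⟩

lemma prB_ce (hm : m ≤ m0) {f : Ω → ℝ} {B : ℝ} (hB : ∀ ω, |f ω| ≤ B) : prB μ (μ[f | m]) :=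
  ⟨(stronglyMeasurable_condExp.mono hm).aestronglyMeasurable, B,
    ce_abs_le hm (Eventually.of_forall hB)⟩

theorem perp_sum (hm : m ≤ m0) {ι : Type*} {a b : Ω → ℝ} {Δ : ι → Ω → ℝ} {B : ℝ}
    (ha : Measurable a) (hb : Measurable b) (hΔ : ∀ j, Measurable (Δ j))
    (haB : ∀ ω, |a ω| ≤ B) (hbB : ∀ ω, |b ω| ≤ B) (hΔB : ∀ j ω, |Δ j ω| ≤ B)
    (hE : HasSum (fun j => ∫ ω, Δ j ω ^ 2 ∂μ) (∫ ω, (b ω - a ω) ^ 2 ∂μ))
    (hc : ∀ j, ∫ ω, (b ω - a ω) * Δ j ω ∂μ = ∫ ω, Δ j ω ^ 2 ∂μ)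
    (ho : ∀ i j, i ≠ j → ∫ ω, Δ i ω * Δ j ω ∂μ = 0)
    (hpa : ∀ j, ∫ ω, (a ω - μ[a | m] ω) * (Δ j ω - μ[Δ j | m] ω) ∂μ = 0)
    (hpo : ∀ i j, i ≠ j → ∫ ω, (Δ i ω - μ[Δ i | m] ω) * (Δ j ω - μ[Δ j | m] ω) ∂μ = 0)
    {S : ℝ} (hS : ∀ J : Finset ι, ∑ j ∈ J, ∫ ω, (Δ j ω - μ[Δ j | m] ω) ^ 2 ∂μ ≤ S) :
    ∫ ω, (b ω - μ[b | m] ω) ^ 2 ∂μ ≤ ∫ ω, (a ω - μ[a | m] ω) ^ 2 ∂μ + S := by
  classical
  -- the remainder
  set R : Finset ι → Ω → ℝ := fun J ω => b ω - a ω - ∑ j ∈ J, Δ j ω with hR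
  have hRm : ∀ J, Measurable (R J) := fun J =>
    (hb.sub ha).sub (Finset.measurable_sum _ fun j _ => hΔ j)
  have hRB : ∀ J ω, |R J ω| ≤ B + B + J.card * B := by
    intro J ω
    have h1 : |∑ j ∈ J, Δ j ω| ≤ J.card * B := by
      refine (Finset.abs_sum_le_sum_abs _ _).trans ?_
      calc ∑ j ∈ J, |Δ j ω| ≤ ∑ _j ∈ J, B := Finset.sum_le_sum fun j _ => hΔB j ω
        _ = J.card * B := by simp
    have h2 := hbB ω
    have h3 := haB ω
    calc |R J ω| ≤ |b ω - a ω| + |∑ j ∈ J, Δ j ω| := abs_sub _ _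
      _ ≤ (|b ω| + |a ω|) + |∑ j ∈ J, Δ j ω| := by gcongr; exact abs_sub _ _
      _ ≤ B + B + J.card * B := by linarith
  have hRb : ∀ J, prB μ (R J) := fun J => prB_of_bdd (hRm J) (hRB J)
  have hΔb : ∀ j, prB μ (Δ j) := fun j => prB_of_bdd (hΔ j) (hΔB j)
  have hab : prB μ a := prB_of_bdd ha haB
  have hbb : prB μ b := prB_of_bdd hb hbB
  -- the energy of the remainder
  have hRE : ∀ J, ∫ ω, R J ω ^ 2 ∂μ = ∫ ω, (b ω - a ω) ^ 2 ∂μ - ∑ j ∈ J, ∫ ω, Δ j ω ^ 2 ∂μ := by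
    intro J
    induction J using Finset.induction_on with
    | empty => simp [hR]
    | insert i J hi ih =>
      rw [Finset.sum_insert hi]
      have hcross : ∫ ω, R J ω * Δ i ω ∂μ = ∫ ω, Δ i ω ^ 2 ∂μ := by
        have e : ∀ ω, R J ω * Δ i ω = (b ω - a ω) * Δ i ω - ∑ j ∈ J, Δ j ω * Δ i ω := by
          intro ω
          simp only [hR, sub_mul, Finset.sum_mul]
        simp_rw [e]
        rw [integral_sub ((hbb.sub hab).mul (hΔb i)).integrable
          ((prB.sum J fun j _ => (hΔb j).mul (hΔb i)).integrable),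
          integral_finsetSum J (fun j _ => ((hΔb j).mul (hΔb i)).integrable), hc i,
          Finset.sum_eq_zero (fun j hj => ho j i (fun h => hi (h ▸ hj))), sub_zero]
      have e : ∀ ω, R (insert i J) ω ^ 2 = R J ω ^ 2 - 2 * (R J ω * Δ i ω) + Δ i ω ^ 2 := by
        intro ω
        simp only [hR, Finset.sum_insert hi]
        ring
      simp_rw [e]
      rw [integral_add (((hRb J).sq.sub (by
            simpa using (((prB.mul ⟨aestronglyMeasurable_const, 2, by simp⟩ ((hRb J).mul (hΔb i))))))).integrable)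
          (hΔb i).sq.integrable,
        integral_sub (hRb J).sq.integrable (by
            simpa using (((prB.mul ⟨aestronglyMeasurable_const, 2, by simp⟩ ((hRb J).mul (hΔb i))))).integrable),
        integral_const_mul, hcross, ih]
      ring
  -- perpendicular parts
  set pe : (Ω → ℝ) → Ω → ℝ := fun f ω => f ω - μ[f | m] ω with hpe
  have hpeb : ∀ {f : Ω → ℝ} {C : ℝ}, Measurable f → (∀ ω, |f ω| ≤ C) → prB μ (pe f) := by
    intro f C h1 h2
    exact (prB_of_bdd h1 h2).sub (prB_ce hm h2)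
  have hpa' := hpeb ha haB
  have hpb' := hpeb hb hbB
  have hpΔ' : ∀ j, prB μ (pe (Δ j)) := fun j => hpeb (hΔ j) (hΔB j)
  have hpR' : ∀ J, prB μ (pe (R J)) := fun J => hpeb (hRm J) (hRB J)
  -- the Pythagoras identity
  set X : Finset ι → Ω → ℝ := fun J ω => pe a ω + ∑ j ∈ J, pe (Δ j) ω with hX
  have hXb : ∀ J, prB μ (X J) := fun J => hpa'.add (prB.sum J fun j _ => hpΔ' j)
  have hXE : ∀ J, ∫ ω, X J ω ^ 2 ∂μ = ∫ ω, pe a ω ^ 2 ∂μ + ∑ j ∈ J, ∫ ω, pe (Δ j) ω ^ 2 ∂μ := by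
    intro J
    induction J using Finset.induction_on with
    | empty => simp [hX]
    | insert i J hi ih =>
      rw [Finset.sum_insert hi]
      have hcross : ∫ ω, X J ω * pe (Δ i) ω ∂μ = 0 := by
        have e : ∀ ω, X J ω * pe (Δ i) ω = pe a ω * pe (Δ i) ω + ∑ j ∈ J, pe (Δ j) ω * pe (Δ i) ω := by
          intro ω
          simp only [hX, add_mul, Finset.sum_mul]
        simp_rw [e]
        rw [integral_add (hpa'.mul (hpΔ' i)).integrable
          ((prB.sum J fun j _ => (hpΔ' j).mul (hpΔ' i)).integrable),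
          integral_finsetSum J (fun j _ => ((hpΔ' j).mul (hpΔ' i)).integrable)]
        have h1 : ∫ ω, pe a ω * pe (Δ i) ω ∂μ = 0 := hpa i
        have h2 : ∑ j ∈ J, ∫ ω, pe (Δ j) ω * pe (Δ i) ω ∂μ = 0 :=
          Finset.sum_eq_zero fun j hj => hpo j i (fun h => hi (h ▸ hj))
        rw [h1, h2, add_zero]
      have e : ∀ ω, X (insert i J) ω ^ 2 = X J ω ^ 2 + 2 * (X J ω * pe (Δ i) ω) + pe (Δ i) ω ^ 2 := by
        intro ω
        simp only [hX, Finset.sum_insert hi]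
        ring
      simp_rw [e]
      have hmul : Integrable (fun ω => 2 * (X J ω * pe (Δ i) ω)) μ :=
        ((hXb J).mul (hpΔ' i)).integrable.const_mul 2
      have hI12 : Integrable (fun ω => X J ω ^ 2 + 2 * (X J ω * pe (Δ i) ω)) μ :=
        (hXb J).sq.integrable.add hmul
      rw [integral_add hI12 (hpΔ' i).sq.integrable,
        integral_add (hXb J).sq.integrable hmul, integral_const_mul, hcross, ih]
      ring
  -- decomposition
  have hdec : ∀ J, ∀ᵐ ω ∂μ, pe b ω = X J ω + pe (R J) ω := by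
    intro J
    have hbsum : b = fun ω => a ω + ((∑ j ∈ J, Δ j) ω + R J ω) := by
      funext ω
      simp only [hR, Finset.sum_apply]
      ring
    have hint : ∀ {f : Ω → ℝ}, Measurable f → (∃ C, ∀ ω, |f ω| ≤ C) → Integrable f μ := by
      intro f h1 ⟨C, h2⟩
      exact (prB_of_bdd h1 h2).integrable
    have hI1 : Integrable a μ := hab.integrable
    have hI2 : Integrable (∑ j ∈ J, Δ j) μ := by
      have h := (prB.sum J fun j _ => hΔb j).integrable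
      have e : (∑ j ∈ J, Δ j) = fun ω => ∑ j ∈ J, Δ j ω := by
        funext ω
        simp
      rw [e]
      exact h
    have hI3 : Integrable (R J) μ := (hRb J).integrable
    have h1 : μ[b | m] =ᵐ[μ] μ[a | m] + (μ[∑ j ∈ J, Δ j | m] + μ[R J | m]) := by
      have h : μ[b | m] = μ[a + ((∑ j ∈ J, Δ j) + R J) | m] := by
        congr 1
      rw [h]
      exact (condExp_add hI1 (hI2.add hI3) m).trans
        (EventuallyEq.add EventuallyEq.rfl (condExp_add hI2 hI3 m))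
    have h2 : μ[∑ j ∈ J, Δ j | m] =ᵐ[μ] ∑ j ∈ J, μ[Δ j | m] :=
      condExp_finsetSum (fun j _ => (hΔb j).integrable) m
    filter_upwards [h1, h2] with ω e1 e2
    simp only [hpe, hX, hR] at *
    rw [e1]
    simp only [Pi.add_apply]
    rw [e2]
    simp only [Finset.sum_apply, Finset.sum_sub_distrib]
    ring
  -- the main inequality for each `η` and `J`
  have hS0 : 0 ≤ S := by simpa using hS ∅
  have hA0 : 0 ≤ ∫ ω, pe a ω ^ 2 ∂μ := integral_nonneg fun ω => sq_nonneg _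
  set A : ℝ := ∫ ω, pe a ω ^ 2 ∂μ + S with hA
  have hA0' : 0 ≤ A := add_nonneg hA0 hS0
  have hmain : ∀ η : ℝ, 0 < η → ∀ J : Finset ι, ∫ ω, pe b ω ^ 2 ∂μ ≤
      (1 + η) * A + (1 + 1 / η) * (∫ ω, (b ω - a ω) ^ 2 ∂μ - ∑ j ∈ J, ∫ ω, Δ j ω ^ 2 ∂μ) := by
    intro η hη J
    have hle : ∫ ω, pe b ω ^ 2 ∂μ ≤
        ∫ ω, ((1 + η) * X J ω ^ 2 + (1 + 1 / η) * pe (R J) ω ^ 2) ∂μ := by
      apply integral_mono_ae hpb'.sq.integrable
        (((hXb J).sq.integrable.const_mul _).add ((hpR' J).sq.integrable.const_mul _))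
      filter_upwards [hdec J] with ω e
      rw [e]
      have h3 : 0 ≤ (η * X J ω - pe (R J) ω) ^ 2 / η := by positivity
      have h4 : (X J ω + pe (R J) ω) ^ 2 =
          (1 + η) * X J ω ^ 2 + (1 + 1 / η) * pe (R J) ω ^ 2 - (η * X J ω - pe (R J) ω) ^ 2 / η := by
        field_simp
        ring
      change (X J ω + pe (R J) ω) ^ 2 ≤ (1 + η) * X J ω ^ 2 + (1 + 1 / η) * pe (R J) ω ^ 2
      linarith
    rw [integral_add ((hXb J).sq.integrable.const_mul _) ((hpR' J).sq.integrable.const_mul _),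
      integral_const_mul, integral_const_mul, hXE J] at hle
    have h5 : ∫ ω, pe (R J) ω ^ 2 ∂μ ≤ ∫ ω, R J ω ^ 2 ∂μ := by
      have := ce_min (μ := μ) hm (Z := R J) (c := fun _ => 0) (hRm J) (hRB J) measurable_const
        (by
          intro ω
          have := (abs_nonneg _).trans (hRB J ω)
          simpa using this)
      simpa using this
    rw [hRE J] at h5
    have h6 := hS J
    have h7 : ∑ j ∈ J, ∫ ω, pe (Δ j) ω ^ 2 ∂μ ≤ S := h6
    have hη1 : 0 ≤ 1 + η := by linarith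
    have hη2 : 0 ≤ 1 + 1 / η := by positivity
    calc ∫ ω, pe b ω ^ 2 ∂μ
        ≤ _ := hle
      _ ≤ (1 + η) * A + (1 + 1 / η) * (∫ ω, (b ω - a ω) ^ 2 ∂μ - ∑ j ∈ J, ∫ ω, Δ j ω ^ 2 ∂μ) := by
          apply add_le_add
          · apply mul_le_mul_of_nonneg_left _ hη1
            rw [hA]
            linarith
          · exact mul_le_mul_of_nonneg_left h5 hη2
  -- limit in `J`
  have hlim : ∀ η : ℝ, 0 < η → ∫ ω, pe b ω ^ 2 ∂μ ≤ (1 + η) * A := by
    intro η hη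
    have ht : Tendsto (fun J : Finset ι => (1 + η) * A + (1 + 1 / η) *
        (∫ ω, (b ω - a ω) ^ 2 ∂μ - ∑ j ∈ J, ∫ ω, Δ j ω ^ 2 ∂μ)) atTop
        (𝓝 ((1 + η) * A + (1 + 1 / η) * (∫ ω, (b ω - a ω) ^ 2 ∂μ - ∫ ω, (b ω - a ω) ^ 2 ∂μ))) :=
      tendsto_const_nhds.add (tendsto_const_nhds.mul (tendsto_const_nhds.sub hE))
    have := ge_of_tendsto' ht (hmain η hη)
    simpa using this
  -- limit in `η`
  have hfin : ∫ ω, pe b ω ^ 2 ∂μ ≤ A := by
    apply le_of_forall_pos_le_add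
    intro ε hε
    have hpos : 0 < ε / (A + 1) := by positivity
    have := hlim _ hpos
    have h8 : (1 + ε / (A + 1)) * A ≤ A + ε := by
      have : ε / (A + 1) * A ≤ ε := by
        rw [div_mul_eq_mul_div, div_le_iff₀ (by positivity)]
        nlinarith
      nlinarith
    linarith
  exact hfin

end Vale.Agent.Lib.P161.Crit
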