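import Vale.Agent.Lib.P161.Crit.Msg

/-!
Deterministic part of the Bayes formula: the tilted magnetisation on a ball is the `tanh` of the
depth message; messages only see the field on their side of an edge.
-/

open MeasureTheory Filter Topology Finset

noncomputable section
namespace Vale.Agent.Lib.P161.Crit

open scoped Classical
open Vale.Agent.Lib.P161

variable {V : Type} (C : CT V)

/-- the children of `u` seen from `x` -/
lemma po_mem_children {x u c : V} :
    c ∈ (C.nb u).erase (tw C x u) ↔ C.G.Adj u c ∧ C.G.dist c x = C.G.dist u x + 1 := by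
  rw [Finset.mem_erase, C.hnb]
  constructor
  · rintro ⟨hne, hadj⟩
    refine ⟨hadj, ?_⟩
    by_cases hu : u = x
    · subst hu
      simp [dist_one_of_adj hadj.symm]
    · exact away_of_ne_toward C.hT hadj (tw_adj C hu) (tw_dist C hu) hne
  · rintro ⟨hadj, hd⟩
    refine ⟨?_, hadj⟩
    rintro rfl
    by_cases hu : u = x
    · subst hu
      rw [tw_self] at hadj
      exact C.G.irrefl hadj
    · have := tw_dist C hu
      omega

/-- the field after eliminating the layer at distance `R + 1` -/
def po_Xstep (x : V) (R : ℕ) (X : V → ℝ) (u : V) : ℝ :=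
  if C.G.dist u x = R then X u + ∑ c ∈ (C.nb u).erase (tw C x u), psi C.θ (X c) else X u

lemma po_msg_step (x : V) (R : ℕ) (X : V → ℝ) (m : ℕ) :
    ∀ u, C.G.dist u x + m = R →
      msg C (po_Xstep C x R X) m u (tw C x u) = msg C X (m + 1) u (tw C x u) := by
  induction m with
  | zero =>
    intro u hu
    have h : C.G.dist u x = R := by omega
    simp only [msg, po_Xstep, if_pos h]
  | succ m ih =>
    intro u hu
    have h : C.G.dist u x ≠ R := by omega
    rw [msg, msg]
    have e1 : po_Xstep C x R X u = X u := by simp only [po_Xstep, if_neg h]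
    rw [e1]
    congr 1
    refine Finset.sum_congr rfl fun c hc => ?_
    obtain ⟨hadj, hd⟩ := (po_mem_children C).1 hc
    have htw : tw C x c = u := tw_unique C hadj.symm hd.symm
    have := ih c (by omega)
    rw [htw] at this
    rw [this]

lemma po_conv_ball_union (x : V) (R : ℕ) (T : Finset V) (hT : ∀ c ∈ T, C.G.dist c x = R + 1) :
    Conv C.G (ballF C.nb x R ∪ T) := by
  induction T using Finset.induction_on with
  | empty => simpa using conv_ballF C.hT C.hnb x R
  | insert l T hl ih =>
    have hT' : ∀ c ∈ T, C.G.dist c x = R + 1 := fun c hc => hT c (Finset.mem_insert_of_mem hc)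
    have hlx := hT l (Finset.mem_insert_self _ _)
    have hne : l ≠ x := by
      rintro rfl
      simp at hlx
    rw [Finset.union_insert]
    refine conv_insert C.hT (ih hT') (p := tw C x l) ?_ ?_ (tw_adj C hne).symm
    · refine Finset.mem_union_left _ ?_
      rw [mem_ballF C.hT C.hnb]
      have := tw_dist C hne
      omega
    · rw [Finset.mem_union, not_or]
      refine ⟨?_, hl⟩
      rw [mem_ballF C.hT C.hnb]
      omega

lemma po_Mt_union (x : V) (R : ℕ) (T : Finset V) (hT : ∀ c ∈ T, C.G.dist c x = R + 1) (X : V → ℝ) :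
    Mt C.G C.θ (ballF C.nb x R ∪ T) x X =
      Mt C.G C.θ (ballF C.nb x R) x
        (fun u => X u + ∑ c ∈ T.filter (· ∈ C.nb u), psi C.θ (X c)) := by
  induction T using Finset.induction_on generalizing X with
  | empty => simp
  | insert l T hl ih =>
    have hT' : ∀ c ∈ T, C.G.dist c x = R + 1 := fun c hc => hT c (Finset.mem_insert_of_mem hc)
    have hlx := hT l (Finset.mem_insert_self _ _)
    have hne : l ≠ x := by
      rintro rfl
      simp at hlx
    have hdp := tw_dist C hne
    have hxB : x ∈ ballF C.nb x R ∪ T :=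
      Finset.mem_union_left _ (center_mem_ballF C.hT C.hnb x R)
    have hpB : tw C x l ∈ ballF C.nb x R := by
      rw [mem_ballF C.hT C.hnb]
      omega
    have hl' : l ∉ ballF C.nb x R ∪ T := by
      rw [Finset.mem_union, not_or]
      refine ⟨?_, hl⟩
      rw [mem_ballF C.hT C.hnb]
      omega
    rw [Finset.union_insert, Mt_leaf C.hT C.hθ0.le (th_lt_one C) (po_conv_ball_union C x R T hT')
      (Finset.mem_union_left _ hpB) hl' (tw_adj C hne).symm hxB, ih hT']
    apply Mt_congr
    intro u hu
    rw [mem_ballF C.hT C.hnb] at hu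
    have hsum : ∑ c ∈ T.filter (· ∈ C.nb u),
        psi C.θ (Function.update X (tw C x l) (X (tw C x l) + psi C.θ (X l)) c)
        = ∑ c ∈ T.filter (· ∈ C.nb u), psi C.θ (X c) := by
      refine Finset.sum_congr rfl fun c hc => ?_
      have hc' := hT' c (Finset.mem_filter.1 hc).1
      have : c ≠ tw C x l := by
        rintro rfl
        omega
      rw [Function.update_of_ne this]
    rw [hsum, Finset.filter_insert]
    by_cases hup : u = tw C x l
    · subst hup
      have hin : l ∈ C.nb (tw C x l) := (C.hnb _ _).2 (tw_adj C hne).symm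
      rw [if_pos hin, Finset.sum_insert (fun h => hl (Finset.mem_filter.1 h).1),
        Function.update_self]
      ring
    · rw [Function.update_of_ne hup]
      have hin : l ∉ C.nb u := by
        intro h
        have hadj := (C.hnb _ _).1 h
        have h1 : C.G.dist u x + 1 = C.G.dist l x := by
          have h2 := dist_adj C.hT x hadj
          rw [dist_sym x u, dist_sym x l] at h2
          omega
        exact hup (tw_unique C hadj.symm h1).symm
      rw [if_neg hin]

lemma po_Mt_step (x : V) (R : ℕ) (X : V → ℝ) :
    Mt C.G C.θ (ballF C.nb x (R + 1)) x X = Mt C.G C.θ (ballF C.nb x R) x (po_Xstep C x R X) := by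
  have hball : ballF C.nb x (R + 1) = ballF C.nb x R ∪ sph C x (R + 1) := by
    ext u
    rw [Finset.mem_union, mem_ballF C.hT C.hnb, mem_ballF C.hT C.hnb, mem_sph]
    omega
  rw [hball, po_Mt_union C x R _ (fun c hc => mem_sph C |>.1 hc)]
  apply Mt_congr
  intro u hu
  rw [mem_ballF C.hT C.hnb] at hu
  unfold po_Xstep
  split_ifs with h
  · congr 1
    refine Finset.sum_congr ?_ fun _ _ => rfl
    ext c
    rw [Finset.mem_filter, mem_sph, po_mem_children, C.hnb]
    constructor
    · rintro ⟨h1, h2⟩
      exact ⟨h2, by omega⟩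
    · rintro ⟨h1, h2⟩
      exact ⟨by omega, h1⟩
  · have : (sph C x (R + 1)).filter (· ∈ C.nb u) = ∅ := by
      rw [Finset.filter_eq_empty_iff]
      intro c hc hcu
      rw [mem_sph] at hc
      have hadj := (C.hnb _ _).1 hcu
      have h3 := dist_tri C.hT c u x
      have h4 := dist_one_of_adj hadj.symm
      omega
    rw [this, Finset.sum_empty, add_zero]

/-- **the ball formula** -/
theorem po_Mt_ball (x : V) (R : ℕ) (X : V → ℝ) :
    Mt C.G C.θ (ballF C.nb x R) x X = Real.tanh (msg C X R x x) := by
  induction R generalizing X with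
  | zero =>
    have : ballF C.nb x 0 = {x} := rfl
    rw [this, Mt_singleton]
    simp only [msg]
    rw [Real.tanh_eq_sinh_div_cosh, Real.sinh_eq, Real.cosh_eq]
    have : Real.exp (X x) + Real.exp (-X x) ≠ 0 := by positivity
    field_simp
  | succ R ih =>
    rw [po_Mt_step, ih]
    have := po_msg_step C x R X R x (by simp)
    rw [tw_self] at this
    rw [this]

/-! ### messages and the sides of an edge -/

lemma po_side_child {a b u c : V} (hu : C.G.dist u a < C.G.dist u b)
    (hc : c ∈ (C.nb u).erase (tw C b u)) :
    C.G.dist c a < C.G.dist c b ∧ tw C b c = u := by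
  obtain ⟨hadj, hd⟩ := (po_mem_children C).1 hc
  refine ⟨?_, tw_unique C hadj.symm hd.symm⟩
  have h1 := dist_tri C.hT c u a
  have h2 := dist_one_of_adj hadj.symm
  omega

/-- a message away from `b` only sees the field on its side -/
lemma po_msg_side_eq {a b : V} {X X' : V → ℝ} (h : ∀ u, C.G.dist u a < C.G.dist u b → X' u = X u)
    (m : ℕ) : ∀ u, C.G.dist u a < C.G.dist u b → msg C X' m u (tw C b u) = msg C X m u (tw C b u) := by
  induction m with
  | zero =>
    intro u hu
    simp only [msg]
    exact h u hu
  | succ m ih =>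
    intro u hu
    rw [msg, msg, h u hu]
    congr 1
    refine Finset.sum_congr rfl fun c hc => ?_
    obtain ⟨hc1, hc2⟩ := po_side_child C hu hc
    have := ih c hc1
    rw [hc2] at this
    rw [this]

lemma po_msg_zero_field (m : ℕ) (a b : V) : msg C (fun _ => 0) m a b = 0 := by
  induction m generalizing a b with
  | zero => rfl
  | succ m ih =>
    rw [msg]
    simp only [ih, psi_zero, Finset.sum_const_zero, add_zero]

lemma po_tw_of_adj {a b : V} (hab : C.G.Adj a b) : tw C b a = b :=
  tw_unique C hab (by simp [dist_one_of_adj hab])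

lemma po_side_self {a b : V} (hab : C.G.Adj a b) : C.G.dist a a < C.G.dist a b := by
  simp [dist_one_of_adj hab]

/-- on the side of `a` the message at the edge agrees with that of the restricted field -/
lemma po_msg_side_edge {a b : V} (hab : C.G.Adj a b) {X X' : V → ℝ}
    (h : ∀ u, C.G.dist u a < C.G.dist u b → X' u = X u) (m : ℕ) :
    msg C X' m a b = msg C X m a b := by
  have := po_msg_side_eq C h m a (po_side_self C hab)
  rwa [po_tw_of_adj C hab] at this

lemma po_msg_side_zero {a b : V} (hab : C.G.Adj a b) {X' : V → ℝ}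
    (h : ∀ u, C.G.dist u b < C.G.dist u a → X' u = 0) (m : ℕ) : msg C X' m b a = 0 := by
  rw [po_msg_side_edge C hab.symm (X := fun _ => 0) h m, po_msg_zero_field]

/-- the root message of the field restricted to the side of `a` is the edge message -/
lemma po_msg_root_side {a b : V} (hab : C.G.Adj a b) {X X' : V → ℝ}
    (h : ∀ u, C.G.dist u a < C.G.dist u b → X' u = X u)
    (h0 : ∀ u, C.G.dist u b < C.G.dist u a → X' u = 0) (m : ℕ) :
    msg C X' (m + 1) a a = msg C X (m + 1) a b := by
  rw [← po_msg_side_edge C hab h (m + 1), msg, msg]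
  congr 1
  have hb : b ∈ C.nb a := (C.hnb _ _).2 hab
  have ha : (C.nb a).erase a = C.nb a := Finset.erase_eq_of_notMem (fun h => C.G.irrefl ((C.hnb _ _).1 h))
  rw [ha, ← Finset.add_sum_erase _ _ hb, po_msg_side_zero C hab h0 m, psi_zero, zero_add]

end Vale.Agent.Lib.P161.Crit
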