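import Vale.Agent.Lib.P161.Crit.Spin

/-!
The finite Bayes formula: for a finite set of observations with sites in a finite convex set,
the tilted magnetisation of the log-likelihood field is the posterior mean of the spin.
-/

open MeasureTheory Filter Topology Finset

noncomputable section
namespace Vale.Agent.Lib.P161.Crit

open scoped Classical
open Vale.Agent.Lib.P161

variable {V : Type} (C : CT V)

/-! ### one noise coordinate -/

lemma po_integral_lam_neg (f : ℝ → ℝ) : ∫ x, f (-x) ∂lam = ∫ x, f x ∂lam := by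
  rw [integral_lam, integral_lam]
  congr 1
  rw [integral_Icc_eq_integral_Ioc, integral_Icc_eq_integral_Ioc,
    ← intervalIntegral.integral_of_le (by norm_num), ← intervalIntegral.integral_of_le (by norm_num),
    intervalIntegral.integral_comp_neg]
  simp

lemma po_cl_neg (x : ℝ) : cl (-x) = -cl x := by
  simp only [cl, max_def, min_def]
  split_ifs <;> linarith

/-- the law of the noisy observation of a known spin -/
lemma po_integral_noise {ε σ : ℝ} (h0 : 0 ≤ ε) (h1 : ε < 1) (hσ : σ = 1 ∨ σ = -1) (h : ℝ → ℝ) :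
    ∫ x, h (σ * Sf x ε) ∂lam = ∫ x, h (cl x) * (1 + ε * σ * cl x) ∂lam := by
  have hc : |ε| ≤ ε := by rw [abs_of_nonneg h0]
  rcases hσ with rfl | rfl
  · simpa using integral_Sf h1 hc h
  · have e1 := integral_Sf h1 hc (fun y => h (-y))
    have e2 := po_integral_lam_neg (fun x => h (cl x) * (1 + ε * -1 * cl x))
    rw [← e2]
    simp only [neg_one_mul, po_cl_neg] at e1 ⊢
    rw [e1]
    refine integral_congr_ae (Eventually.of_forall fun x => ?_)
    simp only
    ring_nf

/-! ### integrating out coordinates in the full space -/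

lemma po_mp_update_om (i : Ix V) :
    MeasurePreserving (fun p : Om V × ℝ => ((p.1.1, Function.update p.1.2 i p.2) : Om V))
      ((PP V).prod lam) (PP V) := by
  have h1 : MeasurePreserving (fun p : Bool × (WW V × ℝ) => ((p.1, Function.update p.2.1 i p.2.2) : Om V))
      (sM.prod ((PW V).prod lam)) (PP V) :=
    (MeasurePreserving.id sM).prod (mp_update (I := Ix V) i)
  have h2 := measurePreserving_prodAssoc sM (PW V) lam
  exact h1.comp h2

/-- integrate out a noise coordinate -/
theorem po_integral_update_om (i : Ix V) {F : Om V → ℝ} (hF : Measurable F) {B : ℝ}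
    (hB : ∀ ω, |F ω| ≤ B) :
    ∫ ω, F ω ∂(PP V) = ∫ ω, ∫ x, F (ω.1, Function.update ω.2 i x) ∂lam ∂(PP V) := by
  have h := po_mp_update_om (V := V) i
  calc ∫ ω, F ω ∂(PP V) = ∫ ω, F ω ∂(((PP V).prod lam).map
        (fun p : Om V × ℝ => ((p.1.1, Function.update p.1.2 i p.2) : Om V))) := by
        rw [h.map_eq]
    _ = ∫ p, F (p.1.1, Function.update p.1.2 i p.2) ∂((PP V).prod lam) :=
        integral_map h.measurable.aemeasurable hF.aestronglyMeasurable
    _ = _ := integral_prod _ (integrable_of_bdd (hF.comp h.measurable).aestronglyMeasurable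
        (fun _ => hB _))

lemma po_mp_glue_om (S : Set (Ix V)) :
    MeasurePreserving (fun p : WW V × Om V => ((p.2.1, glue S p.1 p.2.2) : Om V))
      ((PW V).prod (PP V)) (PP V) := by
  have h1 : MeasurePreserving (fun p : Bool × (WW V × WW V) => ((p.1, glue S p.2.1 p.2.2) : Om V))
      (sM.prod ((PW V).prod (PW V))) (PP V) :=
    (MeasurePreserving.id sM).prod (measurePreserving_glue (I := Ix V) S)
  have h2 : MeasurePreserving (fun p : WW V × (Bool × WW V) => (p.2.1, (p.1, p.2.2)))
      ((PW V).prod (sM.prod (PW V))) (sM.prod ((PW V).prod (PW V))) := by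
    have e1 := (measurePreserving_prodAssoc (PW V) sM (PW V)).symm
    have e2 : MeasurePreserving (Prod.map (Prod.swap : WW V × Bool → Bool × WW V) (id : WW V → WW V))
        (((PW V).prod sM).prod (PW V)) ((sM.prod (PW V)).prod (PW V)) :=
      (Measure.measurePreserving_swap).prod (MeasurePreserving.id _)
    have e3 := measurePreserving_prodAssoc sM (PW V) (PW V)
    exact (e3.comp e2).comp e1
  exact h1.comp h2

/-- integrate the coordinates in `S` separately -/
theorem po_integral_glue_om (S : Set (Ix V)) {F : Om V → ℝ} (hF : Measurable F) {B : ℝ}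
    (hB : ∀ ω, |F ω| ≤ B) :
    ∫ ω, F ω ∂(PP V) = ∫ w, ∫ ω, F (ω.1, glue S w ω.2) ∂(PP V) ∂(PW V) := by
  have h := po_mp_glue_om (V := V) S
  calc ∫ ω, F ω ∂(PP V) = ∫ ω, F ω ∂(((PW V).prod (PP V)).map
        (fun p : WW V × Om V => ((p.2.1, glue S p.1 p.2.2) : Om V))) := by
        rw [h.map_eq]
    _ = ∫ p, F (p.2.1, glue S p.1 p.2.2) ∂((PW V).prod (PP V)) :=
        integral_map h.measurable.aemeasurable hF.aestronglyMeasurable
    _ = _ := integral_prod _ (integrable_of_bdd (hF.comp h.measurable).aestronglyMeasurable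
        (fun _ => hB _))

/-! ### dependence on the coordinates -/

variable {C}

lemma po_eS_congr {w w' : WW V} (e : Sym2 V) (h : w (.ed e) = w' (.ed e)) : eS C e w = eS C e w' := by
  unfold eS; rw [h]

lemma po_spin_congr {b : Bool} {w w' : WW V} (h : ∀ e, w (.ed e) = w' (.ed e)) (v : V) :
    spin C (b, w) v = spin C (b, w') v := by
  unfold spin pS
  congr 1
  exact Finset.prod_congr rfl fun i _ => po_eS_congr _ (h _)

lemma po_yy_congr {b : Bool} {w w' : WW V} (h : ∀ e, w (.ed e) = w' (.ed e)) {j : Stp V}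
    (hj : w (.no j) = w' (.no j)) : yy C j (b, w) = yy C j (b, w') := by
  unfold yy
  simp only
  rw [po_spin_congr h, hj]

lemma po_spin_update_no (j : Stp V) (b : Bool) (w : WW V) (x : ℝ) (v : V) :
    spin C (b, Function.update w (.no j) x) v = spin C (b, w) v :=
  po_spin_congr (fun e => by rw [Function.update_of_ne (by simp)]) v

lemma po_yy_update_no_ne {i j : Stp V} (h : j ≠ i) (b : Bool) (w : WW V) (x : ℝ) :
    yy C j (b, Function.update w (.no i) x) = yy C j (b, w) :=
  po_yy_congr (fun e => by rw [Function.update_of_ne (by simp)])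
    (by rw [Function.update_of_ne (by simpa using h)])

lemma po_yy_update_no_self (i : Stp V) (b : Bool) (w : WW V) (x : ℝ) :
    yy C i (b, Function.update w (.no i) x) = spin C (b, w) i.2 * Sf x (eps i.1) := by
  unfold yy nz
  simp only [Function.update_self]
  rw [po_spin_update_no]

variable (C)

/-- the observations in `J` -/
def po_YJ (J : Finset (Stp V)) (ω : Om V) : Stp V → ℝ := fun j => if j ∈ J then yy C j ω else 0

/-- the clamped noise coordinates in `J` -/
def po_RJ (J : Finset (Stp V)) (w : WW V) : Stp V → ℝ := fun j => if j ∈ J then cl (w (.no j)) else 0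

/-- the likelihood of step `j` -/
def po_lk (ω : Om V) (j : Stp V) : ℝ := 1 + eps j.1 * spin C ω j.2 * cl (ω.2 (.no j))

lemma po_measurable_YJ (J : Finset (Stp V)) : Measurable (po_YJ C J : Om V → Stp V → ℝ) := by
  refine measurable_pi_lambda _ fun j => ?_
  by_cases h : j ∈ J
  · simpa only [po_YJ, h, if_true] using measurable_yy C j
  · simpa only [po_YJ, h, if_false] using measurable_const

lemma po_measurable_RJ (J : Finset (Stp V)) : Measurable (po_RJ J : WW V → Stp V → ℝ) := by
  refine measurable_pi_lambda _ fun j => ?_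
  by_cases h : j ∈ J
  · simp only [po_RJ, h, if_true]
    exact measurable_cl.comp (measurable_pi_apply _)
  · simp only [po_RJ, h, if_false]
    exact measurable_const

lemma po_measurable_lk (j : Stp V) : Measurable fun ω : Om V => po_lk C ω j := by
  unfold po_lk
  exact measurable_const.add (((measurable_spin C j.2).const_mul _).mul
    (measurable_cl.comp ((measurable_pi_apply _).comp measurable_snd)))

lemma po_abs_lk_le (ω : Om V) (j : Stp V) : |po_lk C ω j| ≤ 2 := by
  unfold po_lk
  have h1 : |eps j.1 * spin C ω j.2 * cl (ω.2 (.no j))| ≤ 1 := by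
    rw [abs_mul, abs_mul]
    have h2 : |eps j.1| ≤ 1 := by
      rw [abs_of_pos (eps_pos _)]
      linarith [eps_le j.1]
    have h3 : |spin C ω j.2| ≤ 1 := by
      rcases spin_cases C ω j.2 with h | h <;> simp [h]
    have h4 := abs_cl_le (ω.2 (.no j))
    calc |eps j.1| * |spin C ω j.2| * |cl (ω.2 (.no j))| ≤ 1 * 1 * 1 := by gcongr
      _ = 1 := by norm_num
  refine (abs_add_le _ _).trans ?_
  rw [abs_one]
  linarith

/-- **Change of noise**: the observations may be replaced by the clamped noise at the cost of the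
likelihood factors. -/
theorem po_change_noise (J : Finset (Stp V)) {G : (Stp V → ℝ) × Om V → ℝ} (hG : Measurable G) {B : ℝ}
    (hB : ∀ p, |G p| ≤ B)
    (hdep : ∀ j ∈ J, ∀ y b w x, G (y, (b, Function.update w (.no j) x)) = G (y, (b, w))) :
    ∫ ω, G (po_YJ C J ω, ω) ∂(PP V) = ∫ ω, G (po_RJ J ω.2, ω) * ∏ j ∈ J, po_lk C ω j ∂(PP V) := by
  induction J using Finset.induction_on generalizing G B with
  | empty =>
    have h1 : ∀ ω : Om V, po_YJ C ∅ ω = fun _ => 0 := fun ω => by funext j; simp [po_YJ]
    have h2 : ∀ w : WW V, po_RJ ∅ w = fun _ => 0 := fun w => by funext j; simp [po_RJ]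
    simp [h1, h2]
  | insert i J hi ih =>
    -- the function after integrating out `.no i`
    set G2 : (Stp V → ℝ) × Om V → ℝ := fun p =>
      G (Function.update p.1 i (cl (p.2.2 (.no i))), p.2) * po_lk C p.2 i with hG2
    have hup : Measurable fun p : (Stp V → ℝ) × Om V =>
        (Function.update p.1 i (cl (p.2.2 (.no i))), p.2) := by
      refine Measurable.prodMk ?_ measurable_snd
      exact measurable_update'.comp (measurable_fst.prodMk
        (measurable_cl.comp ((measurable_pi_apply _).comp (measurable_snd.comp measurable_snd))))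
    have hG2m : Measurable G2 := (hG.comp hup).mul ((po_measurable_lk C i).comp measurable_snd)
    have hB0 : 0 ≤ B := (abs_nonneg _).trans (hB ((fun _ => 0), (true, fun _ => 0)))
    have hG2B : ∀ p, |G2 p| ≤ B * 2 := by
      intro p
      simp only [hG2]
      rw [abs_mul]
      exact mul_le_mul (hB _) (po_abs_lk_le C _ _) (abs_nonneg _) hB0
    have hneq : ∀ j ∈ J, j ≠ i := fun j hj h => hi (h ▸ hj)
    have hdep2 : ∀ j ∈ J, ∀ y b w x,
        G2 (y, (b, Function.update w (.no j) x)) = G2 (y, (b, w)) := by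
      intro j hj y b w x
      have hji := hneq j hj
      have e : Function.update w (.no j) x (.no i) = w (.no i) :=
        Function.update_of_ne (by simpa using hji.symm) _ _
      simp only [hG2, po_lk, e]
      rw [hdep j (Finset.mem_insert_of_mem hj) _ b w x, po_spin_update_no]
    have hIH := ih hG2m hG2B hdep2
    -- the right side of the induction hypothesis is the wanted one
    have hright : ∀ ω : Om V, G2 (po_RJ J ω.2, ω) * ∏ j ∈ J, po_lk C ω j =
        G (po_RJ (insert i J) ω.2, ω) * ∏ j ∈ insert i J, po_lk C ω j := by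
      intro ω
      have : Function.update (po_RJ J ω.2) i (cl (ω.2 (.no i))) = po_RJ (insert i J) ω.2 := by
        funext j
        by_cases hj : j = i
        · subst hj
          simp [po_RJ]
        · simp [po_RJ, Finset.mem_insert, hj]
      simp only [hG2, this]
      rw [Finset.prod_insert hi]
      ring
    simp only [hright] at hIH
    rw [← hIH]
    -- integrate out the coordinate
    have hF1 : Measurable fun ω : Om V => G (po_YJ C (insert i J) ω, ω) :=
      hG.comp ((po_measurable_YJ C _).prodMk measurable_id)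
    have hF2 : Measurable fun ω : Om V => G2 (po_YJ C J ω, ω) :=
      hG2m.comp ((po_measurable_YJ C _).prodMk measurable_id)
    rw [po_integral_update_om (.no i) hF1 (fun ω => hB _),
      po_integral_update_om (.no i) hF2 (fun ω => hG2B _)]
    refine integral_congr_ae (Eventually.of_forall fun ω => ?_)
    obtain ⟨b, w⟩ := ω
    simp only
    -- the coordinates in `J`
    have hYJ : ∀ x, po_YJ C J (b, Function.update w (.no i) x) = po_YJ C J (b, w) := by
      intro x
      funext j
      by_cases hj : j ∈ J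
      · simp only [po_YJ, hj, if_true]
        exact po_yy_update_no_ne (hneq j hj) b w x
      · simp [po_YJ, hj]
    have hYi : ∀ x, po_YJ C (insert i J) (b, Function.update w (.no i) x) =
        Function.update (po_YJ C J (b, w)) i (spin C (b, w) i.2 * Sf x (eps i.1)) := by
      intro x
      funext j
      by_cases hj : j = i
      · subst hj
        simp only [po_YJ, Finset.mem_insert, true_or, if_true, Function.update_self]
        exact po_yy_update_no_self j b w x
      · rw [Function.update_of_ne hj]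
        by_cases hj' : j ∈ J
        · simp only [po_YJ, Finset.mem_insert, hj', or_true, if_true]
          exact po_yy_update_no_ne hj b w x
        · simp [po_YJ, Finset.mem_insert, hj, hj']
    have hL : ∀ x, G (po_YJ C (insert i J) (b, Function.update w (.no i) x),
          (b, Function.update w (.no i) x)) =
        (fun y => G (Function.update (po_YJ C J (b, w)) i y, (b, w)))
          (spin C (b, w) i.2 * Sf x (eps i.1)) := by
      intro x
      rw [hYi, hdep i (Finset.mem_insert_self _ _)]
    have hR : ∀ x, G2 (po_YJ C J (b, Function.update w (.no i) x), (b, Function.update w (.no i) x)) =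
        (fun y => G (Function.update (po_YJ C J (b, w)) i y, (b, w))) (cl x) *
          (1 + eps i.1 * spin C (b, w) i.2 * cl x) := by
      intro x
      rw [hYJ]
      simp only [hG2, po_lk, Function.update_self]
      rw [hdep i (Finset.mem_insert_self _ _), po_spin_update_no]
    simp only [hL, hR]
    have he : eps i.1 < 1 := by linarith [eps_le i.1]
    exact po_integral_noise (eps_pos _).le he (spin_cases C _ _)
      (fun y => G (Function.update (po_YJ C J (b, w)) i y, (b, w)))

/-! ### the Bayes ratio -/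

/-- the field of the observations in `J` -/
def po_Xf (J : Finset (Stp V)) (y : Stp V → ℝ) (v : V) : ℝ :=
  ∑ j ∈ J, if j.2 = v then zeta (eps j.1) (y j) else 0

lemma po_measurable_Xf (J : Finset (Stp V)) (v : V) : Measurable fun y : Stp V → ℝ => po_Xf J y v := by
  unfold po_Xf
  refine Finset.measurable_sum _ fun j _ => ?_
  by_cases h : j.2 = v
  · simp only [h, if_true]
    exact (measurable_zeta _).comp (measurable_pi_apply j)
  · simp only [h, if_false]
    exact measurable_const

lemma po_measurable_Mt {α : Type} {mα : MeasurableSpace α} {X : α → V → ℝ}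
    (hX : ∀ v, Measurable fun a => X a v) (D : Finset V) (x : V) :
    Measurable fun a => Mt C.G C.θ D x (X a) := by
  unfold Mt Nt Zt Ex tilt
  refine Measurable.div ?_ ?_ <;> refine Finset.measurable_sum _ fun s _ => ?_
  · refine measurable_const.mul (measurable_const.mul ?_)
    exact Real.measurable_exp.comp (Finset.measurable_sum _ fun u _ => (hX u).mul_const _)
  · refine measurable_const.mul ?_
    exact Real.measurable_exp.comp (Finset.measurable_sum _ fun u _ => (hX u).mul_const _)

lemma po_prod_tilt {J : Finset (Stp V)} {B : Finset V} (hJ : ∀ j ∈ J, j.2 ∈ B) {r : Stp V → ℝ}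
    (hr : ∀ j ∈ J, |r j| ≤ 1) {σ : V → ℝ} (hσ : ∀ v, σ v = 1 ∨ σ v = -1) :
    ∏ j ∈ J, (1 + eps j.1 * σ j.2 * r j) =
      (∏ j ∈ J, Real.sqrt (1 - eps j.1 ^ 2 * r j ^ 2)) * tilt B (po_Xf J r) σ := by
  have e1 : ∀ j ∈ J, 1 + eps j.1 * σ j.2 * r j =
      Real.sqrt (1 - eps j.1 ^ 2 * r j ^ 2) * Real.exp (σ j.2 * zeta (eps j.1) (r j)) := fun j hj =>
    zeta_identity (eps_pos _).le (by linarith [eps_le j.1]) (hr j hj) (hσ _)
  rw [Finset.prod_congr rfl e1, Finset.prod_mul_distrib]
  congr 1
  unfold tilt
  rw [← Real.exp_sum]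
  congr 1
  unfold po_Xf
  simp_rw [Finset.sum_mul]
  rw [Finset.sum_comm]
  refine Finset.sum_congr rfl fun j hj => ?_
  simp [Finset.sum_ite_eq, hJ j hj, mul_comm]

lemma po_bayes_fin {J : Finset (Stp V)} {B : Finset V} (hJ : ∀ j ∈ J, j.2 ∈ B) {r : Stp V → ℝ}
    (hr : ∀ j ∈ J, |r j| ≤ 1) (x : V) :
    Ex C.G C.θ B (fun σ => σ x * ∏ j ∈ J, (1 + eps j.1 * σ j.2 * r j)) =
      Mt C.G C.θ B x (po_Xf J r) * Ex C.G C.θ B (fun σ => ∏ j ∈ J, (1 + eps j.1 * σ j.2 * r j)) := by
  set c := ∏ j ∈ J, Real.sqrt (1 - eps j.1 ^ 2 * r j ^ 2) with hc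
  have h1 : Ex C.G C.θ B (fun σ => σ x * ∏ j ∈ J, (1 + eps j.1 * σ j.2 * r j)) =
      c * Nt C.G C.θ B x (po_Xf J r) := by
    unfold Nt
    rw [← Ex_const_mul]
    apply Ex_congr
    intro s
    rw [po_prod_tilt hJ hr (sgn_cases s)]
    ring
  have h2 : Ex C.G C.θ B (fun σ => ∏ j ∈ J, (1 + eps j.1 * σ j.2 * r j)) =
      c * Zt C.G C.θ B (po_Xf J r) := by
    unfold Zt
    rw [← Ex_const_mul]
    apply Ex_congr
    intro s
    rw [po_prod_tilt hJ hr (sgn_cases s)]
  rw [h1, h2]
  unfold Mt
  have := (Zt_pos (G := C.G) C.hθ0.le (th_lt_one C) B (po_Xf J r)).ne'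
  field_simp

lemma po_abs_prod_lk_le (J : Finset (Stp V)) (ω : Om V) : |∏ j ∈ J, po_lk C ω j| ≤ 2 ^ J.card := by
  rw [Finset.abs_prod]
  calc ∏ j ∈ J, |po_lk C ω j| ≤ ∏ _j ∈ J, (2 : ℝ) :=
        Finset.prod_le_prod (fun _ _ => abs_nonneg _) (fun j _ => po_abs_lk_le C ω j)
    _ = 2 ^ J.card := by simp

/-- The noise coordinates and the spins are independent: integrate the spins first. -/
lemma po_integral_spin_first (J : Finset (Stp V)) {f : (Stp V → ℝ) → (V → ℝ) → ℝ}
    (hf : Measurable fun p : Om V => f (po_RJ J p.2) (fun v => spin C p v)) {K : ℝ}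
    (hK : ∀ ω : Om V, |f (po_RJ J ω.2) (fun v => spin C ω v)| ≤ K) :
    ∫ ω, f (po_RJ J ω.2) (fun v => spin C ω v) ∂(PP V) =
      ∫ w, ∫ ω, f (po_RJ J w) (fun v => spin C ω v) ∂(PP V) ∂(PW V) := by
  set S : Set (Ix V) := {i | ∃ j, i = .no j} with hS
  rw [po_integral_glue_om S hf hK]
  refine integral_congr_ae (Eventually.of_forall fun w => ?_)
  refine integral_congr_ae (Eventually.of_forall fun ω => ?_)
  obtain ⟨b, w'⟩ := ω
  have e1 : po_RJ J (glue S w w') = po_RJ J w := by
    funext j
    have : Ix.no j ∈ S := ⟨j, rfl⟩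
    simp [po_RJ, glue, this]
  have e2 : (fun v => spin C (b, glue S w w') v) = fun v => spin C (b, w') v := by
    funext v
    refine po_spin_congr (fun e => ?_) v
    have : Ix.ed e ∉ S := by
      rintro ⟨j, hj⟩
      cases hj
    simp [glue, this]
  simp only [e1, e2]

/-- **finite Bayes** -/
theorem po_post_fin {B : Finset V} (hB : Conv C.G B) (hne : B.Nonempty) {x : V} (hx : x ∈ B)
    {J : Finset (Stp V)} (hJ : ∀ j ∈ J, j.2 ∈ B) {Φ : (Stp V → ℝ) → ℝ} (hΦ : Measurable Φ) {K : ℝ}
    (hK : ∀ y, |Φ y| ≤ K) :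
    ∫ ω, Φ (po_YJ C J ω) * spin C ω x ∂(PP V) =
      ∫ ω, Φ (po_YJ C J ω) * Mt C.G C.θ B x (po_Xf J (po_YJ C J ω)) ∂(PP V) := by
  have hK0 : 0 ≤ K := (abs_nonneg _).trans (hK fun _ => 0)
  have hm : Measurable fun y : Stp V → ℝ => Mt C.G C.θ B x (po_Xf J y) :=
    po_measurable_Mt C (fun v => po_measurable_Xf J v) B x
  have hmB : ∀ y : Stp V → ℝ, |Mt C.G C.θ B x (po_Xf J y)| ≤ 1 := fun y =>
    abs_Mt_le C.hθ0.le (th_lt_one C) _ _ _
  have hsp : ∀ (ω : Om V) (v : V), |spin C ω v| ≤ 1 := fun ω v => by
    rcases spin_cases C ω v with h | h <;> simp [h]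
  have h1 := po_change_noise C J (G := fun p => Φ p.1 * spin C p.2 x)
    ((hΦ.comp measurable_fst).mul ((measurable_spin C x).comp measurable_snd)) (B := K * 1)
    (fun p => by
      rw [abs_mul]
      exact mul_le_mul (hK _) (hsp _ _) (abs_nonneg _) hK0)
    (fun j _ y b w t => by simp only [po_spin_update_no])
  have h2 := po_change_noise C J (G := fun p => Φ p.1 * Mt C.G C.θ B x (po_Xf J p.1))
    ((hΦ.comp measurable_fst).mul (hm.comp measurable_fst)) (B := K * 1)
    (fun p => by
      rw [abs_mul]
      exact mul_le_mul (hK _) (hmB _) (abs_nonneg _) hK0)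
    (fun j _ y b w t => rfl)
  simp only at h1 h2
  rw [h1, h2]
  have hprod : Measurable fun ω : Om V => ∏ j ∈ J, po_lk C ω j :=
    Finset.measurable_prod _ fun j _ => po_measurable_lk C j
  have hRm : Measurable fun ω : Om V => po_RJ J ω.2 := (po_measurable_RJ J).comp measurable_snd
  -- functions of the noise and the spins
  have hform : ∀ ω : Om V, ∏ j ∈ J, po_lk C ω j =
      ∏ j ∈ J, (1 + eps j.1 * spin C ω j.2 * po_RJ J ω.2 j) := by
    intro ω
    refine Finset.prod_congr rfl fun j hj => ?_
    simp [po_lk, po_RJ, hj]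
  simp only [hform]
  have hprod' : Measurable fun ω : Om V => ∏ j ∈ J, (1 + eps j.1 * spin C ω j.2 * po_RJ J ω.2 j) := by
    simpa only [hform] using hprod
  have hprodB : ∀ ω : Om V, |∏ j ∈ J, (1 + eps j.1 * spin C ω j.2 * po_RJ J ω.2 j)| ≤ 2 ^ J.card := by
    intro ω
    rw [← hform]
    exact po_abs_prod_lk_le C J ω
  have hS1 := po_integral_spin_first C J
    (f := fun r σ => Φ r * σ x * ∏ j ∈ J, (1 + eps j.1 * σ j.2 * r j))
    (((hΦ.comp hRm).mul (measurable_spin C x)).mul hprod') (K := K * 1 * 2 ^ J.card)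
    (fun ω => by
      rw [abs_mul, abs_mul]
      exact mul_le_mul (mul_le_mul (hK _) (hsp _ _) (abs_nonneg _) hK0) (hprodB ω) (abs_nonneg _)
        (by positivity))
  have hS2 := po_integral_spin_first C J
    (f := fun r σ => Φ r * Mt C.G C.θ B x (po_Xf J r) * ∏ j ∈ J, (1 + eps j.1 * σ j.2 * r j))
    (((hΦ.comp hRm).mul (hm.comp hRm)).mul hprod') (K := K * 1 * 2 ^ J.card)
    (fun ω => by
      rw [abs_mul, abs_mul]
      exact mul_le_mul (mul_le_mul (hK _) (hmB _) (abs_nonneg _) hK0) (hprodB ω) (abs_nonneg _)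
        (by positivity))
  simp only at hS1 hS2
  rw [hS1, hS2]
  refine integral_congr_ae (Eventually.of_forall fun w => ?_)
  simp only
  set r := po_RJ J w with hr
  have hrB : ∀ j ∈ J, |r j| ≤ 1 := by
    intro j hj
    simp only [hr, po_RJ, hj, if_true]
    exact abs_cl_le _
  -- integrate the spins
  have hL1 := spin_law C hB hne (F := fun σ => σ x * ∏ j ∈ J, (1 + eps j.1 * σ j.2 * r j))
    (fun σ σ' h => by
      rw [h x hx]
      congr 1
      refine Finset.prod_congr rfl fun j hj => ?_
      rw [h _ (hJ j hj)])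
  have hL2 := spin_law C hB hne (F := fun σ => ∏ j ∈ J, (1 + eps j.1 * σ j.2 * r j))
    (fun σ σ' h => by
      refine Finset.prod_congr rfl fun j hj => ?_
      rw [h _ (hJ j hj)])
  simp only at hL1 hL2
  have e1 : ∀ ω : Om V, Φ r * spin C ω x * ∏ j ∈ J, (1 + eps j.1 * spin C ω j.2 * r j) =
      Φ r * (spin C ω x * ∏ j ∈ J, (1 + eps j.1 * spin C ω j.2 * r j)) := fun ω => by ring
  simp only [e1]
  rw [integral_const_mul, integral_const_mul, hL1, hL2, po_bayes_fin C hJ hrB x]
  ring

end Vale.Agent.Lib.P161.Crit
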