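import Vale.Agent.Lib.P161.Crit.Spin
import Vale.Agent.Lib.P161.Crit.CE
import Vale.Agent.Lib.P161.Crit.PostBall
import Vale.Agent.Lib.P161.Crit.PostBayes

/-!
Posterior means: `MA C A x` is the conditional mean of the spin given the observations in `A`.
Statements fixed; add lemmas freely.
-/

open MeasureTheory Filter Topology Finset

noncomputable section
namespace Vale.Agent.Lib.P161.Crit

open scoped Classical
open Vale.Agent.Lib.P161

variable {V : Type} (C : CT V)

/-- the observations in `A` -/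
def FA (A : Set (Stp V)) : MeasurableSpace (Om V) :=
  ⨆ j ∈ A, MeasurableSpace.comap (yy C j) inferInstance

lemma FA_le (A : Set (Stp V)) : FA C A ≤ (inferInstance : MeasurableSpace (Om V)) :=
  iSup₂_le fun j _ => (measurable_yy C j).comap_le

lemma FA_mono {A A' : Set (Stp V)} (h : A ⊆ A') : FA C A ≤ FA C A' :=
  iSup₂_le fun j hj => le_iSup₂_of_le (f := fun j (_ : j ∈ A') =>
    MeasurableSpace.comap (yy C j) inferInstance) j (h hj) le_rfl

section gen
variable {Ω : Type} {m : MeasurableSpace Ω} {X : Ω → V → ℝ}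

lemma pst_msg_meas (hX : ∀ v, Measurable fun ω => X ω v) (n : ℕ) (a b : V) :
    Measurable fun ω => msg C (X ω) n a b := by
  induction n generalizing a b with
  | zero =>
    simp only [msg]
    exact hX a
  | succ n ih =>
    simp only [msg]
    refine (hX a).add (Finset.measurable_sum _ fun c _ => ?_)
    exact (measurable_psi' C).comp (ih c a)

lemma pst_zl_meas (hX : ∀ v, Measurable fun ω => X ω v) (a b : V) :
    Measurable fun ω => zl C (X ω) a b := by
  unfold zl
  exact ((Measurable.limsup fun n => pst_msg_meas C hX n a b).add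
    (Measurable.liminf fun n => pst_msg_meas C hX n a b)).div_const 2

lemma pst_mag_meas (hX : ∀ v, Measurable fun ω => X ω v) (x : V) :
    Measurable fun ω => mag C (X ω) x := by
  unfold mag
  refine measurable_tanh'.comp ((hX x).add (Finset.measurable_sum _ fun c _ => ?_))
  exact (measurable_psi' C).comp (pst_zl_meas C hX c x)

lemma pst_cov_meas (hX : ∀ v, Measurable fun ω => X ω v) (x u : V) :
    Measurable fun ω => cov C (X ω) x u := by
  unfold cov
  refine Measurable.mul ?_ ?_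
  · exact measurable_const.sub ((pst_mag_meas C hX x).pow_const 2)
  · refine Finset.measurable_prod _ fun i _ => ?_
    exact (measurable_dpsi' C).comp (pst_zl_meas C hX _ _)

end gen

lemma pst_fld_FA {A : Set (Stp V)} {L : ℤ} (hA : ∀ j ∈ A, j.1 ≤ L) (v : V) :
    Measurable[FA C A] fun ω => fld C A ω v := by
  have hterm : ∀ ℓ : ℤ, Measurable[FA C A] fun ω : Om V =>
      if (ℓ, v) ∈ A then zeta (eps ℓ) (yy C (ℓ, v) ω) else 0 := by
    intro ℓ
    by_cases h : (ℓ, v) ∈ A
    · simp only [h, if_true]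
      have h2 : Measurable[FA C A] (yy C (ℓ, v)) := by
        rw [measurable_iff_comap_le]
        exact le_iSup₂_of_le (f := fun j (_ : j ∈ A) =>
          MeasurableSpace.comap (yy C j) inferInstance) (ℓ, v) h le_rfl
      exact (measurable_zeta _).comp h2
    · simp only [h, if_false]
      exact measurable_const
  unfold fld
  refine @measurable_of_tendsto_metrizable' (Om V) ℝ (FA C A) _ _ _ _ (Finset ℤ)
    (fun (s : Finset ℤ) (ω : Om V) =>
      ∑ ℓ ∈ s, if (ℓ, v) ∈ A then zeta (eps ℓ) (yy C (ℓ, v) ω) else 0) _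
    (atTop : Filter (Finset ℤ)) _ _ ?_ ?_
  · intro s
    exact Finset.measurable_sum _ fun ℓ _ => hterm ℓ
  · rw [tendsto_pi_nhds]
    intro ω
    exact (summable_fld C hA ω v).hasSum

/-- the field and the messages are measurable with respect to the observations -/
lemma MA_FA {A : Set (Stp V)} {L : ℤ} (hA : ∀ j ∈ A, j.1 ≤ L) (x : V) :
    Measurable[FA C A] (MA C A x) :=
  pst_mag_meas (m := FA C A) C (X := fun ω => fld C A ω) (pst_fld_FA C hA) x

lemma CA_FA {A : Set (Stp V)} {L : ℤ} (hA : ∀ j ∈ A, j.1 ≤ L) (x u : V) :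
    Measurable[FA C A] (CA C A x u) :=
  pst_cov_meas (m := FA C A) C (X := fun ω => fld C A ω) (pst_fld_FA C hA) x u

/-! ### Bayes: finite volume, then Lévy in the stages, then Lévy in the volume -/

lemma po_yy_FA {A : Set (Stp V)} {j : Stp V} (hj : j ∈ A) : Measurable[FA C A] (yy C j) := by
  rw [measurable_iff_comap_le]
  exact le_iSup₂_of_le (f := fun j (_ : j ∈ A) =>
    MeasurableSpace.comap (yy C j) inferInstance) j hj le_rfl

lemma po_FA_le_comap (J : Finset (Stp V)) :
    FA C (J : Set (Stp V)) ≤ MeasurableSpace.comap (po_YJ C J) inferInstance := by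
  refine iSup₂_le fun j hj => ?_
  have hj' : j ∈ J := hj
  have : yy C j = (fun y : Stp V → ℝ => y j) ∘ po_YJ C J := by
    funext ω
    simp [po_YJ, hj']
  rw [this, ← MeasurableSpace.comap_comp]
  exact MeasurableSpace.comap_mono (measurable_pi_apply j).comap_le

lemma po_abs_spin_le (ω : Om V) (x : V) : |spin C ω x| ≤ 1 := by
  rcases spin_cases C ω x with h | h <;> simp [h]

lemma po_integrable_spin (x : V) : Integrable (fun ω => spin C ω x) (PP V) :=
  integrable_of_bdd (measurable_spin C x).aestronglyMeasurable (fun ω => po_abs_spin_le C ω x)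

/-- the posterior mean given finitely many observations with sites in a convex set -/
theorem po_ce_fin {B : Finset V} (hB : Conv C.G B) (hne : B.Nonempty) {x : V} (hx : x ∈ B)
    {J : Finset (Stp V)} (hJ : ∀ j ∈ J, j.2 ∈ B) :
    (fun ω => Mt C.G C.θ B x (po_Xf J (po_YJ C J ω))) =ᵐ[PP V]
      (PP V)[fun ω => spin C ω x | FA C (J : Set (Stp V))] := by
  have hg : Measurable[FA C (J : Set (Stp V))]
      (fun ω => Mt C.G C.θ B x (po_Xf J (po_YJ C J ω))) := by
    refine po_measurable_Mt (mα := FA C (J : Set (Stp V))) C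
      (X := fun ω => po_Xf J (po_YJ C J ω)) (fun v => ?_) B x
    unfold po_Xf
    refine Finset.measurable_sum _ fun j hj => ?_
    by_cases h : j.2 = v
    · simp only [h, if_true, po_YJ, hj]
      exact (measurable_zeta _).comp (po_yy_FA C hj)
    · simp only [h, if_false]
      exact measurable_const
  have hbd : ∀ ω, |Mt C.G C.θ B x (po_Xf J (po_YJ C J ω))| ≤ 1 := fun ω =>
    abs_Mt_le C.hθ0.le (th_lt_one C) _ _ _
  refine ae_eq_condExp_of_forall_setIntegral_eq (FA_le C _) (po_integrable_spin C x) ?_ ?_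
    hg.stronglyMeasurable.aestronglyMeasurable
  · intro s _ _
    exact (integrable_of_bdd (hg.mono (FA_le C _) le_rfl).aestronglyMeasurable hbd).integrableOn
  · intro s hs _
    have hs1 := FA_le C _ s hs
    obtain ⟨t, ht, rfl⟩ := po_FA_le_comap C J s hs
    have key := po_post_fin C hB hne hx hJ (Φ := t.indicator (fun _ => 1))
      (measurable_const.indicator ht) (K := 1) (fun y => by
        by_cases h : y ∈ t <;> simp [h])
    rw [← integral_indicator hs1, ← integral_indicator hs1]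
    have e : ∀ f : Om V → ℝ, (po_YJ C J ⁻¹' t).indicator f =
        fun ω => t.indicator (fun _ => (1 : ℝ)) (po_YJ C J ω) * f ω := by
      intro f
      funext ω
      by_cases h : po_YJ C J ω ∈ t
      · simp [Set.indicator, h]
      · simp [Set.indicator, h]
    rw [e, e]
    exact key.symm

/-- Lévy along an increasing sequence of states -/
lemma po_levy {J : ℕ → Set (Stp V)} (hm : Monotone J) (f : Om V → ℝ) :
    ∀ᵐ ω ∂(PP V), Tendsto (fun n => (PP V)[f | FA C (J n)] ω) atTop
      (𝓝 ((PP V)[f | FA C (⋃ n, J n)] ω)) := by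
  let ℱ : Filtration ℕ (inferInstance : MeasurableSpace (Om V)) :=
    { seq := fun n => FA C (J n)
      mono' := fun _ _ hij => FA_mono C (hm hij)
      le' := fun n => FA_le C _ }
  have hsup : (⨆ n, ℱ n) = FA C (⋃ n, J n) := by
    apply le_antisymm
    · exact iSup_le fun n => FA_mono C (Set.subset_iUnion J n)
    · refine iSup₂_le fun j hj => ?_
      obtain ⟨n, hn⟩ := Set.mem_iUnion.1 hj
      refine le_trans ?_ (le_iSup (fun n => ℱ n) n)
      change _ ≤ FA C (J n)
      exact le_iSup₂_of_le (f := fun j (_ : j ∈ J n) =>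
        MeasurableSpace.comap (yy C j) inferInstance) j hn le_rfl
  have hL := MeasureTheory.tendsto_ae_condExp (μ := PP V) (ℱ := ℱ) f
  rw [hsup] at hL
  exact hL

/-- the truncations of a state in the stages -/
def po_Jk (A : Set (Stp V)) (B : Finset V) (k : ℕ) : Finset (Stp V) :=
  ((Finset.Icc (-(k : ℤ)) k) ×ˢ B).filter (· ∈ A)

lemma po_Xf_Jk (A : Set (Stp V)) (B : Finset V) (k : ℕ) (ω : Om V) {u : V} (hu : u ∈ B) :
    po_Xf (po_Jk A B k) (po_YJ C (po_Jk A B k) ω) u =
      ∑ ℓ ∈ Finset.Icc (-(k : ℤ)) k, if (ℓ, u) ∈ A then zeta (eps ℓ) (yy C (ℓ, u) ω) else 0 := by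
  have e1 : po_Xf (po_Jk A B k) (po_YJ C (po_Jk A B k) ω) u =
      ∑ j ∈ po_Jk A B k, if j.2 = u then zeta (eps j.1) (yy C j ω) else 0 := by
    unfold po_Xf
    refine Finset.sum_congr rfl fun j hj => ?_
    simp [po_YJ, hj]
  rw [e1]
  unfold po_Jk
  rw [Finset.sum_filter, Finset.sum_product]
  refine Finset.sum_congr rfl fun ℓ _ => ?_
  rw [Finset.sum_eq_single u]
  · simp
  · intro v _ hv
    simp [hv]
  · intro h
    exact absurd hu h

/-- the posterior mean given the observations of a state with sites in a convex set -/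
theorem po_ce_conv {A : Set (Stp V)} {L : ℤ} (hA : ∀ j ∈ A, j.1 ≤ L) {B : Finset V}
    (hB : Conv C.G B) (hne : B.Nonempty) {x : V} (hx : x ∈ B) (hsites : ∀ j ∈ A, j.2 ∈ B) :
    (PP V)[fun ω => spin C ω x | FA C A] =ᵐ[PP V] fun ω => Mt C.G C.θ B x (fld C A ω) := by
  have hmono : Monotone fun k => ((po_Jk A B k : Finset (Stp V)) : Set (Stp V)) := by
    intro k k' hk j hj
    simp only [po_Jk, Finset.coe_filter, Finset.mem_product, Finset.mem_Icc, Set.mem_ofPred_eq] at hj ⊢
    have hk' : (k : ℤ) ≤ k' := by exact_mod_cast hk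
    exact ⟨⟨⟨by linarith [hj.1.1.1], by linarith [hj.1.1.2]⟩, hj.1.2⟩, hj.2⟩
  have hU : ⋃ k, ((po_Jk A B k : Finset (Stp V)) : Set (Stp V)) = A := by
    ext j
    simp only [Set.mem_iUnion, po_Jk, Finset.coe_filter, Finset.mem_product, Finset.mem_Icc,
      Set.mem_ofPred_eq]
    constructor
    · rintro ⟨k, h⟩
      exact h.2
    · intro hj
      refine ⟨j.1.natAbs, ⟨⟨?_, ?_⟩, hsites j hj⟩, hj⟩ <;> omega
  have hL := po_levy C hmono (fun ω => spin C ω x)
  rw [hU] at hL
  have hfin : ∀ᵐ ω ∂(PP V), ∀ k, Mt C.G C.θ B x (po_Xf (po_Jk A B k) (po_YJ C (po_Jk A B k) ω)) =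
      (PP V)[fun ω => spin C ω x | FA C ((po_Jk A B k : Finset (Stp V)) : Set (Stp V))] ω :=
    ae_all_iff.2 fun k => po_ce_fin C hB hne hx (fun j hj => by
      simp only [po_Jk, Finset.mem_filter, Finset.mem_product] at hj
      exact hj.1.2)
  filter_upwards [hL, hfin] with ω h1 h2
  have h3 : Tendsto (fun k => Mt C.G C.θ B x (po_Xf (po_Jk A B k) (po_YJ C (po_Jk A B k) ω)))
      atTop (𝓝 (Mt C.G C.θ B x (fld C A ω))) := by
    rw [tendsto_iff_dist_tendsto_zero]
    have hbound : ∀ k, dist (Mt C.G C.θ B x (po_Xf (po_Jk A B k) (po_YJ C (po_Jk A B k) ω)))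
        (Mt C.G C.θ B x (fld C A ω)) ≤ ∑ u ∈ B, C.θ ^ C.G.dist u x *
          |po_Xf (po_Jk A B k) (po_YJ C (po_Jk A B k) ω) u - fld C A ω u| := fun k => by
      rw [Real.dist_eq]
      exact Mt_lipschitz C.hT C.hθ0.le (th_lt_one C) hB hx _ _
    refine squeeze_zero (fun _ => dist_nonneg) hbound ?_
    have : (0 : ℝ) = ∑ u ∈ B, C.θ ^ C.G.dist u x * 0 := by simp
    rw [this]
    refine tendsto_finsetSum _ fun u hu => Tendsto.const_mul _ ?_
    have h4 : Tendsto (fun k : ℕ => po_Xf (po_Jk A B k) (po_YJ C (po_Jk A B k) ω) u) atTop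
        (𝓝 (fld C A ω u)) := by
      simp only [po_Xf_Jk C A B _ ω hu]
      have hI : Tendsto (fun k : ℕ => Finset.Icc (-(k : ℤ)) k) atTop atTop := by
        refine tendsto_atTop_finset_of_monotone ?_ ?_
        · intro k k' hk ℓ hℓ
          have hk' : (k : ℤ) ≤ k' := by exact_mod_cast hk
          rw [Finset.mem_Icc] at hℓ ⊢
          constructor <;> linarith [hℓ.1, hℓ.2]
        · intro ℓ
          refine ⟨ℓ.natAbs, ?_⟩
          rw [Finset.mem_Icc]
          constructor <;> omega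
      have hS : Tendsto (fun s : Finset ℤ => ∑ ℓ ∈ s,
          if (ℓ, u) ∈ A then zeta (eps ℓ) (yy C (ℓ, u) ω) else 0) atTop (𝓝 (fld C A ω u)) :=
        (summable_fld C hA ω u).hasSum
      exact hS.comp hI
    have h5 := (h4.sub_const (fld C A ω u)).abs
    simpa using h5
  have h6 := h3.congr h2
  exact tendsto_nhds_unique h1 h6

lemma po_fld_congr {A A' : Set (Stp V)} (ω : Om V) {v : V}
    (h : ∀ ℓ : ℤ, (ℓ, v) ∈ A ↔ (ℓ, v) ∈ A') : fld C A ω v = fld C A' ω v := by
  unfold fld
  congr 1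
  funext ℓ
  simp only [h]

/-- the depth messages converge to the posterior mean -/
theorem po_ce_ball {A : Set (Stp V)} {L : ℤ} (hA : ∀ j ∈ A, j.1 ≤ L) (x : V) :
    ∀ᵐ ω ∂(PP V), Tendsto (fun n => Real.tanh (msg C (fld C A ω) n x x)) atTop
      (𝓝 ((PP V)[fun ω => spin C ω x | FA C A] ω)) := by
  set J : ℕ → Set (Stp V) := fun n => A ∩ {j | j.2 ∈ ballF C.nb x n} with hJ
  have hmono : Monotone J := by
    intro n n' hn j hj
    refine ⟨hj.1, ?_⟩
    have h1 := hj.2
    simp only [Set.mem_ofPred_eq, mem_ballF C.hT C.hnb] at h1 ⊢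
    omega
  have hU : ⋃ n, J n = A := by
    ext j
    simp only [Set.mem_iUnion, hJ, Set.mem_inter_iff, Set.mem_ofPred_eq]
    constructor
    · rintro ⟨n, h, _⟩
      exact h
    · intro h
      exact ⟨C.G.dist j.2 x, h, (mem_ballF C.hT C.hnb x _ _).2 le_rfl⟩
  have hL := po_levy C hmono (fun ω => spin C ω x)
  rw [hU] at hL
  have hfin : ∀ᵐ ω ∂(PP V), ∀ n, (PP V)[fun ω => spin C ω x | FA C (J n)] ω =
      Mt C.G C.θ (ballF C.nb x n) x (fld C (J n) ω) :=
    ae_all_iff.2 fun n => po_ce_conv C (L := L) (fun j hj => hA j hj.1)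
      (conv_ballF C.hT C.hnb x n) ⟨x, center_mem_ballF C.hT C.hnb x n⟩
      (center_mem_ballF C.hT C.hnb x n) (fun j hj => hj.2)
  filter_upwards [hL, hfin] with ω h1 h2
  refine h1.congr fun n => ?_
  rw [h2 n, ← po_Mt_ball C x n (fld C A ω)]
  apply Mt_congr
  intro u hu
  refine po_fld_congr C ω fun ℓ => ?_
  constructor
  · exact fun h => h.1
  · exact fun h => ⟨h, hu⟩

lemma po_continuous_tanh : Continuous Real.tanh := by
  have : Real.tanh = fun x => Real.sinh x / Real.cosh x := by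
    funext x
    exact Real.tanh_eq_sinh_div_cosh x
  rw [this]
  exact Real.continuous_sinh.div Real.continuous_cosh (fun x => (Real.cosh_pos x).ne')

/-- bounded sequences whose `tanh` converges converge -/
lemma po_tendsto_of_tanh {z : ℕ → ℝ} {M l : ℝ} (hz : ∀ n, |z n| ≤ M)
    (h : Tendsto (fun n => Real.tanh (z n)) atTop (𝓝 l)) : ∃ y, Tendsto z atTop (𝓝 y) := by
  have h1 : ∀ n, Real.tanh (z n) ≤ Real.tanh M := fun n => m_tanh_mono (le_of_abs_le (hz n))
  have h2 : ∀ n, Real.tanh (-M) ≤ Real.tanh (z n) := fun n => m_tanh_mono (neg_le_of_abs_le (hz n))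
  have hl1 : l ≤ Real.tanh M := le_of_tendsto' h h1
  have hl2 : Real.tanh (-M) ≤ l := ge_of_tendsto' h h2
  have hl3 : l ∈ Set.Ioo (-1 : ℝ) 1 :=
    ⟨lt_of_lt_of_le (Real.neg_one_lt_tanh _) hl2, lt_of_le_of_lt hl1 (Real.tanh_lt_one _)⟩
  refine ⟨Real.artanh l, ?_⟩
  have hstrict : ∀ {a b : ℝ}, a < b → Real.tanh a < Real.tanh b := by
    intro a b hab
    refine lt_of_le_of_ne (m_tanh_mono hab.le) ?_
    intro he
    exact hab.ne (Real.tanh_injective he)
  have hy : Real.tanh (Real.artanh l) = l := Real.tanh_artanh hl3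
  rw [← hy] at h
  rw [tendsto_order]
  constructor
  · intro c hc
    filter_upwards [(tendsto_order.1 h).1 _ (hstrict hc)] with n hn
    by_contra hle
    exact absurd hn (not_lt.2 (m_tanh_mono (not_lt.1 hle)))
  · intro c hc
    filter_upwards [(tendsto_order.1 h).2 _ (hstrict hc)] with n hn
    by_contra hle
    exact absurd hn (not_lt.2 (m_tanh_mono (not_lt.1 hle)))

/-- the messages converge almost surely -/
theorem mc_ae {A : Set (Stp V)} {L : ℤ} (hA : ∀ j ∈ A, j.1 ≤ L) :
    ∀ᵐ ω ∂(PP V), MC C (fld C A ω) := by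
  have hc := countable_V C
  unfold MC
  refine ae_all_iff.2 fun a => ae_all_iff.2 fun b => ?_
  by_cases hab : C.G.Adj a b
  · set A' : Set (Stp V) := A ∩ {j | C.G.dist j.2 a < C.G.dist j.2 b} with hA'
    have h := po_ce_ball C (A := A') (L := L) (fun j hj => hA j hj.1) a
    filter_upwards [h] with ω hω _
    have h1 : ∀ u, C.G.dist u a < C.G.dist u b → fld C A' ω u = fld C A ω u := by
      intro u hu
      refine po_fld_congr C ω fun ℓ => ?_
      exact ⟨fun h => h.1, fun h => ⟨h, hu⟩⟩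
    have h0 : ∀ u, C.G.dist u b < C.G.dist u a → fld C A' ω u = 0 := by
      intro u hu
      unfold fld
      have : ∀ ℓ : ℤ, ¬ ((ℓ, u) ∈ A') := fun ℓ h => by
        have := h.2
        simp only [Set.mem_ofPred_eq] at this
        omega
      simp only [this, if_false, tsum_zero]
    have h2 := (tendsto_add_atTop_iff_nat 1).2 hω
    simp only [po_msg_root_side C hab h1 h0] at h2
    have h3 := po_tendsto_of_tanh (z := fun n => msg C (fld C A ω) (n + 1) a b)
      (M := Bf L + C.d * pM C) (fun n => abs_msg_le C (fun v => abs_fld_le C hA ω v) _ a b) h2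
    obtain ⟨y, hy⟩ := h3
    exact ⟨y, (tendsto_add_atTop_iff_nat 1).1 hy⟩
  · exact ae_of_all _ fun ω h => absurd h hab

/-- Bayes: the magnetisation is the posterior mean of the spin -/
theorem post {A : Set (Stp V)} {L : ℤ} (hA : ∀ j ∈ A, j.1 ≤ L) (x : V) :
    (PP V)[fun ω => spin C ω x | FA C A] =ᵐ[PP V] MA C A x := by
  filter_upwards [po_ce_ball C hA x, mc_ae C hA] with ω h1 h2
  have h3 : Tendsto (fun n => msg C (fld C A ω) (n + 1) x x) atTop
      (𝓝 (fld C A ω x + ∑ c ∈ C.nb x, psi C.θ (zl C (fld C A ω) c x))) := by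
    have ha : (C.nb x).erase x = C.nb x :=
      Finset.erase_eq_of_notMem (fun h => C.G.irrefl ((C.hnb _ _).1 h))
    simp only [msg, ha]
    refine tendsto_const_nhds.add (tendsto_finsetSum _ fun c hc => ?_)
    exact ((continuous_psi' C).tendsto _).comp (msg_tendsto C h2 ((C.hnb x c).1 hc).symm)
  have h4 := (po_continuous_tanh.tendsto _).comp h3
  have h5 := (tendsto_add_atTop_iff_nat 1).2 h1
  exact tendsto_nhds_unique h5 h4

/-- the steps at sites on the side of `a` away from `b` -/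
def sideS (a b : V) : Set (Stp V) := {j | C.G.dist j.2 a < C.G.dist j.2 b}

lemma ls_step {a b c v : V} (hab : C.G.Adj a b) (hc : C.G.Adj a c) (hne : c ≠ b)
    (h : C.G.dist v c < C.G.dist v a) : C.G.dist v a < C.G.dist v b := by
  have e1 : C.G.dist c v = C.G.dist v c := SimpleGraph.dist_comm
  have e2 : C.G.dist a v = C.G.dist v a := SimpleGraph.dist_comm
  have e3 : C.G.dist b v = C.G.dist v b := SimpleGraph.dist_comm
  rcases dist_adj C.hT v hab with h1 | h1
  · exfalso
    apply hne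
    rcases dist_adj C.hT v hc with h2 | h2
    · exact toward_unique C.hT (x := v) hc hab (by omega) (by omega)
    · omega
  · omega

lemma ls_self {a b : V} (hab : C.G.Adj a b) : C.G.dist a a < C.G.dist a b := by
  rw [SimpleGraph.dist_self, SimpleGraph.dist_eq_one_iff_adj.2 hab]
  exact Nat.one_pos

/-- the field of the restricted state -/
lemma ls_fld_in (A : Set (Stp V)) {a b : V} (ω : Om V) {v : V}
    (hv : C.G.dist v a < C.G.dist v b) : fld C (A ∩ sideS C a b) ω v = fld C A ω v := by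
  unfold fld
  congr 1
  funext ℓ
  have : ((ℓ, v) ∈ A ∩ sideS C a b) ↔ ((ℓ, v) ∈ A) :=
    ⟨fun h => h.1, fun h => ⟨h, hv⟩⟩
  simp only [this]

lemma ls_fld_out (A : Set (Stp V)) {a b : V} (ω : Om V) {v : V}
    (hv : ¬ C.G.dist v a < C.G.dist v b) : fld C (A ∩ sideS C a b) ω v = 0 := by
  unfold fld
  have : ∀ ℓ : ℤ, ¬ ((ℓ, v) ∈ A ∩ sideS C a b) := fun ℓ h => hv h.2
  simp only [this, if_false, tsum_zero]

/-- messages see only their own side -/
lemma ls_msg_congr {X Y : V → ℝ} {a b : V} (hab : C.G.Adj a b)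
    (h : ∀ v, C.G.dist v a < C.G.dist v b → Y v = X v) (n : ℕ) :
    msg C Y n a b = msg C X n a b := by
  induction n generalizing a b with
  | zero => exact h a (ls_self C hab)
  | succ n ih =>
    simp only [msg]
    rw [h a (ls_self C hab)]
    congr 1
    apply Finset.sum_congr rfl
    intro c hc
    have hc' : C.G.Adj a c := (C.hnb a c).1 (Finset.mem_of_mem_erase hc)
    have hne : c ≠ b := Finset.ne_of_mem_erase hc
    rw [ih hc'.symm (fun v hv => h v (ls_step C hab hc' hne hv))]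

/-- messages vanish if the field vanishes on their side -/
lemma ls_msg_zero {X : V → ℝ} {a b : V} (hab : C.G.Adj a b)
    (h : ∀ v, C.G.dist v a < C.G.dist v b → X v = 0) (n : ℕ) :
    msg C X n a b = 0 := by
  induction n generalizing a b with
  | zero => exact h a (ls_self C hab)
  | succ n ih =>
    simp only [msg]
    rw [h a (ls_self C hab), zero_add]
    apply Finset.sum_eq_zero
    intro c hc
    have hc' : C.G.Adj a c := (C.hnb a c).1 (Finset.mem_of_mem_erase hc)
    have hne : c ≠ b := Finset.ne_of_mem_erase hc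
    rw [ih hc'.symm (fun v hv => h v (ls_step C hab hc' hne hv)), psi_zero]

lemma ls_zl_congr {X Y : V → ℝ} {a b : V} (hab : C.G.Adj a b)
    (h : ∀ v, C.G.dist v a < C.G.dist v b → Y v = X v) : zl C Y a b = zl C X a b := by
  unfold zl
  have : (fun n => msg C Y n a b) = fun n => msg C X n a b :=
    funext fun n => ls_msg_congr C hab h n
  rw [this]

lemma ls_zl_zero {X : V → ℝ} {a b : V} (hab : C.G.Adj a b)
    (h : ∀ v, C.G.dist v a < C.G.dist v b → X v = 0) : zl C X a b = 0 := by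
  have : Tendsto (fun n => msg C X n a b) atTop (𝓝 0) := by
    have : (fun n => msg C X n a b) = fun _ => 0 := funext fun n => ls_msg_zero C hab h n
    rw [this]
    exact tendsto_const_nhds
  exact zl_of_tendsto C this

/-- the branch restriction: the magnetisation at `a` of the state restricted to the side of `a`
is `tanh` of the message from `a` toward `b` -/
lemma ls_side_mag (A : Set (Stp V)) {a b : V} (hab : C.G.Adj a b) (ω : Om V)
    (hM : MC C (fld C (A ∩ sideS C a b) ω)) :
    MA C (A ∩ sideS C a b) a ω = Real.tanh (zl C (fld C A ω) a b) := by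
  have h1 : zl C (fld C (A ∩ sideS C a b) ω) a b = zl C (fld C A ω) a b :=
    ls_zl_congr C hab (fun v hv => ls_fld_in C A ω hv)
  have h2 : zl C (fld C (A ∩ sideS C a b) ω) b a = 0 := by
    apply ls_zl_zero C hab.symm
    intro v hv
    apply ls_fld_out
    omega
  unfold MA
  rw [mag_edge C hM hab, h1, h2, psi_zero, add_zero]

/-- the restricted state is bounded in stage -/
lemma ls_bd {A : Set (Stp V)} {L : ℤ} (hA : ∀ j ∈ A, j.1 ≤ L) (a b : V) :
    ∀ j ∈ A ∩ sideS C a b, j.1 ≤ L := fun j hj => hA j hj.1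

/-- a.s. branch restriction -/
lemma ls_side_mag_ae {A : Set (Stp V)} {L : ℤ} (hA : ∀ j ∈ A, j.1 ≤ L) {a b : V}
    (hab : C.G.Adj a b) :
    ∀ᵐ ω ∂(PP V), MA C (A ∩ sideS C a b) a ω = Real.tanh (zl C (fld C A ω) a b) := by
  filter_upwards [mc_ae C (ls_bd C hA a b)] with ω hω
  exact ls_side_mag C A hab ω hω

/-- Levy for increasing states: the magnetisations -/
lemma ls_levy {A : ℕ → Set (Stp V)} {A' : Set (Stp V)} {L : ℤ} (hm : Monotone A)
    (hU : ⋃ n, A n = A') (hA : ∀ j ∈ A', j.1 ≤ L) (x : V) :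
    ∀ᵐ ω ∂(PP V), Tendsto (fun n => MA C (A n) x ω) atTop (𝓝 (MA C A' x ω)) := by
  have hAn : ∀ n, ∀ j ∈ A n, j.1 ≤ L := fun n j hj => hA j (hU ▸ Set.mem_iUnion.2 ⟨n, hj⟩)
  let ℱ : Filtration ℕ (inferInstance : MeasurableSpace (Om V)) :=
    { seq := fun n => FA C (A n)
      mono' := fun _ _ hij => FA_mono C (hm hij)
      le' := fun n => FA_le C (A n) }
  have hsup : (⨆ n, ℱ n) = FA C A' := by
    apply le_antisymm
    · apply iSup_le
      intro n
      exact FA_mono C (hU ▸ Set.subset_iUnion A n)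
    · unfold FA
      apply iSup₂_le
      intro j hj
      rw [← hU] at hj
      obtain ⟨n, hn⟩ := Set.mem_iUnion.1 hj
      refine le_trans ?_ (le_iSup _ n)
      change _ ≤ FA C (A n)
      unfold FA
      exact le_iSup₂_of_le j hn le_rfl
  have hlevy := tendsto_ae_condExp (μ := PP V) (ℱ := ℱ) (fun ω => spin C ω x)
  rw [hsup] at hlevy
  have hpost : ∀ n, (PP V)[fun ω => spin C ω x | ℱ n] =ᵐ[PP V] MA C (A n) x :=
    fun n => post C (hAn n) x
  have hpost' := post C hA x
  have hpost2 : ∀ᵐ ω ∂(PP V), ∀ n, ((PP V)[fun ω => spin C ω x | ℱ n]) ω = MA C (A n) x ω :=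
    ae_all_iff.2 hpost
  filter_upwards [hlevy, hpost2, hpost'] with ω h1 h2 h3
  rw [← h3]
  exact h1.congr h2

/-- `tanh` reflects convergence -/
lemma ls_tendsto_of_tanh {z : ℕ → ℝ} {y : ℝ}
    (h : Tendsto (fun n => Real.tanh (z n)) atTop (𝓝 (Real.tanh y))) :
    Tendsto z atTop (𝓝 y) := by
  have hstrict : ∀ {a b : ℝ}, a < b → Real.tanh a < Real.tanh b := by
    intro a b hab
    refine lt_of_le_of_ne (m_tanh_mono hab.le) ?_
    intro he
    exact hab.ne (Real.tanh_injective he)
  rw [tendsto_order]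
  constructor
  · intro c hc
    filter_upwards [(tendsto_order.1 h).1 _ (hstrict hc)] with n hn
    by_contra hle
    exact absurd hn (not_lt.2 (m_tanh_mono (not_lt.1 hle)))
  · intro c hc
    filter_upwards [(tendsto_order.1 h).2 _ (hstrict hc)] with n hn
    by_contra hle
    exact absurd hn (not_lt.2 (m_tanh_mono (not_lt.1 hle)))

/-! ### restriction to a branch -/

/-- the part of a state on the side of `a` away from `b` -/
def AB (A : Set (Stp V)) (a b : V) : Set (Stp V) := {j | j ∈ A ∧ C.G.dist j.2 a < C.G.dist j.2 b}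

lemma fld_AB (A : Set (Stp V)) (a b : V) (ω : Om V) :
    fld C (AB C A a b) ω = fun v => if C.G.dist v a < C.G.dist v b then fld C A ω v else 0 := by
  funext v
  unfold fld
  by_cases h : C.G.dist v a < C.G.dist v b
  · rw [if_pos h]
    congr 1
    funext ℓ
    simp [AB, h]
  · rw [if_neg h]
    have : ∀ ℓ : ℤ, (if (ℓ, v) ∈ AB C A a b then zeta (eps ℓ) (yy C (ℓ, v) ω) else 0) = 0 := by
      intro ℓ
      simp [AB, h]
    simp [this]

lemma pb_side_unique {a c c' v : V} (hc : C.G.Adj a c) (hc' : C.G.Adj a c')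
    (h : C.G.dist v c < C.G.dist v a) (h' : C.G.dist v c' < C.G.dist v a) : c = c' := by
  have e1 : C.G.dist c v + 1 = C.G.dist a v := by
    rcases dist_adj C.hT v hc with h1 | h1
    · rw [dist_sym c v, dist_sym a v]; omega
    · omega
  have e2 : C.G.dist c' v + 1 = C.G.dist a v := by
    rcases dist_adj C.hT v hc' with h1 | h1
    · rw [dist_sym c' v, dist_sym a v]; omega
    · omega
  exact toward_unique C.hT hc hc' e1 e2

lemma pb_side_mono {a b c v : V} (hab : C.G.Adj a b) (hac : C.G.Adj a c) (hne : c ≠ b)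
    (h : C.G.dist v c < C.G.dist v a) : C.G.dist v a < C.G.dist v b := by
  rcases dist_adj C.hT v hab with h1 | h1
  · exact absurd (pb_side_unique C hac hab h (by omega)) hne
  · omega

lemma pb_self_lt {a b : V} (hab : C.G.Adj a b) : C.G.dist a a < C.G.dist a b := by
  rw [SimpleGraph.dist_self, dist_one_of_adj hab]
  norm_num

lemma pb_msg_congr {X Y : V → ℝ} (n : ℕ) {a b : V} (hab : C.G.Adj a b)
    (h : ∀ v, C.G.dist v a < C.G.dist v b → Y v = X v) : msg C Y n a b = msg C X n a b := by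
  induction n generalizing a b with
  | zero => exact h a (pb_self_lt C hab)
  | succ n ih =>
    simp only [msg]
    rw [h a (pb_self_lt C hab)]
    congr 1
    apply Finset.sum_congr rfl
    intro c hc
    have hc1 : c ≠ b := (Finset.mem_erase.mp hc).1
    have hc2 : C.G.Adj a c := (C.hnb a c).1 (Finset.mem_erase.mp hc).2
    rw [ih hc2.symm (fun v hv => h v (pb_side_mono C hab hc2 hc1 hv))]

lemma pb_zl_congr {X Y : V → ℝ} {a b : V} (hab : C.G.Adj a b)
    (h : ∀ v, C.G.dist v a < C.G.dist v b → Y v = X v) : zl C Y a b = zl C X a b := by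
  unfold zl
  have : (fun n => msg C Y n a b) = fun n => msg C X n a b :=
    funext fun n => pb_msg_congr C n hab h
  rw [this]

lemma pb_msg_zero (n : ℕ) (a b : V) : msg C (fun _ => 0) n a b = 0 := by
  induction n generalizing a b with
  | zero => rfl
  | succ n ih =>
    simp only [msg]
    simp [ih, psi_zero]

lemma pb_zl_zero (a b : V) : zl C (fun _ => 0) a b = 0 := by
  have h : Tendsto (fun n => msg C (fun _ => 0) n a b) atTop (𝓝 0) := by
    simp [pb_msg_zero]
  exact zl_of_tendsto C h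

/-- the message is the magnetisation of the field restricted to the branch -/
lemma pb_tanh_zl {X : V → ℝ} (h : MC C X) {a b : V} (hab : C.G.Adj a b) :
    Real.tanh (zl C X a b) =
      mag C (fun v => if C.G.dist v a < C.G.dist v b then X v else 0) a := by
  unfold mag
  rw [m_sum_nb C _ hab]
  have hb : zl C (fun v => if C.G.dist v a < C.G.dist v b then X v else 0) b a = 0 := by
    rw [pb_zl_congr C (X := fun _ => 0) hab.symm, pb_zl_zero]
    intro v hv
    rw [if_neg (by omega)]
  have e1 : (fun v => if C.G.dist v a < C.G.dist v b then X v else 0) a = X a :=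
    if_pos (pb_self_lt C hab)
  rw [hb, psi_zero, zero_add, e1, zl_bp C h hab]
  congr 2
  apply Finset.sum_congr rfl
  intro c hc
  have hc1 : c ≠ b := (Finset.mem_erase.mp hc).1
  have hc2 : C.G.Adj a c := (C.hnb a c).1 (Finset.mem_erase.mp hc).2
  have e2 : zl C (fun v => if C.G.dist v a < C.G.dist v b then X v else 0) c a = zl C X c a :=
    pb_zl_congr C hc2.symm fun v hv => if_pos (pb_side_mono C hab hc2 hc1 hv)
  rw [e2]

lemma pb_tanh_zl_fld {A : Set (Stp V)} {ω : Om V} (h : MC C (fld C A ω)) {a b : V}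
    (hab : C.G.Adj a b) : Real.tanh (zl C (fld C A ω) a b) = MA C (AB C A a b) a ω := by
  unfold MA
  rw [fld_AB]
  exact pb_tanh_zl C h hab

/-- Lévy for the magnetisations -/
lemma pb_lim_mag {A : ℕ → Set (Stp V)} {A' : Set (Stp V)} {L : ℤ} (hm : Monotone A)
    (hU : ⋃ n, A n = A') (hA : ∀ j ∈ A', j.1 ≤ L) (x : V) :
    ∀ᵐ ω ∂(PP V), Tendsto (fun n => MA C (A n) x ω) atTop (𝓝 (MA C A' x ω)) := by
  have hsup : (⨆ n, FA C (A n)) = FA C A' := by
    apply le_antisymm
    · exact iSup_le fun n => FA_mono C (hU ▸ Set.subset_iUnion A n)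
    · refine iSup₂_le fun j hj => ?_
      rw [← hU, Set.mem_iUnion] at hj
      obtain ⟨n, hn⟩ := hj
      refine le_trans ?_ (le_iSup (fun n => FA C (A n)) n)
      exact le_iSup₂_of_le (f := fun j (_ : j ∈ A n) => MeasurableSpace.comap (yy C j) inferInstance)
        j hn le_rfl
  let ℱ : Filtration ℕ (inferInstance : MeasurableSpace (Om V)) :=
    { seq := fun n => FA C (A n)
      mono' := fun _ _ hij => FA_mono C (hm hij)
      le' := fun n => FA_le C _ }
  have hL := MeasureTheory.tendsto_ae_condExp (μ := PP V) (ℱ := ℱ) (fun ω => spin C ω x)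
  have hsup' : (⨆ n, ℱ n) = FA C A' := hsup
  rw [hsup'] at hL
  have h1 : ∀ n, (PP V)[fun ω => spin C ω x | FA C (A n)] =ᵐ[PP V] MA C (A n) x := fun n =>
    post C (L := L) (fun j hj => hA j (hU ▸ Set.mem_iUnion.2 ⟨n, hj⟩)) x
  have h2 := post C hA x
  filter_upwards [hL, ae_all_iff.2 h1, h2] with ω hω h3 h4
  rw [← h4]
  have e : (fun n => MA C (A n) x ω) = fun n => ((PP V)[fun ω => spin C ω x | ℱ n]) ω :=
    funext fun n => (h3 n).symm
  rw [e]
  exact hω

/-- Lévy for increasing states -/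
theorem lim_states {A : ℕ → Set (Stp V)} {A' : Set (Stp V)} {L : ℤ} (hm : Monotone A)
    (hU : ⋃ n, A n = A') (hA : ∀ j ∈ A', j.1 ≤ L) :
    ∀ᵐ ω ∂(PP V), (∀ x, Tendsto (fun n => MA C (A n) x ω) atTop (𝓝 (MA C A' x ω))) ∧
      ∀ a b, C.G.Adj a b →
        Tendsto (fun n => zl C (fld C (A n) ω) a b) atTop (𝓝 (zl C (fld C A' ω) a b)) := by
  have hc := countable_V C
  have hbd : ∀ n, ∀ j ∈ A n, j.1 ≤ L := fun n j hj => hA j (hU ▸ Set.mem_iUnion.2 ⟨n, hj⟩)
  have hpart1 : ∀ᵐ ω ∂(PP V), ∀ x, Tendsto (fun n => MA C (A n) x ω) atTop (𝓝 (MA C A' x ω)) :=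
    ae_all_iff.2 fun x => pb_lim_mag C hm hU hA x
  have hMC : ∀ᵐ ω ∂(PP V), ∀ n, MC C (fld C (A n) ω) := ae_all_iff.2 fun n => mc_ae C (hbd n)
  have hMC' : ∀ᵐ ω ∂(PP V), MC C (fld C A' ω) := mc_ae C hA
  have hpart2 : ∀ᵐ ω ∂(PP V), ∀ a b, C.G.Adj a b →
      Tendsto (fun n => MA C (AB C (A n) a b) a ω) atTop (𝓝 (MA C (AB C A' a b) a ω)) := by
    refine ae_all_iff.2 fun a => ae_all_iff.2 fun b => ?_
    by_cases hab : C.G.Adj a b
    · have hmB : Monotone fun n => AB C (A n) a b := fun i j hij x hx => ⟨hm hij hx.1, hx.2⟩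
      have hUB : ⋃ n, AB C (A n) a b = AB C A' a b := by
        ext j
        simp only [Set.mem_iUnion, AB, Set.mem_ofPred_eq]
        rw [← hU]
        simp only [Set.mem_iUnion]
        constructor
        · rintro ⟨n, h1, h2⟩
          exact ⟨⟨n, h1⟩, h2⟩
        · rintro ⟨⟨n, h1⟩, h2⟩
          exact ⟨n, h1, h2⟩
      filter_upwards [pb_lim_mag C hmB hUB (fun j hj => hA j hj.1) a] with ω hω _
      exact hω
    · exact ae_of_all _ fun ω h => absurd h hab
  filter_upwards [hpart1, hpart2, hMC, hMC'] with ω h1 h2 h3 h4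
  refine ⟨h1, fun a b hab => ?_⟩
  have ht : Tendsto (fun n => Real.tanh (zl C (fld C (A n) ω) a b)) atTop
      (𝓝 (Real.tanh (zl C (fld C A' ω) a b))) := by
    rw [pb_tanh_zl_fld C h4 hab]
    have e : (fun n => Real.tanh (zl C (fld C (A n) ω) a b)) = fun n => MA C (AB C (A n) a b) a ω :=
      funext fun n => pb_tanh_zl_fld C (h3 n) hab
    rw [e]
    exact h2 a b hab
  have hinv : ∀ z : ℝ, (1 / 2 : ℝ) * Real.log ((1 + Real.tanh z) / (1 - Real.tanh z)) = z := by
    intro z
    rw [← Real.artanh_eq_half_log ⟨(Real.neg_one_lt_tanh z).le, (Real.tanh_lt_one z).le⟩,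
      Real.artanh_tanh]
  have hcont : ContinuousAt (fun t : ℝ => (1 / 2 : ℝ) * Real.log ((1 + t) / (1 - t)))
      (Real.tanh (zl C (fld C A' ω) a b)) := by
    have h5 := Real.tanh_lt_one (zl C (fld C A' ω) a b)
    have h6 := Real.neg_one_lt_tanh (zl C (fld C A' ω) a b)
    refine continuousAt_const.mul (ContinuousAt.log ?_ ?_)
    · exact ContinuousAt.div (by fun_prop) (by fun_prop) (by linarith)
    · exact (div_pos (by linarith) (by linarith)).ne'
  have hfin : Tendsto (fun n => (1 / 2 : ℝ) * Real.log ((1 + Real.tanh (zl C (fld C (A n) ω) a b)) /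
      (1 - Real.tanh (zl C (fld C (A n) ω) a b)))) atTop
      (𝓝 ((1 / 2 : ℝ) * Real.log ((1 + Real.tanh (zl C (fld C A' ω) a b)) /
        (1 - Real.tanh (zl C (fld C A' ω) a b))))) := hcont.tendsto.comp ht
  simp only [hinv] at hfin
  exact hfin

/-- conditional second moments increase with the sigma-algebra -/
lemma pb_ce_sq_mono {Ω : Type} {m m' m0 : MeasurableSpace Ω} {μ : Measure Ω}
    [IsProbabilityMeasure μ] (hmm' : m ≤ m') (hm' : m' ≤ m0) {Z : Ω → ℝ} {B : ℝ}
    (hZ : ∀ ω, |Z ω| ≤ B) :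
    ∫ ω, (μ[Z | m] ω) ^ 2 ∂μ ≤ ∫ ω, (μ[Z | m'] ω) ^ 2 ∂μ := by
  have hWint : Integrable (μ[Z | m']) μ := integrable_condExp
  have hWb : ∀ᵐ ω ∂μ, |μ[Z | m'] ω| ≤ B := ce_abs_le hm' (ae_of_all _ hZ)
  have hW2 : Integrable (fun ω => μ[Z | m'] ω ^ 2) μ := by
    refine Integrable.of_bound (hWint.aestronglyMeasurable.pow 2) (B ^ 2) ?_
    filter_upwards [hWb] with ω hω
    rw [Real.norm_eq_abs, abs_pow]
    exact pow_le_pow_left₀ (abs_nonneg _) hω _
  have hconv : ConvexOn ℝ Set.univ (fun x : ℝ => x ^ 2) := Even.convexOn_pow even_two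
  have hlsc : LowerSemicontinuous (fun x : ℝ => x ^ 2) := (continuous_pow _).lowerSemicontinuous
  have hJ := hconv.map_condExp_le_univ (m := m) (hmm'.trans hm') hlsc hWint hW2
  have hT : μ[μ[Z | m'] | m] =ᵐ[μ] μ[Z | m] := condExp_condExp_of_le hmm' hm'
  have hInt1 : Integrable (fun ω => μ[Z | m] ω ^ 2) μ := by
    refine Integrable.of_bound ((integrable_condExp (m := m) (μ := μ) (f := Z)).aestronglyMeasurable.pow 2)
      (B ^ 2) ?_
    have hb : ∀ᵐ ω ∂μ, |μ[Z | m] ω| ≤ B := ce_abs_le (hmm'.trans hm') (ae_of_all _ hZ)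
    filter_upwards [hb] with ω hω
    rw [Real.norm_eq_abs, abs_pow]
    exact pow_le_pow_left₀ (abs_nonneg _) hω _
  calc ∫ ω, (μ[Z | m] ω) ^ 2 ∂μ ≤ ∫ ω, μ[fun ω => μ[Z | m'] ω ^ 2 | m] ω ∂μ := by
        refine integral_mono_ae hInt1 integrable_condExp ?_
        filter_upwards [hJ, hT] with ω h1 h2
        rw [← h2]
        exact h1
    _ = ∫ ω, (μ[Z | m'] ω) ^ 2 ∂μ := integral_condExp (hmm'.trans hm')

/-- information monotonicity at an edge: the message second moment increases with the state -/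
theorem msg_sq_mono {A A' : Set (Stp V)} {L : ℤ} (h : A ⊆ A') (hA : ∀ j ∈ A', j.1 ≤ L) {a b : V}
    (hab : C.G.Adj a b) :
    ∫ ω, Real.tanh (zl C (fld C A ω) a b) ^ 2 ∂(PP V)
      ≤ ∫ ω, Real.tanh (zl C (fld C A' ω) a b) ^ 2 ∂(PP V) := by
  have hbd : ∀ j ∈ A, j.1 ≤ L := fun j hj => hA j (h hj)
  have key : ∀ {A₀ : Set (Stp V)}, (∀ j ∈ A₀, j.1 ≤ L) →
      ∫ ω, Real.tanh (zl C (fld C A₀ ω) a b) ^ 2 ∂(PP V) =
        ∫ ω, ((PP V)[fun ω => spin C ω a | FA C (AB C A₀ a b)] ω) ^ 2 ∂(PP V) := by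
    intro A₀ hA₀
    refine integral_congr_ae ?_
    filter_upwards [mc_ae C hA₀, post C (A := AB C A₀ a b) (L := L) (fun j hj => hA₀ j hj.1) a]
      with ω h1 h2
    rw [pb_tanh_zl_fld C h1 hab, h2]
  rw [key hbd, key hA]
  refine pb_ce_sq_mono (FA_mono C (A := AB C A a b) (A' := AB C A' a b)
    fun j hj => ⟨h hj.1, hj.2⟩) (FA_le C _) (B := 1) ?_
  intro ω
  rcases spin_cases C ω a with h1 | h1 <;> simp [h1]

/-- Fubini for almost sure statements over the labels: statements true for each fixed labels hold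
for the random labels. -/
theorem ae_of_fiber {Q : Lab V → Om V → Prop}
    (hQ : MeasurableSet {p : Lab V × Om V | Q p.1 p.2})
    (hig : ∀ τ ω, Q τ (setL τ ω) ↔ Q τ ω) (h : ∀ᵐ τ ∂(PL V), ∀ᵐ ω ∂(PP V), Q τ ω) :
    ∀ᵐ ω ∂(PP V), Q (lab ω.2) ω := by
  have hmp := measurePreserving_fiber (V := V)
  have h1 : ∀ᵐ p ∂((PL V).prod (PP V)), Q p.1 p.2 :=
    (Measure.ae_prod_iff_ae_ae hQ).mpr h
  have hS : MeasurableSet {ω : Om V | Q (lab ω.2) ω} := by
    have hm : Measurable fun ω : Om V => ((lab ω.2, ω) : Lab V × Om V) :=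
      (measurable_lab.comp measurable_snd).prodMk measurable_id
    exact hm hQ
  have h2 : ∀ᵐ ω ∂((((PL V).prod (PP V)).map fun p : Lab V × Om V => setL p.1 p.2)),
      Q (lab ω.2) ω := by
    rw [ae_map_iff hmp.measurable.aemeasurable hS]
    filter_upwards [h1] with p hp
    have e : (lab (setL p.1 p.2).2) = p.1 := rfl
    rw [e]
    exact (hig _ _).mpr hp
  rwa [hmp.map_eq] at h2

lemma pb_eS_setLab (τ : Lab V) (e : Sym2 V) (w : WW V) : eS C e (setLab τ w) = eS C e w := rfl

lemma pb_pS_setLab (τ : Lab V) (x u : V) (w : WW V) : pS C x u (setLab τ w) = pS C x u w := rfl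

lemma pb_spin_setL (τ : Lab V) (ω : Om V) (v : V) : spin C (setL τ ω) v = spin C ω v := rfl

lemma pb_yy_setL (τ : Lab V) (j : Stp V) (ω : Om V) : yy C j (setL τ ω) = yy C j ω := rfl

lemma pb_fld_setL (τ : Lab V) (A : Set (Stp V)) (ω : Om V) : fld C A (setL τ ω) = fld C A ω := rfl

lemma pb_measurable_setL_joint : Measurable fun p : Lab V × Om V => setL p.1 p.2 :=
  (measurePreserving_fiber (V := V)).measurable

/-- the messages converge almost surely at random label-measurable states -/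
theorem mc_ae_ls {A : Lab V → Set (Stp V)} {L : ℤ} (hL : ∀ τ, ∀ j ∈ A τ, j.1 ≤ L)
    (hA : LS fun w => A (lab w)) :
    ∀ᵐ ω ∂(PP V), MC C (fld C (A (lab ω.2)) ω) := by
  have hmeasMC : MeasurableSet {ω : Om V | MC C (fld C (A (lab ω.2)) ω)} := by
    have hc := countable_V C
    have e : {ω : Om V | MC C (fld C (A (lab ω.2)) ω)} =
        ⋂ a : V, ⋂ b : V, {ω : Om V | C.G.Adj a b → ∃ z, Tendsto
          (fun n => msg C (fld C (A (lab ω.2)) ω) n a b) atTop (𝓝 z)} := by
      ext ω
      simp [MC]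
    rw [e]
    refine MeasurableSet.iInter fun a => MeasurableSet.iInter fun b => ?_
    by_cases hab : C.G.Adj a b
    · have hset : MeasurableSet {ω : Om V | ∃ z, Tendsto
          (fun n => msg C (fld C (A (lab ω.2)) ω) n a b) atTop (𝓝 z)} := by
        refine measurableSet_exists_tendsto (fun n => ?_)
        exact measurable_msg (C := C) hA (fun w j hj => hL _ j hj) n a b
      convert hset using 3
      simp [hab]
    · have : {ω : Om V | C.G.Adj a b → ∃ z, Tendsto
          (fun n => msg C (fld C (A (lab ω.2)) ω) n a b) atTop (𝓝 z)} = Set.univ := by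
        ext ω
        simp [hab]
      rw [this]
      exact MeasurableSet.univ
  refine ae_of_fiber (V := V) (Q := fun τ ω => MC C (fld C (A τ) ω)) ?_ ?_ ?_
  · have e : {p : Lab V × Om V | MC C (fld C (A p.1) p.2)} =
        (fun p : Lab V × Om V => setL p.1 p.2) ⁻¹' {ω : Om V | MC C (fld C (A (lab ω.2)) ω)} := by
      ext p
      rfl
    rw [e]
    exact pb_measurable_setL_joint hmeasMC
  · intro τ ω
    rw [pb_fld_setL]
  · exact ae_of_all _ fun τ => mc_ae C (hL τ)

end Vale.Agent.Lib.P161.Crit
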