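import Vale.Agent.Lib.P161.Crit.Rec1
import Vale.Agent.Lib.P161.Crit.Palm

/-!
The bound of the perpendicular part of one jump, paper section REC.
-/

open MeasureTheory Filter Topology Finset

noncomputable section
namespace Vale.Agent.Lib.P161.Crit

open scoped Classical
open Vale.Agent.Lib.P161

variable {V : Type} (C : CT V)

/-- covariance at the state just before step `j` -/
def Z1 (x : V) (j : Stp V) (ω : Om V) : ℝ := CA C (Sq (lab ω.2) (tm (lab ω.2) j)) x j.2 ω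

/-- magnetisation at the state just before step `j` -/
def Z2 (j : Stp V) (ω : Om V) : ℝ := MA C (Sq (lab ω.2) (tm (lab ω.2) j)) j.2 ω

lemma rc_Z1_meas (x : V) (j : Stp V) : Measurable (Z1 C x j) :=
  measurable_CA (LS_pre j) (fun w => Sq_tm_le 0 (lab w) j) x j.2

lemma rc_Z2_meas (j : Stp V) : Measurable (Z2 C j) :=
  measurable_MA (LS_pre j) (fun w => Sq_tm_le 0 (lab w) j) j.2

lemma rc_abs_Z1 (x : V) (j : Stp V) (ω : Om V) : |Z1 C x j ω| ≤ 1 := abs_CA_le C _ x j.2 ω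

lemma rc_abs_Z2 (j : Stp V) (ω : Om V) : |Z2 C j ω| ≤ 1 := abs_MA_le_one C _ _ ω

lemma rc_setL_lab (ω : Om V) : setL (lab ω.2) ω = ω := by
  refine Prod.ext rfl ?_
  funext i
  cases i <;> rfl

lemma rc_setL_setL (τ : Lab V) (ω : Om V) : setL τ (setL τ ω) = setL τ ω := by
  refine Prod.ext rfl ?_
  funext i
  cases i <;> rfl

/-- the update formula with random labels: `Dl_formula` at each fixed `τ` + `ae_of_fiber` -/
theorem DlW_formula (s s' : ℝ) (x : V) (j : Stp V) :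
    ∀ᵐ ω ∂(PP V), DlW C s s' j x ω =
      if Cw s s' (lab ω.2) j then
        eps j.1 * gg (Rw C j ω) (eps j.1 * Z2 C j ω) * Z1 C x j ω else 0 := by
  set G : Om V → ℝ := fun ω => if Cw s s' (lab ω.2) j then
      eps j.1 * gg (Rw C j ω) (eps j.1 * Z2 C j ω) * Z1 C x j ω else 0 with hGdef
  have hG : Measurable G := by
    refine Measurable.ite ((measurableSet_Cw s s' j).preimage measurable_snd) ?_ measurable_const
    refine (measurable_const.mul ?_).mul (rc_Z1_meas C x j)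
    exact measurable_gg.comp ((measurable_Rw C j).prodMk (measurable_const.mul (rc_Z2_meas C j)))
  have mf : Measurable fun p : Lab V × Om V => setL p.1 p.2 :=
    (measurePreserving_fiber (V := V)).measurable
  have hQ : MeasurableSet {p : Lab V × Om V |
      DlW C s s' j x (setL p.1 p.2) = G (setL p.1 p.2)} :=
    measurableSet_eq_fun ((measurable_DlW C s s' j x).comp mf) (hG.comp mf)
  have h : ∀ᵐ τ ∂(PL V), ∀ᵐ ω ∂(PP V), DlW C s s' j x (setL τ ω) = G (setL τ ω) := by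
    refine Eventually.of_forall fun τ => ?_
    by_cases hc : Cw s s' τ j
    · have hj : j ∉ Sq τ (tm τ j) := fun hh => lt_irrefl _ hh.2
      filter_upwards [Dl_formula C (Sq_tm_le s τ j) hj (le_Lj s j) x] with ω hω
      rw [DlW_setL, if_pos hc]
      have hG' : G (setL τ ω) = eps j.1 * gg (Rw C j (setL τ ω)) (eps j.1 * Z2 C j (setL τ ω)) *
          Z1 C x j (setL τ ω) := by
        change (if Cw s s' τ j then _ else _) = _
        rw [if_pos hc]
      have hR : Rw C j (setL τ ω) =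
          Tc (eps j.1 * MA C (Sq τ (tm τ j)) j.2 ω) (yy C j ω) := by
        unfold Rw
        change (if τ j < 0 then _ else _) = _
        rw [if_pos hc.1]
        rfl
      rw [hG', hR]
      exact hω
    · refine Eventually.of_forall fun ω => ?_
      rw [DlW_setL, if_neg hc]
      change 0 = (if Cw s s' τ j then _ else _)
      rw [if_neg hc]
  have h1 := ae_of_fiber (Q := fun τ ω => DlW C s s' j x (setL τ ω) = G (setL τ ω)) hQ
    (fun τ ω => by simp only [rc_setL_setL]) h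
  filter_upwards [h1] with ω hω
  simpa only [rc_setL_lab] using hω

/-- the error functional -/
def Fx (ε : ℝ) (Y1 Y2 : Om V → ℝ) (ω : Om V) : ℝ :=
  8 * (Y1 ω - Pj C Y1 ω) ^ 2 + 512 * ε ^ 2 * ((Y2 ω - Pj C Y2 ω) ^ 2 * (Pj C Y1 ω) ^ 2)

/-- candidate and `ce_min`. Candidate (it is `GG`-measurable, clamped so that it is bounded everywhere):
`c ω = if Cw s s' (lab ω.2) j then ε * gg (Rw C j ω) (ε * cl (Pj C (Z2 C j) ω)) * cl (Pj C (Z1 C x j) ω)
else 0`, where `cl y = y` for `|y| ≤ 1` and `ce_abs_le` gives `|Pj Z| ≤ 1` a.e.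
With `DlW_formula`, `abs_gg_le`, `gg_lip`: `(Δ - c)² ≤ 1_{Cw} ε² Fx` a.e. since
`gg(R,εZ2) Z1 - gg(R,εPZ2) PZ1 = gg(R,εZ2) (Z1-PZ1) + (gg(R,εZ2)-gg(R,εPZ2)) PZ1`. -/
theorem jump_le_F (s s' : ℝ) (x : V) (j : Stp V) :
    ∫ ω, (DlW C s s' j x ω - Pj C (DlW C s s' j x) ω) ^ 2 ∂(PP V) ≤
      (eps j.1) ^ 2 * ∫ ω, (if Cw s s' (lab ω.2) j then
        Fx C (eps j.1) (Z1 C x j) (Z2 C j) ω else 0) ∂(PP V) := by
  set ε := eps j.1 with hε
  have he0 : 0 < ε := eps_pos _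
  have he1 : ε ≤ 1 / 2 := eps_le _
  set P1 := Pj C (Z1 C x j) with hP1
  set P2 := Pj C (Z2 C j) with hP2
  have hP1m : Measurable[GG C] P1 := stronglyMeasurable_condExp.measurable
  have hP2m : Measurable[GG C] P2 := stronglyMeasurable_condExp.measurable
  have hP1m' : Measurable P1 := hP1m.mono (GG_le C) le_rfl
  have hP2m' : Measurable P2 := hP2m.mono (GG_le C) le_rfl
  have hkap : Measurable[GG C] (kap C) := comap_measurable _
  have hlab : Measurable[GG C] fun ω : Om V => lab ω.2 := measurable_fst.comp hkap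
  have hRw : Measurable[GG C] (Rw C j) := (measurable_pi_apply j).comp (measurable_snd.comp hkap)
  have hCwS : MeasurableSet {τ : Lab V | Cw s s' τ j} :=
    (measurableSet_lt (measurable_pi_apply j) measurable_const).inter
      ((measurableSet_le measurable_const (measurable_tm j)).inter
        (measurableSet_lt (measurable_tm j) measurable_const))
  have hCwG : MeasurableSet[GG C] {ω : Om V | Cw s s' (lab ω.2) j} := hlab hCwS
  set c : Om V → ℝ := fun ω => if Cw s s' (lab ω.2) j then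
      ε * gg (Rw C j ω) (ε * cl (P2 ω)) * cl (P1 ω) else 0 with hc
  have hcm : Measurable[GG C] c := by
    refine Measurable.ite hCwG ?_ measurable_const
    refine (measurable_const.mul ?_).mul (measurable_cl.comp hP1m)
    exact measurable_gg.comp (hRw.prodMk (measurable_const.mul (measurable_cl.comp hP2m)))
  have hecl : ∀ y : ℝ, |ε * cl y| ≤ 1 / 2 := by
    intro y
    rw [abs_mul, abs_of_pos he0]
    calc ε * |cl y| ≤ 1 / 2 * 1 := mul_le_mul he1 (abs_cl_le y) (abs_nonneg _) (by norm_num)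
      _ = 1 / 2 := by norm_num
  have hcB : ∀ ω, |c ω| ≤ 2 := by
    intro ω
    simp only [hc]
    split_ifs
    · rw [abs_mul, abs_mul, abs_of_pos he0]
      have h1 := abs_gg_le (hecl (P2 ω)) (Rw C j ω)
      have h2 := abs_cl_le (P1 ω)
      calc ε * |gg (Rw C j ω) (ε * cl (P2 ω))| * |cl (P1 ω)| ≤ 1 / 2 * 2 * 1 :=
            mul_le_mul (mul_le_mul he1 h1 (abs_nonneg _) (by norm_num)) h2 (abs_nonneg _)
              (by norm_num)
        _ ≤ 2 := by norm_num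
    · simp
  have hmin := ce_min (μ := PP V) (GG_le C) (measurable_DlW C s s' j x) (abs_DlW_le C s s' j x) hcm hcB
  refine hmin.trans ?_
  -- the pointwise bound
  have hZ1 := rc_Z1_meas C x j
  have hZ2 := rc_Z2_meas C j
  have hP1B : ∀ᵐ ω ∂(PP V), |P1 ω| ≤ 1 :=
    ce_abs_le (GG_le C) (Eventually.of_forall (rc_abs_Z1 C x j))
  have hP2B : ∀ᵐ ω ∂(PP V), |P2 ω| ≤ 1 :=
    ce_abs_le (GG_le C) (Eventually.of_forall (rc_abs_Z2 C j))
  set R : Om V → ℝ := fun ω => if Cw s s' (lab ω.2) j then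
      Fx C ε (Z1 C x j) (Z2 C j) ω else 0 with hR
  have hRm : Measurable R := by
    refine Measurable.ite ((measurableSet_Cw s s' j).preimage measurable_snd) ?_ measurable_const
    unfold Fx
    exact (measurable_const.mul ((hZ1.sub hP1m').pow_const 2)).add
      (measurable_const.mul (((hZ2.sub hP2m').pow_const 2).mul (hP1m'.pow_const 2)))
  have hRB : ∀ᵐ ω ∂(PP V), ‖R ω‖ ≤ 544 := by
    filter_upwards [hP1B, hP2B] with ω h1 h2
    simp only [hR]
    split_ifs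
    · unfold Fx
      have h3 : (Z1 C x j ω - Pj C (Z1 C x j) ω) ^ 2 ≤ 4 := by
        refine sq_le_four ((abs_sub _ _).trans ?_)
        have := rc_abs_Z1 C x j ω
        linarith
      have h4 : (Z2 C j ω - Pj C (Z2 C j) ω) ^ 2 ≤ 4 := by
        refine sq_le_four ((abs_sub _ _).trans ?_)
        have := rc_abs_Z2 C j ω
        linarith
      have h5 : (Pj C (Z1 C x j) ω) ^ 2 ≤ 1 := by
        have h1' : |Pj C (Z1 C x j) ω| ≤ 1 := h1
        nlinarith [sq_abs (Pj C (Z1 C x j) ω), abs_nonneg (Pj C (Z1 C x j) ω)]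
      have h6 : ε ^ 2 ≤ 1 / 4 := by nlinarith
      have h7 : (Z2 C j ω - Pj C (Z2 C j) ω) ^ 2 * (Pj C (Z1 C x j) ω) ^ 2 ≤ 4 := by
        nlinarith [sq_nonneg (Z2 C j ω - Pj C (Z2 C j) ω), sq_nonneg (Pj C (Z1 C x j) ω)]
      have h8 : 0 ≤ (Z2 C j ω - Pj C (Z2 C j) ω) ^ 2 * (Pj C (Z1 C x j) ω) ^ 2 := by positivity
      have h9 : ε ^ 2 * ((Z2 C j ω - Pj C (Z2 C j) ω) ^ 2 * (Pj C (Z1 C x j) ω) ^ 2) ≤ 1 := by
        nlinarith [sq_nonneg ε]
      rw [Real.norm_of_nonneg (by positivity)]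
      nlinarith [sq_nonneg (Z1 C x j ω - Pj C (Z1 C x j) ω)]
    · simp
  have hRi : Integrable R (PP V) := Integrable.of_bound hRm.aestronglyMeasurable 544 hRB
  have hli : Integrable (fun ω => (DlW C s s' j x ω - c ω) ^ 2) (PP V) := by
    refine Integrable.of_bound
      (((measurable_DlW C s s' j x).sub (hcm.mono (GG_le C) le_rfl)).pow_const 2).aestronglyMeasurable
      16 (Eventually.of_forall fun ω => ?_)
    rw [Real.norm_of_nonneg (sq_nonneg _)]
    have h1 := abs_DlW_le C s s' j x ω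
    have h2 := hcB ω
    have h3 : |DlW C s s' j x ω - c ω| ≤ 4 := (abs_sub _ _).trans (by linarith)
    nlinarith [sq_abs (DlW C s s' j x ω - c ω), abs_nonneg (DlW C s s' j x ω - c ω)]
  rw [← integral_const_mul]
  refine integral_mono_ae hli (hRi.const_mul _) ?_
  filter_upwards [DlW_formula C s s' x j, hP1B, hP2B] with ω h0 h1 h2
  change (DlW C s s' j x ω - c ω) ^ 2 ≤ ε ^ 2 * R ω
  rw [h0]
  simp only [hc, hR]
  by_cases hCw : Cw s s' (lab ω.2) j
  · rw [if_pos hCw, if_pos hCw, if_pos hCw]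
    have hcl1 : cl (P1 ω) = P1 ω := cl_of_mem (abs_le.mp h1)
    have hcl2 : cl (P2 ω) = P2 ω := cl_of_mem (abs_le.mp h2)
    rw [hcl1, hcl2]
    have he2 : ∀ y : ℝ, |y| ≤ 1 → |ε * y| ≤ 1 / 2 := by
      intro y hy
      rw [abs_mul, abs_of_pos he0]
      calc ε * |y| ≤ 1 / 2 * 1 := mul_le_mul he1 hy (abs_nonneg _) (by norm_num)
        _ = 1 / 2 := by norm_num
    set r := Rw C j ω
    set A := gg r (ε * Z2 C j ω) with hA
    set A' := gg r (ε * P2 ω) with hA'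
    have hAB : |A| ≤ 2 := abs_gg_le (he2 _ (rc_abs_Z2 C j ω)) r
    have hdiff : |A - A'| ≤ 16 * |ε * Z2 C j ω - ε * P2 ω| :=
      gg_lip (he2 _ (rc_abs_Z2 C j ω)) (he2 _ h2) r
    have hdiff2 : (A - A') ^ 2 ≤ 256 * (ε ^ 2 * (Z2 C j ω - P2 ω) ^ 2) := by
      have h3 : |ε * Z2 C j ω - ε * P2 ω| = ε * |Z2 C j ω - P2 ω| := by
        rw [← mul_sub, abs_mul, abs_of_pos he0]
      rw [h3] at hdiff
      have h4 : 0 ≤ ε * |Z2 C j ω - P2 ω| := by positivity
      calc (A - A') ^ 2 = |A - A'| ^ 2 := (sq_abs _).symm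
        _ ≤ (16 * (ε * |Z2 C j ω - P2 ω|)) ^ 2 := by
            gcongr
        _ = 256 * (ε ^ 2 * |Z2 C j ω - P2 ω| ^ 2) := by ring
        _ = _ := by rw [sq_abs]
    have hA2 : A ^ 2 ≤ 4 := sq_le_four hAB
    unfold Fx
    set a := Z1 C x j ω - Pj C (Z1 C x j) ω with ha
    set b := P1 ω with hb
    have hkey : (A * Z1 C x j ω - A' * b) = A * a + (A - A') * b := by
      rw [ha]; ring
    have h5 : (A * a + (A - A') * b) ^ 2 ≤ 2 * (A * a) ^ 2 + 2 * ((A - A') * b) ^ 2 := by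
      nlinarith [sq_nonneg (A * a - (A - A') * b)]
    have h6 : (A * a) ^ 2 ≤ 4 * a ^ 2 := by
      rw [mul_pow]; exact mul_le_mul_of_nonneg_right hA2 (sq_nonneg _)
    have h7 : ((A - A') * b) ^ 2 ≤ 256 * (ε ^ 2 * (Z2 C j ω - P2 ω) ^ 2) * b ^ 2 := by
      rw [mul_pow]; exact mul_le_mul_of_nonneg_right hdiff2 (sq_nonneg _)
    have h8 : (ε * A * Z1 C x j ω - ε * A' * b) ^ 2 = ε ^ 2 * (A * a + (A - A') * b) ^ 2 := by
      rw [← hkey]; ring
    rw [h8]
    refine mul_le_mul_of_nonneg_left ?_ (sq_nonneg _)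
    change (A * a + (A - A') * b) ^ 2 ≤ 8 * a ^ 2 + 512 * ε ^ 2 *
      ((Z2 C j ω - Pj C (Z2 C j) ω) ^ 2 * (Pj C (Z1 C x j) ω) ^ 2)
    have e1 : Pj C (Z2 C j) ω = P2 ω := rfl
    have e2 : Pj C (Z1 C x j) ω = b := rfl
    rw [e1, e2]
    nlinarith
  · rw [if_neg hCw, if_neg hCw, if_neg hCw]
    simp

/-- the fixed-label error functional -/
def XiJ (ε : ℝ) (x u : V) (τ : Lab V) (T : ℝ) : ℝ :=
  ∫ ω, (8 * (CA C (Sq τ T) x u ω - (PP V)[CA C (Sq τ T) x u | GF C τ T] ω) ^ 2 +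
    512 * ε ^ 2 * ((MA C (Sq τ T) u ω - (PP V)[MA C (Sq τ T) u | GF C τ T] ω) ^ 2 *
      ((PP V)[CA C (Sq τ T) x u | GF C τ T] ω) ^ 2)) ∂(PP V)

lemma XiJ_nonneg (ε : ℝ) (x u : V) (τ : Lab V) (T : ℝ) : 0 ≤ XiJ C ε x u τ T := by
  unfold XiJ
  exact integral_nonneg fun ω => by positivity

/-- `|CA| ≤ 1`, `|MA| ≤ 1`, `ce_abs_le`, `GF_le_FA`, `FA_le` -/
lemma XiJ_le (ε : ℝ) (x u : V) (τ : Lab V) (T : ℝ) : XiJ C ε x u τ T ≤ 32 + 2048 * ε ^ 2 := by
  unfold XiJ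
  have hGF : GF C τ T ≤ (inferInstance : MeasurableSpace (Om V)) :=
    (GF_le_FA C τ T).trans (FA_le C _)
  have h1 : ∀ᵐ ω ∂(PP V), |(PP V)[CA C (Sq τ T) x u | GF C τ T] ω| ≤ 1 :=
    ce_abs_le hGF (Eventually.of_forall fun ω => abs_CA_le C (Sq τ T) x u ω)
  have h2 : ∀ᵐ ω ∂(PP V), |(PP V)[MA C (Sq τ T) u | GF C τ T] ω| ≤ 1 :=
    ce_abs_le hGF (Eventually.of_forall fun ω => (abs_mag_lt C _ _).le)
  have hle : ∀ᵐ ω ∂(PP V), (8 * (CA C (Sq τ T) x u ω - (PP V)[CA C (Sq τ T) x u | GF C τ T] ω) ^ 2 +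
      512 * ε ^ 2 * ((MA C (Sq τ T) u ω - (PP V)[MA C (Sq τ T) u | GF C τ T] ω) ^ 2 *
        ((PP V)[CA C (Sq τ T) x u | GF C τ T] ω) ^ 2)) ≤ 32 + 2048 * ε ^ 2 := by
    filter_upwards [h1, h2] with ω e1 e2
    have a1 := abs_CA_le C (Sq τ T) x u ω
    have a2 : |MA C (Sq τ T) u ω| ≤ 1 := (abs_mag_lt C _ _).le
    set p := (PP V)[CA C (Sq τ T) x u | GF C τ T] ω
    set q := (PP V)[MA C (Sq τ T) u | GF C τ T] ω
    set c := CA C (Sq τ T) x u ω
    set m := MA C (Sq τ T) u ω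
    have b1 : (c - p) ^ 2 ≤ 4 := by
      have := abs_sub c p
      have h : |c - p| ≤ 2 := by linarith
      nlinarith [abs_nonneg (c - p), sq_abs (c - p)]
    have b2 : (m - q) ^ 2 ≤ 4 := by
      have := abs_sub m q
      have h : |m - q| ≤ 2 := by linarith
      nlinarith [abs_nonneg (m - q), sq_abs (m - q)]
    have b3 : p ^ 2 ≤ 1 := by nlinarith [abs_nonneg p, sq_abs p]
    have b4 : (m - q) ^ 2 * p ^ 2 ≤ 4 :=
      (mul_le_mul b2 b3 (sq_nonneg _) (by norm_num)).trans (by norm_num)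
    have b5 : 512 * ε ^ 2 * ((m - q) ^ 2 * p ^ 2) ≤ 512 * ε ^ 2 * 4 :=
      mul_le_mul_of_nonneg_left b4 (by positivity)
    linarith
  calc _ ≤ ∫ _ω, (32 + 2048 * ε ^ 2) ∂(PP V) :=
        integral_mono_of_nonneg (Eventually.of_forall fun ω => by positivity)
          (integrable_const _) hle
    _ = 32 + 2048 * ε ^ 2 := by simp

lemma r2_mem_Sq {τ : Lab V} {T : ℝ} {i : Stp V} : i ∈ Sq τ T ↔ τ i < 0 ∧ tm τ i < T := Iff.rfl

lemma r2_tm_update {τ : Lab V} {i j : Stp V} {x : ℝ} (h : i ≠ j) :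
    tm (Function.update τ j x) i = tm τ i := by
  simp [tm, Function.update_of_ne h]

lemma r2_Sq_update_eq {j : Stp V} {τ : Lab V} {T x₁ x₂ : ℝ}
    (h₁ : ¬(x₁ < 0 ∧ tm (Function.update τ j x₁) j < T))
    (h₂ : ¬(x₂ < 0 ∧ tm (Function.update τ j x₂) j < T)) :
    Sq (Function.update τ j x₁) T = Sq (Function.update τ j x₂) T := by
  ext i
  rw [r2_mem_Sq, r2_mem_Sq]
  by_cases hij : i = j
  · subst hij
    simp only [Function.update_self]
    constructor
    · intro h; exact absurd h h₁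
    · intro h; exact absurd h h₂
  · rw [r2_tm_update hij, r2_tm_update hij, Function.update_of_ne hij, Function.update_of_ne hij]

lemma r2_GF_update_eq {j : Stp V} {τ : Lab V} {T x₁ x₂ : ℝ}
    (h₁ : ¬(x₁ < 0 ∧ tm (Function.update τ j x₁) j < T))
    (h₂ : ¬(x₂ < 0 ∧ tm (Function.update τ j x₂) j < T)) :
    GF C (Function.update τ j x₁) T = GF C (Function.update τ j x₂) T := by
  have hS := r2_Sq_update_eq h₁ h₂
  have key : ∀ i ∈ Sq (Function.update τ j x₁) T,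
      Rf C (Function.update τ j x₁) i = Rf C (Function.update τ j x₂) i := by
    intro i hi
    have hij : i ≠ j := by
      rintro rfl
      apply h₁
      have := (r2_mem_Sq.1 hi)
      simpa using this
    have ht : tm (Function.update τ j x₁) i = tm (Function.update τ j x₂) i := by
      rw [r2_tm_update hij, r2_tm_update hij]
    have hlt : tm (Function.update τ j x₁) i < T := (r2_mem_Sq.1 hi).2
    have hSq : Sq (Function.update τ j x₁) (tm (Function.update τ j x₁) i) =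
        Sq (Function.update τ j x₂) (tm (Function.update τ j x₂) i) := by
      rw [← ht]
      refine r2_Sq_update_eq ?_ ?_
      · rintro ⟨a, b⟩
        exact h₁ ⟨a, b.trans hlt⟩
      · rintro ⟨a, b⟩
        exact h₂ ⟨a, b.trans hlt⟩
    funext ω
    unfold Rf
    rw [hSq]
  unfold GF
  rw [← hS]
  refine iSup_congr fun i => iSup_congr fun hi => ?_
  rw [key i hi]

/-- the functional does not see the label of a step not fired before `T`: `Sq` is the same and the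
innovations `Rf` of the earlier steps are the same, so `GF` is the same -/
lemma XiJ_const (ε : ℝ) (x u : V) (j : Stp V) (τ : Lab V) (T x₁ x₂ : ℝ)
    (h₁ : ¬(x₁ < 0 ∧ tm (Function.update τ j x₁) j < T))
    (h₂ : ¬(x₂ < 0 ∧ tm (Function.update τ j x₂) j < T)) :
    XiJ C ε x u (Function.update τ j x₁) T = XiJ C ε x u (Function.update τ j x₂) T := by
  unfold XiJ
  rw [r2_Sq_update_eq h₁ h₂, r2_GF_update_eq C h₁ h₂]

lemma r2c_CA_setL (τ : Lab V) (A : Set (Stp V)) (x u : V) (ω : Om V) :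
    CA C A x u (setL τ ω) = CA C A x u ω := by
  unfold CA
  rw [slc_fld]

/-- at a measurable random time: `slice` and `drop_future` at a.e. `τ`. -/
theorem Xi_fiber (ε : ℝ) (x u : V) {Tf : Lab V → ℝ} (hTf : Measurable Tf) {L : ℝ}
    (hL : ∀ τ, Tf τ ≤ L) :
    ∀ᵐ τ ∂(PL V), ∫ ω, Fx C ε (fun ω => CA C (Sq (lab ω.2) (Tf (lab ω.2))) x u ω)
        (fun ω => MA C (Sq (lab ω.2) (Tf (lab ω.2))) u ω) (setL τ ω) ∂(PP V)
      = XiJ C ε x u τ (Tf τ) := by
  set Y1 : Om V → ℝ := fun ω => CA C (Sq (lab ω.2) (Tf (lab ω.2))) x u ω with hY1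
  set Y2 : Om V → ℝ := fun ω => MA C (Sq (lab ω.2) (Tf (lab ω.2))) u ω with hY2
  have hLS : LS fun w : WW V => Sq (lab w) (Tf (lab w)) :=
    LS_Sp (p := fun w _ => Tf (lab w)) (fun _ => hTf.comp measurable_lab)
  have hbd : ∀ w : WW V, ∀ j ∈ Sq (lab w) (Tf (lab w)), j.1 ≤ LT L :=
    fun w => Sp_le (fun _ => hL (lab w))
  have hY1m : Measurable Y1 := measurable_CA hLS hbd x u
  have hY2m : Measurable Y2 := measurable_MA hLS hbd u
  have hY1B : ∀ ω, |Y1 ω| ≤ 1 := fun ω => abs_CA_le C _ x u ω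
  have hY2B : ∀ ω, |Y2 ω| ≤ 1 := fun ω => (abs_mag_lt C _ _).le
  filter_upwards [slice C hY1m hY1B, slice C hY2m hY2B, ae_good C] with τ h1 h2 hg
  unfold XiJ
  have e1 : (fun ω => Y1 (setL τ ω)) = CA C (Sq τ (Tf τ)) x u := by
    funext ω
    exact r2c_CA_setL C τ _ x u ω
  have e2 : (fun ω => Y2 (setL τ ω)) = MA C (Sq τ (Tf τ)) u := by
    funext ω
    exact slc_MA C τ _ u ω
  rw [e1] at h1
  rw [e2] at h2
  have d1 := drop_future C hg (Tf τ) (CA_FA C (Sq_le τ (Tf τ)) x u)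
    (fun ω => abs_CA_le C _ x u ω)
  have d2 := drop_future C hg (Tf τ) (MA_FA C (Sq_le τ (Tf τ)) u)
    (fun ω => (abs_mag_lt C _ _).le)
  refine integral_congr_ae ?_
  filter_upwards [h1, h2, d1, d2] with ω a1 a2 a3 a4
  have e1' : Y1 (setL τ ω) = CA C (Sq τ (Tf τ)) x u ω := congrFun e1 ω
  have e2' : Y2 (setL τ ω) = MA C (Sq τ (Tf τ)) u ω := congrFun e2 ω
  simp only [Fx, Pj]
  rw [a1, a2, a3, a4, e1', e2']

lemma r2c_int_bdd {F : Om V → ℝ} (hF : AEStronglyMeasurable F (PP V)) {B : ℝ}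
    (hB : ∀ᵐ ω ∂(PP V), |F ω| ≤ B) : Integrable F (PP V) :=
  Integrable.of_bound hF B (by simpa [Real.norm_eq_abs] using hB)

/-- the integral at a fixed time: `Xi_fiber` with constant `Tf` and `integral_fiber_of_integrable` -/
theorem Xi_integral (ε : ℝ) (x u : V) (T : ℝ) :
    ∫ τ, XiJ C ε x u τ T ∂(PL V) = 8 * Lev C T x u + 512 * ε ^ 2 * Psi C T x u := by
  have hf := Xi_fiber C ε x u (Tf := fun _ => T) measurable_const (L := T) (fun _ => le_rfl)
  have e1 : ∫ τ, XiJ C ε x u τ T ∂(PL V) =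
      ∫ τ, ∫ ω, Fx C ε (Cs C T x u) (Ms C T u) (setL τ ω) ∂(PP V) ∂(PL V) := by
    refine integral_congr_ae ?_
    filter_upwards [hf] with τ hτ
    exact hτ.symm
  have hY1m : Measurable (Cs C T x u) := measurable_Cs T x u
  have hY2m : Measurable (Ms C T u) := measurable_Ms T u
  have hY1B : ∀ ω, |Cs C T x u ω| ≤ 1 := fun ω => abs_Cs_le C T x u ω
  have hY2B : ∀ ω, |Ms C T u ω| ≤ 1 := fun ω => abs_Ms_le C T u ω
  have hP1 : AEStronglyMeasurable (Pj C (Cs C T x u)) (PP V) :=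
    (integrable_condExp (m := GG C)).aestronglyMeasurable
  have hP2 : AEStronglyMeasurable (Pj C (Ms C T u)) (PP V) :=
    (integrable_condExp (m := GG C)).aestronglyMeasurable
  have hP1B : ∀ᵐ ω ∂(PP V), |Pj C (Cs C T x u) ω| ≤ 1 :=
    ce_abs_le (GG_le C) (Eventually.of_forall hY1B)
  have hP2B : ∀ᵐ ω ∂(PP V), |Pj C (Ms C T u) ω| ≤ 1 :=
    ce_abs_le (GG_le C) (Eventually.of_forall hY2B)
  have hsq : ∀ {a b : ℝ}, |a| ≤ 1 → |b| ≤ 1 → |(a - b) ^ 2| ≤ 4 := by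
    intro a b ha hb
    rw [abs_pow]
    have h : |a - b| ≤ 2 := (abs_sub a b).trans (by linarith)
    calc |a - b| ^ 2 ≤ 2 ^ 2 := pow_le_pow_left₀ (abs_nonneg _) h 2
      _ = 4 := by norm_num
  have hI1 : Integrable (fun ω => (Cs C T x u ω - Pj C (Cs C T x u) ω) ^ 2) (PP V) := by
    refine r2c_int_bdd ((hY1m.aestronglyMeasurable.sub hP1).pow 2) (B := 4) ?_
    filter_upwards [hP1B] with ω h
    exact hsq (hY1B ω) h
  have hI2 : Integrable (fun ω => (Ms C T u ω - Pj C (Ms C T u) ω) ^ 2 *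
      (Pj C (Cs C T x u) ω) ^ 2) (PP V) := by
    refine r2c_int_bdd (((hY2m.aestronglyMeasurable.sub hP2).pow 2).mul (hP1.pow 2))
      (B := 4 * 1) ?_
    filter_upwards [hP1B, hP2B] with ω h h'
    rw [abs_mul]
    refine mul_le_mul (hsq (hY2B ω) h') ?_ (abs_nonneg _) (by norm_num)
    rw [abs_pow]
    calc |Pj C (Cs C T x u) ω| ^ 2 ≤ 1 ^ 2 := pow_le_pow_left₀ (abs_nonneg _) h 2
      _ = 1 := by norm_num
  have hF : Integrable (Fx C ε (Cs C T x u) (Ms C T u)) (PP V) :=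
    (hI1.const_mul 8).add (hI2.const_mul (512 * ε ^ 2))
  rw [e1, ← integral_fiber_of_integrable hF]
  have e2 : ∫ ω, Fx C ε (Cs C T x u) (Ms C T u) ω ∂(PP V) =
      ∫ ω, (8 * (Cs C T x u ω - Pj C (Cs C T x u) ω) ^ 2 +
        512 * ε ^ 2 * ((Ms C T u ω - Pj C (Ms C T u) ω) ^ 2 * (Pj C (Cs C T x u) ω) ^ 2)) ∂(PP V) := rfl
  rw [e2, integral_add (hI1.const_mul 8) (hI2.const_mul (512 * ε ^ 2)), integral_const_mul,
    integral_const_mul]
  rfl

/-- measurability of the functional -/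
lemma r2_measurable_Fx {ε : ℝ} {Y1 Y2 : Om V → ℝ} (h1 : Measurable Y1) (h2 : Measurable Y2) :
    Measurable (Fx C ε Y1 Y2) := by
  unfold Fx
  have hP : ∀ Y : Om V → ℝ, Measurable (Pj C Y) := fun Y =>
    (stronglyMeasurable_condExp.mono (GG_le C)).measurable
  exact (measurable_const.mul ((h1.sub (hP Y1)).pow_const 2)).add
    (measurable_const.mul (((h2.sub (hP Y2)).pow_const 2).mul ((hP Y1).pow_const 2)))

/-- the bound of the functional -/
lemma r2_Fx_bound {ε : ℝ} {Y1 Y2 : Om V → ℝ} (h1 : ∀ ω, |Y1 ω| ≤ 1) (h2 : ∀ ω, |Y2 ω| ≤ 1) :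
    ∀ᵐ ω ∂(PP V), |Fx C ε Y1 Y2 ω| ≤ 32 + 2048 * ε ^ 2 := by
  have hP1 : ∀ᵐ ω ∂(PP V), |Pj C Y1 ω| ≤ 1 :=
    ce_abs_le (GG_le C) (Filter.Eventually.of_forall h1)
  have hP2 : ∀ᵐ ω ∂(PP V), |Pj C Y2 ω| ≤ 1 :=
    ce_abs_le (GG_le C) (Filter.Eventually.of_forall h2)
  filter_upwards [hP1, hP2] with ω hp1 hp2
  have hy1 := h1 ω
  have hy2 := h2 ω
  unfold Fx
  set a := Y1 ω - Pj C Y1 ω
  set b := Y2 ω - Pj C Y2 ω
  set c := Pj C Y1 ω
  have ha : a ^ 2 ≤ 4 := by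
    have : |a| ≤ 2 := (abs_sub _ _).trans (by linarith)
    exact sq_le_four this
  have hb : b ^ 2 ≤ 4 := by
    have : |b| ≤ 2 := (abs_sub _ _).trans (by linarith)
    exact sq_le_four this
  have hc : c ^ 2 ≤ 1 := by
    have := sq_abs c
    nlinarith [abs_nonneg c]
  have h0 : 0 ≤ 8 * a ^ 2 + 512 * ε ^ 2 * (b ^ 2 * c ^ 2) := by positivity
  rw [abs_of_nonneg h0]
  have h3 : b ^ 2 * c ^ 2 ≤ 4 := by nlinarith [sq_nonneg b, sq_nonneg c]
  have h4 : 512 * ε ^ 2 * (b ^ 2 * c ^ 2) ≤ 512 * ε ^ 2 * 4 :=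
    mul_le_mul_of_nonneg_left h3 (by positivity)
  nlinarith

/-- states at a measurable bounded random time are measurable -/
lemma r2_measurable_state {Tf : Lab V → ℝ} (hTf : Measurable Tf) {L : ℝ} (hL : ∀ τ, Tf τ ≤ L)
    (x u : V) :
    Measurable (fun ω : Om V => CA C (Sq (lab ω.2) (Tf (lab ω.2))) x u ω) ∧
      Measurable (fun ω : Om V => MA C (Sq (lab ω.2) (Tf (lab ω.2))) u ω) := by
  have hLS : LS fun w : WW V => Sq (lab w) (Tf (lab w)) :=
    LS_Sp (p := fun w _ => Tf (lab w)) fun _ => hTf.comp measurable_lab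
  have hLe : ∀ w : WW V, ∀ j ∈ Sq (lab w) (Tf (lab w)), j.1 ≤ LT L := fun w j hj =>
    (Sq_le (lab w) (Tf (lab w)) j hj).trans (Int.ceil_mono (hL _))
  exact ⟨measurable_CA hLS hLe x u, measurable_MA hLS hLe u⟩

/-- measurability of the fiber functional -/
lemma r2_measurable_Fx_fiber (ε : ℝ) (x u : V) {Tf : Lab V → ℝ} (hTf : Measurable Tf) {L : ℝ}
    (hL : ∀ τ, Tf τ ≤ L) :
    Measurable fun τ : Lab V => ∫ ω, Fx C ε (fun ω => CA C (Sq (lab ω.2) (Tf (lab ω.2))) x u ω)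
        (fun ω => MA C (Sq (lab ω.2) (Tf (lab ω.2))) u ω) (setL τ ω) ∂(PP V) :=
  measurable_fiber_integral (r2_measurable_Fx C (r2_measurable_state C hTf hL x u).1
    (r2_measurable_state C hTf hL x u).2)

/-- the window integral, fiberwise -/
lemma r2_int_Cw (ε : ℝ) (x : V) (s s' : ℝ) (j : Stp V) :
    ∫ ω, (if Cw s s' (lab ω.2) j then Fx C ε (Z1 C x j) (Z2 C j) ω else 0) ∂(PP V) =
      ∫ τ, (if τ j < 0 ∧ s ≤ tm τ j ∧ tm τ j < s' then XiJ C ε x j.2 τ (tm τ j) else 0) ∂(PL V) := by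
  obtain ⟨hm1, hm2⟩ := r2_measurable_state C (Tf := fun τ => tm τ j) (measurable_tm j) (L := j.1 + 1)
    (fun τ => tm_le τ j) x j.2
  have hmF : Measurable (Fx C ε (Z1 C x j) (Z2 C j)) := r2_measurable_Fx C hm1 hm2
  have hG : Measurable fun ω : Om V =>
      if Cw s s' (lab ω.2) j then Fx C ε (Z1 C x j) (Z2 C j) ω else 0 :=
    Measurable.ite ((measurableSet_Cw s s' j).preimage measurable_snd) hmF measurable_const
  have hI : Integrable (fun ω : Om V =>
      if Cw s s' (lab ω.2) j then Fx C ε (Z1 C x j) (Z2 C j) ω else 0) (PP V) := by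
    refine Integrable.of_bound hG.aestronglyMeasurable (32 + 2048 * ε ^ 2) ?_
    filter_upwards [r2_Fx_bound C (ε := ε) (Y1 := Z1 C x j) (Y2 := Z2 C j)
      (fun ω => abs_CA_le C _ x j.2 ω) (fun ω => abs_MA_le_one C _ j.2 ω)] with ω hω
    rw [Real.norm_eq_abs]
    split_ifs
    · exact hω
    · simpa using by positivity
  rw [integral_fiber_of_integrable hI]
  refine integral_congr_ae ?_
  filter_upwards [Xi_fiber C ε x j.2 (Tf := fun τ => tm τ j) (measurable_tm j) (L := j.1 + 1)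
    (fun τ => tm_le τ j)] with τ hτ
  by_cases hc : Cw s s' τ j
  · have hc' : τ j < 0 ∧ s ≤ tm τ j ∧ tm τ j < s' := hc
    rw [if_pos hc', ← hτ]
    refine integral_congr_ae (Filter.Eventually.of_forall fun ω => ?_)
    show (if Cw s s' τ j then Fx C ε (Z1 C x j) (Z2 C j) (setL τ ω) else 0) = _
    rw [if_pos hc]
    rfl
  · have hc' : ¬(τ j < 0 ∧ s ≤ tm τ j ∧ tm τ j < s') := hc
    rw [if_neg hc']
    have : ∀ ω : Om V, (if Cw s s' (lab (setL τ ω).2) j then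
        Fx C ε (Z1 C x j) (Z2 C j) (setL τ ω) else 0) = 0 := fun ω => if_neg hc
    simp only [this]
    simp

/-- the bound of one jump: `jump_le_F`, `integral_fiber_of_integrable`, `Xi_fiber` with
`Tf = fun τ => tm τ j`, `palm` with `Ξ = XiJ C (eps j.1) x j.2`, `Xi_integral`. -/
theorem jump_perp_le (s s' : ℝ) (x : V) (j : Stp V) :
    ∃ ρ : ℝ → ℝ, Measurable ρ ∧
      (∀ T ∈ Set.Ico s s' ∩ Set.Ico (j.1 : ℝ) (j.1 + 1 / 2), 0 ≤ ρ T ∧
        ρ T ≤ 2 * (8 * Lev C T x j.2 + 512 * (eps j.1) ^ 2 * Psi C T x j.2)) ∧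
      ∫ ω, (DlW C s s' j x ω - Pj C (DlW C s s' j x) ω) ^ 2 ∂(PP V) ≤
        (eps j.1) ^ 2 * ∫ T in Set.Ico s s' ∩ Set.Ico (j.1 : ℝ) (j.1 + 1 / 2), ρ T := by
  set ε := eps j.1 with hε
  have hfib := Xi_fiber C ε x j.2 (Tf := fun τ => tm τ j) (measurable_tm j) (L := j.1 + 1)
    (fun τ => tm_le τ j)
  have hfixed : ∀ T : ℝ, AEStronglyMeasurable (fun τ => XiJ C ε x j.2 τ T) (PL V) := by
    intro T
    have h := Xi_fiber C ε x j.2 (Tf := fun _ => T) measurable_const (L := T) (fun _ => le_rfl)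
    refine AEStronglyMeasurable.congr ?_ h
    exact (r2_measurable_Fx_fiber C ε x j.2 measurable_const (L := T)
      (fun _ => le_rfl)).aestronglyMeasurable
  have hmm : AEStronglyMeasurable (fun τ => XiJ C ε x j.2 τ (tm τ j)) (PL V) := by
    refine AEStronglyMeasurable.congr ?_ hfib
    exact (r2_measurable_Fx_fiber C ε x j.2 (measurable_tm j) (L := j.1 + 1)
      (fun τ => tm_le τ j)).aestronglyMeasurable
  obtain ⟨ρ, hρm, hρeq, hρle⟩ := palm j s s' (XiJ C ε x j.2) (XiJ_nonneg C ε x j.2)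
    (XiJ_le C ε x j.2) hmm (fun T _ => hfixed T)
    (fun τ T x₁ x₂ h₁ h₂ => XiJ_const C ε x j.2 j τ T x₁ x₂ h₁ h₂)
  refine ⟨ρ, hρm, fun T hT => ?_, ?_⟩
  · obtain ⟨h0, h1⟩ := hρle T hT
    refine ⟨h0, ?_⟩
    rwa [Xi_integral C ε x j.2 T] at h1
  · refine (jump_le_F C s s' x j).trans ?_
    rw [← hε]
    refine le_of_eq ?_
    congr 1
    rw [← hρeq]
    exact r2_int_Cw C ε x s s' j

end Vale.Agent.Lib.P161.Crit
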