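import Vale.Agent.Lib.P161.Crit.Slice
import Vale.Agent.Lib.P161.Crit.Kernel
import Vale.Agent.Lib.P161.Crit.Decay
import Vale.Agent.Lib.P161.Crit.Palm
import Vale.Agent.Lib.P161.Crit.Energy3
import Vale.Agent.Lib.P161.Crit.Rec2

/-!
The recursion for the distance: `D(s') - D(s) ≤ K ∫_s^{s'} Bd`, `Bd` bounding the kernel.
Statements fixed; add lemmas freely. Paper sections ENERGY, PALM, REC.
-/

open MeasureTheory Filter Topology Finset

noncomputable section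
namespace Vale.Agent.Lib.P161.Crit

open scoped Classical
open Vale.Agent.Lib.P161

variable {V : Type} (C : CT V)

-- `palm` is in Palm.lean (statement has the extra hypothesis `hmT`, the stub without it was false)

lemma rc_Lev_nonneg (T : ℝ) (x u : V) : 0 ≤ Lev C T x u :=
  integral_nonneg fun _ => sq_nonneg _

lemma rc_Psi_nonneg (T : ℝ) (x u : V) : 0 ≤ Psi C T x u :=
  integral_nonneg fun _ => mul_nonneg (sq_nonneg _) (sq_nonneg _)

lemma rc_floor {T : ℝ} {l : ℤ} (h : T ∈ Set.Ico (l : ℝ) (l + 1 / 2)) : ⌊T⌋ = l := by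
  rw [Int.floor_eq_iff]
  exact ⟨h.1, by linarith [h.2]⟩

/-- summing the jump bounds over a finite set of steps. Fix `J`; for `T` in the window the steps of
`J` with `T ∈ I_j = Ico s s' ∩ Ico j.1 (j.1 + 1/2)` all have `j.1 = ⌊T⌋`, and `j ↦ j.2` is injective
on them, so with `U` their sites, `∑_j ε_j² ρ_j T ≤ 1024 ε² ∑_U (Lev + ε² Psi) ≤ 1024 Bd T`.
Integrate over `[s, s')` (`Bd ≥ 0` there, from `U = ∅`). -/
theorem sum_rho_le {s s' : ℝ} (hss : s ≤ s') (x : V) {Bd : ℝ → ℝ}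
    (hBd : IntervalIntegrable Bd volume s s')
    (hB : ∀ r ∈ Set.Ico s s', ∀ U : Finset V,
      (eps ⌊r⌋) ^ 2 * ∑ u ∈ U, (Lev C r x u + (eps ⌊r⌋) ^ 2 * Psi C r x u) ≤ Bd r)
    (ρ : Stp V → ℝ → ℝ) (hρm : ∀ j, Measurable (ρ j))
    (hρ : ∀ j, ∀ T ∈ Set.Ico s s' ∩ Set.Ico (j.1 : ℝ) (j.1 + 1 / 2), 0 ≤ ρ j T ∧
        ρ j T ≤ 2 * (8 * Lev C T x j.2 + 512 * (eps j.1) ^ 2 * Psi C T x j.2))
    (J : Finset (Stp V)) :
    ∑ j ∈ J, (eps j.1) ^ 2 * ∫ T in Set.Ico s s' ∩ Set.Ico (j.1 : ℝ) (j.1 + 1 / 2), ρ j T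
      ≤ 1024 * ∫ r in s..s', Bd r := by
  have hBdI : IntegrableOn Bd (Set.Ico s s') :=
    (intervalIntegrable_iff_integrableOn_Ico_of_le hss).mp hBd
  have hint : ∫ r in s..s', Bd r = ∫ r in Set.Ico s s', Bd r := by
    rw [intervalIntegral.integral_of_le hss, integral_Ico_eq_integral_Ioc]
  set I : Stp V → Set ℝ := fun j => Set.Ico (j.1 : ℝ) (j.1 + 1 / 2) with hI
  have hIm : ∀ j, MeasurableSet (I j) := fun j => measurableSet_Ico
  set g : Stp V → ℝ → ℝ := fun j => (I j).indicator (fun T => (eps j.1) ^ 2 * ρ j T) with hg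
  have hgm : ∀ j, Measurable (g j) := fun j =>
    ((hρm j).const_mul _).indicator (hIm j)
  -- pointwise bound on a sub-family
  have hpt : ∀ T ∈ Set.Ico s s', ∀ J' : Finset (Stp V), ∑ j ∈ J', g j T ≤ 1024 * Bd T := by
    intro T hT J'
    set Jf := J'.filter (fun j => T ∈ I j) with hJf
    have h1 : ∑ j ∈ J', g j T = ∑ j ∈ Jf, (eps j.1) ^ 2 * ρ j T := by
      rw [hJf, Finset.sum_filter]
      refine Finset.sum_congr rfl fun j _ => ?_
      simp only [hg, Set.indicator_apply]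
    rw [h1]
    have hfl : ∀ j ∈ Jf, j.1 = ⌊T⌋ := fun j hj =>
      (rc_floor (Finset.mem_filter.mp hj).2).symm
    have hinj : Set.InjOn (Prod.snd : Stp V → V) (Jf : Set (Stp V)) := by
      intro a ha b hb hab
      have h1 := hfl a ha
      have h2 := hfl b hb
      exact Prod.ext (h1.trans h2.symm) hab
    set ε := eps ⌊T⌋ with hε
    have h2 : ∑ j ∈ Jf, (eps j.1) ^ 2 * ρ j T ≤
        ∑ j ∈ Jf, 1024 * (ε ^ 2 * (Lev C T x j.2 + ε ^ 2 * Psi C T x j.2)) := by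
      refine Finset.sum_le_sum fun j hj => ?_
      have hjT : T ∈ I j := (Finset.mem_filter.mp hj).2
      have h3 := (hρ j T ⟨hT, hjT⟩).2
      rw [hfl j hj] at h3 ⊢
      have hL := rc_Lev_nonneg C T x j.2
      have hP := rc_Psi_nonneg C T x j.2
      have hε2 : 0 ≤ ε ^ 2 := sq_nonneg _
      have h4 : ρ j T ≤ 1024 * (Lev C T x j.2 + ε ^ 2 * Psi C T x j.2) := by
        have : 0 ≤ ε ^ 2 * Psi C T x j.2 := mul_nonneg hε2 hP
        nlinarith
      calc ε ^ 2 * ρ j T ≤ ε ^ 2 * (1024 * (Lev C T x j.2 + ε ^ 2 * Psi C T x j.2)) :=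
            mul_le_mul_of_nonneg_left h4 hε2
        _ = 1024 * (ε ^ 2 * (Lev C T x j.2 + ε ^ 2 * Psi C T x j.2)) := by ring
    have h5 := hB T hT (Jf.image Prod.snd)
    rw [Finset.sum_image hinj, Finset.mul_sum] at h5
    rw [← Finset.mul_sum] at h2
    have h6 : ∑ j ∈ Jf, ε ^ 2 * (Lev C T x j.2 + ε ^ 2 * Psi C T x j.2) ≤ Bd T := h5
    linarith
  have hBd0 : ∀ T ∈ Set.Ico s s', 0 ≤ Bd T := by
    intro T hT
    have := hB T hT ∅
    simpa using this
  have hg0 : ∀ j, ∀ T ∈ Set.Ico s s', 0 ≤ g j T := by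
    intro j T hT
    simp only [hg, Set.indicator_apply]
    split_ifs with h
    · exact mul_nonneg (sq_nonneg _) (hρ j T ⟨hT, h⟩).1
    · exact le_rfl
  have hgi : ∀ j, IntegrableOn (g j) (Set.Ico s s') := by
    intro j
    refine Integrable.mono' (hBdI.const_mul 1024) (hgm j).aestronglyMeasurable ?_
    refine (ae_restrict_iff' measurableSet_Ico).mpr (Eventually.of_forall fun T hT => ?_)
    rw [Real.norm_of_nonneg (hg0 j T hT)]
    simpa using hpt T hT {j}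
  have hgj : ∀ j, (eps j.1) ^ 2 * ∫ T in Set.Ico s s' ∩ Set.Ico (j.1 : ℝ) (j.1 + 1 / 2), ρ j T
      = ∫ T in Set.Ico s s', g j T := by
    intro j
    rw [← integral_const_mul, ← setIntegral_indicator (hIm j)]
  calc ∑ j ∈ J, (eps j.1) ^ 2 * ∫ T in Set.Ico s s' ∩ Set.Ico (j.1 : ℝ) (j.1 + 1 / 2), ρ j T
      = ∑ j ∈ J, ∫ T in Set.Ico s s', g j T := Finset.sum_congr rfl fun j _ => hgj j
    _ = ∫ T in Set.Ico s s', ∑ j ∈ J, g j T := (integral_finsetSum J fun j _ => hgi j).symm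
    _ ≤ ∫ T in Set.Ico s s', 1024 * Bd T := by
        refine setIntegral_mono_on (integrable_finsetSum J fun j _ => hgi j)
          (hBdI.const_mul 1024) measurableSet_Ico fun T hT => hpt T hT J
    _ = 1024 * ∫ r in s..s', Bd r := by rw [hint, integral_const_mul]

/-- the recursion: `K₀ = 1024`; `perp_sum` with `m = GG C`, `a = Ms C s x`, `b = Ms C s' x`,
`Δ j = DlW C s s' j x`, using `energy`, `DlW_cross`, `DlW_orth`, `perp_a`, `perp_ij`, `jump_perp_le`,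
`sum_rho_le` (`GG_le`, `abs_DlW_le`, `abs_Ms_le`, `measurable_DlW`, `measurable_Ms`). -/
theorem rec : ∃ K₀ : ℝ, 0 < K₀ ∧ ∀ (s s' : ℝ) (x : V), s ≤ s' → ∀ Bd : ℝ → ℝ,
    IntervalIntegrable Bd volume s s' →
    (∀ r ∈ Set.Ico s s', ∀ U : Finset V,
      (eps ⌊r⌋) ^ 2 * ∑ u ∈ U, (Lev C r x u + (eps ⌊r⌋) ^ 2 * Psi C r x u) ≤ Bd r) →
    Dd C s' x - Dd C s x ≤ K₀ * ∫ r in s..s', Bd r := by
  refine ⟨1024, by norm_num, fun s s' x hss Bd hBd hB => ?_⟩
  choose ρ hρm hρ hle using fun j : Stp V => jump_perp_le C s s' x j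
  have hS : ∀ J : Finset (Stp V), ∑ j ∈ J,
      ∫ ω, (DlW C s s' j x ω - (PP V)[DlW C s s' j x | GG C] ω) ^ 2 ∂(PP V)
        ≤ 1024 * ∫ r in s..s', Bd r := fun J =>
    (Finset.sum_le_sum fun j _ => hle j).trans (sum_rho_le C hss x hBd hB ρ hρm hρ J)
  have h := perp_sum (μ := PP V) (m := GG C) (GG_le C) (a := Ms C s x) (b := Ms C s' x)
    (Δ := fun j => DlW C s s' j x) (B := 2)
    (measurable_Ms s x) (measurable_Ms s' x) (fun j => measurable_DlW C s s' j x)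
    (fun ω => (abs_Ms_le C s x ω).trans (by norm_num))
    (fun ω => (abs_Ms_le C s' x ω).trans (by norm_num))
    (fun j ω => abs_DlW_le C s s' j x ω)
    (energy C hss x) (DlW_cross C hss x) (fun i j hij => DlW_orth C s s' x hij)
    (perp_a C hss x) (fun i j hij => perp_ij C s s' x hij) hS
  have e1 : Dd C s' x = ∫ ω, (Ms C s' x ω - (PP V)[Ms C s' x | GG C] ω) ^ 2 ∂(PP V) := rfl
  have e2 : Dd C s x = ∫ ω, (Ms C s x ω - (PP V)[Ms C s x | GG C] ω) ^ 2 ∂(PP V) := rfl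
  rw [e1, e2]
  linarith

end Vale.Agent.Lib.P161.Crit
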