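import Vale.Agent.Lib.P161.Crit.Slice
import Vale.Agent.Lib.P161.Crit.Kernel
import Vale.Agent.Lib.P161.Crit.Energy3
import Vale.Agent.Lib.P161.Crit.Perp

/-!
Orthogonality of the jumps and of their perpendicular parts, paper section REC.
-/

open MeasureTheory Filter Topology Finset

noncomputable section
namespace Vale.Agent.Lib.P161.Crit

open scoped Classical
open Vale.Agent.Lib.P161

variable {V : Type} (C : CT V)

/-- Fubini for a.e. bounded integrable functions (the proof of `integral_fiber` only uses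
integrability): `measurePreserving_fiber` + `integral_prod` -/
theorem integral_fiber_of_integrable {F : Om V → ℝ} (hF : Integrable F (PP V)) :
    ∫ ω, F ω ∂(PP V) = ∫ τ, ∫ ω, F (setL τ ω) ∂(PP V) ∂(PL V) := by
  have h := measurePreserving_fiber (V := V)
  calc ∫ ω, F ω ∂(PP V) = ∫ ω, F ω ∂(((PL V).prod (PP V)).map (fun p : Lab V × Om V => setL p.1 p.2)) := by
        rw [h.map_eq]
    _ = ∫ p, F (setL p.1 p.2) ∂((PL V).prod (PP V)) :=
        integral_map h.measurable.aemeasurable (by rw [h.map_eq]; exact hF.aestronglyMeasurable)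
    _ = _ := integral_prod _ (h.integrable_comp_of_integrable hF)


/-- the inner product of perpendicular parts, fiberwise (`slice` twice and
`integral_fiber_of_integrable`; note `Pj C Y` is bounded a.e. by `ce_abs_le`). -/
theorem perp_fiber {Y Y' : Om V → ℝ} (hY : Measurable Y) (hY' : Measurable Y') {B : ℝ}
    (hB : ∀ ω, |Y ω| ≤ B) (hB' : ∀ ω, |Y' ω| ≤ B) :
    ∫ ω, (Y ω - Pj C Y ω) * (Y' ω - Pj C Y' ω) ∂(PP V) =
      ∫ τ, ∫ ω, (Y (setL τ ω) - (PP V)[fun ω => Y (setL τ ω) | GFa C τ] ω) *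
        (Y' (setL τ ω) - (PP V)[fun ω => Y' (setL τ ω) | GFa C τ] ω) ∂(PP V) ∂(PL V) := by
  have hPB : ∀ᵐ ω ∂(PP V), |Pj C Y ω| ≤ B := ce_abs_le (GG_le C) (Eventually.of_forall hB)
  have hPB' : ∀ᵐ ω ∂(PP V), |Pj C Y' ω| ≤ B := ce_abs_le (GG_le C) (Eventually.of_forall hB')
  have hPm : StronglyMeasurable (Pj C Y) := stronglyMeasurable_condExp.mono (GG_le C)
  have hPm' : StronglyMeasurable (Pj C Y') := stronglyMeasurable_condExp.mono (GG_le C)
  have hF : Integrable (fun ω => (Y ω - Pj C Y ω) * (Y' ω - Pj C Y' ω)) (PP V) := by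
    refine Integrable.of_bound ((hY.stronglyMeasurable.sub hPm).mul
      (hY'.stronglyMeasurable.sub hPm')).aestronglyMeasurable ((B + B) * (B + B)) ?_
    filter_upwards [hPB, hPB'] with ω h1 h2
    rw [Real.norm_eq_abs, abs_mul]
    have h3 : |Y ω - Pj C Y ω| ≤ B + B := (abs_sub _ _).trans (add_le_add (hB ω) h1)
    have h4 : |Y' ω - Pj C Y' ω| ≤ B + B := (abs_sub _ _).trans (add_le_add (hB' ω) h2)
    exact mul_le_mul h3 h4 (abs_nonneg _) ((abs_nonneg _).trans h3)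
  rw [integral_fiber_of_integrable hF]
  refine integral_congr_ae ?_
  filter_upwards [slice C hY hB, slice C hY' hB'] with τ h1 h2
  refine integral_congr_ae ?_
  filter_upwards [h1, h2] with ω h3 h4
  have h3' : Pj C Y (setL τ ω) = (PP V)[fun ω => Y (setL τ ω) | GFa C τ] ω := h3
  have h4' : Pj C Y' (setL τ ω) = (PP V)[fun ω => Y' (setL τ ω) | GFa C τ] ω := h4
  simp only [h3', h4']



/-- self-adjointness: `Z^⊥` is orthogonal to the projection of `Y` -/
lemma r1b_perp_proj {Ω : Type} {m m0 : MeasurableSpace Ω} {μ : Measure Ω} [IsProbabilityMeasure μ]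
    (hm : m ≤ m0) {Z Y : Ω → ℝ} {B : ℝ} (hZm : Measurable Z) (hZB : ∀ ω, |Z ω| ≤ B)
    (hYm : Measurable Y) (hYB : ∀ ω, |Y ω| ≤ B) :
    ∫ ω, (Z ω - μ[Z | m] ω) * μ[Y | m] ω ∂μ = 0 := by
  have hZi : Integrable Z μ := Integrable.of_bound hZm.aestronglyMeasurable B
    (Eventually.of_forall fun ω => by simpa using hZB ω)
  have hYi : Integrable Y μ := Integrable.of_bound hYm.aestronglyMeasurable B
    (Eventually.of_forall fun ω => by simpa using hYB ω)
  have hPYB : ∀ᵐ ω ∂μ, |μ[Y | m] ω| ≤ B := ce_abs_le hm (Eventually.of_forall hYB)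
  have hPYs : StronglyMeasurable[m] (μ[Y | m]) := stronglyMeasurable_condExp
  have h1 : μ[(μ[Y | m]) * Z | m] =ᵐ[μ] (μ[Y | m]) * μ[Z | m] :=
    condExp_stronglyMeasurable_mul_of_bound hm hPYs hZi B (by simpa [Real.norm_eq_abs] using hPYB)
  have hPYZi : Integrable ((μ[Y | m]) * Z) μ :=
    hZi.bdd_mul (hPYs.mono hm).aestronglyMeasurable (by simpa [Real.norm_eq_abs] using hPYB)
  have hPZB : ∀ᵐ ω ∂μ, |μ[Z | m] ω| ≤ B := ce_abs_le hm (Eventually.of_forall hZB)
  have hPYPZi : Integrable ((μ[Y | m]) * μ[Z | m]) μ :=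
    (integrable_condExp (μ := μ) (m := m) (f := Z)).bdd_mul (hPYs.mono hm).aestronglyMeasurable
      (by simpa [Real.norm_eq_abs] using hPYB)
  have h2 : ∫ ω, (μ[Y | m] ω) * Z ω ∂μ = ∫ ω, (μ[Y | m] ω) * (μ[Z | m] ω) ∂μ := by
    calc ∫ ω, (μ[Y | m] ω) * Z ω ∂μ = ∫ ω, ((μ[Y | m]) * Z) ω ∂μ := rfl
      _ = ∫ ω, (μ[(μ[Y | m]) * Z | m]) ω ∂μ := (integral_condExp hm).symm
      _ = ∫ ω, ((μ[Y | m]) * μ[Z | m]) ω ∂μ := integral_congr_ae h1
      _ = _ := rfl
  have h3 : ∫ ω, (Z ω - μ[Z | m] ω) * μ[Y | m] ω ∂μ =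
      ∫ ω, (μ[Y | m] ω) * Z ω ∂μ - ∫ ω, (μ[Y | m] ω) * (μ[Z | m] ω) ∂μ := by
    have h4 := integral_sub hPYZi hPYPZi
    refine Eq.trans ?_ h4
    refine integral_congr_ae (Eventually.of_forall fun ω => ?_)
    simp only [Pi.mul_apply]
    ring
  rw [h3, h2, sub_self]

/-- a bounded past function keeps a bounded past version of its projection:
`drop_future`, `GF_le_FA`, then clamp the `GF`-measurable version of the conditional mean to
`[-B, B]` (`ce_abs_le`). -/
theorem past_version {τ : Lab V} (hτ : Good τ) (T : ℝ) {Z : Om V → ℝ} {B : ℝ}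
    (hZ : Measurable[FA C (Sq τ T)] Z) (hZB : ∀ ω, |Z ω| ≤ B) :
    ∃ Z' : Om V → ℝ, Measurable[FA C (Sq τ T)] Z' ∧ (∀ ω, |Z' ω| ≤ B) ∧
      (PP V)[Z | GFa C τ] =ᵐ[PP V] Z' := by
  have hB0 : 0 ≤ B := (abs_nonneg _).trans (hZB (Classical.choice (PP V).nonempty_of_neZero))
  have hle : GF C τ T ≤ (inferInstance : MeasurableSpace (Om V)) :=
    (GF_le_FA C τ T).trans (FA_le C _)
  have hEs : StronglyMeasurable[GF C τ T] ((PP V)[Z | GF C τ T]) := stronglyMeasurable_condExp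
  have hEm : Measurable[FA C (Sq τ T)] ((PP V)[Z | GF C τ T]) :=
    (hEs.measurable).mono (GF_le_FA C τ T) le_rfl
  have hEB : ∀ᵐ ω ∂(PP V), |(PP V)[Z | GF C τ T] ω| ≤ B :=
    ce_abs_le hle (Eventually.of_forall hZB)
  refine ⟨fun ω => max (-B) (min B ((PP V)[Z | GF C τ T] ω)), ?_, ?_, ?_⟩
  · exact (measurable_const (a := -B)).max ((measurable_const (a := B)).min hEm)
  · intro ω
    rw [abs_le]
    refine ⟨le_max_left _ _, max_le (by linarith) (min_le_left _ _)⟩
  · filter_upwards [drop_future C hτ T hZ hZB, hEB] with ω h1 h2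
    rw [h1]
    have := abs_le.1 h2
    rw [min_eq_right this.2, max_eq_right this.1]

/-- the perpendicular part of a past function is orthogonal to the perpendicular part of the next
jump. Proof: `⟨Z^⊥, Δ^⊥⟩ = ⟨Z^⊥, Δ⟩` (self-adjointness of the conditional expectation, `Z^⊥` has
zero projection, `ce_integral_mul`), `Z^⊥ = Z - Z'` a.e. with `Z'` from `past_version`, and
`Dl_mart`, since `j ∉ Sq τ (tm τ j)`. -/
theorem fiber_perp_jump {τ : Lab V} (hτ : Good τ) (j : Stp V) (x : V) {Z : Om V → ℝ} {B : ℝ}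
    (hZ : Measurable[FA C (Sq τ (tm τ j))] Z) (hZB : ∀ ω, |Z ω| ≤ B) :
    ∫ ω, (Z ω - (PP V)[Z | GFa C τ] ω) *
      (Dl C (Sq τ (tm τ j)) j x ω - (PP V)[Dl C (Sq τ (tm τ j)) j x | GFa C τ] ω) ∂(PP V) = 0 := by
  set A := Sq τ (tm τ j) with hA
  have hB0 : 0 ≤ B := (abs_nonneg _).trans (hZB (Classical.choice (PP V).nonempty_of_neZero))
  have hjA : j ∉ A := fun h => lt_irrefl _ h.2
  have hAL : ∀ i ∈ A, i.1 ≤ Lj 0 j := Sq_tm_le 0 τ j
  have hjL : j.1 ≤ Lj 0 j := le_Lj 0 j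
  have hDm : Measurable (Dl C A j x) := by
    unfold Dl
    have h1 : ∀ i ∈ insert j A, i.1 ≤ Lj 0 j := by
      intro i hi
      rcases hi with rfl | hi
      · exact hjL
      · exact hAL i hi
    exact (measurable_MA_det C h1 x).sub (measurable_MA_det C hAL x)
  have hZm : Measurable Z := hZ.mono (FA_le C A) le_rfl
  obtain ⟨Z', hZ'm, hZ'B, hZ'e⟩ := past_version C hτ (tm τ j) hZ hZB
  have hle := GFa_le C τ
  -- the bound common to `Z` and `Dl`
  set B' : ℝ := max B 2 with hB'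
  have hZB' : ∀ ω, |Z ω| ≤ B' := fun ω => (hZB ω).trans (le_max_left _ _)
  have hDB' : ∀ ω, |Dl C A j x ω| ≤ B' := fun ω => (abs_Dl_le C A j x ω).trans (le_max_right _ _)
  have h0 := r1b_perp_proj (μ := PP V) hle hZm hZB' hDm hDB'
  have hZi : Integrable (fun ω => (Z ω - (PP V)[Z | GFa C τ] ω) * Dl C A j x ω) (PP V) := by
    have h1 : Integrable (fun ω => Z ω - Z' ω) (PP V) := by
      refine Integrable.of_bound (hZm.sub (hZ'm.mono (FA_le C A) le_rfl)).aestronglyMeasurable (B + B)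
        (Eventually.of_forall fun ω => ?_)
      rw [Real.norm_eq_abs]
      calc |Z ω - Z' ω| ≤ |Z ω| + |Z' ω| := abs_sub _ _
        _ ≤ B + B := add_le_add (hZB ω) (hZ'B ω)
    have h2 : Integrable (fun ω => (Z ω - Z' ω) * Dl C A j x ω) (PP V) :=
      h1.mul_bdd hDm.aestronglyMeasurable (Eventually.of_forall fun ω => by
        simpa using abs_Dl_le C A j x ω)
    refine h2.congr ?_
    filter_upwards [hZ'e] with ω hω
    rw [hω]
  have hZi2 : Integrable (fun ω => (Z ω - (PP V)[Z | GFa C τ] ω) * (PP V)[Dl C A j x | GFa C τ] ω) (PP V) := by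
    have h1 : Integrable (fun ω => (Z ω - (PP V)[Z | GFa C τ] ω)) (PP V) :=
      (Integrable.of_bound hZm.aestronglyMeasurable B (Eventually.of_forall fun ω => by
        simpa using hZB ω)).sub integrable_condExp
    refine h1.mul_bdd (c := 2) (stronglyMeasurable_condExp.mono hle).aestronglyMeasurable ?_
    filter_upwards [ce_abs_le (μ := PP V) hle (Eventually.of_forall (abs_Dl_le C A j x))] with ω hω
    simpa using hω
  have h1 : ∫ ω, (Z ω - (PP V)[Z | GFa C τ] ω) * (Dl C A j x ω - (PP V)[Dl C A j x | GFa C τ] ω) ∂(PP V)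
      = ∫ ω, (Z ω - (PP V)[Z | GFa C τ] ω) * Dl C A j x ω ∂(PP V)
        - ∫ ω, (Z ω - (PP V)[Z | GFa C τ] ω) * (PP V)[Dl C A j x | GFa C τ] ω ∂(PP V) := by
    rw [← integral_sub hZi hZi2]
    refine integral_congr_ae (Eventually.of_forall fun ω => ?_)
    show _ = _
    ring
  rw [h1, h0, sub_zero]
  have hWm : Measurable[FA C A] (fun ω => Z ω - Z' ω) := hZ.sub hZ'm
  have hmart := Dl_mart C hAL hjA hjL x (Z := fun ω => Z ω - Z' ω) (B := B + B) hWm
    (fun ω => by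
      calc |Z ω - Z' ω| ≤ |Z ω| + |Z' ω| := abs_sub _ _
        _ ≤ B + B := add_le_add (hZB ω) (hZ'B ω))
  rw [← hmart]
  refine integral_congr_ae ?_
  filter_upwards [hZ'e] with ω hω
  rw [hω]

/-- two states and a function of the smaller: same integral against the magnetisation -/
private lemma r1_mart {A A' : Set (Stp V)} {L : ℤ} (h : A ⊆ A') (hA' : ∀ j ∈ A', j.1 ≤ L) (x : V)
    {Y : Om V → ℝ} {D : ℝ} (hY : Measurable[FA C A] Y) (hYB : ∀ ω, |Y ω| ≤ D) :
    ∫ ω, Y ω * MA C A' x ω ∂(PP V) = ∫ ω, Y ω * MA C A x ω ∂(PP V) := by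
  have hA : ∀ j ∈ A, j.1 ≤ L := fun j hj => hA' j (h hj)
  have hsB : ∀ ω, |spin C ω x| ≤ max D 1 := by
    intro ω
    refine le_max_of_le_right ?_
    rcases spin_cases C ω x with h1 | h1 <;> simp [h1]
  have hYB' : ∀ ω, |Y ω| ≤ max D 1 := fun ω => le_max_of_le_left (hYB ω)
  have h1 : ∫ ω, Y ω * MA C A x ω ∂(PP V) = ∫ ω, Y ω * spin C ω x ∂(PP V) := by
    rw [← ce_integral_mul (FA_le C A) (measurable_spin C x) hsB hY hYB']
    refine integral_congr_ae ?_
    filter_upwards [post C hA x] with ω hω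
    rw [hω]
  have h2 : ∫ ω, Y ω * MA C A' x ω ∂(PP V) = ∫ ω, Y ω * spin C ω x ∂(PP V) := by
    rw [← ce_integral_mul (FA_le C A') (measurable_spin C x) hsB (hY.mono (FA_mono C h) le_rfl) hYB']
    refine integral_congr_ae ?_
    filter_upwards [post C hA' x] with ω hω
    rw [hω]
  rw [h1, h2]

private lemma r1_Sq_mono (τ : Lab V) {T T' : ℝ} (h : T ≤ T') : Sq τ T ⊆ Sq τ T' :=
  fun _ hj => ⟨hj.1, lt_of_lt_of_le hj.2 h⟩

private lemma r1_Sq_bd {τ : Lab V} {j : Stp V} : ∀ i ∈ Sq τ (tm τ j), i.1 ≤ LT (tm τ j) := Sq_le τ _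

private lemma r1_self_le {τ : Lab V} {j : Stp V} : j.1 ≤ LT (tm τ j) := by
  have h1 : (j.1 : ℝ) ≤ tm τ j := by
    unfold tm
    have := (cl_mem (τ j)).1
    linarith
  have h2 : tm τ j ≤ ((LT (tm τ j) : ℤ) : ℝ) := Int.le_ceil _
  exact_mod_cast h1.trans h2

private lemma r1_self_notMem {τ : Lab V} {j : Stp V} : j ∉ Sq τ (tm τ j) :=
  fun h => lt_irrefl _ h.2

/-- the jump is a function of the observations after the step -/
private lemma r1_Dl_FA {A A' : Set (Stp V)} {L : ℤ} {j : Stp V} (hs : insert j A ⊆ A')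
    (hA' : ∀ i ∈ A', i.1 ≤ L) (x : V) : Measurable[FA C A'] (Dl C A j x) := by
  unfold Dl
  have h1 : Measurable[FA C A'] (MA C (insert j A) x) :=
    (MA_FA C (fun i hi => hA' i (hs hi)) x).mono (FA_mono C hs) le_rfl
  have h2 : Measurable[FA C A'] (MA C A x) :=
    (MA_FA C (fun i hi => hA' i (hs (Set.mem_insert_of_mem _ hi))) x).mono
      (FA_mono C fun i hi => hs (Set.mem_insert_of_mem _ hi)) le_rfl
  exact h1.sub h2

/-- the cross term at fixed labels -/
private lemma r1_cross_fiber {s s' : ℝ} (x : V) (j : Stp V) {τ : Lab V} (hc : Cw s s' τ j) :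
    ∫ ω, (MA C (Sq τ s') x ω - MA C (Sq τ s) x ω) * Dl C (Sq τ (tm τ j)) j x ω ∂(PP V) =
      ∫ ω, Dl C (Sq τ (tm τ j)) j x ω ^ 2 ∂(PP V) := by
  obtain ⟨hneg, hs, hs'⟩ := hc
  set A := Sq τ (tm τ j) with hA
  set D := Dl C A j x with hD
  have hsub : insert j A ⊆ Sq τ s' := by
    intro i hi
    rcases hi with rfl | hi
    · exact ⟨hneg, hs'⟩
    · exact r1_Sq_mono τ hs'.le hi
  have hDm : Measurable[FA C (insert j A)] D :=
    r1_Dl_FA C (subset_refl _) (fun i hi => Sq_le τ s' i (hsub hi)) x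
  have hDm0 : Measurable D := hDm.mono (FA_le C _) le_rfl
  have hDB : ∀ ω, |D ω| ≤ 2 := abs_Dl_le C _ j x
  have hMm : ∀ {B : Set (Stp V)} {L : ℤ}, (∀ i ∈ B, i.1 ≤ L) → Measurable (MA C B x) :=
    fun hB => (MA_FA C hB x).mono (FA_le C _) le_rfl
  have hMB : ∀ (B : Set (Stp V)) ω, |MA C B x ω| ≤ 1 := fun B ω => (abs_mag_lt C _ _).le
  have hint : ∀ {B : Set (Stp V)} {L : ℤ}, (∀ i ∈ B, i.1 ≤ L) →
      Integrable (fun ω => MA C B x ω * D ω) (PP V) := by
    intro B L hB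
    refine Integrable.of_bound ((hMm hB).mul hDm0).aestronglyMeasurable (1 * 2)
      (Eventually.of_forall fun ω => ?_)
    rw [Real.norm_eq_abs, abs_mul]
    exact mul_le_mul (hMB B ω) (hDB ω) (abs_nonneg _) (by norm_num)
  have e1 : ∫ ω, D ω * MA C (Sq τ s') x ω ∂(PP V) = ∫ ω, D ω * MA C (insert j A) x ω ∂(PP V) :=
    r1_mart C hsub (Sq_le τ s') x hDm hDB
  have hAb : ∀ i ∈ A, i.1 ≤ LT (tm τ j) := r1_Sq_bd
  have hjL : j.1 ≤ LT (tm τ j) := r1_self_le
  have e2 : ∫ ω, MA C (Sq τ s) x ω * D ω ∂(PP V) = 0 :=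
    Dl_mart C hAb r1_self_notMem hjL x
      ((MA_FA C (Sq_le τ s) x).mono (FA_mono C (r1_Sq_mono τ hs)) le_rfl) (hMB _)
  have e3 : ∫ ω, MA C A x ω * D ω ∂(PP V) = 0 :=
    Dl_mart C hAb r1_self_notMem hjL x (MA_FA C hAb x) (hMB _)
  have hins : ∀ i ∈ insert j A, i.1 ≤ LT (tm τ j) := by
    intro i hi
    rcases hi with rfl | hi
    · exact hjL
    · exact hAb i hi
  have i1 := hint (Sq_le τ s')
  have i2 := hint (Sq_le τ s)
  have i3 := hint hins
  have i4 := hint hAb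
  have e4 : ∫ ω, (MA C (Sq τ s') x ω - MA C (Sq τ s) x ω) * D ω ∂(PP V) =
      ∫ ω, MA C (Sq τ s') x ω * D ω ∂(PP V) - ∫ ω, MA C (Sq τ s) x ω * D ω ∂(PP V) := by
    rw [← integral_sub i1 i2]
    refine integral_congr_ae (Eventually.of_forall fun ω => ?_)
    simp only
    ring
  have e5 : ∫ ω, D ω ^ 2 ∂(PP V) =
      ∫ ω, MA C (insert j A) x ω * D ω ∂(PP V) - ∫ ω, MA C A x ω * D ω ∂(PP V) := by
    rw [← integral_sub i3 i4]
    refine integral_congr_ae (Eventually.of_forall fun ω => ?_)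
    simp only [hD, Dl]
    ring
  have c1 : ∫ ω, MA C (Sq τ s') x ω * D ω ∂(PP V) = ∫ ω, D ω * MA C (Sq τ s') x ω ∂(PP V) :=
    integral_congr_ae (Eventually.of_forall fun ω => by simp only [mul_comm])
  have c2 : ∫ ω, MA C (insert j A) x ω * D ω ∂(PP V) = ∫ ω, D ω * MA C (insert j A) x ω ∂(PP V) :=
    integral_congr_ae (Eventually.of_forall fun ω => by simp only [mul_comm])
  rw [e4, e5, e2, e3, c1, c2, e1]

/-- the cross term. Fiberwise (`integral_fiber`), at good `τ` with `Cw s s' τ j`, `A = Sq τ (tm τ j)`: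
`∫ MA (Sq τ s') * Dl A j = ∫ spin * Dl A j = ∫ MA (insert j A) * Dl A j` by `post`, tower, since
`insert j A ⊆ Sq τ s'` makes `Dl A j` measurable for both; `∫ MA (Sq τ s) * Dl A j = 0 =
∫ MA A * Dl A j` by `Dl_mart` as `Sq τ s ⊆ A`. -/
theorem DlW_cross {s s' : ℝ} (hss : s ≤ s') (x : V) (j : Stp V) :
    ∫ ω, (Ms C s' x ω - Ms C s x ω) * DlW C s s' j x ω ∂(PP V) = ∫ ω, DlW C s s' j x ω ^ 2 ∂(PP V) := by
  have hm1 : Measurable fun ω => (Ms C s' x ω - Ms C s x ω) * DlW C s s' j x ω :=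
    ((measurable_Ms s' x).sub (measurable_Ms s x)).mul (measurable_DlW C s s' j x)
  have hb1 : ∀ ω, |(Ms C s' x ω - Ms C s x ω) * DlW C s s' j x ω| ≤ 2 * 2 := by
    intro ω
    rw [abs_mul]
    refine mul_le_mul ?_ (abs_DlW_le C s s' j x ω) (abs_nonneg _) (by norm_num)
    calc |Ms C s' x ω - Ms C s x ω| ≤ |Ms C s' x ω| + |Ms C s x ω| := abs_sub _ _
      _ ≤ 2 := by linarith [abs_Ms_le C s' x ω, abs_Ms_le C s x ω]
  have hm2 : Measurable fun ω => DlW C s s' j x ω ^ 2 := (measurable_DlW C s s' j x).pow_const 2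
  have hb2 : ∀ ω, |DlW C s s' j x ω ^ 2| ≤ 2 ^ 2 := by
    intro ω
    rw [abs_pow]
    gcongr
    exact abs_DlW_le C s s' j x ω
  rw [integral_fiber hm1 hb1, integral_fiber hm2 hb2]
  refine integral_congr_ae (Eventually.of_forall fun τ => ?_)
  simp only
  by_cases hc : Cw s s' τ j
  · have h1 : ∀ ω, DlW C s s' j x (setL τ ω) = Dl C (Sq τ (tm τ j)) j x ω := fun ω => by
      rw [DlW_setL, if_pos hc]
    simp only [h1]
    exact r1_cross_fiber C x j hc
  · have h1 : ∀ ω, DlW C s s' j x (setL τ ω) = 0 := fun ω => by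
      rw [DlW_setL, if_neg hc]
    simp [h1]


/-- orthogonality at fixed labels for ordered times -/
private lemma r1_orth_lt {s s' : ℝ} (x : V) {i j : Stp V} {τ : Lab V} (hi : Cw s s' τ i)
    (hj : Cw s s' τ j) (hlt : tm τ i < tm τ j) :
    ∫ ω, Dl C (Sq τ (tm τ i)) i x ω * Dl C (Sq τ (tm τ j)) j x ω ∂(PP V) = 0 := by
  have hsub : insert i (Sq τ (tm τ i)) ⊆ Sq τ (tm τ j) := by
    intro k hk
    rcases hk with rfl | hk
    · exact ⟨hi.1, hlt⟩
    · exact r1_Sq_mono τ hlt.le hk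
  exact Dl_mart C r1_Sq_bd r1_self_notMem r1_self_le x
    (r1_Dl_FA C hsub r1_Sq_bd x) (abs_Dl_le C _ i x)

/-- orthogonality of the jumps: at good `τ` the times differ, and the earlier jump is measurable for
the state of the later one, `Dl_mart`. -/
theorem DlW_orth (s s' : ℝ) (x : V) {i j : Stp V} (hij : i ≠ j) :
    ∫ ω, DlW C s s' i x ω * DlW C s s' j x ω ∂(PP V) = 0 := by
  have hm : Measurable fun ω => DlW C s s' i x ω * DlW C s s' j x ω :=
    (measurable_DlW C s s' i x).mul (measurable_DlW C s s' j x)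
  have hb : ∀ ω, |DlW C s s' i x ω * DlW C s s' j x ω| ≤ 2 * 2 := by
    intro ω
    rw [abs_mul]
    exact mul_le_mul (abs_DlW_le C s s' i x ω) (abs_DlW_le C s s' j x ω) (abs_nonneg _) (by norm_num)
  rw [integral_fiber hm hb]
  have hz : ∀ᵐ τ ∂(PL V), ∫ ω, DlW C s s' i x (setL τ ω) * DlW C s s' j x (setL τ ω) ∂(PP V) = 0 := by
    filter_upwards [ae_good C] with τ hτ
    by_cases hci : Cw s s' τ i
    · by_cases hcj : Cw s s' τ j
      · have h1 : ∀ ω, DlW C s s' i x (setL τ ω) = Dl C (Sq τ (tm τ i)) i x ω := fun ω => by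
          rw [DlW_setL, if_pos hci]
        have h2 : ∀ ω, DlW C s s' j x (setL τ ω) = Dl C (Sq τ (tm τ j)) j x ω := fun ω => by
          rw [DlW_setL, if_pos hcj]
        simp only [h1, h2]
        rcases lt_or_gt_of_ne (hτ i j hci.1 hcj.1 hij) with hlt | hlt
        · exact r1_orth_lt C x hci hcj hlt
        · have := r1_orth_lt C x hcj hci hlt
          rw [← this]
          exact integral_congr_ae (Eventually.of_forall fun ω => by simp only [mul_comm])
      · have h2 : ∀ ω, DlW C s s' j x (setL τ ω) = 0 := fun ω => by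
          rw [DlW_setL, if_neg hcj]
        simp [h2]
    · have h1 : ∀ ω, DlW C s s' i x (setL τ ω) = 0 := fun ω => by
        rw [DlW_setL, if_neg hci]
      simp [h1]
  rw [integral_congr_ae hz]
  simp


/-- `a^⊥ ⟂ Δ_j^⊥`: `perp_fiber` and `fiber_perp_jump` with `Z = MA (Sq τ s) x` -/
theorem perp_a {s s' : ℝ} (hss : s ≤ s') (x : V) (j : Stp V) :
    ∫ ω, (Ms C s x ω - Pj C (Ms C s x) ω) *
      (DlW C s s' j x ω - Pj C (DlW C s s' j x) ω) ∂(PP V) = 0 := by
  rw [perp_fiber C (measurable_Ms s x) (measurable_DlW C s s' j x) (B := 2)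
    (fun ω => (abs_Ms_le C s x ω).trans (by norm_num)) (abs_DlW_le C s s' j x)]
  have hz : ∀ᵐ τ ∂(PL V), ∫ ω, (Ms C s x (setL τ ω) -
      (PP V)[fun ω => Ms C s x (setL τ ω) | GFa C τ] ω) *
      (DlW C s s' j x (setL τ ω) -
        (PP V)[fun ω => DlW C s s' j x (setL τ ω) | GFa C τ] ω) ∂(PP V) = 0 := by
    filter_upwards [ae_good C] with τ hτ
    have e1 : (fun ω => Ms C s x (setL τ ω)) = MA C (Sq τ s) x := rfl
    rw [e1]
    by_cases hc : Cw s s' τ j
    · have h1 : (fun ω => DlW C s s' j x (setL τ ω)) = Dl C (Sq τ (tm τ j)) j x := by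
        funext ω
        rw [DlW_setL, if_pos hc]
      rw [h1]
      have hsub : Sq τ s ⊆ Sq τ (tm τ j) := r1_Sq_mono τ hc.2.1
      have hZ : Measurable[FA C (Sq τ (tm τ j))] (MA C (Sq τ s) x) :=
        (MA_FA C (Sq_le τ s) x).mono (FA_mono C hsub) le_rfl
      have h2 := fiber_perp_jump C hτ j x hZ (B := 1) (fun ω => (abs_mag_lt C _ _).le)
      refine Eq.trans ?_ h2
      refine integral_congr_ae (Eventually.of_forall fun ω => ?_)
      have h3 : DlW C s s' j x (setL τ ω) = Dl C (Sq τ (tm τ j)) j x ω := congrFun h1 ω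
      have h4 : Ms C s x (setL τ ω) = MA C (Sq τ s) x ω := rfl
      simp only [h3, h4]
    · have h1 : (fun ω => DlW C s s' j x (setL τ ω)) = 0 := by
        funext ω
        rw [DlW_setL, if_neg hc]
        rfl
      rw [h1, condExp_zero]
      have h3 : ∀ ω, DlW C s s' j x (setL τ ω) = 0 := fun ω => congrFun h1 ω
      simp [h3]
  rw [integral_congr_ae hz]
  simp

/-- `Δ_i^⊥ ⟂ Δ_j^⊥`: `perp_fiber` and `fiber_perp_jump` with `Z = Dl (Sq τ (tm τ i)) i x`, where
`tm τ i < tm τ j` (Good, by symmetry) -/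
theorem perp_ij (s s' : ℝ) (x : V) {i j : Stp V} (hij : i ≠ j) :
    ∫ ω, (DlW C s s' i x ω - Pj C (DlW C s s' i x) ω) *
      (DlW C s s' j x ω - Pj C (DlW C s s' j x) ω) ∂(PP V) = 0 := by
  rw [perp_fiber C (measurable_DlW C s s' i x) (measurable_DlW C s s' j x) (B := 2)
    (abs_DlW_le C s s' i x) (abs_DlW_le C s s' j x)]
  -- the core at fixed good labels, ordered times
  have hcore : ∀ {τ : Lab V} {i j : Stp V}, Good τ → Cw s s' τ i → Cw s s' τ j →
      tm τ i < tm τ j →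
      ∫ ω, (Dl C (Sq τ (tm τ i)) i x ω -
          (PP V)[Dl C (Sq τ (tm τ i)) i x | GFa C τ] ω) *
        (Dl C (Sq τ (tm τ j)) j x ω -
          (PP V)[Dl C (Sq τ (tm τ j)) j x | GFa C τ] ω) ∂(PP V) = 0 := by
    intro τ i j hτ hi _ hlt
    have hsub : insert i (Sq τ (tm τ i)) ⊆ Sq τ (tm τ j) := by
      intro k hk
      rcases hk with rfl | hk
      · exact ⟨hi.1, hlt⟩
      · exact r1_Sq_mono τ hlt.le hk
    exact fiber_perp_jump C hτ j x (r1_Dl_FA C hsub r1_Sq_bd x) (abs_Dl_le C _ i x)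
  have hz : ∀ᵐ τ ∂(PL V), ∫ ω, (DlW C s s' i x (setL τ ω) -
      (PP V)[fun ω => DlW C s s' i x (setL τ ω) | GFa C τ] ω) *
      (DlW C s s' j x (setL τ ω) -
        (PP V)[fun ω => DlW C s s' j x (setL τ ω) | GFa C τ] ω) ∂(PP V) = 0 := by
    filter_upwards [ae_good C] with τ hτ
    by_cases hci : Cw s s' τ i
    · by_cases hcj : Cw s s' τ j
      · have h1 : (fun ω => DlW C s s' i x (setL τ ω)) = Dl C (Sq τ (tm τ i)) i x := by
          funext ω
          rw [DlW_setL, if_pos hci]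
        have h2 : (fun ω => DlW C s s' j x (setL τ ω)) = Dl C (Sq τ (tm τ j)) j x := by
          funext ω
          rw [DlW_setL, if_pos hcj]
        have h3 : ∀ ω, DlW C s s' i x (setL τ ω) = Dl C (Sq τ (tm τ i)) i x ω := congrFun h1
        have h4 : ∀ ω, DlW C s s' j x (setL τ ω) = Dl C (Sq τ (tm τ j)) j x ω := congrFun h2
        rw [h1, h2]
        simp only [h3, h4]
        rcases lt_or_gt_of_ne (hτ i j hci.1 hcj.1 hij) with hlt | hlt
        · exact hcore hτ hci hcj hlt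
        · have h5 := hcore hτ hcj hci hlt
          rw [← h5]
          exact integral_congr_ae (Eventually.of_forall fun ω => by simp only [mul_comm])
      · have h1 : (fun ω => DlW C s s' j x (setL τ ω)) = 0 := by
          funext ω
          rw [DlW_setL, if_neg hcj]
          rfl
        rw [h1, condExp_zero]
        have h3 : ∀ ω, DlW C s s' j x (setL τ ω) = 0 := fun ω => congrFun h1 ω
        simp [h3]
    · have h1 : (fun ω => DlW C s s' i x (setL τ ω)) = 0 := by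
        funext ω
        rw [DlW_setL, if_neg hci]
        rfl
      rw [h1, condExp_zero]
      have h3 : ∀ ω, DlW C s s' i x (setL τ ω) = 0 := fun ω => congrFun h1 ω
      simp [h3]
  rw [integral_congr_ae hz]
  simp

end Vale.Agent.Lib.P161.Crit
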