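import Vale.Agent.Lib.P161.Crit.Innov

/-!
The whole projection is fiberwise the fixed-label projection. Statements fixed. Paper section SLICE.
-/

open MeasureTheory Filter Topology Finset

noncomputable section
namespace Vale.Agent.Lib.P161.Crit

open scoped Classical
open Vale.Agent.Lib.P161

variable {V : Type} (C : CT V)

/-! ### Replacing the labels does not change the observations -/

lemma slc_eS (τ : Lab V) (e : Sym2 V) (w : WW V) : eS C e (setLab τ w) = eS C e w := rfl

lemma slc_pS (τ : Lab V) (x u : V) (w : WW V) : pS C x u (setLab τ w) = pS C x u w := by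
  unfold pS
  apply Finset.prod_congr rfl
  intro i _
  rfl

lemma slc_spin (τ : Lab V) (ω : Om V) (v : V) : spin C (setL τ ω) v = spin C ω v := by
  unfold spin setL
  simp only [slc_pS]

lemma slc_yy (τ : Lab V) (j : Stp V) (ω : Om V) : yy C j (setL τ ω) = yy C j ω := by
  unfold yy
  rw [slc_spin]
  rfl

lemma slc_fld (τ : Lab V) (A : Set (Stp V)) (ω : Om V) : fld C A (setL τ ω) = fld C A ω := by
  funext v
  unfold fld
  simp only [slc_yy]

lemma slc_MA (τ : Lab V) (A : Set (Stp V)) (x : V) (ω : Om V) : MA C A x (setL τ ω) = MA C A x ω := by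
  unfold MA
  rw [slc_fld]

lemma slc_Rf (τ τ' : Lab V) (j : Stp V) (ω : Om V) : Rf C τ' j (setL τ ω) = Rf C τ' j ω := by
  unfold Rf
  rw [slc_MA, slc_yy]

lemma slc_Rw (τ : Lab V) (j : Stp V) (ω : Om V) : Rw C j (setL τ ω) = RfW C τ j ω := by
  show (if τ j < 0 then Rf C τ j (setL τ ω) else 0) = RfW C τ j ω
  rw [slc_Rf]
  rfl

lemma slc_Ms (τ : Lab V) (T : ℝ) (x : V) (ω : Om V) :
    Ms C T x (setL τ ω) = MA C (Sq τ T) x ω := by
  show MA C (Sq τ T) x (setL τ ω) = _
  rw [slc_MA]

lemma slc_measurable_RfW (τ : Lab V) : Measurable fun ω : Om V => fun j => RfW C τ j ω := by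
  rw [measurable_pi_iff]
  intro j
  unfold RfW
  by_cases h : τ j < 0
  · simpa [h] using measurable_Rf C τ j
  · simp [h]

lemma slc_measurable_R : Measurable fun ω : Om V => fun j => Rw C j ω := by
  rw [measurable_pi_iff]
  exact fun j => measurable_Rw C j

lemma slc_measurable_setL : Measurable (fun p : Lab V × Om V => setL p.1 p.2) :=
  (measurePreserving_fiber (V := V)).measurable

/-- a countable generating `π`-system containing the whole space -/
lemma slc_exists_pi (α : Type) [MeasurableSpace α] [MeasurableSpace.CountablyGenerated α] :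
    ∃ P : Set (Set α), P.Countable ∧ IsPiSystem P ∧ Set.univ ∈ P ∧
      (inferInstance : MeasurableSpace α) = MeasurableSpace.generateFrom P := by
  set b := MeasurableSpace.countableGeneratingSet α with hb
  have hbc : b.Countable := MeasurableSpace.countable_countableGeneratingSet
  let P : Set (Set α) := (fun t => ⋂₀ t) '' {t : Set (Set α) | t.Finite ∧ t ⊆ b}
  refine ⟨P, (Set.countable_ofPred_finite_subset hbc).image _, ?_, ?_, ?_⟩
  · rintro _ ⟨t, ⟨ht, htb⟩, rfl⟩ _ ⟨t', ⟨ht', htb'⟩, rfl⟩ _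
    refine ⟨t ∪ t', ⟨ht.union ht', Set.union_subset htb htb'⟩, ?_⟩
    exact Set.sInter_union t t'
  · exact ⟨∅, ⟨Set.finite_empty, Set.empty_subset _⟩, Set.sInter_empty⟩
  · apply le_antisymm
    · rw [← MeasurableSpace.generateFrom_countableGeneratingSet (α := α)]
      apply MeasurableSpace.generateFrom_le
      intro s hs
      apply MeasurableSpace.measurableSet_generateFrom
      exact ⟨{s}, ⟨Set.finite_singleton s, Set.singleton_subset_iff.2 hs⟩, Set.sInter_singleton s⟩
    · apply MeasurableSpace.generateFrom_le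
      rintro _ ⟨t, ⟨ht, htb⟩, rfl⟩
      apply MeasurableSet.sInter (ht.countable)
      intro s hs
      exact MeasurableSpace.measurableSet_countableGeneratingSet (htb hs)

/-- The core statement: a bounded measurable version of the projection whose fibers are the
fixed-label projections. -/
theorem slc_core {Z : Om V → ℝ} {B : ℝ} (hZ : Measurable Z) (hB : ∀ ω, |Z ω| ≤ B) :
    ∃ h : Om V → ℝ, Measurable h ∧ (∀ ω, |h ω| ≤ B) ∧ (PP V)[Z | GG C] =ᵐ[PP V] h ∧
      ∀ᵐ τ ∂(PL V), (fun ω => h (setL τ ω)) =ᵐ[PP V]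
        (PP V)[fun ω => Z (setL τ ω) | GFa C τ] := by
  have : Countable V := countable_of_tree C.hT C.hnb
  obtain ⟨ω₀⟩ : Nonempty (Om V) := (PP V).nonempty_of_neZero
  have hB0 : 0 ≤ B := (abs_nonneg _).trans (hB ω₀)
  set E := (PP V)[Z | GG C] with hE
  have hEs : StronglyMeasurable[GG C] E := stronglyMeasurable_condExp
  let clip : ℝ → ℝ := fun t => max (-B) (min t B)
  have hclip : Continuous clip := by fun_prop
  have hclipB : ∀ t, |clip t| ≤ B := by
    intro t
    rw [abs_le]
    exact ⟨le_max_left _ _, max_le (by linarith) (min_le_right _ _)⟩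
  have hclipid : ∀ t, |t| ≤ B → clip t = t := by
    intro t ht
    obtain ⟨h1, h2⟩ := abs_le.1 ht
    show max (-B) (min t B) = t
    rw [min_eq_left h2, max_eq_right h1]
  let h : Om V → ℝ := fun ω => clip (E ω)
  have hhG : Measurable[GG C] h := hclip.measurable.comp hEs.measurable
  have hhm : Measurable h := hhG.mono (GG_le C) le_rfl
  have hhB : ∀ ω, |h ω| ≤ B := fun ω => hclipB _
  have hEh : E =ᵐ[PP V] h := by
    filter_upwards [ce_abs_le (GG_le C) (Eventually.of_forall hB)] with ω hω
    exact (hclipid _ hω).symm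
  obtain ⟨H, hHm, hH⟩ : ∃ H : Lab V × (Stp V → ℝ) → ℝ, Measurable H ∧ h = H ∘ kap C :=
    hhG.exists_eq_measurable_comp
  refine ⟨h, hhm, hhB, hEh, ?_⟩
  -- the difference
  let f : Om V → ℝ := fun ω => Z ω - h ω
  have hfm : Measurable f := hZ.sub hhm
  have hfB : ∀ ω, |f ω| ≤ 2 * B := by
    intro ω
    calc |f ω| ≤ |Z ω| + |h ω| := abs_sub _ _
      _ ≤ 2 * B := by linarith [hB ω, hhB ω]
  have hZint : Integrable Z (PP V) :=
    Integrable.of_bound hZ.aestronglyMeasurable B (Eventually.of_forall hB)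
  have hfint : Integrable f (PP V) :=
    Integrable.of_bound hfm.aestronglyMeasurable (2 * B) (Eventually.of_forall hfB)
  -- Step 1: `f` integrates to zero on `GG`-sets
  have hkey1 : ∀ s, MeasurableSet[GG C] s → ∫ ω in s, f ω ∂(PP V) = 0 := by
    intro s hs
    have hs0 : MeasurableSet s := GG_le C _ hs
    have h1 : ∫ ω in s, E ω ∂(PP V) = ∫ ω in s, Z ω ∂(PP V) :=
      setIntegral_condExp (GG_le C) hZint hs
    have h2 : ∫ ω in s, E ω ∂(PP V) = ∫ ω in s, h ω ∂(PP V) :=
      setIntegral_congr_ae hs0 (hEh.mono fun ω hω _ => hω)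
    have hhint : Integrable h (PP V) :=
      Integrable.of_bound hhm.aestronglyMeasurable B (Eventually.of_forall hhB)
    show ∫ ω in s, (Z ω - h ω) ∂(PP V) = 0
    rw [integral_sub hZint.integrableOn hhint.integrableOn, ← h2, h1, sub_self]
  -- Step 2: the fiber integrals
  let R : Om V → (Stp V → ℝ) := fun ω j => Rw C j ω
  have hRm : Measurable R := slc_measurable_R C
  let I : Set (Stp V → ℝ) → Lab V → ℝ := fun c τ =>
    ∫ ω, (R ⁻¹' c).indicator f (setL τ ω) ∂(PP V)
  have hIint : ∀ c, MeasurableSet c → Integrable (I c) (PL V) := by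
    intro c hc
    have hGm : Measurable ((R ⁻¹' c).indicator f) := hfm.indicator (hRm hc)
    have hGB : ∀ ω, |(R ⁻¹' c).indicator f ω| ≤ 2 * B := by
      intro ω
      by_cases hω : ω ∈ R ⁻¹' c
      · simpa [hω] using hfB ω
      · simp only [Set.indicator_of_notMem hω, abs_zero]
        positivity
    have hmeas : StronglyMeasurable (I c) := by
      have h1 : StronglyMeasurable (fun p : Lab V × Om V =>
          (R ⁻¹' c).indicator f (setL p.1 p.2)) :=
        (hGm.comp (slc_measurable_setL)).stronglyMeasurable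
      exact h1.integral_prod_right' (ν := PP V)
    refine Integrable.of_bound hmeas.aestronglyMeasurable (2 * B) (Eventually.of_forall ?_)
    intro τ
    rw [Real.norm_eq_abs]
    calc |I c τ| ≤ ∫ ω, |(R ⁻¹' c).indicator f (setL τ ω)| ∂(PP V) :=
          abs_integral_le_integral_abs
      _ ≤ ∫ _ω, 2 * B ∂(PP V) := by
          apply integral_mono_of_nonneg (Eventually.of_forall fun _ => abs_nonneg _)
            (integrable_const _) (Eventually.of_forall fun ω => hGB _)
      _ = 2 * B := by simp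
  have hIzero : ∀ c, MeasurableSet c → I c =ᵐ[PL V] 0 := by
    intro c hc
    apply (hIint c hc).ae_eq_zero_of_forall_setIntegral_eq_zero
    intro s hs _
    have hkapset : MeasurableSet[GG C] (kap C ⁻¹' (s ×ˢ c)) :=
      ⟨s ×ˢ c, hs.prod hc, rfl⟩
    have hk0 : MeasurableSet (kap C ⁻¹' (s ×ˢ c)) := GG_le C _ hkapset
    have hGm : Measurable ((kap C ⁻¹' (s ×ˢ c)).indicator f) := hfm.indicator hk0
    have hGB : ∀ ω, |(kap C ⁻¹' (s ×ˢ c)).indicator f ω| ≤ 2 * B := by
      intro ω
      by_cases hω : ω ∈ kap C ⁻¹' (s ×ˢ c)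
      · simpa [hω] using hfB ω
      · simp only [Set.indicator_of_notMem hω, abs_zero]
        positivity
    have h1 := integral_fiber hGm hGB
    rw [integral_indicator hk0, hkey1 _ hkapset] at h1
    have h2 : ∫ τ in s, I c τ ∂(PL V) =
        ∫ τ, ∫ ω, (kap C ⁻¹' (s ×ˢ c)).indicator f (setL τ ω) ∂(PP V) ∂(PL V) := by
      rw [← integral_indicator hs]
      apply integral_congr_ae
      refine Eventually.of_forall fun τ => ?_
      have hR : ∀ ω, R (setL τ ω) = fun j => RfW C τ j ω := fun ω => by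
        funext j
        exact slc_Rw C τ j ω
      by_cases hτ : τ ∈ s
      · simp only [Set.indicator_of_mem hτ]
        apply integral_congr_ae
        refine Eventually.of_forall fun ω => ?_
        have h3 : setL τ ω ∈ kap C ⁻¹' (s ×ˢ c) ↔ setL τ ω ∈ R ⁻¹' c := by
          show (lab (setL τ ω).2 ∈ s ∧ (fun j => Rw C j (setL τ ω)) ∈ c) ↔ _
          have : lab (setL τ ω).2 = τ := rfl
          rw [this]
          simp [hτ, R]
        show (R ⁻¹' c).indicator f (setL τ ω) = (kap C ⁻¹' (s ×ˢ c)).indicator f (setL τ ω)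
        by_cases h4 : setL τ ω ∈ R ⁻¹' c
        · rw [Set.indicator_of_mem h4, Set.indicator_of_mem (h3.2 h4)]
        · rw [Set.indicator_of_notMem h4, Set.indicator_of_notMem (fun h5 => h4 (h3.1 h5))]
      · simp only [Set.indicator_of_notMem hτ]
        symm
        apply integral_eq_zero_of_ae
        refine Eventually.of_forall fun ω => ?_
        have h3 : setL τ ω ∉ kap C ⁻¹' (s ×ˢ c) := by
          intro h4
          exact hτ (h4.1)
        simp [Set.indicator_of_notMem h3]
    rw [h2]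
    exact h1.symm
  -- Step 3: a countable π-system
  obtain ⟨P, hPc, hPpi, hPu, hPgen⟩ := slc_exists_pi (Stp V → ℝ)
  have hPm : ∀ c ∈ P, MeasurableSet c := fun c hc => by
    have h0 : MeasurableSet[MeasurableSpace.generateFrom P] c :=
      MeasurableSpace.measurableSet_generateFrom hc
    rwa [← hPgen] at h0
  have hgood : ∀ᵐ τ ∂(PL V), ∀ c ∈ P, I c τ = 0 := by
    rw [ae_ball_iff hPc]
    intro c hc
    exact hIzero c (hPm c hc)
  filter_upwards [hgood] with τ hτ
  -- Step 4: all the innovation sets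
  let Rτ : Om V → (Stp V → ℝ) := fun ω j => RfW C τ j ω
  have hRτm : Measurable Rτ := slc_measurable_RfW C τ
  have hsetL : Measurable (setL (V := V) τ) :=
    slc_measurable_setL.comp measurable_prodMk_left
  have hfτ : Measurable fun ω => f (setL τ ω) := hfm.comp hsetL
  have hfτint : Integrable (fun ω => f (setL τ ω)) (PP V) :=
    Integrable.of_bound hfτ.aestronglyMeasurable (2 * B)
      (Eventually.of_forall fun ω => by simpa using hfB _)
  have hRR : ∀ ω, R (setL τ ω) = Rτ ω := fun ω => by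
    funext j
    exact slc_Rw C τ j ω
  have hbasic : ∀ c, c ∈ P → ∫ ω in Rτ ⁻¹' c, f (setL τ ω) ∂(PP V) = 0 := by
    intro c hc
    have h1 := hτ c hc
    have h2 : I c τ = ∫ ω in Rτ ⁻¹' c, f (setL τ ω) ∂(PP V) := by
      rw [← integral_indicator (hRτm (hPm c hc))]
      apply integral_congr_ae
      refine Eventually.of_forall fun ω => ?_
      show (R ⁻¹' c).indicator f (setL τ ω) = (Rτ ⁻¹' c).indicator (fun ω => f (setL τ ω)) ω
      by_cases h4 : Rτ ω ∈ c
      · have h5 : setL τ ω ∈ R ⁻¹' c := by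
          show R (setL τ ω) ∈ c
          rw [hRR]; exact h4
        have h6 : ω ∈ Rτ ⁻¹' c := h4
        rw [Set.indicator_of_mem h5, Set.indicator_of_mem h6]
      · have h5 : setL τ ω ∉ R ⁻¹' c := by
          show ¬ R (setL τ ω) ∈ c
          rw [hRR]; exact h4
        have h6 : ω ∉ Rτ ⁻¹' c := h4
        rw [Set.indicator_of_notMem h5, Set.indicator_of_notMem h6]
    rw [← h2]
    exact h1
  have htotal : ∫ ω, f (setL τ ω) ∂(PP V) = 0 := by
    have h1 := hbasic Set.univ hPu
    simpa using h1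
  have hset : ∀ c, MeasurableSet c → ∫ ω in Rτ ⁻¹' c, f (setL τ ω) ∂(PP V) = 0 := by
    intro c hc
    induction c, hc using MeasurableSpace.induction_on_inter hPgen hPpi with
    | empty => simp
    | basic c hc => exact hbasic c hc
    | compl c hc ih =>
      have h1 := integral_add_compl (hRτm hc) hfτint
      rw [ih, zero_add, htotal] at h1
      rw [Set.preimage_compl]
      exact h1
    | iUnion g hd hg ih =>
      rw [Set.preimage_iUnion]
      rw [integral_iUnion (fun i => hRτm (hg i))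
        (fun i j hij => (hd hij).preimage Rτ) hfτint.integrableOn]
      simp [ih]
  -- Step 5: the characterisation of the conditional expectation
  have hZτm : Measurable fun ω => Z (setL τ ω) := hZ.comp hsetL
  have hZτint : Integrable (fun ω => Z (setL τ ω)) (PP V) :=
    Integrable.of_bound hZτm.aestronglyMeasurable B
      (Eventually.of_forall fun ω => by simpa using hB _)
  have hhτm : Measurable fun ω => h (setL τ ω) := hhm.comp hsetL
  have hhτint : Integrable (fun ω => h (setL τ ω)) (PP V) :=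
    Integrable.of_bound hhτm.aestronglyMeasurable B
      (Eventually.of_forall fun ω => by simpa using hhB _)
  have hg : Measurable[GFa C τ] fun ω => h (setL τ ω) := by
    have h1 : (fun ω => h (setL τ ω)) = (fun q => H (τ, q)) ∘ Rτ := by
      funext ω
      show h (setL τ ω) = H (τ, Rτ ω)
      rw [hH]
      show H (kap C (setL τ ω)) = _
      have h2 : kap C (setL τ ω) = (τ, Rτ ω) := by
        show (lab (setL τ ω).2, R (setL τ ω)) = _
        rw [hRR]
        rfl
      rw [h2]
    rw [h1]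
    exact (hHm.comp measurable_prodMk_left).comp (comap_measurable Rτ)
  refine ae_eq_condExp_of_forall_setIntegral_eq (GFa_le C τ) hZτint
    (fun s _ _ => hhτint.integrableOn) ?_ hg.aestronglyMeasurable
  intro s hs _
  obtain ⟨c, hc, rfl⟩ := hs
  have h1 := hset c hc
  have h2 : ∫ ω in Rτ ⁻¹' c, f (setL τ ω) ∂(PP V) =
      ∫ ω in Rτ ⁻¹' c, Z (setL τ ω) ∂(PP V) - ∫ ω in Rτ ⁻¹' c, h (setL τ ω) ∂(PP V) :=
    integral_sub hZτint.integrableOn hhτint.integrableOn
  show ∫ ω in Rτ ⁻¹' c, h (setL τ ω) ∂(PP V) = ∫ ω in Rτ ⁻¹' c, Z (setL τ ω) ∂(PP V)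
  linarith

/-- slice of the projection -/
theorem slice {Z : Om V → ℝ} {B : ℝ} (hZ : Measurable Z) (hB : ∀ ω, |Z ω| ≤ B) :
    ∀ᵐ τ ∂(PL V), (fun ω => (PP V)[Z | GG C] (setL τ ω)) =ᵐ[PP V]
      (PP V)[fun ω => Z (setL τ ω) | GFa C τ] := by
  obtain ⟨h, -, -, hEh, hfib⟩ := slc_core C hZ hB
  have hae : ∀ᵐ p ∂((PL V).prod (PP V)), (PP V)[Z | GG C] (setL p.1 p.2) = h (setL p.1 p.2) :=
    (measurePreserving_fiber (V := V)).quasiMeasurePreserving.ae hEh
  filter_upwards [Measure.ae_ae_of_ae_prod hae, hfib] with τ h1 h2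
  have h1' : (fun ω => (PP V)[Z | GG C] (setL τ ω)) =ᵐ[PP V] fun ω => h (setL τ ω) := h1
  exact h1'.trans h2

/-- the fiber decomposition of the distance, with an explicit version of the projection -/
lemma slc_fib (T : ℝ) (x : V) : ∃ A : Lab V → ℝ, Integrable A (PL V) ∧ Dd C T x = ∫ τ, A τ ∂(PL V) ∧
    ∀ᵐ τ ∂(PL V), A τ =
      ∫ ω, (MA C (Sq τ T) x ω - (PP V)[MA C (Sq τ T) x | GFa C τ] ω) ^ 2 ∂(PP V) := by
  obtain ⟨h, hhm, hhB, hEh, hfib⟩ := slc_core C (measurable_Ms (C := C) T x) (abs_Ms_le C T x)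
  let F : Om V → ℝ := fun ω => (Ms C T x ω - h ω) ^ 2
  have hFm : Measurable F := ((measurable_Ms (C := C) T x).sub hhm).pow_const 2
  have hFB : ∀ ω, |F ω| ≤ 4 := by
    intro ω
    have h1 := abs_Ms_le C T x ω
    have h2 := hhB ω
    have h3 : |Ms C T x ω - h ω| ≤ 2 := by
      calc |Ms C T x ω - h ω| ≤ |Ms C T x ω| + |h ω| := abs_sub _ _
        _ ≤ 2 := by linarith
    show |(Ms C T x ω - h ω) ^ 2| ≤ 4
    rw [abs_pow]
    have h4 := abs_nonneg (Ms C T x ω - h ω)
    nlinarith
  refine ⟨fun τ => ∫ ω, F (setL τ ω) ∂(PP V), ?_, ?_, ?_⟩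
  · have hmeas : StronglyMeasurable (fun τ : Lab V => ∫ ω, F (setL τ ω) ∂(PP V)) := by
      have h1 : StronglyMeasurable (fun p : Lab V × Om V => F (setL p.1 p.2)) :=
        (hFm.comp slc_measurable_setL).stronglyMeasurable
      exact h1.integral_prod_right' (ν := PP V)
    refine Integrable.of_bound hmeas.aestronglyMeasurable 4 (Eventually.of_forall ?_)
    intro τ
    rw [Real.norm_eq_abs]
    calc |∫ ω, F (setL τ ω) ∂(PP V)| ≤ ∫ ω, |F (setL τ ω)| ∂(PP V) :=
          abs_integral_le_integral_abs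
      _ ≤ ∫ _ω, 4 ∂(PP V) := by
          apply integral_mono_of_nonneg (Eventually.of_forall fun _ => abs_nonneg _)
            (integrable_const _) (Eventually.of_forall fun ω => hFB _)
      _ = 4 := by simp
  · have h1 : Dd C T x = ∫ ω, F ω ∂(PP V) := by
      unfold Dd
      apply integral_congr_ae
      filter_upwards [hEh] with ω hω
      show (Ms C T x ω - (PP V)[Ms C T x | GG C] ω) ^ 2 = (Ms C T x ω - h ω) ^ 2
      rw [hω]
    rw [h1]
    exact integral_fiber hFm hFB
  · filter_upwards [hfib] with τ hτ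
    have hms : (fun ω => Ms C T x (setL τ ω)) = MA C (Sq τ T) x := by
      funext ω
      exact slc_Ms C τ T x ω
    rw [hms] at hτ
    apply integral_congr_ae
    filter_upwards [hτ] with ω hω
    show (Ms C T x (setL τ ω) - h (setL τ ω)) ^ 2 = _
    rw [hω, slc_Ms]

/-- whole distance is the integral of the fiber distances -/
theorem Dd_fiber (T : ℝ) (x : V) :
    Dd C T x = ∫ τ, ∫ ω, (MA C (Sq τ T) x ω - (PP V)[MA C (Sq τ T) x | GFa C τ] ω) ^ 2 ∂(PP V) ∂(PL V)
    := by
  obtain ⟨A, -, h1, h2⟩ := slc_fib C T x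
  rw [h1]
  exact integral_congr_ae h2

/-- monotonicity of the distance in time -/
theorem Dd_mono {T T' : ℝ} (hT : T ≤ T') (x : V) : Dd C T x ≤ Dd C T' x := by
  obtain ⟨A, hA, h1, h2⟩ := slc_fib C T x
  obtain ⟨A', hA', h1', h2'⟩ := slc_fib C T' x
  rw [h1, h1']
  apply integral_mono_ae hA hA'
  filter_upwards [h2, h2', ae_good C] with τ h3 h3' hg
  rw [h3, h3']
  exact Dfib_mono C hg hT x

end Vale.Agent.Lib.P161.Crit
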