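import Vale.Agent.Lib.P161.Crit.Meas

/-!
The spin field: gauge relation to edge signs, law on finite convex sets.
-/

open MeasureTheory Filter Topology Finset

noncomputable section
namespace Vale.Agent.Lib.P161.Crit

open scoped Classical
open Vale.Agent.Lib.P161

variable {V : Type} (C : CT V)

lemma sp_tw_eq_of {x u c : V} (hc : C.G.Adj u c) (hd : C.G.dist c x + 1 = C.G.dist u x) :
    tw C x u = c := by
  have h : u ≠ x := by
    rintro rfl
    simp at hd
  obtain ⟨h1, h2⟩ := tw_spec C h
  exact toward_unique C.hT h1 hc h2 hd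

lemma sp_twI_succ' (x : V) (k : ℕ) (u : V) : twI C x (k + 1) u = twI C x k (tw C x u) := by
  induction k with
  | zero => rfl
  | succ k ih =>
    change tw C x (twI C x (k + 1) u) = tw C x (twI C x k (tw C x u))
    rw [ih]

lemma sp_pS_step {x u : V} (h : u ≠ x) (w : WW V) :
    pS C x u w = eS C s(u, tw C x u) w * pS C x (tw C x u) w := by
  unfold pS
  rw [← (tw_spec C h).2, Finset.prod_range_succ', mul_comm]
  congr 1
  apply Finset.prod_congr rfl
  intro i _
  rw [sp_twI_succ', sp_twI_succ' C x (i + 1) u]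

lemma sp_eS_sq (e : Sym2 V) (w : WW V) : eS C e w ^ 2 = 1 := by
  rcases eS_cases C e w with h | h <;> rw [h] <;> norm_num

lemma sp_pS_sq (x u : V) (w : WW V) : pS C x u w ^ 2 = 1 := by
  unfold pS
  rw [← Finset.prod_pow]
  exact Finset.prod_eq_one fun i _ => sp_eS_sq C _ w

lemma sp_sgnB_sq (b : Bool) : ((if b then 1 else -1 : ℝ)) ^ 2 = 1 := by
  cases b <;> norm_num

lemma sp_spin_sq (ω : Om V) (v : V) : spin C ω v ^ 2 = 1 := by
  unfold spin
  rw [mul_pow, sp_sgnB_sq, sp_pS_sq, one_mul]

/-- adjacent spins differ by the edge sign -/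
lemma spin_adj (ω : Om V) {a b : V} (hab : C.G.Adj a b) :
    spin C ω a * spin C ω b = eS C s(a, b) ω.2 := by
  have key : ∀ {a b : V}, C.G.Adj a b → C.G.dist a C.o + 1 = C.G.dist b C.o →
      spin C ω a * spin C ω b = eS C s(a, b) ω.2 := by
    intro a b hab hd
    have htw : tw C C.o b = a := sp_tw_eq_of C hab.symm hd
    have hne : b ≠ C.o := by
      rintro rfl
      simp at hd
    unfold spin
    rw [sp_pS_step C hne, htw, Sym2.eq_swap]
    have h1 := sp_sgnB_sq ω.1
    have h2 := sp_pS_sq C C.o a ω.2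
    calc _ = ((if ω.1 then 1 else -1 : ℝ)) ^ 2 * pS C C.o a ω.2 ^ 2 * eS C s(a, b) ω.2 := by ring
      _ = _ := by rw [h1, h2]; ring
  rcases dist_adj C.hT C.o hab with h | h
  · rw [mul_comm, Sym2.eq_swap]
    apply key hab.symm
    rw [dist_sym b, dist_sym a]
    omega
  · apply key hab
    rw [dist_sym b, dist_sym a]
    omega

lemma spin_root (ω : Om V) : spin C ω C.o = if ω.1 then 1 else -1 := by
  unfold spin pS
  simp

/-- law of the edge sign: integrate out one edge -/
lemma integral_eS_lam (θ' : ℝ) (f : ℝ → ℝ) :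
    ∫ x, f (if x ≤ C.θ then 1 else -1) ∂lam = (1 + C.θ) / 2 * f 1 + (1 - C.θ) / 2 * f (-1) := by
  have hθ0 := C.hθ0
  have hθ1 := th_lt_one C
  have h1 : Set.Iic C.θ ∩ Set.Icc (-1 : ℝ) 1 = Set.Icc (-1) C.θ := by
    ext x
    simp only [Set.mem_inter_iff, Set.mem_Iic, Set.mem_Icc]
    constructor
    · rintro ⟨h2, h3, -⟩
      exact ⟨h3, h2⟩
    · rintro ⟨h2, h3⟩
      exact ⟨h3, h2, by linarith⟩
  have hreal : lam.real (Set.Iic C.θ) = (1 + C.θ) / 2 := by
    simp only [Measure.real, lam]
    rw [Measure.smul_apply, Measure.restrict_apply measurableSet_Iic, h1, Real.volume_Icc]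
    rw [smul_eq_mul, ENNReal.toReal_mul, ENNReal.toReal_ofReal (by linarith)]
    simp only [ENNReal.toReal_inv, ENNReal.toReal_ofNat]
    ring
  have hreal2 : lam.real (Set.Ioi C.θ) = (1 - C.θ) / 2 := by
    rw [← Set.compl_Iic, probReal_compl_eq_one_sub measurableSet_Iic, hreal]
    ring
  have h2 : (fun x => f (if x ≤ C.θ then 1 else -1)) =
      fun x => (Set.Iic C.θ).indicator (fun _ => f 1) x + (Set.Ioi C.θ).indicator (fun _ => f (-1)) x := by
    funext x
    by_cases hx : x ≤ C.θ
    · have hx' : ¬ (C.θ < x) := not_lt.mpr hx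
      simp [hx, hx']
    · have hx' : C.θ < x := not_le.mp hx
      simp [hx, hx']
  rw [h2, integral_add ((integrable_const _).indicator measurableSet_Iic)
    ((integrable_const _).indicator measurableSet_Ioi),
    integral_indicator_const _ measurableSet_Iic, integral_indicator_const _ measurableSet_Ioi,
    hreal, hreal2, smul_eq_mul, smul_eq_mul]

/-- the spin products do not use an edge outside a convex set containing the base point -/
lemma sp_pS_update {B : Finset V} (hB : Conv C.G B) {x p l : V} (hx : x ∈ B) (hl : l ∉ B) (t : ℝ)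
    (w : WW V) : ∀ (n : ℕ) (u : V), C.G.dist u x = n → u ∈ B →
      pS C x u (Function.update w (Ix.ed s(p, l)) t) = pS C x u w := by
  intro n
  induction n with
  | zero =>
    intro u hn _
    have hu : u = x := (dist_eq_zero' C.hT).1 hn
    subst hu
    simp [pS]
  | succ n ih =>
    intro u hn hu
    have hne : u ≠ x := by
      rintro rfl
      simp at hn
    obtain ⟨h1, h2⟩ := tw_spec C hne
    have hmem : tw C x u ∈ B := by
      refine hB u hu x hx _ ?_
      rw [dist_one_of_adj h1]
      omega
    rw [sp_pS_step C hne, sp_pS_step C hne, ih _ (by omega) hmem]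
    congr 1
    unfold eS
    have hne' : (Ix.ed s(u, tw C x u) : Ix V) ≠ Ix.ed s(p, l) := by
      intro h
      have h3 : s(u, tw C x u) = s(p, l) := Ix.ed.inj h
      have h4 : l ∈ s(u, tw C x u) := by
        rw [h3]
        simp
      rw [Sym2.mem_iff] at h4
      rcases h4 with h4 | h4
      · exact hl (h4 ▸ hu)
      · exact hl (h4 ▸ hmem)
    rw [Function.update_of_ne hne']

/-- a function of finitely many spins is measurable and bounded -/
lemma sp_F_spin_regular {D : Finset V} {F : (V → ℝ) → ℝ}
    (hF : ∀ σ σ' : V → ℝ, (∀ v ∈ D, σ v = σ' v) → F σ = F σ') :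
    Measurable (fun ω : Om V => F (fun v => spin C ω v)) ∧
      ∃ B : ℝ, ∀ ω : Om V, |F (fun v => spin C ω v)| ≤ B := by
  let H : (D → Bool) → ℝ := fun b => F fun v => if h : v ∈ D then (if b ⟨v, h⟩ then 1 else -1) else 0
  let g : Om V → (D → Bool) := fun ω v => decide (spin C ω v = 1)
  have hfac : ∀ ω, F (fun v => spin C ω v) = H (g ω) := by
    intro ω
    apply hF
    intro v hv
    simp only [g, dif_pos hv, decide_eq_true_eq]
    rcases spin_cases C ω v with h | h <;> simp [h]
  have hg : Measurable g := by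
    refine measurable_pi_lambda _ fun v => measurable_to_bool ?_
    have : (fun ω : Om V => decide (spin C ω v = 1)) ⁻¹' {true} =
        (fun ω : Om V => spin C ω v) ⁻¹' {1} := by
      ext ω
      simp
    rw [this]
    exact measurable_spin C v (measurableSet_singleton 1)
  constructor
  · have : (fun ω : Om V => F (fun v => spin C ω v)) = H ∘ g := by
      funext ω
      exact hfac ω
    rw [this]
    exact (Measurable.of_discrete).comp hg
  · refine ⟨∑ b, |H b|, fun ω => ?_⟩
    rw [hfac]
    exact Finset.single_le_sum (f := fun b => |H b|) (fun _ _ => abs_nonneg _) (Finset.mem_univ _)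

lemma sp_PP_integral {Φ : Om V → ℝ} (hΦ : Measurable Φ) {B : ℝ} (hB : ∀ ω, |Φ ω| ≤ B) :
    ∫ ω, Φ ω ∂(PP V) = ∫ b, ∫ w, Φ (b, w) ∂(PW V) ∂sM := by
  unfold PP
  rw [integral_prod]
  refine Integrable.of_bound hΦ.aestronglyMeasurable B (ae_of_all _ fun x => ?_)
  simpa [Real.norm_eq_abs] using hB x

/-- adding a leaf, in integrated form -/
lemma sp_spin_law_step {B : Finset V} (hB : Conv C.G B) (ho : C.o ∈ B) {p l : V} (hp : p ∈ B)
    (hl : l ∉ B) (hadj : C.G.Adj p l)
    (hP : ∀ F : (V → ℝ) → ℝ, (∀ σ σ' : V → ℝ, (∀ v ∈ B, σ v = σ' v) → F σ = F σ') →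
      ∫ ω, F (fun v => spin C ω v) ∂(PP V) = Ex C.G C.θ B F)
    (F : (V → ℝ) → ℝ) (hF : ∀ σ σ' : V → ℝ, (∀ v ∈ insert l B, σ v = σ' v) → F σ = F σ') :
    ∫ ω, F (fun v => spin C ω v) ∂(PP V) = Ex C.G C.θ (insert l B) F := by
  obtain ⟨hm1, B₁, hb1⟩ := sp_F_spin_regular C hF
  rw [Ex_insert C.hT C.θ hB hp hl hadj]
  -- the reduced function
  set G : (V → ℝ) → ℝ := fun σ => (1 + C.θ * σ p) / 2 * F (Function.update σ l 1)
      + (1 - C.θ * σ p) / 2 * F (Function.update σ l (-1)) with hG
  have hGdep : ∀ σ σ' : V → ℝ, (∀ v ∈ B, σ v = σ' v) → G σ = G σ' := by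
    intro σ σ' h
    have h1 : ∀ t : ℝ, F (Function.update σ l t) = F (Function.update σ' l t) := by
      intro t
      apply hF
      intro v hv
      by_cases hvl : v = l
      · subst hvl
        simp
      · rw [Function.update_of_ne hvl, Function.update_of_ne hvl]
        exact h v ((Finset.mem_insert.mp hv).resolve_left hvl)
    simp only [hG, h1, h p hp]
  rw [← hP G hGdep]
  obtain ⟨hm2, B₂, hb2⟩ := sp_F_spin_regular C hGdep
  rw [sp_PP_integral hm1 hb1, sp_PP_integral hm2 hb2]
  refine integral_congr_ae (ae_of_all _ fun b => ?_)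
  simp only
  have hmb : Measurable fun w : WW V => F (fun v => spin C (b, w) v) :=
    hm1.comp measurable_prodMk_left
  have hub : ∀ w : WW V, |F (fun v => spin C (b, w) v)| ≤ B₁ := fun w => hb1 (b, w)
  have hup := integral_update (I := Ix V) (Ix.ed s(p, l)) hmb hub
  have hPW : PW V = PI (Ix V) := rfl
  rw [hPW, hup]
  refine integral_congr_ae (ae_of_all _ fun w => ?_)
  simp only
  -- integrate the edge
  have hspin : ∀ (x : ℝ) (u : V), u ∈ B →
      spin C (b, Function.update w (Ix.ed s(p, l)) x) u = spin C (b, w) u := by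
    intro x u hu
    unfold spin
    simp only
    rw [sp_pS_update C hB ho hl x w _ u rfl hu]
  have hspinl : ∀ x : ℝ, spin C (b, Function.update w (Ix.ed s(p, l)) x) l =
      spin C (b, w) p * (if x ≤ C.θ then 1 else -1) := by
    intro x
    have h1 := spin_adj C (b, Function.update w (Ix.ed s(p, l)) x) hadj
    have h2 : eS C s(p, l) (Function.update w (Ix.ed s(p, l)) x) = if x ≤ C.θ then 1 else -1 := by
      unfold eS
      rw [Function.update_self]
    simp only at h1
    rw [h2, hspin x p hp] at h1
    rw [← h1, ← mul_assoc]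
    have h3 := sp_spin_sq C (b, w) p
    rw [← pow_two, h3, one_mul]
  have hint : ∀ x : ℝ, F (fun v => spin C (b, Function.update w (Ix.ed s(p, l)) x) v) =
      (fun t : ℝ => F (Function.update (fun v => spin C (b, w) v) l (spin C (b, w) p * t)))
        (if x ≤ C.θ then 1 else -1) := by
    intro x
    apply hF
    intro v hv
    by_cases hvl : v = l
    · subst hvl
      rw [Function.update_self]
      exact hspinl x
    · rw [Function.update_of_ne hvl]
      exact hspin x v ((Finset.mem_insert.mp hv).resolve_left hvl)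
  simp only [hint]
  rw [integral_eS_lam C 0 (fun t : ℝ => F (Function.update (fun v => spin C (b, w) v) l
    (spin C (b, w) p * t)))]
  simp only [hG]
  rcases spin_cases C (b, w) p with h | h <;> rw [h] <;> ring_nf

/-- the spins have the free Ising law on every finite convex set -/
theorem spin_law {D : Finset V} (hD : Conv C.G D) (hne : D.Nonempty) {F : (V → ℝ) → ℝ}
    (hF : ∀ σ σ' : V → ℝ, (∀ v ∈ D, σ v = σ' v) → F σ = F σ') :
    ∫ ω, F (fun v => spin C ω v) ∂(PP V) = Ex C.G C.θ D F := by
  -- the ball around the root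
  obtain ⟨n, hn⟩ : ∃ n, n = D.sup (fun x => C.G.dist x C.o) := ⟨_, rfl⟩
  have hsub : D ⊆ ballF C.nb C.o n := by
    intro x hx
    rw [mem_ballF C.hT C.hnb, hn]
    exact Finset.le_sup (f := fun x => C.G.dist x C.o) hx
  have hconv := conv_ballF C.hT C.hnb C.o n
  rw [← Ex_marginal C.hT C.θ hD hconv hne hsub hF]
  have hball : ∀ A : Finset V, Conv C.G A → C.o ∈ A →
      ∀ F : (V → ℝ) → ℝ, (∀ σ σ' : V → ℝ, (∀ v ∈ A, σ v = σ' v) → F σ = F σ') →
      ∫ ω, F (fun v => spin C ω v) ∂(PP V) = Ex C.G C.θ A F := by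
    intro A hA hoA
    refine grow_induction C.hT (conv_singleton C.hT C.o) ⟨C.o, by simp⟩
      (fun B => ∀ F : (V → ℝ) → ℝ, (∀ σ σ' : V → ℝ, (∀ v ∈ B, σ v = σ' v) → F σ = F σ') →
        ∫ ω, F (fun v => spin C ω v) ∂(PP V) = Ex C.G C.θ B F) ?_ ?_ hA (by simpa using hoA)
    · intro F hF
      rw [Ex_singleton]
      have h1 : ∀ ω : Om V, F (fun v => spin C ω v) =
          (fun b : Bool => F (Function.update (sgn ∅) C.o (if b then 1 else -1))) ω.1 := by
        intro ω
        apply hF
        intro v hv
        have hv' : v = C.o := by simpa using hv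
        subst hv'
        rw [Function.update_self, spin_root]
      simp only [h1]
      unfold PP
      have h2 : ∀ f : Bool → ℝ, ∫ ω : Om V, f ω.1 ∂(sM.prod (PW V)) = ∫ b, f b ∂sM := by
        intro f
        have hmf : Measurable f := Measurable.of_discrete
        rw [integral_prod (fun ω : Om V => f ω.1)]
        · simp
        · have hbd : ∀ b, |f b| ≤ |f true| + |f false| := by
            intro b
            cases b
            · have := abs_nonneg (f true)
              linarith
            · have := abs_nonneg (f false)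
              linarith
          refine Integrable.of_bound (hmf.comp measurable_fst).aestronglyMeasurable
            (|f true| + |f false|) (ae_of_all _ fun x => ?_)
          simpa [Real.norm_eq_abs] using hbd x.1
      rw [h2 (fun b : Bool => F (Function.update (sgn ∅) C.o (if b then 1 else -1))), integral_sM]
      have e1 : (if (true : Bool) = true then (1 : ℝ) else -1) = 1 := by simp
      have e2 : (if (false : Bool) = true then (1 : ℝ) else -1) = -1 := by simp
      rw [e1, e2]
      ring
    · intro B p l hB hsB hp hl hadj hPB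
      exact sp_spin_law_step C hB (hsB (by simp)) hp hl hadj hPB
  refine hball _ hconv (center_mem_ballF C.hT C.hnb C.o n) F ?_
  intro σ σ' h
  exact hF σ σ' fun v hv => h v (hsub hv)

end Vale.Agent.Lib.P161.Crit
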