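import Vale.Agent.Lib.P161.Crit.Gauge

/-!
Static estimates at criticality, part A: independent families in the symmetric class, scalar bounds.
-/

open MeasureTheory Filter Topology Finset

noncomputable section
namespace Vale.Agent.Lib.P161.Crit
namespace Static

open scoped Classical
open Vale.Agent.Lib.P161

variable {V : Type}

/-- a base term plus a finite family -/
def Tf {ι : Type} (Z₀ : WW V → ℝ) (Z : ι → WW V → ℝ) (s : Finset ι) (w : WW V) : ℝ :=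
  Z₀ w + ∑ i ∈ s, Z i w

/-- independent family in the symmetric class -/
structure NF {ι : Type} (Z₀ : WW V → ℝ) (Z : ι → WW V → ℝ) (S₀ : Set (Ix V))
    (S : ι → Set (Ix V)) (u : Set ι) : Prop where
  n₀ : Nish (PW V) Z₀
  n : ∀ i ∈ u, Nish (PW V) (Z i)
  d₀ : DependsOn Z₀ S₀
  d : ∀ i ∈ u, DependsOn (Z i) (S i)
  j₀ : ∀ i ∈ u, Disjoint S₀ (S i)
  j : ∀ i ∈ u, ∀ k ∈ u, i ≠ k → Disjoint (S i) (S k)

lemma Tf_empty {ι : Type} (Z₀ : WW V → ℝ) (Z : ι → WW V → ℝ) :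
    Tf Z₀ Z ∅ = Z₀ := by
  funext w; simp [Tf]

lemma Tf_insert {ι : Type} (Z₀ : WW V → ℝ) (Z : ι → WW V → ℝ) {s : Finset ι} {i : ι} (hi : i ∉ s) :
    Tf Z₀ Z (insert i s) = fun w => Tf Z₀ Z s w + Z i w := by
  funext w
  simp only [Tf, Finset.sum_insert hi]
  ring

section fam
variable {ι : Type} {Z₀ : WW V → ℝ} {Z : ι → WW V → ℝ} {S₀ : Set (Ix V)}
  {S : ι → Set (Ix V)} {u : Set ι}

lemma fam_dep (h : NF Z₀ Z S₀ S u) {s : Finset ι} (hs : ∀ i ∈ s, i ∈ u) :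
    DependsOn (Tf Z₀ Z s) (S₀ ∪ ⋃ i ∈ s, S i) := by
  intro x y hxy
  unfold Tf
  have h0 : Z₀ x = Z₀ y := h.d₀ fun i hi => hxy i (Or.inl hi)
  have h1 : ∀ i ∈ s, Z i x = Z i y := fun i his =>
    h.d i (hs i his) fun k hk => hxy k (Or.inr (Set.mem_biUnion his hk))
  rw [h0, Finset.sum_congr rfl h1]

lemma fam_disj (h : NF Z₀ Z S₀ S u) {s : Finset ι} (hs : ∀ i ∈ s, i ∈ u) {i : ι} (hi : i ∈ u)
    (his : i ∉ s) : Disjoint (S₀ ∪ ⋃ k ∈ s, S k) (S i) := by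
  rw [Set.disjoint_union_left]
  refine ⟨h.j₀ i hi, ?_⟩
  rw [Set.disjoint_iUnion₂_left]
  intro k hk
  exact h.j k (hs k hk) i hi (fun e => his (e ▸ hk))

lemma fam_nish_and (h : NF Z₀ Z S₀ S u) (s : Finset ι) :
    (∀ i ∈ s, i ∈ u) → Nish (PW V) (Tf Z₀ Z s) := by
  induction s using Finset.induction_on with
  | empty =>
    intro _
    rw [Tf_empty]
    exact h.n₀
  | insert i s his ih =>
    intro hs
    have hs' : ∀ k ∈ s, k ∈ u := fun k hk => hs k (Finset.mem_insert_of_mem hk)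
    have hiu : i ∈ u := hs i (Finset.mem_insert_self i s)
    rw [Tf_insert Z₀ Z his]
    exact nish_add (ih hs') (h.n i hiu)
      (indep_of_dependsOn (ih hs').1 (h.n i hiu).1 (fam_dep h hs') (h.d i hiu)
        (fam_disj h hs' hiu his))

lemma fam_indep (h : NF Z₀ Z S₀ S u) {s : Finset ι} (hs : ∀ i ∈ s, i ∈ u) {i : ι} (hi : i ∈ u)
    (his : i ∉ s) : ProbabilityTheory.IndepFun (Tf Z₀ Z s) (Z i) (PW V) :=
  indep_of_dependsOn (fam_nish_and h s hs).1 (h.n i hi).1 (fam_dep h hs) (h.d i hi)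
    (fam_disj h hs hi his)

lemma tanh_sq_le_one (x : ℝ) : Real.tanh x ^ 2 ≤ 1 := by
  have := Real.tanh_sq_lt_one x
  exact this.le

/-- second moment of a tanh -/
def sqM (Z : WW V → ℝ) : ℝ := ∫ w, Real.tanh (Z w) ^ 2 ∂(PW V)

/-- cosh transform of a tanh -/
def chM (a : ℝ) (Z : WW V → ℝ) : ℝ := ∫ w, Real.cosh (a * Real.tanh (Z w)) ∂(PW V)

lemma sqM_nonneg (Z : WW V → ℝ) : 0 ≤ sqM Z := integral_nonneg fun _ => sq_nonneg _

lemma sqM_le_one (Z : WW V → ℝ) : sqM Z ≤ 1 := by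
  unfold sqM
  by_cases h : Integrable (fun w => Real.tanh (Z w) ^ 2) (PW V)
  · calc ∫ w, Real.tanh (Z w) ^ 2 ∂(PW V) ≤ ∫ _w, (1 : ℝ) ∂(PW V) :=
        integral_mono h (integrable_const _) fun w => tanh_sq_le_one _
      _ = 1 := by simp
  · rw [integral_undef h]; norm_num

lemma chM_nonneg (a : ℝ) (Z : WW V → ℝ) : 0 ≤ chM a Z :=
  integral_nonneg fun _ => (Real.cosh_pos _).le

lemma fam_cosh (h : NF Z₀ Z S₀ S u) (a : ℝ) (s : Finset ι) :
    (∀ i ∈ s, i ∈ u) → chM a (Tf Z₀ Z s) ≤ chM a Z₀ * ∏ i ∈ s, chM a (Z i) := by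
  induction s using Finset.induction_on with
  | empty =>
    intro _
    rw [Tf_empty]; simp
  | insert i s his ih =>
    intro hs
    have hs' : ∀ k ∈ s, k ∈ u := fun k hk => hs k (Finset.mem_insert_of_mem hk)
    have hiu : i ∈ u := hs i (Finset.mem_insert_self i s)
    rw [Tf_insert Z₀ Z his, Finset.prod_insert his]
    have h1 := nish_dom_cosh (fam_nish_and h s hs') (h.n i hiu) (fam_indep h hs' hiu his) a
    have h2 := ih hs'
    have h3 := chM_nonneg a (Z i)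
    calc chM a (fun w => Tf Z₀ Z s w + Z i w)
        ≤ chM a (Tf Z₀ Z s) * chM a (Z i) := h1
      _ ≤ (chM a Z₀ * ∏ k ∈ s, chM a (Z k)) * chM a (Z i) :=
          mul_le_mul_of_nonneg_right h2 h3
      _ = chM a Z₀ * (chM a (Z i) * ∏ k ∈ s, chM a (Z k)) := by ring

lemma fam_upper (h : NF Z₀ Z S₀ S u) (s : Finset ι) :
    (∀ i ∈ s, i ∈ u) → (1 - sqM Z₀) * ∏ i ∈ s, (1 - sqM (Z i)) ≤ 1 - sqM (Tf Z₀ Z s) := by
  induction s using Finset.induction_on with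
  | empty =>
    intro _
    rw [Tf_empty]; simp
  | insert i s his ih =>
    intro hs
    have hs' : ∀ k ∈ s, k ∈ u := fun k hk => hs k (Finset.mem_insert_of_mem hk)
    have hiu : i ∈ u := hs i (Finset.mem_insert_self i s)
    rw [Tf_insert Z₀ Z his, Finset.prod_insert his]
    have h1 := nish_sec_upper (fam_nish_and h s hs') (h.n i hiu) (fam_indep h hs' hiu his)
    have h2 := ih hs'
    have h3 : 0 ≤ 1 - sqM (Z i) := by linarith [sqM_le_one (Z i)]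
    calc (1 - sqM Z₀) * ((1 - sqM (Z i)) * ∏ k ∈ s, (1 - sqM (Z k)))
        = ((1 - sqM Z₀) * ∏ k ∈ s, (1 - sqM (Z k))) * (1 - sqM (Z i)) := by ring
      _ ≤ (1 - sqM (Tf Z₀ Z s)) * (1 - sqM (Z i)) := mul_le_mul_of_nonneg_right h2 h3
      _ ≤ 1 - sqM (fun w => Tf Z₀ Z s w + Z i w) := h1

lemma fam_mono (h : NF Z₀ Z S₀ S u) (s : Finset ι) :
    (∀ i ∈ s, i ∈ u) → sqM Z₀ ≤ sqM (Tf Z₀ Z s) := by
  induction s using Finset.induction_on with
  | empty =>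
    intro _
    rw [Tf_empty]
  | insert i s his ih =>
    intro hs
    have hs' : ∀ k ∈ s, k ∈ u := fun k hk => hs k (Finset.mem_insert_of_mem hk)
    have hiu : i ∈ u := hs i (Finset.mem_insert_self i s)
    rw [Tf_insert Z₀ Z his]
    exact (ih hs').trans
      (nish_sec_mono (fam_nish_and h s hs') (h.n i hiu) (fam_indep h hs' hiu his))

lemma fam_lower (h : NF Z₀ Z S₀ S u) {b : ℝ} (hb0 : 0 ≤ b) (hb3 : 3 * b ≤ 1)
    (hb : ∀ i ∈ u, sqM (Z i) = b) (hV : ∀ i ∈ u, ∀ w, Real.tanh (Z i w) ^ 2 ≤ 1 / 2)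
    (s : Finset ι) :
    (∀ i ∈ s, i ∈ u) →
      sqM Z₀ * (1 - 3 * (s.card : ℝ) * b) + (s.card : ℝ) * b
        - 3 / 2 * ((s.card : ℝ) * ((s.card : ℝ) - 1)) * b ^ 2 ≤ sqM (Tf Z₀ Z s) := by
  induction s using Finset.induction_on with
  | empty =>
    intro _
    rw [Tf_empty]; simp
  | insert i s his ih =>
    intro hs
    have hs' : ∀ k ∈ s, k ∈ u := fun k hk => hs k (Finset.mem_insert_of_mem hk)
    have hiu : i ∈ u := hs i (Finset.mem_insert_self i s)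
    rw [Tf_insert Z₀ Z his, Finset.card_insert_of_notMem his]
    have h1 := nish_sec_lower (fam_nish_and h s hs') (h.n i hiu) (fam_indep h hs' hiu his)
      (hV i hiu)
    have h1' : sqM (Tf Z₀ Z s) + b - 3 * sqM (Tf Z₀ Z s) * b ≤
        sqM (fun w => Tf Z₀ Z s w + Z i w) := by
      have := hb i hiu
      unfold sqM at this ⊢
      rw [← this]
      exact h1
    have h2 := ih hs'
    have ht : 0 ≤ sqM Z₀ := sqM_nonneg _
    set t := sqM Z₀
    set k : ℝ := (s.card : ℝ) with hk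
    have hk0 : 0 ≤ k := Nat.cast_nonneg _
    have hcast : ((s.card + 1 : ℕ) : ℝ) = k + 1 := by push_cast; rfl
    rw [hcast]
    have h3 : (1 - 3 * b) * (t * (1 - 3 * k * b) + k * b - 3 / 2 * (k * (k - 1)) * b ^ 2)
        ≤ (1 - 3 * b) * sqM (Tf Z₀ Z s) :=
      mul_le_mul_of_nonneg_left h2 (by linarith)
    have hkk : 0 ≤ k * (k - 1) := by
      rcases Nat.eq_zero_or_pos s.card with h0 | h0
      · have : k = 0 := by rw [hk, h0]; simp
        rw [this]; simp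
      · have : (1 : ℝ) ≤ k := by rw [hk]; exact_mod_cast h0
        exact mul_nonneg hk0 (by linarith)
    have h4 : 0 ≤ 9 * t * k * b ^ 2 := by positivity
    have h5 : 0 ≤ 9 / 2 * (k * (k - 1)) * b ^ 3 := by positivity
    nlinarith

end fam

/-- the scalar bound behind the upper estimate -/
lemma one_sub_pow_ge {r : ℕ} (hr : 2 ≤ r) {y : ℝ} (hy0 : 0 ≤ y) (hy : (r : ℝ) * y ≤ 1) :
    (1 - (r : ℝ) * y / 2) ^ 2 ≤ (1 - y) ^ r := by
  have hr' : (2 : ℝ) ≤ r := by exact_mod_cast hr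
  have hy1 : y ≤ 1 / 2 := by nlinarith
  have h1 : 1 + ((r : ℝ) / 2) * (-y) ≤ (1 + (-y)) ^ ((r : ℝ) / 2) :=
    one_add_mul_self_le_rpow_one_add (by linarith) (by linarith)
  have h0 : 0 ≤ 1 + (-y) := by linarith
  have h2 : ((1 + (-y)) ^ ((r : ℝ) / 2)) ^ 2 = (1 - y) ^ r := by
    rw [← Real.rpow_natCast ((1 + (-y)) ^ ((r : ℝ) / 2)) 2, ← Real.rpow_mul h0]
    have : (r : ℝ) / 2 * ((2 : ℕ) : ℝ) = (r : ℝ) := by push_cast; ring
    rw [this, Real.rpow_natCast, sub_eq_add_neg]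
  rw [← h2]
  have h3 : 0 ≤ 1 - (r : ℝ) * y / 2 := by linarith
  have h4 : 1 - (r : ℝ) * y / 2 ≤ (1 + (-y)) ^ ((r : ℝ) / 2) := by
    have e : 1 + ((r : ℝ) / 2) * (-y) = 1 - (r : ℝ) * y / 2 := by ring
    rw [e] at h1
    exact h1
  exact pow_le_pow_left₀ h3 h4 2

end Static
end Vale.Agent.Lib.P161.Crit
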