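import Vale.Agent.Lib.P161.Crit.StaticA

/-!
Static estimates at criticality, part B: the own-site field.
-/

open MeasureTheory Filter Topology Finset

noncomputable section
namespace Vale.Agent.Lib.P161.Crit
namespace Static

open scoped Classical
open Vale.Agent.Lib.P161

variable {V : Type}

/-- one step of the own field -/
def gxT (p : V → ℝ) (v : V) (ℓ : ℤ) (w : WW V) : ℝ :=
  if (ℓ, v) ∈ Sp (lab w) p then zeta (eps ℓ) (nz ℓ (w (.no (ℓ, v)))) else 0

lemma integral_coord (i : Ix V) {F : ℝ → ℝ} (hF : Measurable F) :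
    ∫ w : WW V, F (w i) ∂(PW V) = ∫ x, F x ∂lam := by
  have h : MeasurePreserving (fun w : WW V => w i) (PW V) lam :=
    measurePreserving_eval_infinitePi (fun _ : Ix V => lam) i
  calc ∫ w : WW V, F (w i) ∂(PW V) = ∫ x, F x ∂(Measure.map (fun w : WW V => w i) (PW V)) :=
        (integral_map h.measurable.aemeasurable hF.aestronglyMeasurable).symm
    _ = ∫ x, F x ∂lam := by rw [h.map_eq]

lemma integral_odd_cl {F : ℝ → ℝ} (hF : ∀ y, F (-y) = -F y) : ∫ t, F (cl t) ∂lam = 0 := by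
  rw [integral_lam]
  have h1 : ∫ t in Set.Icc (-1 : ℝ) 1, F (cl t) = ∫ t in Set.Icc (-1 : ℝ) 1, F t :=
    setIntegral_congr_fun measurableSet_Icc fun t ht => by simp only [cl_of_mem ht]
  rw [h1, integral_Icc_eq_integral_Ioc, ← intervalIntegral.integral_of_le (by norm_num)]
  have h2 : ∫ t in (-1 : ℝ)..1, F (-t) = ∫ t in (-1 : ℝ)..1, F t := by
    have := intervalIntegral.integral_comp_neg (a := (-1 : ℝ)) (b := 1) F
    simp only [neg_neg] at this
    exact this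
  have h3 : ∫ t in (-1 : ℝ)..1, F (-t) = - ∫ t in (-1 : ℝ)..1, F t := by
    simp only [hF]
    exact intervalIntegral.integral_neg
  have : ∫ t in (-1 : ℝ)..1, F t = 0 := by linarith
  rw [this]; simp

lemma tanh_zeta {ε t : ℝ} (h : |ε * t| < 1) : Real.tanh (zeta ε t) = ε * t := by
  have hm := abs_lt.1 h
  have e : zeta ε t = Real.artanh (ε * t) := by
    unfold zeta
    rw [Real.artanh_eq_half_log ⟨hm.1.le, hm.2.le⟩]
  rw [e, Real.tanh_artanh ⟨hm.1, hm.2⟩]

lemma zeta_neg (ε t : ℝ) : zeta ε (-t) = - zeta ε t := by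
  unfold zeta
  have : (1 + ε * -t) / (1 - ε * -t) = ((1 + ε * t) / (1 - ε * t))⁻¹ := by
    rw [inv_div]; ring_nf
  rw [this, Real.log_inv]; ring

lemma abs_eps_mul_lt (ℓ : ℤ) {t : ℝ} (ht : |t| ≤ 1) : |eps ℓ * t| < 1 := by
  rw [abs_mul, abs_of_pos (eps_pos ℓ)]
  have h1 := eps_le ℓ
  have h2 := eps_pos ℓ
  nlinarith [abs_nonneg t]

lemma zeta_le_one (ℓ : ℤ) {t : ℝ} (ht : |t| ≤ 1) : zeta (eps ℓ) t ≤ zeta (eps ℓ) 1 := by
  have h1 := eps_le ℓ
  have h2 := eps_pos ℓ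
  obtain ⟨ht1, ht2⟩ := abs_le.1 ht
  have hm := abs_lt.1 (abs_eps_mul_lt ℓ ht)
  unfold zeta
  apply mul_le_mul_of_nonneg_left _ (by norm_num)
  have hp : 0 < (1 + eps ℓ * t) / (1 - eps ℓ * t) := div_pos (by linarith) (by linarith)
  apply Real.log_le_log hp
  rw [mul_one, div_le_div_iff₀ (by linarith) (by linarith)]
  nlinarith

lemma abs_zeta_le (ℓ : ℤ) {t : ℝ} (ht : |t| ≤ 1) : |zeta (eps ℓ) t| ≤ zeta (eps ℓ) 1 := by
  rw [abs_le]
  refine ⟨?_, zeta_le_one ℓ ht⟩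
  have := zeta_le_one ℓ (t := -t) (by rw [abs_neg]; exact ht)
  rw [zeta_neg] at this
  linarith

lemma zeta_one_nonneg (ℓ : ℤ) : 0 ≤ zeta (eps ℓ) 1 :=
  (abs_nonneg _).trans (abs_zeta_le ℓ (t := 1) (by simp))

lemma measurable_tanh' : Measurable Real.tanh := by
  have : Real.tanh = fun x => Real.sinh x / Real.cosh x := funext Real.tanh_eq_sinh_div_cosh
  rw [this]
  exact Real.measurable_sinh.div Real.measurable_cosh

/-- integrable from bounded and measurable -/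
lemma int_bdd {α : Type} [MeasurableSpace α] {μ : Measure α} [IsFiniteMeasure μ] {f : α → ℝ}
    (hf : Measurable f) {B : ℝ} (h : ∀ x, |f x| ≤ B) : Integrable f μ :=
  Integrable.of_bound hf.aestronglyMeasurable B (ae_of_all _ fun x => by
    rw [Real.norm_eq_abs]; exact h x)

/-- the noise term is in the symmetric class -/
theorem nish_noise (ℓ : ℤ) (i : Ix V) :
    Nish (PW V) (fun w : WW V => zeta (eps ℓ) (nz ℓ (w i))) := by
  refine ⟨(measurable_zeta _).comp ((measurable_nz ℓ).comp (measurable_pi_apply i)),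
    ⟨zeta (eps ℓ) 1, fun w => abs_zeta_le ℓ (abs_nz_le ℓ _)⟩, ?_⟩
  rintro h hm ⟨B, hB⟩ hodd
  have hε0 := eps_pos ℓ
  have hε2 := eps_le ℓ
  have hε1 : |eps ℓ| ≤ 1 / 2 := by rw [abs_of_pos hε0]; exact hε2
  have hmz : Measurable fun x => h (zeta (eps ℓ) (nz ℓ x)) :=
    hm.comp ((measurable_zeta _).comp (measurable_nz ℓ))
  have hB0 : 0 ≤ B := (abs_nonneg _).trans (hB 0)
  have L : ∫ w : WW V, h (zeta (eps ℓ) (nz ℓ (w i))) ∂(PW V)
      = ∫ t, h (zeta (eps ℓ) (cl t)) * (1 + eps ℓ * cl t) ∂lam := by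
    rw [integral_coord i hmz]
    exact integral_Sf (by norm_num : (1 / 2 : ℝ) < 1) hε1 (fun y => h (zeta (eps ℓ) y))
  have R : ∫ w : WW V, h (zeta (eps ℓ) (nz ℓ (w i))) * Real.tanh (zeta (eps ℓ) (nz ℓ (w i))) ∂(PW V)
      = ∫ t, h (zeta (eps ℓ) (cl t)) * (eps ℓ * cl t) * (1 + eps ℓ * cl t) ∂lam := by
    rw [integral_coord i (F := fun x => h (zeta (eps ℓ) (nz ℓ x)) * Real.tanh (zeta (eps ℓ) (nz ℓ x)))
      (hmz.mul (measurable_tanh'.comp ((measurable_zeta _).comp (measurable_nz ℓ))))]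
    have := integral_Sf (by norm_num : (1 / 2 : ℝ) < 1) hε1
      (fun y => h (zeta (eps ℓ) y) * Real.tanh (zeta (eps ℓ) y))
    refine this.trans ?_
    refine integral_congr_ae (ae_of_all _ fun t => ?_)
    simp only
    rw [tanh_zeta (abs_eps_mul_lt ℓ (abs_cl_le t))]
  have key : ∫ t, (fun y => h (zeta (eps ℓ) y) * (1 - eps ℓ ^ 2 * y ^ 2)) (cl t) ∂lam = 0 := by
    refine integral_odd_cl (F := fun y => h (zeta (eps ℓ) y) * (1 - eps ℓ ^ 2 * y ^ 2)) fun y => ?_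
    rw [zeta_neg, hodd]
    ring
  have hmc : Measurable fun t => h (zeta (eps ℓ) (cl t)) :=
    hm.comp ((measurable_zeta _).comp measurable_cl)
  have hcl : ∀ t, |eps ℓ * cl t| ≤ 1 := fun t => (abs_eps_mul_lt ℓ (abs_cl_le t)).le
  have hi1 : Integrable (fun t => h (zeta (eps ℓ) (cl t)) * (1 + eps ℓ * cl t)) lam := by
    refine int_bdd (B := B * 2) (hmc.mul (measurable_const.add (measurable_const.mul measurable_cl)))
      fun t => ?_
    rw [abs_mul]
    refine mul_le_mul (hB _) ?_ (abs_nonneg _) hB0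
    have := hcl t
    exact (abs_add_le _ _).trans (by rw [abs_one]; linarith)
  have hi2 : Integrable (fun t => h (zeta (eps ℓ) (cl t)) * (eps ℓ * cl t) * (1 + eps ℓ * cl t)) lam := by
    refine int_bdd (B := B * 1 * 2) ((hmc.mul (measurable_const.mul measurable_cl)).mul
      (measurable_const.add (measurable_const.mul measurable_cl))) fun t => ?_
    rw [abs_mul, abs_mul]
    refine mul_le_mul (mul_le_mul (hB _) (hcl t) (abs_nonneg _) hB0) ?_ (abs_nonneg _) (by positivity)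
    have := hcl t
    exact (abs_add_le _ _).trans (by rw [abs_one]; linarith)
  rw [L, R]
  have e : (∫ t, h (zeta (eps ℓ) (cl t)) * (1 + eps ℓ * cl t) ∂lam)
      - ∫ t, h (zeta (eps ℓ) (cl t)) * (eps ℓ * cl t) * (1 + eps ℓ * cl t) ∂lam = 0 := by
    rw [← integral_sub hi1 hi2, ← key]
    refine integral_congr_ae (ae_of_all _ fun t => ?_)
    simp only
    ring
  linarith

/-- the event that the step fires -/
def swE (p : V → ℝ) (v : V) (ℓ : ℤ) : Set (WW V) := {w | (ℓ, v) ∈ Sp (lab w) p}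

lemma measurableSet_swE (p : V → ℝ) (v : V) (ℓ : ℤ) : MeasurableSet (swE p v ℓ) := by
  have m : Measurable (fun w : WW V => w (.la (ℓ, v))) := measurable_pi_apply _
  have h : swE p v ℓ = {w | w (.la (ℓ, v)) < 0} ∩
      {w : WW V | (ℓ : ℝ) + (cl (w (.la (ℓ, v))) + 1) / 2 < p v} := rfl
  rw [h]
  refine MeasurableSet.inter (measurableSet_lt m measurable_const) (measurableSet_lt ?_ measurable_const)
  exact measurable_const.add (((measurable_cl.comp m).add measurable_const).div measurable_const)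

lemma gxT_eq (p : V → ℝ) (v : V) (ℓ : ℤ) : gxT p v ℓ = fun w =>
    (swE p v ℓ).indicator (fun _ => (1 : ℝ)) w * zeta (eps ℓ) (nz ℓ (w (.no (ℓ, v)))) := by
  funext w
  unfold gxT
  by_cases h : (ℓ, v) ∈ Sp (lab w) p
  · have h' : w ∈ swE p v ℓ := h
    rw [if_pos h, Set.indicator_of_mem h', one_mul]
  · have h' : w ∉ swE p v ℓ := h
    rw [if_neg h, Set.indicator_of_notMem h', zero_mul]

lemma ind_dep (p : V → ℝ) (v : V) (ℓ : ℤ) :
    DependsOn ((swE p v ℓ).indicator (fun _ => (1 : ℝ))) {Ix.la (ℓ, v)} := by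
  intro x y hxy
  have e : x (.la (ℓ, v)) = y (.la (ℓ, v)) := hxy _ rfl
  have : x ∈ swE p v ℓ ↔ y ∈ swE p v ℓ := by
    change (x (.la (ℓ, v)) < 0 ∧ (ℓ : ℝ) + (cl (x (.la (ℓ, v))) + 1) / 2 < p v) ↔
      (y (.la (ℓ, v)) < 0 ∧ (ℓ : ℝ) + (cl (y (.la (ℓ, v))) + 1) / 2 < p v)
    rw [e]
  by_cases h : x ∈ swE p v ℓ
  · rw [Set.indicator_of_mem h, Set.indicator_of_mem (this.1 h)]
  · rw [Set.indicator_of_notMem h, Set.indicator_of_notMem (fun h' => h (this.2 h'))]

lemma noise_dep (ℓ : ℤ) (i : Ix V) :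
    DependsOn (fun w : WW V => zeta (eps ℓ) (nz ℓ (w i))) {i} := by
  intro x y hxy
  simp only
  rw [hxy i rfl]

lemma measurable_ind (p : V → ℝ) (v : V) (ℓ : ℤ) :
    Measurable ((swE p v ℓ).indicator (fun _ => (1 : ℝ))) :=
  measurable_const.indicator (measurableSet_swE p v ℓ)

lemma nish_gxT (p : V → ℝ) (v : V) (ℓ : ℤ) : Nish (PW V) (gxT p v ℓ) := by
  rw [gxT_eq]
  refine nish_switch (measurableSet_swE p v ℓ) (nish_noise ℓ _) ?_
  refine indep_of_dependsOn (measurable_ind p v ℓ) (nish_noise (V := V) ℓ _).1 (ind_dep p v ℓ)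
    (noise_dep ℓ _) ?_
  rw [Set.disjoint_left]
  rintro i hi hi'
  rw [Set.mem_singleton_iff] at hi hi'
  rw [hi] at hi'
  cases hi'

/-- the coordinates of a step -/
def stepS (v : V) (ℓ : ℤ) : Set (Ix V) := {.no (ℓ, v), .la (ℓ, v)}

lemma gxT_dep (p : V → ℝ) (v : V) (ℓ : ℤ) : DependsOn (gxT p v ℓ) (stepS v ℓ) := by
  intro x y hxy
  rw [gxT_eq]
  have h1 : (swE p v ℓ).indicator (fun _ => (1 : ℝ)) x = (swE p v ℓ).indicator (fun _ => (1 : ℝ)) y :=
    ind_dep p v ℓ (fun i hi => hxy i (by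
      rw [Set.mem_singleton_iff] at hi
      rw [hi]; exact Or.inr rfl))
  have h2 : zeta (eps ℓ) (nz ℓ (x (.no (ℓ, v)))) = zeta (eps ℓ) (nz ℓ (y (.no (ℓ, v)))) :=
    noise_dep ℓ (.no (ℓ, v)) (fun i hi => hxy i (by
      rw [Set.mem_singleton_iff] at hi
      rw [hi]; exact Or.inl rfl))
  simp only
  rw [h1, h2]

lemma stepS_disj (v : V) {ℓ ℓ' : ℤ} (h : ℓ ≠ ℓ') : Disjoint (stepS v ℓ) (stepS v ℓ') := by
  rw [Set.disjoint_left]
  rintro i (rfl | rfl) (hi' | hi')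
  · exact h (by simpa using hi')
  · simp at hi'
  · simp at hi'
  · exact h (by simpa using hi')

lemma abs_gxT_le (p : V → ℝ) {T : ℝ} (hp : ∀ v, p v ≤ T) (v : V) (ℓ : ℤ) (w : WW V) :
    |gxT p v ℓ w| ≤ if ℓ ≤ LT T then zeta (eps ℓ) 1 else 0 := by
  unfold gxT
  by_cases h : (ℓ, v) ∈ Sp (lab w) p
  · have hl : ℓ ≤ LT T := Sp_le hp _ h
    rw [if_pos h, if_pos hl]
    exact abs_zeta_le ℓ (abs_nz_le ℓ _)
  · rw [if_neg h, abs_zero]
    split_ifs
    · exact zeta_one_nonneg ℓ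
    · exact le_rfl

lemma summable_gxT (p : V → ℝ) {T : ℝ} (hp : ∀ v, p v ≤ T) (v : V) (w : WW V) :
    Summable fun ℓ : ℤ => gxT p v ℓ w :=
  Summable.of_norm_bounded (summable_Bf (LT T)) fun ℓ => by
    rw [Real.norm_eq_abs]; exact abs_gxT_le p hp v ℓ w

/-- the terms of the field, counted downward from the top stage -/
def gxZ (p : V → ℝ) (v : V) (L : ℤ) (i : ℕ) : WW V → ℝ := gxT p v (L - (i : ℤ))

lemma sub_inj (L : ℤ) : Function.Injective fun i : ℕ => L - (i : ℤ) := by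
  intro i k h
  simp only at h
  have : (i : ℤ) = k := by linarith
  exact_mod_cast this

lemma gxZ_tendsto (p : V → ℝ) {T : ℝ} (hp : ∀ v, p v ≤ T) (v : V) (w : WW V) :
    Tendsto (fun N => Tf (fun _ => 0) (gxZ p v (LT T)) (range N) w) atTop (𝓝 (gx p w v)) := by
  have hs := (summable_gxT p hp v w).hasSum
  have h0 : ∀ x ∉ Set.range (fun i : ℕ => LT T - (i : ℤ)), gxT p v x w = 0 := by
    intro x hx
    unfold gxT
    rw [if_neg]
    intro hmem
    apply hx
    have hl : x ≤ LT T := Sp_le hp _ hmem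
    refine ⟨(LT T - x).toNat, ?_⟩
    simp only
    rw [Int.toNat_of_nonneg (by linarith)]
    ring
  have h1 := ((sub_inj (LT T)).hasSum_iff h0).2 hs
  have h2 := h1.tendsto_sum_nat
  have e : ∀ N, Tf (fun _ => 0) (gxZ p v (LT T)) (range N) w =
      ∑ i ∈ range N, ((fun ℓ : ℤ => gxT p v ℓ w) ∘ fun i : ℕ => LT T - (i : ℤ)) i := by
    intro N
    simp [Tf, gxZ]
  simp only [e]
  exact h2

/-- the family of the own field, without base -/
lemma NF_gxZ (p : V → ℝ) (v : V) (L : ℤ) :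
    NF (fun _ => 0) (gxZ p v L) ∅ (fun i => stepS v (L - (i : ℤ))) Set.univ where
  n₀ := nish_zero
  n := fun _ _ => nish_gxT p v _
  d₀ := fun _ _ _ => rfl
  d := fun _ _ => gxT_dep p v _
  j₀ := fun _ _ => Set.empty_disjoint _
  j := fun _ _ _ _ hik => stepS_disj v (fun h => hik (sub_inj L h))

/-- the family of the own field, with one term as a base -/
lemma NF_gxZ' (p : V → ℝ) (v : V) (L : ℤ) (i₀ : ℕ) :
    NF (gxZ p v L i₀) (gxZ p v L) (stepS v (L - (i₀ : ℤ))) (fun i => stepS v (L - (i : ℤ)))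
      {i | i ≠ i₀} where
  n₀ := nish_gxT p v _
  n := fun _ _ => nish_gxT p v _
  d₀ := gxT_dep p v _
  d := fun _ _ => gxT_dep p v _
  j₀ := fun _ hi => stepS_disj v (fun h => hi (sub_inj L h).symm)
  j := fun _ _ _ _ hik => stepS_disj v (fun h => hik (sub_inj L h))

end Static
end Vale.Agent.Lib.P161.Crit
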