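import Vale.Agent.Lib.P161.Crit.StaticB

/-!
Static estimates at criticality, part C: bounds for the own-site field.
-/

open MeasureTheory Filter Topology Finset

noncomputable section
namespace Vale.Agent.Lib.P161.Crit
namespace Static

open scoped Classical
open Vale.Agent.Lib.P161

variable {V : Type}

lemma continuous_tanh' : Continuous Real.tanh := by
  have : Real.tanh = fun x => Real.sinh x / Real.cosh x := funext Real.tanh_eq_sinh_div_cosh
  rw [this]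
  exact Real.continuous_sinh.div Real.continuous_cosh fun x => (Real.cosh_pos x).ne'

lemma sinh_sq_ge (z : ℝ) : z ^ 2 ≤ Real.sinh z ^ 2 := by
  rcases le_total 0 z with h | h
  · exact pow_le_pow_left₀ h (Real.self_le_sinh_iff.2 h) 2
  · have h1 : -z ≤ Real.sinh (-z) := Real.self_le_sinh_iff.2 (by linarith)
    rw [Real.sinh_neg] at h1
    have := pow_le_pow_left₀ (by linarith : 0 ≤ -z) h1 2
    simpa using this

lemma cosh_ge (y : ℝ) : 1 + y ^ 2 / 2 ≤ Real.cosh y := by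
  have h1 : Real.cosh y = Real.cosh (2 * (y / 2)) := by ring_nf
  rw [h1, Real.cosh_two_mul, Real.cosh_sq]
  have := sinh_sq_ge (y / 2)
  nlinarith

lemma exp_le_one_add_two {x : ℝ} (h0 : 0 ≤ x) (h1 : x ≤ 1) : Real.exp x ≤ 1 + 2 * x := by
  have h := Real.abs_exp_sub_one_sub_id_le (x := x) (by rw [abs_of_nonneg h0]; exact h1)
  have h2 := (abs_le.1 h).2
  nlinarith

lemma cosh_le_of_abs_le_one {y : ℝ} (hy : |y| ≤ 1) : Real.cosh y ≤ 1 + y ^ 2 := by
  have h := Real.cosh_le_exp_half_sq y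
  have hy2 : y ^ 2 ≤ 1 := (sq_le_one_iff_abs_le_one y).2 hy
  have := exp_le_one_add_two (x := y ^ 2 / 2) (by positivity) (by linarith)
  linarith

lemma cosh_tanh_le (β z : ℝ) : Real.cosh (β * Real.tanh z) ≤ Real.cosh β := by
  rw [Real.cosh_le_cosh, abs_mul]
  have := (Real.abs_tanh_lt_one z).le
  nlinarith [abs_nonneg β]

lemma measurable_sqI {Z : WW V → ℝ} (hZ : Measurable Z) :
    Measurable fun w => Real.tanh (Z w) ^ 2 :=
  (measurable_tanh'.comp hZ).pow_const 2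

lemma measurable_chI {Z : WW V → ℝ} (hZ : Measurable Z) (β : ℝ) :
    Measurable fun w => Real.cosh (β * Real.tanh (Z w)) :=
  Real.measurable_cosh.comp (measurable_const.mul (measurable_tanh'.comp hZ))

lemma abs_chI_le (β z : ℝ) : |Real.cosh (β * Real.tanh z)| ≤ Real.cosh β := by
  rw [abs_of_pos (Real.cosh_pos _)]
  exact cosh_tanh_le β z

lemma abs_sqI_le (z : ℝ) : |Real.tanh z ^ 2| ≤ 1 := by
  rw [abs_of_nonneg (sq_nonneg _)]
  exact tanh_sq_le_one z

lemma sqM_tendsto {Zn : ℕ → WW V → ℝ} {Z : WW V → ℝ} (hm : ∀ n, Measurable (Zn n))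
    (hl : ∀ᵐ w ∂(PW V), Tendsto (fun n => Zn n w) atTop (𝓝 (Z w))) :
    Tendsto (fun n => sqM (Zn n)) atTop (𝓝 (sqM Z)) := by
  refine tendsto_integral_of_dominated_convergence (fun _ => (1 : ℝ))
    (fun n => (measurable_sqI (hm n)).aestronglyMeasurable) (integrable_const _)
    (fun n => ae_of_all _ fun w => ?_) ?_
  · rw [Real.norm_eq_abs]; exact abs_sqI_le _
  · filter_upwards [hl] with w hw
    exact ((continuous_tanh'.tendsto _).comp hw).pow 2

lemma chM_tendsto {Zn : ℕ → WW V → ℝ} {Z : WW V → ℝ} (hm : ∀ n, Measurable (Zn n)) (β : ℝ)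
    (hl : ∀ᵐ w ∂(PW V), Tendsto (fun n => Zn n w) atTop (𝓝 (Z w))) :
    Tendsto (fun n => chM β (Zn n)) atTop (𝓝 (chM β Z)) := by
  refine tendsto_integral_of_dominated_convergence (fun _ => Real.cosh β)
    (fun n => (measurable_chI (hm n) β).aestronglyMeasurable) (integrable_const _)
    (fun n => ae_of_all _ fun w => ?_) ?_
  · rw [Real.norm_eq_abs]; exact abs_chI_le _ _
  · filter_upwards [hl] with w hw
    exact (Real.continuous_cosh.tendsto _).comp
      (tendsto_const_nhds.mul ((continuous_tanh'.tendsto _).comp hw))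

lemma cosh_step (p : V → ℝ) (v : V) (β : ℝ) (ℓ : ℤ) (w : WW V) :
    Real.cosh (β * Real.tanh (gxT p v ℓ w)) ≤ Real.exp (β ^ 2 * (eps ℓ ^ 2 / 2)) := by
  unfold gxT
  by_cases h : (ℓ, v) ∈ Sp (lab w) p
  · rw [if_pos h, tanh_zeta (abs_eps_mul_lt ℓ (abs_nz_le ℓ _))]
    refine (Real.cosh_le_exp_half_sq _).trans (Real.exp_le_exp.2 ?_)
    have hn : nz ℓ (w (.no (ℓ, v))) ^ 2 ≤ 1 := (sq_le_one_iff_abs_le_one _).2 (abs_nz_le ℓ _)
    have h0 : 0 ≤ β ^ 2 * eps ℓ ^ 2 := by positivity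
    have e : (β * (eps ℓ * nz ℓ (w (.no (ℓ, v))))) ^ 2 / 2
        = (β ^ 2 * eps ℓ ^ 2) * nz ℓ (w (.no (ℓ, v))) ^ 2 / 2 := by ring
    rw [e]
    nlinarith
  · rw [if_neg h, Real.tanh_zero, mul_zero, Real.cosh_zero]
    exact Real.one_le_exp (by positivity)

lemma chM_step (p : V → ℝ) (v : V) (β : ℝ) (ℓ : ℤ) :
    chM β (gxT p v ℓ) ≤ Real.exp (β ^ 2 * (eps ℓ ^ 2 / 2)) := by
  unfold chM
  calc ∫ w, Real.cosh (β * Real.tanh (gxT p v ℓ w)) ∂(PW V)
      ≤ ∫ _w, Real.exp (β ^ 2 * (eps ℓ ^ 2 / 2)) ∂(PW V) :=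
        integral_mono_of_nonneg (ae_of_all _ fun _ => (Real.cosh_pos _).le) (integrable_const _)
          (ae_of_all _ fun w => cosh_step p v β ℓ w)
    _ = _ := by simp

lemma eps_le_zpow (ℓ : ℤ) : eps ℓ ≤ (1 / 2) * (2 : ℝ) ^ ℓ := by
  unfold eps
  have := min_le_right (1 : ℝ) ((2 : ℝ) ^ ℓ)
  linarith

lemma geom_sum_quarter (N : ℕ) : ∑ i ∈ range N, ((1 : ℝ) / 4) ^ i ≤ 4 / 3 - 4 / 3 * (1 / 4) ^ N := by
  induction N with
  | zero => simp
  | succ n ih =>
    rw [Finset.sum_range_succ, pow_succ]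
    linarith

lemma sum_eps_sq (L : ℤ) (N : ℕ) :
    ∑ i ∈ range N, eps (L - (i : ℤ)) ^ 2 ≤ (1 / 3) * ((2 : ℝ) ^ L) ^ 2 := by
  have hz : (0 : ℝ) < (2 : ℝ) ^ L := by positivity
  have h1 : ∀ i ∈ range N, eps (L - (i : ℤ)) ^ 2 ≤ (1 / 4 * ((2 : ℝ) ^ L) ^ 2) * ((1 : ℝ) / 4) ^ i := by
    intro i _
    have h2 := eps_le_zpow (L - (i : ℤ))
    have h3 := (eps_pos (L - (i : ℤ))).le
    have h4 : (2 : ℝ) ^ (L - (i : ℤ)) = (2 : ℝ) ^ L * ((1 : ℝ) / 2) ^ i := by
      rw [zpow_sub₀ (by norm_num), zpow_natCast]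
      simp [div_eq_mul_inv]
    have h5 := pow_le_pow_left₀ h3 h2 2
    refine h5.trans (le_of_eq ?_)
    rw [h4]
    have : ((1 : ℝ) / 4) ^ i = ((1 / 2 : ℝ) ^ i) ^ 2 := by
      rw [← pow_mul, mul_comm, pow_mul]; norm_num
    rw [this]; ring
  refine (Finset.sum_le_sum h1).trans ?_
  rw [← Finset.mul_sum]
  have h6 := geom_sum_quarter N
  have h7 : (0 : ℝ) ≤ 4 / 3 * (1 / 4) ^ N := by positivity
  have h8 : (0 : ℝ) ≤ 1 / 4 * ((2 : ℝ) ^ L) ^ 2 := by positivity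
  calc (1 / 4 * ((2 : ℝ) ^ L) ^ 2) * ∑ i ∈ range N, ((1 : ℝ) / 4) ^ i
      ≤ (1 / 4 * ((2 : ℝ) ^ L) ^ 2) * (4 / 3) := mul_le_mul_of_nonneg_left (by linarith) h8
    _ = _ := by ring

lemma zpow_LT_le (T : ℝ) : (2 : ℝ) ^ (LT T) ≤ 2 * Real.rpow 2 T := by
  have h1 : (LT T : ℝ) ≤ T + 1 := (Int.ceil_lt_add_one T).le
  have h2 : (2 : ℝ) ^ (LT T) = Real.rpow 2 (LT T : ℝ) := (Real.rpow_intCast 2 (LT T)).symm
  have h3 : Real.rpow 2 (LT T : ℝ) ≤ Real.rpow 2 (T + 1) :=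
    Real.rpow_le_rpow_of_exponent_le (by norm_num) h1
  have h4 : Real.rpow 2 (T + 1) = 2 * Real.rpow 2 T := by
    change (2 : ℝ) ^ (T + 1) = 2 * (2 : ℝ) ^ T
    rw [Real.rpow_add (by norm_num), Real.rpow_one]; ring
  rw [h2]; linarith

/-- the cosh transform of the own field -/
lemma chM_gx {p : V → ℝ} {T : ℝ} (hp : ∀ v, p v ≤ T) (β : ℝ) (v : V) :
    chM β (fun w => gx p w v) ≤ Real.exp (β ^ 2 * (2 / 3 * Real.rpow 2 T ^ 2)) := by
  have hNF := NF_gxZ p v (LT T)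
  have hlim := chM_tendsto (Zn := fun N => Tf (fun _ => 0) (gxZ p v (LT T)) (range N))
    (Z := fun w => gx p w v)
    (fun N => (fam_nish_and hNF (range N) (fun _ _ => Set.mem_univ _)).1) β
    (ae_of_all _ fun w => gxZ_tendsto p hp v w)
  refine le_of_tendsto hlim (Eventually.of_forall fun N => ?_)
  have h1 := fam_cosh hNF β (range N) (fun _ _ => Set.mem_univ _)
  have h0 : chM β (fun _ : WW V => (0 : ℝ)) = 1 := by
    unfold chM; simp
  rw [h0, one_mul] at h1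
  refine h1.trans ?_
  have h2 : ∏ i ∈ range N, chM β (gxZ p v (LT T) i)
      ≤ ∏ i ∈ range N, Real.exp (β ^ 2 * (eps (LT T - (i : ℤ)) ^ 2 / 2)) :=
    Finset.prod_le_prod (fun _ _ => chM_nonneg _ _) fun i _ => chM_step p v β _
  refine h2.trans ?_
  rw [← Real.exp_sum]
  apply Real.exp_le_exp.2
  rw [← Finset.mul_sum]
  apply mul_le_mul_of_nonneg_left _ (by positivity)
  rw [← Finset.sum_div]
  have h3 := sum_eps_sq (LT T) N
  have h4 := zpow_LT_le T
  have h5 : (0 : ℝ) < (2 : ℝ) ^ (LT T) := by positivity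
  have h6 := pow_le_pow_left₀ h5.le h4 2
  nlinarith

lemma one_add_sq_le_chM {Z : WW V → ℝ} (hZ : Measurable Z) : 1 + sqM Z / 2 ≤ chM 1 Z := by
  have h1 : Integrable (fun w => Real.tanh (Z w) ^ 2) (PW V) :=
    int_bdd (measurable_sqI hZ) fun w => abs_sqI_le (Z w)
  have h2 : Integrable (fun w => Real.cosh (1 * Real.tanh (Z w))) (PW V) :=
    int_bdd (measurable_chI hZ 1) fun w => abs_chI_le 1 (Z w)
  have h3 : Integrable (fun w => 1 + Real.tanh (Z w) ^ 2 / 2) (PW V) :=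
    (integrable_const _).add (h1.div_const 2)
  have h4 : ∫ w, (1 + Real.tanh (Z w) ^ 2 / 2) ∂(PW V) = 1 + sqM Z / 2 := by
    rw [integral_add (integrable_const _) (h1.div_const 2), integral_div]
    simp [sqM]
  rw [← h4]
  refine integral_mono h3 h2 fun w => ?_
  have := cosh_ge (1 * Real.tanh (Z w))
  simp only [one_mul] at this ⊢
  exact this

/-- upper bound for the own field -/
lemma sqM_gx_le {p : V → ℝ} {T : ℝ} (hp : ∀ v, p v ≤ T) (hT : Real.rpow 2 T ≤ 1) (v : V) :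
    sqM (fun w => gx p w v) ≤ 8 / 3 * Real.rpow 2 T ^ 2 := by
  have h1 := one_add_sq_le_chM (measurable_gx hp v)
  have h2 := chM_gx hp 1 v
  have hR : 0 ≤ Real.rpow 2 T := Real.rpow_nonneg (by norm_num) T
  have hR2 : Real.rpow 2 T ^ 2 ≤ 1 := pow_le_one₀ hR hT
  have h3 := exp_le_one_add_two (x := 1 ^ 2 * (2 / 3 * Real.rpow 2 T ^ 2)) (by positivity)
    (by nlinarith)
  nlinarith

lemma integral_ind_lam : ∫ x, (Set.Iio (0 : ℝ)).indicator (fun _ => (1 : ℝ)) x ∂lam = 1 / 2 := by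
  rw [integral_indicator_const _ measurableSet_Iio]
  simp only [smul_eq_mul, mul_one]
  have h : lam (Set.Iio (0 : ℝ)) = 2⁻¹ := by
    unfold lam
    simp only [Measure.smul_apply, smul_eq_mul]
    rw [Measure.restrict_apply measurableSet_Iio]
    have : Set.Iio (0 : ℝ) ∩ Set.Icc (-1 : ℝ) 1 = Set.Ico (-1 : ℝ) 0 := by
      ext x
      simp only [Set.mem_inter_iff, Set.mem_Iio, Set.mem_Icc, Set.mem_Ico]
      constructor
      · rintro ⟨h1, h2, _⟩; exact ⟨h2, h1⟩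
      · rintro ⟨h1, h2⟩; exact ⟨h2, h1, by linarith⟩
    rw [this, Real.volume_Ico]
    simp
  rw [Measure.real, h]
  simp

lemma integral_sf_sq (ℓ : ℤ) : ∫ x, nz ℓ x ^ 2 ∂lam = 1 / 3 := by
  have hε1 : |eps ℓ| ≤ 1 / 2 := by rw [abs_of_pos (eps_pos ℓ)]; exact eps_le ℓ
  have h := integral_Sf (by norm_num : (1 / 2 : ℝ) < 1) hε1 (fun y => y ^ 2)
  have h' : ∫ x, nz ℓ x ^ 2 ∂lam = ∫ t, cl t ^ 2 * (1 + eps ℓ * cl t) ∂lam := h
  rw [h']
  have e : (fun t => cl t ^ 2 * (1 + eps ℓ * cl t))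
      = fun t => cl t ^ 2 + (fun y => eps ℓ * y ^ 3) (cl t) := by
    funext t; ring
  rw [e]
  have hi2 : Integrable (fun t => (fun y => eps ℓ * y ^ 3) (cl t)) lam := by
    refine int_bdd (B := |eps ℓ|) (measurable_const.mul (measurable_cl.pow_const 3)) fun t => ?_
    simp only
    rw [abs_mul, abs_pow]
    have := pow_le_one₀ (abs_nonneg (cl t)) (abs_cl_le t) (n := 3)
    nlinarith [abs_nonneg (eps ℓ)]
  rw [integral_add integrable_cl_sq_lam hi2, integral_cl_sq_lam,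
    integral_odd_cl (F := fun y => eps ℓ * y ^ 3) (fun y => by ring)]
  ring

/-- the second moment of the last complete step -/
lemma sqM_step (T : ℝ) (v : V) :
    (1 / 6) * eps (⌊T⌋ - 1) ^ 2 ≤ sqM (gxT (fun _ => T) v (⌊T⌋ - 1)) := by
  set ℓ := ⌊T⌋ - 1 with hℓ
  have hm1 : Measurable (fun w : WW V => w (.la (ℓ, v))) := measurable_pi_apply _
  have hm2 : Measurable (fun w : WW V => w (.no (ℓ, v))) := measurable_pi_apply _
  have hind : Measurable ((Set.Iio (0 : ℝ)).indicator (fun _ => (1 : ℝ))) :=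
    measurable_const.indicator measurableSet_Iio
  have hnz2 : Measurable fun x => eps ℓ ^ 2 * nz ℓ x ^ 2 :=
    measurable_const.mul ((measurable_nz ℓ).pow_const 2)
  have hpt : ∀ w : WW V, Real.tanh (gxT (fun _ => T) v ℓ w) ^ 2
      = (Set.Iio (0 : ℝ)).indicator (fun _ => (1 : ℝ)) (w (.la (ℓ, v)))
        * (eps ℓ ^ 2 * nz ℓ (w (.no (ℓ, v))) ^ 2) := by
    intro w
    unfold gxT
    by_cases h : w (.la (ℓ, v)) < 0
    · have hf : (ℓ, v) ∈ Sp (lab w) (fun _ => T) := by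
        refine ⟨h, ?_⟩
        have hc : cl (w (.la (ℓ, v))) ≤ 0 := by
          unfold cl
          rw [min_eq_right (by linarith)]
          exact max_le (by norm_num) h.le
        have hT : (⌊T⌋ : ℝ) ≤ T := Int.floor_le T
        have e : ((ℓ : ℤ) : ℝ) = (⌊T⌋ : ℝ) - 1 := by rw [hℓ]; push_cast; ring
        show ((ℓ : ℤ) : ℝ) + (cl (lab w (ℓ, v)) + 1) / 2 < T
        have : lab w (ℓ, v) = w (.la (ℓ, v)) := rfl
        rw [this, e]
        linarith
      rw [if_pos hf, tanh_zeta (abs_eps_mul_lt ℓ (abs_nz_le ℓ _)),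
        Set.indicator_of_mem (Set.mem_Iio.2 h)]
      ring
    · have hf : (ℓ, v) ∉ Sp (lab w) (fun _ => T) := fun hh => h hh.1
      rw [if_neg hf, Set.indicator_of_notMem (by simpa using h)]
      simp
  have hI : sqM (gxT (fun _ => T) v ℓ) = (1 / 2) * (eps ℓ ^ 2 * (1 / 3)) := by
    unfold sqM
    simp only [hpt]
    have hi : ProbabilityTheory.IndepFun
        (fun w : WW V => (Set.Iio (0 : ℝ)).indicator (fun _ => (1 : ℝ)) (w (.la (ℓ, v))))
        (fun w : WW V => eps ℓ ^ 2 * nz ℓ (w (.no (ℓ, v))) ^ 2) (PW V) := by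
      refine indep_of_dependsOn (hind.comp hm1) (hnz2.comp hm2)
        (S := {Ix.la (ℓ, v)}) (S' := {Ix.no (ℓ, v)}) ?_ ?_ ?_
      · intro x y hxy
        simp only
        rw [hxy _ rfl]
      · intro x y hxy
        simp only
        rw [hxy _ rfl]
      · rw [Set.disjoint_left]
        rintro i hi hi'
        rw [Set.mem_singleton_iff] at hi hi'
        rw [hi] at hi'
        cases hi'
    rw [hi.integral_fun_mul_eq_mul_integral (hind.comp hm1).aestronglyMeasurable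
      (hnz2.comp hm2).aestronglyMeasurable]
    congr 1
    · exact (integral_coord _ hind).trans integral_ind_lam
    · refine (integral_coord (.no (ℓ, v)) hnz2).trans ?_
      rw [integral_const_mul, integral_sf_sq]
  rw [hI]
  apply le_of_eq
  ring

/-- monotonicity isolates one step -/
lemma sqM_gx_ge (T : ℝ) (v : V) :
    (1 / 6) * eps (⌊T⌋ - 1) ^ 2 ≤ sqM (fun w => gx (fun _ => T) w v) := by
  have hp : ∀ v : V, (fun _ : V => T) v ≤ T := fun _ => le_rfl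
  set L := LT T with hL
  have hle : ⌊T⌋ - 1 ≤ L := by
    have : ⌊T⌋ ≤ ⌈T⌉ := Int.floor_le_ceil T
    rw [hL]; unfold LT; linarith
  set i₀ : ℕ := (L - (⌊T⌋ - 1)).toNat with hi₀
  have hi₀' : L - (i₀ : ℤ) = ⌊T⌋ - 1 := by
    rw [hi₀, Int.toNat_of_nonneg (by linarith)]; ring
  have hNF := NF_gxZ (fun _ => T) v L
  have hNF' := NF_gxZ' (fun _ => T) v L i₀
  have hlim := sqM_tendsto (Zn := fun N => Tf (fun _ => 0) (gxZ (fun _ => T) v L) (range N))
    (Z := fun w => gx (fun _ => T) w v)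
    (fun N => (fam_nish_and hNF (range N) (fun _ _ => Set.mem_univ _)).1)
    (ae_of_all _ fun w => gxZ_tendsto (fun _ => T) hp v w)
  refine (sqM_step T v).trans (ge_of_tendsto hlim ?_)
  filter_upwards [eventually_gt_atTop i₀] with N hN
  have hmem : i₀ ∈ range N := Finset.mem_range.2 hN
  have e : Tf (fun _ => 0) (gxZ (fun _ => T) v L) (range N)
      = Tf (gxZ (fun _ => T) v L i₀) (gxZ (fun _ => T) v L) ((range N).erase i₀) := by
    funext w
    unfold Tf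
    rw [← Finset.add_sum_erase _ _ hmem]
    ring
  rw [e]
  have h1 := fam_mono hNF' ((range N).erase i₀) (fun i hi => (Finset.mem_erase.1 hi).1)
  have e2 : gxZ (fun _ => T) v L i₀ = gxT (fun _ => T) v (⌊T⌋ - 1) := by
    unfold gxZ
    rw [hi₀']
  rw [e2] at h1
  rw [← e2]
  rw [e2]
  exact h1

/-- the stage bound from below -/
lemma eps_floor_ge (T : ℝ) : (1 / 8) * min 1 (Real.rpow 2 T) ≤ eps (⌊T⌋ - 1) := by
  unfold eps
  have h1 : T - 2 ≤ ((⌊T⌋ - 1 : ℤ) : ℝ) := by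
    have := Int.lt_floor_add_one T
    push_cast
    linarith
  have h2 : Real.rpow 2 (T - 2) ≤ (2 : ℝ) ^ (⌊T⌋ - 1 : ℤ) := by
    rw [← Real.rpow_intCast]
    exact Real.rpow_le_rpow_of_exponent_le (by norm_num) h1
  have h3 : Real.rpow 2 (T - 2) = Real.rpow 2 T / 4 := by
    change (2 : ℝ) ^ (T - 2) = (2 : ℝ) ^ T / 4
    rw [Real.rpow_sub (by norm_num)]
    norm_num
  have hR : 0 ≤ Real.rpow 2 T := Real.rpow_nonneg (by norm_num) T
  have h4 : min 1 (Real.rpow 2 T) / 4 ≤ min 1 ((2 : ℝ) ^ (⌊T⌋ - 1 : ℤ)) := by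
    apply le_min
    · have := min_le_left 1 (Real.rpow 2 T)
      linarith
    · have := min_le_right 1 (Real.rpow 2 T)
      linarith
  linarith

end Static
end Vale.Agent.Lib.P161.Crit
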