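import Vale.Agent.Lib.P161.Crit.StaticC

/-!
Static estimates at criticality, part D: the messages.
-/

open MeasureTheory Filter Topology Finset

noncomputable section
namespace Vale.Agent.Lib.P161.Crit
namespace Static

open scoped Classical
open Vale.Agent.Lib.P161

variable {V : Type} (C : CT V)

/-- sibling term -/
def Yt (p : V → ℝ) (a c : V) (w : WW V) : ℝ := eS C s(a, c) w * psi C.θ (gz C p c a w)

lemma measurable_psi' : Measurable (psi C.θ) := by
  have h : Continuous (psi C.θ) := by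
    refine LipschitzWith.continuous (K := ⟨C.θ, C.hθ0.le⟩) ?_
    refine LipschitzWith.of_dist_le_mul fun a b => ?_
    rw [Real.dist_eq, Real.dist_eq]
    exact psi_lipschitz C.hθ0.le (th_lt_one C) a b
  exact h.measurable

lemma eS_dep (e : Sym2 V) : DependsOn (eS C e) {Ix.ed e} := by
  intro x y hxy
  unfold eS
  rw [hxy _ rfl]

lemma measurable_Yt {p : V → ℝ} {T : ℝ} (hp : ∀ v, p v ≤ T) (a c : V) : Measurable (Yt C p a c) :=
  (measurable_eS C _).mul ((measurable_psi' C).comp (measurable_gz C hp c a))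

lemma ed_not_mem_Bc (a c : V) : Disjoint ({Ix.ed s(a, c)} : Set (Ix V)) (Bc C c a) := by
  rw [Set.disjoint_left]
  rintro i hi hi'
  rw [Set.mem_singleton_iff] at hi
  rw [hi] at hi'
  have h : ∀ v ∈ s(a, c), C.G.dist v c < C.G.dist v a := hi'
  have := h a (Sym2.mem_mk_left a c)
  simp at this

lemma nish_Yt {p : V → ℝ} {T : ℝ} (hp : ∀ v, p v ≤ T) {a c : V} (hac : C.G.Adj a c) :
    Nish (PW V) (Yt C p a c) := by
  refine nish_sign C.hθ0.le (th_lt_one C) (measurable_psi' C) (psi_neg C) ⟨pM C, abs_psi_le C⟩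
    (tanh_psi C) (measurable_eS C _) (eS_cases C _) (eS_mean C _) (nish_gz C hp hac.symm) ?_
  exact indep_of_dependsOn (measurable_eS C _) (measurable_gz C hp c a) (eS_dep C _)
    (gz_dependsOn C p hac.symm) (ed_not_mem_Bc C a c)

lemma Yt_dep (p : V → ℝ) {a c : V} (hac : C.G.Adj a c) : DependsOn (Yt C p a c) (Sb C a c) := by
  intro x y hxy
  unfold Yt
  have h1 : eS C s(a, c) x = eS C s(a, c) y :=
    eS_dep C _ fun i hi => hxy i (Or.inr hi)
  have h2 : gz C p c a x = gz C p c a y :=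
    gz_dependsOn C p hac.symm fun i hi => hxy i (Or.inl hi)
  rw [h1, h2]

/-- the family at a vertex -/
lemma NF_msg {p : V → ℝ} {T : ℝ} (hp : ∀ v, p v ≤ T) (a : V) :
    NF (fun w => gx p w a) (Yt C p a) (Sc a) (Sb C a) {c | C.G.Adj a c} where
  n₀ := nish_gx hp a
  n := fun _ hc => nish_Yt C hp hc
  d₀ := gx_dependsOn_site p a
  d := fun _ hc => Yt_dep C p hc
  j₀ := fun _ hc => (Sb_disjoint_site C hc).symm
  j := fun _ hc _ hc' hne => Sb_disjoint C hc hc' hne

lemma gz_ae {p : V → ℝ} {T : ℝ} (hp : ∀ v, p v ≤ T) {a b : V} (hab : C.G.Adj a b) :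
    gz C p a b =ᵐ[PW V] Tf (fun w => gx p w a) (Yt C p a) ((C.nb a).erase b) := by
  filter_upwards [gz_bp C hp] with w hw
  exact hw a b hab

lemma sqM_congr {Z Z' : WW V → ℝ} (h : Z =ᵐ[PW V] Z') : sqM Z = sqM Z' := by
  unfold sqM
  refine integral_congr_ae ?_
  filter_upwards [h] with w hw
  rw [hw]

lemma chM_congr (β : ℝ) {Z Z' : WW V → ℝ} (h : Z =ᵐ[PW V] Z') : chM β Z = chM β Z' := by
  unfold chM
  refine integral_congr_ae ?_
  filter_upwards [h] with w hw
  rw [hw]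

lemma tanh_Yt (p : V → ℝ) (a c : V) (w : WW V) :
    Real.tanh (Yt C p a c w) = eS C s(a, c) w * (C.θ * Real.tanh (gz C p c a w)) := by
  unfold Yt
  rcases eS_cases C s(a, c) w with h | h <;> rw [h]
  · rw [one_mul, one_mul, tanh_psi]
  · rw [neg_one_mul, neg_one_mul, Real.tanh_neg, tanh_psi]

lemma tanh_sq_Yt (p : V → ℝ) (a c : V) (w : WW V) :
    Real.tanh (Yt C p a c w) ^ 2 = C.θ ^ 2 * Real.tanh (gz C p c a w) ^ 2 := by
  rw [tanh_Yt]
  rcases eS_cases C s(a, c) w with h | h <;> rw [h] <;> ring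

lemma sqM_Yt (p : V → ℝ) (a c : V) : sqM (Yt C p a c) = C.θ ^ 2 * sqM (gz C p c a) := by
  unfold sqM
  simp only [tanh_sq_Yt]
  rw [integral_const_mul]

lemma chM_Yt (p : V → ℝ) (β : ℝ) (a c : V) : chM β (Yt C p a c) = chM (β * C.θ) (gz C p c a) := by
  unfold chM
  refine integral_congr_ae (ae_of_all _ fun w => ?_)
  simp only
  rw [tanh_Yt]
  rcases eS_cases C s(a, c) w with h | h <;> rw [h]
  · congr 1; ring
  · rw [← Real.cosh_neg]; congr 1; ring

/-- homogeneity of the messages -/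
lemma integral_gz_hom (T : ℝ) {F : ℝ → ℝ} (hF : Measurable F) {a b a' b' : V}
    (h : C.G.Adj a b) (h' : C.G.Adj a' b') :
    ∫ w, F (gz C (fun _ => T) a b w) ∂(PW V) = ∫ w, F (gz C (fun _ => T) a' b' w) ∂(PW V) := by
  have hd : C.G.dist a b = C.G.dist a' b' := by
    rw [SimpleGraph.dist_eq_one_iff_adj.2 h, SimpleGraph.dist_eq_one_iff_adj.2 h']
  obtain ⟨g, rfl, rfl⟩ := exists_aut C hd
  have hmp := actW_mp C g
  have hm : Measurable fun w => F (gz C (fun _ => T) (g a) (g b) w) :=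
    hF.comp (measurable_gz C (fun _ => le_rfl) _ _)
  calc ∫ w, F (gz C (fun _ => T) a b w) ∂(PW V)
      = ∫ w, F (gz C (fun _ => T) (g a) (g b) (actW C g w)) ∂(PW V) := by
        simp only [gz_act]
    _ = ∫ w, F (gz C (fun _ => T) (g a) (g b) w) ∂(Measure.map (actW C g) (PW V)) :=
        (integral_map hmp.measurable.aemeasurable hm.aestronglyMeasurable).symm
    _ = _ := by rw [hmp.map_eq]

lemma sqM_gz_hom (T : ℝ) {a b a' b' : V} (h : C.G.Adj a b) (h' : C.G.Adj a' b') :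
    sqM (gz C (fun _ => T) a b) = sqM (gz C (fun _ => T) a' b') :=
  integral_gz_hom C T (F := fun z => Real.tanh z ^ 2) (measurable_tanh'.pow_const 2) h h'

lemma chM_gz_hom (T β : ℝ) {a b a' b' : V} (h : C.G.Adj a b) (h' : C.G.Adj a' b') :
    chM β (gz C (fun _ => T) a b) = chM β (gz C (fun _ => T) a' b') :=
  integral_gz_hom C T (F := fun z => Real.cosh (β * Real.tanh z))
    (Real.measurable_cosh.comp (measurable_const.mul measurable_tanh')) h h'

lemma d_cast : ((C.d - 1 : ℕ) : ℝ) = (C.d : ℝ) - 1 := by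
  have : 1 ≤ C.d := by have := C.hd; omega
  rw [Nat.cast_sub this]; simp

lemma two_le_r : 2 ≤ C.d - 1 := by have := C.hd; omega

lemma card_erase {a b : V} (hab : C.G.Adj a b) : ((C.nb a).erase b).card = C.d - 1 := by
  rw [Finset.card_erase_of_mem ((C.hnb a b).2 hab), C.hcard]

lemma mem_erase_adj {a b c : V} (hc : c ∈ (C.nb a).erase b) : c ∈ {c | C.G.Adj a c} :=
  (C.hnb a c).1 (Finset.mem_erase.1 hc).2

/-- the upper estimate -/
lemma q_upper (T : ℝ) {a b : V} (hab : C.G.Adj a b) :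
    sqM (gz C (fun _ => T) a b) ^ 2 * (1 - sqM (fun w => gx (fun _ => T) w a))
      ≤ 4 * sqM (fun w => gx (fun _ => T) w a) := by
  have hp : ∀ v : V, (fun _ : V => T) v ≤ T := fun _ => le_rfl
  set q := sqM (gz C (fun _ => T) a b) with hq
  set t := sqM (fun w => gx (fun _ => T) w a) with ht
  have hNF := NF_msg C hp a
  have h1 := fam_upper hNF ((C.nb a).erase b) fun c hc => mem_erase_adj C hc
  rw [← sqM_congr (gz_ae C hp hab), ← hq, ← ht] at h1
  have h2 : ∏ c ∈ (C.nb a).erase b, (1 - sqM (Yt C (fun _ => T) a c))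
      = (1 - C.θ ^ 2 * q) ^ (C.d - 1) := by
    rw [Finset.prod_congr rfl (g := fun _ => 1 - C.θ ^ 2 * q), Finset.prod_const, card_erase C hab]
    intro c hc
    rw [sqM_Yt, sqM_gz_hom C T ((C.hnb a c).1 (Finset.mem_erase.1 hc).2).symm hab]
  rw [h2] at h1
  have hq0 : 0 ≤ q := sqM_nonneg _
  have hq1 : q ≤ 1 := sqM_le_one _
  have ht0 : 0 ≤ t := sqM_nonneg _
  have ht1 : t ≤ 1 := sqM_le_one _
  have hr : ((C.d - 1 : ℕ) : ℝ) * (C.θ ^ 2 * q) = q := by
    rw [d_cast, ← mul_assoc, C.hκ, one_mul]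
  have h3 := one_sub_pow_ge (two_le_r C) (y := C.θ ^ 2 * q) (by positivity) (by rw [hr]; exact hq1)
  rw [hr] at h3
  have h4 : (1 - t) * (1 - q / 2) ^ 2 ≤ 1 - q :=
    (mul_le_mul_of_nonneg_left h3 (by linarith)).trans h1
  nlinarith [mul_nonneg ht0 hq0, mul_nonneg ht0 (by linarith : 0 ≤ 1 - q)]

/-- the lower estimate -/
lemma q_lower (T : ℝ) {a b : V} (hab : C.G.Adj a b) (hq6 : sqM (gz C (fun _ => T) a b) ≤ 1 / 6) :
    sqM (fun w => gx (fun _ => T) w a) ≤ 3 * sqM (gz C (fun _ => T) a b) ^ 2 := by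
  have hp : ∀ v : V, (fun _ : V => T) v ≤ T := fun _ => le_rfl
  set q := sqM (gz C (fun _ => T) a b) with hq
  set t := sqM (fun w => gx (fun _ => T) w a) with ht
  have hNF := NF_msg C hp a
  have hth := th_sq_le C
  have hq0 : 0 ≤ q := sqM_nonneg _
  have hb0 : 0 ≤ C.θ ^ 2 * q := by positivity
  have hb3 : 3 * (C.θ ^ 2 * q) ≤ 1 := by nlinarith [sq_nonneg C.θ]
  have h1 := fam_lower hNF hb0 hb3 (fun c hc => by
      rw [sqM_Yt, sqM_gz_hom C T (show C.G.Adj c a from (show C.G.Adj a c from hc).symm) hab])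
    (fun c hc w => by
      rw [tanh_sq_Yt]
      have := tanh_sq_le_one (gz C (fun _ => T) c a w)
      nlinarith [sq_nonneg C.θ, sq_nonneg (Real.tanh (gz C (fun _ => T) c a w))])
    ((C.nb a).erase b) fun c hc => mem_erase_adj C hc
  rw [← sqM_congr (gz_ae C hp hab), ← hq, ← ht, card_erase C hab, d_cast] at h1
  have hk := C.hκ
  have hr := d_sub_one_ge C
  set r : ℝ := (C.d : ℝ) - 1 with hrdef
  have e1 : r * (C.θ ^ 2 * q) = q := by rw [← mul_assoc, hk, one_mul]
  have e2 : 3 * r * (C.θ ^ 2 * q) = 3 * q := by rw [mul_assoc, e1]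
  rw [e2, e1] at h1
  have e3 : r * (r - 1) * (C.θ ^ 2 * q) ^ 2 ≤ q ^ 2 := by
    have : (r * (C.θ ^ 2 * q)) ^ 2 = q ^ 2 := by rw [e1]
    rw [← this]
    have h9 : 0 ≤ (C.θ ^ 2 * q) ^ 2 := sq_nonneg _
    nlinarith
  have ht0 : 0 ≤ t := sqM_nonneg _
  nlinarith

end Static

open scoped Classical
open Vale.Agent.Lib.P161

variable {V : Type} (C : CT V)

/-- message second moment lower bound -/
theorem msg_sq_lower' : ∃ c : ℝ, 0 < c ∧ c ≤ 1 ∧ ∀ (T : ℝ) (a b : V), C.G.Adj a b →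
    c * min 1 (Real.rpow 2 T) ≤ ∫ w, Real.tanh (gz C (fun _ => T) a b w) ^ 2 ∂(PW V) := by
  refine ⟨1 / 34, by norm_num, by norm_num, fun T a b hab => ?_⟩
  change 1 / 34 * min 1 (Real.rpow 2 T) ≤ Static.sqM (gz C (fun _ => T) a b)
  have hR : 0 ≤ Real.rpow 2 T := Real.rpow_nonneg (by norm_num) T
  set M := min 1 (Real.rpow 2 T) with hM
  have hM0 : 0 ≤ M := le_min zero_le_one hR
  have hM1 : M ≤ 1 := min_le_left _ _
  set q := Static.sqM (gz C (fun _ => T) a b) with hq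
  have hq0 : 0 ≤ q := Static.sqM_nonneg _
  by_cases h6 : q ≤ 1 / 6
  · have h1 := Static.q_lower C T hab h6
    have h2 := Static.sqM_gx_ge T a
    have h3 := Static.eps_floor_ge T
    rw [← hM] at h3
    have h4 := pow_le_pow_left₀ (by positivity) h3 2
    have h5 : (M / 34) ^ 2 ≤ q ^ 2 := by nlinarith
    have h7 := abs_le_of_sq_le_sq' h5 hq0
    linarith [h7.2]
  · rw [not_le] at h6
    nlinarith

end Vale.Agent.Lib.P161.Crit
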