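import Vale.Agent.Lib.P161.Crit.StaticD

/-!
Static estimates at criticality, part E: the cosh transform of the messages and of the magnetisation.
-/

open MeasureTheory Filter Topology Finset

noncomputable section
namespace Vale.Agent.Lib.P161.Crit
namespace Static

open scoped Classical
open Vale.Agent.Lib.P161

variable {V : Type} (C : CT V)

/-- the magnetisation in gauge form -/
def Zv (T : ℝ) (x : V) : WW V → ℝ :=
  Tf (fun w => gx (fun _ => T) w x) (Yt C (fun _ => T) x) (C.nb x)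

lemma chM_gz_rec (T β : ℝ) {a b : V} (hab : C.G.Adj a b) :
    chM β (gz C (fun _ => T) a b) ≤
      chM β (fun w => gx (fun _ => T) w a) * chM (β * C.θ) (gz C (fun _ => T) a b) ^ (C.d - 1) := by
  have hp : ∀ v : V, (fun _ : V => T) v ≤ T := fun _ => le_rfl
  have h1 := fam_cosh (NF_msg C hp a) β ((C.nb a).erase b) fun c hc => mem_erase_adj C hc
  rw [← chM_congr β (gz_ae C hp hab)] at h1
  have h2 : ∏ c ∈ (C.nb a).erase b, chM β (Yt C (fun _ => T) a c)
      = chM (β * C.θ) (gz C (fun _ => T) a b) ^ (C.d - 1) := by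
    rw [Finset.prod_congr rfl (g := fun _ => chM (β * C.θ) (gz C (fun _ => T) a b)),
      Finset.prod_const, card_erase C hab]
    intro c hc
    rw [chM_Yt, chM_gz_hom C T _ ((C.hnb a c).1 (Finset.mem_erase.1 hc).2).symm hab]
  rwa [h2] at h1

lemma chM_small (T : ℝ) {β : ℝ} (hβ : |β| ≤ 1) (a b : V) :
    chM β (gz C (fun _ => T) a b) ≤ Real.exp (β ^ 2 * sqM (gz C (fun _ => T) a b)) := by
  have hp : ∀ v : V, (fun _ : V => T) v ≤ T := fun _ => le_rfl
  have hm := measurable_gz C hp a b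
  have h1 : Integrable (fun w => Real.tanh (gz C (fun _ => T) a b w) ^ 2) (PW V) :=
    int_bdd (measurable_sqI hm) fun w => abs_sqI_le _
  have h2 : Integrable (fun w => Real.cosh (β * Real.tanh (gz C (fun _ => T) a b w))) (PW V) :=
    int_bdd (measurable_chI hm β) fun w => abs_chI_le β _
  have h3 : Integrable (fun w => 1 + β ^ 2 * Real.tanh (gz C (fun _ => T) a b w) ^ 2) (PW V) :=
    (integrable_const _).add (h1.const_mul _)
  have h4 : ∫ w, (1 + β ^ 2 * Real.tanh (gz C (fun _ => T) a b w) ^ 2) ∂(PW V)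
      = 1 + β ^ 2 * sqM (gz C (fun _ => T) a b) := by
    rw [integral_add (integrable_const _) (h1.const_mul _), integral_const_mul]
    simp [sqM]
  have h5 : chM β (gz C (fun _ => T) a b) ≤ 1 + β ^ 2 * sqM (gz C (fun _ => T) a b) := by
    rw [← h4]
    refine integral_mono h2 h3 fun w => ?_
    have hy : |β * Real.tanh (gz C (fun _ => T) a b w)| ≤ 1 := by
      rw [abs_mul]
      have := (Real.abs_tanh_lt_one (gz C (fun _ => T) a b w)).le
      nlinarith [abs_nonneg β, abs_nonneg (Real.tanh (gz C (fun _ => T) a b w))]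
    have := cosh_le_of_abs_le_one hy
    simp only [mul_pow] at this ⊢
    exact this
  refine h5.trans ?_
  have := Real.add_one_le_exp (β ^ 2 * sqM (gz C (fun _ => T) a b))
  linarith

/-- the iteration -/
lemma chM_iter (T : ℝ) {a b : V} (hab : C.G.Adj a b) (k : ℕ) :
    ∀ β : ℝ, C.θ ^ k * |β| ≤ 1 → chM β (gz C (fun _ => T) a b) ≤
      Real.exp (β ^ 2 * ((k : ℝ) * (2 / 3 * Real.rpow 2 T ^ 2) + sqM (gz C (fun _ => T) a b))) := by
  have hp : ∀ v : V, (fun _ : V => T) v ≤ T := fun _ => le_rfl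
  induction k with
  | zero =>
    intro β hβ
    have h1 : |β| ≤ 1 := by simpa using hβ
    have := chM_small C T h1 a b
    simpa using this
  | succ k ih =>
    intro β hβ
    have h1 : C.θ ^ k * |β * C.θ| ≤ 1 := by
      rw [abs_mul, abs_of_pos C.hθ0]
      calc C.θ ^ k * (|β| * C.θ) = C.θ ^ (k + 1) * |β| := by ring
        _ ≤ 1 := hβ
    have h2 := ih (β * C.θ) h1
    have h3 := chM_gz_rec C T β hab
    have h4 := chM_gx hp β a
    set D := 2 / 3 * Real.rpow 2 T ^ 2 with hD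
    set q := sqM (gz C (fun _ => T) a b) with hq
    have h5 : chM (β * C.θ) (gz C (fun _ => T) a b) ^ (C.d - 1)
        ≤ Real.exp ((β * C.θ) ^ 2 * ((k : ℝ) * D + q)) ^ (C.d - 1) :=
      pow_le_pow_left₀ (chM_nonneg _ _) h2 _
    rw [← Real.exp_nat_mul] at h5
    have h6 : ((C.d - 1 : ℕ) : ℝ) * ((β * C.θ) ^ 2 * ((k : ℝ) * D + q))
        = β ^ 2 * ((k : ℝ) * D + q) := by
      rw [d_cast]
      have := C.hκ
      calc ((C.d : ℝ) - 1) * ((β * C.θ) ^ 2 * ((k : ℝ) * D + q))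
          = (((C.d : ℝ) - 1) * C.θ ^ 2) * (β ^ 2 * ((k : ℝ) * D + q)) := by ring
        _ = _ := by rw [this, one_mul]
    rw [h6] at h5
    refine h3.trans ?_
    have h7 := mul_le_mul h4 h5 (pow_nonneg (chM_nonneg _ _) _) (Real.exp_pos _).le
    refine h7.trans (le_of_eq ?_)
    rw [← Real.exp_add]
    congr 1
    push_cast
    ring

/-- the vertex version -/
lemma chM_Zv (T β : ℝ) (x : V) {a b : V} (hab : C.G.Adj a b) (k : ℕ)
    (hk : C.θ ^ k * |β * C.θ| ≤ 1) :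
    chM β (Zv C T x) ≤ Real.exp (β ^ 2 * (2 / 3 * Real.rpow 2 T ^ 2 +
      3 / 2 * ((k : ℝ) * (2 / 3 * Real.rpow 2 T ^ 2) + sqM (gz C (fun _ => T) a b)))) := by
  have hp : ∀ v : V, (fun _ : V => T) v ≤ T := fun _ => le_rfl
  have h1 := fam_cosh (NF_msg C hp x) β (C.nb x) fun c hc => (C.hnb x c).1 hc
  have h2 : ∏ c ∈ C.nb x, chM β (Yt C (fun _ => T) x c)
      = chM (β * C.θ) (gz C (fun _ => T) a b) ^ C.d := by
    rw [Finset.prod_congr rfl (g := fun _ => chM (β * C.θ) (gz C (fun _ => T) a b)),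
      Finset.prod_const, C.hcard]
    intro c hc
    rw [chM_Yt, chM_gz_hom C T _ ((C.hnb x c).1 hc).symm hab]
  rw [h2] at h1
  have h3 := chM_iter C T hab k (β * C.θ) hk
  have h4 := chM_gx hp β x
  set D := 2 / 3 * Real.rpow 2 T ^ 2 with hD
  set q := sqM (gz C (fun _ => T) a b) with hq
  have hR : 0 ≤ D := by positivity
  have hq0 : 0 ≤ q := sqM_nonneg _
  have h5 : chM (β * C.θ) (gz C (fun _ => T) a b) ^ C.d
      ≤ Real.exp ((β * C.θ) ^ 2 * ((k : ℝ) * D + q)) ^ C.d :=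
    pow_le_pow_left₀ (chM_nonneg _ _) h3 _
  rw [← Real.exp_nat_mul] at h5
  have h6 : (C.d : ℝ) * ((β * C.θ) ^ 2 * ((k : ℝ) * D + q)) ≤ β ^ 2 * (3 / 2 * ((k : ℝ) * D + q)) := by
    have hk0 : 0 ≤ (k : ℝ) * D + q := by positivity
    have hd : (C.d : ℝ) * C.θ ^ 2 ≤ 3 / 2 := by
      have h7 := C.hκ
      have h8 := th_sq_le C
      nlinarith
    calc (C.d : ℝ) * ((β * C.θ) ^ 2 * ((k : ℝ) * D + q))
        = ((C.d : ℝ) * C.θ ^ 2) * (β ^ 2 * ((k : ℝ) * D + q)) := by ring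
      _ ≤ (3 / 2) * (β ^ 2 * ((k : ℝ) * D + q)) :=
        mul_le_mul_of_nonneg_right hd (by positivity)
      _ = _ := by ring
  have h9 := h5.trans (Real.exp_le_exp.2 h6)
  unfold Zv
  refine h1.trans ?_
  have h10 := mul_le_mul h4 h9 (pow_nonneg (chM_nonneg _ _) _) (Real.exp_pos _).le
  refine h10.trans (le_of_eq ?_)
  rw [← Real.exp_add]
  congr 1
  ring

/-- the upper bound on the message second moment -/
lemma q_le (T : ℝ) (hT : Real.rpow 2 T ≤ 1) {a b : V} (hab : C.G.Adj a b) :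
    sqM (gz C (fun _ => T) a b) ≤ 5 * Real.rpow 2 T := by
  have hp : ∀ v : V, (fun _ : V => T) v ≤ T := fun _ => le_rfl
  have h1 := q_upper C T hab
  have h2 := sqM_gx_le hp hT a
  have hq0 := sqM_nonneg (gz C (fun _ => T) a b)
  have hq1 := sqM_le_one (gz C (fun _ => T) a b)
  have hR : 0 ≤ Real.rpow 2 T := Real.rpow_nonneg (by norm_num) T
  set q := sqM (gz C (fun _ => T) a b)
  set t := sqM (fun w => gx (fun _ => T) w a)
  set R := Real.rpow 2 T
  by_cases ht : t ≤ 1 / 2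
  · have h3 : q ^ 2 ≤ 8 * t := by nlinarith [sq_nonneg q]
    have h4 : q ^ 2 ≤ (5 * R) ^ 2 := by nlinarith
    exact (abs_le_of_sq_le_sq' h4 (by positivity)).2
  · rw [not_le] at ht
    by_contra hc
    rw [not_le] at hc
    nlinarith

/-- `(1 - T) 2^T ≤ 2` for `T ≤ 0` -/
lemma one_sub_mul_rpow_le {T : ℝ} (hT : T ≤ 0) : (1 - T) * Real.rpow 2 T ≤ 2 := by
  have hR : 0 < Real.rpow 2 T := Real.rpow_pos_of_pos (by norm_num) T
  have h1 : Real.rpow 2 T * Real.rpow 2 (-T) = 1 := by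
    change (2 : ℝ) ^ T * (2 : ℝ) ^ (-T) = 1
    rw [← Real.rpow_add (by norm_num)]; simp
  have h2 : Real.rpow 2 (-T) = Real.exp (Real.log 2 * (-T)) := by
    change (2 : ℝ) ^ (-T) = _
    rw [Real.rpow_def_of_pos (by norm_num)]
  have h3 : 1 + Real.log 2 * (-T) ≤ Real.rpow 2 (-T) := by
    rw [h2]
    have := Real.add_one_le_exp (Real.log 2 * (-T))
    linarith
  have h4 : (1 : ℝ) / 2 ≤ Real.log 2 := by
    have := Real.log_two_gt_d9
    linarith
  have h5 : 1 + (1 / 2) * (-T) ≤ Real.rpow 2 (-T) := by nlinarith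
  have h6 : (1 - T) ≤ 2 * Real.rpow 2 (-T) := by nlinarith
  calc (1 - T) * Real.rpow 2 T ≤ (2 * Real.rpow 2 (-T)) * Real.rpow 2 T :=
        mul_le_mul_of_nonneg_right h6 hR.le
    _ = 2 * (Real.rpow 2 T * Real.rpow 2 (-T)) := by ring
    _ = 2 := by rw [h1]; ring

/-- the powers of `θ` beat `2^T` -/
lemma theta_pow_le {T : ℝ} (hT : T ≤ 0) : C.θ ^ (2 * ⌈-T⌉₊) ≤ Real.rpow 2 T := by
  have h1 := th_sq_le C
  have h2 : C.θ ^ (2 * ⌈-T⌉₊) = (C.θ ^ 2) ^ ⌈-T⌉₊ := pow_mul _ _ _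
  rw [h2]
  have h3 : (C.θ ^ 2) ^ ⌈-T⌉₊ ≤ ((1 : ℝ) / 2) ^ ⌈-T⌉₊ :=
    pow_le_pow_left₀ (sq_nonneg _) h1 _
  refine h3.trans ?_
  have h4 : ((1 : ℝ) / 2) ^ ⌈-T⌉₊ = Real.rpow 2 (-(⌈-T⌉₊ : ℝ)) := by
    change _ = (2 : ℝ) ^ (-(⌈-T⌉₊ : ℝ))
    rw [Real.rpow_neg (by norm_num), Real.rpow_natCast]
    simp
  rw [h4]
  apply Real.rpow_le_rpow_of_exponent_le (by norm_num)
  have := Nat.le_ceil (-T)
  linarith

end Static
end Vale.Agent.Lib.P161.Crit
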