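import Vale.Agent.Lib.P161.Crit.Rec
import Vale.Agent.Lib.P161.Crit.Osgood

/-!
The distance vanishes at all times.
-/

open MeasureTheory Filter Topology Finset

noncomputable section
namespace Vale.Agent.Lib.P161.Crit

open scoped Classical
open Vale.Agent.Lib.P161

variable {V : Type} (C : CT V)

theorem Dd_tendsto_zero (x : V) : Tendsto (fun s => Dd C s x) atBot (𝓝 0) := by
  obtain ⟨K, hK1, hK⟩ := Ms_moment C
  have hub : ∀ s : ℝ, Dd C s x ≤ K * (2 : ℝ) ^ s := by
    intro s
    have h1 := Dd_le_sq C s x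
    have h2 := hK s x 1 le_rfl
    simp only [pow_one, Nat.cast_one, mul_one] at h2
    have h3 : min 1 (Real.rpow 2 s) ≤ (2 : ℝ) ^ s := min_le_right _ _
    have h4 : K * min 1 (Real.rpow 2 s) ≤ K * (2 : ℝ) ^ s :=
      mul_le_mul_of_nonneg_left h3 (by linarith)
    linarith
  have hlim : Tendsto (fun s : ℝ => K * (2 : ℝ) ^ s) atBot (𝓝 0) := by
    have h2 : Tendsto (fun s : ℝ => (2 : ℝ) ^ s) atBot (𝓝 0) :=
      tendsto_rpow_atBot_of_base_gt_one 2 (by norm_num)
    simpa using h2.const_mul K
  exact squeeze_zero (fun s => Dd_nonneg C s x) hub hlim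

theorem Dd_zero (T : ℝ) (x : V) : Dd C T x = 0 := by
  obtain ⟨K₀, hK₀, hrec⟩ := rec C
  obtain ⟨K₁, hK₁, hker⟩ := kernel C T
  set D : ℝ → ℝ := fun s => Dd C s x with hD
  have hmono : Monotone D := fun s s' h => Dd_mono C h x
  have h0 : ∀ s, 0 ≤ D s := fun s => Dd_nonneg C s x
  have h1 : ∀ s, D s ≤ 1 := fun s => Dd_le_one C s x
  have hlim : Tendsto D atBot (𝓝 0) := Dd_tendsto_zero C x
  set Bd : ℝ → ℝ := fun r => K₁ * Real.exp (r / 4) * om (D r) with hBd
  have hBdmeas : Measurable Bd :=
    ((measurable_const.mul (Real.continuous_exp.measurable.comp (by fun_prop))).mul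
      (continuous_om.measurable.comp hmono.measurable))
  have hBdint : ∀ s s', IntervalIntegrable Bd volume s s' := by
    intro s s'
    rw [intervalIntegrable_iff]
    refine Measure.integrableOn_of_bounded (M := K₁ * Real.exp (max s s' / 4) * 6)
      (by simp [Real.volume_uIoc]) hBdmeas.aestronglyMeasurable ?_
    filter_upwards [ae_restrict_mem measurableSet_uIoc] with r hr
    have hr2 : r ≤ max s s' := by
      rw [Set.uIoc] at hr
      exact hr.2
    have hexp : Real.exp (r / 4) ≤ Real.exp (max s s' / 4) := Real.exp_le_exp.mpr (by linarith)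
    have h6 := om_le_six (h0 r) (h1 r)
    have h60 := om_nonneg (h0 r) (h1 r)
    have hpos := Real.exp_pos (r / 4)
    simp only [hBd]
    rw [Real.norm_of_nonneg (by positivity)]
    exact mul_le_mul (mul_le_mul_of_nonneg_left hexp hK₁.le) h6 h60 (by positivity)
  -- the kernel bound with the best `p`
  have hkerb : ∀ r, r ≤ T → ∀ U : Finset V,
      (eps ⌊r⌋) ^ 2 * ∑ u ∈ U, (Lev C r x u + (eps ⌊r⌋) ^ 2 * Psi C r x u) ≤ Bd r := by
    intro r hr U
    rcases (h0 r).eq_or_lt with hz | hp
    · -- `D r = 0`: let `p → ∞`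
      have hDz : Dd C r x = 0 := hz.symm
      have hlimit : Tendsto (fun p : ℕ => K₁ * Real.exp (r / 4) * ((p : ℝ) * Real.exp (-p))) atTop
          (𝓝 (K₁ * Real.exp (r / 4) * 0)) := tendsto_p_exp.const_mul _
      rw [mul_zero] at hlimit
      have hle : (eps ⌊r⌋) ^ 2 * ∑ u ∈ U, (Lev C r x u + (eps ⌊r⌋) ^ 2 * Psi C r x u) ≤ 0 := by
        refine ge_of_tendsto hlimit ?_
        filter_upwards [eventually_ge_atTop 1] with p hp1
        have := hker r hr p hp1 x U
        rw [hDz, zero_add] at this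
        calc _ ≤ _ := this
          _ = _ := by ring
      have hom : om (D r) = 0 := by
        rw [← hz, om_zero]
      simp only [hBd]
      rw [hom, mul_zero]
      exact hle
    · obtain ⟨p, hp1, hpom⟩ := exists_p hp (h1 r)
      have h2 := hker r hr p hp1 x U
      have h3 : K₁ * p * Real.exp (r / 4) * (Dd C r x + Real.exp (-p))
          = K₁ * Real.exp (r / 4) * (p * (D r + Real.exp (-p))) := by
        simp only [hD]; ring
      rw [h3] at h2
      refine h2.trans ?_
      exact mul_le_mul_of_nonneg_left hpom (by positivity)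
  have hrec' : ∀ s s', s ≤ s' → s' ≤ T →
      D s' - D s ≤ ∫ r in s..s', (K₀ * K₁) * Real.exp (r / 4) * om (D r) := by
    intro s s' hss hsT
    have h2 := hrec s s' x hss Bd (hBdint s s') (fun r hr U => hkerb r (hr.2.le.trans hsT) U)
    have e : ∫ r in s..s', (K₀ * K₁) * Real.exp (r / 4) * om (D r) = K₀ * ∫ r in s..s', Bd r := by
      rw [← intervalIntegral.integral_const_mul]
      congr 1
      funext r
      simp only [hBd]
      ring
    rw [e]
    exact h2
  exact osgood (K := K₀ * K₁) (T₀ := T) (by positivity) hmono h0 h1 hlim hrec' T le_rfl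

end Vale.Agent.Lib.P161.Crit
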