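import Vale.Agent.Lib.P161.Crit.Defs

/-!
Tree combinatorics: paths, spheres, behind-sets, automorphisms. Statements fixed; add lemmas freely.
-/

open MeasureTheory Filter Topology Finset

noncomputable section
namespace Vale.Agent.Lib.P161.Crit

open scoped Classical
open Vale.Agent.Lib.P161

variable {V : Type} (C : CT V)

lemma tw_spec {x u : V} (h : u ≠ x) :
    C.G.Adj u (tw C x u) ∧ C.G.dist (tw C x u) x + 1 = C.G.dist u x := by
  unfold tw
  rw [dif_pos h]
  exact (toward_exists C.hT h).choose_spec

lemma tw_adj {x u : V} (h : u ≠ x) : C.G.Adj u (tw C x u) := (tw_spec C h).1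

lemma tw_dist {x u : V} (h : u ≠ x) : C.G.dist (tw C x u) x + 1 = C.G.dist u x := (tw_spec C h).2

/-- the unique neighbour closer to `x` -/
lemma tw_unique {x u c : V} (hc : C.G.Adj u c) (hd : C.G.dist c x + 1 = C.G.dist u x) :
    tw C x u = c := by
  have hne : u ≠ x := by
    rintro rfl
    simp at hd
  exact toward_unique C.hT (tw_adj C hne) hc (tw_dist C hne) hd

lemma tw_self (x : V) : tw C x x = x := by
  unfold tw
  rw [dif_neg (by simp)]

lemma twI_succ (x u : V) (k : ℕ) : twI C x (k + 1) u = tw C x (twI C x k u) := rfl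

lemma twI_dist (x u : V) {k : ℕ} (hk : k ≤ C.G.dist u x) :
    C.G.dist (twI C x k u) x + k = C.G.dist u x := by
  induction k with
  | zero => simp [twI]
  | succ k ih =>
    have h1 := ih (by omega)
    have hne : twI C x k u ≠ x := by
      intro h
      rw [h] at h1
      simp at h1
      omega
    have h2 := tw_dist C hne
    rw [twI_succ]
    omega

lemma twI_end (x u : V) : twI C x (C.G.dist u x) u = x := by
  have h := twI_dist C x u (le_refl _)
  have h0 : C.G.dist (twI C x (C.G.dist u x) u) x = 0 := by omega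
  exact (dist_eq_zero' C.hT).1 h0

lemma twI_adj (x u : V) {k : ℕ} (hk : k < C.G.dist u x) :
    C.G.Adj (twI C x k u) (twI C x (k + 1) u) := by
  have h1 := twI_dist C x u (le_of_lt hk)
  have hne : twI C x k u ≠ x := by
    intro h
    rw [h] at h1
    simp at h1
    omega
  rw [twI_succ]
  exact tw_adj C hne

include C in
/-- Neighbours: the graph is connected, countable -/
lemma countable_V : Countable V := countable_of_tree C.hT C.hnb

/-- the sphere of radius `n` around `x` -/
def sph (x : V) : ℕ → Finset V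
  | 0 => {x}
  | n + 1 => (sph x n).biUnion fun v => (C.nb v).filter fun c => C.G.dist c x = n + 1

lemma mem_sph {x u : V} {n : ℕ} : u ∈ sph C x n ↔ C.G.dist u x = n := by
  induction n generalizing u with
  | zero =>
    simp only [sph, Finset.mem_singleton]
    constructor
    · rintro rfl
      simp
    · intro h
      exact (dist_eq_zero' C.hT).1 h
  | succ n ih =>
    simp only [sph, Finset.mem_biUnion, Finset.mem_filter, C.hnb]
    constructor
    · rintro ⟨_, _, _, h⟩
      exact h
    · intro h
      have hne : u ≠ x := by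
        rintro rfl
        simp at h
      refine ⟨tw C x u, ih.2 ?_, (tw_adj C hne).symm, h⟩
      have := tw_dist C hne
      omega

/-- the neighbours of `p` farther from `x` -/
def Ch (x p : V) : Finset V := (C.nb p).filter fun c => C.G.dist c x = C.G.dist p x + 1

lemma mem_Ch {x p c : V} : c ∈ Ch C x p ↔ C.G.Adj p c ∧ C.G.dist c x = C.G.dist p x + 1 := by
  simp only [Ch, Finset.mem_filter, C.hnb]

lemma card_Ch_root (x : V) : (Ch C x x).card = C.d := by
  have : Ch C x x = C.nb x := by
    apply Finset.filter_true_of_mem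
    intro c hc
    have hadj := (C.hnb x c).1 hc
    have := dist_one_of_adj hadj
    rw [SimpleGraph.dist_comm] at this
    simp [this]
  rw [this, C.hcard]

lemma nb_eq_insert {x p : V} (h : p ≠ x) : C.nb p = insert (tw C x p) (Ch C x p) := by
  ext c
  simp only [Finset.mem_insert, mem_Ch, C.hnb]
  constructor
  · intro hc
    by_cases hcp : c = tw C x p
    · exact Or.inl hcp
    · refine Or.inr ⟨hc, ?_⟩
      exact away_of_ne_toward C.hT hc (tw_adj C h) (tw_dist C h) hcp
  · rintro (rfl | ⟨hc, -⟩)
    · exact tw_adj C h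
    · exact hc

lemma tw_not_mem_Ch {x p : V} (h : p ≠ x) : tw C x p ∉ Ch C x p := by
  rw [mem_Ch]
  rintro ⟨-, h2⟩
  have := tw_dist C h
  omega

lemma card_Ch {x p : V} (h : p ≠ x) : (Ch C x p).card + 1 = C.d := by
  have h1 := C.hcard p
  rw [nb_eq_insert C h, Finset.card_insert_of_notMem (tw_not_mem_Ch C h)] at h1
  exact h1

lemma card_Ch_eq {x x' p q : V} (h : C.G.dist p x = C.G.dist q x') :
    (Ch C x p).card = (Ch C x' q).card := by
  by_cases hp : p = x
  · subst hp
    have hq : q = x' := by
      rw [SimpleGraph.dist_self] at h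
      exact (dist_eq_zero' C.hT).1 h.symm
    subst hq
    rw [card_Ch_root, card_Ch_root]
  · have hq : q ≠ x' := by
      rintro rfl
      rw [SimpleGraph.dist_self] at h
      exact hp ((dist_eq_zero' C.hT).1 h)
    have h1 := card_Ch C hp
    have h2 := card_Ch C hq
    omega

lemma sph_succ_subset (x : V) (n : ℕ) :
    sph C x (n + 1) = (sph C x n).biUnion fun v => Ch C x v := by
  ext c
  simp only [sph, Finset.mem_biUnion, Finset.mem_filter, C.hnb, mem_Ch, mem_sph]
  constructor
  · rintro ⟨v, hv, ha, hd⟩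
    exact ⟨v, hv, ha, by omega⟩
  · rintro ⟨v, hv, ha, hd⟩
    exact ⟨v, hv, ha, by omega⟩

lemma card_sph_le (x : V) (n : ℕ) : ((sph C x n).card : ℝ) ≤ 2 * ((C.d : ℝ) - 1) ^ n := by
  have hd : (3 : ℝ) ≤ C.d := by exact_mod_cast C.hd
  have key : ∀ n, ((sph C x (n + 1)).card : ℝ) ≤ (C.d : ℝ) * ((C.d : ℝ) - 1) ^ n := by
    intro n
    induction n with
    | zero =>
      have : sph C x 1 = Ch C x x := by
        rw [sph_succ_subset]
        simp [sph]
      rw [this, card_Ch_root]
      simp
    | succ n ih =>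
      rw [sph_succ_subset]
      have h1 : ((sph C x (n + 1)).biUnion fun v => Ch C x v).card ≤
          ∑ v ∈ sph C x (n + 1), (Ch C x v).card := Finset.card_biUnion_le
      have h2 : ∑ v ∈ sph C x (n + 1), (Ch C x v).card ≤
          ∑ _v ∈ sph C x (n + 1), (C.d - 1) := by
        apply Finset.sum_le_sum
        intro v hv
        have hv' := (mem_sph C).1 hv
        have hne : v ≠ x := by
          rintro rfl
          simp at hv'
        have := card_Ch C hne
        omega
      have h3 : (((sph C x (n + 1)).biUnion fun v => Ch C x v).card : ℝ) ≤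
          ((sph C x (n + 1)).card : ℝ) * ((C.d : ℝ) - 1) := by
        have h4 := h1.trans h2
        rw [Finset.sum_const, smul_eq_mul] at h4
        have h5 : (((sph C x (n + 1)).biUnion fun v => Ch C x v).card : ℝ) ≤
            (((sph C x (n + 1)).card * (C.d - 1) : ℕ) : ℝ) := by exact_mod_cast h4
        have h6 : ((C.d - 1 : ℕ) : ℝ) = (C.d : ℝ) - 1 := by
          rw [Nat.cast_sub (by have := C.hd; omega)]
          simp
        rw [Nat.cast_mul, h6] at h5
        exact h5
      calc _ ≤ ((sph C x (n + 1)).card : ℝ) * ((C.d : ℝ) - 1) := h3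
        _ ≤ (C.d : ℝ) * ((C.d : ℝ) - 1) ^ n * ((C.d : ℝ) - 1) := by
            exact mul_le_mul_of_nonneg_right ih (by linarith)
        _ = (C.d : ℝ) * ((C.d : ℝ) - 1) ^ (n + 1) := by ring
  cases n with
  | zero => simp [sph]
  | succ n =>
    refine (key n).trans ?_
    have hp : 0 ≤ ((C.d : ℝ) - 1) ^ n := pow_nonneg (by linarith) _
    have : (C.d : ℝ) ≤ 2 * ((C.d : ℝ) - 1) := by linarith
    calc (C.d : ℝ) * ((C.d : ℝ) - 1) ^ n ≤ 2 * ((C.d : ℝ) - 1) * ((C.d : ℝ) - 1) ^ n :=
          mul_le_mul_of_nonneg_right this hp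
      _ = 2 * ((C.d : ℝ) - 1) ^ (n + 1) := by ring

/-- the vertices at distance `k` from `a` on the side of `a` away from `b` -/
def bh (a b : V) (k : ℕ) : Finset V :=
  Nat.rec (motive := fun _ => V → V → Finset V) (fun a _ => {a})
    (fun _ ih a b => ((C.nb a).erase b).biUnion fun c => ih c a) k a b

lemma bh_zero (a b : V) : bh C a b 0 = {a} := rfl

lemma bh_succ {a b : V} (k : ℕ) :
    bh C a b (k + 1) = ((C.nb a).erase b).biUnion fun c => bh C c a k := rfl

lemma mem_bh {a b x : V} (hab : C.G.Adj a b) {k : ℕ} :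
    x ∈ bh C a b k ↔ C.G.dist x a = k ∧ C.G.dist x b = k + 1 := by
  induction k generalizing a b with
  | zero =>
    rw [bh_zero, Finset.mem_singleton]
    constructor
    · rintro rfl
      simpa using dist_one_of_adj hab
    · rintro ⟨h, -⟩
      exact (dist_eq_zero' C.hT).1 h
  | succ k ih =>
    rw [bh_succ, Finset.mem_biUnion]
    constructor
    · rintro ⟨c, hc, hx⟩
      rw [Finset.mem_erase, C.hnb] at hc
      have hac := hc.2
      have hcb := hc.1
      have h1 := (ih hac.symm).1 hx
      refine ⟨h1.2, ?_⟩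
      -- `b` is a neighbour of `a` other than the neighbour `c` toward `x`
      have hd : C.G.dist c x + 1 = C.G.dist a x := by
        rw [dist_sym c x, dist_sym a x]
        omega
      have := away_of_ne_toward C.hT hab hac hd hcb.symm
      rw [dist_sym x b, dist_sym x a] at *
      omega
    · rintro ⟨h1, h2⟩
      have hne : a ≠ x := by
        rintro rfl
        simp at h1
      have hc := tw_adj C hne
      have hd := tw_dist C hne
      refine ⟨tw C x a, ?_, ?_⟩
      · rw [Finset.mem_erase, C.hnb]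
        refine ⟨?_, hc⟩
        intro h
        rw [h, SimpleGraph.dist_comm] at hd
        rw [dist_sym a x] at hd
        omega
      · refine (ih hc.symm).2 ⟨?_, h1⟩
        rw [SimpleGraph.dist_comm]
        rw [dist_sym a x] at hd
        omega

lemma card_bh {a b : V} (hab : C.G.Adj a b) (k : ℕ) :
    ((bh C a b k).card : ℝ) = ((C.d : ℝ) - 1) ^ k := by
  induction k generalizing a b with
  | zero => simp [bh_zero]
  | succ k ih =>
    rw [bh_succ, Finset.card_biUnion]
    · have h1 : ∀ c ∈ (C.nb a).erase b, ((bh C c a k).card : ℝ) = ((C.d : ℝ) - 1) ^ k := by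
        intro c hc
        rw [Finset.mem_erase, C.hnb] at hc
        exact ih hc.2.symm
      rw [Nat.cast_sum, Finset.sum_congr rfl h1, Finset.sum_const, Finset.card_erase_of_mem
        ((C.hnb a b).2 hab), C.hcard, nsmul_eq_mul]
      have h6 : ((C.d - 1 : ℕ) : ℝ) = (C.d : ℝ) - 1 := by
        rw [Nat.cast_sub (by have := C.hd; omega)]
        simp
      rw [h6]
      ring
    · intro c hc c' hc' hne
      rw [Finset.mem_coe, Finset.mem_erase, C.hnb] at hc hc'
      rw [Function.onFun, Finset.disjoint_left]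
      intro x hx hx'
      have h1 := (mem_bh C hc.2.symm).1 hx
      have h2 := (mem_bh C hc'.2.symm).1 hx'
      apply hne
      refine toward_unique C.hT (x := x) hc.2 hc'.2 ?_ ?_
      · rw [dist_sym c x, dist_sym a x]
        omega
      · rw [dist_sym c' x, dist_sym a x]
        omega

/-- a geodesic chain -/
def Chain (a : ℕ → V) : Prop := (∀ i, C.G.Adj (a i) (a (i + 1))) ∧ ∀ i, a (i + 2) ≠ a i

/-- distances along a chain, with the next point -/
lemma chain_dist_aux {a : ℕ → V} (h : Chain C a) (i j : ℕ) :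
    C.G.dist (a i) (a (i + j)) = j ∧ C.G.dist (a i) (a (i + j + 1)) = j + 1 := by
  induction j with
  | zero =>
    refine ⟨by simp, ?_⟩
    simpa using dist_one_of_adj (h.1 i)
  | succ j ih =>
    refine ⟨by rw [← add_assoc]; exact ih.2, ?_⟩
    have h1 := h.1 (i + j + 1)
    have h2 := h.1 (i + j)
    have h3 := h.2 (i + j)
    have h4 : C.G.dist (a (i + j)) (a i) + 1 = C.G.dist (a (i + j + 1)) (a i) := by
      rw [dist_sym _ (a i), dist_sym _ (a i)]
      omega
    have h5 := away_of_ne_toward C.hT (u := a (i + j + 1)) (x := a i)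
      (c := a (i + j + 1 + 1)) (p := a (i + j)) h1 h2.symm h4 h3
    rw [dist_sym _ (a i), dist_sym _ (a i)] at h5
    have e : i + (j + 1) + 1 = i + j + 1 + 1 := by ring
    rw [e, h5, ih.2]

/-- distances along a chain -/
lemma chain_dist {a : ℕ → V} (h : Chain C a) (i j : ℕ) : C.G.dist (a i) (a (i + j)) = j :=
  (chain_dist_aux C h i j).1

lemma exists_nb_ne (p q : V) : ∃ c, C.G.Adj q c ∧ c ≠ p := by
  have h : 1 < (C.nb q).card := by
    rw [C.hcard]
    have := C.hd
    omega
  obtain ⟨c, hc, hcp⟩ := Finset.exists_mem_ne h p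
  exact ⟨c, (C.hnb q c).1 hc, hcp⟩

/-- the next point of a non-backtracking extension -/
def nxt (s : V × V) : V := (exists_nb_ne C s.1 s.2).choose

lemma nxt_adj (s : V × V) : C.G.Adj s.2 (nxt C s) := (exists_nb_ne C s.1 s.2).choose_spec.1

lemma nxt_ne (s : V × V) : nxt C s ≠ s.1 := (exists_nb_ne C s.1 s.2).choose_spec.2

/-- non-backtracking extension -/
def ext (s : V × V) : ℕ → V × V
  | 0 => s
  | n + 1 => ((ext s n).2, nxt C (ext s n))

/-- every geodesic from `x` to `u` extends to a chain (needs `d ≥ 2`) -/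
theorem exists_chain (x u : V) : ∃ a : ℕ → V, Chain C a ∧ a 0 = x ∧
    ∀ i ≤ C.G.dist u x, a i = twI C x (C.G.dist u x - i) u := by
  set n := C.G.dist u x with hn
  obtain ⟨p₀, hp₀⟩ : ∃ p₀, n ≠ 0 → p₀ = twI C x 1 u := by
    by_cases h : n = 0
    · exact ⟨x, fun h' => absurd h h'⟩
    · exact ⟨twI C x 1 u, fun _ => rfl⟩
  let e := ext C (p₀, u)
  let a : ℕ → V := fun i => if i ≤ n then twI C x (n - i) u else (e (i - n)).2
  have hle : ∀ i, i ≤ n → a i = twI C x (n - i) u := fun i hi => if_pos hi
  have hgt : ∀ j, a (n + j) = (e j).2 := by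
    intro j
    cases j with
    | zero =>
      show a (n + 0) = u
      rw [Nat.add_zero, hle n le_rfl]
      simp [twI]
    | succ j =>
      show (if n + (j + 1) ≤ n then _ else (e (n + (j + 1) - n)).2) = _
      rw [if_neg (by omega)]
      congr 2
      omega
  have e1 : ∀ j, (e (j + 1)).1 = (e j).2 := fun j => rfl
  have e2 : ∀ j, (e (j + 1)).2 = nxt C (e j) := fun j => rfl
  refine ⟨a, ⟨?_, ?_⟩, ?_, hle⟩
  · intro i
    by_cases hi : i < n
    · rw [hle i (by omega), hle (i + 1) (by omega)]
      have := twI_adj C x u (k := n - (i + 1)) (by omega)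
      have e3 : n - (i + 1) + 1 = n - i := by omega
      rw [e3] at this
      exact this.symm
    · obtain ⟨j, rfl⟩ : ∃ j, i = n + j := ⟨i - n, by omega⟩
      rw [hgt, show n + j + 1 = n + (j + 1) by ring, hgt, e2]
      exact nxt_adj C _
  · intro i
    by_cases hi : i + 2 ≤ n
    · rw [hle _ hi, hle i (by omega)]
      intro h
      have h1 := twI_dist C x u (k := n - (i + 2)) (by omega)
      have h2 := twI_dist C x u (k := n - i) (by omega)
      rw [h] at h1
      omega
    · by_cases hi' : i + 1 = n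
      · have h0 : n ≠ 0 := by omega
        have h1 : a i = p₀ := by
          rw [hle i (by omega), hp₀ h0]
          congr 1
          omega
        have h2 : a (i + 2) = (e 1).2 := by
          rw [show i + 2 = n + 1 by omega, hgt]
        rw [h1, h2, e2]
        exact nxt_ne C (e 0)
      · obtain ⟨j, rfl⟩ : ∃ j, i = n + j := ⟨i - n, by omega⟩
        rw [hgt, show n + j + 2 = n + (j + 2) by ring, hgt, e2, ← e1]
        exact nxt_ne C (e (j + 1))
  · rw [hle 0 (by omega), Nat.sub_zero]
    exact twI_end C x u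

lemma dist_map (g : C.G ≃g C.G) (a b : V) : C.G.dist (g a) (g b) = C.G.dist a b := by
  have key : ∀ (g : C.G ≃g C.G) (a b : V), C.G.dist (g a) (g b) ≤ C.G.dist a b := by
    intro g a b
    obtain ⟨p, hp⟩ := C.hT.connected.exists_walk_length_eq_dist a b
    have := SimpleGraph.dist_le (p.map g.toEmbedding.toHom)
    rw [SimpleGraph.Walk.length_map, hp] at this
    exact this
  apply le_antisymm (key g a b)
  have := key g.symm (g a) (g b)
  simpa using this

lemma mem_nb_map (g : C.G ≃g C.G) {a c : V} : g c ∈ C.nb (g a) ↔ c ∈ C.nb a := by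
  rw [C.hnb, C.hnb]
  exact g.map_adj_iff

lemma tw_map (g : C.G ≃g C.G) (x u : V) : tw C (g x) (g u) = g (tw C x u) := by
  by_cases h : u = x
  · subst h
    rw [tw_self, tw_self]
  · apply tw_unique
    · exact g.map_adj_iff.2 (tw_adj C h)
    · rw [dist_map, dist_map]
      exact tw_dist C h

lemma twI_map (g : C.G ≃g C.G) (x u : V) (k : ℕ) :
    twI C (g x) k (g u) = g (twI C x k u) := by
  induction k with
  | zero => rfl
  | succ k ih => rw [twI_succ, twI_succ, ih, tw_map]

/-! ### Two-point homogeneity -/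

/-- A bijection between two finite sets of the same size with one prescribed value. -/
lemma exists_bij_with {S T : Finset V} (h : S.card = T.card) {s₀ t₀ : V} (hs : s₀ ∈ S)
    (ht : t₀ ∈ T) : ∃ e : V → V, Set.BijOn e S T ∧ e s₀ = t₀ := by
  let e₀ : S ≃ T := Finset.equivOfCardEq h
  let e₁ : S ≃ T := e₀.trans (Equiv.swap (e₀ ⟨s₀, hs⟩) ⟨t₀, ht⟩)
  let e : V → V := fun v => if hv : v ∈ S then (e₁ ⟨v, hv⟩ : V) else v
  have he : ∀ v (hv : v ∈ S), e v = e₁ ⟨v, hv⟩ := fun v hv => dif_pos hv
  refine ⟨e, ⟨?_, ?_, ?_⟩, ?_⟩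
  · intro v hv
    rw [he v hv]
    exact (e₁ ⟨v, hv⟩).2
  · intro v hv w hw hvw
    rw [he v hv, he w hw] at hvw
    have := e₁.injective (Subtype.ext hvw)
    exact congrArg Subtype.val this
  · intro t ht'
    obtain ⟨⟨v, hv⟩, hv'⟩ := e₁.surjective ⟨t, ht'⟩
    refine ⟨v, hv, ?_⟩
    rw [he v hv, hv']
  · rw [he s₀ hs]
    show ((Equiv.swap (e₀ ⟨s₀, hs⟩) ⟨t₀, ht⟩) (e₀ ⟨s₀, hs⟩) : V) = t₀
    rw [Equiv.swap_apply_left]

lemma exists_bij {S T : Finset V} (h : S.card = T.card) :
    ∃ e : V → V, Set.BijOn e S T := by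
  let e₀ : S ≃ T := Finset.equivOfCardEq h
  let e : V → V := fun v => if hv : v ∈ S then (e₀ ⟨v, hv⟩ : V) else v
  have he : ∀ v (hv : v ∈ S), e v = e₀ ⟨v, hv⟩ := fun v hv => dif_pos hv
  refine ⟨e, ?_, ?_, ?_⟩
  · intro v hv
    rw [he v hv]
    exact (e₀ ⟨v, hv⟩).2
  · intro v hv w hw hvw
    rw [he v hv, he w hw] at hvw
    have := e₀.injective (Subtype.ext hvw)
    exact congrArg Subtype.val this
  · intro t ht'
    obtain ⟨⟨v, hv⟩, hv'⟩ := e₀.surjective ⟨t, ht'⟩
    refine ⟨v, hv, ?_⟩
    rw [he v hv, hv']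

/-- The map built level by level from bijections `E p q : Ch x p → Ch x' q`. -/
def FmN (x x' : V) (E : V → V → V → V) : ℕ → V → V
  | 0, _ => x'
  | n + 1, v => if v = x then x' else E (tw C x v) (FmN x x' E n (tw C x v)) v

/-- The map built level by level. -/
def Fm (x x' : V) (E : V → V → V → V) (v : V) : V := FmN C x x' E (C.G.dist v x) v

lemma Fm_root (x x' : V) (E : V → V → V → V) : Fm C x x' E x = x' := by
  simp [Fm, FmN]

lemma Fm_ne (x x' : V) (E : V → V → V → V) {v : V} (h : v ≠ x) :
    Fm C x x' E v = E (tw C x v) (Fm C x x' E (tw C x v)) v := by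
  have hd := tw_dist C h
  unfold Fm
  rw [← hd]
  show (if v = x then x' else _) = _
  rw [if_neg h]

section Aut

variable {x x' : V} {E : V → V → V → V}
  (hE : ∀ p q, C.G.dist p x = C.G.dist q x' → Set.BijOn (E p q) (Ch C x p) (Ch C x' q))

include hE

lemma Fm_spec (n : ℕ) : ∀ v, C.G.dist v x = n → C.G.dist (Fm C x x' E v) x' = n ∧
    (v ≠ x → Fm C x x' E v ∈ Ch C x' (Fm C x x' E (tw C x v))) := by
  induction n with
  | zero =>
    intro v hv
    have hvx : v = x := (dist_eq_zero' C.hT).1 hv
    subst hvx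
    rw [Fm_root]
    simp
  | succ n ih =>
    intro v hv
    have hne : v ≠ x := by
      rintro rfl
      simp at hv
    have hd := tw_dist C hne
    have h1 := (ih (tw C x v) (by omega)).1
    have h2 : v ∈ Ch C x (tw C x v) := by
      rw [mem_Ch]
      exact ⟨(tw_adj C hne).symm, by omega⟩
    have h3 := (hE (tw C x v) (Fm C x x' E (tw C x v)) (by omega)).1 h2
    rw [← Fm_ne C x x' E hne] at h3
    have h4 := (mem_Ch C).1 (Finset.mem_coe.1 h3)
    exact ⟨by omega, fun _ => h3⟩

lemma Fm_dist (v : V) : C.G.dist (Fm C x x' E v) x' = C.G.dist v x :=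
  (Fm_spec C hE _ v rfl).1

lemma Fm_mem_Ch {v : V} (h : v ≠ x) : Fm C x x' E v ∈ Ch C x' (Fm C x x' E (tw C x v)) :=
  (Fm_spec C hE _ v rfl).2 h

lemma Fm_tw {v : V} (h : v ≠ x) : tw C x' (Fm C x x' E v) = Fm C x x' E (tw C x v) := by
  have := (mem_Ch C).1 (Fm_mem_Ch C hE h)
  exact tw_unique C this.1.symm this.2.symm

lemma Fm_inj_aux (n : ℕ) : ∀ a b, C.G.dist a x = n → Fm C x x' E a = Fm C x x' E b → a = b := by
  induction n with
  | zero =>
    intro a b ha hab
    have hax : a = x := (dist_eq_zero' C.hT).1 ha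
    subst hax
    have h1 := Fm_dist C hE b
    rw [← hab, Fm_root] at h1
    simp at h1
    exact ((dist_eq_zero' C.hT).1 h1.symm).symm
  | succ n ih =>
    intro a b ha hab
    have hne : a ≠ x := by
      rintro rfl
      simp at ha
    have hd : C.G.dist a x = C.G.dist b x := by
      rw [← Fm_dist C hE a, ← Fm_dist C hE b, hab]
    have hne' : b ≠ x := by
      rintro rfl
      rw [SimpleGraph.dist_self] at hd
      exact hne ((dist_eq_zero' C.hT).1 hd)
    have h1 := Fm_tw C hE hne
    have h2 := Fm_tw C hE hne'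
    rw [hab, h2] at h1
    have hda := tw_dist C hne
    have h3 : tw C x a = tw C x b := (ih _ _ (by omega) h1.symm)
    have h4 : a ∈ Ch C x (tw C x a) := by
      rw [mem_Ch]
      exact ⟨(tw_adj C hne).symm, by omega⟩
    have h5 : b ∈ Ch C x (tw C x a) := by
      rw [h3, mem_Ch]
      have hdb := tw_dist C hne'
      exact ⟨(tw_adj C hne').symm, by omega⟩
    have h6 := Fm_ne C x x' E hne
    have h7 := Fm_ne C x x' E hne'
    rw [← h3] at h7
    rw [h6, h7] at hab
    have hdq := Fm_dist C hE (tw C x a)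
    exact (hE (tw C x a) (Fm C x x' E (tw C x a)) hdq.symm).2.1 h4 h5 hab

lemma Fm_inj : Function.Injective (Fm C x x' E) :=
  fun a b hab => Fm_inj_aux C hE _ a b rfl hab

lemma Fm_surj_aux (n : ℕ) : ∀ q, C.G.dist q x' = n → ∃ v, Fm C x x' E v = q := by
  induction n with
  | zero =>
    intro q hq
    have hqx : q = x' := (dist_eq_zero' C.hT).1 hq
    exact ⟨x, by rw [Fm_root, hqx]⟩
  | succ n ih =>
    intro q hq
    have hne : q ≠ x' := by
      rintro rfl
      simp at hq
    have hd := tw_dist C hne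
    obtain ⟨p, hp⟩ := ih (tw C x' q) (by omega)
    have hq2 : q ∈ Ch C x' (Fm C x x' E p) := by
      rw [hp, mem_Ch]
      exact ⟨(tw_adj C hne).symm, by omega⟩
    obtain ⟨c, hc, hce⟩ := (hE p (Fm C x x' E p) (Fm_dist C hE p).symm).2.2 hq2
    have hc' := (mem_Ch C).1 (Finset.mem_coe.1 hc)
    have hcx : c ≠ x := by
      rintro rfl
      simp at hc'
    have hp' : tw C x c = p := tw_unique C hc'.1.symm hc'.2.symm
    refine ⟨c, ?_⟩
    rw [Fm_ne C x x' E hcx, hp', hce]

lemma Fm_surj : Function.Surjective (Fm C x x' E) :=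
  fun q => Fm_surj_aux C hE _ q rfl

lemma Fm_adj {a b : V} (hab : C.G.Adj a b) : C.G.Adj (Fm C x x' E a) (Fm C x x' E b) := by
  -- one of the two is the parent of the other
  have key : ∀ a b, C.G.Adj a b → C.G.dist b x = C.G.dist a x + 1 →
      C.G.Adj (Fm C x x' E a) (Fm C x x' E b) := by
    intro a b hab hd
    have hne : b ≠ x := by
      rintro rfl
      simp at hd
    have hp : tw C x b = a := tw_unique C hab.symm hd.symm
    have := (mem_Ch C).1 (Fm_mem_Ch C hE hne)
    rw [hp] at this
    exact this.1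
  rcases dist_adj C.hT x hab with h | h
  · rw [dist_sym x a, dist_sym x b] at h
    exact (key b a hab.symm h).symm
  · rw [dist_sym x a, dist_sym x b] at h
    exact key a b hab h

lemma Fm_adj_iff {a b : V} : C.G.Adj (Fm C x x' E a) (Fm C x x' E b) ↔ C.G.Adj a b := by
  refine ⟨fun h => ?_, Fm_adj C hE⟩
  have key : ∀ a b, C.G.Adj (Fm C x x' E a) (Fm C x x' E b) →
      C.G.dist (Fm C x x' E b) x' = C.G.dist (Fm C x x' E a) x' + 1 → C.G.Adj a b := by
    intro a b h hd
    have hne : b ≠ x := by
      rintro rfl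
      rw [Fm_root] at hd
      simp at hd
    have h1 : tw C x' (Fm C x x' E b) = Fm C x x' E a := tw_unique C h.symm hd.symm
    rw [Fm_tw C hE hne] at h1
    have h2 := Fm_inj C hE h1
    rw [← h2]
    exact (tw_adj C hne).symm
  rcases dist_adj C.hT x' h with h' | h'
  · rw [dist_sym x' _, dist_sym x' _] at h'
    exact (key b a h.symm h').symm
  · rw [dist_sym x' _, dist_sym x' _] at h'
    exact key a b h h'

end Aut

/-- two-point homogeneity: any two pairs of equal distance are conjugate by an automorphism -/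
theorem exists_aut {x u x' u' : V} (h : C.G.dist x u = C.G.dist x' u') :
    ∃ g : C.G ≃g C.G, g x = x' ∧ g u = u' := by
  have hn : C.G.dist u x = C.G.dist u' x' := by
    rw [dist_sym u x, h, dist_sym x' u']
  set n := C.G.dist u x with hndef
  let a : ℕ → V := fun i => twI C x (n - i) u
  let a' : ℕ → V := fun i => twI C x' (n - i) u'
  have hda : ∀ i ≤ n, C.G.dist (a i) x = i := by
    intro i hi
    have := twI_dist C x u (k := n - i) (by omega)
    show C.G.dist (twI C x (n - i) u) x = i
    omega
  have hda' : ∀ i ≤ n, C.G.dist (a' i) x' = i := by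
    intro i hi
    have := twI_dist C x' u' (k := n - i) (by omega)
    show C.G.dist (twI C x' (n - i) u') x' = i
    omega
  have hadj : ∀ i < n, C.G.Adj (a i) (a (i + 1)) := by
    intro i hi
    have := twI_adj C x u (k := n - (i + 1)) (by omega)
    have e3 : n - (i + 1) + 1 = n - i := by omega
    rw [e3] at this
    exact this.symm
  have hadj' : ∀ i < n, C.G.Adj (a' i) (a' (i + 1)) := by
    intro i hi
    have := twI_adj C x' u' (k := n - (i + 1)) (by omega)
    have e3 : n - (i + 1) + 1 = n - i := by omega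
    rw [e3] at this
    exact this.symm
  have hch : ∀ i < n, a (i + 1) ∈ Ch C x (a i) := by
    intro i hi
    rw [mem_Ch]
    exact ⟨hadj i hi, by rw [hda _ (by omega), hda _ (by omega)]⟩
  have hch' : ∀ i < n, a' (i + 1) ∈ Ch C x' (a' i) := by
    intro i hi
    rw [mem_Ch]
    exact ⟨hadj' i hi, by rw [hda' _ (by omega), hda' _ (by omega)]⟩
  -- the bijections, with the prescribed values along the geodesic
  have hbij : ∀ p q, ∃ e : V → V, C.G.dist p x = C.G.dist q x' →
      (Set.BijOn e (Ch C x p) (Ch C x' q) ∧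
        ∀ i < n, p = a i → q = a' i → e (a (i + 1)) = a' (i + 1)) := by
    intro p q
    by_cases hc : C.G.dist p x = C.G.dist q x'
    · by_cases hi : ∃ i < n, p = a i ∧ q = a' i
      · obtain ⟨i, hi, rfl, rfl⟩ := hi
        obtain ⟨e, he, he0⟩ := exists_bij_with (card_Ch_eq C hc) (hch i hi) (hch' i hi)
        refine ⟨e, fun _ => ⟨he, ?_⟩⟩
        intro j hj hj1 _
        have : i = j := by
          have h1 := hda i (by omega)
          have h2 := hda j (by omega)
          rw [hj1] at h1
          omega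
        subst this
        exact he0
      · obtain ⟨e, he⟩ := exists_bij (card_Ch_eq C hc)
        refine ⟨e, fun _ => ⟨he, ?_⟩⟩
        intro j hj hj1 hj2
        exact absurd ⟨j, hj, hj1, hj2⟩ hi
    · exact ⟨id, fun h' => absurd h' hc⟩
  choose E hE using hbij
  have hE1 : ∀ p q, C.G.dist p x = C.G.dist q x' → Set.BijOn (E p q) (Ch C x p) (Ch C x' q) :=
    fun p q h' => (hE p q h').1
  have hpath : ∀ i ≤ n, Fm C x x' E (a i) = a' i := by
    intro i
    induction i with
    | zero =>
      intro _
      have h1 : a 0 = x := by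
        show twI C x (n - 0) u = x
        rw [Nat.sub_zero]
        exact twI_end C x u
      have h2 : a' 0 = x' := by
        show twI C x' (n - 0) u' = x'
        rw [Nat.sub_zero, hn]
        exact twI_end C x' u'
      rw [h1, h2, Fm_root]
    | succ i ih =>
      intro hi
      have hne : a (i + 1) ≠ x := by
        intro h'
        have := hda (i + 1) hi
        rw [h'] at this
        simp at this
      have htw : tw C x (a (i + 1)) = a i :=
        tw_unique C (hadj i (by omega)).symm (by rw [hda _ hi, hda _ (by omega)])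
      rw [Fm_ne C x x' E hne, htw, ih (by omega)]
      exact (hE (a i) (a' i) (by rw [hda _ (by omega), hda' _ (by omega)])).2 i (by omega) rfl rfl
  have hb : Function.Bijective (Fm C x x' E) := ⟨Fm_inj C hE1, Fm_surj C hE1⟩
  refine ⟨⟨Equiv.ofBijective _ hb, ?_⟩, ?_, ?_⟩
  · intro p q
    exact Fm_adj_iff C hE1
  · show Fm C x x' E x = x'
    exact Fm_root C x x' E
  · show Fm C x x' E u = u'
    have := hpath n le_rfl
    have h1 : a n = u := by
      show twI C x (n - n) u = u
      simp [twI]
    have h2 : a' n = u' := by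
      show twI C x' (n - n) u' = u'
      simp [twI]
    rw [h1, h2] at this
    exact this

end Vale.Agent.Lib.P161.Crit
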